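import Mathlib

/-!
Row 189.  Three-cycles: "pre-conditions" (maps from three-cycles to a group satisfying the
conjugation relations), the Schur multiplier element `zz`, and presentations of alternating and
symmetric groups by conjugation relations.
-/

set_option autoImplicit false

namespace Crest.Agent.R189

open Equiv
open scoped commutatorElement

section
variable {α : Type} [DecidableEq α] {Γ : Type} [Group Γ]

/-- the three-cycle `p ↦ q ↦ r ↦ p` -/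
def cyc (p q r : α) : Perm α := swap p r * swap p q

/-- pairwise distinct triple -/
def D3 (p q r : α) : Prop := p ≠ q ∧ p ≠ r ∧ q ≠ r

/-- pairwise distinct quadruple -/
def D4 (p q r t : α) : Prop := D3 p q r ∧ p ≠ t ∧ q ≠ t ∧ r ≠ t

/-- pairwise distinct quintuple -/
def D5 (p q r s t : α) : Prop := D4 p q r s ∧ p ≠ t ∧ q ≠ t ∧ r ≠ t ∧ s ≠ t

lemma cyc_apply_fst {p q r : α} (h : D3 p q r) : cyc p q r p = q := by 
  obtain ⟨h1, h2, h3⟩ := h
  rw [cyc, Perm.mul_apply, swap_apply_left, swap_apply_of_ne_of_ne h1.symm h3]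
lemma cyc_apply_snd {p q r : α} (h : D3 p q r) : cyc p q r q = r := by 
  rw [cyc, Perm.mul_apply, swap_apply_right, swap_apply_left]
lemma cyc_apply_thd {p q r : α} (h : D3 p q r) : cyc p q r r = p := by 
  obtain ⟨h1, h2, h3⟩ := h
  rw [cyc, Perm.mul_apply, swap_apply_of_ne_of_ne h2.symm h3.symm, swap_apply_right]
lemma cyc_apply_of_ne {p q r x : α} (hp : x ≠ p) (hq : x ≠ q) (hr : x ≠ r) : cyc p q r x = x := by
  rw [cyc, Perm.mul_apply, swap_apply_of_ne_of_ne hp hq, swap_apply_of_ne_of_ne hp hr]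
lemma cyc_rot {p q r : α} (h : D3 p q r) : cyc p q r = cyc q r p := by 
  obtain ⟨h1, h2, h3⟩ := h
  ext x
  simp only [cyc, Perm.mul_apply, swap_apply_def]
  grind
lemma cyc_inv {p q r : α} (h : D3 p q r) : cyc p r q = (cyc p q r)⁻¹ := by 
  simp only [cyc, mul_inv_rev, swap_inv]
lemma cyc_cube {p q r : α} (h : D3 p q r) : cyc p q r ^ 3 = 1 := by 
  obtain ⟨h1, h2, h3⟩ := h
  ext x
  simp only [cyc, pow_succ, pow_zero, one_mul, Perm.mul_apply, swap_apply_def, Perm.one_apply]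
  grind
lemma cyc_conj (π : Perm α) (p q r : α) : π * cyc p q r * π⁻¹ = cyc (π p) (π q) (π r) := by 
  simp only [cyc, swap_apply_apply]
  group
lemma cyc_prod {p q r t : α} (h : D4 p q r t) : cyc q r t * cyc p t r = cyc p q r := by 
  obtain ⟨⟨h1, h2, h3⟩, h4, h5, h6⟩ := h
  ext x
  simp only [cyc, Perm.mul_apply, swap_apply_def]
  grind
lemma cyc_comm {p q r s t : α} (h : D5 p q r s t) : ⁅cyc p q s, cyc p r t⁆ = cyc p q r := by 
  obtain ⟨⟨⟨h1, h2, h3⟩, h4, h5, h6⟩, h7, h8, h9, h10⟩ := h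
  have d : D3 p q s := ⟨h1, h4, h5⟩
  rw [commutatorElement_def, cyc_conj, cyc_apply_fst d,
    cyc_apply_of_ne h2.symm h3.symm h6, cyc_apply_of_ne h7.symm h8.symm h10.symm,
    ← cyc_inv ⟨h2, h7, h9⟩]
  exact cyc_prod ⟨⟨h1, h2, h3⟩, h7, h8, h9⟩
lemma cyc_dbl {p q p' q' : α} (h : D4 p q p' q') :
    cyc p p' q * cyc p p' q' = swap p q * swap p' q' := by 
  obtain ⟨⟨h1, h2, h3⟩, h4, h5, h6⟩ := h
  ext x
  simp only [cyc, Perm.mul_apply, swap_apply_def]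
  grind
lemma D3.map {β : Type} {f : α → β} (hf : Function.Injective f) {p q r : α} (h : D3 p q r) :
    D3 (f p) (f q) (f r) := by 
  exact ⟨hf.ne h.1, hf.ne h.2.1, hf.ne h.2.2⟩

/-- conjugation relations for lifts of three-cycles supported in `F` -/
structure PreOn (F : Set α) (φ : α → α → α → Γ) : Prop where
  rot : ∀ p ∈ F, ∀ q ∈ F, ∀ r ∈ F, D3 p q r → φ p q r = φ q r p
  inv : ∀ p ∈ F, ∀ q ∈ F, ∀ r ∈ F, D3 p q r → φ p r q = (φ p q r)⁻¹
  cube : ∀ p ∈ F, ∀ q ∈ F, ∀ r ∈ F, D3 p q r → φ p q r ^ 3 = 1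
  conj : ∀ p ∈ F, ∀ q ∈ F, ∀ r ∈ F, ∀ i ∈ F, ∀ j ∈ F, ∀ k ∈ F, D3 p q r → D3 i j k →
    φ p q r * φ i j k * (φ p q r)⁻¹ = φ (cyc p q r i) (cyc p q r j) (cyc p q r k)

/-- the product relation which kills the Schur multiplier -/
def ProdOn (F : Set α) (φ : α → α → α → Γ) : Prop :=
  ∀ p ∈ F, ∀ q ∈ F, ∀ r ∈ F, ∀ t ∈ F, D4 p q r t → φ q r t * φ p t r = φ p q r

/-- conjugation relations on the whole type -/
structure Pre (φ : α → α → α → Γ) : Prop where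
  rot : ∀ p q r, D3 p q r → φ p q r = φ q r p
  inv : ∀ p q r, D3 p q r → φ p r q = (φ p q r)⁻¹
  cube : ∀ p q r, D3 p q r → φ p q r ^ 3 = 1
  conj : ∀ p q r i j k, D3 p q r → D3 i j k →
    φ p q r * φ i j k * (φ p q r)⁻¹ = φ (cyc p q r i) (cyc p q r j) (cyc p q r k)

lemma Pre.preOn {φ : α → α → α → Γ} (h : Pre φ) (F : Set α) : PreOn F φ :=
  ⟨fun p _ q _ r _ => h.rot p q r, fun p _ q _ r _ => h.inv p q r, fun p _ q _ r _ => h.cube p q r,
    fun p _ q _ r _ i _ j _ k _ => h.conj p q r i j k⟩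

lemma Pre.map {Γ' : Type} [Group Γ'] {φ : α → α → α → Γ} (h : Pre φ) (f : Γ →* Γ') :
    Pre (fun p q r => f (φ p q r)) := by 
  refine ⟨fun p q r d => ?_, fun p q r d => ?_, fun p q r d => ?_, fun p q r i j k d d' => ?_⟩
  · rw [h.rot p q r d]
  · rw [h.inv p q r d, map_inv]
  · rw [← map_pow, h.cube p q r d, map_one]
  · rw [← map_inv, ← map_mul, ← map_mul, h.conj p q r i j k d d']

/-- the defect of the product relation -/
def zz (φ : α → α → α → Γ) (p q r t : α) : Γ := φ q r t * φ p t r * (φ p q r)⁻¹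

/-- `zz` commutes with all values: its conjugation action on triples is `cyc q r t * cyc p t r *
(cyc p q r)⁻¹ = 1`. -/
lemma Pre.zz_comm {φ : α → α → α → Γ} (h : Pre φ) {p q r t : α} (hd : D4 p q r t) {i j k : α}
    (hi : D3 i j k) : Commute (zz φ p q r t) (φ i j k) := by 
  obtain ⟨⟨h1, h2, h3⟩, h4, h5, h6⟩ := hd
  have d1 : D3 p q r := ⟨h1, h2, h3⟩
  have d2 : D3 q r t := ⟨h3, h5, h6⟩
  have d3 : D3 p t r := ⟨h4, h2, h6.symm⟩
  have d4 : D3 p r q := ⟨h2, h1, h3.symm⟩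
  have e1 := h.conj p r q i j k d4 hi
  have hi1 := hi.map (cyc p r q).injective
  have e2 := h.conj p t r _ _ _ d3 hi1
  have hi2 := hi1.map (cyc p t r).injective
  have e3 := h.conj q r t _ _ _ d2 hi2
  have e4 : ∀ x, cyc q r t (cyc p t r (cyc p r q x)) = x := by
    intro x
    rw [← Perm.mul_apply, cyc_prod ⟨⟨h1, h2, h3⟩, h4, h5, h6⟩, cyc_inv d1]
    simp
  rw [e4, e4, e4, ← e2, ← e1, h.inv p q r d1] at e3
  rw [Commute, SemiconjBy, zz]
  conv_rhs => rw [← e3]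
  group

/-- Plan: `x = φ q r t`, `y = φ p t r` satisfy `x y x⁻¹ = φ p q t = y⁻¹ x y` (braid relation),
`(φ p q r)⁻¹ = φ p r q = x⁻¹ y x`, so `zz = (x y)^3 = (x y⁻¹)^2`; `Δ = x y x` conjugates `x y⁻¹`
to its inverse and `zz` is central in `⟨x, y⟩`. -/
lemma Pre.zz_sq {φ : α → α → α → Γ} (h : Pre φ) {p q r t : α} (hd : D4 p q r t) :
    zz φ p q r t ^ 2 = 1 := by 
  have c1 := h.zz_comm hd (i := q) (j := r) (k := t) ⟨hd.1.2.2, hd.2.2.1, hd.2.2.2⟩
  have c2 := h.zz_comm hd (i := p) (j := t) (k := r) ⟨hd.2.1, hd.1.2.1, hd.2.2.2.symm⟩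
  obtain ⟨⟨h1, h2, h3⟩, h4, h5, h6⟩ := hd
  have d1 : D3 p q r := ⟨h1, h2, h3⟩
  have d2 : D3 q r t := ⟨h3, h5, h6⟩
  have d3 : D3 p t r := ⟨h4, h2, h6.symm⟩
  have d5 : D3 p r t := ⟨h2, h4, h6⟩
  have d6 : D3 q t r := ⟨h5, h3, h6.symm⟩
  have d7 : D3 p q t := ⟨h1, h4, h5⟩
  have e1 := h.conj q r t p t r d2 d3
  rw [cyc_apply_of_ne h1 h2 h4, cyc_apply_thd d2, cyc_apply_snd d2] at e1
  have e2 := h.conj p r t q r t d5 d2
  rw [cyc_apply_of_ne h1.symm h3 h5, cyc_apply_snd d5, cyc_apply_thd d5, ← h.rot p q t d7,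
    h.inv p t r d3, ← e1] at e2
  have e3 := h.conj q t r p t r d6 d3
  rw [cyc_apply_of_ne h1 h4 h2, cyc_apply_snd d6, cyc_apply_thd d6, h.inv p q r d1,
    h.inv q r t d2] at e3
  have c3 := h.cube p t r d3
  have ez : zz φ p q r t = φ q r t * φ p t r * (φ p q r)⁻¹ := rfl
  rw [← e3] at ez
  generalize zz φ p q r t = z at *
  generalize φ q r t = x at *
  generalize φ p t r = y at *
  have hy : y * y = y⁻¹ := by
    rw [eq_inv_iff_mul_eq_one, ← c3, pow_succ, pow_two]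
  have ez2 : z = (y⁻¹ * x) * (y⁻¹ * x) := by
    calc z = (x * y * x⁻¹) * y * x := by rw [ez]; group
      _ = y⁻¹ * x * (y * y) * x := by rw [← e2]; group
      _ = _ := by rw [hy]; group
  have br : y * x * y = x * y * x := by
    calc y * x * y = y * (x * y * x⁻¹) * x := by group
      _ = y * (y⁻¹ * x * y⁻¹⁻¹) * x := by rw [e2]
      _ = _ := by group
  have hx' : (x * y * x) * x = y * (x * y * x) := by
    calc (x * y * x) * x = (y * x * y) * x := by rw [br]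
      _ = _ := by group
  have hy' : (x * y * x) * y = x * (x * y * x) := by
    calc (x * y * x) * y = x * (y * x * y) := by group
      _ = _ := by rw [br]
  have cD : Commute z (x * y * x) := (c1.mul_right c2).mul_right c1
  generalize x * y * x = D at *
  have a1 : D * x * D⁻¹ = y := by rw [hx']; group
  have a2 : D * y * D⁻¹ = x := by rw [hy']; group
  have a3 : D * z * D⁻¹ = z⁻¹ := by
    calc D * z * D⁻¹ = (D * y * D⁻¹)⁻¹ * (D * x * D⁻¹) * ((D * y * D⁻¹)⁻¹ * (D * x * D⁻¹)) := by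
          rw [ez2]; group
      _ = x⁻¹ * y * (x⁻¹ * y) := by rw [a1, a2]
      _ = z⁻¹ := by rw [ez2]; group
  rw [← cD.eq, mul_inv_cancel_right] at a3
  rw [pow_two]
  exact mul_eq_one_iff_eq_inv.2 a3

lemma Pre.comm_eq {φ : α → α → α → Γ} (h : Pre φ) {p q r s t : α} (hd : D5 p q r s t) :
    ⁅φ p q s, φ p r t⁆ = zz φ p q r t * φ p q r := by 
  obtain ⟨⟨⟨h1, h2, h3⟩, h4, h5, h6⟩, h7, h8, h9, h10⟩ := hd
  have d : D3 p q s := ⟨h1, h4, h5⟩
  rw [commutatorElement_def, h.conj p q s p r t d ⟨h2, h7, h9⟩, cyc_apply_fst d,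
    cyc_apply_of_ne h2.symm h3.symm h6, cyc_apply_of_ne h7.symm h8.symm h10.symm,
    ← h.inv p r t ⟨h2, h7, h9⟩, zz, inv_mul_cancel_right]

lemma Pre.comm_pow {φ : α → α → α → Γ} (h : Pre φ) {p q r s t : α} (hd : D5 p q r s t) :
    ⁅φ p q s, φ p r t⁆ ^ 4 = φ p q r := by 
  have d4 : D4 p q r t := ⟨hd.1.1, hd.2.1, hd.2.2.1, hd.2.2.2.1⟩
  rw [h.comm_eq hd, (h.zz_comm d4 hd.1.1).mul_pow, show 4 = 2 * 2 from rfl, pow_mul, h.zz_sq d4,
    one_pow, one_mul, show 2 * 2 = 3 + 1 from rfl, pow_succ, h.cube p q r hd.1.1, one_mul]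

/-- fresh elements -/
lemma exists_fresh [Fintype α] (s : Finset α) (h : s.card < Fintype.card α) : ∃ a, a ∉ s := by 
  by_contra hn
  push Not at hn
  have : s = Finset.univ := Finset.eq_univ_iff_forall.2 hn
  rw [this, Finset.card_univ] at h
  exact lt_irrefl _ h

lemma Pre.zz_conj {φ : α → α → α → Γ} (h : Pre φ) {p q r t i j k : α} (hd : D4 p q r t)
    (hi : D3 i j k) :
    zz φ p q r t = zz φ (cyc i j k p) (cyc i j k q) (cyc i j k r) (cyc i j k t) := by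
  have c := h.zz_comm hd hi
  obtain ⟨⟨h1, h2, h3⟩, h4, h5, h6⟩ := hd
  have e : zz φ p q r t = φ i j k * zz φ p q r t * (φ i j k)⁻¹ := by
    rw [← c.eq, mul_inv_cancel_right]
  rw [e, zz, zz, ← h.conj i j k q r t hi ⟨h3, h5, h6⟩, ← h.conj i j k p t r hi ⟨h4, h2, h6.symm⟩,
    ← h.conj i j k p q r hi ⟨h1, h2, h3⟩]
  group

lemma Pre.zz_move [Fintype α] (hc : 14 ≤ Fintype.card α) {φ : α → α → α → Γ} (h : Pre φ)
    {p q r t a b c d : α} (hd : D4 p q r t) (hd' : D4 a b c d)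
    (ha : a ∉ ({p, q, r, t} : Finset α)) (hb : b ∉ ({p, q, r, t} : Finset α))
    (hc' : c ∉ ({p, q, r, t} : Finset α)) (hd2 : d ∉ ({p, q, r, t} : Finset α)) :
    zz φ p q r t = zz φ a b c d := by
  obtain ⟨w, hw⟩ := exists_fresh ({p, q, r, t, a, b, c, d} : Finset α) (by
    refine lt_of_le_of_lt (List.toFinset_card_le [p, q, r, t, a, b, c, d] |>.trans' (by simp)) ?_
    simp only [List.length_cons, List.length_nil]
    omega)
  simp only [Finset.mem_insert, Finset.mem_singleton, not_or] at ha hb hc' hd2 hw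
  obtain ⟨⟨h1, h2, h3⟩, h4, h5, h6⟩ := hd
  obtain ⟨⟨g1, g2, g3⟩, g4, g5, g6⟩ := hd'
  obtain ⟨a1, a2, a3, a4⟩ := ha
  obtain ⟨b1, b2, b3, b4⟩ := hb
  obtain ⟨c1, c2, c3, c4⟩ := hc'
  obtain ⟨d1, d2, d3, d4⟩ := hd2
  obtain ⟨w1, w2, w3, w4, w5, w6, w7, w8⟩ := hw
  have k1 : D3 p a w := ⟨Ne.symm a1, Ne.symm w1, Ne.symm w5⟩
  have k2 : D3 q b w := ⟨Ne.symm b2, Ne.symm w2, Ne.symm w6⟩
  have k3 : D3 r c w := ⟨Ne.symm c3, Ne.symm w3, Ne.symm w7⟩
  have k4 : D3 t d w := ⟨Ne.symm d4, Ne.symm w4, Ne.symm w8⟩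
  have e1 := h.zz_conj (p := p) (q := q) (r := r) (t := t) ⟨⟨h1, h2, h3⟩, h4, h5, h6⟩ k1
  rw [cyc_apply_fst k1, cyc_apply_of_ne (Ne.symm h1) (Ne.symm a2) (Ne.symm w2),
    cyc_apply_of_ne (Ne.symm h2) (Ne.symm a3) (Ne.symm w3),
    cyc_apply_of_ne (Ne.symm h4) (Ne.symm a4) (Ne.symm w4)] at e1
  have e2 := h.zz_conj (p := a) (q := q) (r := r) (t := t) ⟨⟨a2, a3, h3⟩, a4, h5, h6⟩ k2
  rw [cyc_apply_fst k2, cyc_apply_of_ne a2 g1 (Ne.symm w5),
    cyc_apply_of_ne (Ne.symm h3) (Ne.symm b3) (Ne.symm w3),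
    cyc_apply_of_ne (Ne.symm h5) (Ne.symm b4) (Ne.symm w4)] at e2
  have e3 := h.zz_conj (p := a) (q := b) (r := r) (t := t) ⟨⟨g1, a3, b3⟩, a4, b4, h6⟩ k3
  rw [cyc_apply_fst k3, cyc_apply_of_ne a3 g2 (Ne.symm w5),
    cyc_apply_of_ne b3 g3 (Ne.symm w6),
    cyc_apply_of_ne (Ne.symm h6) (Ne.symm c4) (Ne.symm w4)] at e3
  have e4 := h.zz_conj (p := a) (q := b) (r := c) (t := t) ⟨⟨g1, g2, g3⟩, a4, b4, c4⟩ k4
  rw [cyc_apply_fst k4, cyc_apply_of_ne a4 g4 (Ne.symm w5),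
    cyc_apply_of_ne b4 g5 (Ne.symm w6),
    cyc_apply_of_ne c4 g6 (Ne.symm w7)] at e4
  rw [e1, e2, e3, e4]

lemma tri_fresh_list [Fintype α] (l : List α) (h : l.length < Fintype.card α) : ∃ a, a ∉ l := by
  obtain ⟨a, ha⟩ := exists_fresh l.toFinset (lt_of_le_of_lt (List.toFinset_card_le l) h)
  exact ⟨a, by simpa using ha⟩

/-- All `zz` agree (change one point at a time by conjugating with `φ p p' w`, `w` fresh; go through
a quadruple disjoint from both). -/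
lemma Pre.zz_eq [Fintype α] (hc : 14 ≤ Fintype.card α) {φ : α → α → α → Γ} (h : Pre φ)
    {p q r t p' q' r' t' : α} (hd : D4 p q r t) (hd' : D4 p' q' r' t') :
    zz φ p q r t = zz φ p' q' r' t' := by 
  obtain ⟨a, ha⟩ := tri_fresh_list [p, q, r, t, p', q', r', t'] (by simp; omega)
  obtain ⟨b, hb⟩ := tri_fresh_list [p, q, r, t, p', q', r', t', a] (by simp; omega)
  obtain ⟨c, hc1⟩ := tri_fresh_list [p, q, r, t, p', q', r', t', a, b] (by simp; omega)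
  obtain ⟨d, hd1⟩ := tri_fresh_list [p, q, r, t, p', q', r', t', a, b, c] (by simp; omega)
  simp only [List.mem_cons, List.not_mem_nil, or_false, not_or] at ha hb hc1 hd1
  have D : D4 a b c d := by
    refine ⟨⟨?_, ?_, ?_⟩, ?_, ?_, ?_⟩ <;> (apply Ne.symm; tauto)
  rw [h.zz_move hc hd D (by simp; tauto) (by simp; tauto) (by simp; tauto) (by simp; tauto),
    h.zz_move hc hd' D (by simp; tauto) (by simp; tauto) (by simp; tauto) (by simp; tauto)]

/-- conjugation relations for lifts of transpositions -/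
structure SPreOn (F : Set α) (ψ : α → α → Γ) : Prop where
  symm : ∀ p ∈ F, ∀ q ∈ F, p ≠ q → ψ p q = ψ q p
  sq : ∀ p ∈ F, ∀ q ∈ F, p ≠ q → ψ p q * ψ p q = 1
  conj : ∀ p ∈ F, ∀ q ∈ F, ∀ i ∈ F, ∀ j ∈ F, p ≠ q → i ≠ j →
    ψ p q * ψ i j * (ψ p q)⁻¹ = ψ (swap p q i) (swap p q j)

end

end Crest.Agent.R189
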