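import Crest.Agent.R189.AmenC

/-!
Row 189.  Random vertical cuts for the full group.
-/

set_option autoImplicit false

namespace Crest.Agent.R189

open Equiv

variable {S : Wang}

/-- the data of `HZ1` -/
structure Z1 (S : Wang) where
  Pi : ℕ
  N : ℕ
  per : ℕ
  W : ℕ
  h : ℕ
  φ1 : Phase S χ1 Pi
  φ2 : Phase S χ2 N
  c : ℤ
  R : ℤ
  r : ℤ
  ρ : ℕ
  hρ : 1 ≤ ρ
  hper : 0 < per
  hW : 4 * per + 8 * ρ ≤ W
  hh : 8 * ρ ≤ h
  hR : 0 ≤ R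
  hRW : R + W < Pi
  hr : 0 ≤ r
  hrh : r + h < N
  det : ∀ y y' : Cfg S, φ1.r y = 0 → φ2.r y = 0 → φ1.r y' = 0 → φ2.r y' = 0 →
      y.1 (c, 0) = y'.1 (c, 0) → ∀ u j : ℤ, R ≤ u → u ≤ R + W → |j| < N → y.1 (u, j) = y'.1 (u, j)
  perd : ∀ y : Cfg S, φ1.r y = 0 → φ2.r y = 0 → ∀ u j : ℤ, R ≤ u → u + per ≤ R + W → r ≤ j →
      j ≤ r + h → y.1 (u + per, j) = y.1 (u, j)

namespace Z1

variable (Z : Z1 S)

abbrev Cl (S : Wang) := S.A × ℤ × ℤ × Track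

noncomputable def θ : Cl S ⊕ Cl S → ℝ
  | Sum.inl i => if |i.2.2.1| < Z.N then ramp (Z.R + 2 * Z.ρ) (Z.R + Z.W - 2 * Z.ρ) i.2.1 else 0
  | Sum.inr i => if 0 ≤ i.2.1 ∧ i.2.1 < Z.per then
      ramp (Z.r + 2 * Z.ρ) (Z.r + Z.h - 2 * Z.ρ) i.2.2.1 else 0

def off (e : Bool) : ℤ := if e then Z.N else 0

def base (x : Cfg S) (e : Bool) : Cfg S := ((-Z.φ1.r x, -(Z.φ2.r x - Z.off e)) : V) +ᵥ x

def cl (e : Bool) (ω : Om S) : Cl S :=
  ((Z.base ω.1 e).1 (Z.c, 0), Z.φ1.r ω.1, Z.φ2.r ω.1 - Z.off e, ω.2)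

def cl' (ω : Om S) : Cl S :=
  ((Z.base ω.1 false).1 (Z.c, 0), Z.φ1.r ω.1 % Z.per, Z.φ2.r ω.1, ω.2)

def ee (b : Cl S ⊕ Cl S → Bool) (ω : Om S) : Bool :=
  if Z.φ2.r ω.1 < Z.r + Z.ρ then false else
    if Z.r + Z.h - Z.ρ < Z.φ2.r ω.1 then true else b (Sum.inr (Z.cl' ω))

def lam (b : Cl S ⊕ Cl S → Bool) (ω : Om S) : Bool := b (Sum.inl (Z.cl (Z.ee b ω) ω))

def AA (b : Cl S ⊕ Cl S → Bool) (ω : Om S) : Set (Cfg S) :=
  ln χ1 (((-Z.φ1.r ω.1 + (if Z.lam b ω then (Z.Pi : ℤ) else 0), 0) : V) +ᵥ ω.1)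

def IsB (a : S.A) (y : Cfg S) : Prop := Z.φ1.r y = 0 ∧ Z.φ2.r y = 0 ∧ y.1 (Z.c, 0) = a

open Classical in
noncomputable def act (g : Perm (Om S)) (a : S.A) : Perm Pt :=
  if h : ∃ y, Z.IsB a y then actP g h.choose else 1

def L0 : ℤ := Z.per * ((Z.R + 3 * Z.ρ) / Z.per + 2)

def ι : Cl S ⊕ Cl S → Cl S ⊕ Cl S
  | Sum.inl i => if |i.2.2.1| + Z.ρ ≤ Z.N then Sum.inl i else Sum.inl (i.1, i.2.1, Z.N, i.2.2.2)
  | Sum.inr i => Sum.inr i

noncomputable def σ (g : Perm (Om S)) : Cl S ⊕ Cl S → Cl S ⊕ Cl S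
  | Sum.inl i => if |i.2.2.1| + Z.ρ ≤ Z.N ∧ Z.R + Z.ρ ≤ i.2.1 ∧ i.2.1 ≤ Z.R + Z.W - Z.ρ then
      Sum.inl (i.1, (Z.act g i.1 ((i.2.1, i.2.2.1), i.2.2.2)).1.1,
        (Z.act g i.1 ((i.2.1, i.2.2.1), i.2.2.2)).1.2, (Z.act g i.1 ((i.2.1, i.2.2.1), i.2.2.2)).2)
      else Z.ι (Sum.inl i)
  | Sum.inr i => if (0 ≤ i.2.1 ∧ i.2.1 < Z.per) ∧ Z.r + Z.ρ ≤ i.2.2.1 ∧ i.2.2.1 ≤ Z.r + Z.h - Z.ρ then
      Sum.inr (i.1, (Z.act g i.1 ((Z.L0 + i.2.1, i.2.2.1), i.2.2.2)).1.1 % Z.per,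
        (Z.act g i.1 ((Z.L0 + i.2.1, i.2.2.1), i.2.2.2)).1.2,
        (Z.act g i.1 ((Z.L0 + i.2.1, i.2.2.1), i.2.2.2)).2)
      else Sum.inr i

lemma L0_bounds : Z.R + 3 * Z.ρ + Z.per < Z.L0 ∧ Z.L0 ≤ Z.R + 3 * Z.ρ + 2 * Z.per := by
  have hp : (0 : ℤ) < Z.per := by exact_mod_cast Z.hper
  have h1 := Int.mul_ediv_add_emod (Z.R + 3 * Z.ρ) Z.per
  have h2 := Int.emod_nonneg (Z.R + 3 * Z.ρ) hp.ne'
  have h3 := Int.emod_lt_of_pos (Z.R + 3 * Z.ρ) hp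
  unfold L0
  constructor <;> nlinarith

lemma base_phase (x : Cfg S) (e : Bool) :
    Z.φ1.r (Z.base x e) = 0 ∧ Z.φ2.r (Z.base x e) = 0 := by
  unfold base
  rw [Z.φ1.r_vadd, Z.φ2.r_vadd]
  constructor
  · simp
  · cases e <;> simp [off]

lemma act_disp (hf : Free S) {g : Perm (Om S)} (hg : HasRad g (Z.ρ - 1)) (a : S.A) (p : Pt) :
    |(Z.act g a p).1.1 - p.1.1| ≤ (Z.ρ : ℤ) - 1 ∧ |(Z.act g a p).1.2 - p.1.2| ≤ (Z.ρ : ℤ) - 1 := by
  have h1 := Z.hρ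
  have hc : ((Z.ρ - 1 : ℕ) : ℤ) = (Z.ρ : ℤ) - 1 := by omega
  unfold act
  split_ifs with h
  · have := actP_disp hf hg h.choose p
    unfold InB at this
    rw [hc] at this
    simpa using this
  · simp; omega

lemma per_iter {y : Cfg S} (h1 : Z.φ1.r y = 0) (h2 : Z.φ2.r y = 0) {j : ℤ} (hj : Z.r ≤ j)
    (hj' : j ≤ Z.r + Z.h) (k : ℕ) : ∀ u : ℤ, Z.R ≤ u → u + k * Z.per ≤ Z.R + Z.W →
      y.1 (u + k * Z.per, j) = y.1 (u, j) := by
  induction k with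
  | zero => intro u _ _; simp
  | succ k ih =>
    intro u hu hu'
    have hp : (0 : ℤ) ≤ (k : ℤ) * Z.per := by positivity
    have e : u + ((k + 1 : ℕ) : ℤ) * Z.per = (u + k * Z.per) + Z.per := by push_cast; ring
    rw [e] at hu' ⊢
    rw [Z.perd y h1 h2 _ j (by linarith) hu' hj hj']
    exact ih u hu (by have : (0 : ℤ) ≤ Z.per := by positivity
                      linarith)

lemma per_dvd {y : Cfg S} (h1 : Z.φ1.r y = 0) (h2 : Z.φ2.r y = 0) {j : ℤ} (hj : Z.r ≤ j)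
    (hj' : j ≤ Z.r + Z.h) {u u' : ℤ} (hu : Z.R ≤ u ∧ u ≤ Z.R + Z.W)
    (hu' : Z.R ≤ u' ∧ u' ≤ Z.R + Z.W) (hd : (Z.per : ℤ) ∣ u' - u) : y.1 (u', j) = y.1 (u, j) := by
  obtain ⟨k, hk⟩ := hd
  rcases le_total 0 k with h0 | h0
  · obtain ⟨k, rfl⟩ := Int.eq_ofNat_of_zero_le h0
    have e : u' = u + k * Z.per := by linarith
    rw [e]; exact Z.per_iter h1 h2 hj hj' k u hu.1 (by rw [← e]; exact hu'.2)
  · obtain ⟨k', hk'⟩ := Int.eq_ofNat_of_zero_le (neg_nonneg.mpr h0)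
    have e : u = u' + k' * Z.per := by
      have : k = -(k' : ℤ) := by linarith
      subst this; linarith
    rw [e]; exact (Z.per_iter h1 h2 hj hj' k' u' hu'.1 (by rw [← e]; exact hu.2)).symm

lemma actP_per (hf : Free S) {g : Perm (Om S)} (hg : HasRad g (Z.ρ - 1)) {y : Cfg S}
    (h1 : Z.φ1.r y = 0) (h2 : Z.φ2.r y = 0) {j : ℤ} (hj : Z.r + Z.ρ ≤ j) (hj' : j ≤ Z.r + Z.h - Z.ρ)
    {u u' : ℤ} (hu : Z.R + Z.ρ ≤ u ∧ u ≤ Z.R + Z.W - Z.ρ)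
    (hu' : Z.R + Z.ρ ≤ u' ∧ u' ≤ Z.R + Z.W - Z.ρ) (hd : (Z.per : ℤ) ∣ u' - u) (t : Track) :
    actP g y ((u', j), t) = shP ((u' - u, 0) : V) (actP g y ((u, j), t)) := by
  have h1' := Z.hρ
  have hc : ((Z.ρ - 1 : ℕ) : ℤ) = (Z.ρ : ℤ) - 1 := by omega
  have := actP_window hf hg (x := y) (y := y) (u := (u, j)) (v := (u', j)) t (by
    intro w hw
    unfold InB at hw
    rw [hc] at hw
    obtain ⟨hw1, hw2⟩ := hw
    rw [abs_le] at hw1 hw2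
    have := Z.per_dvd h1 h2 (j := j + w.2) (by linarith) (by linarith) (u := u + w.1)
      (u' := u' + w.1) ⟨by linarith, by linarith⟩ ⟨by linarith, by linarith⟩
      (by have : u' + w.1 - (u + w.1) = u' - u := by ring
          rw [this]; exact hd)
    exact this.symm)
  rw [this]
  congr 1
  ext <;> simp

lemma act_per (hf : Free S) {g : Perm (Om S)} (hg : HasRad g (Z.ρ - 1)) (a : S.A)
    {j : ℤ} (hj : Z.r + Z.ρ ≤ j) (hj' : j ≤ Z.r + Z.h - Z.ρ)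
    {u u' : ℤ} (hu : Z.R + Z.ρ ≤ u ∧ u ≤ Z.R + Z.W - Z.ρ)
    (hu' : Z.R + Z.ρ ≤ u' ∧ u' ≤ Z.R + Z.W - Z.ρ) (hd : (Z.per : ℤ) ∣ u' - u) (t : Track) :
    Z.act g a ((u', j), t) = shP ((u' - u, 0) : V) (Z.act g a ((u, j), t)) := by
  unfold act
  split_ifs with h
  · exact Z.actP_per hf hg h.choose_spec.1 h.choose_spec.2.1 hj hj' hu hu' hd t
  · simp [shP]

lemma actP_eq_act (hf : Free S) {g : Perm (Om S)} (hg : HasRad g (Z.ρ - 1)) {y : Cfg S}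
    (h1 : Z.φ1.r y = 0) (h2 : Z.φ2.r y = 0) {u j : ℤ} (hu : Z.R + Z.ρ ≤ u ∧ u ≤ Z.R + Z.W - Z.ρ)
    (hj : |j| + Z.ρ ≤ Z.N) (t : Track) :
    actP g y ((u, j), t) = Z.act g (y.1 (Z.c, 0)) ((u, j), t) := by
  have h1' := Z.hρ
  have hc : ((Z.ρ - 1 : ℕ) : ℤ) = (Z.ρ : ℤ) - 1 := by omega
  have hex : ∃ y', Z.IsB (y.1 (Z.c, 0)) y' := ⟨y, h1, h2, rfl⟩
  unfold act
  rw [dif_pos hex]
  obtain ⟨k1, k2, k3⟩ := hex.choose_spec
  have := actP_window hf hg (x := hex.choose) (y := y) (u := (u, j)) (v := (u, j)) t (by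
    intro w hw
    unfold InB at hw
    rw [hc] at hw
    obtain ⟨hw1, hw2⟩ := hw
    have hab : |j + w.2| < Z.N := lt_of_le_of_lt (abs_add_le _ _) (by linarith)
    rw [abs_le] at hw1
    exact Z.det _ _ k1 k2 h1 h2 k3 (u + w.1) (j + w.2) (by linarith) (by linarith) hab)
  rw [this]
  simp [shP]

/-- the image point in the coordinates of a base point -/
lemma actP_base (hf : Free S) {g : Perm (Om S)} (hg : g ∈ LocP S) (x : Cfg S) (t : Track) (e : Bool) :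
    actP g (Z.base x e) ((Z.φ1.r x, Z.φ2.r x - Z.off e), t) =
      shP ((Z.φ1.r x, Z.φ2.r x - Z.off e) : V) (actP g x (0, t)) := by
  have := actP_vadd hf hg ((Z.φ1.r x, Z.φ2.r x - Z.off e) : V) (Z.base x e) (0, t)
  have e1 : ((Z.φ1.r x, Z.φ2.r x - Z.off e) : V) +ᵥ Z.base x e = x := by
    unfold base
    rw [vadd_vadd]
    have : ((Z.φ1.r x, Z.φ2.r x - Z.off e) : V) + (-Z.φ1.r x, -(Z.φ2.r x - Z.off e)) = 0 := by
      ext <;> simp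
    rw [this, zero_vadd]
  rw [e1] at this
  rw [← this]
  simp [shP]

def Forced (b : Cl S ⊕ Cl S → Bool) : Prop :=
  ∀ i, (Z.θ i = 0 → b i = false) ∧ (Z.θ i = Real.pi / 2 → b i = true)

lemma lo_hi1 : Z.R + 2 * Z.ρ < Z.R + Z.W - 2 * Z.ρ := by
  have := Z.hW; have := Z.hρ; omega
lemma lo_hi2 : Z.r + 2 * Z.ρ < Z.r + Z.h - 2 * Z.ρ := by
  have := Z.hh; have := Z.hρ; omega

lemma forced_inl {b : Cl S ⊕ Cl S → Bool} (hb : Z.Forced b) (i : Cl S) (hj : |i.2.2.1| < Z.N) :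
    (i.2.1 ≤ Z.R + 2 * Z.ρ → b (Sum.inl i) = false) ∧
      (Z.R + Z.W - 2 * Z.ρ ≤ i.2.1 → b (Sum.inl i) = true) := by
  constructor
  · intro h
    apply (hb _).1
    simp only [θ, if_pos hj]
    exact ramp_of_le Z.lo_hi1 h
  · intro h
    apply (hb _).2
    simp only [θ, if_pos hj]
    exact ramp_of_ge Z.lo_hi1 h

lemma forced_inr {b : Cl S ⊕ Cl S → Bool} (hb : Z.Forced b) (i : Cl S)
    (hu : 0 ≤ i.2.1 ∧ i.2.1 < Z.per) :
    (i.2.2.1 ≤ Z.r + 2 * Z.ρ → b (Sum.inr i) = false) ∧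
      (Z.r + Z.h - 2 * Z.ρ ≤ i.2.2.1 → b (Sum.inr i) = true) := by
  constructor
  · intro h
    apply (hb _).1
    simp only [θ, if_pos hu]
    exact ramp_of_le Z.lo_hi2 h
  · intro h
    apply (hb _).2
    simp only [θ, if_pos hu]
    exact ramp_of_ge Z.lo_hi2 h

lemma used (b : Cl S ⊕ Cl S → Bool) (ω : Om S) :
    |Z.φ2.r ω.1 - Z.off (Z.ee b ω)| + Z.ρ ≤ Z.N := by
  have h0 := Z.φ2.nonneg ω.1
  have h1 := Z.φ2.lt ω.1
  have h2 := Z.hr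
  have h3 := Z.hrh
  have h4 := Z.hh
  have key : (Z.ee b ω = false → Z.φ2.r ω.1 ≤ Z.r + Z.h - Z.ρ) ∧
      (Z.ee b ω = true → Z.r + Z.ρ ≤ Z.φ2.r ω.1) := by
    unfold ee
    split_ifs with c1 c2
    · exact ⟨fun _ => by omega, fun h => by simp at h⟩
    · exact ⟨fun h => by simp at h, fun _ => by omega⟩
    · exact ⟨fun _ => by omega, fun _ => by omega⟩
  cases he : Z.ee b ω
  · have := key.1 he
    simp only [off, Bool.false_eq_true, if_false, sub_zero]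
    rw [abs_of_nonneg h0]; omega
  · have := key.2 he
    simp only [off, if_true]
    rw [abs_of_nonpos (by omega)]; omega

lemma mod_per (u : ℤ) : 0 ≤ u % Z.per ∧ u % Z.per < Z.per := by
  have hp : (0 : ℤ) < Z.per := by exact_mod_cast Z.hper
  exact ⟨Int.emod_nonneg _ hp.ne', Int.emod_lt_of_pos _ hp⟩

/-- `ee` for a forced `b`, with the larger margins -/
lemma ee_forced {b : Cl S ⊕ Cl S → Bool} (hb : Z.Forced b) (ω : Om S) :
    (Z.φ2.r ω.1 ≤ Z.r + 2 * Z.ρ → Z.ee (b ∘ Z.ι) ω = false) ∧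
    (Z.r + Z.h - 2 * Z.ρ ≤ Z.φ2.r ω.1 → Z.ee (b ∘ Z.ι) ω = true) ∧
    Z.ee (b ∘ Z.ι) ω = b (Sum.inr (Z.cl' ω)) := by
  have h4 := Z.hh
  have h5 := Z.hρ
  have hf := Z.forced_inr hb (Z.cl' ω) (Z.mod_per _)
  have hf1 : Z.φ2.r ω.1 ≤ Z.r + 2 * Z.ρ → b (Sum.inr (Z.cl' ω)) = false := hf.1
  have hf2 : Z.r + Z.h - 2 * Z.ρ ≤ Z.φ2.r ω.1 → b (Sum.inr (Z.cl' ω)) = true := hf.2
  have key : Z.ee (b ∘ Z.ι) ω = b (Sum.inr (Z.cl' ω)) := by
    unfold ee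
    split_ifs with c1 c2
    · exact (hf1 (by omega)).symm
    · exact (hf2 (by omega)).symm
    · rfl
  exact ⟨fun h => key.trans (hf1 h), fun h => key.trans (hf2 h), key⟩

lemma lam_ι (b : Cl S ⊕ Cl S → Bool) (ω : Om S) :
    Z.lam (b ∘ Z.ι) ω = b (Sum.inl (Z.cl (Z.ee (b ∘ Z.ι) ω) ω)) := by
  unfold lam
  have := Z.used (b ∘ Z.ι) ω
  simp only [Function.comp, ι]
  rw [if_pos]
  exact this

lemma abs_lt_of_used {j : ℤ} (h : |j| + Z.ρ ≤ Z.N) : |j| < Z.N := by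
  have := Z.hρ; omega

theorem key (hf : Free S) {g : Perm (Om S)} (hg : HasRad g (Z.ρ - 1)) {b : Cl S ⊕ Cl S → Bool}
    (hb : Z.Forced b) (ω : Om S) : Z.AA (b ∘ Z.ι) (g ω) = Z.AA (b ∘ Z.σ g) ω := by
  obtain ⟨x, t⟩ := ω
  have hgl : g ∈ LocP S := ⟨_, hg⟩
  have hρ := Z.hρ
  have hc : ((Z.ρ - 1 : ℕ) : ℤ) = (Z.ρ : ℤ) - 1 := by omega
  set p := actP g x (0, t) with hp
  have hgω : g (x, t) = (p.1 +ᵥ x, p.2) := by
    have := actP_spec hf hgl x (0, t)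
    rw [pt_zero] at this
    exact this
  have hd := actP_disp hf hg x (0, t)
  unfold InB at hd
  rw [hc, ← hp] at hd
  simp only [sub_zero] at hd
  obtain ⟨hd1, hd2⟩ := hd
  rw [abs_le] at hd1 hd2
  have hu0 := Z.φ1.nonneg x
  have hu1 := Z.φ1.lt x
  have hj0 := Z.φ2.nonneg x
  have hj1 := Z.φ2.lt x
  have hR := Z.hR
  have hRW := Z.hRW
  have hr := Z.hr
  have hrh := Z.hrh
  have hW := Z.hW
  have hh := Z.hh
  have eu : Z.φ1.r (p.1 +ᵥ x) = (Z.φ1.r x + p.1.1) % Z.Pi := Z.φ1.r_vadd _ _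
  have ej : Z.φ2.r (p.1 +ᵥ x) = (Z.φ2.r x + p.1.2) % Z.N := Z.φ2.r_vadd _ _
  rw [hgω]
  unfold AA
  simp only [vadd_vadd]
  apply ln_eq_of
  simp only [χ1_apply, Prod.fst_add]
  rw [Z.lam_ι]
  have hus := Z.used (b ∘ Z.ι) (p.1 +ᵥ x, p.2)
  have hus' := Z.used (b ∘ Z.σ g) (x, t)
  have hF := Z.forced_inl hb (Z.cl (Z.ee (b ∘ Z.ι) (p.1 +ᵥ x, p.2)) (p.1 +ᵥ x, p.2))
    (Z.abs_lt_of_used hus)
  have hF1 : Z.φ1.r (p.1 +ᵥ x) ≤ Z.R + 2 * Z.ρ →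
      b (Sum.inl (Z.cl (Z.ee (b ∘ Z.ι) (p.1 +ᵥ x, p.2)) (p.1 +ᵥ x, p.2))) = false := hF.1
  have hF2 : Z.R + Z.W - 2 * Z.ρ ≤ Z.φ1.r (p.1 +ᵥ x) →
      b (Sum.inl (Z.cl (Z.ee (b ∘ Z.ι) (p.1 +ᵥ x, p.2)) (p.1 +ᵥ x, p.2))) = true := hF.2
  by_cases hact : Z.R + Z.ρ ≤ Z.φ1.r x ∧ Z.φ1.r x ≤ Z.R + Z.W - Z.ρ
  · -- active columns
    have eu' : Z.φ1.r (p.1 +ᵥ x) = Z.φ1.r x + p.1.1 := by
      rw [eu]; exact Int.emod_eq_of_lt (by omega) (by omega)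
    have hE := Z.ee_forced hb (p.1 +ᵥ x, p.2)
    -- the associated boundary row is the same
    have hrow : Z.φ2.r (p.1 +ᵥ x) - Z.off (Z.ee (b ∘ Z.ι) (p.1 +ᵥ x, p.2)) =
        Z.φ2.r x - Z.off (Z.ee (b ∘ Z.σ g) (x, t)) + p.1.2 := by
      by_cases c1 : Z.φ2.r x < Z.r + Z.ρ
      · have e1 : Z.ee (b ∘ Z.σ g) (x, t) = false := by simp [ee, c1]
        rw [e1]
        by_cases c0 : 0 ≤ Z.φ2.r x + p.1.2
        · have ej' : Z.φ2.r (p.1 +ᵥ x) = Z.φ2.r x + p.1.2 := by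
            rw [ej]; exact Int.emod_eq_of_lt c0 (by omega)
          rw [hE.1 (by show Z.φ2.r (p.1 +ᵥ x) ≤ _; omega), ej']; simp [off]
        · have ej' : Z.φ2.r (p.1 +ᵥ x) = Z.φ2.r x + p.1.2 + Z.N := by
            rw [ej, ← Int.add_emod_right]; exact Int.emod_eq_of_lt (by omega) (by omega)
          rw [hE.2.1 (by show _ ≤ Z.φ2.r (p.1 +ᵥ x); omega), ej']; simp [off]
      · by_cases c2 : Z.r + Z.h - Z.ρ < Z.φ2.r x
        · have e1 : Z.ee (b ∘ Z.σ g) (x, t) = true := by simp [ee, c1, c2]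
          rw [e1]
          by_cases c0 : Z.φ2.r x + p.1.2 < Z.N
          · have ej' : Z.φ2.r (p.1 +ᵥ x) = Z.φ2.r x + p.1.2 := by
              rw [ej]; exact Int.emod_eq_of_lt (by omega) c0
            rw [hE.2.1 (by show _ ≤ Z.φ2.r (p.1 +ᵥ x); omega), ej']; simp [off]; ring
          · have ej' : Z.φ2.r (p.1 +ᵥ x) = Z.φ2.r x + p.1.2 - Z.N := by
              rw [ej, ← Int.sub_emod_right]; exact Int.emod_eq_of_lt (by omega) (by omega)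
            rw [hE.1 (by show Z.φ2.r (p.1 +ᵥ x) ≤ _; omega), ej']; simp [off]; ring
        · have ej' : Z.φ2.r (p.1 +ᵥ x) = Z.φ2.r x + p.1.2 := by
            rw [ej]; exact Int.emod_eq_of_lt (by omega) (by omega)
          have e1 : Z.ee (b ∘ Z.σ g) (x, t) = b (Z.σ g (Sum.inr (Z.cl' (x, t)))) := by
            simp [ee, c1, c2]
          have hbase : Z.base (p.1 +ᵥ x) false = Z.base x false := by
            unfold base
            rw [vadd_vadd, eu', ej']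
            congr 1
            ext <;> simp [off]
          have e2 : Z.σ g (Sum.inr (Z.cl' (x, t))) = Sum.inr (Z.cl' (p.1 +ᵥ x, p.2)) := by
            have hm := Z.mod_per (Z.φ1.r x)
            have hL := Z.L0_bounds
            have hcond : (0 ≤ (Z.cl' (x, t)).2.1 ∧ (Z.cl' (x, t)).2.1 < Z.per) ∧
                Z.r + Z.ρ ≤ (Z.cl' (x, t)).2.2.1 ∧ (Z.cl' (x, t)).2.2.1 ≤ Z.r + Z.h - Z.ρ :=
              ⟨hm, by show _ ≤ Z.φ2.r x; omega, by show Z.φ2.r x ≤ _; omega⟩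
            simp only [σ, if_pos hcond]
            have hdv : (Z.per : ℤ) ∣ (Z.L0 + Z.φ1.r x % Z.per) - Z.φ1.r x := by
              have h1 : (Z.per : ℤ) ∣ Z.L0 := Dvd.intro _ rfl
              have h2 : (Z.per : ℤ) ∣ Z.φ1.r x % Z.per - Z.φ1.r x := by
                rw [Int.emod_def]; exact ⟨-(Z.φ1.r x / Z.per), by ring⟩
              have := dvd_add h1 h2
              rwa [← add_sub_assoc] at this
            have a1 := Z.act_per hf hg ((Z.base x false).1 (Z.c, 0)) (j := Z.φ2.r x) (by omega)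
              (by omega) (u := Z.φ1.r x) (u' := Z.L0 + Z.φ1.r x % Z.per) hact
              ⟨by omega, by omega⟩ hdv t
            have a2 := Z.actP_eq_act hf hg (Z.base_phase x false).1 (Z.base_phase x false).2
              (u := Z.φ1.r x) (j := Z.φ2.r x) hact (by rw [abs_of_nonneg hj0]; omega) t
            have a3 := Z.actP_base hf hgl x t false
            simp only [off, Bool.false_eq_true, if_false, sub_zero] at a3
            rw [← a2, a3, ← hp] at a1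
            simp only [cl'] at a1 ⊢
            rw [a1, hbase, eu', ej']
            simp only [shP, Prod.fst_add, Prod.snd_add, add_zero, Sum.inr.injEq, Prod.mk.injEq,
              true_and, and_true]
            refine ⟨?_, by ring⟩
            obtain ⟨k, hk⟩ := hdv
            rw [hk, Int.add_mul_emod_self_left, add_comm]
          rw [hE.2.2, e1, e2, ej']; ring
    have hbase : Z.base (p.1 +ᵥ x) (Z.ee (b ∘ Z.ι) (p.1 +ᵥ x, p.2)) =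
        Z.base x (Z.ee (b ∘ Z.σ g) (x, t)) := by
      unfold base
      rw [vadd_vadd, eu', hrow]
      congr 1
      ext <;> simp
    have e3 : Z.lam (b ∘ Z.σ g) (x, t) =
        b (Sum.inl (Z.cl (Z.ee (b ∘ Z.ι) (p.1 +ᵥ x, p.2)) (p.1 +ᵥ x, p.2))) := by
      unfold lam
      simp only [Function.comp]
      congr 1
      set e := Z.ee (b ∘ Z.σ g) (x, t) with he
      have hcond : |(Z.cl e (x, t)).2.2.1| + Z.ρ ≤ Z.N ∧ Z.R + Z.ρ ≤ (Z.cl e (x, t)).2.1 ∧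
          (Z.cl e (x, t)).2.1 ≤ Z.R + Z.W - Z.ρ := ⟨hus', hact.1, hact.2⟩
      simp only [σ, if_pos hcond]
      have a2 := Z.actP_eq_act hf hg (Z.base_phase x e).1 (Z.base_phase x e).2
        (u := Z.φ1.r x) (j := Z.φ2.r x - Z.off e) hact hus' t
      have a3 := Z.actP_base hf hgl x t e
      rw [a3, ← hp] at a2
      simp only [cl] at a2 ⊢
      rw [← a2, hbase, eu', hrow]
      simp only [shP, Prod.fst_add, Prod.snd_add, Sum.inl.injEq, Prod.mk.injEq, true_and, and_true]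
      exact ⟨by ring, by ring⟩
    rw [e3, eu']
    ring
  · -- inactive columns: all labels are forced
    have e3 : Z.lam (b ∘ Z.σ g) (x, t) =
        b (Sum.inl (Z.cl (Z.ee (b ∘ Z.σ g) (x, t)) (x, t))) := by
      unfold lam
      simp only [Function.comp]
      congr 1
      set e := Z.ee (b ∘ Z.σ g) (x, t) with he
      have hcond : ¬ (|(Z.cl e (x, t)).2.2.1| + Z.ρ ≤ Z.N ∧ Z.R + Z.ρ ≤ (Z.cl e (x, t)).2.1 ∧
          (Z.cl e (x, t)).2.1 ≤ Z.R + Z.W - Z.ρ) := fun h => hact h.2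
      have hcond' : |(Z.cl e (x, t)).2.2.1| + Z.ρ ≤ Z.N := hus'
      simp only [σ, if_neg hcond, ι, if_pos hcond']
    have hG := Z.forced_inl hb (Z.cl (Z.ee (b ∘ Z.σ g) (x, t)) (x, t)) (Z.abs_lt_of_used hus')
    have hG1 : Z.φ1.r x ≤ Z.R + 2 * Z.ρ →
        b (Sum.inl (Z.cl (Z.ee (b ∘ Z.σ g) (x, t)) (x, t))) = false := hG.1
    have hG2 : Z.R + Z.W - 2 * Z.ρ ≤ Z.φ1.r x →
        b (Sum.inl (Z.cl (Z.ee (b ∘ Z.σ g) (x, t)) (x, t))) = true := hG.2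
    rw [e3]
    by_cases c1 : Z.φ1.r x < Z.R + Z.ρ
    · rw [hG1 (by omega)]
      by_cases c0 : 0 ≤ Z.φ1.r x + p.1.1
      · have eu' : Z.φ1.r (p.1 +ᵥ x) = Z.φ1.r x + p.1.1 := by
          rw [eu]; exact Int.emod_eq_of_lt c0 (by omega)
        rw [hF1 (by omega), eu']; simp
      · have eu' : Z.φ1.r (p.1 +ᵥ x) = Z.φ1.r x + p.1.1 + Z.Pi := by
          rw [eu, ← Int.add_emod_right]; exact Int.emod_eq_of_lt (by omega) (by omega)
        rw [hF2 (by omega), eu']; simp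
    · have c2 : Z.R + Z.W - Z.ρ < Z.φ1.r x := by omega
      rw [hG2 (by omega)]
      by_cases c0 : Z.φ1.r x + p.1.1 < Z.Pi
      · have eu' : Z.φ1.r (p.1 +ᵥ x) = Z.φ1.r x + p.1.1 := by
          rw [eu]; exact Int.emod_eq_of_lt (by omega) c0
        rw [hF2 (by omega), eu']; simp; ring
      · have eu' : Z.φ1.r (p.1 +ᵥ x) = Z.φ1.r x + p.1.1 - Z.Pi := by
          rw [eu, ← Int.sub_emod_right]; exact Int.emod_eq_of_lt (by omega) (by omega)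
        rw [hF1 (by omega), eu']; simp; ring

lemma θ_ι_det {i : Cl S} (h : ¬ (|i.2.2.1| + Z.ρ ≤ Z.N ∧ Z.R + Z.ρ ≤ i.2.1 ∧
    i.2.1 ≤ Z.R + Z.W - Z.ρ)) : Z.θ (Z.ι (Sum.inl i)) = 0 ∨ Z.θ (Z.ι (Sum.inl i)) = Real.pi / 2 := by
  have hρ := Z.hρ
  simp only [ι]
  split_ifs with c
  · have hj : |i.2.2.1| < Z.N := Z.abs_lt_of_used c
    simp only [θ, if_pos hj]
    by_cases c1 : i.2.1 < Z.R + Z.ρ
    · exact Or.inl (ramp_of_le Z.lo_hi1 (by omega))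
    · have c2 : Z.R + Z.W - Z.ρ < i.2.1 := by
        by_contra c3
        exact h ⟨c, by omega, by omega⟩
      exact Or.inr (ramp_of_ge Z.lo_hi1 (by omega))
  · left
    simp [θ]

lemma θ_inr_det {i : Cl S} (h : ¬ ((0 ≤ i.2.1 ∧ i.2.1 < Z.per) ∧ Z.r + Z.ρ ≤ i.2.2.1 ∧
    i.2.2.1 ≤ Z.r + Z.h - Z.ρ)) : Z.θ (Sum.inr i) = 0 ∨ Z.θ (Sum.inr i) = Real.pi / 2 := by
  have hρ := Z.hρ
  simp only [θ]
  split_ifs with c
  · by_cases c1 : i.2.2.1 < Z.r + Z.ρ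
    · exact Or.inl (ramp_of_le Z.lo_hi2 (by omega))
    · have c2 : Z.r + Z.h - Z.ρ < i.2.2.1 := by
        by_contra c3
        exact h ⟨c, by omega, by omega⟩
      exact Or.inr (ramp_of_ge Z.lo_hi2 (by omega))
  · exact Or.inl rfl

lemma injOn_ι : Set.InjOn Z.ι {i | Z.θ (Z.ι i) ≠ 0 ∧ Z.θ (Z.ι i) ≠ Real.pi / 2} := by
  have key : ∀ i, Z.θ (Z.ι i) ≠ 0 → Z.ι i = i := by
    rintro (i | i) h
    · simp only [ι] at h ⊢
      split_ifs at h ⊢ with c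
      · rfl
      · exact absurd (by simp [θ]) h
    · rfl
  intro i hi i' hi' e
  rw [key i hi.1, key i' hi'.1] at e
  exact e

lemma injOn_σ (hf : Free S) {g : Perm (Om S)} (hg : HasRad g (Z.ρ - 1)) :
    Set.InjOn (Z.σ g) {i | Z.θ (Z.σ g i) ≠ 0 ∧ Z.θ (Z.σ g i) ≠ Real.pi / 2} := by
  have a1 : ∀ i : Cl S, (Z.θ (Z.σ g (Sum.inl i)) ≠ 0 ∧ Z.θ (Z.σ g (Sum.inl i)) ≠ Real.pi / 2) →
      |i.2.2.1| + Z.ρ ≤ Z.N ∧ Z.R + Z.ρ ≤ i.2.1 ∧ i.2.1 ≤ Z.R + Z.W - Z.ρ := by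
    intro i hi
    by_contra c
    simp only [σ, if_neg c] at hi
    rcases Z.θ_ι_det c with h | h
    · exact hi.1 h
    · exact hi.2 h
  have a2 : ∀ i : Cl S, (Z.θ (Z.σ g (Sum.inr i)) ≠ 0 ∧ Z.θ (Z.σ g (Sum.inr i)) ≠ Real.pi / 2) →
      (0 ≤ i.2.1 ∧ i.2.1 < Z.per) ∧ Z.r + Z.ρ ≤ i.2.2.1 ∧ i.2.2.1 ≤ Z.r + Z.h - Z.ρ := by
    intro i hi
    by_contra c
    simp only [σ, if_neg c] at hi
    rcases Z.θ_inr_det c with h | h
    · exact hi.1 h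
    · exact hi.2 h
  rintro (i | i) hi (i' | i') hi' e
  · have c := a1 i hi
    have c' := a1 i' hi'
    simp only [σ, if_pos c, if_pos c', Sum.inl.injEq, Prod.mk.injEq] at e
    obtain ⟨a, u, j, t⟩ := i
    obtain ⟨a', u', j', t'⟩ := i'
    obtain ⟨e0, e1, e2, e3⟩ := e
    simp only at e0 e1 e2 e3
    subst e0
    have : Z.act g a ((u, j), t) = Z.act g a ((u', j'), t') := Prod.ext (Prod.ext e1 e2) e3
    have := (Z.act g a).injective this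
    simp only [Prod.mk.injEq] at this
    obtain ⟨⟨rfl, rfl⟩, rfl⟩ := this
    rfl
  · have c := a1 i hi
    have c' := a2 i' hi'
    simp [σ, if_pos c, if_pos c'] at e
  · have c := a2 i hi
    have c' := a1 i' hi'
    simp [σ, if_pos c, if_pos c'] at e
  · have c := a2 i hi
    have c' := a2 i' hi'
    simp only [σ, if_pos c, if_pos c', Sum.inr.injEq, Prod.mk.injEq] at e
    obtain ⟨a, u, j, t⟩ := i
    obtain ⟨a', u', j', t'⟩ := i'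
    obtain ⟨e0, e1, e2, e3⟩ := e
    simp only at e0 e1 e2 e3 c c'
    subst e0
    have hL := Z.L0_bounds
    have hW := Z.hW
    have hρ := Z.hρ
    have d1 := Z.act_disp hf hg a ((Z.L0 + u, j), t)
    have d2 := Z.act_disp hf hg a ((Z.L0 + u', j'), t')
    simp only [abs_le] at d1 d2
    set q := Z.act g a ((Z.L0 + u, j), t) with hq
    set q' := Z.act g a ((Z.L0 + u', j'), t') with hq'
    have hdv : (Z.per : ℤ) ∣ q'.1.1 - q.1.1 := (Int.emod_eq_emod_iff_emod_sub_eq_zero.mp e1.symm |> Int.dvd_of_emod_eq_zero)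
    have hs := Z.act_per hf hg a c.2.1 c.2.2 (u := Z.L0 + u) (u' := Z.L0 + u + (q'.1.1 - q.1.1))
      ⟨by omega, by omega⟩ ⟨by omega, by omega⟩ (by simpa using hdv) t
    have : Z.act g a ((Z.L0 + u + (q'.1.1 - q.1.1), j), t) = q' := by
      rw [hs, ← hq]
      refine Prod.ext (Prod.ext ?_ ?_) ?_
      · simp [shP]
      · simp [shP, e2]
      · simp [shP, e3]
    have := (Z.act g a).injective this
    simp only [Prod.mk.injEq] at this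
    obtain ⟨⟨h1, rfl⟩, rfl⟩ := this
    have hd2 : (Z.per : ℤ) ∣ u' - u := by
      have : u' - u = q'.1.1 - q.1.1 := by omega
      rw [this]; exact hdv
    have : u' - u = 0 := Int.eq_zero_of_abs_lt_dvd hd2 (by rw [abs_lt]; omega)
    have : u = u' := by omega
    subst this
    rfl

/-- the finite set outside which everything is trivial -/
noncomputable def JJ : Finset (Cl S ⊕ Cl S) :=
  Finset.disjSum
    (Finset.univ ×ˢ Finset.Icc Z.R (Z.R + Z.W) ×ˢ Finset.Icc (-(Z.N : ℤ)) Z.N ×ˢ Finset.univ)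
    (Finset.univ ×ˢ Finset.Ico (0 : ℤ) Z.per ×ˢ Finset.Icc Z.r (Z.r + Z.h) ×ˢ Finset.univ)

lemma θ_det (i : Cl S ⊕ Cl S) (hi : i ∉ Z.JJ) : Z.θ i = 0 ∨ Z.θ i = Real.pi / 2 := by
  have hρ := Z.hρ
  rcases i with i | i
  · simp only [JJ, Finset.inl_mem_disjSum, Finset.mem_product, Finset.mem_univ, Finset.mem_Icc,
      true_and, and_true] at hi
    simp only [θ]
    split_ifs with c
    · rw [abs_lt] at c
      by_cases c1 : i.2.1 < Z.R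
      · exact Or.inl (ramp_of_le Z.lo_hi1 (by omega))
      · exact Or.inr (ramp_of_ge Z.lo_hi1 (by omega))
    · exact Or.inl rfl
  · simp only [JJ, Finset.inr_mem_disjSum, Finset.mem_product, Finset.mem_univ, Finset.mem_Icc,
      Finset.mem_Ico, true_and, and_true] at hi
    apply Z.θ_inr_det
    omega

lemma σ_eq_ι (g : Perm (Om S)) (i : Cl S ⊕ Cl S) (hi : i ∉ Z.JJ) : Z.σ g i = Z.ι i := by
  rcases i with i | i
  · simp only [JJ, Finset.inl_mem_disjSum, Finset.mem_product, Finset.mem_univ, Finset.mem_Icc,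
      true_and, and_true] at hi
    simp only [σ]
    rw [if_neg]
    intro c
    have := abs_le.mp (show |i.2.2.1| ≤ Z.N by omega)
    omega
  · simp only [JJ, Finset.inr_mem_disjSum, Finset.mem_product, Finset.mem_univ, Finset.mem_Icc,
      Finset.mem_Ico, true_and, and_true] at hi
    simp only [σ, ι]
    rw [if_neg]
    omega

lemma diff_inl (hf : Free S) {g : Perm (Om S)} (hg : HasRad g (Z.ρ - 1)) (i : Cl S) :
    (Z.θ (Z.σ g (Sum.inl i)) - Z.θ (Z.ι (Sum.inl i))) ^ 2 ≤ (2 * Z.ρ / (Z.W - 4 * Z.ρ) : ℝ) ^ 2 := by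
  simp only [σ]
  split_ifs with c
  · have d := Z.act_disp hf hg i.1 ((i.2.1, i.2.2.1), i.2.2.2)
    simp only at d
    have h1 : |(Z.act g i.1 ((i.2.1, i.2.2.1), i.2.2.2)).1.2| < Z.N := by
      have := abs_sub_abs_le_abs_sub (Z.act g i.1 ((i.2.1, i.2.2.1), i.2.2.2)).1.2 i.2.2.1
      omega
    simp only [ι, if_pos c.1, θ, if_pos h1, if_pos (Z.abs_lt_of_used c.1)]
    have := ramp_lip Z.lo_hi1 (u := i.2.1) (u' := (Z.act g i.1 ((i.2.1, i.2.2.1), i.2.2.2)).1.1)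
      (k := Z.ρ) (by omega)
    have e : ((Z.R + Z.W - 2 * Z.ρ : ℤ) : ℝ) - ((Z.R + 2 * Z.ρ : ℤ) : ℝ) = Z.W - 4 * Z.ρ := by
      push_cast; ring
    rw [e] at this
    exact sq_le_sq' (abs_le.mp this).1 (abs_le.mp this).2
  · simp only [sub_self]
    rw [zero_pow (by norm_num)]
    positivity

lemma diff_inr (hf : Free S) {g : Perm (Om S)} (hg : HasRad g (Z.ρ - 1)) (i : Cl S) :
    (Z.θ (Z.σ g (Sum.inr i)) - Z.θ (Z.ι (Sum.inr i))) ^ 2 ≤ (2 * Z.ρ / (Z.h - 4 * Z.ρ) : ℝ) ^ 2 := by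
  simp only [σ]
  split_ifs with c
  · have d := Z.act_disp hf hg i.1 ((Z.L0 + i.2.1, i.2.2.1), i.2.2.2)
    simp only at d
    simp only [ι, θ, if_pos c.1, if_pos (Z.mod_per _)]
    have := ramp_lip Z.lo_hi2 (u := i.2.2.1)
      (u' := (Z.act g i.1 ((Z.L0 + i.2.1, i.2.2.1), i.2.2.2)).1.2) (k := Z.ρ) (by omega)
    have e : ((Z.r + Z.h - 2 * Z.ρ : ℤ) : ℝ) - ((Z.r + 2 * Z.ρ : ℤ) : ℝ) = Z.h - 4 * Z.ρ := by
      push_cast; ring
    rw [e] at this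
    exact sq_le_sq' (abs_le.mp this).1 (abs_le.mp this).2
  · simp only [ι, sub_self]
    rw [zero_pow (by norm_num)]
    positivity

lemma sum_le (hf : Free S) {g : Perm (Om S)} (hg : HasRad g (Z.ρ - 1)) {n : ℕ} (hn : 0 < n)
    (h1 : n * Z.N ≤ Z.W) (h2 : n * Z.per ≤ Z.h) :
    ∑ i ∈ Z.JJ, (Z.θ (Z.σ g i) - Z.θ (Z.ι i)) ^ 2 ≤
      (Fintype.card S.A : ℝ) * 30 * (128 * Z.ρ ^ 2) / n := by
  have hW := Z.hW
  have hh := Z.hh
  have hρ := Z.hρ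
  have hN : 1 ≤ Z.N := by have := Z.hr; have := Z.hrh; omega
  unfold JJ
  rw [Finset.sum_disjSum]
  have b1 := Finset.sum_le_card_nsmul
    (Finset.univ ×ˢ Finset.Icc Z.R (Z.R + Z.W) ×ˢ Finset.Icc (-(Z.N : ℤ)) Z.N ×ˢ
      (Finset.univ : Finset Track) : Finset (Cl S)) _ _ (fun i _ => Z.diff_inl hf hg i)
  have b2 := Finset.sum_le_card_nsmul
    (Finset.univ ×ˢ Finset.Ico (0 : ℤ) Z.per ×ˢ Finset.Icc Z.r (Z.r + Z.h) ×ˢ
      (Finset.univ : Finset Track) : Finset (Cl S)) _ _ (fun i _ => Z.diff_inr hf hg i)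
  have c1 : (Finset.Icc Z.R (Z.R + Z.W)).card = Z.W + 1 := by rw [Int.card_Icc]; omega
  have c2 : (Finset.Icc (-(Z.N : ℤ)) Z.N).card = 2 * Z.N + 1 := by rw [Int.card_Icc]; omega
  have c3 : (Finset.Ico (0 : ℤ) Z.per).card = Z.per := by rw [Int.card_Ico]; omega
  have c4 : (Finset.Icc Z.r (Z.r + Z.h)).card = Z.h + 1 := by rw [Int.card_Icc]; omega
  simp only [Finset.card_product, Finset.card_univ, Fintype.card_fin, c1, c2, c3, c4,
    nsmul_eq_mul] at b1 b2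
  push_cast at b1 b2
  refine (add_le_add b1 b2).trans ?_
  have hWr : (4 * Z.per + 8 * Z.ρ : ℝ) ≤ Z.W := by exact_mod_cast hW
  have hhr : (8 * Z.ρ : ℝ) ≤ Z.h := by exact_mod_cast hh
  have hρr : (1 : ℝ) ≤ Z.ρ := by exact_mod_cast hρ
  have hNr : (1 : ℝ) ≤ Z.N := by exact_mod_cast hN
  have hnr : (0 : ℝ) < n := by exact_mod_cast hn
  have h1r : (n * Z.N : ℝ) ≤ Z.W := by exact_mod_cast h1
  have h2r : (n * Z.per : ℝ) ≤ Z.h := by exact_mod_cast h2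
  have hpr : (0 : ℝ) ≤ Z.per := by positivity
  have k1 : ((Z.W : ℝ) + 1) * (2 * Z.N + 1) * (2 * Z.ρ / (Z.W - 4 * Z.ρ)) ^ 2 ≤
      96 * Z.ρ ^ 2 / n := by
    have hpos : (0 : ℝ) < Z.W - 4 * Z.ρ := by linarith
    rw [div_pow, ← mul_div_assoc, div_le_div_iff₀ (by positivity) hnr]
    have e1 : ((Z.W : ℝ) + 1) * (2 * Z.N + 1) * n ≤ 24 * (Z.W - 4 * Z.ρ) ^ 2 := by
      have t1 : ((Z.W : ℝ) + 1) ≤ 2 * Z.W := by linarith
      have t2 : (2 * (Z.N : ℝ) + 1) * n ≤ 3 * Z.W := by nlinarith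
      have t3 : (Z.W : ℝ) ≤ 2 * (Z.W - 4 * Z.ρ) := by linarith
      have t4 : ((Z.W : ℝ) + 1) * ((2 * Z.N + 1) * n) ≤ (2 * Z.W) * (3 * Z.W) :=
        mul_le_mul t1 t2 (by positivity) (by positivity)
      have t5 : (Z.W : ℝ) * Z.W ≤ (2 * (Z.W - 4 * Z.ρ)) * (2 * (Z.W - 4 * Z.ρ)) :=
        mul_le_mul t3 t3 (by positivity) (by positivity)
      nlinarith
    have : (0 : ℝ) ≤ 4 * Z.ρ ^ 2 := by positivity
    nlinarith [mul_le_mul_of_nonneg_left e1 this]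
  have k2 : (Z.per : ℝ) * (Z.h + 1) * (2 * Z.ρ / (Z.h - 4 * Z.ρ)) ^ 2 ≤ 32 * Z.ρ ^ 2 / n := by
    have hpos : (0 : ℝ) < Z.h - 4 * Z.ρ := by linarith
    rw [div_pow, ← mul_div_assoc, div_le_div_iff₀ (by positivity) hnr]
    have e1 : (Z.per : ℝ) * (Z.h + 1) * n ≤ 8 * (Z.h - 4 * Z.ρ) ^ 2 := by
      have t1 : ((Z.h : ℝ) + 1) ≤ 2 * Z.h := by linarith
      have t3 : (Z.h : ℝ) ≤ 2 * (Z.h - 4 * Z.ρ) := by linarith
      have t4 : ((Z.h : ℝ) + 1) * (n * Z.per) ≤ (2 * Z.h) * Z.h :=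
        mul_le_mul t1 h2r (by positivity) (by positivity)
      have t5 : (Z.h : ℝ) * Z.h ≤ (2 * (Z.h - 4 * Z.ρ)) * (2 * (Z.h - 4 * Z.ρ)) :=
        mul_le_mul t3 t3 (by positivity) (by positivity)
      nlinarith
    have : (0 : ℝ) ≤ 4 * Z.ρ ^ 2 := by positivity
    nlinarith [mul_le_mul_of_nonneg_left e1 this]
  have hA : (0 : ℝ) ≤ (Fintype.card S.A : ℝ) * 30 := by positivity
  have := mul_le_mul_of_nonneg_left (add_le_add k1 k2) hA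
  calc _ = (Fintype.card S.A : ℝ) * 30 *
        (((Z.W : ℝ) + 1) * (2 * Z.N + 1) * (2 * Z.ρ / (Z.W - 4 * Z.ρ)) ^ 2 +
          (Z.per : ℝ) * (Z.h + 1) * (2 * Z.ρ / (Z.h - 4 * Z.ρ)) ^ 2) := by ring
    _ ≤ (Fintype.card S.A : ℝ) * 30 * (96 * Z.ρ ^ 2 / n + 32 * Z.ρ ^ 2 / n) := this
    _ = _ := by ring

lemma bddLine (b : Cl S ⊕ Cl S → Bool) : BddLine χ1 (Z.AA b) := by
  refine ⟨Z.Pi, fun ω => ⟨_, ?_, rfl⟩⟩
  have h0 := Z.φ1.nonneg ω.1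
  have h1 := Z.φ1.lt ω.1
  simp only [χ1_apply]
  rw [abs_le]
  split_ifs <;> omega

end Z1

lemma amenE_common_rad (K : Finset (Perm (Om S))) (hK : ∀ g ∈ K, g ∈ LocP S) :
    ∃ ρ : ℕ, ∀ g ∈ K, HasRad g ρ := by
  classical
  induction K using Finset.induction_on with
  | empty => exact ⟨0, by simp⟩
  | insert g K _ ih =>
    obtain ⟨ρ, hρ⟩ := ih (fun g hg => hK g (Finset.mem_insert_of_mem hg))
    obtain ⟨ρ', hρ'⟩ := hK g (Finset.mem_insert_self _ _)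
    refine ⟨max ρ ρ', fun g' hg' => ?_⟩
    rcases Finset.mem_insert.mp hg' with rfl | h
    · exact hρ'.mono (le_max_right _ _)
    · exact (hρ g' h).mono (le_max_left _ _)

/-- First step.  Plan: `ρ` a common radius of `K` plus one, data of `HZ1` for large `n`.
Bits: `I = I₁ ⊕ I₂`, `I₁ = S.A × ℤ × ℤ × Track` (labels), `I₂ = S.A × ZMod π × ℤ × Track` (knowledge).
`θ (inl (a, u, j, t)) = ramp (R + 2ρ) (R + W - 2ρ) u` if `|j| < N`, else `0`;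
`θ (inr (a, ū, j, t)) = ramp (r + 2ρ) (r + h - 2ρ) j`.
For `ω = (x, t)`, `u = φ1.r x`, `j = φ2.r x`, `y₀ = (-u, -j) + x`, `y₁ = (-u, N - j) + x` (base points on the
boundary rows below and above), `cl₀ ω = (y₀ (c, 0), u, j, t)`, `cl₁ ω = (y₁ (c, 0), u, j - N, t)`,
`cl' ω = (y₀ (c, 0), u mod π, j, t)`.  `I'` = all of `I₂` and the label classes with `|j| + ρ ≤ N`.  For
`b : I' → Bool`: `e ω = false` if `j < r + ρ`, `true` if `j > r + h - ρ`, else `b (cl' ω)`;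
`λ ω = b (cl₁ ω)` if `e ω` else `b (cl₀ ω)`; `A b ω = ln χ1 ((-u + Pi * [λ ω], 0) + x)`.
For `g ∈ K` and a chosen base point `y a` with letter `a` at `(c, 0)`:
`σ (inl (a, u, j, t)) = inl (a, actP g (y a) ((u, j), t))` if `R + ρ ≤ u ≤ R + W - ρ`, else `ι`;
`σ (inr (a, ū, j, t)) = inr (a, actP g (y a) ((u₀, j), t) mod π)` if `r + ρ ≤ j ≤ r + h - ρ`, else `ι`, where
`u₀ ≡ ū` lies in a fixed interval of length `π` in the middle of the zone; by periodicity in the slab every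
`u ≡ ū` in `[R + ρ, R + W - ρ]` gives the same class, and `σ` is injective there (translate by a multiple
of `π` of size `≤ π + 2 ρ`).  Then `A (b ∘ ι) (g ω) = A (b ∘ σ) ω` for `b ∈ s`: if `u` is outside
`[R + ρ, R + W - ρ]` all labels are forced; otherwise `e` agrees (same tile), or is forced and the
associated boundary row is the same.  `bernoulli`, `ramp_lip`: the sum is at most
`|A| · 30 · ((W + 1) · 2 N · (2ρ / (W - 4ρ))² + π · (h + 1) · (2ρ / (h - 4ρ))²) → 0`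
because `n N ≤ W`, `n π ≤ h < N`, `n ≤ π`. -/
theorem approx1 (hf : Free S) (hz : HZ1 S) (K : Finset (Perm (Om S))) (hK : ∀ g ∈ K, g ∈ LocP S)
    {ε : ℝ} (hε : 0 < ε) : Approx χ1 K ε := by
  obtain ⟨ρ₀, hρ₀⟩ := amenE_common_rad K hK
  set ρ := ρ₀ + 1 with hρ
  obtain ⟨n₁, hn₁⟩ := exists_nat_ge ((Fintype.card S.A : ℝ) * 30 * (128 * (ρ : ℝ) ^ 2) / (ε / 2) ^ 2)
  set n := max n₁ (8 * ρ) with hn
  have hn8 : 8 * ρ ≤ n := le_max_right _ _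
  obtain ⟨Pi, N, per, W, h, φ1, φ2, c, R, r, h1, h2, h3, h4, h5, h6, h7, h8, h9⟩ := hz n
  have hper : 0 < per := by omega
  have hnh : n ≤ h := le_trans (Nat.le_mul_of_pos_right _ hper) h2
  have hhN : h < N := by omega
  have hW : 4 * per + 8 * ρ ≤ W := by
    have a1 : 8 * per ≤ h := le_trans (Nat.mul_le_mul_right _ (by omega)) h2
    have a2 : 8 * N ≤ W := le_trans (Nat.mul_le_mul_right _ (by omega)) h3
    omega
  let Z : Z1 S := ⟨Pi, N, per, W, h, φ1, φ2, c, R, r, ρ, by omega, hper, hW, by omega, h4, h5, h6, h7,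
    h8, h9⟩
  obtain ⟨s, w, hw0, hw1, hs, hb⟩ := bernoulli Z.θ Z.JJ Z.θ_det
  refine ⟨_, s, w, fun b => Z.AA (b ∘ Z.ι), hw0, hw1, fun b _ => Z.bddLine _, ?_⟩
  intro g hg f hf01
  have hgr : HasRad g (Z.ρ - 1) := hρ₀ g hg
  have e : ∑ b ∈ s, w b * f (fun ω => Z.AA (b ∘ Z.ι) (g ω)) =
      ∑ b ∈ s, w b * f (Z.AA (b ∘ Z.σ g)) := by
    refine Finset.sum_congr rfl fun b hbs => ?_
    congr 2
    funext ω
    exact Z.key hf hgr (hs b hbs) ω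
  rw [e]
  refine (hb _ (Z.σ g) Z.ι Z.JJ (Z.σ_eq_ι g) (Z.injOn_σ hf hgr) Z.injOn_ι (fun b => f (Z.AA b))
    (fun b => hf01 _)).trans ?_
  have hnpos : 0 < n := by omega
  have hsum := Z.sum_le hf hgr hnpos h3 h2
  have hnr : (0 : ℝ) < n := by exact_mod_cast hnpos
  have hn1 : (n₁ : ℝ) ≤ n := by exact_mod_cast le_max_left _ _
  have hle : (Fintype.card S.A : ℝ) * 30 * (128 * (ρ : ℝ) ^ 2) / n ≤ (ε / 2) ^ 2 := by
    rw [div_le_iff₀ hnr]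
    rw [div_le_iff₀ (by positivity)] at hn₁
    nlinarith [sq_nonneg (ε / 2)]
  have : √(∑ i ∈ Z.JJ, (Z.θ (Z.σ g i) - Z.θ (Z.ι i)) ^ 2) ≤ ε / 2 :=
    Real.sqrt_le_iff.mpr ⟨by positivity, hsum.trans hle⟩
  linarith

end Crest.Agent.R189
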