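import Crest.Agent.R189.Blk

/-!
Row 189.  Track translations, the group `GG`, small orbits, restriction, multisection induction.
-/

set_option autoImplicit false

namespace Crest.Agent.R189

open Equiv

variable {S : Wang}

/-- translation of the tracks -/
def tau (D : Track → V) : Perm (Om S) where
  toFun ω := (D ω.2 +ᵥ ω.1, ω.2)
  invFun ω := ((-D ω.2) +ᵥ ω.1, ω.2)
  left_inv ω := by simp [vadd_vadd]
  right_inv ω := by simp [vadd_vadd]

lemma tau_pt (D : Track → V) (x : Cfg S) (p : Pt) : tau D (pt x p) = pt x (shP (D p.2) p) := by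
  simp only [tau, pt, shP, coe_fn_mk, vadd_vadd, add_comm]
lemma tau_add (D D' : Track → V) : (tau (D + D') : Perm (Om S)) = tau D * tau D' := by
  refine Equiv.ext fun ω => ?_
  simp only [tau, Perm.mul_apply, coe_fn_mk, vadd_vadd, Pi.add_apply]
lemma tau_zero : (tau 0 : Perm (Om S)) = 1 := by
  refine Equiv.ext fun ω => ?_
  simp [tau]
lemma tau_mem_locP (D : Track → V) : (tau D : Perm (Om S)) ∈ LocP S := by
  exact memLocP_of_locF (fun i _ => (D i, i)) (fun _ => LocF.const _) fun _ _ => rfl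

/-- aligned three-cycle of tracks over `W` -/
noncomputable def cW (i j k : Track) (W : Set (Cfg S)) : Perm (Om S) :=
  cycW (0, i) (0, j) (0, k) W

lemma adm3_of_tracks {p q r : Pt} (h : D3 p.2 q.2 r.2) {W : Set (Cfg S)} (hW : Loc W) :
    Adm3 p q r W := by
  obtain ⟨h1, h2, h3⟩ := h
  refine ⟨⟨fun e => h1 (e ▸ rfl), fun e => h2 (e ▸ rfl), fun e => h3 (e ▸ rfl)⟩, hW,
    adm_of_tracks ?_ W⟩
  rintro a (rfl | rfl | rfl) b (rfl | rfl | rfl) e <;>
    first | rfl | exact absurd e ‹_› | exact absurd e.symm ‹_›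

open Classical in
lemma cW_apply {i j k : Track} (h : D3 i j k) {W : Set (Cfg S)} (hW : Loc W) (x : Cfg S)
    (l : Track) : cW i j k W (x, l) = if x ∈ W then (x, cyc i j k l) else (x, l) := by
  have ha : Adm3 (0, i) (0, j) (0, k) W := adm3_of_tracks h hW
  split_ifs with hx
  · obtain ⟨a1, a2, a3⟩ := ha.apply hx
    simp only [pt_zero] at a1 a2 a3
    by_cases hi : l = i
    · rw [hi, cyc_apply_fst h]; exact a1
    by_cases hj : l = j
    · rw [hj, cyc_apply_snd h]; exact a2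
    by_cases hk : l = k
    · rw [hk, cyc_apply_thd h]; exact a3
    rw [cyc_apply_of_ne hi hj hk]
    refine cycW_fix ha fun hm => ?_
    obtain ⟨p, hp, e, -⟩ := mem_img_iff.1 hm
    rcases hp with rfl | rfl | rfl
    exacts [hi e.symm, hj e.symm, hk e.symm]
  · refine cycW_fix ha fun hm => ?_
    obtain ⟨p, hp, -, e⟩ := mem_img_iff.1 hm
    rcases hp with rfl | rfl | rfl <;> exact hx (by simpa using e)

/-- local permutations of order dividing three -/
def C3 (S : Wang) : Set (Perm (Om S)) := {c | c ∈ LocP S ∧ c ^ 3 = 1}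

/-- the group -/
def GG (S : Wang) : Subgroup (Perm (Om S)) := Subgroup.closure (C3 S)

lemma GG_le : GG S ≤ LocP S := by
  exact (Subgroup.closure_le _).2 fun c hc => hc.1
lemma cycW_mem_C3 {p q r : Pt} {W : Set (Cfg S)} (h : Adm3 p q r W) : cycW p q r W ∈ C3 S :=
  ⟨cycW_mem_locP h, cycW_cube h⟩
lemma conj_mem_C3 {g c : Perm (Om S)} (hg : g ∈ LocP S) (hc : c ∈ C3 S) : g * c * g⁻¹ ∈ C3 S := by
  refine ⟨(LocP S).mul_mem ((LocP S).mul_mem hg hc.1) ((LocP S).inv_mem hg), ?_⟩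
  rw [conj_pow, hc.2, mul_one, mul_inv_cancel]

/-- all orbits of `⟨c₁, c₂⟩` have at most four points -/
def SmallOrb (c₁ c₂ : Perm (Om S)) : Prop :=
  ∀ ω, ∃ O : Finset (Om S), O.card ≤ 4 ∧ ω ∈ O ∧ ∀ ω' ∈ O, c₁ ω' ∈ O ∧ c₂ ω' ∈ O

lemma gg_cube {c : Perm (Om S)} (h : c ^ 3 = 1) (ω : Om S) : c (c (c ω)) = ω := by
  have := congrArg (fun g : Perm (Om S) => g ω) h
  simpa only [pow_three, Perm.mul_apply, Perm.one_apply] using this

lemma SmallOrb.conj {c₁ c₂ : Perm (Om S)} (h : SmallOrb c₁ c₂) (g : Perm (Om S)) :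
    SmallOrb (g * c₁ * g⁻¹) (g * c₂ * g⁻¹) := by
  classical
  intro ω
  obtain ⟨O, h1, h2, h3⟩ := h (g⁻¹ ω)
  refine ⟨O.image g, Finset.card_image_le.trans h1, Finset.mem_image.2 ⟨_, h2, by simp⟩, ?_⟩
  intro ω' hω'
  obtain ⟨a, ha, rfl⟩ := Finset.mem_image.1 hω'
  exact ⟨Finset.mem_image.2 ⟨_, (h3 a ha).1, by simp⟩, Finset.mem_image.2 ⟨_, (h3 a ha).2, by simp⟩⟩
lemma smallOrb_of_disjoint {c₁ c₂ : Perm (Om S)} (h1 : c₁ ^ 3 = 1) (h2 : c₂ ^ 3 = 1)
    (hd : Perm.Disjoint c₁ c₂) : SmallOrb c₁ c₂ := by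
  classical
  have key : ∀ {c c' : Perm (Om S)}, c ^ 3 = 1 → Perm.Disjoint c c' → ∀ ω, c' ω = ω →
      ∃ O : Finset (Om S), O.card ≤ 4 ∧ ω ∈ O ∧ ∀ ω' ∈ O, c ω' ∈ O ∧ c' ω' ∈ O := by
    intro c c' h hd ω hω
    have e : c (c (c ω)) = ω := gg_cube h ω
    have hc : ∀ a, c' (c a) = c (c' a) := fun a => by
      rw [← Perm.mul_apply, ← hd.commute.eq, Perm.mul_apply]
    refine ⟨{ω, c ω, c (c ω)}, Finset.card_le_three.trans (by norm_num), by simp, ?_⟩
    simp [e, hc, hω]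
  intro ω
  rcases hd ω with h | h
  · obtain ⟨O, a1, a2, a3⟩ := key h2 hd.symm ω h
    exact ⟨O, a1, a2, fun ω' h' => (a3 ω' h').symm⟩
  · exact key h1 hd ω h
lemma smallOrb_self {c : Perm (Om S)} (h : c ^ 3 = 1) : SmallOrb c c ∧ SmallOrb c c⁻¹ := by
  classical
  have hi : ∀ a, c⁻¹ a = c (c a) := fun a => by rw [Perm.inv_eq_iff_eq, gg_cube h]
  refine ⟨fun ω => ?_, fun ω => ?_⟩
  all_goals
    have e : c (c (c ω)) = ω := gg_cube h ω
    refine ⟨{ω, c ω, c (c ω)}, Finset.card_le_three.trans (by norm_num), by simp, ?_⟩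
    try simp only [hi]
    simp [e]
lemma smallOrb_of_isBlk {c₁ c₂ : Perm (Om S)} {F : Finset Pt} (hF : F.card ≤ 4) {W : Set (Cfg S)}
    {π₁ π₂ : Cfg S → Perm Pt} (h1 : IsBlk c₁ F W π₁) (h2 : IsBlk c₂ F W π₂)
    (hπ : ∀ x ∈ W, ∀ p ∈ F, π₁ x p ∈ F ∧ π₂ x p ∈ F) : SmallOrb c₁ c₂ := by
  classical
  intro ω
  by_cases hω : ω ∈ img (F : Set Pt) W
  · obtain ⟨x, hx, p, hp, rfl⟩ := hω
    refine ⟨F.image (pt x), Finset.card_image_le.trans hF, Finset.mem_image_of_mem _ hp, ?_⟩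
    intro ω' h'
    obtain ⟨q, hq, rfl⟩ := Finset.mem_image.1 h'
    rw [h1.1 x hx q hq, h2.1 x hx q hq]
    exact ⟨Finset.mem_image_of_mem _ (hπ x hx q hq).1, Finset.mem_image_of_mem _ (hπ x hx q hq).2⟩
  · refine ⟨{ω}, by simp, by simp, ?_⟩
    simp [h1.2 ω hω, h2.2 ω hω]

/-- local subsets of `Om S` -/
def LocO (Y : Set (Om S)) : Prop := ∀ i : Track, Loc {x | (x, i) ∈ Y}

/-- invariant subsets -/
def InvO (g : Perm (Om S)) (Y : Set (Om S)) : Prop := ∀ ω, g ω ∈ Y ↔ ω ∈ Y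

/-- a family of local functions evaluated at a local index is local -/
lemma gg_locF_dep {β γ : Type} {a : Cfg S → β} (ha : LocF a) {f : β → Cfg S → γ}
    (hf : ∀ b, LocF (f b)) : LocF (fun x => f (a x) x) := by
  have := ha.finite_range.to_subtype
  obtain ⟨ρ, hρ⟩ := (LocF.pi (f := fun (b : Set.range a) => f b.1) fun b => hf b.1).prod ha
  refine ⟨ρ, fun x y hxy => ?_⟩
  have h := hρ x y hxy
  have h1 : a x = a y := congrArg Prod.snd h
  have h2 : f (a y) x = f (a y) y := congrFun (congrArg Prod.fst h) ⟨a y, y, rfl⟩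
  simp only [h1, h2]

lemma LocO.univ : LocO (Set.univ : Set (Om S)) := by
  exact fun _ => Loc.univ
lemma LocO.empty : LocO (∅ : Set (Om S)) := by
  exact fun _ => Loc.empty
lemma LocO.union {Y Y' : Set (Om S)} (h : LocO Y) (h' : LocO Y') : LocO (Y ∪ Y') := by
  exact fun i => (h i).union (h' i)
lemma LocO.inter {Y Y' : Set (Om S)} (h : LocO Y) (h' : LocO Y') : LocO (Y ∩ Y') := by
  exact fun i => (h i).inter (h' i)
lemma LocO.compl {Y : Set (Om S)} (h : LocO Y) : LocO Yᶜ := by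
  exact fun i => (h i).compl
lemma LocO.img {F : Set Pt} (hF : F.Finite) {W : Set (Cfg S)} (hW : Loc W) : LocO (img F W) := by
  intro i
  have := hF.to_subtype
  have hf : LocF (fun x : Cfg S => fun p : F => ((-p.1.1) +ᵥ x ∈ W : Prop)) :=
    LocF.pi fun p => LocF.vadd hW _
  have h2 := hf.comp fun d : F → Prop => ∃ p : F, p.1.2 = i ∧ d p
  have e : (fun x : Cfg S => x ∈ {x | (x, i) ∈ R189.img F W}) =
      fun x => ∃ p : F, p.1.2 = i ∧ (-p.1.1) +ᵥ x ∈ W := by
    funext x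
    simp only [Set.mem_ofPred_eq, mem_img_iff, Subtype.exists, exists_prop]
  unfold Loc
  rw [e]; exact h2
lemma LocO.preimage {Y : Set (Om S)} (h : LocO Y) {g : Perm (Om S)} (hg : g ∈ LocP S) :
    LocO (g ⁻¹' Y) := by
  intro i
  obtain ⟨a, ha, hga⟩ := exists_locF_of_memLocP hg
  have e : {x | (x, i) ∈ g ⁻¹' Y} = {x | R189.pt x (a i x) ∈ Y} := by
    ext x; simp only [Set.mem_ofPred_eq, Set.mem_preimage, hga]
  rw [e]
  exact gg_locF_dep (ha i) (f := fun p x => R189.pt x p ∈ Y) fun p => LocF.vadd (h p.2) p.1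
lemma LocO.pt {Y : Set (Om S)} (h : LocO Y) (p : Pt) : Loc {x | pt x p ∈ Y} := by
  exact LocF.vadd (h p.2) p.1
/-- the set of moved points of a local permutation is local -/
lemma locO_moved (hf : Free S) {g : Perm (Om S)} (hg : g ∈ LocP S) : LocO {ω | g ω ≠ ω} := by
  intro i
  obtain ⟨a, ha, hga⟩ := exists_locF_of_memLocP hg
  have e : {x | (x, i) ∈ {ω | g ω ≠ ω}} = (a i) ⁻¹' {p | p ≠ (0, i)} := by
    ext x
    simp only [Set.mem_ofPred_eq, Set.mem_preimage, hga, ne_eq]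
    rw [← pt_zero x i, (hf.pt_inj x).eq_iff]
  rw [e]
  exact (ha i).preimage _

lemma InvO.one (Y : Set (Om S)) : InvO (1 : Perm (Om S)) Y := fun _ => Iff.rfl
lemma InvO.mul {g h : Perm (Om S)} {Y : Set (Om S)} (hg : InvO g Y) (hh : InvO h Y) :
    InvO (g * h) Y := fun ω => (hg (h ω)).trans (hh ω)
lemma InvO.inv {g : Perm (Om S)} {Y : Set (Om S)} (hg : InvO g Y) : InvO g⁻¹ Y := by
  intro ω
  rw [← hg]; simp
lemma InvO.union {g : Perm (Om S)} {Y Y' : Set (Om S)} (h : InvO g Y) (h' : InvO g Y') :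
    InvO g (Y ∪ Y') := by
  intro ω
  simp only [Set.mem_union, h ω, h' ω]
lemma InvO.inter {g : Perm (Om S)} {Y Y' : Set (Om S)} (h : InvO g Y) (h' : InvO g Y') :
    InvO g (Y ∩ Y') := by
  intro ω
  simp only [Set.mem_inter_iff, h ω, h' ω]
lemma InvO.compl {g : Perm (Om S)} {Y : Set (Om S)} (h : InvO g Y) : InvO g Yᶜ := by
  intro ω
  simp only [Set.mem_compl_iff, h ω]
lemma InvO.of_fix {g : Perm (Om S)} {Y : Set (Om S)} (h : ∀ ω, ω ∉ Y → g ω = ω) : InvO g Y := by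
  exact perm_mem_iff h

open Classical in
/-- restriction of a permutation to an invariant set -/
noncomputable def res (g : Perm (Om S)) (Y : Set (Om S)) : Perm (Om S) :=
  if h : InvO g Y then Perm.ofSubtype (g.subtypePerm (p := fun ω => ω ∈ Y) h) else 1

lemma res_apply_mem {g : Perm (Om S)} {Y : Set (Om S)} (h : InvO g Y) {ω : Om S} (hω : ω ∈ Y) :
    res g Y ω = g ω := by
  classical
  rw [res, dif_pos h]
  exact Perm.ofSubtype_subtypePerm_of_mem (p := fun ω => ω ∈ Y) h hω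
lemma res_apply_not_mem (g : Perm (Om S)) {Y : Set (Om S)} {ω : Om S} (hω : ω ∉ Y) :
    res g Y ω = ω := by
  classical
  unfold res
  split_ifs with h
  · exact Perm.ofSubtype_apply_of_not_mem _ hω
  · rfl
lemma res_univ (g : Perm (Om S)) : res g Set.univ = g := by
  exact Equiv.ext fun ω => res_apply_mem (fun _ => Iff.rfl) (Set.mem_univ _)
lemma res_empty (g : Perm (Om S)) : res g ∅ = 1 := by
  exact Equiv.ext fun ω => res_apply_not_mem g (Set.notMem_empty _)
lemma res_one (Y : Set (Om S)) : res (1 : Perm (Om S)) Y = 1 := by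
  refine Equiv.ext fun ω => ?_
  by_cases hω : ω ∈ Y
  · exact res_apply_mem (InvO.one Y) hω
  · exact res_apply_not_mem _ hω
lemma res_mul {g h : Perm (Om S)} {Y : Set (Om S)} (hg : InvO g Y) (hh : InvO h Y) :
    res (g * h) Y = res g Y * res h Y := by
  refine Equiv.ext fun ω => ?_
  by_cases hω : ω ∈ Y
  · rw [res_apply_mem (hg.mul hh) hω, Perm.mul_apply, Perm.mul_apply, res_apply_mem hh hω,
      res_apply_mem hg ((hh ω).2 hω)]
  · rw [Perm.mul_apply, res_apply_not_mem _ hω, res_apply_not_mem _ hω, res_apply_not_mem _ hω]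
lemma res_inv {g : Perm (Om S)} {Y : Set (Om S)} (hg : InvO g Y) :
    res g⁻¹ Y = (res g Y)⁻¹ := by
  refine eq_inv_of_mul_eq_one_left ?_
  rw [← res_mul hg.inv hg, inv_mul_cancel, res_one]
lemma res_union {g : Perm (Om S)} {Y Y' : Set (Om S)} (h : InvO g Y) (h' : InvO g Y')
    (hd : Disjoint Y Y') : res g (Y ∪ Y') = res g Y * res g Y' := by
  rw [Set.disjoint_left] at hd
  refine Equiv.ext fun ω => ?_
  rw [Perm.mul_apply]
  by_cases h2 : ω ∈ Y'
  · rw [res_apply_mem (h.union h') (Or.inr h2), res_apply_mem h' h2,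
      res_apply_not_mem _ fun h3 => hd h3 ((h' ω).2 h2)]
  · rw [res_apply_not_mem _ h2]
    by_cases h1 : ω ∈ Y
    · rw [res_apply_mem (h.union h') (Or.inl h1), res_apply_mem h h1]
    · rw [res_apply_not_mem _ h1, res_apply_not_mem _ (by rintro (h3 | h3) <;> contradiction)]
lemma gg_invO_res {g : Perm (Om S)} {Y Y' : Set (Om S)} (h : InvO g Y) (h' : InvO g Y') :
    InvO (res g Y) Y' := by
  intro ω
  by_cases hω : ω ∈ Y
  · rw [res_apply_mem h hω, h' ω]
  · rw [res_apply_not_mem _ hω]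

lemma res_res {g : Perm (Om S)} {Y Y' : Set (Om S)} (h : InvO g Y) (h' : InvO g Y') :
    res (res g Y) Y' = res g (Y ∩ Y') := by
  refine Equiv.ext fun ω => ?_
  by_cases h2 : ω ∈ Y'
  · rw [res_apply_mem (gg_invO_res h h') h2]
    by_cases h1 : ω ∈ Y
    · rw [res_apply_mem h h1, res_apply_mem (h.inter h') ⟨h1, h2⟩]
    · rw [res_apply_not_mem _ h1, res_apply_not_mem _ fun h3 => h1 h3.1]
  · rw [res_apply_not_mem _ h2, res_apply_not_mem _ fun h3 => h2 h3.2]
lemma InvO.res {g : Perm (Om S)} {Y Y' : Set (Om S)} (h : InvO g Y) (h' : InvO g Y') :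
    InvO (res g Y) Y' := by
  exact gg_invO_res h h'
lemma res_of_fix {g : Perm (Om S)} {Y : Set (Om S)} (h : ∀ ω, ω ∉ Y → g ω = ω) : res g Y = g := by
  refine Equiv.ext fun ω => ?_
  by_cases hω : ω ∈ Y
  · exact res_apply_mem (InvO.of_fix h) hω
  · rw [res_apply_not_mem _ hω, h ω hω]
lemma res_eq_one {g : Perm (Om S)} {Y : Set (Om S)} (h : ∀ ω ∈ Y, g ω = ω) : res g Y = 1 := by
  refine Equiv.ext fun ω => ?_
  by_cases hω : ω ∈ Y
  · have hi : InvO g Y := by
      have := InvO.of_fix (g := g) (Y := Yᶜ) fun ω hω => h ω (not_not.1 hω)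
      simpa using this.compl
    rw [res_apply_mem hi hω, h ω hω]; rfl
  · exact res_apply_not_mem _ hω
lemma res_disjoint (g h : Perm (Om S)) {Y Y' : Set (Om S)} (hd : Disjoint Y Y') :
    Perm.Disjoint (res g Y) (res h Y') := by
  intro ω
  by_cases hω : ω ∈ Y
  · exact Or.inr (res_apply_not_mem _ (Set.disjoint_left.1 hd hω))
  · exact Or.inl (res_apply_not_mem _ hω)
lemma res_mem_locP {g : Perm (Om S)} (hg : g ∈ LocP S) {Y : Set (Om S)} (hY : LocO Y) :
    res g Y ∈ LocP S := by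
  classical
  by_cases hi : InvO g Y
  · obtain ⟨a, ha, hga⟩ := exists_locF_of_memLocP hg
    refine memLocP_of_locF (fun i x => if (x, i) ∈ Y then a i x else (0, i))
      (fun i => (LocF.prod (hY i) (ha i)).comp fun z : Prop × Pt => if z.1 then z.2 else (0, i))
      fun x i => ?_
    split_ifs with hx
    · rw [res_apply_mem hi hx, hga]
    · rw [res_apply_not_mem _ hx, pt_zero]
  · rw [res, dif_neg hi]; exact (LocP S).one_mem
lemma res_mem_C3 {g : Perm (Om S)} (hg : g ∈ C3 S) {Y : Set (Om S)} (hY : LocO Y) :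
    res g Y ∈ C3 S := by
  refine ⟨res_mem_locP hg.1 hY, ?_⟩
  by_cases hi : InvO g Y
  · rw [pow_three', ← res_mul hi hi, ← res_mul (hi.mul hi) hi, ← pow_three', hg.2, res_one]
  · rw [res, dif_neg hi, one_pow]
lemma res_conj {g : Perm (Om S)} {Y : Set (Om S)} (h : InvO g Y) (k : Perm (Om S)) :
    k * res g Y * k⁻¹ = res (k * g * k⁻¹) (k '' Y) := by
  have hm : ∀ ω, ω ∈ k '' Y ↔ k⁻¹ ω ∈ Y := fun ω => by
    rw [Equiv.image_eq_preimage_symm]; rfl
  have hi : InvO (k * g * k⁻¹) (k '' Y) := fun ω => by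
    rw [hm, hm, ← h (k⁻¹ ω)]; simp
  refine Equiv.ext fun ω => ?_
  by_cases hω : k⁻¹ ω ∈ Y
  · rw [res_apply_mem hi ((hm ω).2 hω)]
    simp only [Perm.mul_apply, res_apply_mem h hω]
  · rw [res_apply_not_mem _ fun h' => hω ((hm ω).1 h')]
    simp only [Perm.mul_apply, res_apply_not_mem _ hω]
    simp

end Crest.Agent.R189
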