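import Crest.Agent.R189.AmenD
import Crest.Agent.R189.AmenE
import Crest.Agent.R189.GG

/-!
Row 189.  Amenability of `GG`.
-/

set_option autoImplicit false

namespace Crest.Agent.R189

open Equiv Crest.GroupTheory

variable {S : Wang}

theorem GG_amenable (hf : Free S) (h1 : HZ1 S) (h2 : HZ2 S) : Amenable (GG S) := by
  have hl : ∀ h : GG S, (GG S).subtype h ∈ LocP S := fun h => GG_le h.2
  refine amenable_of_approx_lines (GG S).subtype χ1 ?_ ?_
  · intro K ε hK hε
    refine approx1 hf h1 K (fun g hg => ?_) hε
    obtain ⟨h, rfl⟩ := hK g hg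
    exact hl h
  · intro A hA H' hH'
    refine amenable_of_approx_lines ((GG S).subtype.comp H'.subtype) χ2 ?_ ?_
    · intro K ε hK hε
      refine approx2 hf h2 hA K (fun g hg => ?_) hε
      obtain ⟨h, rfl⟩ := hK g hg
      exact ⟨hl _, hH' h.1 h.2⟩
    · intro B hB H'' hH''
      refine amenable_of_bdd hf (((GG S).subtype.comp H'.subtype).comp H''.subtype) ?_ ?_ hA hB ?_ ?_
      · exact (Subtype.val_injective.comp Subtype.val_injective).comp Subtype.val_injective
      · intro h; exact hl _
      · intro h ω; exact hH' h.1.1 h.1.2 ω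
      · intro h ω; exact hH'' h.1 h.2 ω

end Crest.Agent.R189
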