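import Mathlib
import Crest.Prelude.Def_Amenable

/-!
Row 189.  General criteria for amenability.
-/

set_option autoImplicit false

namespace Crest.Agent.R189

open Crest.GroupTheory
open scoped Pointwise

private lemma amenA_le_one {H : Type} {m : Set H → ℝ} (h0 : ∀ E, 0 ≤ m E) (h1 : m Set.univ = 1)
    (ha : ∀ E E', Disjoint E E' → m (E ∪ E') = m E + m E') (E : Set H) : m E ≤ 1 := by
  have := ha E Eᶜ disjoint_compl_right
  rw [Set.union_compl_self, h1] at this
  linarith [h0 Eᶜ]

/-- approximately invariant finitely additive probabilities suffice (limit along an ultrafilter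
refining `atTop` on `Finset H × ℕ`, then `ENNReal.ofReal`) -/
theorem amenable_of_approx {H : Type} [Group H]
    (h : ∀ (K : Finset H) (ε : ℝ), 0 < ε → ∃ m : Set H → ℝ, (∀ E, 0 ≤ m E) ∧ m Set.univ = 1 ∧
      (∀ E E', Disjoint E E' → m (E ∪ E') = m E + m E') ∧
      ∀ g ∈ K, ∀ E, |m (g • E) - m E| ≤ ε) : Amenable H := by
  classical
  have h' : ∀ p : Finset H × ℕ, ∃ m : Set H → ℝ, (∀ E, 0 ≤ m E) ∧ m Set.univ = 1 ∧
      (∀ E E', Disjoint E E' → m (E ∪ E') = m E + m E') ∧
      ∀ g ∈ p.1, ∀ E, |m (g • E) - m E| ≤ 1 / ((p.2 : ℝ) + 1) :=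
    fun p => h p.1 _ (by positivity)
  choose m h0 h1 ha hi using h'
  let U : Ultrafilter (Finset H × ℕ) := Ultrafilter.of Filter.atTop
  have hU : (U : Filter (Finset H × ℕ)) ≤ Filter.atTop := Ultrafilter.of_le _
  have hL : ∀ E : Set H, ∃ L ∈ Set.Icc (0 : ℝ) 1, Filter.Tendsto (fun p => m p E) U (nhds L) := by
    intro E
    have := (isCompact_Icc (a := (0 : ℝ)) (b := 1)).ultrafilter_le_nhds (U.map fun p => m p E) (by
      rw [Ultrafilter.coe_map, Filter.le_principal_iff, Filter.mem_map]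
      exact Filter.Eventually.of_forall fun p => ⟨h0 p E, amenA_le_one (h0 p) (h1 p) (ha p) E⟩)
    obtain ⟨L, hL, hle⟩ := this
    exact ⟨L, hL, hle⟩
  choose L hLm hLt using hL
  refine ⟨fun E => ENNReal.ofReal (L E), ?_, ?_, ?_⟩
  · have : L Set.univ = 1 := by
      refine tendsto_nhds_unique (hLt Set.univ) ?_
      simp only [h1]
      exact tendsto_const_nhds
    simp [this]
  · intro E E' hd
    have : L (E ∪ E') = L E + L E' := by
      refine tendsto_nhds_unique (hLt (E ∪ E')) ?_
      simp only [fun p => ha p E E' hd]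
      exact (hLt E).add (hLt E')
    show ENNReal.ofReal (L (E ∪ E')) = _
    rw [this, ENNReal.ofReal_add (hLm E).1 (hLm E').1]
  · intro g E
    have : L (g • E) = L E := by
      have h2 : Filter.Tendsto (fun p => m p (g • E) - m p E) U (nhds (L (g • E) - L E)) :=
        (hLt _).sub (hLt _)
      have h3 : Filter.Tendsto (fun p => m p (g • E) - m p E) U (nhds 0) := by
        refine Filter.Tendsto.mono_left ?_ hU
        have h4 : Filter.Tendsto (fun p : Finset H × ℕ => 1 / ((p.2 : ℝ) + 1)) Filter.atTop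
            (nhds 0) := by
          refine tendsto_one_div_add_atTop_nhds_zero_nat.comp ?_
          rw [← Filter.prod_atTop_atTop_eq]
          exact Filter.tendsto_snd
        refine squeeze_zero_norm' ?_ h4
        filter_upwards [Filter.eventually_ge_atTop (({g} : Finset H), 0)] with p hp
        exact hi p g (hp.1 (Finset.mem_singleton_self g)) E
      have := tendsto_nhds_unique h2 h3
      linarith
    show ENNReal.ofReal (L (g • E)) = _
    rw [this]

/-- real valued form of an invariant mean -/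
theorem Amenable.exists_real {H : Type} [Group H] (h : Amenable H) :
    ∃ m : Set H → ℝ, (∀ E, 0 ≤ m E) ∧ (∀ E, m E ≤ 1) ∧ m Set.univ = 1 ∧
      (∀ E E', Disjoint E E' → m (E ∪ E') = m E + m E') ∧ ∀ (g : H) E, m (g • E) = m E := by
  obtain ⟨m, h1, ha, hi⟩ := h
  have hle : ∀ E, m E ≤ 1 := by
    intro E
    have := ha E Eᶜ disjoint_compl_right
    rw [Set.union_compl_self, h1] at this
    rw [this]
    exact le_self_add
  have hne : ∀ E, m E ≠ ⊤ := fun E => ne_top_of_le_ne_top ENNReal.one_ne_top (hle E)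
  refine ⟨fun E => (m E).toReal, fun E => ENNReal.toReal_nonneg, fun E => ?_, by simp [h1], ?_, ?_⟩
  · have := ENNReal.toReal_mono ENNReal.one_ne_top (hle E)
    simpa using this
  · intro E E' hd
    show (m (E ∪ E')).toReal = _
    rw [ha E E' hd, ENNReal.toReal_add (hne E) (hne E')]
  · intro g E
    show (m (g • E)).toReal = _
    rw [hi]

theorem amenable_of_locally_finite {H : Type} [Group H]
    (h : ∀ K : Finset H, (Subgroup.closure (K : Set H) : Set H).Finite) : Amenable H := by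
  refine amenable_of_approx fun K ε hε => ?_
  set F : Set H := (Subgroup.closure (K : Set H) : Set H) with hF
  have hfin : F.Finite := h K
  have hpos : 0 < F.ncard := (Set.ncard_pos hfin).2 ⟨1, Subgroup.one_mem _⟩
  have hpos' : (0 : ℝ) < F.ncard := by exact_mod_cast hpos
  refine ⟨fun E => ((E ∩ F).ncard : ℝ) / F.ncard, fun E => by positivity, ?_, ?_, ?_⟩
  · simp [hpos'.ne']
  · intro E E' hd
    show ((((E ∪ E') ∩ F).ncard : ℝ)) / _ = _
    rw [Set.union_inter_distrib_right, Set.ncard_union_eq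
      (hd.mono Set.inter_subset_left Set.inter_subset_left)
      (hfin.subset Set.inter_subset_right) (hfin.subset Set.inter_subset_right)]
    push_cast
    ring
  · intro g hg E
    have hgF : g ∈ Subgroup.closure (K : Set H) := Subgroup.subset_closure hg
    have : (g • E) ∩ F = g • (E ∩ F) := by
      ext x
      simp only [Set.mem_inter_iff, Set.mem_smul_set_iff_inv_smul_mem, smul_eq_mul, hF,
        SetLike.mem_coe]
      refine and_congr_right fun _ => ⟨fun hx => ?_, fun hx => ?_⟩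
      · exact Subgroup.mul_mem _ (Subgroup.inv_mem _ hgF) hx
      · simpa using Subgroup.mul_mem _ hgF hx
    simp only [this, Set.ncard_smul_set, sub_self, abs_zero]
    exact hε.le

/-- Almost invariant finitely supported measures on an `H`-set, carried by points with amenable
stabilisers.  Plan: in every orbit containing such a point choose one, `y₀`, an invariant mean `m₀` on its
stabiliser and `t y` with `ρ (t y) y₀ = y`; `f E y = m₀ {s | t y * s ∈ E}` satisfies
`f (g • E) (ρ g y) = f E y`; put `m E = ∑ w i * f E (y i)`. -/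
theorem amenable_of_action {H Y : Type} [Group H] (ρ : H →* Equiv.Perm Y)
    (h : ∀ (K : Finset H) (ε : ℝ), 0 < ε → ∃ (ι : Type) (s : Finset ι) (w : ι → ℝ) (y : ι → Y),
      (∀ i, 0 ≤ w i) ∧ ∑ i ∈ s, w i = 1 ∧
      (∀ i ∈ s, Amenable ((MulAction.stabilizer (Equiv.Perm Y) (y i)).comap ρ)) ∧
      ∀ g ∈ K, ∀ f : Y → ℝ, (∀ z, 0 ≤ f z ∧ f z ≤ 1) →
        |∑ i ∈ s, w i * f (ρ g (y i)) - ∑ i ∈ s, w i * f (y i)| ≤ ε) : Amenable H := by
  classical
  let Am : Y → Prop := fun z => Amenable ((MulAction.stabilizer (Equiv.Perm Y) z).comap ρ)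
  -- means on `H` carried by stabilisers
  have hM : ∀ z : Y, ∃ M : Set H → ℝ, (∀ E, 0 ≤ M E ∧ M E ≤ 1) ∧ (Am z → M Set.univ = 1 ∧
      (∀ E E', Disjoint E E' → M (E ∪ E') = M E + M E') ∧
      ∀ s : H, ρ s z = z → ∀ E, M (s • E) = M E) := by
    intro z
    by_cases hz : Am z
    · obtain ⟨m, h0, h1, hu, ha, hi⟩ := Amenable.exists_real hz
      refine ⟨fun E => m (Subtype.val ⁻¹' E), fun E => ⟨h0 _, h1 _⟩, fun _ => ⟨by simpa using hu,
        ?_, ?_⟩⟩
      · intro E E' hd
        show m (Subtype.val ⁻¹' (E ∪ E')) = _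
        rw [Set.preimage_union, ha _ _ (hd.preimage _)]
      · intro s hs E
        have hs' : s ∈ (MulAction.stabilizer (Equiv.Perm Y) z).comap ρ := by
          simpa [Subgroup.mem_comap, MulAction.mem_stabilizer_iff] using hs
        show m (Subtype.val ⁻¹' (s • E)) = m (Subtype.val ⁻¹' E)
        rw [← hi ⟨s, hs'⟩ (Subtype.val ⁻¹' E)]
        congr 1
        ext x
        simp [Set.mem_smul_set_iff_inv_smul_mem]
    · exact ⟨fun _ => 0, fun _ => ⟨le_rfl, zero_le_one⟩, fun h => absurd h hz⟩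
  choose M hM01 hM using hM
  let rep : Y → Y := fun y => @Classical.epsilon Y ⟨y⟩ fun z => (∃ g : H, ρ g z = y) ∧ Am z
  have hrep : ∀ (g : H) (y : Y), rep (ρ g y) = rep y := by
    intro g y
    have : (fun z => (∃ g' : H, ρ g' z = ρ g y) ∧ Am z) = fun z => (∃ g' : H, ρ g' z = y) ∧ Am z := by
      funext z
      apply propext
      refine and_congr_left fun _ => ⟨?_, ?_⟩
      · rintro ⟨g', hg'⟩
        refine ⟨g⁻¹ * g', ?_⟩
        simp [hg']
      · rintro ⟨g', hg'⟩
        refine ⟨g * g', ?_⟩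
        simp [hg']
    simp only [rep, this]
  have hrep2 : ∀ y, Am y → (∃ g : H, ρ g (rep y) = y) ∧ Am (rep y) := by
    intro y hy
    exact Classical.epsilon_spec (p := fun z => (∃ g : H, ρ g z = y) ∧ Am z) ⟨y, ⟨1, by simp⟩, hy⟩
  have ht : ∀ y : Y, ∃ t : H, (∃ g : H, ρ g (rep y) = y) → ρ t (rep y) = y := by
    intro y
    by_cases hy : ∃ g : H, ρ g (rep y) = y
    · obtain ⟨g, hg⟩ := hy
      exact ⟨g, fun _ => hg⟩
    · exact ⟨1, fun h => absurd h hy⟩
  choose t ht using ht
  let f : Set H → Y → ℝ := fun E y => M (rep y) ((t y)⁻¹ • E)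
  have hf : ∀ (g : H) (E : Set H) (y : Y), Am y → f (g • E) (ρ g y) = f E y := by
    intro g E y hy
    obtain ⟨hg, hA⟩ := hrep2 y hy
    have h1 := ht y hg
    have h2 : ρ (t (ρ g y)) (rep y) = ρ g y := by
      have := ht (ρ g y) (by
        rw [hrep]
        exact ⟨g * t y, by simp [h1]⟩)
      rwa [hrep] at this
    have h3 : ρ ((t (ρ g y))⁻¹ * g * t y) (rep y) = rep y := by
      simp only [map_mul, map_inv, Equiv.Perm.coe_mul, Function.comp_apply, h1]
      rw [Equiv.Perm.inv_eq_iff_eq]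
      exact h2.symm
    show M (rep (ρ g y)) ((t (ρ g y))⁻¹ • g • E) = M (rep y) ((t y)⁻¹ • E)
    rw [hrep, ← (hM (rep y) hA).2.2 _ h3 ((t y)⁻¹ • E), smul_smul, smul_smul]
    congr 2
    group
  refine amenable_of_approx fun K ε hε => ?_
  obtain ⟨ι, s, w, y, hw, hs, hA, hK⟩ := h K ε hε
  refine ⟨fun E => ∑ i ∈ s, w i * f E (y i), fun E => Finset.sum_nonneg fun i _ =>
    mul_nonneg (hw i) (hM01 _ _).1, ?_, ?_, ?_⟩
  · show ∑ i ∈ s, w i * f Set.univ (y i) = 1
    rw [← hs]
    refine Finset.sum_congr rfl fun i hi => ?_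
    have : f Set.univ (y i) = 1 := by
      show M (rep (y i)) ((t (y i))⁻¹ • Set.univ) = 1
      rw [Set.smul_set_univ]
      exact (hM _ (hrep2 _ (hA i hi)).2).1
    rw [this, mul_one]
  · intro E E' hd
    show ∑ i ∈ s, w i * f (E ∪ E') (y i) = ∑ i ∈ s, w i * f E (y i) + ∑ i ∈ s, w i * f E' (y i)
    rw [← Finset.sum_add_distrib]
    refine Finset.sum_congr rfl fun i hi => ?_
    rw [← mul_add]
    congr 1
    show M (rep (y i)) ((t (y i))⁻¹ • (E ∪ E')) = _
    rw [Set.smul_set_union]
    exact (hM _ (hrep2 _ (hA i hi)).2).2.1 _ _ (Set.disjoint_smul_set.2 hd)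
  · intro g hg E
    have h1 := hK g hg (f (g • E)) (fun z => hM01 _ _)
    have h2 : ∑ i ∈ s, w i * f (g • E) (ρ g (y i)) = ∑ i ∈ s, w i * f E (y i) :=
      Finset.sum_congr rfl fun i hi => by rw [hf g E _ (hA i hi)]
    rw [h2, abs_sub_comm] at h1
    exact h1

end Crest.Agent.R189
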