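import Mathlib

/-!
Row 189.  Product Bernoulli measures and the Hellinger bound.
-/

set_option autoImplicit false

namespace Crest.Agent.R189

open Real

/-- amplitude -/
private noncomputable def amenB_amp (t : ℝ) (x : Bool) : ℝ := if x then sin t else cos t

private lemma amenB_sum_amp_mul (t u : ℝ) :
    ∑ x : Bool, amenB_amp t x * amenB_amp u x = cos (t - u) := by
  simp [amenB_amp, cos_sub]
  ring

private lemma amenB_inner {P : Type} [Fintype P] [DecidableEq P] (α β : P → ℝ) :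
    ∑ a : P → Bool, (∏ p, amenB_amp (α p) (a p)) * ∏ p, amenB_amp (β p) (a p) =
      ∏ p, cos (α p - β p) := by
  simp only [← Finset.prod_mul_distrib, ← amenB_sum_amp_mul]
  rw [Finset.prod_univ_sum, Fintype.piFinset_univ]

private lemma amenB_one_sub_prod {P : Type} (s : Finset P) (x : P → ℝ) (hx : ∀ p, |x p| ≤ 1) :
    1 - ∏ p ∈ s, x p ≤ ∑ p ∈ s, (1 - x p) := by
  classical
  induction s using Finset.induction_on with
  | empty => simp
  | insert a s ha ih =>
    rw [Finset.prod_insert ha, Finset.sum_insert ha]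
    have h1 : ∏ p ∈ s, x p ≤ 1 := by
      refine (le_abs_self _).trans ?_
      rw [Finset.abs_prod]
      exact Finset.prod_le_one (fun _ _ => abs_nonneg _) fun p _ => hx p
    have h2 := (abs_le.1 (hx a)).2
    nlinarith

private lemma amenB_hellinger {P : Type} [Fintype P] [DecidableEq P] (α β : P → ℝ)
    (F : (P → Bool) → ℝ) (hF : ∀ a, 0 ≤ F a ∧ F a ≤ 1) :
    |∑ a : P → Bool, (∏ p, amenB_amp (α p) (a p) ^ 2) * F a -
      ∑ a : P → Bool, (∏ p, amenB_amp (β p) (a p) ^ 2) * F a| ≤ 2 * √(∑ p, (α p - β p) ^ 2) := by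
  set ψ : (P → Bool) → ℝ := fun a => ∏ p, amenB_amp (α p) (a p) with hψ
  set φ : (P → Bool) → ℝ := fun a => ∏ p, amenB_amp (β p) (a p) with hφ
  have h11 : ∑ a, ψ a * ψ a = 1 := by simpa using amenB_inner α α
  have h22 : ∑ a, φ a * φ a = 1 := by simpa using amenB_inner β β
  have h12 : ∑ a, ψ a * φ a = ∏ p, cos (α p - β p) := amenB_inner α β
  have hc1 : ∏ p, cos (α p - β p) ≤ 1 := by
    refine (le_abs_self _).trans ?_
    rw [Finset.abs_prod]
    exact Finset.prod_le_one (fun _ _ => abs_nonneg _) fun p _ => abs_cos_le_one _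
  have hc2 : 2 - 2 * ∏ p, cos (α p - β p) ≤ ∑ p, (α p - β p) ^ 2 := by
    have h1 := amenB_one_sub_prod Finset.univ (fun p => cos (α p - β p)) fun p => abs_cos_le_one _
    have h2 : ∑ p, (1 - cos (α p - β p)) ≤ ∑ p, (α p - β p) ^ 2 / 2 :=
      Finset.sum_le_sum fun p _ => by linarith [one_sub_sq_div_two_le_cos (x := α p - β p)]
    rw [← Finset.sum_div] at h2
    linarith
  have hm : ∑ a, (ψ a - φ a) ^ 2 = 2 - 2 * ∏ p, cos (α p - β p) := by
    have : ∀ a, (ψ a - φ a) ^ 2 = ψ a * ψ a + φ a * φ a - 2 * (ψ a * φ a) := fun a => by ring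
    simp only [this, Finset.sum_sub_distrib, Finset.sum_add_distrib, ← Finset.mul_sum, h11, h22, h12]
    ring
  have hp : ∑ a, (ψ a + φ a) ^ 2 ≤ 4 := by
    have : ∀ a, (ψ a + φ a) ^ 2 = ψ a * ψ a + φ a * φ a + 2 * (ψ a * φ a) := fun a => by ring
    simp only [this, Finset.sum_add_distrib, ← Finset.mul_sum, h11, h22, h12]
    linarith
  have hsq : ∀ (γ : P → ℝ) (a : P → Bool),
      ∏ p, amenB_amp (γ p) (a p) ^ 2 = (∏ p, amenB_amp (γ p) (a p)) ^ 2 :=
    fun γ a => Finset.prod_pow _ _ _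
  simp only [hsq]
  rw [← Finset.sum_sub_distrib]
  calc |∑ a, (ψ a ^ 2 * F a - φ a ^ 2 * F a)| ≤ ∑ a, |ψ a ^ 2 * F a - φ a ^ 2 * F a| :=
        Finset.abs_sum_le_sum_abs _ _
    _ ≤ ∑ a, |ψ a - φ a| * |ψ a + φ a| := by
        refine Finset.sum_le_sum fun a _ => ?_
        rw [← sub_mul, abs_mul, abs_of_nonneg (hF a).1, ← abs_mul]
        have : (ψ a - φ a) * (ψ a + φ a) = ψ a ^ 2 - φ a ^ 2 := by ring
        rw [this]
        exact mul_le_of_le_one_right (abs_nonneg _) (hF a).2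
    _ ≤ √(∑ a, |ψ a - φ a| ^ 2) * √(∑ a, |ψ a + φ a| ^ 2) := sum_mul_le_sqrt_mul_sqrt _ _ _
    _ ≤ √(∑ p, (α p - β p) ^ 2) * 2 := by
        simp only [sq_abs]
        refine mul_le_mul (sqrt_le_sqrt (by rw [hm]; exact hc2)) ?_ (sqrt_nonneg _) (sqrt_nonneg _)
        rw [sqrt_le_left (by norm_num)]
        linarith
    _ = _ := mul_comm _ _

/-- the law of a pull-back -/
private lemma amenB_law {I I' : Type} [DecidableEq I] [DecidableEq I'] (θ : I → ℝ) (c : I → Bool)
    (J : Finset I) (hc : ∀ i, i ∉ J → ∀ x, amenB_amp (θ i) x ^ 2 = if c i = x then 1 else 0)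
    (σ : I' → I) (hσ : Set.InjOn σ {i | σ i ∈ J}) (P : Finset I') (hP : ∀ i, σ i ∈ J → i ∈ P)
    (f : (I' → Bool) → ℝ) :
    ∑ a : J → Bool, (∏ j : J, amenB_amp (θ j) (a j) ^ 2) *
        f ((fun i => if h : i ∈ J then a ⟨i, h⟩ else c i) ∘ σ) =
      ∑ a : P → Bool, (∏ p : P, amenB_amp (θ (σ p)) (a p) ^ 2) *
        f (fun i => if h : i ∈ P then a ⟨i, h⟩ else c (σ i)) := by
  classical
  set ex : (J → Bool) → I → Bool := fun a i => if h : i ∈ J then a ⟨i, h⟩ else c i with hex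
  set ex' : (P → Bool) → I' → Bool := fun a i => if h : i ∈ P then a ⟨i, h⟩ else c (σ i) with hex'
  have h1 : ∀ a : J → Bool, f (ex a ∘ σ) =
      ∑ a' : P → Bool, (∏ p : P, if ex a (σ p) = a' p then (1 : ℝ) else 0) * f (ex' a') := by
    intro a
    rw [Finset.sum_eq_single (fun p : P => ex a (σ p))]
    · simp only [if_true, Finset.prod_const_one, one_mul]
      congr 1
      funext i
      by_cases hi : i ∈ P
      · simp [hex', hi]
      · have : σ i ∉ J := fun h => hi (hP i h)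
        simp [hex', hex, hi, this]
    · intro b _ hb
      obtain ⟨p, hp⟩ := Function.ne_iff.1 hb
      rw [Finset.prod_eq_zero (Finset.mem_univ p) (if_neg (Ne.symm hp)), zero_mul]
    · simp
  show ∑ a : J → Bool, (∏ j : J, amenB_amp (θ j) (a j) ^ 2) * f (ex a ∘ σ) =
    ∑ a : P → Bool, (∏ p : P, amenB_amp (θ (σ p)) (a p) ^ 2) * f (ex' a)
  simp only [h1, Finset.mul_sum]
  rw [Finset.sum_comm]
  refine Finset.sum_congr rfl fun a' _ => ?_
  simp only [← mul_assoc]
  rw [← Finset.sum_mul]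
  congr 1
  -- split a product over `P` along the fibres of `σ`
  have hsplit : ∀ G : P → ℝ, ∏ p : P, G p =
      (∏ p ∈ Finset.univ.filter (fun p : P => σ p ∉ J), G p) * ∏ j : J, ∏ p ∈ Finset.univ.filter (fun p : P => σ p = j), G p := by
    intro G
    rw [← Finset.prod_filter_mul_prod_filter_not Finset.univ (fun p : P => σ p ∉ J)]
    congr 1
    rw [← Finset.prod_fiberwise_of_maps_to (s := Finset.univ.filter fun p : P => ¬ σ p ∉ J) (t := J)
      (g := fun p : P => σ p) (fun p hp => by simpa using hp), ← Finset.prod_coe_sort J]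
    refine Finset.prod_congr rfl fun j _ => Finset.prod_congr ?_ fun _ _ => rfl
    ext p
    simp only [Finset.mem_filter, Finset.mem_univ, true_and, not_not, and_iff_right_iff_imp]
    intro h
    rw [h]
    exact j.2
  have h2 : ∀ a : J → Bool, (∏ p : P, if ex a (σ p) = a' p then (1 : ℝ) else 0) =
      (∏ p ∈ Finset.univ.filter (fun p : P => σ p ∉ J), amenB_amp (θ (σ p)) (a' p) ^ 2) *
        ∏ j : J, ∏ p ∈ Finset.univ.filter (fun p : P => σ p = j), if a j = a' p then (1 : ℝ) else 0 := by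
    intro a
    rw [hsplit]
    congr 1
    · refine Finset.prod_congr rfl fun p hp => ?_
      have hp' : σ p ∉ J := by simpa using hp
      rw [hc _ hp']
      simp [hex, hp']
    · refine Finset.prod_congr rfl fun j _ => Finset.prod_congr rfl fun p hp => ?_
      have hp' : σ p = j := by simpa using hp
      simp [hex, hp']
  simp only [h2]
  rw [hsplit fun p : P => amenB_amp (θ (σ p)) (a' p) ^ 2]
  simp only [mul_left_comm _ (∏ p ∈ Finset.univ.filter (fun p : P => σ p ∉ J), amenB_amp (θ (σ p)) (a' p) ^ 2)]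
  rw [← Finset.mul_sum]
  congr 1
  simp only [← Finset.prod_mul_distrib]
  have h3 := Finset.prod_univ_sum (fun _ : J => (Finset.univ : Finset Bool))
    (fun (j : J) (x : Bool) => amenB_amp (θ j) x ^ 2 *
      ∏ p ∈ Finset.univ.filter (fun p : P => σ p = j), if x = a' p then (1 : ℝ) else 0)
  rw [Fintype.piFinset_univ] at h3
  rw [← h3]
  refine Finset.prod_congr rfl fun j _ => ?_
  by_cases hj : ∃ p : P, σ p = j
  · obtain ⟨p, hp⟩ := hj
    have : (Finset.univ.filter fun q : P => σ q = j) = {p} := by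
      ext q
      simp only [Finset.mem_filter, Finset.mem_univ, true_and, Finset.mem_singleton]
      refine ⟨fun hq => Subtype.ext (hσ ?_ ?_ (hq.trans hp.symm)), fun hq => hq ▸ hp⟩
      · show σ q ∈ J
        rw [hq]; exact j.2
      · show σ p ∈ J
        rw [hp]; exact j.2
    rw [this]
    simp [hp]
  · have : (Finset.univ.filter fun q : P => σ q = j) = ∅ := by
      ext q
      simp only [Finset.mem_filter, Finset.mem_univ, true_and, Finset.notMem_empty, iff_false]
      exact fun hq => hj ⟨q, hq⟩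
    rw [this]
    simp [amenB_amp]

/-- Product Bernoulli measure with `P (b i = true) = sin² (θ i)`, deterministic outside the finite set
`J`, and two pull-backs of it.  Plan: `s` = the `b` with the forced values at all deterministic points,
`w b = ∏ i ∈ J, (if b i then sin (θ i) else cos (θ i)) ^ 2`.  For a map `σ` which is injective on the preimage
of the non-deterministic points the law of `b ∘ σ` is the product measure for `θ ∘ σ` (on a finite set
`J⁺ ⊇ J'` containing the non-deterministic points of `θ ∘ σ` and `θ ∘ ι`; outside, both pull-backs take the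
same forced value).  With amplitudes `ψ, ψ'`:
`∑ |ψ² - ψ'²| ≤ 2 ‖ψ - ψ'‖`, `‖ψ - ψ'‖² = 2 - 2 ∏ cos (Δ i) ≤ ∑ (Δ i)²`. -/
theorem bernoulli {I : Type} (θ : I → ℝ) (J : Finset I) (hJ : ∀ i, i ∉ J → θ i = 0 ∨ θ i = π / 2) :
    ∃ (s : Finset (I → Bool)) (w : (I → Bool) → ℝ), (∀ b, 0 ≤ w b) ∧ ∑ b ∈ s, w b = 1 ∧
      (∀ b ∈ s, ∀ i, (θ i = 0 → b i = false) ∧ (θ i = π / 2 → b i = true)) ∧
      ∀ (I' : Type) (σ ι : I' → I) (J' : Finset I'), (∀ i, i ∉ J' → σ i = ι i) →
        Set.InjOn σ {i | θ (σ i) ≠ 0 ∧ θ (σ i) ≠ π / 2} →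
        Set.InjOn ι {i | θ (ι i) ≠ 0 ∧ θ (ι i) ≠ π / 2} →
        ∀ f : (I' → Bool) → ℝ, (∀ b, 0 ≤ f b ∧ f b ≤ 1) →
          |∑ b ∈ s, w b * f (b ∘ σ) - ∑ b ∈ s, w b * f (b ∘ ι)| ≤
            2 * √(∑ i ∈ J', (θ (σ i) - θ (ι i)) ^ 2) := by
  classical
  set J0 : Finset I := J.filter fun i => θ i ≠ 0 ∧ θ i ≠ π / 2 with hJ0
  have hmem : ∀ i, i ∈ J0 ↔ θ i ≠ 0 ∧ θ i ≠ π / 2 := by
    intro i
    simp only [hJ0, Finset.mem_filter, and_iff_right_iff_imp]
    intro h
    by_contra hi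
    rcases hJ i hi with h' | h'
    · exact h.1 h'
    · exact h.2 h'
  have hpi : (0 : ℝ) ≠ π / 2 := by positivity
  let c : I → Bool := fun i => decide (θ i = π / 2)
  have hc : ∀ i, i ∉ J0 → ∀ x, amenB_amp (θ i) x ^ 2 = if c i = x then 1 else 0 := by
    intro i hi x
    rw [hmem, not_and_or, not_not, not_not] at hi
    rcases hi with hi | hi
    · cases x <;> simp [amenB_amp, c, hi, hpi]
    · cases x <;> simp [amenB_amp, c, hi]
  let ex : (J0 → Bool) → I → Bool := fun a i => if h : i ∈ J0 then a ⟨i, h⟩ else c i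
  have hex : ∀ a (j : J0), ex a j = a j := fun a j => by simp [ex, j.2]
  have hinj : Function.Injective ex := by
    intro a b hab
    funext j
    rw [← hex a, ← hex b, hab]
  let w : (I → Bool) → ℝ := fun b => ∏ j : J0, amenB_amp (θ j) (b j) ^ 2
  have hsum : ∀ F : (I → Bool) → ℝ, ∑ b ∈ Finset.univ.image ex, w b * F b =
      ∑ a : J0 → Bool, (∏ j : J0, amenB_amp (θ j) (a j) ^ 2) * F (ex a) := by
    intro F
    rw [Finset.sum_image fun a _ b _ h => hinj h]
    simp only [w, hex]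
  refine ⟨Finset.univ.image ex, w, fun b => Finset.prod_nonneg fun _ _ => sq_nonneg _, ?_, ?_, ?_⟩
  · have h1 := hsum fun _ => 1
    simp only [mul_one] at h1
    rw [h1]
    have h2 := amenB_inner (fun j : J0 => θ j) (fun j : J0 => θ j)
    simp only [← sq, ← Finset.prod_pow] at h2
    simpa using h2
  · intro b hb i
    obtain ⟨a, -, rfl⟩ := Finset.mem_image.1 hb
    constructor
    · intro h
      have : i ∉ J0 := fun hi => ((hmem i).1 hi).1 h
      simp [ex, this, c, h, hpi]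
    · intro h
      have : i ∉ J0 := fun hi => ((hmem i).1 hi).2 h
      simp [ex, this, c, h]
  · intro I' σ ι J' hσι hσ hι f hf
    simp only [← hmem] at hσ hι
    have hfin : ∀ τ : I' → I, Set.InjOn τ {i | τ i ∈ J0} → {i | τ i ∈ J0}.Finite := fun τ hτ =>
      Set.Finite.preimage (f := τ) (s := (J0 : Set I)) hτ J0.finite_toSet
    let P : Finset I' := J' ∪ (hfin σ hσ).toFinset ∪ (hfin ι hι).toFinset
    have hP1 : ∀ i, σ i ∈ J0 → i ∈ P := fun i hi => by simp [P, hi]
    have hP2 : ∀ i, ι i ∈ J0 → i ∈ P := fun i hi => by simp [P, hi]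
    have hP3 : J' ⊆ P := fun i hi => by simp [P, hi]
    rw [hsum fun b => f (b ∘ σ), hsum fun b => f (b ∘ ι), amenB_law θ c J0 hc σ hσ P hP1 f,
      amenB_law θ c J0 hc ι hι P hP2 f]
    have he : ∀ a : P → Bool, (fun i => if h : i ∈ P then a ⟨i, h⟩ else c (ι i)) =
        fun i => if h : i ∈ P then a ⟨i, h⟩ else c (σ i) := by
      intro a
      funext i
      by_cases hi : i ∈ P
      · simp [hi]
      · simp [hi, hσι i fun h => hi (hP3 h)]
    simp only [he]
    refine (amenB_hellinger (fun p : P => θ (σ p)) (fun p : P => θ (ι p))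
      (fun a => f fun i => if h : i ∈ P then a ⟨i, h⟩ else c (σ i)) fun a => hf _).trans
      (le_of_eq ?_)
    congr 2
    rw [Finset.sum_coe_sort P fun i => (θ (σ i) - θ (ι i)) ^ 2]
    refine (Finset.sum_subset hP3 fun i _ hi => ?_).symm
    simp [hσι i hi]

/-- linear ramp from `0` (left of `lo`) to `π / 2` (right of `hi`) -/
noncomputable def ramp (lo hi u : ℤ) : ℝ :=
  π / 2 * max 0 (min 1 (((u : ℝ) - lo) / ((hi : ℝ) - lo)))

lemma ramp_of_le {lo hi u : ℤ} (h : lo < hi) (hu : u ≤ lo) : ramp lo hi u = 0 := by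
  have h1 : (0 : ℝ) < (hi : ℝ) - lo := by
    have : (lo : ℝ) < hi := by exact_mod_cast h
    linarith
  have h2 : (u : ℝ) - lo ≤ 0 := by
    have : (u : ℝ) ≤ lo := by exact_mod_cast hu
    linarith
  have h3 : ((u : ℝ) - lo) / ((hi : ℝ) - lo) ≤ 0 := div_nonpos_of_nonpos_of_nonneg h2 h1.le
  unfold ramp
  rw [max_eq_left (min_le_of_right_le h3), mul_zero]

lemma ramp_of_ge {lo hi u : ℤ} (h : lo < hi) (hu : hi ≤ u) : ramp lo hi u = π / 2 := by
  have h1 : (0 : ℝ) < (hi : ℝ) - lo := by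
    have : (lo : ℝ) < hi := by exact_mod_cast h
    linarith
  have h2 : (hi : ℝ) - lo ≤ (u : ℝ) - lo := by
    have : (hi : ℝ) ≤ u := by exact_mod_cast hu
    linarith
  have h3 : 1 ≤ ((u : ℝ) - lo) / ((hi : ℝ) - lo) := (one_le_div h1).2 h2
  unfold ramp
  rw [min_eq_left h3, max_eq_right zero_le_one, mul_one]

lemma ramp_lip {lo hi u u' : ℤ} (h : lo < hi) {k : ℕ} (hk : |u' - u| ≤ k) :
    |ramp lo hi u' - ramp lo hi u| ≤ 2 * k / ((hi : ℝ) - lo) := by
  have h1 : (0 : ℝ) < (hi : ℝ) - lo := by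
    have : (lo : ℝ) < hi := by exact_mod_cast h
    linarith
  have hk' : |(u' : ℝ) - u| ≤ k := by exact_mod_cast hk
  unfold ramp
  rw [← mul_sub, abs_mul, abs_of_pos (by positivity : (0 : ℝ) < π / 2)]
  have h2 : |max 0 (min 1 (((u' : ℝ) - lo) / ((hi : ℝ) - lo))) -
      max 0 (min 1 (((u : ℝ) - lo) / ((hi : ℝ) - lo)))| ≤ k / ((hi : ℝ) - lo) := by
    refine (abs_max_sub_max_le_max _ _ _ _).trans (max_le (by simp; positivity) ?_)
    refine (abs_min_sub_min_le_max _ _ _ _).trans (max_le (by simp; positivity) ?_)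
    rw [← sub_div, abs_div, abs_of_pos h1]
    refine div_le_div_of_nonneg_right ?_ h1.le
    have : (u' : ℝ) - lo - (u - lo) = u' - u := by ring
    rwa [this]
  have h3 : π / 2 ≤ 2 := by linarith [pi_le_four]
  rw [mul_div_assoc]
  exact mul_le_mul h3 h2 (abs_nonneg _) (by norm_num)

end Crest.Agent.R189
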