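import Crest.Agent.R189.Basic
import Crest.Agent.R189.Tri

/-!
Row 189.  The space `Om S = Cfg S × Track`, local permutations, block permutations, the group `GG`.
-/

set_option autoImplicit false

namespace Crest.Agent.R189

open Equiv

abbrev Track := Fin 30
abbrev Pt := V × Track
abbrev Om (S : Wang) := Cfg S × Track

variable {S : Wang}

/-- the point at relative position `p` -/
def pt (x : Cfg S) (p : Pt) : Om S := (p.1 +ᵥ x, p.2)

def shP (v : V) (p : Pt) : Pt := (p.1 + v, p.2)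

lemma pt_vadd (v : V) (x : Cfg S) (p : Pt) : pt (v +ᵥ x) p = pt x (shP v p) := by 
  simp only [pt, shP, add_vadd]
lemma pt_zero (x : Cfg S) (i : Track) : pt x (0, i) = (x, i) := by 
  simp only [pt, zero_vadd]
lemma Free.pt_inj (hf : Free S) (x : Cfg S) : Function.Injective (pt x) := by 
  intro p q h
  simp only [pt, Prod.mk.injEq] at h
  refine Prod.ext ?_ h.2
  have h1 : (-q.1 + p.1) +ᵥ x = x := by rw [add_vadd, h.1, neg_vadd_vadd]
  have := hf _ _ h1
  rw [neg_add_eq_zero] at this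
  exact this.symm

lemma perm_InB_mono {ρ ρ' : ℕ} {v : V} (h : InB ρ v) (hρ : ρ ≤ ρ') : InB ρ' v := by
  have : (ρ : ℤ) ≤ ρ' := by exact_mod_cast hρ
  exact ⟨h.1.trans this, h.2.trans this⟩

lemma perm_InB_add {ρ ρ' : ℕ} {v w : V} (h : InB ρ v) (h' : InB ρ' w) : InB (ρ + ρ') (v + w) := by
  refine ⟨?_, ?_⟩
  · have := abs_add_le v.1 w.1
    simp only [Prod.fst_add]
    push_cast
    linarith [h.1, h'.1]
  · have := abs_add_le v.2 w.2
    simp only [Prod.snd_add]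
    push_cast
    linarith [h.2, h'.2]

lemma perm_InB_neg {ρ : ℕ} {v : V} (h : InB ρ v) : InB ρ (-v) := by
  refine ⟨?_, ?_⟩
  · simp only [Prod.fst_neg, abs_neg]; exact h.1
  · simp only [Prod.snd_neg, abs_neg]; exact h.2

def HasRad (g : Perm (Om S)) (ρ : ℕ) : Prop :=
  ∀ (x : Cfg S) (i : Track), ∃ p : Pt, InB ρ p.1 ∧ ∀ y, Agree ρ x y → g (y, i) = pt y p

lemma HasRad.mono {g : Perm (Om S)} {ρ ρ' : ℕ} (h : HasRad g ρ) (hρ : ρ ≤ ρ') : HasRad g ρ' := by
  intro x i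
  obtain ⟨p, hp, h'⟩ := h x i
  exact ⟨p, perm_InB_mono hp hρ, fun y hy => h' y (hy.mono hρ)⟩
lemma HasRad.one : HasRad (1 : Perm (Om S)) 0 := by 
  intro x i
  refine ⟨(0, i), ⟨by simp, by simp⟩, fun y _ => ?_⟩
  rw [pt_zero]; rfl
lemma HasRad.mul {g h : Perm (Om S)} {ρ ρ' : ℕ} (hg : HasRad g ρ) (hh : HasRad h ρ') :
    HasRad (g * h) (ρ + ρ') := by 
  intro x i
  obtain ⟨p, hp, h1⟩ := hh x i
  obtain ⟨q, hq, h2⟩ := hg (p.1 +ᵥ x) p.2
  refine ⟨shP p.1 q, perm_InB_add hq hp, fun y hy => ?_⟩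
  rw [Perm.mul_apply, h1 y (hy.mono (Nat.le_add_left _ _)), ← pt_vadd]
  exact h2 _ (hy.vadd hp)
lemma HasRad.inv {g : Perm (Om S)} {ρ : ℕ} (hg : HasRad g ρ) : HasRad g⁻¹ (2 * ρ) := by 
  intro x j
  obtain ⟨p, hp, h1⟩ := hg (g⁻¹ (x, j)).1 (g⁻¹ (x, j)).2
  have h2 := h1 _ (Agree.refl _ _)
  have h0 : g (g⁻¹ (x, j)) = (x, j) := by simp
  simp only [Prod.mk.eta, h0, pt, Prod.mk.injEq] at h2
  have h3 : (g⁻¹ (x, j)).1 = (-p.1) +ᵥ x := by
    rw [eq_neg_vadd_iff]; exact h2.1.symm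
  refine ⟨(-p.1, (g⁻¹ (x, j)).2), perm_InB_mono (perm_InB_neg hp) (by omega), fun y hy => ?_⟩
  rw [Perm.inv_eq_iff_eq]
  have h4 : Agree ρ (g⁻¹ (x, j)).1 ((-p.1) +ᵥ y) := by
    rw [h3]
    exact Agree.vadd (by rwa [← two_mul]) (perm_InB_neg hp)
  have h5 := h1 _ h4
  simp only [pt] at h5 ⊢
  rw [h5, vadd_neg_vadd, ← h2.2]

/-- the full group: local permutations -/
def LocP (S : Wang) : Subgroup (Perm (Om S)) where
  carrier := {g | ∃ ρ, HasRad g ρ}
  one_mem' := ⟨0, HasRad.one⟩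
  mul_mem' := fun ⟨_, h⟩ ⟨_, h'⟩ => ⟨_, h.mul h'⟩
  inv_mem' := fun ⟨_, h⟩ => ⟨_, h.inv⟩

/-- there are finitely many permutations of a given radius -/
lemma finite_hasRad (ρ : ℕ) : {g : Perm (Om S) | HasRad g ρ}.Finite := by 
  classical
  have hfin := basic_finite_ball ρ
  let Wn := {v : V // InB ρ v} → S.A
  let win : Cfg S → Wn := fun x v => x.1 v
  let F : (Wn × Track → {v : V // InB ρ v} × Track) → (Om S → Om S) := fun t z =>
    pt z.1 ((t (win z.1, z.2)).1.1, (t (win z.1, z.2)).2)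
  have hF : (Set.range F).Finite := Set.finite_range F
  refine (hF.preimage (f := fun g : Perm (Om S) => (g : Om S → Om S))
    (DFunLike.coe_injective.injOn)).subset ?_
  intro g hg
  have h1 : ∀ (w : Wn) (i : Track), ∃ p : {v : V // InB ρ v} × Track,
      ∀ y, win y = w → g (y, i) = pt y (p.1.1, p.2) := by
    intro w i
    by_cases hw : ∃ x, win x = w
    · obtain ⟨x, rfl⟩ := hw
      obtain ⟨p, hp, h⟩ := hg x i
      refine ⟨(⟨p.1, hp⟩, p.2), fun y hy => h y fun v hv => ?_⟩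
      exact (congrFun hy ⟨v, hv⟩).symm
    · exact ⟨(⟨0, ⟨by simp, by simp⟩⟩, i), fun y hy => (hw ⟨y, hy⟩).elim⟩
  choose t ht using h1
  refine ⟨fun z => t z.1 z.2, funext fun z => ?_⟩
  exact (ht (win z.1) z.2 z.1 rfl).symm

open Classical in
/-- the action on the orbit of `x`, in relative coordinates -/
noncomputable def actP (g : Perm (Om S)) (x : Cfg S) : Perm Pt :=
  if h : ∃ π : Perm Pt, ∀ p, g (pt x p) = pt x (π p) then h.choose else 1

lemma perm_exists_pt {g : Perm (Om S)} (hg : g ∈ LocP S) (x : Cfg S) (p : Pt) :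
    ∃ q, g (pt x p) = pt x q := by
  obtain ⟨ρ, hρ⟩ := hg
  obtain ⟨q, -, hq⟩ := hρ (p.1 +ᵥ x) p.2
  exact ⟨shP p.1 q, by rw [← pt_vadd]; exact hq _ (Agree.refl _ _)⟩

lemma actP_spec (hf : Free S) {g : Perm (Om S)} (hg : g ∈ LocP S) (x : Cfg S) (p : Pt) :
    g (pt x p) = pt x (actP g x p) := by 
  have hex : ∃ π : Perm Pt, ∀ p, g (pt x p) = pt x (π p) := by
    choose a ha using perm_exists_pt hg x
    choose b hb using perm_exists_pt ((LocP S).inv_mem hg) x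
    refine ⟨⟨a, b, fun p => hf.pt_inj x ?_, fun p => hf.pt_inj x ?_⟩, ha⟩
    · rw [← hb, ← ha]; simp
    · rw [← ha, ← hb]; simp
  unfold actP
  rw [dif_pos hex]
  exact hex.choose_spec p
lemma actP_eq (hf : Free S) {g : Perm (Om S)} (hg : g ∈ LocP S) {x : Cfg S} {p q : Pt}
    (h : g (pt x p) = pt x q) : actP g x p = q := by 
  apply hf.pt_inj x
  rw [← actP_spec hf hg, h]
lemma actP_one (hf : Free S) (x : Cfg S) : actP (1 : Perm (Om S)) x = 1 := by 
  ext1 p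
  exact actP_eq hf (LocP S).one_mem rfl
lemma actP_mul (hf : Free S) {g h : Perm (Om S)} (hg : g ∈ LocP S) (hh : h ∈ LocP S) (x : Cfg S) :
    actP (g * h) x = actP g x * actP h x := by 
  ext1 p
  refine actP_eq hf ((LocP S).mul_mem hg hh) ?_
  rw [Perm.mul_apply, actP_spec hf hh, actP_spec hf hg, Perm.mul_apply]
lemma actP_inv (hf : Free S) {g : Perm (Om S)} (hg : g ∈ LocP S) (x : Cfg S) :
    actP g⁻¹ x = (actP g x)⁻¹ := by 
  rw [eq_inv_iff_mul_eq_one, ← actP_mul hf ((LocP S).inv_mem hg) hg, inv_mul_cancel, actP_one hf]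
lemma actP_vadd (hf : Free S) {g : Perm (Om S)} (hg : g ∈ LocP S) (v : V) (x : Cfg S) (p : Pt) :
    actP g x (shP v p) = shP v (actP g (v +ᵥ x) p) := by 
  refine actP_eq hf hg ?_
  rw [← pt_vadd, ← pt_vadd, actP_spec hf hg]
lemma actP_disp (hf : Free S) {g : Perm (Om S)} {ρ : ℕ} (hg : HasRad g ρ) (x : Cfg S) (p : Pt) :
    InB ρ ((actP g x p).1 - p.1) := by 
  obtain ⟨q, hq, h⟩ := hg (p.1 +ᵥ x) p.2
  have h1 : actP g x p = shP p.1 q := by
    refine actP_eq hf ⟨ρ, hg⟩ ?_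
    rw [← pt_vadd]; exact h _ (Agree.refl _ _)
  rw [h1]
  simpa [shP] using hq
/-- the action at a point only depends on the `ρ`-window around the point -/
lemma actP_window (hf : Free S) {g : Perm (Om S)} {ρ : ℕ} (hg : HasRad g ρ) {x y : Cfg S}
    {u v : V} (i : Track) (h : ∀ w, InB ρ w → x.1 (u + w) = y.1 (v + w)) :
    actP g y (v, i) = shP (v - u) (actP g x (u, i)) := by 
  obtain ⟨q, -, hq⟩ := hg (u +ᵥ x) i
  have h1 : actP g x (u, i) = shP u q := by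
    refine actP_eq hf ⟨ρ, hg⟩ ?_
    rw [← pt_vadd]; exact hq _ (Agree.refl _ _)
  have h2 : actP g y (v, i) = shP v q := by
    refine actP_eq hf ⟨ρ, hg⟩ ?_
    rw [← pt_vadd]
    refine hq _ fun w hw => ?_
    simp only [vadd_val]
    rw [add_comm w u, add_comm w v]
    exact h w hw
  rw [h1, h2]
  simp only [shP, Prod.mk.injEq, and_true]
  abel
lemma actP_locF (hf : Free S) {g : Perm (Om S)} (hg : g ∈ LocP S) (p : Pt) :
    LocF (fun x => actP g x p) := by 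
  obtain ⟨ρ, hρ⟩ := hg
  obtain ⟨k, hk⟩ := exists_InB p.1
  refine ⟨ρ + k, fun x y hxy => ?_⟩
  have := actP_window hf hρ (x := x) (y := y) (u := p.1) (v := p.1) p.2 fun w hw =>
    hxy _ (by rw [add_comm p.1 w]; exact perm_InB_add hw hk)
  simp only [Prod.mk.eta, sub_self, shP, add_zero] at this
  exact this.symm

end Crest.Agent.R189
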