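import Crest.Agent.R189.AmenA
import Crest.Agent.R189.AmenB
import Crest.Agent.R189.Perm

/-!
Row 189.  Line structures; bounded displacement; the second amenability step.
-/

set_option autoImplicit false

namespace Crest.Agent.R189

open Equiv Crest.GroupTheory

variable {S : Wang}

/-- the line through `y` along the kernel of `χ` -/
def ln (χ : V →+ ℤ) (y : Cfg S) : Set (Cfg S) := {z | ∃ v : V, χ v = 0 ∧ z = v +ᵥ y}

lemma ln_eq_of {χ : V →+ ℤ} {v w : V} (h : χ v = χ w) (y : Cfg S) :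
    ln χ (v +ᵥ y) = ln χ (w +ᵥ y) := by
  have key : ∀ v w : V, χ v = χ w → ln χ (v +ᵥ y) ⊆ ln χ (w +ᵥ y) := by
    rintro v w h z ⟨u, hu, rfl⟩
    refine ⟨u + v - w, by rw [map_sub, map_add, hu, h, zero_add, sub_self], ?_⟩
    rw [vadd_vadd, vadd_vadd, sub_add_cancel]
  exact Set.Subset.antisymm (key v w h) (key w v h.symm)
lemma eq_of_ln_eq (hf : Free S) {χ : V →+ ℤ} {v w : V} {y : Cfg S}
    (h : ln χ (v +ᵥ y) = ln χ (w +ᵥ y)) : χ v = χ w := by
  have h1 : v +ᵥ y ∈ ln χ (v +ᵥ y) := ⟨0, map_zero χ, (zero_vadd _ _).symm⟩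
  rw [h] at h1
  obtain ⟨u, hu, e⟩ := h1
  have h2 : (-v + (u + w)) +ᵥ y = y := by
    rw [add_vadd, add_vadd, ← e, neg_vadd_vadd]
  have h3 := hf _ _ h2
  rw [neg_add_eq_zero] at h3
  rw [h3, map_add, hu, zero_add]

/-- every point is assigned a line at bounded distance -/
def BddLine (χ : V →+ ℤ) (A : Om S → Set (Cfg S)) : Prop :=
  ∃ C : ℕ, ∀ ω, ∃ v : V, |χ v| ≤ C ∧ A ω = ln χ (v +ᵥ ω.1)

/-- an almost invariant random line structure -/
def Approx (χ : V →+ ℤ) (K : Finset (Perm (Om S))) (ε : ℝ) : Prop :=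
  ∃ (ι : Type) (s : Finset ι) (w : ι → ℝ) (A : ι → Om S → Set (Cfg S)),
    (∀ i, 0 ≤ w i) ∧ ∑ i ∈ s, w i = 1 ∧ (∀ i ∈ s, BddLine χ (A i)) ∧
    ∀ g ∈ K, ∀ f : (Om S → Set (Cfg S)) → ℝ, (∀ z, 0 ≤ f z ∧ f z ≤ 1) →
      |∑ i ∈ s, w i * f (fun ω => A i (g ω)) - ∑ i ∈ s, w i * f (A i)| ≤ ε

lemma amenC_disp (hf : Free S) {χ : V →+ ℤ} {A : Om S → Set (Cfg S)} {C : ℕ}
    (hA : ∀ ω, ∃ v : V, |χ v| ≤ C ∧ A ω = ln χ (v +ᵥ ω.1)) {x : Cfg S} {i : Track} {p : Pt}
    (h : A (pt x p) = A (x, i)) : |χ p.1| ≤ 2 * C := by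
  obtain ⟨v, h1, h2⟩ := hA (pt x p)
  obtain ⟨w, h3, h4⟩ := hA (x, i)
  rw [h2, h4] at h
  have h5 : χ (v + p.1) = χ w := eq_of_ln_eq hf (y := x) (by rw [add_vadd]; exact h)
  rw [map_add] at h5
  rw [abs_le] at h1 h3 ⊢
  constructor <;> linarith [h1.1, h1.2, h3.1, h3.2]

lemma amenC_radius (K : Finset (Perm (Om S))) (hK : ∀ g ∈ K, g ∈ LocP S) :
    ∃ ρ : ℕ, ∀ g ∈ K, HasRad g ρ := by
  choose! r hr using fun g (hg : g ∈ K) => (show ∃ ρ, HasRad g ρ from hK g hg)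
  exact ⟨K.sup r, fun g hg => (hr g hg).mono (Finset.le_sup hg)⟩

/-- Uniformly bounded displacement gives local finiteness: all elements of `closure K` have radius
`C + ρ` (left induction on words, `actP_window`), `finite_hasRad`. -/
theorem amenable_of_bdd (hf : Free S) {H : Type} [Group H] (f : H →* Perm (Om S))
    (hi : Function.Injective f) (hl : ∀ h, f h ∈ LocP S) {A B : Om S → Set (Cfg S)}
    (hA : BddLine χ1 A) (hB : BddLine χ2 B) (h1 : ∀ h ω, A (f h ω) = A ω)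
    (h2 : ∀ h ω, B (f h ω) = B ω) : Amenable H := by
  classical
  obtain ⟨C₁, hA⟩ := hA
  obtain ⟨C₂, hB⟩ := hB
  have hd : ∀ (h : H) (x : Cfg S) (i : Track) (p : Pt), f h (x, i) = pt x p →
      InB (2 * C₁ + 2 * C₂) p.1 := by
    intro h x i p e
    have a1 := amenC_disp hf hA (x := x) (i := i) (p := p) (by rw [← e, h1])
    have a2 := amenC_disp hf hB (x := x) (i := i) (p := p) (by rw [← e, h2])
    simp only [χ1_apply, χ2_apply] at a1 a2
    constructor <;> push_cast <;> linarith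
  refine amenable_of_locally_finite fun K => ?_
  obtain ⟨ρ, hρ⟩ := amenC_radius (K.image f ∪ K.image fun k => f k⁻¹) (by
    intro g hg
    simp only [Finset.mem_union, Finset.mem_image] at hg
    rcases hg with ⟨k, -, rfl⟩ | ⟨k, -, rfl⟩ <;> exact hl _)
  have step : ∀ k h : H, HasRad (f k) ρ → HasRad (f h) (ρ + (2 * C₁ + 2 * C₂)) →
      HasRad (f (k * h)) (ρ + (2 * C₁ + 2 * C₂)) := by
    intro k h hk hh x i
    obtain ⟨p, -, a1⟩ := hh x i
    have a2 := hd h x i p (a1 x (Agree.refl _ _))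
    obtain ⟨q, -, a3⟩ := hk (p.1 +ᵥ x) p.2
    have a4 : ∀ y, Agree (ρ + (2 * C₁ + 2 * C₂)) x y → f (k * h) (y, i) = pt y (shP p.1 q) := by
      intro y hy
      rw [map_mul, Perm.mul_apply, a1 y hy, ← pt_vadd]
      exact a3 _ (hy.vadd a2)
    exact ⟨shP p.1 q, perm_InB_mono (hd _ x i _ (a4 x (Agree.refl _ _))) (by omega), a4⟩
  refine ((finite_hasRad (ρ + (2 * C₁ + 2 * C₂))).preimage hi.injOn).subset fun h hh => ?_
  show HasRad (f h) _
  induction hh using Subgroup.closure_induction_left with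
  | one => rw [map_one]; exact HasRad.one.mono (Nat.zero_le _)
  | mul_left k hk h _ ih =>
    exact step k h (hρ _ (Finset.mem_union_left _ (Finset.mem_image_of_mem f hk))) ih
  | inv_mul_cancel k hk h _ ih =>
    exact step k⁻¹ h (hρ _ (Finset.mem_union_right _ (Finset.mem_image_of_mem _ hk))) ih

/-- `amenable_of_action` for the action `A ↦ A ∘ (f h)⁻¹` -/
theorem amenable_of_approx_lines {H : Type} [Group H] (f : H →* Perm (Om S)) (χ : V →+ ℤ)
    (h : ∀ (K : Finset (Perm (Om S))) (ε : ℝ), (∀ g ∈ K, g ∈ f.range) → 0 < ε → Approx χ K ε)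
    (hs : ∀ A, BddLine χ A → ∀ H' : Subgroup H, (∀ h ∈ H', ∀ ω, A (f h ω) = A ω) → Amenable H') :
    Amenable H := by
  classical
  let ρ : H →* Perm (Om S → Set (Cfg S)) :=
    { toFun := fun h => Equiv.arrowCongr (f h) (Equiv.refl _)
      map_one' := by
        ext A ω : 2
        simp [Perm.one_def]
      map_mul' := fun a b => by
        ext A ω : 2
        simp [Perm.mul_def] }
  refine amenable_of_action ρ fun K ε hε => ?_
  obtain ⟨ι, s, w, A, a1, a2, a3, a4⟩ := h (K.image fun k => (f k)⁻¹) ε (by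
    intro g hg
    obtain ⟨k, -, rfl⟩ := Finset.mem_image.1 hg
    exact ⟨k⁻¹, map_inv f k⟩) hε
  refine ⟨ι, s, w, A, a1, a2, fun i hi => hs (A i) (a3 i hi) _ fun h hh ω => ?_,
    fun g hg => a4 _ (Finset.mem_image_of_mem _ hg)⟩
  have e : (fun ω => A i ((f h).symm ω)) = A i := hh
  rw [← congrFun e (f h ω), Equiv.symm_apply_apply]

end Crest.Agent.R189
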