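import Crest.Agent.R189.AmenC

/-!
Row 189.  Random horizontal cuts for permutations preserving a column structure.
-/

set_option autoImplicit false

namespace Crest.Agent.R189

open Equiv

variable {S : Wang}

/-- the data of `HZ2`, with the coordinate `u` relative to the anchor column -/
structure Z2 (S : Wang) where
  Pi : ℕ
  N : ℕ
  W : ℕ
  φ1 : Phase S χ1 Pi
  φ2 : Phase S χ2 N
  c : ℤ
  R : ℤ
  ρ : ℕ
  u : Om S → ℤ
  hρ : 1 ≤ ρ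
  hW : 8 * ρ ≤ W
  hR : 0 ≤ R
  hRW : R + W < N
  det : ∀ y y' : Cfg S, φ1.r y = 0 → φ2.r y = 0 → φ1.r y' = 0 → φ2.r y' = 0 →
      y.1 (0, c) = y'.1 (0, c) → ∀ u j : ℤ, |u| < Pi → R ≤ j → j ≤ R + W → y.1 (u, j) = y'.1 (u, j)
  hu1 : ∀ ω : Om S, (Pi : ℤ) ∣ φ1.r ω.1 - u ω
  hu2 : ∀ ω : Om S, |u ω| + ρ ≤ Pi

namespace Z2

variable (Z : Z2 S)

abbrev Cl (S : Wang) := S.A × ℤ × ℤ × Track

noncomputable def θ (i : Cl S) : ℝ :=
  if |i.2.1| < Z.Pi then ramp (Z.R + 2 * Z.ρ) (Z.R + Z.W - 2 * Z.ρ) i.2.2.1 else 0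

def base (ω : Om S) : Cfg S := ((-Z.u ω, -Z.φ2.r ω.1) : V) +ᵥ ω.1

def cl (ω : Om S) : Cl S := ((Z.base ω).1 (0, Z.c), Z.u ω, Z.φ2.r ω.1, ω.2)

def off (e : Bool) : ℤ := if e then Z.N else 0

def BB (b : Cl S → Bool) (ω : Om S) : Set (Cfg S) :=
  ln χ2 (((0, -Z.φ2.r ω.1 + Z.off (b (Z.cl ω))) : V) +ᵥ ω.1)

def IsB (a : S.A) (y : Cfg S) : Prop := Z.φ1.r y = 0 ∧ Z.φ2.r y = 0 ∧ y.1 (0, Z.c) = a

open Classical in
noncomputable def act (g : Perm (Om S)) (a : S.A) : Perm Pt :=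
  if h : ∃ y, Z.IsB a y then actP g h.choose else 1

def ι (i : Cl S) : Cl S := if |i.2.1| + Z.ρ ≤ Z.Pi then i else (i.1, Z.Pi, i.2.2.1, i.2.2.2)

noncomputable def σ (g : Perm (Om S)) (i : Cl S) : Cl S :=
  if |i.2.1| + Z.ρ ≤ Z.Pi ∧ Z.R + Z.ρ ≤ i.2.2.1 ∧ i.2.2.1 ≤ Z.R + Z.W - Z.ρ then
    (i.1, (Z.act g i.1 ((i.2.1, i.2.2.1), i.2.2.2)).1.1,
      (Z.act g i.1 ((i.2.1, i.2.2.1), i.2.2.2)).1.2, (Z.act g i.1 ((i.2.1, i.2.2.1), i.2.2.2)).2)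
  else Z.ι i

lemma base_phase (ω : Om S) : Z.φ1.r (Z.base ω) = 0 ∧ Z.φ2.r (Z.base ω) = 0 := by
  unfold base
  rw [Z.φ1.r_vadd, Z.φ2.r_vadd]
  constructor
  · simp only [χ1_apply]
    exact Int.emod_eq_zero_of_dvd (by rw [← sub_eq_add_neg]; exact Z.hu1 ω)
  · simp

lemma act_disp (hf : Free S) {g : Perm (Om S)} (hg : HasRad g (Z.ρ - 1)) (a : S.A) (p : Pt) :
    |(Z.act g a p).1.1 - p.1.1| ≤ (Z.ρ : ℤ) - 1 ∧ |(Z.act g a p).1.2 - p.1.2| ≤ (Z.ρ : ℤ) - 1 := by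
  have h1 := Z.hρ
  have hc : ((Z.ρ - 1 : ℕ) : ℤ) = (Z.ρ : ℤ) - 1 := by omega
  unfold act
  split_ifs with h
  · have := actP_disp hf hg h.choose p
    unfold InB at this
    rw [hc] at this
    simpa using this
  · simp; omega

lemma actP_eq_act (hf : Free S) {g : Perm (Om S)} (hg : HasRad g (Z.ρ - 1)) {y : Cfg S}
    (h1 : Z.φ1.r y = 0) (h2 : Z.φ2.r y = 0) {u j : ℤ} (hu : |u| + Z.ρ ≤ Z.Pi)
    (hj : Z.R + Z.ρ ≤ j ∧ j ≤ Z.R + Z.W - Z.ρ) (t : Track) :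
    actP g y ((u, j), t) = Z.act g (y.1 (0, Z.c)) ((u, j), t) := by
  have h1' := Z.hρ
  have hc : ((Z.ρ - 1 : ℕ) : ℤ) = (Z.ρ : ℤ) - 1 := by omega
  have hex : ∃ y', Z.IsB (y.1 (0, Z.c)) y' := ⟨y, h1, h2, rfl⟩
  unfold act
  rw [dif_pos hex]
  obtain ⟨k1, k2, k3⟩ := hex.choose_spec
  have := actP_window hf hg (x := hex.choose) (y := y) (u := (u, j)) (v := (u, j)) t (by
    intro w hw
    unfold InB at hw
    rw [hc] at hw
    obtain ⟨hw1, hw2⟩ := hw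
    have hab : |u + w.1| < Z.Pi := lt_of_le_of_lt (abs_add_le _ _) (by linarith)
    rw [abs_le] at hw2
    exact Z.det _ _ k1 k2 h1 h2 k3 (u + w.1) (j + w.2) hab (by linarith) (by linarith))
  rw [this]
  simp [shP]

/-- the image point in the coordinates of a base point -/
lemma actP_base (hf : Free S) {g : Perm (Om S)} (hg : g ∈ LocP S) (x : Cfg S) (t : Track) :
    actP g (Z.base (x, t)) ((Z.u (x, t), Z.φ2.r x), t) =
      shP ((Z.u (x, t), Z.φ2.r x) : V) (actP g x (0, t)) := by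
  have := actP_vadd hf hg ((Z.u (x, t), Z.φ2.r x) : V) (Z.base (x, t)) (0, t)
  have e1 : ((Z.u (x, t), Z.φ2.r x) : V) +ᵥ Z.base (x, t) = x := by
    unfold base
    rw [vadd_vadd]
    have : ((Z.u (x, t), Z.φ2.r x) : V) + (-Z.u (x, t), -Z.φ2.r x) = 0 := by
      ext <;> simp
    rw [this, zero_vadd]
  rw [e1] at this
  rw [← this]
  simp [shP]

def Forced (b : Cl S → Bool) : Prop :=
  ∀ i, (Z.θ i = 0 → b i = false) ∧ (Z.θ i = Real.pi / 2 → b i = true)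

lemma lo_hi : Z.R + 2 * Z.ρ < Z.R + Z.W - 2 * Z.ρ := by
  have := Z.hW; have := Z.hρ; omega

lemma forced {b : Cl S → Bool} (hb : Z.Forced b) (i : Cl S) (hj : |i.2.1| < Z.Pi) :
    (i.2.2.1 ≤ Z.R + 2 * Z.ρ → b i = false) ∧
      (Z.R + Z.W - 2 * Z.ρ ≤ i.2.2.1 → b i = true) := by
  constructor
  · intro h
    apply (hb _).1
    simp only [θ, if_pos hj]
    exact ramp_of_le Z.lo_hi h
  · intro h
    apply (hb _).2
    simp only [θ, if_pos hj]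
    exact ramp_of_ge Z.lo_hi h

lemma abs_lt_of_used {j : ℤ} (h : |j| + Z.ρ ≤ Z.Pi) : |j| < Z.Pi := by
  have := Z.hρ; omega

lemma ι_cl (ω : Om S) : Z.ι (Z.cl ω) = Z.cl ω := by
  unfold ι
  rw [if_pos]
  exact Z.hu2 ω

theorem key (hf : Free S) {g : Perm (Om S)} (hg : HasRad g (Z.ρ - 1))
    (hinv : ∀ (x : Cfg S) (t : Track), Z.u (g (x, t)) = Z.u (x, t) + (actP g x (0, t)).1.1)
    {b : Cl S → Bool} (hb : Z.Forced b) (ω : Om S) :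
    Z.BB (b ∘ Z.ι) (g ω) = Z.BB (b ∘ Z.σ g) ω := by
  obtain ⟨x, t⟩ := ω
  have hgl : g ∈ LocP S := ⟨_, hg⟩
  have hρ := Z.hρ
  have hc : ((Z.ρ - 1 : ℕ) : ℤ) = (Z.ρ : ℤ) - 1 := by omega
  have eu := hinv x t
  set p := actP g x (0, t) with hp
  have hgω : g (x, t) = (p.1 +ᵥ x, p.2) := by
    have := actP_spec hf hgl x (0, t)
    rw [pt_zero] at this
    exact this
  have hd := actP_disp hf hg x (0, t)
  unfold InB at hd
  rw [hc, ← hp] at hd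
  simp only [sub_zero] at hd
  obtain ⟨hd1, hd2⟩ := hd
  rw [abs_le] at hd1 hd2
  have hj0 := Z.φ2.nonneg x
  have hj1 := Z.φ2.lt x
  have hR := Z.hR
  have hRW := Z.hRW
  have hW := Z.hW
  have ej : Z.φ2.r (p.1 +ᵥ x) = (Z.φ2.r x + p.1.2) % Z.N := Z.φ2.r_vadd _ _
  rw [hgω] at eu ⊢
  unfold BB
  simp only [vadd_vadd]
  apply ln_eq_of
  simp only [χ2_apply, Prod.snd_add, Function.comp, Z.ι_cl]
  have hus := Z.hu2 (p.1 +ᵥ x, p.2)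
  have hus' := Z.hu2 (x, t)
  have hF := Z.forced hb (Z.cl (p.1 +ᵥ x, p.2)) (Z.abs_lt_of_used hus)
  have hF1 : Z.φ2.r (p.1 +ᵥ x) ≤ Z.R + 2 * Z.ρ → b (Z.cl (p.1 +ᵥ x, p.2)) = false := hF.1
  have hF2 : Z.R + Z.W - 2 * Z.ρ ≤ Z.φ2.r (p.1 +ᵥ x) → b (Z.cl (p.1 +ᵥ x, p.2)) = true := hF.2
  by_cases hact : Z.R + Z.ρ ≤ Z.φ2.r x ∧ Z.φ2.r x ≤ Z.R + Z.W - Z.ρ
  · have ej' : Z.φ2.r (p.1 +ᵥ x) = Z.φ2.r x + p.1.2 := by
      rw [ej]; exact Int.emod_eq_of_lt (by omega) (by omega)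
    have hbase : Z.base (p.1 +ᵥ x, p.2) = Z.base (x, t) := by
      unfold base
      simp only [vadd_vadd]
      rw [eu, ej']
      congr 1
      ext <;> simp
    have e3 : Z.σ g (Z.cl (x, t)) = Z.cl (p.1 +ᵥ x, p.2) := by
      have hcond : |(Z.cl (x, t)).2.1| + Z.ρ ≤ Z.Pi ∧ Z.R + Z.ρ ≤ (Z.cl (x, t)).2.2.1 ∧
          (Z.cl (x, t)).2.2.1 ≤ Z.R + Z.W - Z.ρ := ⟨hus', hact.1, hact.2⟩
      simp only [σ, if_pos hcond]
      have a2 := Z.actP_eq_act hf hg (Z.base_phase (x, t)).1 (Z.base_phase (x, t)).2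
        (u := Z.u (x, t)) (j := Z.φ2.r x) hus' hact t
      have a3 := Z.actP_base hf hgl x t
      rw [a3, ← hp] at a2
      simp only [cl] at a2 ⊢
      rw [← a2, hbase, eu, ej']
      simp only [shP, Prod.fst_add, Prod.snd_add, Prod.mk.injEq, true_and, and_true]
      exact ⟨by ring, by ring⟩
    rw [e3, ej']
    ring
  · have e3 : Z.σ g (Z.cl (x, t)) = Z.cl (x, t) := by
      have hcond : ¬ (|(Z.cl (x, t)).2.1| + Z.ρ ≤ Z.Pi ∧ Z.R + Z.ρ ≤ (Z.cl (x, t)).2.2.1 ∧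
          (Z.cl (x, t)).2.2.1 ≤ Z.R + Z.W - Z.ρ) := fun h => hact h.2
      simp only [σ, if_neg hcond, Z.ι_cl]
    have hG := Z.forced hb (Z.cl (x, t)) (Z.abs_lt_of_used hus')
    have hG1 : Z.φ2.r x ≤ Z.R + 2 * Z.ρ → b (Z.cl (x, t)) = false := hG.1
    have hG2 : Z.R + Z.W - 2 * Z.ρ ≤ Z.φ2.r x → b (Z.cl (x, t)) = true := hG.2
    rw [e3]
    by_cases c1 : Z.φ2.r x < Z.R + Z.ρ
    · rw [hG1 (by omega)]
      by_cases c0 : 0 ≤ Z.φ2.r x + p.1.2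
      · have eu' : Z.φ2.r (p.1 +ᵥ x) = Z.φ2.r x + p.1.2 := by
          rw [ej]; exact Int.emod_eq_of_lt c0 (by omega)
        rw [hF1 (by omega), eu']; simp [off]
      · have eu' : Z.φ2.r (p.1 +ᵥ x) = Z.φ2.r x + p.1.2 + Z.N := by
          rw [ej, ← Int.add_emod_right]; exact Int.emod_eq_of_lt (by omega) (by omega)
        rw [hF2 (by omega), eu']; simp [off]
    · have c2 : Z.R + Z.W - Z.ρ < Z.φ2.r x := by omega
      rw [hG2 (by omega)]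
      by_cases c0 : Z.φ2.r x + p.1.2 < Z.N
      · have eu' : Z.φ2.r (p.1 +ᵥ x) = Z.φ2.r x + p.1.2 := by
          rw [ej]; exact Int.emod_eq_of_lt (by omega) c0
        rw [hF2 (by omega), eu']; simp [off]; ring
      · have eu' : Z.φ2.r (p.1 +ᵥ x) = Z.φ2.r x + p.1.2 - Z.N := by
          rw [ej, ← Int.sub_emod_right]; exact Int.emod_eq_of_lt (by omega) (by omega)
        rw [hF1 (by omega), eu']; simp [off]; ring

lemma θ_ι_det {i : Cl S} (h : ¬ (|i.2.1| + Z.ρ ≤ Z.Pi ∧ Z.R + Z.ρ ≤ i.2.2.1 ∧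
    i.2.2.1 ≤ Z.R + Z.W - Z.ρ)) : Z.θ (Z.ι i) = 0 ∨ Z.θ (Z.ι i) = Real.pi / 2 := by
  have hρ := Z.hρ
  simp only [ι]
  split_ifs with c
  · have hj : |i.2.1| < Z.Pi := Z.abs_lt_of_used c
    simp only [θ, if_pos hj]
    by_cases c1 : i.2.2.1 < Z.R + Z.ρ
    · exact Or.inl (ramp_of_le Z.lo_hi (by omega))
    · have c2 : Z.R + Z.W - Z.ρ < i.2.2.1 := by
        by_contra c3
        exact h ⟨c, by omega, by omega⟩
      exact Or.inr (ramp_of_ge Z.lo_hi (by omega))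
  · left
    simp [θ]

lemma injOn_ι : Set.InjOn Z.ι {i | Z.θ (Z.ι i) ≠ 0 ∧ Z.θ (Z.ι i) ≠ Real.pi / 2} := by
  have key : ∀ i, Z.θ (Z.ι i) ≠ 0 → Z.ι i = i := by
    intro i h
    simp only [ι] at h ⊢
    split_ifs at h ⊢ with c
    · rfl
    · exact absurd (by simp [θ]) h
  intro i hi i' hi' e
  rw [key i hi.1, key i' hi'.1] at e
  exact e

lemma injOn_σ (g : Perm (Om S)) :
    Set.InjOn (Z.σ g) {i | Z.θ (Z.σ g i) ≠ 0 ∧ Z.θ (Z.σ g i) ≠ Real.pi / 2} := by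
  have a1 : ∀ i : Cl S, (Z.θ (Z.σ g i) ≠ 0 ∧ Z.θ (Z.σ g i) ≠ Real.pi / 2) →
      |i.2.1| + Z.ρ ≤ Z.Pi ∧ Z.R + Z.ρ ≤ i.2.2.1 ∧ i.2.2.1 ≤ Z.R + Z.W - Z.ρ := by
    intro i hi
    by_contra c
    simp only [σ, if_neg c] at hi
    rcases Z.θ_ι_det c with h | h
    · exact hi.1 h
    · exact hi.2 h
  intro i hi i' hi' e
  have c := a1 i hi
  have c' := a1 i' hi'
  simp only [σ, if_pos c, if_pos c', Prod.mk.injEq] at e
  obtain ⟨a, u, j, t⟩ := i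
  obtain ⟨a', u', j', t'⟩ := i'
  obtain ⟨e0, e1, e2, e3⟩ := e
  simp only at e0 e1 e2 e3
  subst e0
  have : Z.act g a ((u, j), t) = Z.act g a ((u', j'), t') := Prod.ext (Prod.ext e1 e2) e3
  have := (Z.act g a).injective this
  simp only [Prod.mk.injEq] at this
  obtain ⟨⟨rfl, rfl⟩, rfl⟩ := this
  rfl

/-- the finite set outside which everything is trivial -/
noncomputable def JJ : Finset (Cl S) :=
  Finset.univ ×ˢ Finset.Icc (-(Z.Pi : ℤ)) Z.Pi ×ˢ Finset.Icc Z.R (Z.R + Z.W) ×ˢ Finset.univ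

lemma θ_det (i : Cl S) (hi : i ∉ Z.JJ) : Z.θ i = 0 ∨ Z.θ i = Real.pi / 2 := by
  have hρ := Z.hρ
  simp only [JJ, Finset.mem_product, Finset.mem_univ, Finset.mem_Icc,
    true_and, and_true] at hi
  simp only [θ]
  split_ifs with c
  · rw [abs_lt] at c
    by_cases c1 : i.2.2.1 < Z.R
    · exact Or.inl (ramp_of_le Z.lo_hi (by omega))
    · exact Or.inr (ramp_of_ge Z.lo_hi (by omega))
  · exact Or.inl rfl

lemma σ_eq_ι (g : Perm (Om S)) (i : Cl S) (hi : i ∉ Z.JJ) : Z.σ g i = Z.ι i := by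
  simp only [JJ, Finset.mem_product, Finset.mem_univ, Finset.mem_Icc,
    true_and, and_true] at hi
  simp only [σ]
  rw [if_neg]
  intro c
  have := abs_le.mp (show |i.2.1| ≤ Z.Pi by omega)
  omega

lemma diff (hf : Free S) {g : Perm (Om S)} (hg : HasRad g (Z.ρ - 1)) (i : Cl S) :
    (Z.θ (Z.σ g i) - Z.θ (Z.ι i)) ^ 2 ≤ (2 * Z.ρ / (Z.W - 4 * Z.ρ) : ℝ) ^ 2 := by
  simp only [σ]
  split_ifs with c
  · have d := Z.act_disp hf hg i.1 ((i.2.1, i.2.2.1), i.2.2.2)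
    simp only at d
    have h1 : |(Z.act g i.1 ((i.2.1, i.2.2.1), i.2.2.2)).1.1| < Z.Pi := by
      have := abs_sub_abs_le_abs_sub (Z.act g i.1 ((i.2.1, i.2.2.1), i.2.2.2)).1.1 i.2.1
      omega
    simp only [ι, if_pos c.1, θ, if_pos h1, if_pos (Z.abs_lt_of_used c.1)]
    have := ramp_lip Z.lo_hi (u := i.2.2.1) (u' := (Z.act g i.1 ((i.2.1, i.2.2.1), i.2.2.2)).1.2)
      (k := Z.ρ) (by omega)
    have e : ((Z.R + Z.W - 2 * Z.ρ : ℤ) : ℝ) - ((Z.R + 2 * Z.ρ : ℤ) : ℝ) = Z.W - 4 * Z.ρ := by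
      push_cast; ring
    rw [e] at this
    exact sq_le_sq' (abs_le.mp this).1 (abs_le.mp this).2
  · simp only [sub_self]
    rw [zero_pow (by norm_num)]
    positivity

lemma sum_le (hf : Free S) {g : Perm (Om S)} (hg : HasRad g (Z.ρ - 1)) {n : ℕ} (hn : 0 < n)
    (hN : 1 ≤ Z.Pi) (h1 : n * Z.Pi ≤ Z.W) :
    ∑ i ∈ Z.JJ, (Z.θ (Z.σ g i) - Z.θ (Z.ι i)) ^ 2 ≤
      (Fintype.card S.A : ℝ) * 30 * (96 * Z.ρ ^ 2) / n := by
  have hW := Z.hW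
  have hρ := Z.hρ
  unfold JJ
  have b1 := Finset.sum_le_card_nsmul
    (Finset.univ ×ˢ Finset.Icc (-(Z.Pi : ℤ)) Z.Pi ×ˢ Finset.Icc Z.R (Z.R + Z.W) ×ˢ
      (Finset.univ : Finset Track) : Finset (Cl S)) _ _ (fun i _ => Z.diff hf hg i)
  have c1 : (Finset.Icc Z.R (Z.R + Z.W)).card = Z.W + 1 := by rw [Int.card_Icc]; omega
  have c2 : (Finset.Icc (-(Z.Pi : ℤ)) Z.Pi).card = 2 * Z.Pi + 1 := by rw [Int.card_Icc]; omega
  simp only [Finset.card_product, Finset.card_univ, Fintype.card_fin, c1, c2,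
    nsmul_eq_mul] at b1
  push_cast at b1
  refine b1.trans ?_
  have hWr : (8 * Z.ρ : ℝ) ≤ Z.W := by exact_mod_cast hW
  have hρr : (1 : ℝ) ≤ Z.ρ := by exact_mod_cast hρ
  have hNr : (1 : ℝ) ≤ Z.Pi := by exact_mod_cast hN
  have hnr : (0 : ℝ) < n := by exact_mod_cast hn
  have h1r : (n * Z.Pi : ℝ) ≤ Z.W := by exact_mod_cast h1
  have k1 : ((Z.W : ℝ) + 1) * (2 * Z.Pi + 1) * (2 * Z.ρ / (Z.W - 4 * Z.ρ)) ^ 2 ≤
      96 * Z.ρ ^ 2 / n := by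
    have hpos : (0 : ℝ) < Z.W - 4 * Z.ρ := by linarith
    rw [div_pow, ← mul_div_assoc, div_le_div_iff₀ (by positivity) hnr]
    have e1 : ((Z.W : ℝ) + 1) * (2 * Z.Pi + 1) * n ≤ 24 * (Z.W - 4 * Z.ρ) ^ 2 := by
      have t1 : ((Z.W : ℝ) + 1) ≤ 2 * Z.W := by linarith
      have t2 : (2 * (Z.Pi : ℝ) + 1) * n ≤ 3 * Z.W := by nlinarith
      have t3 : (Z.W : ℝ) ≤ 2 * (Z.W - 4 * Z.ρ) := by linarith
      have t4 : ((Z.W : ℝ) + 1) * ((2 * Z.Pi + 1) * n) ≤ (2 * Z.W) * (3 * Z.W) :=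
        mul_le_mul t1 t2 (by positivity) (by positivity)
      have t5 : (Z.W : ℝ) * Z.W ≤ (2 * (Z.W - 4 * Z.ρ)) * (2 * (Z.W - 4 * Z.ρ)) :=
        mul_le_mul t3 t3 (by positivity) (by positivity)
      nlinarith
    have : (0 : ℝ) ≤ 4 * Z.ρ ^ 2 := by positivity
    nlinarith [mul_le_mul_of_nonneg_left e1 this]
  have hA : (0 : ℝ) ≤ (Fintype.card S.A : ℝ) * 30 := by positivity
  have := mul_le_mul_of_nonneg_left k1 hA
  calc _ = (Fintype.card S.A : ℝ) * 30 *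
        (((Z.W : ℝ) + 1) * (2 * Z.Pi + 1) * (2 * Z.ρ / (Z.W - 4 * Z.ρ)) ^ 2) := by ring
    _ ≤ (Fintype.card S.A : ℝ) * 30 * (96 * Z.ρ ^ 2 / n) := this
    _ = _ := by ring

lemma bddLine (b : Cl S → Bool) : BddLine χ2 (Z.BB b) := by
  refine ⟨Z.N, fun ω => ⟨_, ?_, rfl⟩⟩
  have h0 := Z.φ2.nonneg ω.1
  have h1 := Z.φ2.lt ω.1
  simp only [χ2_apply, off]
  rw [abs_le]
  split_ifs <;> omega

end Z2

/-- centred representative -/
def amenD_ctr (P : ℕ) (m : ℤ) : ℤ := if 2 * m ≤ P then m else m - P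


/-- Second step.  Plan: `ρ` a common radius of `K`, `C` the bound of `A₀`, data of `HZ2` for large `n`
(`C + ρ < Pi / 2`).  For `ω = (x, t)` let `k ω` be the horizontal offset of the column `≡ 0 mod Pi` nearest
to the line `A₀ ω` (`|k ω| ≤ Pi / 2 + C`; `k (g ω) + v.1 = k ω` if `g ω = (v + x, _)`, by `eq_of_ln_eq`),
`j = φ2.r x`, `y ω = (k ω, -j) + x` (both phases `0`), class
`cl ω = (y ω (0, c), -k ω, j, t) : I = S.A × ℤ × ℤ × Track`.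
`θ (a, u, j, t) = ramp (R + 2ρ) (R + W - 2ρ) j` if `|u| < Pi`, `0` otherwise.  `I'` = the classes with
`|u| ≤ Pi / 2 + C`, `ι` the inclusion, `B b ω = ln χ2 ((0, -j + N * [b (cl ω)]) + x)` for `b : I' → Bool`.
For `g ∈ K`: `σ (a, u, j, t) = (a, actP g (y a) ((u, j), t))` for a chosen base point `y a` with letter `a` at
`(0, c)`, if such a point exists and `R + ρ ≤ j ≤ R + W - ρ`; else `σ = ι` (for letters that do not occur any
choice works; for the other `j` the value of `θ` is deterministic).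
Then `B (b ∘ ι) (g ω) = B (b ∘ σ) ω` for `b ∈ s` (`actP_window` in the zone; forced values outside, with
wrap-around at `j + v.2 < 0` or `≥ N`), and `bernoulli`, `ramp_lip` give the bound
`2 √(|A| · 2 Pi · (W + 1) · 30 · (2 ρ / (W - 4 ρ))²) → 0` because `n Pi ≤ W`. -/
theorem approx2 (hf : Free S) (hz : HZ2 S) {A₀ : Om S → Set (Cfg S)} (hA : BddLine χ1 A₀)
    (K : Finset (Perm (Om S))) (hK : ∀ g ∈ K, g ∈ LocP S ∧ ∀ ω, A₀ (g ω) = A₀ ω) {ε : ℝ}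
    (hε : 0 < ε) : Approx χ2 K ε := by
  obtain ⟨ρ₀, hρ₀⟩ := amenC_radius K fun g hg => (hK g hg).1
  obtain ⟨C, hC⟩ := hA
  choose v hv1 hv2 using hC
  set ρ := ρ₀ + 1 with hρ
  obtain ⟨n₁, hn₁⟩ := exists_nat_ge ((Fintype.card S.A : ℝ) * 30 * (96 * (ρ : ℝ) ^ 2) / (ε / 2) ^ 2)
  set n := max n₁ (8 * ρ + 2 * C) with hn
  have hn8 : 8 * ρ + 2 * C ≤ n := le_max_right _ _
  obtain ⟨Pi, N, W, φ1, φ2, c, R, h1, h2, h3, h4, h5⟩ := hz n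
  have hPi : 1 ≤ Pi := by omega
  have hW : 8 * ρ ≤ W := le_trans (le_trans (by omega) (Nat.le_mul_of_pos_right n hPi)) h2
  let u : Om S → ℤ := fun ω => amenD_ctr Pi (φ1.r (v ω +ᵥ ω.1)) - (v ω).1
  have hu1 : ∀ ω : Om S, (Pi : ℤ) ∣ φ1.r ω.1 - u ω := by
    intro ω
    have a1 := φ1.eqv (v ω) ω.1
    simp only [χ1_apply] at a1
    simp only [u, amenD_ctr]
    split_ifs
    · have : φ1.r ω.1 - (φ1.r (v ω +ᵥ ω.1) - (v ω).1) =
          -(φ1.r (v ω +ᵥ ω.1) - φ1.r ω.1 - (v ω).1) := by ring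
      rw [this]; exact a1.neg_right
    · have : φ1.r ω.1 - (φ1.r (v ω +ᵥ ω.1) - Pi - (v ω).1) =
          -(φ1.r (v ω +ᵥ ω.1) - φ1.r ω.1 - (v ω).1) + Pi := by ring
      rw [this]; exact dvd_add a1.neg_right dvd_rfl
  have hu2 : ∀ ω : Om S, |u ω| + ρ ≤ Pi := by
    intro ω
    have a1 := hv1 ω
    have a2 := φ1.nonneg (v ω +ᵥ ω.1)
    have a3 := φ1.lt (v ω +ᵥ ω.1)
    simp only [χ1_apply, abs_le] at a1
    have a4 : |u ω| ≤ Pi - ρ := by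
      simp only [u, amenD_ctr]
      rw [abs_le]
      split_ifs <;> omega
    omega
  let Z : Z2 S := ⟨Pi, N, W, φ1, φ2, c, R, ρ, u, by omega, hW, h3, h4, h5, hu1, hu2⟩
  obtain ⟨s, w, hw0, hw1, hs, hb⟩ := bernoulli Z.θ Z.JJ Z.θ_det
  refine ⟨_, s, w, fun b => Z.BB (b ∘ Z.ι), hw0, hw1, fun b _ => Z.bddLine _, ?_⟩
  intro g hg f hf01
  have hgr : HasRad g (Z.ρ - 1) := hρ₀ g hg
  have hinv : ∀ (x : Cfg S) (t : Track), Z.u (g (x, t)) = Z.u (x, t) + (actP g x (0, t)).1.1 := by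
    intro x t
    have hgω : g (x, t) = ((actP g x (0, t)).1 +ᵥ x, (actP g x (0, t)).2) := by
      have := actP_spec hf (hK g hg).1 x (0, t)
      rw [pt_zero] at this
      exact this
    have a1 := (hK g hg).2 (x, t)
    rw [hv2, hv2] at a1
    have a2 : (g (x, t)).1 = (actP g x (0, t)).1 +ᵥ x := by rw [hgω]
    rw [a2, vadd_vadd] at a1
    have a3 := eq_of_ln_eq hf a1
    simp only [χ1_apply, Prod.fst_add] at a3
    have a4 : φ1.r (v (g (x, t)) +ᵥ (g (x, t)).1) = φ1.r (v (x, t) +ᵥ x) := by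
      rw [a2, vadd_vadd, φ1.r_vadd, φ1.r_vadd]
      simp only [χ1_apply, Prod.fst_add]
      rw [a3]
    show amenD_ctr Pi (φ1.r (v (g (x, t)) +ᵥ (g (x, t)).1)) - (v (g (x, t))).1 =
      amenD_ctr Pi (φ1.r (v (x, t) +ᵥ x)) - (v (x, t)).1 + (actP g x (0, t)).1.1
    rw [a4, ← a3]
    ring
  have e : ∑ b ∈ s, w b * f (fun ω => Z.BB (b ∘ Z.ι) (g ω)) =
      ∑ b ∈ s, w b * f (Z.BB (b ∘ Z.σ g)) := by
    refine Finset.sum_congr rfl fun b hbs => ?_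
    congr 2
    funext ω
    exact Z.key hf hgr hinv (hs b hbs) ω
  rw [e]
  refine (hb _ (Z.σ g) Z.ι Z.JJ (Z.σ_eq_ι g) (Z.injOn_σ g) Z.injOn_ι (fun b => f (Z.BB b))
    (fun b => hf01 _)).trans ?_
  have hnpos : 0 < n := by omega
  have hsum := Z.sum_le hf hgr hnpos hPi h2
  have hnr : (0 : ℝ) < n := by exact_mod_cast hnpos
  have hn1 : (n₁ : ℝ) ≤ n := by exact_mod_cast le_max_left _ _
  have hle : (Fintype.card S.A : ℝ) * 30 * (96 * (ρ : ℝ) ^ 2) / n ≤ (ε / 2) ^ 2 := by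
    rw [div_le_iff₀ hnr]
    rw [div_le_iff₀ (by positivity)] at hn₁
    nlinarith [sq_nonneg (ε / 2)]
  have : √(∑ i ∈ Z.JJ, (Z.θ (Z.σ g i) - Z.θ (Z.ι i)) ^ 2) ≤ ε / 2 :=
    Real.sqrt_le_iff.mpr ⟨by positivity, hsum.trans hle⟩
  linarith

end Crest.Agent.R189
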