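import Crest.Agent.R189.Geo

/-!
Row 189.  The anchor lemma.
-/

set_option autoImplicit false

namespace Crest.Agent.R189

/-- rank at most `K - 3` -/
def Low (K c : ℕ) (x : ℤ) : Prop := ∃ a, a % 2 = c % 2 ∧ a + 3 ≤ K ∧ Ex a x

lemma low_or (K c : ℕ) (hK : 2 ≤ K) (x : ℤ) : Low K c x ∨ (sn (hl (K - 2) c) : ℤ) ∣ x := by 
  rcases high_or_ex (K - 2) c x with h | ⟨a, h1, h2, h3⟩
  · exact Or.inr h
  · exact Or.inl ⟨a, h1, by omega, h3⟩

/-- in a short interval all points but one are low -/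
lemma exists_special (K c : ℕ) (hK : 2 ≤ K) {x₀ x₁ : ℤ} (h : x₀ ≤ x₁) (hlen : x₁ - x₀ < sn (K - 2)) :
    ∃ x, x₀ ≤ x ∧ x ≤ x₁ ∧ ∀ y, x₀ ≤ y → y ≤ x₁ → y ≠ x → Low K c y := by 
  by_cases hex : ∃ x, x₀ ≤ x ∧ x ≤ x₁ ∧ (sn (hl (K - 2) c) : ℤ) ∣ x
  · obtain ⟨x, h0, h1, h2⟩ := hex
    refine ⟨x, h0, h1, fun y a b hne => (low_or K c hK y).resolve_right fun hy => hne ?_⟩
    have hs : (sn (K - 2) : ℤ) ≤ sn (hl (K - 2) c) := by exact_mod_cast sn_mono (hl_ge _ _)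
    have := Int.eq_zero_of_abs_lt_dvd (dvd_sub hy h2) (by rw [abs_lt]; constructor <;> omega)
    omega
  · exact ⟨x₀, le_rfl, h, fun y a b _ => (low_or K c hK y).resolve_right fun hy => hex ⟨y, a, b, hy⟩⟩

/-- a column that is high at level `K`, where `K` has the parity of the rows, keeps its state
across all rows that are not high (they have rank `≤ K - 2`, so `¬ D1`) -/
lemma AgreeT.col_eq_of_high {K c : ℕ} {X Y : ℤ} {t : Tile} (hK : K % 2 = (c + 1) % 2)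
    (h : AgreeT K c X Y t) (hX : (sn (K + 1) : ℤ) ∣ X) (hY : ¬ (sn K : ℤ) ∣ Y) : t.T = t.B := by 
  rcases high_or_ex K (c + 1) Y with h4 | ⟨b, h4, h5, h6⟩
  · have : hl K (c + 1) = K := by unfold hl; rw [if_pos hK]
    rw [this] at h4
    exact (hY h4).elim
  · have hc : Cross t.L t.R t.B t.T := h.rowLow h6 h4 h5 (geo_sn_dvd (by omega) (by omega) hX)
    have hd : ¬ D1 t.L :=
      (h.2.2 b h4 h5 h6).1.not_d1 (by omega) (geo_sn_dvd (by omega) (by omega) hX)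
    exact LS.ext hc.hst hc.hpp hc.htt hc.hcp hc.hct hc.hch hc.ham hc.hap (hc.nE hd) hc.hbot

lemma AgreeT.row_eq_of_high {K c : ℕ} {X Y : ℤ} {t : Tile} (hK : K % 2 = c % 2)
    (h : AgreeT K c X Y t) (hY : (sn (K + 1) : ℤ) ∣ Y) (hX : ¬ (sn K : ℤ) ∣ X) : t.R = t.L := by 
  exact h.tp.col_eq_of_high (by omega) hY hX

/-- the higher line: the state after is equivalent to the state before, given the lower line -/
lemma Cross.anc_iff {lm lp lp' hm hp hm' hp' : LS} (h : Cross lm lp hm hp)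
    (h' : Cross lm lp' hm' hp') : hm = hm' ↔ hp = hp' := by
  constructor
  · rintro rfl
    refine LS.ext (h.hst.trans h'.hst.symm) (h.hpp.trans h'.hpp.symm) (h.htt.trans h'.htt.symm)
      (h.hcp.trans h'.hcp.symm) (h.hct.trans h'.hct.symm) (h.hch.trans h'.hch.symm)
      (h.ham.trans h'.ham.symm) (h.hap.trans h'.hap.symm) ?_ (h.hbot.trans h'.hbot.symm)
    by_cases hd : D1 lm
    · exact (h.dE hd).2.trans (h'.dE hd).2.symm
    · exact (h.nE hd).trans (h'.nE hd).symm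
  · rintro rfl
    refine LS.ext (h.hst.symm.trans h'.hst) (h.hpp.symm.trans h'.hpp) (h.htt.symm.trans h'.htt)
      (h.hcp.symm.trans h'.hcp) (h.hct.symm.trans h'.hct) (h.hch.symm.trans h'.hch)
      (h.ham.symm.trans h'.ham) (h.hap.symm.trans h'.hap) ?_ (h.hbot.symm.trans h'.hbot)
    by_cases hd : D1 lm
    · exact (h.dE hd).1.trans (h'.dE hd).1.symm
    · exact (h.nE hd).symm.trans (h'.nE hd)

/-- a low column is known -/
lemma AgreeT.anc_col {K c : ℕ} {X Y : ℤ} {t t' : Tile} (h : AgreeT K c X Y t)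
    (h' : AgreeT K c X Y t') (hX : Low K c X) : t.B = t'.B ∧ t.T = t'.T := by
  obtain ⟨a, h1, h2, h3⟩ := hX
  obtain ⟨a1, a2, -⟩ := h.2.1 a h1 (by omega) h3
  obtain ⟨b1, b2, -⟩ := h'.2.1 a h1 (by omega) h3
  exact ⟨(a1.eq h2).trans (b1.eq h2).symm, (a2.eq h2).trans (b2.eq h2).symm⟩

lemma AgreeT.anc_iff {K c : ℕ} {X Y : ℤ} {t t' : Tile} (h : AgreeT K c X Y t)
    (h' : AgreeT K c X Y t') (hY : Low K (c + 1) Y) : t.B = t'.B ↔ t.T = t'.T := by
  have hL : t.L = t'.L := (h.tp.anc_col h'.tp hY).1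
  obtain ⟨b, h1, h2, h3⟩ := hY
  rcases high_or_ex (b + 1) c X with h4 | ⟨a, h4, h5, h6⟩
  · have : hl (b + 1) c = b + 1 := by unfold hl; rw [if_pos (by omega)]
    rw [this] at h4
    have c1 : Cross t.L t.R t.B t.T := h.rowLow h3 h1 (by omega) h4
    have c2 : Cross t'.L t'.R t'.B t'.T := h'.rowLow h3 h1 (by omega) h4
    rw [← hL] at c2
    exact c1.anc_iff c2
  · have := h.anc_col h' ⟨a, h4, by omega, h6⟩
    exact iff_of_true this.1 this.2

lemma anc_line {P Q : ℤ → Prop} {y₀ y₁ Y₁ : ℤ} (hPQ : ∀ y, Q y ↔ P (y + 1))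
    (h : ∀ y, y₀ ≤ y → y ≤ y₁ → y ≠ Y₁ → (P y ↔ Q y)) (h1 : P Y₁ ∧ Q Y₁)
    (hY : y₀ ≤ Y₁ ∧ Y₁ ≤ y₁) {y : ℤ} (hy : y₀ ≤ y ∧ y ≤ y₁) : P y ∧ Q y := by
  rcases le_total Y₁ y with hle | hle
  · obtain ⟨-, hy⟩ := hy
    induction y, hle using Int.leInduction with
    | base => exact h1
    | succ n hn ih =>
      have := (hPQ n).1 (ih (by omega)).2
      exact ⟨this, (h _ (by omega) hy (by omega)).1 this⟩
  · obtain ⟨hy, -⟩ := hy
    induction y, hle using Int.leInductionDown with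
    | base => exact h1
    | pred n hn ih =>
      have := (hPQ (n - 1)).2 (by rw [sub_add_cancel]; exact (ih (by omega)).1)
      exact ⟨(h _ hy (by omega) (by omega)).2 this, this⟩

namespace Know

variable (k : Know)

/-- a column keeps a good state across low rows (either it is low and known, or it is the higher
line and the row is known) -/
lemma col_prop {K c : ℕ} {o : V} (h : Agr k.K K c o) {X Y : ℤ} (hY : Low K (c + 1) (Y + o.2)) :
    k.GF (X, Y) Tile.B ↔ k.GF (X, Y) Tile.T := by 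
  have key : ∀ t ∈ k.K (X, Y), ∀ t' ∈ k.K (X, Y), (t.B = t'.B ↔ t.T = t'.T) :=
    fun t ht t' ht' => (h _ t ht).anc_iff (h _ t' ht') hY
  exact ⟨fun g => g.of_det k fun t ht t' ht' => (key t ht t' ht').1,
    fun g => g.of_det k fun t ht t' ht' => (key t ht t' ht').2⟩

lemma row_prop {K c : ℕ} {o : V} (h : Agr k.K K c o) {X Y : ℤ} (hX : Low K c (X + o.1)) :
    k.GF (X, Y) Tile.L ↔ k.GF (X, Y) Tile.R := by
  have hX' : Low K (c + 1 + 1) (X + o.1) := by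
    obtain ⟨a, h1, h2⟩ := hX
    exact ⟨a, by omega, h2⟩
  have key : ∀ t ∈ k.K (X, Y), ∀ t' ∈ k.K (X, Y), (t.L = t'.L ↔ t.R = t'.R) :=
    fun t ht t' ht' => (h _ t ht).tp.anc_iff (h _ t' ht').tp hX'
  exact ⟨fun g => g.of_det k fun t ht t' ht' => (key t ht t' ht').1,
    fun g => g.of_det k fun t ht t' ht' => (key t ht t' ht').2⟩

lemma anc_hor (X Y : ℤ) : k.GF (X, Y) Tile.R ↔ k.GF (X + 1, Y) Tile.L := by
  have := k.GF_hor (X, Y) id
  simp only [e1, Prod.mk_add_mk, add_zero] at this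
  exact this

lemma anc_ver (X Y : ℤ) : k.GF (X, Y) Tile.T ↔ k.GF (X, Y + 1) Tile.B := by
  have := k.GF_ver (X, Y) id
  simp only [e2, Prod.mk_add_mk, add_zero] at this
  exact this

/-- Anchor lemma: in a rectangle in which all columns but `X₁` and all rows but `Y₁` are low,
everything is determined by the tile at `(X₁, Y₁)`. -/
theorem anchor {K c : ℕ} {o : V} (h : Agr k.K K c o) {x₀ x₁ y₀ y₁ X₁ Y₁ : ℤ}
    (hX : x₀ ≤ X₁ ∧ X₁ ≤ x₁) (hY : y₀ ≤ Y₁ ∧ Y₁ ≤ y₁)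
    (hcol : ∀ X, x₀ ≤ X → X ≤ x₁ → X ≠ X₁ → Low K c (X + o.1))
    (hrow : ∀ Y, y₀ ≤ Y → Y ≤ y₁ → Y ≠ Y₁ → Low K (c + 1) (Y + o.2))
    (ha : k.AllG (X₁, Y₁)) {X Y : ℤ} (h1 : x₀ ≤ X ∧ X ≤ x₁) (h2 : y₀ ≤ Y ∧ Y ≤ y₁) :
    k.AllG (X, Y) := by 
  have hc : k.GF (X, Y) Tile.B ∧ k.GF (X, Y) Tile.T := by
    by_cases e : X = X₁
    · subst e
      exact anc_line (P := fun y => k.GF (X, y) Tile.B) (Q := fun y => k.GF (X, y) Tile.T)
        (k.anc_ver X) (fun y a b e => k.col_prop h (hrow y a b e)) ⟨ha.gf k _, ha.gf k _⟩ hY h2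
    · have l := hcol X h1.1 h1.2 e
      exact ⟨GF.const k fun t ht t' ht' => ((h _ t ht).anc_col (h _ t' ht') l).1,
        GF.const k fun t ht t' ht' => ((h _ t ht).anc_col (h _ t' ht') l).2⟩
  have hr : k.GF (X, Y) Tile.L ∧ k.GF (X, Y) Tile.R := by
    by_cases e : Y = Y₁
    · subst e
      exact anc_line (P := fun x => k.GF (x, Y) Tile.L) (Q := fun x => k.GF (x, Y) Tile.R)
        (fun x => k.anc_hor x Y) (fun x a b e => k.row_prop h (hcol x a b e))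
        ⟨ha.gf k _, ha.gf k _⟩ hX h1
    · have l := hrow Y h2.1 h2.2 e
      exact ⟨GF.const k fun t ht t' ht' => ((h _ t ht).tp.anc_col (h _ t' ht').tp l).1,
        GF.const k fun t ht t' ht' => ((h _ t ht).tp.anc_col (h _ t' ht').tp l).2⟩
  exact k.allG_of_edges hr.1 hr.2 hc.1 hc.2

end Know

end Crest.Agent.R189
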