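import Mathlib
import Crest.Prelude.Def_Amenable

/-!
Row 189 (infinite finitely presented simple amenable group).  Basic definitions: Wang shifts,
local sets and functions, phases, the hypotheses on the system.
-/

set_option autoImplicit false

namespace Crest.Agent.R189

abbrev V := ℤ × ℤ

def e1 : V := (1, 0)
def e2 : V := (0, 1)

/-- the two coordinate functionals -/
def χ1 : V →+ ℤ := AddMonoidHom.fst ℤ ℤ
def χ2 : V →+ ℤ := AddMonoidHom.snd ℤ ℤ

@[simp] lemma χ1_apply (v : V) : χ1 v = v.1 := rfl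
@[simp] lemma χ2_apply (v : V) : χ2 v = v.2 := rfl

/-- A set of Wang tiles. -/
structure Wang where
  A : Type
  fin : Fintype A
  dec : DecidableEq A
  CH : Type
  CV : Type
  L : A → CH
  R : A → CH
  B : A → CV
  T : A → CV

instance (S : Wang) : Fintype S.A := S.fin
instance (S : Wang) : DecidableEq S.A := S.dec

def Wang.Valid (S : Wang) (x : V → S.A) : Prop :=
  (∀ v, S.R (x v) = S.L (x (v + e1))) ∧ (∀ v, S.T (x v) = S.B (x (v + e2)))

/-- valid tilings -/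
@[ext] structure Cfg (S : Wang) : Type where
  val : V → S.A
  prop : S.Valid val

variable {S : Wang}

instance : AddAction V (Cfg S) where
  vadd v x := ⟨fun u => x.1 (u + v), by
    refine ⟨fun u => ?_, fun u => ?_⟩
    · show S.R (x.1 (u + v)) = S.L (x.1 (u + e1 + v))
      rw [add_right_comm u e1 v]; exact x.2.1 _
    · show S.T (x.1 (u + v)) = S.B (x.1 (u + e2 + v))
      rw [add_right_comm u e2 v]; exact x.2.2 _⟩
  zero_vadd x := Cfg.ext (funext fun u => by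
    show x.1 (u + 0) = x.1 u
    rw [add_zero])
  add_vadd a b x := Cfg.ext (funext fun u => by
    show x.1 (u + (a + b)) = x.1 (u + a + b)
    rw [add_assoc])

@[simp] lemma vadd_val (v : V) (x : Cfg S) (u : V) : (v +ᵥ x).1 u = x.1 (u + v) := rfl

/-- `v` lies in the sup-norm ball of radius `ρ`. -/
def InB (ρ : ℕ) (v : V) : Prop := |v.1| ≤ (ρ : ℤ) ∧ |v.2| ≤ (ρ : ℤ)

def Agree (ρ : ℕ) (x y : Cfg S) : Prop := ∀ v : V, InB ρ v → x.1 v = y.1 v

/-- local function -/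
def LocF {β : Type} (f : Cfg S → β) : Prop := ∃ ρ : ℕ, ∀ x y, Agree ρ x y → f x = f y

/-- local (= clopen) set -/
def Loc (W : Set (Cfg S)) : Prop := LocF (fun x => x ∈ W)

/-- translate of a set: `tr v W = {v +ᵥ x | x ∈ W}` -/
def tr (v : V) (W : Set (Cfg S)) : Set (Cfg S) := {y | (-v) +ᵥ y ∈ W}

/-- site cylinder -/
def St (v : V) (U : Set S.A) : Set (Cfg S) := {x | x.1 v ∈ U}

/-- An equivariant local phase modulo `a` in the coordinate `χ`. -/
structure Phase (S : Wang) (χ : V →+ ℤ) (a : ℕ) where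
  r : Cfg S → ℤ
  nonneg : ∀ x, 0 ≤ r x
  lt : ∀ x, r x < a
  loc : LocF r
  eqv : ∀ (v : V) (x : Cfg S), (a : ℤ) ∣ r (v +ᵥ x) - r x - χ v

def HasPhases (S : Wang) : Prop :=
  ∀ n : ℕ, (∃ a : ℕ, n ≤ a ∧ Even a ∧ Nonempty (Phase S χ1 a)) ∧
    (∃ b : ℕ, n ≤ b ∧ Even b ∧ Nonempty (Phase S χ2 b))

def Free (S : Wang) : Prop := ∀ (v : V) (x : Cfg S), v +ᵥ x = x → v = 0

def Minimal (S : Wang) : Prop := ∀ (x y : Cfg S) (ρ : ℕ), ∃ v : V, Agree ρ x (v +ᵥ y)

/-- finiteness of `H₀(ℤ², C(X, 𝔽₂))` -/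
def H0 (S : Wang) : Prop :=
  ∀ (A : Type) [CommGroup A] (z : Set (Cfg S) → A),
    (∀ W, Loc W → z W ^ 2 = 1) →
    (∀ W W', Loc W → Loc W' → Disjoint W W' → z (W ∪ W') = z W * z W') →
    (∀ W v, Loc W → z (tr v W) = z W) → (z '' {W | Loc W}).Finite

def IsCycle (η₁ η₂ : Cfg S → ZMod 2) : Prop :=
  LocF η₁ ∧ LocF η₂ ∧ ∀ x, η₁ x + η₁ ((-e1) +ᵥ x) + η₂ x + η₂ ((-e2) +ᵥ x) = 0

/-- finiteness of `H₁(ℤ², C(X, 𝔽₂))` -/
def H1 (S : Wang) : Prop :=
  ∃ Z : Set ((Cfg S → ZMod 2) × (Cfg S → ZMod 2)), Z.Finite ∧ (∀ ζ ∈ Z, IsCycle ζ.1 ζ.2) ∧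
    ∀ η₁ η₂, IsCycle η₁ η₂ → ∃ ζ ∈ Z, ∃ ξ : Cfg S → ZMod 2, LocF ξ ∧
      (∀ x, η₁ x = ζ.1 x + ξ x + ξ ((-e2) +ᵥ x)) ∧ (∀ x, η₂ x = ζ.2 x + ξ x + ξ ((-e1) +ᵥ x))

/-- Zones for the first amenability step: tiles `Π × N`; the zone of columns `[R, R+W]` around the
boundary row `0` is determined by the letter at `(c, 0)`, and in the slab of rows `[r, r+h]` it is
`π`-periodic horizontally. -/
def HZ1 (S : Wang) : Prop :=
  ∀ n : ℕ, ∃ (Pi N π W h : ℕ) (φ1 : Phase S χ1 Pi) (φ2 : Phase S χ2 N) (c R r : ℤ),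
    n ≤ π ∧ n * π ≤ h ∧ n * N ≤ W ∧ 0 ≤ R ∧ R + W < Pi ∧ 0 ≤ r ∧ r + h < N ∧
    (∀ y y' : Cfg S, φ1.r y = 0 → φ2.r y = 0 → φ1.r y' = 0 → φ2.r y' = 0 →
      y.1 (c, 0) = y'.1 (c, 0) → ∀ u j : ℤ, R ≤ u → u ≤ R + W → |j| < N → y.1 (u, j) = y'.1 (u, j)) ∧
    (∀ y : Cfg S, φ1.r y = 0 → φ2.r y = 0 → ∀ u j : ℤ, R ≤ u → u + π ≤ R + W → r ≤ j → j ≤ r + h →
      y.1 (u + π, j) = y.1 (u, j))

/-- Zones for the second amenability step (transposed, no periodicity needed). -/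
def HZ2 (S : Wang) : Prop :=
  ∀ n : ℕ, ∃ (Pi N W : ℕ) (φ1 : Phase S χ1 Pi) (φ2 : Phase S χ2 N) (c R : ℤ),
    n ≤ Pi ∧ n * Pi ≤ W ∧ 0 ≤ R ∧ R + W < N ∧
    (∀ y y' : Cfg S, φ1.r y = 0 → φ2.r y = 0 → φ1.r y' = 0 → φ2.r y' = 0 →
      y.1 (0, c) = y'.1 (0, c) → ∀ u j : ℤ, |u| < Pi → R ≤ j → j ≤ R + W → y.1 (u, j) = y'.1 (u, j))

/-! ### elementary lemmas -/

lemma Agree.refl (ρ : ℕ) (x : Cfg S) : Agree ρ x x := fun _ _ => rfl
lemma Agree.symm {ρ : ℕ} {x y : Cfg S} (h : Agree ρ x y) : Agree ρ y x := fun v hv => (h v hv).symm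
lemma Agree.trans {ρ : ℕ} {x y w : Cfg S} (h : Agree ρ x y) (h' : Agree ρ y w) : Agree ρ x w :=
  fun v hv => (h v hv).trans (h' v hv)

lemma Agree.mono {ρ ρ' : ℕ} {x y : Cfg S} (h : Agree ρ' x y) (hρ : ρ ≤ ρ') : Agree ρ x y := by
  intro v hv
  have : (ρ : ℤ) ≤ ρ' := by exact_mod_cast hρ
  exact h v ⟨hv.1.trans this, hv.2.trans this⟩

lemma Agree.vadd {ρ k : ℕ} {x y : Cfg S} (h : Agree (ρ + k) x y) {v : V} (hv : InB k v) :
    Agree ρ (v +ᵥ x) (v +ᵥ y) := by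
  intro u hu
  simp only [vadd_val]
  refine h _ ⟨?_, ?_⟩
  · have := abs_add_le u.1 v.1
    have h1 := hu.1
    have h2 := hv.1
    simp only [Prod.fst_add]
    push_cast
    linarith
  · have := abs_add_le u.2 v.2
    have h1 := hu.2
    have h2 := hv.2
    simp only [Prod.snd_add]
    push_cast
    linarith

lemma exists_InB (v : V) : ∃ k : ℕ, InB k v := by
  refine ⟨v.1.natAbs + v.2.natAbs, ?_, ?_⟩
  · push_cast
    have := abs_nonneg v.2
    linarith
  · push_cast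
    have := abs_nonneg v.1
    linarith

lemma LocF.const {β : Type} (b : β) : LocF (fun _ : Cfg S => b) := ⟨0, fun _ _ _ => rfl⟩

lemma LocF.comp {β γ : Type} {f : Cfg S → β} (h : LocF f) (g : β → γ) : LocF (fun x => g (f x)) := by
  obtain ⟨ρ, hρ⟩ := h
  exact ⟨ρ, fun x y hxy => by simp only [hρ x y hxy]⟩

lemma LocF.prod {β γ : Type} {f : Cfg S → β} {g : Cfg S → γ} (hf : LocF f) (hg : LocF g) :
    LocF (fun x => (f x, g x)) := by
  obtain ⟨ρ, hρ⟩ := hf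
  obtain ⟨σ, hσ⟩ := hg
  exact ⟨max ρ σ, fun x y hxy => by
    simp only [hρ x y (hxy.mono (le_max_left _ _)), hσ x y (hxy.mono (le_max_right _ _))]⟩

lemma LocF.vadd {β : Type} {f : Cfg S → β} (h : LocF f) (v : V) : LocF (fun x => f (v +ᵥ x)) := by
  obtain ⟨ρ, hρ⟩ := h
  obtain ⟨k, hk⟩ := exists_InB v
  exact ⟨ρ + k, fun x y hxy => hρ _ _ (hxy.vadd hk)⟩

lemma LocF.site (v : V) : LocF (fun x : Cfg S => x.1 v) := by
  obtain ⟨k, hk⟩ := exists_InB v
  exact ⟨k, fun x y hxy => hxy v hk⟩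

/-- a finite family of local functions is local -/
lemma LocF.pi {ι β : Type} [Finite ι] {f : ι → Cfg S → β} (h : ∀ i, LocF (f i)) :
    LocF (fun x i => f i x) := by
  classical
  have := Fintype.ofFinite ι
  choose ρ hρ using h
  refine ⟨Finset.univ.sup ρ, fun x y hxy => funext fun i => hρ i x y (hxy.mono ?_)⟩
  exact Finset.le_sup (f := ρ) (Finset.mem_univ i)

lemma basic_finite_ball (ρ : ℕ) : Finite {v : V // InB ρ v} := by
  have : Set.Finite {v : V | InB ρ v} := by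
    refine ((Set.finite_Icc (-(ρ : ℤ)) ρ).prod (Set.finite_Icc (-(ρ : ℤ)) ρ)).subset ?_
    intro v hv
    exact ⟨abs_le.1 hv.1, abs_le.1 hv.2⟩
  exact this

lemma LocF.finite_range {β : Type} {f : Cfg S → β} (h : LocF f) : (Set.range f).Finite := by
  classical
  obtain ⟨ρ, hρ⟩ := h
  have hfin := basic_finite_ball ρ
  let g : ({v : V // InB ρ v} → S.A) → Option β := fun w =>
    if hw : ∃ x : Cfg S, ∀ v : {v : V // InB ρ v}, x.1 v = w v then some (f hw.choose) else none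
  have hg : (Set.range g).Finite := Set.finite_range g
  refine (hg.preimage (f := some) (Option.some_injective β).injOn).subset ?_
  rintro _ ⟨x, rfl⟩
  refine ⟨fun v => x.1 v, ?_⟩
  have hw : ∃ y : Cfg S, ∀ v : {v : V // InB ρ v}, y.1 v = x.1 v := ⟨x, fun _ => rfl⟩
  simp only [g]
  rw [dif_pos hw]
  congr 1
  exact hρ _ _ fun v hv => hw.choose_spec ⟨v, hv⟩

lemma LocF.preimage {β : Type} {f : Cfg S → β} (h : LocF f) (U : Set β) : Loc (f ⁻¹' U) := by
  exact h.comp (fun b => b ∈ U)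

lemma Loc.empty : Loc (∅ : Set (Cfg S)) := by exact LocF.const False
lemma Loc.univ : Loc (Set.univ : Set (Cfg S)) := by exact LocF.const True
lemma Loc.compl {W : Set (Cfg S)} (h : Loc W) : Loc Wᶜ := by exact LocF.comp h Not
lemma Loc.inter {W W' : Set (Cfg S)} (h : Loc W) (h' : Loc W') : Loc (W ∩ W') := by 
  exact LocF.comp (LocF.prod h h') (fun z => z.1 ∧ z.2)
lemma Loc.union {W W' : Set (Cfg S)} (h : Loc W) (h' : Loc W') : Loc (W ∪ W') := by 
  exact LocF.comp (LocF.prod h h') (fun z => z.1 ∨ z.2)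
lemma Loc.diff {W W' : Set (Cfg S)} (h : Loc W) (h' : Loc W') : Loc (W \ W') := by 
  exact LocF.comp (LocF.prod h h') (fun z => z.1 ∧ ¬ z.2)
lemma Loc.tr {W : Set (Cfg S)} (h : Loc W) (v : V) : Loc (tr v W) := by 
  exact LocF.vadd h (-v)
lemma Loc.st (v : V) (U : Set S.A) : Loc (St v U) := by 
  exact LocF.comp (LocF.site v) (fun a => a ∈ U)
lemma Loc.exists_radius {W : Set (Cfg S)} (h : Loc W) :
    ∃ ρ : ℕ, ∀ x y, Agree ρ x y → x ∈ W → y ∈ W := by 
  obtain ⟨ρ, hρ⟩ := h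
  exact ⟨ρ, fun x y hxy hx => (hρ x y hxy).mp hx⟩

@[simp] lemma mem_tr {v : V} {W : Set (Cfg S)} {y : Cfg S} : y ∈ tr v W ↔ (-v) +ᵥ y ∈ W := Iff.rfl
lemma vadd_mem_tr {v : V} {W : Set (Cfg S)} {x : Cfg S} : v +ᵥ x ∈ tr v W ↔ x ∈ W := by 
  rw [mem_tr, neg_vadd_vadd]
lemma tr_tr (u v : V) (W : Set (Cfg S)) : tr u (tr v W) = tr (u + v) W := by 
  ext y
  simp only [mem_tr, ← add_vadd]
  rw [show -v + -u = -(u + v) by abel]
@[simp] lemma tr_zero (W : Set (Cfg S)) : tr 0 W = W := by 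
  ext y
  simp only [mem_tr, neg_zero, zero_vadd]
lemma tr_St (u v : V) (U : Set S.A) : tr u (St v U) = St (v - u) U := by 
  ext y
  simp only [mem_tr, St, Set.mem_ofPred_eq, vadd_val, sub_eq_add_neg]

/-- Local sets are generated by site cylinders under complement and intersection. -/
lemma Loc.induction {p : Set (Cfg S) → Prop} (hst : ∀ v U, p (St v U))
    (hc : ∀ W, Loc W → p W → p Wᶜ)
    (hi : ∀ W W', Loc W → Loc W' → p W → p W' → p (W ∩ W')) :
    ∀ W, Loc W → p W := by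
  classical
  have hempty : p ∅ := by
    have : (St 0 (∅ : Set S.A) : Set (Cfg S)) = ∅ := by
      ext x; simp [St]
    rw [← this]; exact hst _ _
  have huniv : p Set.univ := by
    have : (St 0 (Set.univ : Set S.A) : Set (Cfg S)) = Set.univ := by
      ext x; simp [St]
    rw [← this]; exact hst _ _
  have hu : ∀ W W', Loc W → Loc W' → p W → p W' → p (W ∪ W') := by
    intro W W' h h' hp hp'
    have := hc _ (h.compl.inter h'.compl) (hi _ _ h.compl h'.compl (hc _ h hp) (hc _ h' hp'))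
    rwa [Set.compl_inter, compl_compl, compl_compl] at this
  -- cylinders
  have hcyl : ∀ (F : Finset V) (w : V → S.A),
      Loc {x : Cfg S | ∀ v ∈ F, x.1 v = w v} ∧ p {x : Cfg S | ∀ v ∈ F, x.1 v = w v} := by
    intro F w
    induction F using Finset.induction_on with
    | empty =>
      have : {x : Cfg S | ∀ v ∈ (∅ : Finset V), x.1 v = w v} = Set.univ := by
        ext x; simp
      rw [this]; exact ⟨Loc.univ, huniv⟩
    | insert a F _ ih =>
      have : {x : Cfg S | ∀ v ∈ insert a F, x.1 v = w v} =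
          St a {w a} ∩ {x : Cfg S | ∀ v ∈ F, x.1 v = w v} := by
        ext x; simp [St]
      rw [this]
      exact ⟨(Loc.st _ _).inter ih.1, hi _ _ (Loc.st _ _) ih.1 (hst _ _) ih.2⟩
  intro W hW
  obtain ⟨ρ, hρ⟩ := hW.exists_radius
  have hfin : Set.Finite {v : V | InB ρ v} := basic_finite_ball ρ
  let F := hfin.toFinset
  have hF : ∀ v, v ∈ F ↔ InB ρ v := fun v => hfin.mem_toFinset
  let cylOf : Cfg S → Set (Cfg S) := fun y => {x : Cfg S | ∀ v ∈ F, x.1 v = y.1 v}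
  have hloc : LocF cylOf := ⟨ρ, fun x y hxy => by
    ext z
    simp only [cylOf, Set.mem_ofPred_eq]
    refine forall_congr' fun v => forall_congr' fun hv => ?_
    rw [hxy v ((hF v).1 hv)]⟩
  have hfr : (cylOf '' W).Finite := hloc.finite_range.subset (Set.image_subset_range _ _)
  have key : ∀ T : Set (Set (Cfg S)), T.Finite → (∀ Z ∈ T, Loc Z ∧ p Z) →
      Loc (⋃₀ T) ∧ p (⋃₀ T) := by
    intro T hT
    induction T, hT using Set.Finite.induction_on with
    | empty => intro _; rw [Set.sUnion_empty]; exact ⟨Loc.empty, hempty⟩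
    | @insert a T _ _ ih =>
      intro h
      rw [Set.sUnion_insert]
      have h1 := h a (Set.mem_insert _ _)
      have h2 := ih fun Z hZ => h Z (Set.mem_insert_of_mem _ hZ)
      exact ⟨h1.1.union h2.1, hu _ _ h1.1 h2.1 h1.2 h2.2⟩
  have hWeq : W = ⋃₀ (cylOf '' W) := by
    ext x
    constructor
    · intro hx
      exact ⟨cylOf x, ⟨x, hx, rfl⟩, fun _ _ => rfl⟩
    · rintro ⟨_, ⟨y, hy, rfl⟩, hx⟩
      exact hρ y x (fun v hv => (hx v ((hF v).2 hv)).symm) hy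
  rw [hWeq]
  refine (key _ hfr ?_).2
  rintro _ ⟨y, -, rfl⟩
  exact hcyl F y.1

/-- Refinement principle: to prove `p W` for a local `W`, where `p` is inherited from disjoint local
pieces, it is enough to treat local subsets of `W` on which a given local function is constant. -/
lemma Loc.refine {β : Type} {f : Cfg S → β} (hf : LocF f) {W : Set (Cfg S)} (hW : Loc W)
    {p : Set (Cfg S) → Prop}
    (hu : ∀ Z Z', Loc Z → Loc Z' → Z ⊆ W → Z' ⊆ W → Disjoint Z Z' → p Z → p Z' → p (Z ∪ Z'))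
    (hc : ∀ Z, Loc Z → Z ⊆ W → (∀ x ∈ Z, ∀ y ∈ Z, f x = f y) → p Z) : p W := by
  classical
  have key : ∀ U : Finset β, p (W ∩ f ⁻¹' (U : Set β)) := by
    intro U
    induction U using Finset.induction_on with
    | empty =>
      refine hc _ (hW.inter (hf.preimage _)) Set.inter_subset_left ?_
      intro x hx
      simp at hx
    | insert b U hb ih =>
      have : W ∩ f ⁻¹' ((insert b U : Finset β) : Set β) =
          (W ∩ f ⁻¹' {b}) ∪ (W ∩ f ⁻¹' (U : Set β)) := by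
        ext x; simp only [Finset.coe_insert, Set.mem_inter_iff, Set.mem_preimage,
          Set.mem_insert_iff, Set.mem_union, Set.mem_singleton_iff]; tauto
      rw [this]
      refine hu _ _ (hW.inter (hf.preimage _)) (hW.inter (hf.preimage _)) Set.inter_subset_left
        Set.inter_subset_left ?_ ?_ ih
      · rw [Set.disjoint_left]
        rintro x ⟨-, h1⟩ ⟨-, h2⟩
        simp only [Set.mem_preimage, Set.mem_singleton_iff, Finset.mem_coe] at h1 h2
        exact hb (h1 ▸ h2)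
      · refine hc _ (hW.inter (hf.preimage _)) Set.inter_subset_left ?_
        rintro x ⟨-, h1⟩ y ⟨-, h2⟩
        simp only [Set.mem_preimage, Set.mem_singleton_iff] at h1 h2
        rw [h1, h2]
  have := key hf.finite_range.toFinset
  have e : W ∩ f ⁻¹' ((hf.finite_range.toFinset : Finset β) : Set β) = W := by
    ext x; simp
  rwa [e] at this

/-! ### compactness -/

/-- compactness in sequential form -/
lemma exists_limit (x : ℕ → V → S.A) :
    ∃ y : V → S.A, ∀ ρ n : ℕ, ∃ k, n ≤ k ∧ ∀ v, InB ρ v → x k v = y v := by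
  classical
  let U : Ultrafilter ℕ := Filter.hyperfilter ℕ
  have h1 : ∀ v : V, ∃ a : S.A, {k | x k v = a} ∈ U := by
    intro v
    have : (⋃ a ∈ (Set.univ : Set S.A), {k | x k v = a}) ∈ U := by
      have : (⋃ a ∈ (Set.univ : Set S.A), {k | x k v = a}) = Set.univ := by
        ext k; simp
      rw [this]; exact Filter.univ_mem
    obtain ⟨a, -, ha⟩ := (Ultrafilter.finite_biUnion_mem_iff Set.finite_univ).1 this
    exact ⟨a, ha⟩
  choose y hy using h1
  refine ⟨y, fun ρ n => ?_⟩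
  have hfin : Set.Finite {v : V | InB ρ v} := basic_finite_ball ρ
  have h2 : (⋂ v ∈ {v : V | InB ρ v}, {k | x k v = y v}) ∈ (U : Filter ℕ) :=
    (Filter.biInter_mem hfin).2 fun v _ => hy v
  have h3 : {k | n ≤ k} ∈ (U : Filter ℕ) := by
    apply Filter.hyperfilter_le_cofinite
    rw [Nat.cofinite_eq_atTop]
    exact Filter.mem_atTop n
  obtain ⟨k, hk1, hk2⟩ := U.nonempty_of_mem (Filter.inter_mem h3 h2)
  refine ⟨k, hk1, fun v hv => ?_⟩
  simp only [Set.mem_iInter, Set.mem_ofPred_eq] at hk2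
  exact hk2 v hv

lemma basic_limit (x : ℕ → Cfg S) :
    ∃ y : Cfg S, ∀ ρ n : ℕ, ∃ k, n ≤ k ∧ Agree ρ y (x k) := by
  obtain ⟨y, hy⟩ := exists_limit (S := S) fun k => (x k).1
  have hv : S.Valid y := by
    constructor
    · intro v
      obtain ⟨a, ha⟩ := exists_InB v
      obtain ⟨b, hb⟩ := exists_InB (v + e1)
      obtain ⟨k, -, hk⟩ := hy (max a b) 0
      have h1 : ((a : ℕ) : ℤ) ≤ (max a b : ℕ) := by exact_mod_cast le_max_left a b
      have h2 : ((b : ℕ) : ℤ) ≤ (max a b : ℕ) := by exact_mod_cast le_max_right a b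
      rw [← hk v ⟨ha.1.trans h1, ha.2.trans h1⟩, ← hk (v + e1) ⟨hb.1.trans h2, hb.2.trans h2⟩]
      exact (x k).2.1 v
    · intro v
      obtain ⟨a, ha⟩ := exists_InB v
      obtain ⟨b, hb⟩ := exists_InB (v + e2)
      obtain ⟨k, -, hk⟩ := hy (max a b) 0
      have h1 : ((a : ℕ) : ℤ) ≤ (max a b : ℕ) := by exact_mod_cast le_max_left a b
      have h2 : ((b : ℕ) : ℤ) ≤ (max a b : ℕ) := by exact_mod_cast le_max_right a b
      rw [← hk v ⟨ha.1.trans h1, ha.2.trans h1⟩, ← hk (v + e2) ⟨hb.1.trans h2, hb.2.trans h2⟩]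
      exact (x k).2.2 v
  refine ⟨⟨y, hv⟩, fun ρ n => ?_⟩
  obtain ⟨k, hk, h⟩ := hy ρ n
  exact ⟨k, hk, fun v hv => (h v hv).symm⟩

/-- a set which is closed and has closed complement is local -/
lemma loc_of_closed {W : Set (Cfg S)}
    (h1 : ∀ x, (∀ ρ : ℕ, ∃ y ∈ W, Agree ρ x y) → x ∈ W)
    (h2 : ∀ x, (∀ ρ : ℕ, ∃ y, y ∉ W ∧ Agree ρ x y) → x ∉ W) : Loc W := by
  by_contra hn
  have : ∀ ρ : ℕ, ∃ x y : Cfg S, Agree ρ x y ∧ x ∈ W ∧ y ∉ W := by
    intro ρ
    by_contra hc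
    push Not at hc
    exact hn ⟨ρ, fun x y hxy => propext ⟨hc x y hxy, hc y x hxy.symm⟩⟩
  choose x y hxy hx hy using this
  obtain ⟨z, hz⟩ := basic_limit x
  refine h2 z (fun ρ => ?_) (h1 z fun ρ => ?_)
  · obtain ⟨k, hk, h⟩ := hz ρ ρ
    exact ⟨y k, hy k, h.trans ((hxy k).mono hk)⟩
  · obtain ⟨k, -, h⟩ := hz ρ ρ
    exact ⟨x k, hx k, h⟩

/-- a function with finite range and closed fibres is local -/
lemma locF_of_closed {β : Type} {f : Cfg S → β} (hfin : (Set.range f).Finite)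
    (h : ∀ x b, (∀ ρ : ℕ, ∃ y, f y = b ∧ Agree ρ x y) → f x = b) : LocF f := by
  classical
  by_contra hn
  have : ∀ ρ : ℕ, ∃ x y : Cfg S, Agree ρ x y ∧ f x ≠ f y := by
    intro ρ
    by_contra hc
    push Not at hc
    exact hn ⟨ρ, hc⟩
  choose x y hxy hne using this
  have hfin2 : Finite (Set.range f × Set.range f) := by
    have := hfin.to_subtype
    infer_instance
  let g : ℕ → Set.range f × Set.range f := fun k => (⟨f (x k), x k, rfl⟩, ⟨f (y k), y k, rfl⟩)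
  obtain ⟨c, hc⟩ := Finite.exists_infinite_fiber g
  have hinf : (g ⁻¹' {c}).Infinite := Set.infinite_coe_iff.1 hc
  have hsub : ∀ n : ℕ, ∃ k, n ≤ k ∧ g k = c := by
    intro n
    obtain ⟨k, hk, hn⟩ := hinf.exists_gt n
    exact ⟨k, hn.le, hk⟩
  choose φ hφ hg using hsub
  obtain ⟨z, hz⟩ := basic_limit fun n => x (φ n)
  have e1 : f z = c.1 := h z _ fun ρ => by
    obtain ⟨k, -, hk⟩ := hz ρ ρ
    exact ⟨x (φ k), by rw [← hg k], hk⟩
  have e2 : f z = c.2 := h z _ fun ρ => by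
    obtain ⟨k, hk1, hk⟩ := hz ρ ρ
    exact ⟨y (φ k), by rw [← hg k], hk.trans ((hxy _).mono (hk1.trans (hφ k)))⟩
  apply hne (φ 0)
  have e3 : f (x (φ 0)) = c.1 := by rw [← hg 0]
  have e4 : f (y (φ 0)) = c.2 := by rw [← hg 0]
  rw [e3, e4, ← e1, ← e2]

lemma Minimal.cover (hm : Minimal S) {W : Set (Cfg S)} (hW : Loc W) (hne : W.Nonempty) :
    ∃ F : Finset V, ∀ x, ∃ v ∈ F, x ∈ tr v W := by
  by_contra hn
  push Not at hn
  obtain ⟨ρ, hρ⟩ := hW.exists_radius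
  obtain ⟨w, hw⟩ := hne
  have hfin : ∀ n : ℕ, Set.Finite {v : V | InB n v} := basic_finite_ball
  choose x hx using fun n : ℕ => hn (hfin n).toFinset
  obtain ⟨z, hz⟩ := basic_limit x
  obtain ⟨v, hv⟩ := hm w z ρ
  obtain ⟨k, hk⟩ := exists_InB v
  obtain ⟨n, hn1, hn2⟩ := hz (ρ + k) k
  apply hx n (-v)
  · rw [Set.Finite.mem_toFinset]
    have : (k : ℤ) ≤ n := by exact_mod_cast hn1
    refine ⟨?_, ?_⟩
    · simp only [Prod.fst_neg, abs_neg]; exact hk.1.trans this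
    · simp only [Prod.snd_neg, abs_neg]; exact hk.2.trans this
  · rw [mem_tr, neg_neg]
    exact hρ w _ (hv.trans (hn2.vadd hk)) hw

lemma HasPhases.free (h : HasPhases S) : Free S := by
  intro v x hx
  obtain ⟨k, hk⟩ := exists_InB v
  obtain ⟨⟨a, ha, -, ⟨φ⟩⟩, ⟨b, hb, -, ⟨ψ⟩⟩⟩ := h (k + 1)
  have h1 := φ.eqv v x
  have h2 := ψ.eqv v x
  rw [hx, sub_self, zero_sub, dvd_neg] at h1 h2
  simp only [χ1_apply, χ2_apply] at h1 h2
  have ha' : (k : ℤ) + 1 ≤ a := by exact_mod_cast ha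
  have hb' : (k : ℤ) + 1 ≤ b := by exact_mod_cast hb
  refine Prod.ext ?_ ?_
  · exact Int.eq_zero_of_abs_lt_dvd h1 (by linarith [hk.1])
  · exact Int.eq_zero_of_abs_lt_dvd h2 (by linarith [hk.2])

/-- every residue is a phase of a translate -/
lemma Phase.r_vadd {χ : V →+ ℤ} {a : ℕ} (φ : Phase S χ a) (v : V) (x : Cfg S) :
    φ.r (v +ᵥ x) = (φ.r x + χ v) % a := by
  have h1 := φ.eqv v x
  have h2 : φ.r (v +ᵥ x) % a = (φ.r x + χ v) % a := by
    apply (Int.emod_emod_of_dvd _ (dvd_refl _)).symm.trans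
    rw [Int.emod_emod_of_dvd _ (dvd_refl _)]
    refine Int.emod_eq_emod_iff_emod_sub_eq_zero.2 (Int.emod_eq_zero_of_dvd ?_)
    rwa [← sub_sub]
  rw [← h2, Int.emod_eq_of_lt (φ.nonneg _) (φ.lt _)]

end Crest.Agent.R189
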