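import Crest.Agent.R189.Perm

/-!
Row 189.  Admissible families, block permutations, elementary three-cycles and transpositions.
-/

set_option autoImplicit false

namespace Crest.Agent.R189

open Equiv

variable {S : Wang}

/-- the sets `W + p`, `p ∈ F`, are pairwise disjoint -/
def Adm (F : Set Pt) (W : Set (Cfg S)) : Prop :=
  ∀ x ∈ W, ∀ y ∈ W, ∀ p ∈ F, ∀ q ∈ F, pt x p = pt y q → x = y ∧ p = q

def img (F : Set Pt) (W : Set (Cfg S)) : Set (Om S) := {ω | ∃ x ∈ W, ∃ p ∈ F, ω = pt x p}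

lemma Adm.mono {F F' : Set Pt} {W W' : Set (Cfg S)} (h : Adm F W) (hF : F' ⊆ F) (hW : W' ⊆ W) :
    Adm F' W' := fun x hx y hy p hp q hq e => h x (hW hx) y (hW hy) p (hF hp) q (hF hq) e

lemma blk_pt_cancel {x y : Cfg S} {p : Pt} (e : pt x p = pt y p) : x = y := by
  have : p.1 +ᵥ x = p.1 +ᵥ y := congrArg Prod.fst e
  simpa using this

lemma blk_shP_inj (v : V) : Function.Injective (shP v) := by
  intro p q e
  have e1 : p.1 + v = q.1 + v := congrArg Prod.fst e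
  exact Prod.ext (add_right_cancel e1) (congrArg Prod.snd e :)

lemma blk_loc_tr {W : Set (Cfg S)} {v : V} : Loc (tr v W) ↔ Loc W :=
  ⟨fun h => by simpa [tr_tr] using h.tr (-v), fun h => h.tr v⟩

lemma mem_img_iff {F : Set Pt} {W : Set (Cfg S)} {x : Cfg S} {i : Track} :
    (x, i) ∈ img F W ↔ ∃ p ∈ F, p.2 = i ∧ (-p.1) +ᵥ x ∈ W := by
  constructor
  · rintro ⟨y, hy, p, hp, e⟩
    obtain ⟨rfl, rfl⟩ := Prod.ext_iff.1 e
    exact ⟨p, hp, rfl, by simpa [pt] using hy⟩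
  · rintro ⟨p, hp, rfl, h⟩
    exact ⟨_, h, p, hp, by simp [pt]⟩

/-- a permutation fixing the complement of `F` preserves `F` -/
lemma perm_mem_iff {α : Type} {F : Set α} {π : Perm α} (h : ∀ s, s ∉ F → π s = s) (s : α) :
    π s ∈ F ↔ s ∈ F := by
  constructor
  · intro hs
    by_contra hn
    exact hn (by rwa [h s hn] at hs)
  · intro hs
    by_contra hn
    exact hn (by rwa [π.injective (h _ hn)])

lemma blk_cyc_fix {p q r : Pt} (s : Pt) (hs : s ∉ ({p, q, r} : Set Pt)) : cyc p q r s = s := by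
  simp only [Set.mem_insert_iff, Set.mem_singleton_iff, not_or] at hs
  exact cyc_apply_of_ne hs.1 hs.2.1 hs.2.2

lemma blk_swap_fix {p q : Pt} (s : Pt) (hs : s ∉ ({p, q} : Set Pt)) : swap p q s = s := by
  simp only [Set.mem_insert_iff, Set.mem_singleton_iff, not_or] at hs
  exact swap_apply_of_ne_of_ne hs.1 hs.2

/-- a permutation given by a local displacement function is local -/
lemma memLocP_of_locF {g : Perm (Om S)} (a : Track → Cfg S → Pt) (ha : ∀ i, LocF (a i))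
    (hg : ∀ x i, g (x, i) = pt x (a i x)) : g ∈ LocP S := by
  classical
  have h1 : LocF (fun x i => a i x) := LocF.pi ha
  obtain ⟨ρ, hρ⟩ := id h1
  choose k hk using exists_InB
  refine ⟨max ρ (h1.finite_range.toFinset.sup fun b => Finset.univ.sup fun i => k (b i).1),
    fun x i => ⟨a i x, ?_, fun y hy => ?_⟩⟩
  · have e1 : k (a i x).1 ≤ max ρ (h1.finite_range.toFinset.sup fun b =>
        Finset.univ.sup fun i => k (b i).1) := by
      refine le_trans ?_ (le_max_right _ _)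
      refine le_trans ?_ (Finset.le_sup (f := fun b : Track → Pt => Finset.univ.sup fun i => k (b i).1)
        (b := fun i => a i x) (by simp))
      exact Finset.le_sup (f := fun i => k (a i x).1) (Finset.mem_univ i)
    have e2 := Int.ofNat_le.2 e1
    exact ⟨(hk _).1.trans e2, (hk _).2.trans e2⟩
  · have : a i x = a i y := congrFun (hρ x y (hy.mono (le_max_left _ _))) i
    rw [hg, this]

/-- a local permutation is given by a local displacement function -/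
lemma exists_locF_of_memLocP {g : Perm (Om S)} (hg : g ∈ LocP S) :
    ∃ a : Track → Cfg S → Pt, (∀ i, LocF (a i)) ∧ ∀ x i, g (x, i) = pt x (a i x) := by
  obtain ⟨ρ, hρ⟩ := hg
  refine ⟨fun i x => Classical.epsilon fun p => ∀ y, Agree ρ x y → g (y, i) = pt y p,
    fun i => ⟨ρ, fun x y hxy => ?_⟩, fun x i => ?_⟩
  · have : (fun p => ∀ z, Agree ρ x z → g (z, i) = pt z p) =
        fun p => ∀ z, Agree ρ y z → g (z, i) = pt z p :=
      funext fun p => propext ⟨fun h z hz => h z (hxy.trans hz), fun h z hz => h z (hxy.symm.trans hz)⟩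
    simp only [this]
  · obtain ⟨p, -, hp⟩ := hρ x i
    exact Classical.epsilon_spec (p := fun p => ∀ y, Agree ρ x y → g (y, i) = pt y p) ⟨p, hp⟩ x
      (Agree.refl _ _)

/-- points on distinct tracks are always admissible -/
lemma adm_of_tracks {F : Set Pt} (h : ∀ p ∈ F, ∀ q ∈ F, p.2 = q.2 → p = q) (W : Set (Cfg S)) :
    Adm F W := by
  intro x _ y _ p hp q hq e
  obtain rfl := h p hp q hq (congrArg Prod.snd e :)
  exact ⟨blk_pt_cancel e, rfl⟩

/-- admissibility from two phases: `W` inside one residue class, `F` injects into the torus -/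
lemma adm_of_phases (hf : Free S) {a b : ℕ} (φ1 : Phase S χ1 a) (φ2 : Phase S χ2 b) {F : Set Pt}
    {W : Set (Cfg S)} {c d : ℤ} (hW : ∀ x ∈ W, φ1.r x = c ∧ φ2.r x = d)
    (hF : ∀ p ∈ F, ∀ q ∈ F, p.2 = q.2 → (a : ℤ) ∣ p.1.1 - q.1.1 → (b : ℤ) ∣ p.1.2 - q.1.2 → p = q) :
    Adm F W := by
  intro x hx y hy p hp q hq e
  have e1 : p.1 +ᵥ x = q.1 +ᵥ y := congrArg Prod.fst e
  have a1 := φ1.eqv p.1 x
  have a2 := φ1.eqv q.1 y
  have b1 := φ2.eqv p.1 x
  have b2 := φ2.eqv q.1 y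
  rw [e1, (hW x hx).1] at a1
  rw [e1, (hW x hx).2] at b1
  rw [(hW y hy).1] at a2
  rw [(hW y hy).2] at b2
  obtain rfl := hF p hp q hq (congrArg Prod.snd e :)
    (by simpa using dvd_sub a2 a1)
    (by simpa using dvd_sub b2 b1)
  exact ⟨blk_pt_cancel e, rfl⟩

/-- adding points in new residue classes (one phase) keeps admissibility -/
lemma Adm.union_of_phase {χ : V →+ ℤ} {a : ℕ} (φ : Phase S χ a) {F F' : Set Pt} {W : Set (Cfg S)}
    {c : ℤ} (hW : ∀ x ∈ W, φ.r x = c) (h : Adm F W) (h' : Adm F' W)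
    (hd : ∀ p ∈ F, ∀ q ∈ F', ¬ (a : ℤ) ∣ χ p.1 - χ q.1) : Adm (F ∪ F') W := by
  have key : ∀ x ∈ W, ∀ y ∈ W, ∀ p ∈ F, ∀ q ∈ F', pt x p ≠ pt y q := by
    intro x hx y hy p hp q hq e
    have e1 : p.1 +ᵥ x = q.1 +ᵥ y := congrArg Prod.fst e
    have a1 := φ.eqv p.1 x
    have a2 := φ.eqv q.1 y
    rw [e1, hW x hx] at a1
    rw [hW y hy] at a2
    exact hd p hp q hq (by simpa using dvd_sub a2 a1)
  rintro x hx y hy p (hp | hp) q (hq | hq) e
  · exact h x hx y hy p hp q hq e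
  · exact absurd e (key x hx y hy p hp q hq)
  · exact absurd e.symm (key y hy x hx q hq p hp)
  · exact h' x hx y hy p hp q hq e

lemma Adm.shP {F : Set Pt} {W : Set (Cfg S)} (v : V) :
    Adm (shP v '' F) W ↔ Adm F (tr v W) := by
  constructor
  · intro h x hx y hy p hp q hq e
    obtain ⟨e1, e2⟩ := h _ hx _ hy _ ⟨p, hp, rfl⟩ _ ⟨q, hq, rfl⟩
      (by rw [← pt_vadd, ← pt_vadd, vadd_neg_vadd, vadd_neg_vadd, e])
    exact ⟨by simpa using e1, blk_shP_inj v e2⟩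
  · rintro h x hx y hy _ ⟨p, hp, rfl⟩ _ ⟨q, hq, rfl⟩ e
    rw [← pt_vadd, ← pt_vadd] at e
    obtain ⟨e1, rfl⟩ := h _ (vadd_mem_tr.2 hx) _ (vadd_mem_tr.2 hy) p hp q hq e
    exact ⟨by simpa using e1, rfl⟩

/-- admissibility is transported by a bijection -/
lemma Adm.map {F : Set Pt} {W : Set (Cfg S)} (h : Adm F W) (g : Perm (Om S)) (f : Pt → Pt)
    (hg : ∀ x ∈ W, ∀ p ∈ F, g (pt x p) = pt x (f p)) : Adm (f '' F) W := by
  rintro x hx y hy _ ⟨p, hp, rfl⟩ _ ⟨q, hq, rfl⟩ e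
  rw [← hg x hx p hp, ← hg y hy q hq] at e
  obtain ⟨e1, rfl⟩ := h x hx y hy p hp q hq (g.injective e)
  exact ⟨e1, rfl⟩

def IsBlk (g : Perm (Om S)) (F : Set Pt) (W : Set (Cfg S)) (π : Cfg S → Perm Pt) : Prop :=
  (∀ x ∈ W, ∀ p ∈ F, g (pt x p) = pt x (π x p)) ∧ ∀ ω, ω ∉ img F W → g ω = ω

lemma IsBlk.unique {g g' : Perm (Om S)} {F : Set Pt} {W : Set (Cfg S)} {π : Cfg S → Perm Pt}
    (h : IsBlk g F W π) (h' : IsBlk g' F W π) : g = g' := by
  refine Equiv.ext fun ω => ?_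
  by_cases hω : ω ∈ img F W
  · obtain ⟨x, hx, p, hp, rfl⟩ := hω
    rw [h.1 x hx p hp, h'.1 x hx p hp]
  · rw [h.2 ω hω, h'.2 ω hω]

lemma exists_isBlk {F : Set Pt} {W : Set (Cfg S)} (h : Adm F W) {π : Cfg S → Perm Pt}
    (hπ : ∀ x ∈ W, ∀ p, π x p ∈ F ↔ p ∈ F) : ∃ g, IsBlk g F W π := by
  classical
  have key : ∀ σ : Cfg S → Perm Pt, ∃ f : Om S → Om S,
      (∀ x ∈ W, ∀ p ∈ F, f (pt x p) = pt x (σ x p)) ∧ ∀ ω, ω ∉ img F W → f ω = ω := by
    intro σ
    refine ⟨fun ω => if hω : ω ∈ img F W then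
      pt hω.choose (σ hω.choose hω.choose_spec.2.choose) else ω, fun x hx p hp => ?_,
      fun ω hω => dif_neg hω⟩
    have hω : pt x p ∈ img F W := ⟨x, hx, p, hp, rfl⟩
    simp only [dif_pos hω]
    obtain ⟨e1, e2⟩ := h x hx _ hω.choose_spec.1 p hp _ hω.choose_spec.2.choose_spec.1
      hω.choose_spec.2.choose_spec.2
    rw [← e2, ← e1]
  obtain ⟨f, f1, f2⟩ := key π
  obtain ⟨f', f1', f2'⟩ := key fun x => (π x)⁻¹
  refine ⟨⟨f, f', fun ω => ?_, fun ω => ?_⟩, f1, f2⟩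
  · by_cases hω : ω ∈ img F W
    · obtain ⟨x, hx, p, hp, rfl⟩ := hω
      rw [f1 x hx p hp, f1' x hx _ ((hπ x hx p).2 hp)]
      simp
    · rw [f2 ω hω, f2' ω hω]
  · by_cases hω : ω ∈ img F W
    · obtain ⟨x, hx, p, hp, rfl⟩ := hω
      rw [f1' x hx p hp, f1 x hx _ ((hπ x hx _).1 (by simpa using hp))]
      simp
    · rw [f2' ω hω, f2 ω hω]

open Classical in
/-- the block permutation -/
noncomputable def blk (F : Set Pt) (W : Set (Cfg S)) (π : Cfg S → Perm Pt) : Perm (Om S) :=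
  if h : ∃ g, IsBlk g F W π then h.choose else 1

lemma isBlk_blk {F : Set Pt} {W : Set (Cfg S)} (h : Adm F W) {π : Cfg S → Perm Pt}
    (hπ : ∀ x ∈ W, ∀ p, π x p ∈ F ↔ p ∈ F) : IsBlk (blk F W π) F W π := by
  have := exists_isBlk h hπ
  rw [blk, dif_pos this]
  exact this.choose_spec

lemma IsBlk.one (F : Set Pt) (W : Set (Cfg S)) : IsBlk (1 : Perm (Om S)) F W (fun _ => 1) :=
  ⟨fun _ _ _ _ => rfl, fun _ _ => rfl⟩

lemma blk_empty (F : Set Pt) (π : Cfg S → Perm Pt) : blk F ∅ π = 1 :=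
  (isBlk_blk (fun _ hx => hx.elim) fun _ hx => hx.elim).unique ⟨fun _ hx => hx.elim, fun _ _ => rfl⟩

lemma IsBlk.extend {g : Perm (Om S)} {F F' : Set Pt} {W : Set (Cfg S)} {π : Cfg S → Perm Pt}
    (h : IsBlk g F W π) (ha : Adm F' W) (hs : F ⊆ F') (hπ : ∀ x ∈ W, ∀ p, p ∉ F → π x p = p) :
    IsBlk g F' W π := by
  refine ⟨fun x hx p hp => ?_, fun ω hω => h.2 ω fun ⟨x, hx, p, hp, e⟩ => hω ⟨x, hx, p, hs hp, e⟩⟩
  by_cases hF : p ∈ F
  · exact h.1 x hx p hF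
  · rw [hπ x hx p hF, h.2]
    rintro ⟨y, hy, q, hq, e⟩
    exact hF ((ha x hx y hy p hp q (hs hq) e).2 ▸ hq)

lemma IsBlk.union {g g' : Perm (Om S)} {F : Set Pt} {W W' : Set (Cfg S)} {π : Cfg S → Perm Pt}
    (ha : Adm F (W ∪ W')) (hd : Disjoint W W') (h : IsBlk g F W π) (h' : IsBlk g' F W' π)
    (hπ : ∀ x ∈ W', ∀ p ∈ F, π x p ∈ F) : IsBlk (g * g') F (W ∪ W') π := by
  rw [Set.disjoint_left] at hd
  refine ⟨?_, fun ω hω => ?_⟩
  · rintro x (hx | hx) p hp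
    · rw [Perm.mul_apply, h'.2, h.1 x hx p hp]
      rintro ⟨y, hy, q, hq, e⟩
      exact hd hx ((ha x (Or.inl hx) y (Or.inr hy) p hp q hq e).1 ▸ hy)
    · rw [Perm.mul_apply, h'.1 x hx p hp, h.2]
      rintro ⟨y, hy, q, hq, e⟩
      exact hd hy ((ha x (Or.inr hx) y (Or.inl hy) _ (hπ x hx p hp) q hq e).1 ▸ hx)
  · rw [Perm.mul_apply, h'.2 ω fun ⟨x, hx, r⟩ => hω ⟨x, Or.inr hx, r⟩,
      h.2 ω fun ⟨x, hx, r⟩ => hω ⟨x, Or.inl hx, r⟩]

lemma IsBlk.mem_locP {g : Perm (Om S)} {F : Set Pt} (hF : F.Finite) {W : Set (Cfg S)} (hW : Loc W)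
    {π : Cfg S → Perm Pt} (hπ : ∀ p ∈ F, LocF (fun x => π x p)) (h : IsBlk g F W π) :
    g ∈ LocP S := by
  classical
  have := hF.to_subtype
  have hf : LocF (fun x : Cfg S => fun p : F => (((-p.1.1) +ᵥ x ∈ W : Prop), π ((-p.1.1) +ᵥ x) p.1)) :=
    LocF.pi fun p => LocF.prod (LocF.vadd hW _) (LocF.vadd (hπ p.1 p.2) _)
  refine memLocP_of_locF (fun i x => (fun d : F → Prop × Pt =>
    if h : ∃ p : F, p.1.2 = i ∧ (d p).1 then shP (-h.choose.1.1) (d h.choose).2 else (0, i))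
      (fun p : F => (((-p.1.1) +ᵥ x ∈ W : Prop), π ((-p.1.1) +ᵥ x) p.1)))
    (fun i => hf.comp (fun d : F → Prop × Pt =>
      if h : ∃ p : F, p.1.2 = i ∧ (d p).1 then shP (-h.choose.1.1) (d h.choose).2 else (0, i)))
    fun x i => ?_
  by_cases hx : ∃ p : F, p.1.2 = i ∧ (-p.1.1) +ᵥ x ∈ W
  · simp only [dif_pos hx]
    obtain ⟨e1, e2⟩ := hx.choose_spec
    rw [← pt_vadd, ← h.1 _ e2 _ hx.choose.2]
    simp only [pt, vadd_neg_vadd, e1]
  · simp only [dif_neg hx]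
    rw [pt_zero, h.2]
    intro hm
    obtain ⟨p, hp, e1, e2⟩ := mem_img_iff.1 hm
    exact hx ⟨⟨p, hp⟩, e1, e2⟩

/-- elementary three-cycle -/
noncomputable def cycW (p q r : Pt) (W : Set (Cfg S)) : Perm (Om S) :=
  blk {p, q, r} W (fun _ => cyc p q r)

/-- elementary transposition -/
noncomputable def swW (p q : Pt) (W : Set (Cfg S)) : Perm (Om S) :=
  blk {p, q} W (fun _ => swap p q)

def Adm3 (p q r : Pt) (W : Set (Cfg S)) : Prop := D3 p q r ∧ Loc W ∧ Adm {p, q, r} W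
def Adm2 (p q : Pt) (W : Set (Cfg S)) : Prop := p ≠ q ∧ Loc W ∧ Adm {p, q} W

lemma Adm3.mono {p q r : Pt} {W W' : Set (Cfg S)} (h : Adm3 p q r W) (hW : Loc W') (hs : W' ⊆ W) :
    Adm3 p q r W' := ⟨h.1, hW, h.2.2.mono subset_rfl hs⟩
lemma Adm2.mono {p q : Pt} {W W' : Set (Cfg S)} (h : Adm2 p q W) (hW : Loc W') (hs : W' ⊆ W) :
    Adm2 p q W' := ⟨h.1, hW, h.2.2.mono subset_rfl hs⟩
lemma Adm3.rot {p q r : Pt} {W : Set (Cfg S)} (h : Adm3 p q r W) : Adm3 q r p W := by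
  refine ⟨⟨h.1.2.2, h.1.1.symm, h.1.2.1.symm⟩, h.2.1, h.2.2.mono ?_ subset_rfl⟩
  rintro s (rfl | rfl | rfl) <;> simp
lemma Adm3.swap {p q r : Pt} {W : Set (Cfg S)} (h : Adm3 p q r W) : Adm3 p r q W := by
  refine ⟨⟨h.1.2.1, h.1.1, h.1.2.2.symm⟩, h.2.1, h.2.2.mono ?_ subset_rfl⟩
  rintro s (rfl | rfl | rfl) <;> simp
lemma Adm2.symm {p q : Pt} {W : Set (Cfg S)} (h : Adm2 p q W) : Adm2 q p W := by
  refine ⟨h.1.symm, h.2.1, h.2.2.mono ?_ subset_rfl⟩
  rintro s (rfl | rfl) <;> simp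
lemma adm3_shP {p q r : Pt} {W : Set (Cfg S)} (v : V) :
    Adm3 (shP v p) (shP v q) (shP v r) W ↔ Adm3 p q r (tr v W) := by
  have e : ({shP v p, shP v q, shP v r} : Set Pt) = shP v '' {p, q, r} := by
    simp only [Set.image_insert_eq, Set.image_singleton]
  simp only [Adm3, D3, e, Adm.shP, ne_eq, (blk_shP_inj v).eq_iff, blk_loc_tr]
lemma adm2_shP {p q : Pt} {W : Set (Cfg S)} (v : V) :
    Adm2 (shP v p) (shP v q) W ↔ Adm2 p q (tr v W) := by
  have e : ({shP v p, shP v q} : Set Pt) = shP v '' {p, q} := by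
    simp only [Set.image_insert_eq, Set.image_singleton]
  simp only [Adm2, e, Adm.shP, ne_eq, (blk_shP_inj v).eq_iff, blk_loc_tr]

/-- description inside any admissible family containing the three points -/
lemma cycW_isBlk {F : Set Pt} {W : Set (Cfg S)} (h : Adm F W) {p q r : Pt} (hp : p ∈ F)
    (hq : q ∈ F) (hr : r ∈ F) (hd : D3 p q r) :
    IsBlk (cycW p q r W) F W (fun _ => cyc p q r) := by
  have hs : ({p, q, r} : Set Pt) ⊆ F := by
    rintro s (rfl | rfl | rfl) <;> assumption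
  exact (isBlk_blk (h.mono hs subset_rfl) fun _ _ => perm_mem_iff blk_cyc_fix).extend h hs
    fun _ _ => blk_cyc_fix
lemma swW_isBlk {F : Set Pt} {W : Set (Cfg S)} (h : Adm F W) {p q : Pt} (hp : p ∈ F)
    (hq : q ∈ F) : IsBlk (swW p q W) F W (fun _ => swap p q) := by
  have hs : ({p, q} : Set Pt) ⊆ F := by
    rintro s (rfl | rfl) <;> assumption
  exact (isBlk_blk (h.mono hs subset_rfl) fun _ _ => perm_mem_iff blk_swap_fix).extend h hs
    fun _ _ => blk_swap_fix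

lemma IsBlk.mul {g g' : Perm (Om S)} {F : Set Pt} {W : Set (Cfg S)} {π π' : Cfg S → Perm Pt}
    (h : IsBlk g F W π) (h' : IsBlk g' F W π') (hπ' : ∀ x ∈ W, ∀ p ∈ F, π' x p ∈ F) :
    IsBlk (g * g') F W (fun x => π x * π' x) := by
  refine ⟨fun x hx p hp => ?_, fun ω hω => ?_⟩
  · rw [Perm.mul_apply, h'.1 x hx p hp, h.1 x hx _ (hπ' x hx p hp), Perm.mul_apply]
  · rw [Perm.mul_apply, h'.2 ω hω, h.2 ω hω]

lemma Adm3.isBlk {p q r : Pt} {W : Set (Cfg S)} (h : Adm3 p q r W) :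
    IsBlk (cycW p q r W) {p, q, r} W (fun _ => cyc p q r) :=
  cycW_isBlk h.2.2 (by simp) (by simp) (by simp) h.1

lemma Adm2.isBlk {p q : Pt} {W : Set (Cfg S)} (h : Adm2 p q W) :
    IsBlk (swW p q W) {p, q} W (fun _ => swap p q) :=
  swW_isBlk h.2.2 (by simp) (by simp)

lemma Adm3.apply {p q r : Pt} {W : Set (Cfg S)} (h : Adm3 p q r W) {x : Cfg S} (hx : x ∈ W) :
    cycW p q r W (pt x p) = pt x q ∧ cycW p q r W (pt x q) = pt x r ∧
      cycW p q r W (pt x r) = pt x p :=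
  ⟨by rw [h.isBlk.1 x hx p (by simp), cyc_apply_fst h.1],
    by rw [h.isBlk.1 x hx q (by simp), cyc_apply_snd h.1],
    by rw [h.isBlk.1 x hx r (by simp), cyc_apply_thd h.1]⟩

lemma Adm2.apply {p q : Pt} {W : Set (Cfg S)} (h : Adm2 p q W) {x : Cfg S} (hx : x ∈ W) :
    swW p q W (pt x p) = pt x q ∧ swW p q W (pt x q) = pt x p :=
  ⟨by rw [h.isBlk.1 x hx p (by simp), swap_apply_left],
    by rw [h.isBlk.1 x hx q (by simp), swap_apply_right]⟩

lemma cycW_eq_of {p q r : Pt} {W : Set (Cfg S)} (h : Adm3 p q r W) {g : Perm (Om S)}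
    (h1 : ∀ x ∈ W, g (pt x p) = pt x q ∧ g (pt x q) = pt x r ∧ g (pt x r) = pt x p)
    (h2 : ∀ ω, (∀ x ∈ W, ω ≠ pt x p ∧ ω ≠ pt x q ∧ ω ≠ pt x r) → g ω = ω) : g = cycW p q r W := by
  refine IsBlk.unique ⟨fun x hx s hs => ?_, fun ω hω => h2 ω fun x hx => ?_⟩ h.isBlk
  · rcases hs with rfl | rfl | rfl
    · rw [cyc_apply_fst h.1, (h1 x hx).1]
    · rw [cyc_apply_snd h.1, (h1 x hx).2.1]
    · rw [cyc_apply_thd h.1, (h1 x hx).2.2]
  · exact ⟨fun e => hω ⟨x, hx, p, by simp, e⟩, fun e => hω ⟨x, hx, q, by simp, e⟩,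
      fun e => hω ⟨x, hx, r, by simp, e⟩⟩

lemma swW_eq_of {p q : Pt} {W : Set (Cfg S)} (h : Adm2 p q W) {g : Perm (Om S)}
    (h1 : ∀ x ∈ W, g (pt x p) = pt x q ∧ g (pt x q) = pt x p)
    (h2 : ∀ ω, (∀ x ∈ W, ω ≠ pt x p ∧ ω ≠ pt x q) → g ω = ω) : g = swW p q W := by
  refine IsBlk.unique ⟨fun x hx s hs => ?_, fun ω hω => h2 ω fun x hx => ?_⟩ h.isBlk
  · rcases hs with rfl | rfl
    · rw [swap_apply_left, (h1 x hx).1]
    · rw [swap_apply_right, (h1 x hx).2]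
  · exact ⟨fun e => hω ⟨x, hx, p, by simp, e⟩, fun e => hω ⟨x, hx, q, by simp, e⟩⟩

lemma cycW_mem_locP {p q r : Pt} {W : Set (Cfg S)} (h : Adm3 p q r W) : cycW p q r W ∈ LocP S := by
  exact h.isBlk.mem_locP (Set.toFinite _) h.2.1 fun _ _ => LocF.const _
lemma swW_mem_locP {p q : Pt} {W : Set (Cfg S)} (h : Adm2 p q W) : swW p q W ∈ LocP S := by
  exact h.isBlk.mem_locP (Set.toFinite _) h.2.1 fun _ _ => LocF.const _
lemma cycW_cube {p q r : Pt} {W : Set (Cfg S)} (h : Adm3 p q r W) : cycW p q r W ^ 3 = 1 := by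
  have hc : ∀ x ∈ W, ∀ s ∈ ({p, q, r} : Set Pt), cyc p q r s ∈ ({p, q, r} : Set Pt) :=
    fun _ _ s hs => (perm_mem_iff blk_cyc_fix s).2 hs
  have := (h.isBlk.mul h.isBlk hc).mul h.isBlk hc
  rw [← pow_three', ← pow_three', cyc_cube h.1] at this
  exact this.unique (IsBlk.one _ _)
lemma swW_sq {p q : Pt} {W : Set (Cfg S)} (h : Adm2 p q W) : swW p q W * swW p q W = 1 := by
  have := h.isBlk.mul h.isBlk fun _ _ s hs => (perm_mem_iff blk_swap_fix s).2 hs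
  rw [swap_mul_self] at this
  exact this.unique (IsBlk.one _ _)
lemma cycW_rot {p q r : Pt} {W : Set (Cfg S)} (h : Adm3 p q r W) :
    cycW p q r W = cycW q r p W := by
  have := cycW_isBlk h.2.2 (p := q) (q := r) (r := p) (by simp) (by simp) (by simp) h.rot.1
  rw [← cyc_rot h.1] at this
  exact h.isBlk.unique this
lemma cycW_inv {p q r : Pt} {W : Set (Cfg S)} (h : Adm3 p q r W) :
    cycW p r q W = (cycW p q r W)⁻¹ := by
  have := (cycW_isBlk h.2.2 (p := p) (q := r) (r := q) (by simp) (by simp) (by simp)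
    h.swap.1).mul h.isBlk fun _ _ s hs => (perm_mem_iff blk_cyc_fix s).2 hs
  rw [cyc_inv h.1, inv_mul_cancel] at this
  exact eq_inv_of_mul_eq_one_left (this.unique (IsBlk.one _ _))
lemma swW_symm (p q : Pt) (W : Set (Cfg S)) : swW p q W = swW q p W := by
  rw [swW, swW, Set.pair_comm, swap_comm]
lemma cycW_empty (p q r : Pt) : cycW p q r (∅ : Set (Cfg S)) = 1 := by
  exact blk_empty _ _
lemma swW_empty (p q : Pt) : swW p q (∅ : Set (Cfg S)) = 1 := by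
  exact blk_empty _ _
lemma cycW_fix {p q r : Pt} {W : Set (Cfg S)} (h : Adm3 p q r W) {ω : Om S}
    (hω : ω ∉ img {p, q, r} W) : cycW p q r W ω = ω := by
  exact h.isBlk.2 ω hω
lemma swW_fix {p q : Pt} {W : Set (Cfg S)} (h : Adm2 p q W) {ω : Om S}
    (hω : ω ∉ img {p, q} W) : swW p q W ω = ω := by
  exact h.isBlk.2 ω hω
lemma cycW_union {p q r : Pt} {W W' : Set (Cfg S)} (h : Adm3 p q r (W ∪ W')) (hW : Loc W)
    (hW' : Loc W') (hd : Disjoint W W') :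
    cycW p q r (W ∪ W') = cycW p q r W * cycW p q r W' := by
  exact h.isBlk.unique (IsBlk.union h.2.2 hd (h.mono hW Set.subset_union_left).isBlk
    (h.mono hW' Set.subset_union_right).isBlk fun _ _ s hs => (perm_mem_iff blk_cyc_fix s).2 hs)
lemma swW_union {p q : Pt} {W W' : Set (Cfg S)} (h : Adm2 p q (W ∪ W')) (hW : Loc W)
    (hW' : Loc W') (hd : Disjoint W W') : swW p q (W ∪ W') = swW p q W * swW p q W' := by
  exact h.isBlk.unique (IsBlk.union h.2.2 hd (h.mono hW Set.subset_union_left).isBlk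
    (h.mono hW' Set.subset_union_right).isBlk fun _ _ s hs => (perm_mem_iff blk_swap_fix s).2 hs)
lemma cycW_shP {p q r : Pt} {W : Set (Cfg S)} (v : V) (h : Adm3 p q r (tr v W)) :
    cycW (shP v p) (shP v q) (shP v r) W = cycW p q r (tr v W) := by
  refine (cycW_eq_of ((adm3_shP v).2 h) (fun x hx => ?_) fun ω hω => cycW_fix h ?_).symm
  · simp only [← pt_vadd]
    exact h.apply (vadd_mem_tr.2 hx)
  · rintro ⟨y, hy, s, hs, rfl⟩
    have := hω _ hy
    simp only [← pt_vadd, vadd_neg_vadd] at this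
    rcases hs with rfl | rfl | rfl <;> simp at this
lemma swW_shP {p q : Pt} {W : Set (Cfg S)} (v : V) (h : Adm2 p q (tr v W)) :
    swW (shP v p) (shP v q) W = swW p q (tr v W) := by
  refine (swW_eq_of ((adm2_shP v).2 h) (fun x hx => ?_) fun ω hω => swW_fix h ?_).symm
  · simp only [← pt_vadd]
    exact h.apply (vadd_mem_tr.2 hx)
  · rintro ⟨y, hy, s, hs, rfl⟩
    have := hω _ hy
    simp only [← pt_vadd, vadd_neg_vadd] at this
    rcases hs with rfl | rfl <;> simp at this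
lemma cycW_conj {p q r p' q' r' : Pt} {W : Set (Cfg S)} (h : Adm3 p q r W) (g : Perm (Om S))
    (hg : ∀ x ∈ W, g (pt x p) = pt x p' ∧ g (pt x q) = pt x q' ∧ g (pt x r) = pt x r')
    (h' : Adm3 p' q' r' W) : g * cycW p q r W * g⁻¹ = cycW p' q' r' W := by
  refine cycW_eq_of h' (fun x hx => ?_) fun ω hω => ?_
  · obtain ⟨a1, a2, a3⟩ := hg x hx
    obtain ⟨b1, b2, b3⟩ := h.apply hx
    simp only [← a1, ← a2, ← a3, Perm.mul_apply, Perm.coe_inv, symm_apply_apply, b1, b2, b3, and_self]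
  · rw [Perm.mul_apply, Perm.mul_apply, cycW_fix h, Perm.coe_inv, apply_symm_apply]
    rintro ⟨y, hy, s, hs, e⟩
    rw [Perm.inv_eq_iff_eq] at e
    obtain ⟨a1, a2, a3⟩ := hg y hy
    have := hω y hy
    rcases hs with rfl | rfl | rfl
    · exact this.1 (e.trans a1)
    · exact this.2.1 (e.trans a2)
    · exact this.2.2 (e.trans a3)
lemma swW_conj {p q p' q' : Pt} {W : Set (Cfg S)} (h : Adm2 p q W) (g : Perm (Om S))
    (hg : ∀ x ∈ W, g (pt x p) = pt x p' ∧ g (pt x q) = pt x q')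
    (h' : Adm2 p' q' W) : g * swW p q W * g⁻¹ = swW p' q' W := by
  refine swW_eq_of h' (fun x hx => ?_) fun ω hω => ?_
  · obtain ⟨a1, a2⟩ := hg x hx
    obtain ⟨b1, b2⟩ := h.apply hx
    simp only [← a1, ← a2, Perm.mul_apply, Perm.coe_inv, symm_apply_apply, b1, b2, and_self]
  · rw [Perm.mul_apply, Perm.mul_apply, swW_fix h, Perm.coe_inv, apply_symm_apply]
    rintro ⟨y, hy, s, hs, e⟩
    rw [Perm.inv_eq_iff_eq] at e
    obtain ⟨a1, a2⟩ := hg y hy
    have := hω y hy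
    rcases hs with rfl | rfl
    · exact this.1 (e.trans a1)
    · exact this.2 (e.trans a2)
lemma cycW_eq_swW {p q r : Pt} {W : Set (Cfg S)} (h : Adm3 p q r W) :
    cycW p q r W = swW p r W * swW p q W := by
  exact h.isBlk.unique ((swW_isBlk h.2.2 (p := p) (q := r) (by simp) (by simp)).mul
    (swW_isBlk h.2.2 (p := p) (q := q) (by simp) (by simp)) fun _ _ s hs =>
      (perm_mem_iff (fun s hs => blk_swap_fix s fun h => hs (by
        rcases h with rfl | rfl <;> simp)) s).2 hs)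

end Crest.Agent.R189
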