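import Crest.Agent.R189.Anchor

/-!
Row 189.  Propagation of goodness: the counter atoms are central; the anchor lemma.
-/

set_option autoImplicit false

namespace Crest.Agent.R189

lemma Cross.cen_iff {lm lp lm' lp' hm hp hm' hp' : LS} (h : Cross lm lp hm hp)
    (h' : Cross lm' lp' hm' hp') (e1 : lm.p = lm'.p) (e2 : lm.t = lm'.t) (e3 : lm.am = lm'.am)
    (e4 : lm.ap = lm'.ap) : hm = hm' ↔ hp = hp' := by
  have hD : D1 lm ↔ D1 lm' := by simp only [D1, e1, e2]
  constructor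
  · rintro rfl
    refine LS.ext (h.hst.trans h'.hst.symm) (h.hpp.trans h'.hpp.symm) (h.htt.trans h'.htt.symm)
      (h.hcp.trans h'.hcp.symm) (h.hct.trans h'.hct.symm) (h.hch.trans h'.hch.symm)
      (h.ham.trans h'.ham.symm) (h.hap.trans h'.hap.symm) ?_ (h.hbot.trans h'.hbot.symm)
    by_cases hd : D1 lm
    · exact (h.dE hd).2.trans (e4.trans (h'.dE (hD.1 hd)).2.symm)
    · exact (h.nE hd).trans (h'.nE (mt hD.2 hd)).symm
  · rintro rfl
    refine LS.ext (h.hst.symm.trans h'.hst) (h.hpp.symm.trans h'.hpp) (h.htt.symm.trans h'.htt)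
      (h.hcp.symm.trans h'.hcp) (h.hct.symm.trans h'.hct) (h.hch.symm.trans h'.hch)
      (h.ham.symm.trans h'.ham) (h.hap.symm.trans h'.hap) ?_ (h.hbot.symm.trans h'.hbot)
    by_cases hd : D1 lm
    · exact (h.dE hd).1.trans (e3.trans (h'.dE (hD.1 hd)).1.symm)
    · exact (h.nE hd).symm.trans (h'.nE (mt hD.2 hd))

lemma cen_cell {s : ℤ} (hs : 0 < s) (x : ℤ) : x / s * s ≤ x ∧ x < (x / s + 1) * s :=
  ⟨Int.ediv_mul_le x hs.ne', Int.lt_ediv_add_one_mul_self x hs⟩

namespace Know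

variable (k : Know) {r c : ℕ}

/-- (a) rows of rank `≥ r`: inside a cell the row is the higher line; `core`, `cst` are unchanged,
`E` is known or unchanged according to `D1` of the (known) column. -/
lemma cen_rows (hr : 2 ≤ r) (hc : r % 2 = (c + 1) % 2) (h : Agr k.K (r + 1) c 0)
    (v1 : ∀ β j : ℤ, ∃ X, j * sn (r + 1) < X ∧ X < (j + 1) * sn (r + 1) ∧ k.AllG (X, β * sn r))
    {Y : ℤ} (hY : (sn r : ℤ) ∣ Y) (X : ℤ) : k.GF (X, Y) Tile.R := by 
  obtain ⟨β, rfl⟩ := hY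
  rw [mul_comm] at *
  have hs : (0 : ℤ) < sn (r + 1) := by exact_mod_cast sn_pos _
  obtain ⟨c1, c2⟩ := cen_cell hs X
  obtain ⟨X₀, a1, a2, a3⟩ := v1 β (X / sn (r + 1))
  generalize X / sn (r + 1) = j at *
  have key : ∀ x, j * sn (r + 1) + 1 ≤ x ∧ x ≤ (j + 1) * sn (r + 1) - 1 →
      k.GF (x, β * sn r) Tile.L ∧ k.GF (x, β * sn r) Tile.R := by
    intro x hx
    refine anc_line (P := fun x => k.GF (x, β * sn r) Tile.L)
      (Q := fun x => k.GF (x, β * sn r) Tile.R) (fun x => k.anc_hor x _) (fun x b1 b2 _ => ?_)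
      ⟨a3.gf k _, a3.gf k _⟩ ⟨by omega, by omega⟩ hx
    rcases high_or_ex (r + 1) c x with h4 | ⟨a, h4, h5, h6⟩
    · have : hl (r + 1) c = r + 1 := by unfold hl; rw [if_pos (by omega)]
      rw [this] at h4
      exact (geo_not_dvd (β := j) (by omega) (by omega) h4).elim
    have e : ∀ t ∈ k.K (x, β * sn r), ∀ t' ∈ k.K (x, β * sn r), (t.L = t'.L ↔ t.R = t'.R) := by
      intro t ht t' ht'
      have hd : (sn (a + 1) : ℤ) ∣ β * sn r :=
        geo_sn_dvd (b := r) (by omega) (by omega) (dvd_mul_left _ _)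
      obtain ⟨l, -, d⟩ := (h.geo_at ht).2.1 a h4 h5 h6
      obtain ⟨l', -, d'⟩ := (h.geo_at ht').2.1 a h4 h5 h6
      have s1 := l.spt (by omega)
      have s2 := l'.spt (by omega)
      exact Cross.cen_iff (d hd) (d' hd) (s1.2.1.trans s2.2.1.symm) (s1.2.2.trans s2.2.2.symm)
        (l.am.trans l'.am.symm) (l.ap.trans l'.ap.symm)
    exact ⟨fun g => g.of_det k fun t ht t' ht' => (e t ht t' ht').1,
      fun g => g.of_det k fun t ht t' ht' => (e t ht t' ht').2⟩
  rcases c1.eq_or_lt with e | e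
  · exact (k.anc_hor _ _).2 (key (X + 1) ⟨by omega, by omega⟩).1
  · exact (key X ⟨by omega, by omega⟩).2

lemma cen_L {Y : ℤ} (h : ∀ X, k.GF (X, Y) Tile.R) (X : ℤ) : k.GF (X, Y) Tile.L := by
  have := (k.anc_hor (X - 1) Y).1 (h _)
  rwa [sub_add_cancel] at this

/-- (b), (c) lanes: `cp, ct` from a row of exact rank `r` (`dc`), `ch` forward from the last row of
rank `≥ r + 2` (`nch`, `dch`, `dch'`); the other fields are known. -/
lemma cen_lanes (hr : 2 ≤ r) (hc : r % 2 = (c + 1) % 2) (h : Agr k.K (r + 1) c 0)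
    (hrow : ∀ X Y : ℤ, (sn r : ℤ) ∣ Y → k.GF (X, Y) Tile.R) {X : ℤ} (hX : Ex (r - 1) X) (Y : ℤ) :
    k.GF (X, Y) Tile.T := by 
  obtain ⟨a, rfl⟩ : ∃ a, r = a + 1 := ⟨r - 1, by omega⟩
  replace hX : Ex a X := hX
  have hac : a % 2 = c % 2 := by omega
  have hR : ∀ v, ∀ t ∈ k.trans.K v, Rule t := fun v t ht => (h v t ht).1
  -- `cp`, `ct`
  have g1 : ∀ y, k.GF (X, y) fun t => (t.B.cp, t.B.ct) := by
    intro y A
    have hY : Ex (a + 1) (chkY (a + 1 + 2) 0) := (ex_chkY (r := a + 1 + 2) (by omega) 0).1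
    have g : k.GF (X, chkY (a + 1 + 2) 0) fun t => (t.B.cp, t.B.ct) := by
      refine (k.cen_L (fun x => hrow x _ hY.1) X).of_det k fun t ht t' ht' e => ?_
      obtain ⟨l, -, d⟩ := (h.geo_at ht).2.1 a hac (by omega) hX
      obtain ⟨l', -, d'⟩ := (h.geo_at ht').2.1 a hac (by omega) hX
      have c1 := Cross.dc (d hY.1) (l.d1 le_rfl hY.1 hY.2)
      have c2 := Cross.dc (d' hY.1) (l'.d1 le_rfl hY.1 hY.2)
      simp only [c1.1, c1.2, c2.1, c2.2, e]
    exact (k.trans.col_cst hR X _ y {x | (x.1, x.2.1) ∈ A}).mp (g A)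
  have g2 : k.GF (X, Y) fun t => (t.T.cp, t.T.ct) :=
    (g1 Y).of_det k fun t ht t' ht' e => by
      have c1 := (hR _ t ht).cst.2
      have c2 := (hR _ t' ht').cst.2
      simp only [LS.cst, Prod.mk.injEq] at c1 c2 e ⊢
      exact ⟨c1.1.trans (e.1.trans c2.1.symm), c1.2.1.trans (e.2.trans c2.2.1.symm)⟩
  -- `ch`
  have hs : (0 : ℤ) < sn (a + 3) := by exact_mod_cast sn_pos _
  obtain ⟨c1, c2⟩ := cen_cell hs Y
  generalize Y / sn (a + 3) = β at c1 c2
  have g3 : k.GF (X, Y) fun t => t.T.ch := by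
    clear g2
    induction Y, c1 using Int.leInduction with
    | base =>
      refine GF.const k fun t ht t' ht' => ?_
      have hd : (sn (a + 1) : ℤ) ∣ β * sn (a + 3) :=
        geo_sn_dvd (b := a + 3) (by omega) (by omega) (dvd_mul_left _ _)
      obtain ⟨l, -, d⟩ := (h.geo_at ht).2.1 a hac (by omega) hX
      obtain ⟨l', -, d'⟩ := (h.geo_at ht').2.1 a hac (by omega) hX
      exact (Cross.nch (d hd) (l.not_d1 le_rfl (dvd_mul_left _ _))).2.trans
        (Cross.nch (d' hd) (l'.not_d1 le_rfl (dvd_mul_left _ _))).2.symm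
    | succ y hy ih =>
      have gB : k.GF (X, y + 1) fun t => t.B.ch := by
        have := (k.GF_ver (X, y) LS.ch).1 (ih (by omega))
        simpa only [e2, Prod.mk_add_mk, add_zero] using this
      rcases high_or_ex (a + 1 + 1) (c + 1) (y + 1) with h4 | ⟨b, h4, h5, h6⟩
      · have : hl (a + 1 + 1) (c + 1) = a + 3 := by unfold hl; rw [if_neg (by omega)]
        rw [this] at h4
        exact (geo_not_dvd (β := β) (by omega) (by omega) h4).elim
      by_cases hb : b = a + 1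
      · subst hb
        refine (gB.prod k (k.cen_L (fun x => hrow x _ h6.1) X)).of_det k
          fun t ht t' ht' e => ?_
        simp only [Prod.mk.injEq] at e
        obtain ⟨l, -, d⟩ := (h.geo_at ht).2.1 a hac (by omega) hX
        obtain ⟨l', -, d'⟩ := (h.geo_at ht').2.1 a hac (by omega) hX
        have d1 := l.d1 le_rfl h6.1 h6.2
        have d2 := l'.d1 le_rfl h6.1 h6.2
        cases hap : t.L.ap
        · exact (Cross.dch' (d h6.1) d1 hap).2.trans
            (e.1.trans (Cross.dch' (d' h6.1) d2 (e.2 ▸ hap)).2.symm)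
        · exact (Cross.dch (d h6.1) d1 hap).2.trans
            ((congrArg LS.st e.2).trans (Cross.dch (d' h6.1) d2 (e.2 ▸ hap)).2.symm)
      · refine gB.of_det k fun t ht t' ht' e => ?_
        have hd : (sn (b + 1) : ℤ) ∣ X := geo_sn_dvd (b := a) (by omega) (by omega) hX.1
        exact (Cross.hch ((h.geo_at ht).rowLow h6 h4 h5 hd)).trans
          (e.trans (Cross.hch ((h.geo_at ht').rowLow h6 h4 h5 hd)).symm)
  refine (g2.prod k g3).of_det k fun t ht t' ht' e => ?_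
  simp only [Prod.mk.injEq] at e
  obtain ⟨-, l, -⟩ := (h.geo_at ht).2.1 a hac (by omega) hX
  obtain ⟨-, l', -⟩ := (h.geo_at ht').2.1 a hac (by omega) hX
  have s1 := l.spt le_rfl
  have s2 := l'.spt le_rfl
  exact LS.ext (s1.1.trans s2.1.symm) (s1.2.1.trans s2.2.1.symm) (s1.2.2.trans s2.2.2.symm)
    e.1.1 e.1.2 e.2 (l.am.trans l'.am.symm) (l.ap.trans l'.ap.symm) (l.E.trans l'.E.symm)
    (l.bot.trans l'.bot.symm)

/-- (e) columns of rank `≥ r + 1`: go down from a check row in a band `β` with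
`β % Mn r = Mn r - 1`; all rows crossed have exact rank `≤ r`, so the column is the higher line. -/
lemma cen_high (hr : 2 ≤ r) (hc : r % 2 = (c + 1) % 2) (h : Agr k.K (r + 1) c 0)
    (hrow : ∀ X Y : ℤ, (sn r : ℤ) ∣ Y → k.GF (X, Y) Tile.R)
    (v2 : ∀ X β : ℤ, β % Mn r = Mn r - 1 → k.AllG (X, chkY r β)) {X : ℤ}
    (hX : (sn (r + 1) : ℤ) ∣ X) (Y : ℤ) : k.GF (X, Y) Tile.T := by 
  have hs : (0 : ℤ) < sn (r + 2) := by exact_mod_cast sn_pos _
  have hs' : (0 : ℤ) < sn r := by exact_mod_cast sn_pos _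
  have hM : (0 : ℤ) < Mn r := by exact_mod_cast Mn_pos _
  have e1 : (sn (r + 2) : ℤ) = Zn r * sn r := by exact_mod_cast sn_add_two r
  have e2 : (Zn r : ℤ) = 3 * Mn r := by exact_mod_cast Zn_eq r
  obtain ⟨c1, c2⟩ := cen_cell hs Y
  generalize Y / sn (r + 2) = γ at c1 c2
  have a3 := v2 X ((γ + 1) * Zn r - 1) (by
    rw [show (γ + 1) * Zn r - 1 = Mn r - 1 + Mn r * (3 * γ + 2) by rw [e2]; ring,
      Int.add_mul_emod_self_left]
    exact Int.emod_eq_of_lt (by omega) (by omega))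
  obtain ⟨-, a1, a2⟩ := ex_chkY hr ((γ + 1) * Zn r - 1)
  have a1' : γ * sn (r + 2) < chkY r ((γ + 1) * Zn r - 1) := by
    refine lt_of_le_of_lt ?_ a1
    rw [e1, e2]; nlinarith
  have a2' : chkY r ((γ + 1) * Zn r - 1) < (γ + 1) * sn (r + 2) := by
    refine lt_of_lt_of_le a2 (le_of_eq ?_)
    rw [e1]; ring
  have key : ∀ y, γ * sn (r + 2) + 1 ≤ y ∧ y ≤ (γ + 1) * sn (r + 2) - 1 →
      k.GF (X, y) Tile.B ∧ k.GF (X, y) Tile.T := by
    intro y hy
    refine anc_line (P := fun y => k.GF (X, y) Tile.B) (Q := fun y => k.GF (X, y) Tile.T)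
      (k.anc_ver X) (fun y b1 b2 _ => ?_) ⟨a3.gf k _, a3.gf k _⟩ ⟨by omega, by omega⟩ hy
    rcases high_or_ex (r + 1) (c + 1) y with h4 | ⟨b, h4, h5, h6⟩
    · have : hl (r + 1) (c + 1) = r + 2 := by unfold hl; rw [if_neg (by omega)]
      rw [this] at h4
      exact (geo_not_dvd (β := γ) (by omega) (by omega) h4).elim
    have gL : k.GF (X, y) Tile.L := by
      by_cases hb : b = r
      · subst hb
        exact k.cen_L (fun x => hrow x _ h6.1) X
      · exact GF.const k fun t ht t' ht' =>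
          ((h.geo_at ht).tp.anc_col (h.geo_at ht').tp ⟨b, h4, by omega, h6⟩).1
    have e : ∀ t ∈ k.K (X, y), ∀ t' ∈ k.K (X, y), t.L = t'.L → (t.B = t'.B ↔ t.T = t'.T) := by
      intro t ht t' ht' e
      have hd : (sn (b + 1) : ℤ) ∣ X := geo_sn_dvd (b := r + 1) (by omega) (by omega) hX
      have c1 : Cross t.L t.R t.B t.T := (h.geo_at ht).rowLow h6 h4 h5 hd
      have c2 : Cross t'.L t'.R t'.B t'.T := (h.geo_at ht').rowLow h6 h4 h5 hd
      rw [← e] at c2
      exact c1.anc_iff c2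
    exact ⟨fun g => (gL.prod k g).of_det k fun t ht t' ht' e' =>
        (e t ht t' ht' (Prod.mk.inj e').1).1 (Prod.mk.inj e').2,
      fun g => (gL.prod k g).of_det k fun t ht t' ht' e' =>
        (e t ht t' ht' (Prod.mk.inj e').1).2 (Prod.mk.inj e').2⟩
  rcases c1.eq_or_lt with e | e
  · exact (k.anc_ver _ _).2 (key (Y + 1) ⟨by omega, by omega⟩).1
  · exact (key Y ⟨by omega, by omega⟩).2

theorem central (hr : 2 ≤ r) (hc : r % 2 = (c + 1) % 2) (h : Agr k.K (r + 1) c 0)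
    (v1 : ∀ β j : ℤ, ∃ X, j * sn (r + 1) < X ∧ X < (j + 1) * sn (r + 1) ∧ k.AllG (X, β * sn r))
    (v2 : ∀ X β : ℤ, β % Mn r = Mn r - 1 → k.AllG (X, chkY r β)) (v : V) : k.AllG v := by 
  have hrow : ∀ X Y : ℤ, (sn r : ℤ) ∣ Y → k.GF (X, Y) Tile.R :=
    fun X Y hY => k.cen_rows hr hc h v1 hY X
  have hR : ∀ X Y : ℤ, k.GF (X, Y) Tile.R := by
    intro X Y
    rcases high_or_ex r (c + 1) Y with h4 | ⟨b, h4, h5, h6⟩
    · have : hl r (c + 1) = r := by unfold hl; rw [if_pos hc]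
      rw [this] at h4
      exact hrow X Y h4
    · exact GF.const k fun t ht t' ht' =>
        ((h.geo_at ht).tp.anc_col (h.geo_at ht').tp ⟨b, h4, by omega, h6⟩).2
  have hT : ∀ X Y : ℤ, k.GF (X, Y) Tile.T := by
    intro X Y
    rcases high_or_ex (r + 1) c X with h4 | ⟨a, h4, h5, h6⟩
    · have : hl (r + 1) c = r + 1 := by unfold hl; rw [if_pos (by omega)]
      rw [this] at h4
      exact k.cen_high hr hc h hrow v2 h4 Y
    · by_cases ha : a = r - 1
      · subst ha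
        exact k.cen_lanes hr hc h hrow h6 Y
      · exact GF.const k fun t ht t' ht' =>
          ((h.geo_at ht).anc_col (h.geo_at ht') ⟨a, h4, by omega, h6⟩).2
  obtain ⟨X, Y⟩ := v
  refine k.allG_of_edges (k.cen_L (fun x => hR x Y) X) (hR X Y) ?_ (hT X Y)
  have := (k.anc_ver X (Y - 1)).1 (hT _ _)
  rwa [sub_add_cancel] at this

end Know

end Crest.Agent.R189
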