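import Crest.Agent.R189.StepS

/-!
Row 189.  The counter of a quantum tiling: atoms.
-/

set_option autoImplicit false

namespace Crest.Agent.R189

open OMP

variable {P : Type} [OMP P]

lemma chain_ext_orth {x y : P} (h : ∀ w, orth w x ↔ orth w y) : x = y :=
  OMP.le_antisymm (orth_symm _ _ ((h _).2 (orth_symm _ _ (orth_compl y))))
    (orth_symm _ _ ((h _).1 (orth_symm _ _ (orth_compl x))))

lemma chain_orth_of_le {w x y : P} (h : le x y) (h' : orth w y) : orth w x :=
  orth_symm _ _ (orth_of_le h (orth_symm _ _ h'))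

/-- (integer version) The unary counter.  `D u β`, `O u β`: lane `u` is done / on in band `β`.
`D u β = T β + … + T (β + m - 2 - u)`, hence `e = T β + … + T (β + m - 1)`. -/
theorem chain_pureZ {m : ℕ} (hm : 1 ≤ m) {e : P} (D O : ℤ → ℤ → P) (T : ℤ → P)
    (hDO : ∀ u β, orth (D u β) (O u β))
    (h0 : ∀ β, add (D 0 β) (O 0 β) = e)
    (hs : ∀ u β : ℤ, 0 ≤ u → u + 1 < m → add (D (u + 1) β) (O (u + 1) β) = D u β)
    (hl : ∀ β, D (m - 1) β = zero ∧ O (m - 1) β = T β)
    (hstep : ∀ u β : ℤ, 0 ≤ u → u < m → le (T β) (add (D u β) (O u β)) →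
      orth (D u (β + 1)) (T β) ∧ add (D u (β + 1)) (T β) = add (D u β) (O u β)) :
    (∀ β, IsPart e (fun j : Fin m => T (β + j))) ∧ (∀ β, T (β + m) = T β) ∧
      ∀ u β : ℤ, 0 ≤ u → u < m → O u β = T (β + m - 1 - u) := by
  have hm' : (1 : ℤ) ≤ m := by exact_mod_cast hm
  obtain ⟨N, hN0, hN1⟩ : ∃ N : ℤ → ℤ → P, (∀ β, N 0 β = e) ∧
      ∀ u β, 0 ≤ u → N (u + 1) β = D u β :=
    ⟨fun u β => if u = 0 then e else D (u - 1) β, fun β => if_pos rfl, fun u β hu => by
      show (if u + 1 = 0 then e else D (u + 1 - 1) β) = D u β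
      rw [if_neg (by omega), add_sub_cancel_right]⟩
  have hN : ∀ u β : ℤ, 0 ≤ u → u < m → add (D u β) (O u β) = N u β := by
    intro u β h1 h2
    rcases h1.eq_or_lt with rfl | h1
    · rw [h0, hN0]
    · have := hs (u - 1) β (by omega) (by omega)
      rw [sub_add_cancel] at this
      rw [this, ← hN1 (u - 1) β (by omega), sub_add_cancel]
  have hT : ∀ β u, u ≤ (m : ℤ) - 1 → 0 ≤ u → le (T β) (N u β) := by
    intro β u hu
    induction u, hu using Int.leInductionDown with
    | base =>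
      intro h1
      rw [← hN _ _ h1 (by omega), (hl β).1, (hl β).2, OMP.zero_add]
      exact OMP.le_refl _
    | pred n hn ih =>
      intro h1
      refine OMP.le_trans (ih (by omega)) ?_
      rw [← hN _ _ h1 (by omega), ← hN1 _ _ h1, sub_add_cancel]
      refine le_add_left ?_
      have := hDO (n - 1) β
      rwa [← hN1 _ _ h1, sub_add_cancel] at this
  have hS : ∀ u β : ℤ, 0 ≤ u → u < m →
      orth (N (u + 1) (β + 1)) (T β) ∧ add (N (u + 1) (β + 1)) (T β) = N u β := by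
    intro u β h1 h2
    rw [hN1 _ _ h1, ← hN u β h1 h2]
    exact hstep u β h1 h2 (by rw [hN u β h1 h2]; exact hT β u (by omega) h1)
  have hC : ∀ u, u ≤ (m : ℤ) → 0 ≤ u → ∀ β w,
      orth w (N u β) ↔ ∀ i, 0 ≤ i → i < m - u → orth w (T (β + i)) := by
    intro u hu
    induction u, hu using Int.leInductionDown with
    | base =>
      intro _ β w
      have := hN1 (m - 1) β (by omega)
      rw [sub_add_cancel, (hl β).1] at this
      rw [this]
      exact ⟨fun _ i h1 h2 => by omega, fun _ => orth_zero w⟩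
    | pred n hn ih =>
      intro h1 β w
      obtain ⟨a1, a2⟩ := hS (n - 1) β h1 (by omega)
      rw [sub_add_cancel] at a1 a2
      rw [← a2, orth_add _ _ _ a1, ih (by omega)]
      constructor
      · rintro ⟨b1, b2⟩ i h2 h3
        rcases h2.eq_or_lt with rfl | h2
        · rwa [_root_.add_zero]
        · have := b1 (i - 1) (by omega) (by omega)
          rwa [show β + 1 + (i - 1) = β + i by ring] at this
      · intro b
        refine ⟨fun i h2 h3 => ?_, by simpa using b 0 le_rfl (by omega)⟩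
        rw [show β + 1 + i = β + (i + 1) by ring]
        exact b _ (by omega) (by omega)
  have hO : ∀ β i j : ℤ, 0 ≤ i → i < j → j < m → orth (T (β + i)) (T (β + j)) := by
    intro β i j h1 h2 h3
    have := (hC (i + 1) (by omega) (by omega) (β + i + 1) _).1
      (orth_symm _ _ (hS i (β + i) h1 (by omega)).1) (j - i - 1) (by omega) (by omega)
    rwa [show β + i + 1 + (j - i - 1) = β + j by ring] at this
  have h3 : ∀ u β : ℤ, 0 ≤ u → u < m → O u β = T (β + m - 1 - u) := by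
    intro u β h1 h2
    have e0 : β + m - 1 - u = β + (m - 1 - u) := by ring
    have a1 : orth (D u β) (T (β + m - 1 - u)) := by
      rw [← hN1 _ _ h1, e0]
      exact orth_symm _ _ ((hC (u + 1) (by omega) (by omega) β _).2 fun i h3 h4 =>
        orth_symm _ _ (hO β i _ h3 (by omega) (by omega)))
    refine add_cancel (hDO u β) a1 ?_
    rw [hN u β h1 h2]
    refine chain_ext_orth fun w => ?_
    rw [orth_add _ _ _ a1, ← hN1 _ _ h1, hC u (by omega) h1, hC (u + 1) (by omega) (by omega), e0]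
    constructor
    · intro b
      exact ⟨fun i h3 h4 => b i h3 (by omega), b _ (by omega) (by omega)⟩
    · rintro ⟨b1, b2⟩ i h3 h4
      by_cases h5 : i = m - 1 - u
      · rw [h5]; exact b2
      · exact b1 i h3 (by omega)
  refine ⟨fun β => ⟨fun i j hij => ?_, fun i => ?_, fun w hw hw' => ?_⟩, fun β => ?_, h3⟩
  · have hi := i.2
    have hj := j.2
    rcases lt_or_gt_of_ne (Fin.val_ne_of_ne hij) with h | h
    · exact hO β i j (by omega) (by omega) (by omega)
    · exact orth_symm _ _ (hO β j i (by omega) (by omega) (by omega))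
  · show le (T (β + i)) e
    rw [← hN0 (β + i)]
    exact hT _ 0 (by omega) le_rfl
  · refine eq_zero_of_le_of_orth hw ?_
    rw [← hN0 β]
    refine (hC 0 (by omega) le_rfl β w).2 fun i h1 h2 => ?_
    have := hw' ⟨i.toNat, by omega⟩
    simpa [Int.toNat_of_nonneg h1] using this
  · have a1 := h3 0 (β + 1) le_rfl (by omega)
    rw [show β + 1 + m - 1 - 0 = β + m by ring] at a1
    obtain ⟨b1, b2⟩ := hS 0 β le_rfl (by omega)
    rw [hN1 _ _ le_rfl] at b1 b2
    rw [← a1]
    exact add_cancel (hDO 0 (β + 1)) b1 (by rw [h0, b2, hN0])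

/-- The unary counter.  `D u β`, `O u β`: lane `u` is done / on in band `β`.
`D u β = T β + … + T (β + m - 2 - u)`, hence `e = T β + … + T (β + m - 1)`. -/
theorem chain_pure {m : ℕ} (hm : 1 ≤ m) {e : P} (D O : ℤ → ℤ → P) (T : ℤ → P)
    (hDO : ∀ u β, orth (D u β) (O u β))
    (h0 : ∀ β, add (D 0 β) (O 0 β) = e)
    (hs : ∀ u β, 0 ≤ u → u + 1 < m → add (D (u + 1) β) (O (u + 1) β) = D u β)
    (hl : ∀ β, D (m - 1) β = zero ∧ O (m - 1) β = T β)
    (hstep : ∀ u β, 0 ≤ u → u < m → le (T β) (add (D u β) (O u β)) →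
      orth (D u (β + 1)) (T β) ∧ add (D u (β + 1)) (T β) = add (D u β) (O u β)) :
    (∀ β, IsPart e (fun j : Fin m => T (β + j))) ∧ (∀ β, T (β + m) = T β) ∧
      ∀ u β, 0 ≤ u → u < m → O u β = T (β + m - 1 - u) := by
  obtain ⟨h1, h2, h3⟩ := chain_pureZ hm D O T hDO h0
    (fun u β a b => by
      obtain ⟨u, rfl⟩ := Int.eq_ofNat_of_zero_le a
      exact hs u β (Nat.zero_le _) (by omega)) hl
    (fun u β a b => by
      obtain ⟨u, rfl⟩ := Int.eq_ofNat_of_zero_le a
      exact hstep u β (Nat.zero_le _) (by omega))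
  exact ⟨h1, h2, fun u β _ b => h3 u β (by omega) (by omega)⟩

/-- the digit `x / M` modulo three -/
def chVal (M x : ℤ) : ZMod 3 := ((x / M : ℤ) : ZMod 3)

lemma chVal_add_mul {M : ℤ} (hM : 0 < M) (x k : ℤ) : chVal M (x + M * k) = chVal M x + k := by
  rw [chVal, Int.add_mul_ediv_left _ _ hM.ne']
  push_cast
  rfl

lemma chVal_emod {M : ℤ} (hM : 0 < M) (x : ℤ) :
    (((x % (3 * M)) / M : ℤ) : ZMod 3) = chVal M x := by
  have h1 : x = x % (3 * M) + M * (3 * (x / (3 * M))) := by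
    have := Int.emod_add_mul_ediv x (3 * M)
    linarith
  conv_rhs => rw [h1, chVal_add_mul hM]
  push_cast
  rw [show (3 : ZMod 3) = 0 from rfl, zero_mul, _root_.add_zero]
  rfl

lemma chVal_succ {M : ℤ} (hM : 0 < M) (x : ℤ) :
    chVal M (x + 1) = chVal M x + if x % M = M - 1 then 1 else 0 := by
  have h1 := Int.emod_add_mul_ediv x M
  have h2 := Int.emod_nonneg x hM.ne'
  have h3 := Int.emod_lt_of_pos x hM
  split_ifs with h
  · rw [show x + 1 = 0 + M * (x / M + 1) by linarith, chVal_add_mul hM]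
    simp [chVal]
  · rw [show x + 1 = (x % M + 1) + M * (x / M) by linarith, chVal_add_mul hM, chVal,
      Int.ediv_eq_zero_of_lt (by omega) (by omega)]
    simp [chVal]

lemma ctrOK_iff {r : ℕ} {n β : ℤ} {σ : LS} : CtrOK r n β σ ↔
    σ.p = chVal (Mn r) (β + n) ∧ (σ.t = true ↔ (β + n) % Mn r = Mn r - 1) := by
  have hM : (0 : ℤ) < Mn r := by exact_mod_cast Mn_pos r
  have e2 : (Zn r : ℤ) = 3 * Mn r := by exact_mod_cast Zn_eq r
  rw [CtrOK, e2, chVal_emod hM]

/-- from the bottom of a band to the bottom edge of the next high row -/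
lemma Trans.chain_top {α : Type} (τ : Trans α) {r c : ℕ} (hr : 2 ≤ r) (hc : r % 2 = (c + 1) % 2)
    (h : Agr τ.K r c 0) {X : ℤ} (hX : (sn (r - 1) : ℤ) ∣ X) (β : ℤ)
    (A : Set (St3 × ZMod 3 × Bool × St3)) :
    τ.μ (X, β * sn r) {t | t.T.core ∈ A} = τ.μ (X, (β + 1) * sn r) {t | t.B.core ∈ A} := by
  have hs : (0 : ℤ) < sn r := by exact_mod_cast sn_pos r
  rw [← τ.col_band hr hc h hX (Y := (β + 1) * sn r - 1) (by nlinarith) (by omega) A,
    ← τ.geo_ver X ((β + 1) * sn r - 1) fun σ => σ.core ∈ A, sub_add_cancel]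

lemma chain_colLow {K : V → Set Tile} {r c : ℕ} (hr : 2 ≤ r) (hc : r % 2 = (c + 1) % 2)
    (h : Agr K r c 0) {X β : ℤ} (hX : Ex (r - 1) X) {t : Tile} (ht : t ∈ K (X, β * sn r)) :
    ColLow t :=
  (h.geo_at ht).colLow hX (by omega) (by omega) (by
    rw [show r - 1 + 1 = r by omega]; exact dvd_mul_left _ _)

/-- the counter events of a quantum tiling -/
lemma chain_counter {e : P} {m : V → Set Tile → P} (hm : IsModel TileW e m) {r c : ℕ} (hr : 2 ≤ r)
    (hc : r % 2 = (c + 1) % 2) (h : Agr (poss m e) r c 0) (j : ℤ) :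
    (∀ β : ℤ, IsPart e (fun i : Fin (Mn r) =>
      m (laneX r 0 0, (β + i) * sn r) {t | t.T.t = true})) ∧
    (∀ β : ℤ, m (laneX r 0 0, (β + Mn r) * sn r) {t | t.T.t = true} =
      m (laneX r 0 0, β * sn r) {t | t.T.t = true}) ∧
    ∀ u β : ℤ, 0 ≤ u → u < Mn r → m (laneX r j u, β * sn r) {t | t.T.st = St3.on} =
      m (laneX r 0 0, (β + Mn r - 1 - u) * sn r) {t | t.T.t = true} := by
  have hM : (0 : ℤ) < Mn r := by exact_mod_cast Mn_pos r
  have hX₀ := (ex_laneX (by omega : 1 ≤ r) 0 le_rfl hM).1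
  have hdis : Disjoint {t : Tile | t.T.st = St3.done} {t : Tile | t.T.st = St3.on} := by
    rw [Set.disjoint_left]
    intro t h1 h2
    exact St3.noConfusion (h1.symm.trans h2)
  have hsum : ∀ v, add (m v {t | t.T.st = St3.done}) (m v {t | t.T.st = St3.on}) =
      m v {t | t.T.st ≠ St3.wait} := by
    intro v
    rw [← (hm.pvm v).union _ _ hdis]
    congr 1
    ext t
    show t.T.st = St3.done ∨ t.T.st = St3.on ↔ t.T.st ≠ St3.wait
    cases t.T.st <;> simp
  have hT : ∀ X β, Ex (r - 1) X →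
      m (X, β * sn r) {t | t.T.t = true} = m (laneX r 0 0, β * sn r) {t | t.T.t = true} :=
    fun X β hX => (hm.trans.lane_pt hr hc h hX β 0 {x | x.2 = true}).trans
      (hm.trans.lane_pt hr hc h hX₀ β 0 {x | x.2 = true}).symm
  refine chain_pureZ (Mn_pos r) (fun u β => m (laneX r j u, β * sn r) {t | t.T.st = St3.done})
    (fun u β => m (laneX r j u, β * sn r) {t | t.T.st = St3.on})
    (fun β => m (laneX r 0 0, β * sn r) {t | t.T.t = true})
    (fun u β => (hm.pvm _).orth _ _ hdis) (fun β => ?_) (fun u β h0 h1 => ?_) (fun β => ⟨?_, ?_⟩)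
    (fun u β h0 h1 h2 => ?_)
  · rw [hsum]
    exact (hm.trans.lane_first hr hc h j β).trans (hm.pvm _).univ
  · rw [hsum]
    exact hm.trans.lane_next hr hc h j β h0 h1
  · have pv : IsPVM (A := Tile) e (m (laneX r j (Mn r - 1), β * sn r)) := hm.pvm _
    refine (hm.trans.lane_last hr hc h j β {St3.done}).trans (Eq.trans ?_ pv.empty)
    show m _ _ = m _ _
    congr 1
    ext t
    cases h : t.T.t <;> simp [h]
  · refine (hm.trans.lane_last hr hc h j β {St3.on}).trans (Eq.trans ?_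
      (hT _ β (ex_laneX (by omega : 1 ≤ r) j (u := Mn r - 1) (by omega) (by omega)).1))
    show m _ _ = m _ _
    congr 1
    ext t
    cases h : t.T.t <;> simp [h]
  · have hX := (ex_laneX (by omega : 1 ≤ r) j h0 h1).1
    have a1 : m (laneX r 0 0, β * sn r) {t | t.T.t = true} =
        m (laneX r j u, (β + 1) * sn r) {t | t.B.t = true} :=
      (hT _ β hX).symm.trans (hm.trans.chain_top hr hc h hX.1 β {x | x.2.2.1 = true})
    have a2 : m (laneX r j u, β * sn r) {t | t.T.st ≠ St3.wait} =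
        m (laneX r j u, (β + 1) * sn r) {t | t.B.st ≠ St3.wait} :=
      hm.trans.chain_top hr hc h hX.1 β {x | x.1 ≠ St3.wait}
    have a3 : m (laneX r j u, (β + 1) * sn r) {t | t.T.st = St3.done} =
        m (laneX r j u, (β + 1) * sn r) {t | t.B.st ≠ St3.wait ∧ t.B.t = false} :=
      hm.trans.congr _ _ _ fun t ht => Cross.step (chain_colLow hr hc h hX ht)
    rw [hsum, a1, a2] at h2
    rw [hsum, a1, a2, a3]
    have hd : Disjoint {t : Tile | t.B.st ≠ St3.wait ∧ t.B.t = false} {t : Tile | t.B.t = true} := by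
      rw [Set.disjoint_left]
      rintro t ⟨-, h1⟩ h2
      exact Bool.noConfusion (h1.symm.trans h2)
    have ho := (hm.pvm (laneX r j u, (β + 1) * sn r)).orth _ _ hd
    refine ⟨ho, OMP.le_antisymm (add_le ho ((hm.pvm _).mono fun t ht => ht.1) h2) ?_⟩
    rw [← (hm.pvm _).union _ _ hd]
    refine (hm.pvm _).mono fun t ht => ?_
    cases h : t.B.t
    · exact Or.inl ⟨ht, h⟩
    · exact Or.inr h

/-- Plan.  `PT β A = m (X₀, β sn r) {(T.p, T.t) ∈ A}` for a fixed lane `X₀`; it does not depend on the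
lane and equals the `(cp, ct)` measure on the check row (`lane_pt` for `h.trans`).  `chain_pure` in
each cell.  For `n` let `j ∈ [0, Mn r)` with `(j + n) % Mn r = Mn r - 1`, `i = (j + n) % Zn r / Mn r`,
`q n = PT j {(i, true)}`.  Below `q n` all `t`'s are determined (partition, periodicity) and the `p`'s
follow by `pstep` forwards and backwards (`poss_sub_iff`).  Visibility at `(X, Y)`: `T j` is in the range
of the site measure together with the `p`-measure of some band `β'`; `q n ≤ T j ⊓ [p = i']`, both families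
(over `i ∈ ZMod 3`) sum to `T j`, so they are equal (`eq_of_le_of_add_eq`). -/
theorem chain_atoms {e : P} {m : V → Set Tile → P} (hm : IsModel TileW e m) {r c : ℕ} (hr : 2 ≤ r)
    (hc : r % 2 = (c + 1) % 2) (h : Agr (poss m e) r c 0) :
    ∃ q : Fin (Zn r) → P, IsPart e q ∧ ∀ n : Fin (Zn r),
      (∀ β : ℤ, ∀ t ∈ poss m (q n) (laneX r 0 0, β * sn r), CtrOK r n β t.T) ∧
      (∀ β j : ℤ, ∃ X, j * sn (r + 1) < X ∧ X < (j + 1) * sn (r + 1) ∧
        ∃ U, q n = m (X, β * sn r) U) ∧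
      (∀ X β : ℤ, (β + n) % Mn r = Mn r - 1 → ∃ U, q n = m (X, chkY r β) U) := by
  have hM : (0 : ℤ) < Mn r := by exact_mod_cast Mn_pos r
  have hZ : Zn r = 3 * Mn r := Zn_eq r
  have hX₀ := (ex_laneX (by omega : 1 ≤ r) 0 le_rfl hM).1
  obtain ⟨PT, hPT⟩ : ∃ PT : ℤ → Set (ZMod 3 × Bool) → P, ∀ β A,
      PT β A = m (laneX r 0 0, β * sn r) {t | (t.T.p, t.T.t) ∈ A} := ⟨_, fun _ _ => rfl⟩
  have hpvm : ∀ β, IsPVM e (PT β) := by
    intro β
    have := (hm.pvm (laneX r 0 0, β * sn r)).comap (fun t : Tile => (t.T.p, t.T.t))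
    rwa [show PT β = fun U => m (laneX r 0 0, β * sn r) ((fun t : Tile => (t.T.p, t.T.t)) ⁻¹' U)
      from funext (hPT β)]
  have hchk : ∀ β X A, PT β A = m (X, chkY r β) {t | (t.L.cp, t.L.ct) ∈ A} := fun β X A =>
    (hPT β A).trans (hm.trans.lane_pt hr hc h hX₀ β X A)
  have hlane : ∀ β X A, Ex (r - 1) X → PT β A = m (X, β * sn r) {t | (t.T.p, t.T.t) ∈ A} :=
    fun β X A hX => (hchk β 0 A).trans (hm.trans.lane_pt hr hc h hX β 0 A).symm
  obtain ⟨T, hT⟩ : ∃ T : ℤ → P, ∀ β, T β = PT β {x | x.2 = true} := ⟨_, fun _ => rfl⟩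
  have hT' : ∀ β, m (laneX r 0 0, β * sn r) {t | t.T.t = true} = T β := fun β =>
    ((hT β).trans (hPT β _)).symm
  obtain ⟨c1, c2, -⟩ := chain_counter hm hr hc h 0
  simp only [hT'] at c1 c2
  have hper : ∀ k β : ℤ, T (β + Mn r * k) = T β := by
    intro k β
    induction k using Int.induction_on with
    | zero => rw [mul_zero, _root_.add_zero]
    | succ k ih => rw [← ih, ← c2 (β + Mn r * k)]; congr 1; ring
    | pred k ih => rw [← ih, ← c2 (β + Mn r * (-k - 1))]; congr 1; ring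
  have hmod : ∀ β, T (β % Mn r) = T β := fun β => by
    rw [← hper (β / Mn r), Int.emod_add_mul_ediv]
  have hTeq : ∀ n β β' : ℤ, (β + n) % Mn r = (β' + n) % Mn r → T β = T β' := by
    intro n β β' e
    rw [← hmod β, ← hmod β', (Int.emod_add_cancel_right n).1 e]
  have hTo : ∀ n β β' : ℤ, (β + n) % Mn r ≠ (β' + n) % Mn r → orth (T β) (T β') := by
    intro n β β' e
    have e' : β % Mn r ≠ β' % Mn r := fun e' => e ((Int.emod_add_cancel_right n).2 e')
    have a1 := Int.emod_nonneg β hM.ne'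
    have a2 := Int.emod_lt_of_pos β hM
    have a3 := Int.emod_nonneg β' hM.ne'
    have a4 := Int.emod_lt_of_pos β' hM
    have := (c1 0).1 ⟨(β % Mn r).toNat, by omega⟩ ⟨(β' % Mn r).toNat, by omega⟩
      (fun h => e' (by have := Fin.mk.inj h; omega))
    simpa only [Int.toNat_of_nonneg a1, Int.toNat_of_nonneg a3, _root_.zero_add, hmod] using this
  -- the atoms
  have pv : ∀ v, IsPVM (A := Tile) e (m v) := hm.pvm
  obtain ⟨Q, hQ⟩ : ∃ Q : ℤ → ZMod 3 → P, ∀ n i, Q n i = PT (Mn r - 1 - n) {(i, true)} :=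
    ⟨_, fun _ _ => rfl⟩
  have hJ : ∀ n : ℤ, (Mn r - 1 - n + n) % Mn r = Mn r - 1 := fun n => by
    rw [sub_add_cancel]; exact Int.emod_eq_of_lt (by omega) (by omega)
  have hV0 : chVal (Mn r) (Mn r - 1) = 0 := by
    rw [chVal, Int.ediv_eq_zero_of_lt (by omega) (by omega)]
    rfl
  have hQe : ∀ n i, le (Q n i) e := fun n i => by rw [hQ]; exact (hpvm _).le_e _
  have hQT : ∀ n i, le (Q n i) (T (Mn r - 1 - n)) := fun n i => by
    rw [hQ, hT]; exact (hpvm _).mono (by simp)
  have hQt : ∀ (n : ℤ) (i : ZMod 3) (β : ℤ), ∀ t ∈ poss m (Q n i) (laneX r 0 0, β * sn r),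
      (t.T.t = true ↔ (β + n) % Mn r = Mn r - 1) := by
    intro n i β t ht
    constructor
    · intro h1
      by_contra h2
      refine ht (orth_of_le ((pv _).mono (U' := {t | t.T.t = true}) (by simpa using h1)) ?_)
      rw [hT']
      exact chain_orth_of_le (hQT n i) (hTo n _ _ (by rw [hJ]; exact h2))
    · intro h1
      refine (poss_sub_iff hm (hQe n i) _ {t | t.T.t = true}).2 ?_ ht
      rw [hT', hTeq n β (Mn r - 1 - n) (by rw [hJ, h1])]
      exact hQT n i
  have hQp : ∀ (n : ℤ) (i : ZMod 3) (β : ℤ), poss m (Q n i) (laneX r 0 0, β * sn r) ⊆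
      {t | t.T.p = chVal (Mn r) (β + n) + i} := by
    intro n i
    have hA : Agr (hm.know (hQe n i)).toSupp.trans.K r c 0 :=
      h.sub fun v => poss_mono (hQe n i) v
    have key : ∀ β : ℤ, (poss m (Q n i) (laneX r 0 0, (β + 1) * sn r) ⊆
        {t | t.T.p = chVal (Mn r) (β + 1 + n) + i}) =
        (poss m (Q n i) (laneX r 0 0, β * sn r) ⊆ {t | t.T.p = chVal (Mn r) (β + n) + i}) := by
      intro β
      have a1 := (hm.know (hQe n i)).toSupp.trans.chain_top hr hc hA hX₀.1 β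
        {x | x.2.2.1 = true ↔ (β + n) % Mn r = Mn r - 1}
      have a2 : poss m (Q n i) (laneX r 0 0, (β + 1) * sn r) ⊆
          {t | t.B.t = true ↔ (β + n) % Mn r = Mn r - 1} := a1.mp (hQt n i β)
      refine Eq.trans ((hm.know (hQe n i)).toSupp.trans.congr _ _ _ fun t ht => ?_)
        ((hm.know (hQe n i)).toSupp.trans.chain_top hr hc hA hX₀.1 β
          {x | x.2.1 = chVal (Mn r) (β + n) + i}).symm
      have a3 := Cross.pstep (chain_colLow hr hc hA hX₀ ht)
      have a4 : t.B.t = true ↔ (β + n) % Mn r = Mn r - 1 := a2 ht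
      show t.T.p = _ ↔ t.B.p = _
      rw [a3, add_right_comm β 1 n, chVal_succ hM, add_right_comm _ _ i]
      simp only [a4, add_left_inj]
    have base : poss m (Q n i) (laneX r 0 0, (Mn r - 1 - n) * sn r) ⊆
        {t | t.T.p = chVal (Mn r) (Mn r - 1 - n + n) + i} := by
      refine (poss_sub_iff hm (hQe n i) _ _).2 ?_
      rw [hQ, hPT]
      refine (pv _).mono fun t ht => ?_
      have : t.T.p = i := (Prod.mk.inj ht).1
      show t.T.p = _
      rw [this, sub_add_cancel, hV0, _root_.zero_add]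
    intro β
    rcases le_total β (Mn r - 1 - n) with h1 | h1
    · exact (geo_chain (f := fun β : ℤ => poss m (Q n i) (laneX r 0 0, β * sn r) ⊆
        {t | t.T.p = chVal (Mn r) (β + n) + i}) h1 fun x _ _ => key x).mp base
    · exact (geo_chain (f := fun β : ℤ => poss m (Q n i) (laneX r 0 0, β * sn r) ⊆
        {t | t.T.p = chVal (Mn r) (β + n) + i}) h1 fun x _ _ => key x).mpr base
  have hQP : ∀ (n : ℤ) (i : ZMod 3) (β : ℤ),
      le (Q n i) (PT β {x | x.1 = chVal (Mn r) (β + n) + i}) := fun n i β => by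
    rw [hPT]; exact (poss_sub_iff hm (hQe n i) _ _).1 (hQp n i β)
  have hPo : ∀ (β : ℤ) (a b : ZMod 3), a ≠ b → orth (PT β {x | x.1 = a}) (PT β {x | x.1 = b}) := by
    intro β a b hab
    refine (hpvm β).orth _ _ ?_
    rw [Set.disjoint_left]
    exact fun x h1 h2 => hab (h1.symm.trans h2)
  have vis : ∀ (n β : ℤ) (w : P), le w (T (Mn r - 1 - n)) →
      le w (PT β {x | x.1 = chVal (Mn r) (β + n)}) → le w (Q n 0) := by
    intro n β w h1 h2
    rw [hQ]
    refine ((hpvm _).le_iff (OMP.le_trans h2 ((hpvm _).le_e _)) _).2 ?_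
    rintro ⟨i, b⟩ ha
    by_contra hne
    refine ha ?_
    cases b
    · rw [hT] at h1
      exact chain_orth_of_le h1 ((hpvm _).orth _ _ (by simp))
    · have hi : i ≠ 0 := fun e => hne (by rw [e]; rfl)
      rw [← hQ]
      exact orth_of_le (hQP n i β) (chain_orth_of_le h2 (hPo β _ _ (by simpa using hi)))
  have vis2 : ∀ (n β : ℤ) (v : V) (U₀ U₁ : Set Tile), m v U₀ = T (Mn r - 1 - n) →
      m v U₁ = PT β {x | x.1 = chVal (Mn r) (β + n)} → ∃ U, Q n 0 = m v U := by
    intro n β v U₀ U₁ h1 h2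
    refine ⟨U₀ ∩ U₁, ?_⟩
    rw [(pv v).inter]
    refine OMP.le_antisymm (OMP.le_inf ((pv v).compat _ _) ?_ ?_) (vis n β _ ?_ ?_)
    · rw [h1]; exact hQT n 0
    · rw [h2]; simpa using hQP n 0 β
    · rw [← h1]; exact inf_le_left _ _
    · rw [← h2]; exact inf_le_right _ _
  refine ⟨fun n => Q n 0, ⟨fun n n' hne => ?_, fun n => hQe _ _, fun w hw hw' => ?_⟩,
    fun n => ⟨fun β t ht => ctrOK_iff.2 ⟨?_, hQt _ _ β t ht⟩, fun β j => ?_, fun X β hβ => ?_⟩⟩
  · by_cases h1 : ((Mn r : ℤ) - 1 - n + n) % Mn r = ((Mn r : ℤ) - 1 - n' + n) % Mn r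
    · obtain ⟨k, hk⟩ := Int.ModEq.dvd (Int.ModEq.symm h1)
      have a1 := n.2
      have a2 := n'.2
      have a3 : (n : ℕ) ≠ n' := Fin.val_ne_of_ne hne
      have hk' : ((n' : ℕ) : ℤ) = n + Mn r * k := by linarith
      have b1 : k < 3 := by nlinarith
      have b2 : -3 < k := by nlinarith
      have b3 : k ≠ 0 := by rintro rfl; omega
      refine orth_of_le (hQP n 0 0) (chain_orth_of_le (hQP n' 0 0) (hPo 0 _ _ ?_))
      rw [hk', ← _root_.add_assoc, chVal_add_mul hM]
      intro e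
      have e' : (k : ZMod 3) = 0 := by simpa using e
      rw [ZMod.intCast_zmod_eq_zero_iff_dvd] at e'
      omega
    · exact orth_of_le (hQT _ _) (chain_orth_of_le (hQT _ _) (hTo _ _ _ h1))
  · refine (c1 0).2.2 w hw fun j => ?_
    show orth w (T (0 + j))
    rw [_root_.zero_add, hT]
    refine (hpvm _).orth_of_singles ?_
    rintro ⟨i, b⟩ hb
    obtain rfl : b = true := hb
    have a1 := j.2
    have a2 := ZMod.val_lt i
    have a3 : Mn r * i.val ≤ Mn r * 2 := Nat.mul_le_mul_left _ (by omega)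
    have a4 : ((Mn r - 1 - j + Mn r * i.val : ℕ) : ℤ) = Mn r - 1 - j + Mn r * i.val := by
      push_cast [show (j : ℕ) ≤ Mn r - 1 by omega, show 1 ≤ Mn r by omega]
      ring
    refine chain_orth_of_le (vis _ j _ ?_ ?_) (hw' ⟨Mn r - 1 - j + Mn r * i.val, by omega⟩)
    · show le _ (T (Mn r - 1 - ((Mn r - 1 - j + Mn r * i.val : ℕ) : ℤ)))
      rw [a4, show (Mn r : ℤ) - 1 - (Mn r - 1 - j + Mn r * i.val) = j + Mn r * (-(i.val : ℤ)) by ring,
        hper, hT]
      exact (hpvm _).mono (by simp)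
    · show le _ (PT j {x | x.1 = chVal (Mn r) (j + ((Mn r - 1 - j + Mn r * i.val : ℕ) : ℤ))})
      rw [a4, show (j : ℤ) + (Mn r - 1 - j + Mn r * i.val) = Mn r - 1 + Mn r * (i.val : ℤ) by ring,
        chVal_add_mul hM, hV0]
      exact (hpvm _).mono (by simp)
  · simpa using hQp _ _ β ht
  · have a1 := Int.emod_nonneg (β + n) hM.ne'
    have a2 := Int.emod_lt_of_pos (β + n) hM
    obtain ⟨b1, -, b2, b3⟩ := ex_laneX (by omega : 1 ≤ r) j a1 a2
    refine ⟨_, b2, b3, vis2 n β _ {t | t.T.st = St3.on} {t | t.T.p = chVal (Mn r) (β + n)} ?_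
      (hlane β _ {x | x.1 = chVal (Mn r) (β + n)} b1).symm⟩
    rw [(chain_counter hm hr hc h j).2.2 _ β a1 a2, hT']
    refine hTeq n _ _ ?_
    have a3 := Int.emod_add_mul_ediv (β + n) (Mn r)
    rw [hJ, show β + Mn r - 1 - (β + n) % Mn r + n = Mn r - 1 + Mn r * ((β + n) / Mn r) by linarith,
      Int.add_mul_emod_self_left]
    exact Int.emod_eq_of_lt (by omega) (by omega)
  · refine vis2 n β _ {t | t.L.ct = true} {t | t.L.cp = chVal (Mn r) (β + n)} ?_
      (hchk β X {x | x.1 = chVal (Mn r) (β + n)}).symm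
    rw [← hTeq n β _ (by rw [hJ, hβ]), hT]
    exact (hchk β X {x | x.2 = true}).symm

end Crest.Agent.R189
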