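import Crest.Agent.R189.OMP
import Crest.Agent.R189.Perm

/-!
Row 189.  The orthomodular poset of "conditional three-cycle systems" in a group.
-/

set_option autoImplicit false

namespace Crest.Agent.R189

open Equiv
open scoped commutatorElement

/-- a unit system and the local subgroups -/
structure CondData (Γ : Type) [Group Γ] where
  ι : Track → Track → Track → Γ
  junk : ∀ p q r, ¬ D3 p q r → ι p q r = 1
  pre : Pre ι
  Lc : Finset Track → Subgroup Γ
  comm : ∀ A B : Finset Track, Disjoint A B → ∀ a ∈ Lc A, ∀ b ∈ Lc B, Commute a b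
  mem : ∀ A : Finset Track, 5 ≤ A.card → ∀ p ∈ A, ∀ q ∈ A, ∀ r ∈ A, ι p q r ∈ Lc A

variable {Γ : Type} [Group Γ]

/-- a condition -/
@[ext] structure Cond (C : CondData Γ) : Type where
  val : Track → Track → Track → Γ
  junk : ∀ p q r, ¬ D3 p q r → val p q r = 1
  pre : Pre val
  eqv : ∀ p q r i j k, D3 p q r → D3 i j k →
    C.ι p q r * val i j k * (C.ι p q r)⁻¹ = val (cyc p q r i) (cyc p q r j) (cyc p q r k)
  mem : ∀ A : Finset Track, 5 ≤ A.card → ∀ p ∈ A, ∀ q ∈ A, ∀ r ∈ A, val p q r ∈ C.Lc A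

namespace Cond

variable {C : CondData Γ}

def Orth (ψ χ : Cond C) : Prop := ∀ p q r i j k, Commute (ψ.val p q r) (χ.val i j k)

def zero : Cond C where
  val := fun _ _ _ => 1
  junk := fun _ _ _ _ => rfl
  pre := ⟨fun _ _ _ _ => rfl, fun _ _ _ _ => inv_one.symm, fun _ _ _ _ => one_pow _,
    fun _ _ _ _ _ _ _ _ => by simp⟩
  eqv := fun _ _ _ _ _ _ _ _ => by simp
  mem := fun _ _ _ _ _ _ _ _ => Subgroup.one_mem _

def one : Cond C where
  val := C.ι
  junk := C.junk
  pre := C.pre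
  eqv := C.pre.conj
  mem := C.mem

def mul (ψ χ : Cond C) (h : Orth ψ χ) : Cond C where
  val := fun p q r => ψ.val p q r * χ.val p q r
  junk := fun p q r hd => by rw [ψ.junk p q r hd, χ.junk p q r hd, one_mul]
  pre := by
    refine ⟨fun p q r d => ?_, fun p q r d => ?_, fun p q r d => ?_, fun p q r i j k d d' => ?_⟩
    · rw [ψ.pre.rot p q r d, χ.pre.rot p q r d]
    · rw [ψ.pre.inv p q r d, χ.pre.inv p q r d, (h p q r p q r).eq, mul_inv_rev]
    · rw [(h p q r p q r).mul_pow, ψ.pre.cube p q r d, χ.pre.cube p q r d, one_mul]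
    · have e1 := (h i j k p q r).eq
      have e2 := (h p q r (cyc p q r i) (cyc p q r j) (cyc p q r k)).inv_left.eq
      rw [← ψ.pre.conj p q r i j k d d', mul_assoc _ (ψ.val p q r)⁻¹, e2,
        ← χ.pre.conj p q r i j k d d']
      calc ψ.val p q r * χ.val p q r * (ψ.val i j k * χ.val i j k) * (ψ.val p q r * χ.val p q r)⁻¹
          = ψ.val p q r * (χ.val p q r * ψ.val i j k) * χ.val i j k * (χ.val p q r)⁻¹ *
            (ψ.val p q r)⁻¹ := by group
        _ = _ := by rw [← e1]; group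
  eqv := fun p q r i j k d d' => by
    rw [← ψ.eqv p q r i j k d d', ← χ.eqv p q r i j k d d']; group
  mem := fun A hA p hp q hq r hr =>
    Subgroup.mul_mem _ (ψ.mem A hA p hp q hq r hr) (χ.mem A hA p hp q hq r hr)

open Classical in
noncomputable def add (ψ χ : Cond C) : Cond C := if h : Orth ψ χ then mul ψ χ h else zero

lemma cond_compl_comm (ψ : Cond C) (i j k p q r : Track) :
    Commute (ψ.val i j k) ((ψ.val p q r)⁻¹ * C.ι p q r) := by
  by_cases d' : D3 i j k
  · by_cases d : D3 p q r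
    · have e := (ψ.eqv p q r i j k d d').trans (ψ.pre.conj p q r i j k d d').symm
      rw [Commute, SemiconjBy]
      calc ψ.val i j k * ((ψ.val p q r)⁻¹ * C.ι p q r)
          = (ψ.val p q r)⁻¹ * (ψ.val p q r * ψ.val i j k * (ψ.val p q r)⁻¹) * C.ι p q r := by group
        _ = _ := by rw [← e]; group
    · rw [ψ.junk p q r d, C.junk p q r d, inv_one, one_mul]; exact Commute.one_right _
  · rw [ψ.junk i j k d']; exact Commute.one_left _

lemma cond_compl_eqv (ψ : Cond C) {p q r i j k : Track} (d : D3 p q r) (d' : D3 i j k) :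
    C.ι p q r * ((ψ.val i j k)⁻¹ * C.ι i j k) * (C.ι p q r)⁻¹ =
      (ψ.val (cyc p q r i) (cyc p q r j) (cyc p q r k))⁻¹ *
        C.ι (cyc p q r i) (cyc p q r j) (cyc p q r k) := by
  rw [← ψ.eqv p q r i j k d d', ← C.pre.conj p q r i j k d d']; group

def compl (ψ : Cond C) : Cond C where
  val := fun p q r => (ψ.val p q r)⁻¹ * C.ι p q r
  junk := fun p q r hd => by rw [ψ.junk p q r hd, C.junk p q r hd, inv_one, one_mul]
  pre := by
    have hc : ∀ p q r, Commute (ψ.val p q r) (C.ι p q r) := fun p q r => by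
      have := (Commute.refl (ψ.val p q r)).mul_right (cond_compl_comm ψ p q r p q r)
      rwa [mul_inv_cancel_left] at this
    refine ⟨fun p q r d => ?_, fun p q r d => ?_, fun p q r d => ?_, fun p q r i j k d d' => ?_⟩
    · rw [ψ.pre.rot p q r d, C.pre.rot p q r d]
    · rw [ψ.pre.inv p q r d, C.pre.inv p q r d, mul_inv_rev, inv_inv, (hc p q r).inv_right.eq]
    · rw [(hc p q r).inv_left.mul_pow, inv_pow, ψ.pre.cube p q r d, C.pre.cube p q r d, inv_one,
        one_mul]
    · have e1 := cond_compl_eqv ψ d d'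
      have e2 := (cond_compl_comm ψ p q r (cyc p q r i) (cyc p q r j) (cyc p q r k)).eq
      calc (ψ.val p q r)⁻¹ * C.ι p q r * ((ψ.val i j k)⁻¹ * C.ι i j k) *
            ((ψ.val p q r)⁻¹ * C.ι p q r)⁻¹
          = (ψ.val p q r)⁻¹ * ((C.ι p q r * ((ψ.val i j k)⁻¹ * C.ι i j k) * (C.ι p q r)⁻¹) *
            ψ.val p q r) := by group
        _ = _ := by rw [e1, ← e2, inv_mul_cancel_left]
  eqv := fun p q r i j k d d' => cond_compl_eqv ψ d d'
  mem := fun A hA p hp q hq r hr =>
    Subgroup.mul_mem _ (Subgroup.inv_mem _ (ψ.mem A hA p hp q hq r hr)) (C.mem A hA p hp q hq r hr)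

lemma add_val {ψ χ : Cond C} (h : Orth ψ χ) (p q r : Track) :
    (add ψ χ).val p q r = ψ.val p q r * χ.val p q r := by
  unfold add
  rw [dif_pos h]
  rfl

lemma orth_compl (ψ : Cond C) : Orth ψ (compl ψ) := fun p q r i j k => cond_compl_comm ψ p q r i j k

/-- values on disjoint triples commute (extend the triples to disjoint five-sets) -/
lemma commute_of_disjoint (ψ χ : Cond C) {p q r i j k : Track}
    (h : Disjoint ({p, q, r} : Finset Track) {i, j, k}) :
    Commute (ψ.val p q r) (χ.val i j k) := by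
  have h1 : ({p, q, r} : Finset Track).card ≤ 5 := Finset.card_le_three.trans (by norm_num)
  have h2 : 5 ≤ (({i, j, k} : Finset Track)ᶜ).card := by
    have := Finset.card_le_three (a := i) (b := j) (c := k)
    rw [Finset.card_compl, Fintype.card_fin]
    omega
  obtain ⟨A, hA1, hA2, hA3⟩ := Finset.exists_subsuperset_card_eq
    (Finset.subset_compl_iff_disjoint_right.2 h) h1 h2
  have hB : ({i, j, k} : Finset Track) ⊆ Aᶜ := Finset.subset_compl_comm.1 hA2
  refine C.comm A Aᶜ disjoint_compl_right _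
    (ψ.mem A hA3.ge p (hA1 (by simp)) q (hA1 (by simp)) r (hA1 (by simp))) _
    (χ.mem Aᶜ ?_ i (hB (by simp)) j (hB (by simp)) k (hB (by simp)))
  rw [Finset.card_compl, Fintype.card_fin, hA3]
  norm_num

lemma cond_orth_of_conj {ψ ω : Cond C} {g : Track → Track → Track → Γ}
    (h1 : ∀ p q r i j k, Commute (ω.val p q r) (g i j k))
    (h2 : ∀ p q r i j k, D3 p q r → D3 i j k →
      g p q r * ψ.val i j k * (g p q r)⁻¹ = ψ.val (cyc p q r i) (cyc p q r j) (cyc p q r k)) :
    Orth ω ψ := by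
  intro p q r i j k
  by_cases d : D3 i j k
  swap
  · rw [ψ.junk i j k d]; exact Commute.one_right _
  have step : ∀ a b c i j k, D3 a b c → D3 i j k →
      Commute (ω.val p q r) (ψ.val (cyc a b c i) (cyc a b c j) (cyc a b c k)) →
      Commute (ω.val p q r) (ψ.val i j k) := fun a b c i j k d1 d2 hc => by
    have e : ψ.val i j k =
        (g a b c)⁻¹ * ψ.val (cyc a b c i) (cyc a b c j) (cyc a b c k) * g a b c := by
      rw [← h2 a b c i j k d1 d2]; group
    rw [e]
    exact ((h1 p q r a b c).inv_right.mul_right hc).mul_right (h1 p q r a b c)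
  obtain ⟨x, hx⟩ := tri_fresh_list [p, q, r, i, j, k] (by simp)
  obtain ⟨y, hy⟩ := tri_fresh_list [p, q, r, i, j, k, x] (by simp)
  obtain ⟨z, hz⟩ := tri_fresh_list [p, q, r, i, j, k, x, y] (by simp)
  obtain ⟨w, hw⟩ := tri_fresh_list [p, q, r, i, j, k, x, y, z] (by simp)
  simp only [List.mem_cons, List.not_mem_nil, or_false, not_or] at hx hy hz hw
  obtain ⟨x1, x2, x3, x4, x5, x6⟩ := hx
  obtain ⟨y1, y2, y3, y4, y5, y6, y7⟩ := hy
  obtain ⟨z1, z2, z3, z4, z5, z6, z7, z8⟩ := hz
  obtain ⟨w1, w2, w3, w4, w5, w6, w7, w8, w9⟩ := hw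
  obtain ⟨d1, d2, d3⟩ := d
  have k1 : D3 i x w := ⟨Ne.symm x4, Ne.symm w4, Ne.symm w7⟩
  have k2 : D3 j y w := ⟨Ne.symm y5, Ne.symm w5, Ne.symm w8⟩
  have k3 : D3 k z w := ⟨Ne.symm z6, Ne.symm w6, Ne.symm w9⟩
  refine step i x w i j k k1 ⟨d1, d2, d3⟩ ?_
  rw [cyc_apply_fst k1, cyc_apply_of_ne d1.symm (Ne.symm x5) (Ne.symm w5),
    cyc_apply_of_ne d2.symm (Ne.symm x6) (Ne.symm w6)]
  refine step j y w x j k k2 ⟨x5, x6, d3⟩ ?_
  rw [cyc_apply_fst k2, cyc_apply_of_ne x5 (Ne.symm y7) (Ne.symm w7),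
    cyc_apply_of_ne d3.symm (Ne.symm y6) (Ne.symm w6)]
  refine step k z w x y k k3 ⟨Ne.symm y7, x6, y6⟩ ?_
  rw [cyc_apply_fst k3, cyc_apply_of_ne x6 (Ne.symm z7) (Ne.symm w7),
    cyc_apply_of_ne y6 (Ne.symm z8) (Ne.symm w8)]
  refine commute_of_disjoint ω ψ ?_
  simp only [Finset.disjoint_insert_right, Finset.disjoint_singleton_right, Finset.mem_insert,
    Finset.mem_singleton, not_or]
  exact ⟨⟨x1, x2, x3⟩, ⟨y1, y2, y3⟩, z1, z2, z3⟩

/-- down-closure: conjugate the triple of `ψ` away from the triple of `ω` by values of `ψ + χ`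
(one point at a time, with fresh points) and use `commute_of_disjoint` -/
lemma orth_of_orth_add {ψ χ ω : Cond C} (h : Orth ψ χ) (h' : Orth ω (add ψ χ)) :
    Orth ω ψ ∧ Orth ω χ := by
  refine ⟨cond_orth_of_conj (g := (add ψ χ).val) h' fun p q r i j k d d' => ?_,
    cond_orth_of_conj (g := (add ψ χ).val) h' fun p q r i j k d d' => ?_⟩
  · rw [add_val h, ← ψ.pre.conj p q r i j k d d', mul_assoc (ψ.val p q r), ← (h i j k p q r).eq]
    group
  · rw [add_val h, ← χ.pre.conj p q r i j k d d', (h p q r p q r).eq, mul_assoc (χ.val p q r),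
      (h p q r i j k).eq]
    group

lemma comm_val {α β γ : Cond C} (h1 : Orth α β) (h2 : Orth α γ) (h3 : Orth β γ)
    {p q r s t : Track} (hd : D5 p q r s t) :
    ⁅(add α β).val p q s, (add α γ).val p r t⁆ ^ 4 = α.val p q r := by
  rw [← α.pre.comm_pow hd, add_val h1, add_val h2]
  congr 1
  have e1 : Commute (β.val p q s) (α.val p r t * γ.val p r t) :=
    (h1 p r t p q s).symm.mul_right (h3 p q s p r t)
  have e2 := (h2 p q s p r t).inv_left.eq
  rw [commutatorElement_def, commutatorElement_def, mul_assoc (α.val p q s), e1.eq]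
  calc α.val p q s * (α.val p r t * γ.val p r t * β.val p q s) * (α.val p q s * β.val p q s)⁻¹ *
        (α.val p r t * γ.val p r t)⁻¹
      = α.val p q s * α.val p r t * (γ.val p r t * (α.val p q s)⁻¹) * (γ.val p r t)⁻¹ *
        (α.val p r t)⁻¹ := by group
    _ = _ := by rw [← e2]; group

end Cond

end Crest.Agent.R189
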