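import Crest.Agent.R189.Cond

/-!
Row 189.  Regularity of the poset of conditions, and the `OMP` instance.
-/

set_option autoImplicit false

namespace Crest.Agent.R189

open Equiv
open scoped commutatorElement

variable {Γ : Type} [Group Γ]

/-- `x` is an `M₁`-component of `g` -/
def SVal (M₁ M₂ : Subgroup Γ) (g x : Γ) : Prop := x ∈ M₁ ∧ x⁻¹ * g ∈ M₂

section split

variable {M₁ M₂ : Subgroup Γ}

lemma SVal.conj_eq (hc : ∀ a ∈ M₁, ∀ b ∈ M₂, Commute a b) {g x m : Γ} (h : SVal M₁ M₂ g x)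
    (hm : m ∈ M₁) : g * m * g⁻¹ = x * m * x⁻¹ := by
  have h1 := (hc m hm _ h.2).eq
  calc g * m * g⁻¹ = x * ((x⁻¹ * g) * m) * g⁻¹ := by group
    _ = x * (m * (x⁻¹ * g)) * g⁻¹ := by rw [h1]
    _ = _ := by group

lemma SVal.mul (hc : ∀ a ∈ M₁, ∀ b ∈ M₂, Commute a b) {g x g' y : Γ} (h : SVal M₁ M₂ g x)
    (h' : SVal M₁ M₂ g' y) : SVal M₁ M₂ (g * g') (x * y) := by
  refine ⟨M₁.mul_mem h.1 h'.1, ?_⟩
  have h1 := (hc _ (M₁.inv_mem h'.1) _ h.2).eq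
  have : (x * y)⁻¹ * (g * g') = (x⁻¹ * g) * (y⁻¹ * g') := by
    calc (x * y)⁻¹ * (g * g') = (y⁻¹ * (x⁻¹ * g)) * g' := by group
      _ = ((x⁻¹ * g) * y⁻¹) * g' := by rw [h1]
      _ = _ := by group
  rw [this]
  exact M₂.mul_mem h.2 h'.2

lemma SVal.inv (hc : ∀ a ∈ M₁, ∀ b ∈ M₂, Commute a b) {g x : Γ} (h : SVal M₁ M₂ g x) :
    SVal M₁ M₂ g⁻¹ x⁻¹ := by
  refine ⟨M₁.inv_mem h.1, ?_⟩
  have h1 := (hc _ h.1 _ h.2).eq
  have : x⁻¹⁻¹ * g⁻¹ = (x⁻¹ * g)⁻¹ := by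
    calc x⁻¹⁻¹ * g⁻¹ = x * (x * (x⁻¹ * g))⁻¹ := by group
      _ = x * ((x⁻¹ * g) * x)⁻¹ := by rw [h1]
      _ = _ := by group
  rw [this]
  exact M₂.inv_mem h.2

lemma SVal.pow (hc : ∀ a ∈ M₁, ∀ b ∈ M₂, Commute a b) {g x : Γ} (h : SVal M₁ M₂ g x) (n : ℕ) :
    SVal M₁ M₂ (g ^ n) (x ^ n) := by
  induction n with
  | zero => exact ⟨by simp, by simp⟩
  | succ n ih => rw [pow_succ, pow_succ]; exact ih.mul hc h

lemma SVal.comm (hc : ∀ a ∈ M₁, ∀ b ∈ M₂, Commute a b) {g x g' y : Γ} (h : SVal M₁ M₂ g x)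
    (h' : SVal M₁ M₂ g' y) : SVal M₁ M₂ ⁅g, g'⁆ ⁅x, y⁆ :=
  ((h.mul hc h').mul hc (h.inv hc)).mul hc (h'.inv hc)

lemma SVal.conj (hc : ∀ a ∈ M₁, ∀ b ∈ M₂, Commute a b) {g x g' y : Γ} (h : SVal M₁ M₂ g x)
    (h' : SVal M₁ M₂ g' y) : SVal M₁ M₂ (g * g' * g⁻¹) (g * y * g⁻¹) := by
  rw [h.conj_eq hc h'.1]
  exact (h.mul hc h').mul hc (h.inv hc)

lemma SVal.diff {g x x' : Γ} (h : SVal M₁ M₂ g x) (h' : SVal M₁ M₂ g x') : x⁻¹ * x' ∈ M₂ := by
  have : x⁻¹ * x' = (x⁻¹ * g) * (x'⁻¹ * g)⁻¹ := by group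
  rw [this]
  exact M₂.mul_mem h.2 (M₂.inv_mem h'.2)

lemma SVal.comm_congr (hc : ∀ a ∈ M₁, ∀ b ∈ M₂, Commute a b) {g x x' g' y y' : Γ}
    (h1 : SVal M₁ M₂ g x) (h1' : SVal M₁ M₂ g x') (h2 : SVal M₁ M₂ g' y) (h2' : SVal M₁ M₂ g' y') :
    ⁅x, y⁆ = ⁅x', y'⁆ := by
  have a1 := (hc _ h2'.1 _ (h1.diff h1')).eq
  have a2 := (hc _ (M₁.inv_mem h1.1) _ (h2.diff h2')).eq
  simp only [commutatorElement_def]
  calc x * y * x⁻¹ * y⁻¹ = x * y * (x⁻¹ * (y⁻¹ * y')) * y'⁻¹ := by group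
    _ = x * y * ((y⁻¹ * y') * x⁻¹) * y'⁻¹ := by rw [a2]
    _ = x * (y' * (x⁻¹ * x')) * x'⁻¹ * y'⁻¹ := by group
    _ = x * ((x⁻¹ * x') * y') * x'⁻¹ * y'⁻¹ := by rw [a1]
    _ = _ := by group

lemma split_comm_of_central {a b w z z' : Γ} (ha : a * w * a⁻¹ = w * z) (hb : b * w * b⁻¹ = w * z')
    (h1 : Commute a z) (h2 : Commute b z) (h3 : Commute a z') (h4 : Commute b z')
    (h5 : Commute z z') : Commute ⁅a, b⁆ w := by
  have e1 : (a * b) * w * (a * b)⁻¹ = w * (z * z') := by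
    calc (a * b) * w * (a * b)⁻¹ = a * (b * w * b⁻¹) * a⁻¹ := by group
      _ = a * w * (z' * a⁻¹) := by rw [hb]; group
      _ = a * w * (a⁻¹ * z') := by rw [h3.inv_left.eq]
      _ = (a * w * a⁻¹) * z' := by group
      _ = _ := by rw [ha]; group
  have e2 : (b * a) * w * (b * a)⁻¹ = w * (z * z') := by
    calc (b * a) * w * (b * a)⁻¹ = b * (a * w * a⁻¹) * b⁻¹ := by group
      _ = b * w * (z * b⁻¹) := by rw [ha]; group
      _ = b * w * (b⁻¹ * z) := by rw [h2.inv_left.eq]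
      _ = (b * w * b⁻¹) * z := by group
      _ = _ := by rw [hb, h5.eq]; group
  have c1 : Commute (a * b) (z * z') := (h1.mul_right h3).mul_left (h2.mul_right h4)
  have c2 : Commute (b * a) (z * z') := (h2.mul_right h4).mul_left (h1.mul_right h3)
  generalize z * z' = ζ at *
  have e3 : (b * a)⁻¹ * w * (b * a) = w * ζ⁻¹ := by
    calc (b * a)⁻¹ * w * (b * a) = (b * a)⁻¹ * (w * ζ) * (ζ⁻¹ * (b * a)) := by group
      _ = (b * a)⁻¹ * ((b * a) * w * (b * a)⁻¹) * ((b * a) * ζ⁻¹) := by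
        rw [e2, c2.inv_right.eq]
      _ = _ := by group
  have e4 : ⁅a, b⁆ * w * ⁅a, b⁆⁻¹ = w := by
    calc ⁅a, b⁆ * w * ⁅a, b⁆⁻¹ = (a * b) * ((b * a)⁻¹ * w * (b * a)) * (a * b)⁻¹ := by
          rw [commutatorElement_def]; group
      _ = (a * b) * w * (ζ⁻¹ * (a * b)⁻¹) := by rw [e3]; group
      _ = (a * b) * w * ((a * b)⁻¹ * ζ⁻¹) := by rw [c1.inv_inv.eq]
      _ = ((a * b) * w * (a * b)⁻¹) * ζ⁻¹ := by group
      _ = w := by rw [e1]; group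
  exact mul_inv_eq_iff_eq_mul.1 e4

lemma SVal.commute_comm (hc : ∀ a ∈ M₁, ∀ b ∈ M₂, Commute a b) {g x g₁ x₁ g₂ x₂ : Γ}
    (h : SVal M₁ M₂ g x) (h1 : SVal M₁ M₂ g₁ x₁) (h2 : SVal M₁ M₂ g₂ x₂)
    (c1 : g₁ * g * g₁⁻¹ = g) (c2 : g₂ * g * g₂⁻¹ = g) : Commute ⁅g₁, g₂⁆ x := by
  have a1 := h1.conj hc h
  have a2 := h2.conj hc h
  rw [c1, h1.conj_eq hc h.1] at a1
  rw [c2, h2.conj_eq hc h.1] at a2
  have z1 := h.diff a1
  have z2 := h.diff a2
  have c := split_comm_of_central (a := x₁) (b := x₂) (w := x) (z := x⁻¹ * (x₁ * x * x₁⁻¹))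
    (z' := x⁻¹ * (x₂ * x * x₂⁻¹)) (by group) (by group) (hc _ h1.1 _ z1) (hc _ h2.1 _ z1)
    (hc _ h1.1 _ z2) (hc _ h2.1 _ z2) (hc _ (M₁.mul_mem (M₁.inv_mem h.1) a1.1) _ z2)
  have e := (h1.comm hc h2).conj_eq hc h.1
  rw [c.eq, mul_inv_cancel_right] at e
  exact mul_inv_eq_iff_eq_mul.1 e

lemma split_fresh (l : List Track) (h : l.length < 30) : ∃ a, a ∉ l :=
  tri_fresh_list l (by simpa using h)

lemma split_D5 {p q r : Track} (d : D3 p q r) : ∃ s t, D5 p q r s t := by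
  obtain ⟨s, hs⟩ := split_fresh [p, q, r] (by simp)
  obtain ⟨t, ht⟩ := split_fresh [p, q, r, s] (by simp)
  simp only [List.mem_cons, List.not_mem_nil, or_false, not_or] at hs ht
  exact ⟨s, t, ⟨d, Ne.symm hs.1, Ne.symm hs.2.1, Ne.symm hs.2.2⟩, Ne.symm ht.1, Ne.symm ht.2.1,
    Ne.symm ht.2.2.1, Ne.symm ht.2.2.2⟩

lemma split_D5_map {f : Track → Track} (hf : Function.Injective f) {p q r s t : Track}
    (d : D5 p q r s t) : D5 (f p) (f q) (f r) (f s) (f t) := by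
  obtain ⟨⟨d3, h4, h5, h6⟩, h7, h8, h9, h10⟩ := d
  exact ⟨⟨d3.map hf, hf.ne h4, hf.ne h5, hf.ne h6⟩, hf.ne h7, hf.ne h8, hf.ne h9, hf.ne h10⟩

lemma split_D5_l {p q r s t : Track} (d : D5 p q r s t) : D3 p q s := ⟨d.1.1.1, d.1.2.1, d.1.2.2.1⟩
lemma split_D5_r {p q r s t : Track} (d : D5 p q r s t) : D3 p r t := ⟨d.1.1.2.1, d.2.1, d.2.2.2.1⟩

variable {α : Track → Track → Track → Γ}

/-- a component of `α p q r` commutes with `α i j k` for a disjoint triple -/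
lemma split_commute (h : Pre α) (hc : ∀ a ∈ M₁, ∀ b ∈ M₂, Commute a b)
    (hx : ∀ p q r, D3 p q r → ∃ x, SVal M₁ M₂ (α p q r) x) {p q r i j k : Track} (d : D3 p q r)
    (d' : D3 i j k) (hp : p ∉ [i, j, k]) (hq : q ∉ [i, j, k]) (hr : r ∉ [i, j, k]) {w : Γ}
    (hw : SVal M₁ M₂ (α p q r) w) : α i j k * w * (α i j k)⁻¹ = w := by
  obtain ⟨s, hs⟩ := split_fresh [p, q, r, i, j, k] (by simp)
  obtain ⟨t, ht⟩ := split_fresh [p, q, r, i, j, k, s] (by simp)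
  simp only [List.mem_cons, List.not_mem_nil, or_false, not_or] at hs ht hp hq hr
  obtain ⟨s1, s2, s3, s4, s5, s6⟩ := hs
  obtain ⟨t1, t2, t3, t4, t5, t6, t7⟩ := ht
  have d5 : D5 i j k s t := ⟨⟨d', Ne.symm s4, Ne.symm s5, Ne.symm s6⟩, Ne.symm t4, Ne.symm t5,
    Ne.symm t6, Ne.symm t7⟩
  obtain ⟨x₁, h1⟩ := hx _ _ _ (split_D5_l d5)
  obtain ⟨x₂, h2⟩ := hx _ _ _ (split_D5_r d5)
  have c := hw.commute_comm hc h1 h2 (by
    rw [h.conj _ _ _ _ _ _ (split_D5_l d5) d, cyc_apply_of_ne hp.1 hp.2.1 (Ne.symm s1),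
      cyc_apply_of_ne hq.1 hq.2.1 (Ne.symm s2), cyc_apply_of_ne hr.1 hr.2.1 (Ne.symm s3)]) (by
    rw [h.conj _ _ _ _ _ _ (split_D5_r d5) d, cyc_apply_of_ne hp.1 hp.2.2 (Ne.symm t1),
      cyc_apply_of_ne hq.1 hq.2.2 (Ne.symm t2), cyc_apply_of_ne hr.1 hr.2.2 (Ne.symm t3)])
  rw [← h.comm_pow d5, (c.pow_left 4).eq, mul_inv_cancel_right]

lemma split_conj_comm (g x y : Γ) :
    g * ⁅x, y⁆ ^ 4 * g⁻¹ = ⁅g * x * g⁻¹, g * y * g⁻¹⁆ ^ 4 := by
  rw [← conj_pow, conjugate_commutatorElement]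

lemma split_exists_W (h : Pre α) (hc : ∀ a ∈ M₁, ∀ b ∈ M₂, Commute a b)
    (hx : ∀ p q r, D3 p q r → ∃ x, SVal M₁ M₂ (α p q r) x) :
    ∃ W : Track → Track → Track → Γ, ∀ p q r s t, D5 p q r s t → ∀ x y,
      SVal M₁ M₂ (α p q s) x → SVal M₁ M₂ (α p r t) y → W p q r = ⁅x, y⁆ ^ 4 := by
  choose! x hx' using hx
  have hx : ∀ p q r, D3 p q r → ∃ x, SVal M₁ M₂ (α p q r) x := fun p q r d => ⟨_, hx' p q r d⟩
  have hval : ∀ p q r s t, D5 p q r s t → SVal M₁ M₂ (α p q r) (⁅x p q s, x p r t⁆ ^ 4) := by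
    intro p q r s t d
    rw [← h.comm_pow d]
    exact ((hx' _ _ _ (split_D5_l d)).comm hc (hx' _ _ _ (split_D5_r d))).pow hc 4
  have hmove : ∀ p q r s t i j k, D5 p q r s t → D3 i j k → p ∉ [i, j, k] → q ∉ [i, j, k] →
      r ∉ [i, j, k] → ⁅x p q s, x p r t⁆ ^ 4 = ⁅x p q (cyc i j k s), x p r (cyc i j k t)⁆ ^ 4 := by
    intro p q r s t i j k d d' hp hq hr
    rw [← split_commute h hc hx d.1.1 d' hp hq hr (hval p q r s t d), split_conj_comm]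
    simp only [List.mem_cons, List.not_mem_nil, or_false, not_or] at hp hq hr
    have d2 := split_D5_map (cyc i j k).injective d
    have a1 := (hx' _ _ _ d').conj hc (hx' _ _ _ (split_D5_l d))
    have a2 := (hx' _ _ _ d').conj hc (hx' _ _ _ (split_D5_r d))
    rw [h.conj _ _ _ _ _ _ d' (split_D5_l d)] at a1
    rw [h.conj _ _ _ _ _ _ d' (split_D5_r d)] at a2
    rw [cyc_apply_of_ne hp.1 hp.2.1 hp.2.2, cyc_apply_of_ne hq.1 hq.2.1 hq.2.2] at a1 d2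
    rw [cyc_apply_of_ne hp.1 hp.2.1 hp.2.2, cyc_apply_of_ne hr.1 hr.2.1 hr.2.2] at a2
    rw [cyc_apply_of_ne hr.1 hr.2.1 hr.2.2] at d2
    rw [a1.comm_congr hc (hx' _ _ _ (split_D5_l d2)) a2 (hx' _ _ _ (split_D5_r d2))]
  have hs : ∀ p q r s s' t, D5 p q r s t → D5 p q r s' t →
      ⁅x p q s, x p r t⁆ ^ 4 = ⁅x p q s', x p r t⁆ ^ 4 := by
    intro p q r s s' t d d'
    by_cases e : s = s'
    · rw [e]
    obtain ⟨u, hu⟩ := split_fresh [p, q, r, s, s', t] (by simp)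
    simp only [List.mem_cons, List.not_mem_nil, or_false, not_or] at hu
    obtain ⟨u1, u2, u3, u4, u5, u6⟩ := hu
    have d3 : D3 s s' u := ⟨e, Ne.symm u4, Ne.symm u5⟩
    have := hmove p q r s t s s' u d d3 (by simp [d.1.2.1, d'.1.2.1, Ne.symm u1])
      (by simp [d.1.2.2.1, d'.1.2.2.1, Ne.symm u2]) (by simp [d.1.2.2.2, d'.1.2.2.2, Ne.symm u3])
    rwa [cyc_apply_fst d3, cyc_apply_of_ne d.2.2.2.2.symm d'.2.2.2.2.symm (Ne.symm u6)] at this
  have ht : ∀ p q r s t t', D5 p q r s t → D5 p q r s t' →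
      ⁅x p q s, x p r t⁆ ^ 4 = ⁅x p q s, x p r t'⁆ ^ 4 := by
    intro p q r s t t' d d'
    by_cases e : t = t'
    · rw [e]
    obtain ⟨u, hu⟩ := split_fresh [p, q, r, s, t, t'] (by simp)
    simp only [List.mem_cons, List.not_mem_nil, or_false, not_or] at hu
    obtain ⟨u1, u2, u3, u4, u5, u6⟩ := hu
    have d3 : D3 t t' u := ⟨e, Ne.symm u5, Ne.symm u6⟩
    have := hmove p q r s t t t' u d d3 (by simp [d.2.1, d'.2.1, Ne.symm u1])
      (by simp [d.2.2.1, d'.2.2.1, Ne.symm u2]) (by simp [d.2.2.2.1, d'.2.2.2.1, Ne.symm u3])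
    rwa [cyc_apply_fst d3, cyc_apply_of_ne d.2.2.2.2 d'.2.2.2.2 (Ne.symm u4)] at this
  have hst : ∀ p q r s t s' t', D5 p q r s t → D5 p q r s' t' →
      ⁅x p q s, x p r t⁆ ^ 4 = ⁅x p q s', x p r t'⁆ ^ 4 := by
    intro p q r s t s' t' d d'
    obtain ⟨u, hu⟩ := split_fresh [p, q, r, t, t'] (by simp)
    simp only [List.mem_cons, List.not_mem_nil, or_false, not_or] at hu
    obtain ⟨u1, u2, u3, u4, u5⟩ := hu
    have d1 : D5 p q r u t := ⟨⟨d.1.1, Ne.symm u1, Ne.symm u2, Ne.symm u3⟩, d.2.1, d.2.2.1,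
      d.2.2.2.1, u4⟩
    have d2 : D5 p q r u t' := ⟨d1.1, d'.2.1, d'.2.2.1, d'.2.2.2.1, u5⟩
    rw [hs p q r s u t d d1, ht p q r u t t' d1 d2, hs p q r u s' t' d2 d']
  choose! S T hST using fun p q r (d : D3 p q r) => split_D5 d
  refine ⟨fun p q r => ⁅x p q (S p q r), x p r (T p q r)⁆ ^ 4, fun p q r s t d a b ha hb => ?_⟩
  show ⁅x p q (S p q r), x p r (T p q r)⁆ ^ 4 = _
  rw [hst p q r _ _ s t (hST p q r d.1.1) d,
    (hx' _ _ _ (split_D5_l d)).comm_congr hc ha (hx' _ _ _ (split_D5_r d)) hb]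

end split

/-- Splitting a three-cycle system along a central product.  Plan: call `x ∈ M₁` valid for a triple
`a` if `x⁻¹ * α a ∈ M₂`; valid elements differ by `Z = M₁ ⊓ M₂` (central in `M₁ M₂`), so
`w p q r s t = ⁅x_{pqs}, x_{prt}⁆ ^ 4` does not depend on the choices and is valid for `p q r`
(`Pre.comm_pow`).  Conjugation by `α c` (= conjugation by any valid `x_c` on `M₁`) permutes the `w`.
For `c` disjoint from `p q r`, `g ↦ g w g⁻¹ w⁻¹` is a homomorphism from `⟨α c⟩` to `Z`, trivial since every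
`α c` is a power of a commutator; hence `w` does not depend on `s t`.  `rot`: conjugate by `α p q r`.
`z₀ = w p r q * w p q r` and `z₁ = (w p q r) ^ 3` are central constants with `z₀ ^ 3 = z₁ ^ 2`;
`α₁ = w * z₀ * z₁⁻¹` is a `Pre` system, and `Pre.comm_pow` shows `α₁ = w`. -/
theorem Pre.split {α : Track → Track → Track → Γ} (h : Pre α) (M₁ M₂ : Subgroup Γ)
    (hc : ∀ a ∈ M₁, ∀ b ∈ M₂, Commute a b)
    (hx : ∀ p q r, D3 p q r → ∃ x ∈ M₁, x⁻¹ * α p q r ∈ M₂) :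
    ∃ α₁ : Track → Track → Track → Γ, Pre α₁ ∧
      (∀ p q r, D3 p q r → α₁ p q r ∈ M₁ ∧ (α₁ p q r)⁻¹ * α p q r ∈ M₂) ∧
      ∀ p q r s t, D5 p q r s t → ∀ x ∈ M₁, ∀ y ∈ M₁, x⁻¹ * α p q s ∈ M₂ → y⁻¹ * α p r t ∈ M₂ →
        α₁ p q r = ⁅x, y⁆ ^ 4 := by
  have hx' : ∀ p q r, D3 p q r → ∃ x, SVal M₁ M₂ (α p q r) x := hx
  obtain ⟨W, hW⟩ := split_exists_W h hc hx'
  have hval : ∀ p q r, D3 p q r → SVal M₁ M₂ (α p q r) (W p q r) := by
    intro p q r d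
    obtain ⟨s, t, d5⟩ := split_D5 d
    obtain ⟨x, h1⟩ := hx' _ _ _ (split_D5_l d5)
    obtain ⟨y, h2⟩ := hx' _ _ _ (split_D5_r d5)
    rw [hW p q r s t d5 x y h1 h2, ← h.comm_pow d5]
    exact (h1.comm hc h2).pow hc 4
  have hconj : ∀ p q r i j k, D3 p q r → D3 i j k →
      α p q r * W i j k * (α p q r)⁻¹ = W (cyc p q r i) (cyc p q r j) (cyc p q r k) := by
    intro p q r i j k d d'
    obtain ⟨s, t, d5⟩ := split_D5 d'
    have h1 := hval _ _ _ (split_D5_l d5)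
    have h2 := hval _ _ _ (split_D5_r d5)
    have a1 := (hval _ _ _ d).conj hc h1
    have a2 := (hval _ _ _ d).conj hc h2
    rw [h.conj _ _ _ _ _ _ d (split_D5_l d5)] at a1
    rw [h.conj _ _ _ _ _ _ d (split_D5_r d5)] at a2
    rw [hW i j k s t d5 _ _ h1 h2, split_conj_comm,
      hW _ _ _ _ _ (split_D5_map (cyc p q r).injective d5) _ _ a1 a2]
  have hrot : ∀ p q r, D3 p q r → W p q r = W q r p := by
    intro p q r d
    have := hconj p q r p q r d d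
    rwa [(hval _ _ _ d).conj_eq hc (hval _ _ _ d).1, mul_inv_cancel_right, cyc_apply_fst d,
      cyc_apply_snd d, cyc_apply_thd d] at this
  have hform : ∀ p q r s t, D5 p q r s t → W p q r = (W q r t * (W p r t)⁻¹) ^ 4 := by
    intro p q r s t d
    have h1 := hval _ _ _ (split_D5_l d)
    have h2 := hval _ _ _ (split_D5_r d)
    rw [hW p q r s t d _ _ h1 h2, commutatorElement_def, ← h1.conj_eq hc h2.1,
      hconj _ _ _ _ _ _ (split_D5_l d) (split_D5_r d), cyc_apply_fst (split_D5_l d),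
      cyc_apply_of_ne d.1.1.2.1.symm d.1.1.2.2.symm d.1.2.2.2,
      cyc_apply_of_ne d.2.1.symm d.2.2.1.symm d.2.2.2.2.symm]
  have hinv : ∀ p q r, D3 p q r → W p r q = (W p q r)⁻¹ := by
    intro p q r d
    obtain ⟨s, t, d5⟩ := split_D5 d
    have d5' : D5 q p r s t := ⟨⟨⟨d.1.symm, d.2.2, d.2.1⟩, d5.1.2.2.1, d5.1.2.1, d5.1.2.2.2⟩,
      d5.2.2.1, d5.2.1, d5.2.2.2.1, d5.2.2.2.2⟩
    rw [← hrot q p r d5'.1.1, hform q p r s t d5', hform p q r s t d5, ← inv_pow, mul_inv_rev,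
      inv_inv]
  have hz : ∀ p q r, D3 p q r → SVal M₁ M₂ 1 (W p q r ^ 3) := by
    intro p q r d
    rw [← h.cube p q r d]
    exact (hval p q r d).pow hc 3
  have hz2 : ∀ p q r, D3 p q r → W p q r ^ 3 ∈ M₂ := by
    intro p q r d
    have := (hz p q r d).2
    rwa [mul_one, inv_mem_iff] at this
  have hzc : ∀ p q r i j k, D3 p q r → D3 i j k →
      W i j k ^ 3 = W (cyc p q r i) (cyc p q r j) (cyc p q r k) ^ 3 := by
    intro p q r i j k d d'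
    rw [← hconj p q r i j k d d', conj_pow, (hval _ _ _ d).conj_eq hc (hz _ _ _ d').1,
      (hc _ (hval _ _ _ d).1 _ (hz2 _ _ _ d')).eq, mul_inv_cancel_right]
  have hz6 : ∀ p q r, D3 p q r → W p q r ^ 3 * W p q r ^ 3 = 1 := by
    intro p q r d
    obtain ⟨s, t, d5⟩ := split_D5 d
    obtain ⟨⟨⟨h1, h2, h3⟩, h4, h5, h6⟩, h7, h8, h9, h10⟩ := d5
    have d1 : D3 q r s := ⟨h3, h5, h6⟩
    have d2 : D3 s q t := ⟨h5.symm, h10, h8⟩
    have e1 := hzc q r s p q r d1 d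
    rw [cyc_apply_fst d1, cyc_apply_snd d1, cyc_apply_of_ne h1 h2 h4] at e1
    have e2 := hzc s q t p r s d2 ⟨h2, h4, h6⟩
    rw [cyc_apply_fst d2, cyc_apply_of_ne h4 h1 h7, cyc_apply_of_ne h6 h3.symm h9,
      hinv p q r d, ← e1, inv_pow] at e2
    exact mul_eq_one_iff_eq_inv.2 e2
  have hval4 : ∀ p q r, D3 p q r → SVal M₁ M₂ (α p q r) (W p q r ^ 4) := by
    intro p q r d
    have := (hz p q r d).mul hc (hval p q r d)
    rwa [one_mul, ← pow_succ] at this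
  have hpre : Pre fun p q r => W p q r ^ 4 := by
    refine ⟨fun p q r d => ?_, fun p q r d => ?_, fun p q r d => ?_, fun p q r i j k d d' => ?_⟩
    · rw [hrot p q r d]
    · rw [hinv p q r d, inv_pow]
    · have := hz6 p q r d
      calc (W p q r ^ 4) ^ 3 = (W p q r ^ 3 * W p q r ^ 3) * (W p q r ^ 3 * W p q r ^ 3) := by group
        _ = 1 := by rw [this, one_mul]
    · rw [← (hval4 _ _ _ d).conj_eq hc (hval4 _ _ _ d').1, ← hconj p q r i j k d d', conj_pow]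
  refine ⟨fun p q r => W p q r ^ 4, hpre, hval4, fun p q r s t d x hx1 y hy1 hx2 hy2 => ?_⟩
  refine (hpre.comm_pow d).symm.trans ?_
  rw [(hval4 _ _ _ (split_D5_l d)).comm_congr hc ⟨hx1, hx2⟩
    (hval4 _ _ _ (split_D5_r d)) ⟨hy1, hy2⟩]

namespace Cond

variable {C : CondData Γ}

lemma reg_orth_symm {x y : Cond C} (h : Orth x y) : Orth y x :=
  fun p q r i j k => (h i j k p q r).symm

lemma reg_orth_add {x y w : Cond C} (h : Orth x y) (h1 : Orth w x) (h2 : Orth w y) :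
    Orth w (add x y) := fun p q r i j k => by
  rw [add_val h]
  exact (h1 p q r i j k).mul_right (h2 p q r i j k)

lemma reg_orth_of {e x y : Cond C} (h1 : Orth x (compl e)) (h2 : Orth y e) : Orth x y := by
  have h3 : Orth y (compl (add y e)) :=
    reg_orth_symm (orth_of_orth_add h2 (reg_orth_symm (orth_compl (add y e)))).1
  have h4 : compl e = add y (compl (add y e)) := by
    ext p q r
    rw [add_val h3]
    show (e.val p q r)⁻¹ * C.ι p q r = y.val p q r * (((add y e).val p q r)⁻¹ * C.ι p q r)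
    rw [add_val h2, (h2 p q r p q r).eq]
    group
  rw [h4] at h1
  exact (orth_of_orth_add h3 h1).1

lemma reg_D5_mem {A : Finset Track} (hA : 5 ≤ A.card) {p q r : Track} (d : D3 p q r) :
    ∃ s ∈ A, ∃ t ∈ A, D5 p q r s t := by
  obtain ⟨s, hs, hs'⟩ := Finset.exists_mem_notMem_of_card_lt_card (s := {p, q, r}) (t := A)
    (lt_of_le_of_lt Finset.card_le_three (by omega))
  obtain ⟨t, ht, ht'⟩ := Finset.exists_mem_notMem_of_card_lt_card (s := {p, q, r, s}) (t := A)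
    (lt_of_le_of_lt Finset.card_le_four (by omega))
  simp only [Finset.mem_insert, Finset.mem_singleton, not_or] at hs' ht'
  exact ⟨s, hs, t, ht, ⟨d, Ne.symm hs'.1, Ne.symm hs'.2.1, Ne.symm hs'.2.2⟩, Ne.symm ht'.1,
    Ne.symm ht'.2.1, Ne.symm ht'.2.2.1, Ne.symm ht'.2.2.2⟩

lemma reg_half (ψ χ α : Cond C) (M₁ M₂ : Subgroup Γ) (hc : ∀ a ∈ M₁, ∀ b ∈ M₂, Commute a b)
    (hα : ∀ p q r s t, D5 p q r s t →
      SVal M₁ M₂ (α.val p q r) (⁅ψ.val p q s, χ.val p r t⁆ ^ 4)) :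
    ∃ α₁ : Cond C, (∀ p q r, α₁.val p q r ∈ M₁) ∧
      (∀ p q r, D3 p q r → SVal M₁ M₂ (α.val p q r) (α₁.val p q r)) ∧
      ∀ p q r s t, D5 p q r s t → ∀ x y, SVal M₁ M₂ (α.val p q s) x → SVal M₁ M₂ (α.val p r t) y →
        α₁.val p q r = ⁅x, y⁆ ^ 4 := by
  classical
  obtain ⟨a, ha1, ha2, ha3⟩ := α.pre.split M₁ M₂ hc fun p q r d => by
    obtain ⟨s, t, d5⟩ := split_D5 d
    exact ⟨_, (hα p q r s t d5).1, (hα p q r s t d5).2⟩
  have hf : ∀ p q r s t, D5 p q r s t → a p q r =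
      ⁅⁅ψ.val p q r, χ.val p s t⁆ ^ 4, ⁅ψ.val p r q, χ.val p t s⁆ ^ 4⁆ ^ 4 := by
    intro p q r s t d
    obtain ⟨⟨⟨h1, h2, h3⟩, h4, h5, h6⟩, h7, h8, h9, h10⟩ := id d
    have b1 := hα p q s r t ⟨⟨⟨h1, h4, h5⟩, h2, h3, h6.symm⟩, h7, h8, h10, h9⟩
    have b2 := hα p r t q s ⟨⟨⟨h2, h7, h9⟩, h1, h3.symm, h8.symm⟩, h4, h6, h10.symm, h5⟩
    exact ha3 p q r s t d _ b1.1 _ b2.1 b1.2 b2.2
  refine ⟨⟨fun p q r => if D3 p q r then a p q r else 1, fun p q r d => if_neg d,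
    ⟨fun p q r d => ?_, fun p q r d => ?_, fun p q r d => ?_, fun p q r i j k d d' => ?_⟩,
    fun p q r i j k d d' => ?_, fun A hA p hp q hq r hr => ?_⟩, fun p q r => ?_,
    fun p q r d => ?_, fun p q r s t d x y hx hy => ?_⟩
  · rw [if_pos d, if_pos (show D3 q r p from ⟨d.2.2, d.1.symm, d.2.1.symm⟩), ha1.rot p q r d]
  · rw [if_pos d, if_pos (show D3 p r q from ⟨d.2.1, d.1, d.2.2.symm⟩), ha1.inv p q r d]
  · rw [if_pos d, ha1.cube p q r d]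
  · rw [if_pos d, if_pos d', if_pos (d'.map (cyc p q r).injective), ha1.conj p q r i j k d d']
  · obtain ⟨s, t, d5⟩ := split_D5 d'
    obtain ⟨⟨⟨h1, h2, h3⟩, h4, h5, h6⟩, h7, h8, h9, h10⟩ := id d5
    rw [if_pos d', if_pos (d'.map (cyc p q r).injective), hf i j k s t d5,
      hf _ _ _ _ _ (split_D5_map (cyc p q r).injective d5), split_conj_comm, split_conj_comm,
      split_conj_comm, ψ.eqv p q r i j k d d', χ.eqv p q r i s t d ⟨h4, h7, h10⟩,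
      ψ.eqv p q r i k j d ⟨h2, h1, h3.symm⟩, χ.eqv p q r i t s d ⟨h7, h4, h10.symm⟩]
  · by_cases d : D3 p q r
    · obtain ⟨s, hs, t, ht, d5⟩ := reg_D5_mem hA d
      rw [if_pos d, hf p q r s t d5]
      have hcm : ∀ x ∈ C.Lc A, ∀ y ∈ C.Lc A, ⁅x, y⁆ ^ 4 ∈ C.Lc A := fun x hx y hy =>
        (C.Lc A).pow_mem ((C.Lc A).mul_mem ((C.Lc A).mul_mem ((C.Lc A).mul_mem hx hy)
          ((C.Lc A).inv_mem hx)) ((C.Lc A).inv_mem hy)) 4
      exact hcm _ (hcm _ (ψ.mem A hA p hp q hq r hr) _ (χ.mem A hA p hp s hs t ht)) _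
        (hcm _ (ψ.mem A hA p hp r hr q hq) _ (χ.mem A hA p hp t ht s hs))
    · rw [if_neg d]
      exact Subgroup.one_mem _
  · show (if D3 p q r then a p q r else 1) ∈ M₁
    by_cases d : D3 p q r
    · rw [if_pos d]
      exact (ha2 p q r d).1
    · rw [if_neg d]
      exact Subgroup.one_mem _
  · show SVal M₁ M₂ _ (if D3 p q r then a p q r else 1)
    rw [if_pos d]
    exact ha2 p q r d
  · show (if D3 p q r then a p q r else 1) = _
    rw [if_pos d.1.1]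
    exact ha3 p q r s t d x hx.1 y hy.1 hx.2 hy.2

/-- the subgroup generated by the values of two conditions -/
def regM (ψ χ : Cond C) : Subgroup Γ :=
  Subgroup.closure {g | ∃ p q r, g = ψ.val p q r ∨ g = χ.val p q r}

lemma regM_left (ψ χ : Cond C) (p q r : Track) : ψ.val p q r ∈ regM ψ χ :=
  Subgroup.subset_closure ⟨p, q, r, Or.inl rfl⟩

lemma regM_right (ψ χ : Cond C) (p q r : Track) : χ.val p q r ∈ regM ψ χ :=
  Subgroup.subset_closure ⟨p, q, r, Or.inr rfl⟩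

lemma regM_comm {ψ χ : Cond C} {b : Γ} (h1 : ∀ p q r, Commute (ψ.val p q r) b)
    (h2 : ∀ p q r, Commute (χ.val p q r) b) : ∀ a ∈ regM ψ χ, Commute a b := by
  intro a ha
  induction ha using Subgroup.closure_induction with
  | mem x hx =>
    obtain ⟨p, q, r, rfl | rfl⟩ := hx
    · exact h1 p q r
    · exact h2 p q r
  | one => exact Commute.one_left b
  | mul x y _ _ hx hy => exact hx.mul_left hy
  | inv x _ hx => exact hx.inv_left

lemma reg_comm_mul {x y u v : Γ} (h1 : Commute x u) (h2 : Commute x v) (h3 : Commute y u)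
    (h4 : Commute y v) : ⁅x * u, y * v⁆ ^ 4 = ⁅x, y⁆ ^ 4 * ⁅u, v⁆ ^ 4 := by
  have c : ∀ w, Commute x w → Commute y w → Commute ⁅x, y⁆ w := fun w a b =>
    ((a.mul_left b).mul_left a.inv_left).mul_left b.inv_left
  have c1 : Commute ⁅x, y⁆ ⁅u, v⁆ :=
    (((c u h1 h3).mul_right (c v h2 h4)).mul_right (c u h1 h3).inv_right).mul_right
      (c v h2 h4).inv_right
  rw [← c1.mul_pow]
  congr 1
  have c2 : Commute (x⁻¹ * y⁻¹) (u * v * u⁻¹) :=
    ((h1.mul_right h2).mul_right h1.inv_right).inv_left.mul_left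
      ((h3.mul_right h4).mul_right h3.inv_right).inv_left
  simp only [commutatorElement_def]
  calc x * u * (y * v) * (x * u)⁻¹ * (y * v)⁻¹
      = x * (u * y) * v * u⁻¹ * x⁻¹ * (v⁻¹ * y⁻¹) := by group
    _ = x * (y * u) * v * u⁻¹ * x⁻¹ * (y⁻¹ * v⁻¹) := by rw [h3.eq, h4.inv_inv.eq]
    _ = x * y * ((u * v * u⁻¹) * (x⁻¹ * y⁻¹)) * v⁻¹ := by group
    _ = x * y * ((x⁻¹ * y⁻¹) * (u * v * u⁻¹)) * v⁻¹ := by rw [c2.eq]
    _ = _ := by group

/-- Plan: `M₁ = closure (values of ψ₁, χ₁)`, `M₂ = closure (values of ψ₂, χ₂)` commute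
(`orth_of_orth_add`: `x ⊥ compl e`, `y ⊥ e` give `x ⊥ y` because `compl e = y + compl (y + e)`);
`α p q r = ⁅ψ₁ p q s, χ₁ p r t⁆ ^ 4 * ⁅ψ₂ p q s, χ₂ p r t⁆ ^ 4` (`comm_val`); apply `Pre.split` twice;
`α = α₁ α₂` since `α p q r = ⁅x y, x' y'⁆ ^ 4`; `eqv` and `mem` from the commutator formula. -/
theorem reg (e ψ₁ ψ₂ χ₁ χ₂ α β γ : Cond C) (h1 : Orth ψ₁ (compl e)) (h2 : Orth χ₁ (compl e))
    (h3 : Orth ψ₂ e) (h4 : Orth χ₂ e) (h5 : Orth ψ₁ ψ₂) (h6 : Orth χ₁ χ₂) (h7 : Orth α β)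
    (h8 : Orth α γ) (h9 : Orth β γ) (e1 : add ψ₁ ψ₂ = add α β) (e2 : add χ₁ χ₂ = add α γ) :
    ∃ α₁ α₂, Orth α₁ (compl e) ∧ Orth α₂ e ∧ Orth α₁ α₂ ∧ α = add α₁ α₂ := by
  have o1 : Orth ψ₁ χ₂ := reg_orth_of h1 h4
  have o2 : Orth χ₁ ψ₂ := reg_orth_of h2 h3
  have hc : ∀ a ∈ regM ψ₁ χ₁, ∀ b ∈ regM ψ₂ χ₂, Commute a b := fun a ha b hb =>
    regM_comm
      (fun p q r => (regM_comm (fun i j k => (h5 p q r i j k).symm)
        (fun i j k => (o1 p q r i j k).symm) b hb).symm)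
      (fun p q r => (regM_comm (fun i j k => (o2 p q r i j k).symm)
        (fun i j k => (h6 p q r i j k).symm) b hb).symm) a ha
  have hc' : ∀ a ∈ regM ψ₂ χ₂, ∀ b ∈ regM ψ₁ χ₁, Commute a b := fun a ha b hb =>
    (hc b hb a ha).symm
  have hα : ∀ p q r s t, D5 p q r s t → α.val p q r =
      ⁅ψ₁.val p q s * ψ₂.val p q s, χ₁.val p r t * χ₂.val p r t⁆ ^ 4 := by
    intro p q r s t d
    rw [← comm_val h7 h8 h9 d, ← e1, ← e2, add_val h5, add_val h6]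
  obtain ⟨α₁, a1, a2, a3⟩ := reg_half ψ₁ χ₁ α _ _ hc fun p q r s t d => by
    rw [hα p q r s t d]
    refine (SVal.comm hc ⟨regM_left _ _ _ _ _, ?_⟩ ⟨regM_right _ _ _ _ _, ?_⟩).pow hc 4
    · rw [inv_mul_cancel_left]; exact regM_left _ _ _ _ _
    · rw [inv_mul_cancel_left]; exact regM_right _ _ _ _ _
  obtain ⟨α₂, b1, b2, b3⟩ := reg_half ψ₂ χ₂ α _ _ hc' fun p q r s t d => by
    rw [hα p q r s t d, (h5 p q s p q s).eq, (h6 p r t p r t).eq]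
    refine (SVal.comm hc' ⟨regM_left _ _ _ _ _, ?_⟩ ⟨regM_right _ _ _ _ _, ?_⟩).pow hc' 4
    · rw [inv_mul_cancel_left]; exact regM_left _ _ _ _ _
    · rw [inv_mul_cancel_left]; exact regM_right _ _ _ _ _
  have ho : Orth α₁ α₂ := fun p q r i j k => hc _ (a1 p q r) _ (b1 i j k)
  refine ⟨α₁, α₂, fun p q r i j k => ?_, fun p q r i j k => ?_, ho, ?_⟩
  · exact regM_comm (fun p q r => h1 p q r i j k) (fun p q r => h2 p q r i j k) _ (a1 p q r)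
  · exact regM_comm (fun p q r => h3 p q r i j k) (fun p q r => h4 p q r i j k) _ (b1 p q r)
  · ext p q r
    rw [add_val ho]
    by_cases d : D3 p q r
    · obtain ⟨s, t, d5⟩ := split_D5 d
      have hx := a2 _ _ _ (split_D5_l d5)
      have hy := a2 _ _ _ (split_D5_r d5)
      have sw : ∀ g x, SVal (regM ψ₁ χ₁) (regM ψ₂ χ₂) g x →
          SVal (regM ψ₂ χ₂) (regM ψ₁ χ₁) g (x⁻¹ * g) := by
        intro g x h
        refine ⟨h.2, ?_⟩
        have : (x⁻¹ * g)⁻¹ * g = x := by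
          calc (x⁻¹ * g)⁻¹ * g = (x⁻¹ * g)⁻¹ * (x * (x⁻¹ * g)) := by group
            _ = (x⁻¹ * g)⁻¹ * ((x⁻¹ * g) * x) := by rw [(hc _ h.1 _ h.2).eq]
            _ = x := by group
        rw [this]
        exact h.1
      rw [a3 p q r s t d5 _ _ hx hy, b3 p q r s t d5 _ _ (sw _ _ hx) (sw _ _ hy),
        ← reg_comm_mul (hc _ hx.1 _ hx.2) (hc _ hx.1 _ hy.2) (hc _ hy.1 _ hx.2) (hc _ hy.1 _ hy.2),
        mul_inv_cancel_left, mul_inv_cancel_left, α.pre.comm_pow d5]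
    · rw [α.junk p q r d, α₁.junk p q r d, α₂.junk p q r d, mul_one]

noncomputable instance : OMP (Cond C) where
  zero := zero
  one := one
  orth := Orth
  add := add
  compl := compl
  orth_symm := fun _ _ h => reg_orth_symm h
  zero_orth := fun _ _ _ _ _ _ _ => Commute.one_left _
  orth_self := fun x h => by
    ext p q r
    show x.val p q r = 1
    by_cases d : D3 p q r
    · obtain ⟨s, t, d5⟩ := split_D5 d
      rw [← x.pre.comm_pow d5, commutatorElement_eq_one_iff_commute.2 (h p q s p r t), one_pow]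
    · exact x.junk p q r d
  add_comm := fun x y h => by
    ext p q r
    rw [add_val h, add_val (reg_orth_symm h), (h p q r p q r).eq]
  add_assoc := fun x y w h1 h2 h3 => by
    ext p q r
    rw [add_val (reg_orth_symm (reg_orth_add h1 (reg_orth_symm h2) (reg_orth_symm h3))),
      add_val (reg_orth_add h3 h1 h2), add_val h1, add_val h3, mul_assoc]
  zero_add := fun x => by
    ext p q r
    rw [add_val (fun _ _ _ _ _ _ => Commute.one_left _)]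
    exact one_mul _
  orth_add := fun _ _ _ h => ⟨orth_of_orth_add h, fun h' => reg_orth_add h h'.1 h'.2⟩
  orth_compl := orth_compl
  add_compl := fun x => by
    ext p q r
    rw [add_val (orth_compl x)]
    exact mul_inv_cancel_left _ _
  compl_unique := fun x y h e => by
    ext p q r
    have h1 : (add x y).val p q r = C.ι p q r := by rw [e]; rfl
    rw [add_val h] at h1
    show y.val p q r = (x.val p q r)⁻¹ * C.ι p q r
    rw [← h1, inv_mul_cancel_left]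
  reg := reg

lemma omp_orth {ψ χ : Cond C} : OMP.orth ψ χ ↔ Orth ψ χ := Iff.rfl
lemma omp_zero_val (p q r : Track) : (OMP.zero : Cond C).val p q r = 1 := rfl
lemma omp_one_val (p q r : Track) : (OMP.one : Cond C).val p q r = C.ι p q r := rfl
lemma omp_add_val {ψ χ : Cond C} (h : OMP.orth ψ χ) (p q r : Track) :
    (OMP.add ψ χ).val p q r = ψ.val p q r * χ.val p q r := add_val h p q r
lemma omp_compl_val (ψ : Cond C) (p q r : Track) :
    (OMP.compl ψ).val p q r = (ψ.val p q r)⁻¹ * C.ι p q r := rfl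
lemma omp_inf_val {ψ χ : Cond C} (h : OMP.Compat ψ χ) {p q r s t : Track} (hd : D5 p q r s t) :
    (OMP.inf ψ χ).val p q r = ⁅ψ.val p q s, χ.val p r t⁆ ^ 4 := by
  obtain ⟨α, β, γ, h1, h2, h3, rfl, rfl⟩ := h
  rw [OMP.inf_eq h1 h2 h3]
  exact (comm_val h1 h2 h3 hd).symm

end Cond

end Crest.Agent.R189
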