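import Crest.Agent.R189.Gate

/-!
Row 189.  Light-cone decomposition of a word in gates along one coordinate.
-/

set_option autoImplicit false

namespace Crest.Agent.R189

open Equiv

variable {S : Wang}

/-- bounded displacement in the coordinate `χ` -/
def ConeDisp (χ : V →+ ℤ) (k : ℤ) (g : Perm (Om S)) : Prop :=
  ∀ ω, ∃ v : V, (g ω).1 = v +ᵥ ω.1 ∧ -k ≤ χ v ∧ χ v ≤ k

lemma ConeDisp.one (χ : V →+ ℤ) : ConeDisp χ 0 (1 : Perm (Om S)) :=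
  fun ω => ⟨0, by simp, by simp, by simp⟩

lemma ConeDisp.mul {χ : V →+ ℤ} {k l : ℤ} {g g' : Perm (Om S)} (h : ConeDisp χ k g)
    (h' : ConeDisp χ l g') : ConeDisp χ (k + l) (g * g') := by
  intro ω
  obtain ⟨v, e, a1, a2⟩ := h' ω
  obtain ⟨w, e', b1, b2⟩ := h (g' ω)
  refine ⟨w + v, ?_, ?_, ?_⟩
  · rw [Perm.mul_apply, e', e, add_vadd]
  · rw [map_add]; omega
  · rw [map_add]; omega

lemma ConeDisp.inv {χ : V →+ ℤ} {k : ℤ} {g : Perm (Om S)} (h : ConeDisp χ k g) :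
    ConeDisp χ k g⁻¹ := by
  intro ω
  obtain ⟨v, e, a1, a2⟩ := h (g⁻¹ ω)
  have e0 : g (g⁻¹ ω) = ω := g.apply_symm_apply ω
  rw [e0] at e
  refine ⟨-v, ?_, ?_, ?_⟩
  · rw [e, neg_vadd_vadd]
  · rw [map_neg]; omega
  · rw [map_neg]; omega

lemma cone_pt_fst (x : Cfg S) (p q : Pt) : (pt x q).1 = (q.1 - p.1) +ᵥ (pt x p).1 := by
  change q.1 +ᵥ x = (q.1 - p.1) +ᵥ p.1 +ᵥ x
  rw [← add_vadd, sub_add_cancel]

lemma cone_disp_swW (χ : V →+ ℤ) {p q : Pt} {W : Set (Cfg S)} (h : Adm2 p q W) {k : ℤ}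
    (h1 : -k ≤ χ (q.1 - p.1)) (h2 : χ (q.1 - p.1) ≤ k) : ConeDisp χ k (swW p q W) := by
  intro ω
  by_cases hω : ω ∈ img {p, q} W
  · obtain ⟨x, hx, r, hr, rfl⟩ := hω
    rcases hr with rfl | rfl
    · rw [(gate_swW_apply h hx).1]
      exact ⟨_, cone_pt_fst x r q, h1, h2⟩
    · rw [(gate_swW_apply h hx).2]
      refine ⟨_, cone_pt_fst x r p, ?_, ?_⟩
      · rw [map_sub] at h1 h2 ⊢; omega
      · rw [map_sub] at h1 h2 ⊢; omega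
  · rw [swW_fix h hω]
    exact ⟨0, by simp, by rw [map_zero]; omega, by rw [map_zero]; omega⟩

lemma cone_arcR_of {χ : V →+ ℤ} {a : ℕ} (φ : Phase S χ a) {c n : ℤ} (hn : n ≤ a) {ω ω' : Om S}
    {v : V} (e : ω'.1 = v +ᵥ ω.1) (h0 : φ.pos c ω.1 < n) (h1 : 0 ≤ φ.pos c ω.1 + χ v)
    (h2 : φ.pos c ω.1 + χ v < n) : ArcR φ c n ω ω' := by
  have : φ.pos c ω'.1 = φ.pos c ω.1 + χ v := by
    rw [e]; exact gate_pos_vadd' φ h1 (by omega)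
  exact ⟨h0, by omega, v, e, this⟩

/-- `cone_arcR_of` in terms of the position relative to another origin -/
lemma cone_arcR_of' {χ : V →+ ℤ} {a : ℕ} (φ : Phase S χ a) {c c₀ n : ℤ} (hn : n ≤ a)
    {ω ω' : Om S} {v : V} (e : ω'.1 = v +ᵥ ω.1) (h0 : c ≤ c₀ + φ.pos c₀ ω.1)
    (h0' : c₀ + φ.pos c₀ ω.1 < c + n) (h1 : c ≤ c₀ + φ.pos c₀ ω.1 + χ v)
    (h2 : c₀ + φ.pos c₀ ω.1 + χ v < c + n) : ArcR φ c n ω ω' := by
  have := gate_pos_change' φ (c := c₀) (c' := c) (x := ω.1) (by omega) (by omega)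
  exact cone_arcR_of φ hn e (by omega) (by omega) (by omega)

/-- restriction of the strip relation to a substrip containing both points -/
lemma cone_arcR_sub {χ : V →+ ℤ} {a : ℕ} (φ : Phase S χ a) {c n c' n' : ℤ} (h1 : c' ≤ c)
    (h2 : c + n ≤ c' + n') (h3 : n' ≤ a) {ω ω' : Om S} (h : ArcR φ c' n' ω ω')
    (hω : ω ∈ Arc φ c n) (hω' : ω' ∈ Arc φ c n) : ArcR φ c n ω ω' := by
  obtain ⟨-, -, v, hv, e⟩ := h
  have b1 := gate_pos_sub φ h1 h2 h3 (x := ω.1) hω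
  have b2 := gate_pos_sub φ h1 h2 h3 (x := ω'.1) hω'
  exact ⟨hω, hω', v, hv, by omega⟩

/-- a permutation of bounded displacement moves a small strip into a larger one -/
lemma cone_arcR_disp {χ : V →+ ℤ} {a : ℕ} (φ : Phase S χ a) {c n c' n' k : ℤ} (h1 : c' + k ≤ c)
    (h2 : c + n + k ≤ c' + n') (h3 : n' ≤ a) {g : Perm (Om S)} (hg : ConeDisp χ k g)
    {ω ω' : Om S} (h : ArcR φ c n ω ω') : ArcR φ c' n' (g ω) (g ω') := by
  have key : ∀ η : Om S, φ.pos c η.1 < n → ArcR φ c' n' η (g η) := by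
    intro η hη
    obtain ⟨v, e, a1, a2⟩ := hg η
    have := φ.pos_nonneg c η.1
    exact cone_arcR_of' φ (c₀ := c) h3 e (by omega) (by omega) (by omega) (by omega)
  have hk : 0 ≤ k := by
    obtain ⟨v, -, a1, a2⟩ := hg ω
    omega
  have P := ArcR.per φ c' n'
  exact P.trans _ _ _ (P.symm _ _ (key ω h.1))
    (P.trans _ _ _ (ArcR.mono φ (by omega) (by omega) h3 h) (key ω' h.2.1))

lemma cone_along_rel {Q : Om S → Om S → Prop} (hQ : PER Q) {g : Perm (Om S)} (hg : Along Q g)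
    {ω ω' : Om S} (h : Q ω ω') : Q (g ω) (g ω') := by
  have a : Q (g ω) ω' := by
    rcases hg ω with e | e
    · rw [e]; exact h
    · exact hQ.trans _ _ _ (hQ.symm _ _ e) h
  rcases hg ω' with e | e
  · rw [e]; exact a
  · exact hQ.trans _ _ _ a e

lemma cone_fix_of_along {Q : Om S → Om S → Prop} {χ : V →+ ℤ} {a : ℕ} {φ : Phase S χ a} {c n : ℤ}
    {g : Perm (Om S)} (hg : Along (fun ω ω' => Q ω ω' ∧ ArcR φ c n ω ω') g) (ω : Om S)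
    (hω : ω ∉ Arc φ c n) : g ω = ω := by
  rcases hg ω with e | e
  · exact e
  · exact (hω e.2.1).elim

lemma cone_mem_arc {χ : V →+ ℤ} {a : ℕ} (φ : Phase S χ a) {c n : ℤ} (hn : n ≤ a) (m : ℤ)
    {ω : Om S} (h0 : c ≤ φ.pos 0 ω.1 + m * a) (h1 : φ.pos 0 ω.1 + m * a < c + a) :
    ω ∈ Arc φ c n ↔ φ.pos 0 ω.1 + m * a < c + n := by
  change φ.pos c ω.1 < n ↔ _
  have e : φ.pos (m * a) ω.1 = φ.pos 0 ω.1 := by
    rw [← gate_pos_add_mod φ 0 m, zero_add]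
  have := gate_pos_change' φ (c := m * a) (c' := c) (x := ω.1) (by omega) (by omega)
  omega

section arcs
variable {χ : V →+ ℤ} {h : ℕ} (φ : Phase S χ (2 * h)) {ρ : ℕ}

lemma cone_arc_compl : Arc φ h h = (Arc φ 0 h)ᶜ := by
  ext ω
  have a0 := φ.pos_nonneg 0 ω.1
  have a1 := φ.pos_lt 0 ω.1
  have e : ω ∈ (Arc φ 0 h)ᶜ ↔ ¬ φ.pos 0 ω.1 < h := Iff.rfl
  rw [e]
  by_cases hh : φ.pos 0 ω.1 < h
  · rw [cone_mem_arc φ (by omega) 1 (by omega) (by omega)]; omega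
  · rw [cone_mem_arc φ (by omega) 0 (by omega) (by omega)]; omega

lemma cone_mem_neg (hρ : 2 * ρ ≤ h) {n : ℤ} (hn : n ≤ 2 * ρ) (ω : Om S) :
    ω ∈ Arc φ (-ρ) n ↔ (φ.pos 0 ω.1 < n - ρ ∨
      (2 * h - ρ ≤ φ.pos 0 ω.1 ∧ φ.pos 0 ω.1 < 2 * h - ρ + n)) := by
  have a0 := φ.pos_nonneg 0 ω.1
  have a1 := φ.pos_lt 0 ω.1
  by_cases hh : φ.pos 0 ω.1 < 2 * h - ρ
  · rw [cone_mem_arc φ (by omega) 0 (by omega) (by omega)]; omega
  · rw [cone_mem_arc φ (by omega) (-1) (by omega) (by omega)]; omega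

lemma cone_mem_pos {c n : ℤ} (hc : 0 ≤ c) (hn : c + n ≤ 2 * h) (hc' : c ≤ 2 * h) (ω : Om S) :
    ω ∈ Arc φ c n ↔ (c ≤ φ.pos 0 ω.1 ∧ φ.pos 0 ω.1 < c + n) := by
  have a0 := φ.pos_nonneg 0 ω.1
  have a1 := φ.pos_lt 0 ω.1
  by_cases hh : c ≤ φ.pos 0 ω.1
  · rw [cone_mem_arc φ (by omega) 0 (by omega) (by omega)]; omega
  · rw [cone_mem_arc φ (by omega) 1 (by omega) (by omega)]; omega

lemma cone_arc1 (hρ : 2 * ρ ≤ h) : Arc φ 0 ρ = Arc φ (-ρ) (2 * ρ) ∩ Arc φ 0 h := by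
  ext ω
  have a0 := φ.pos_nonneg 0 ω.1
  have a1 := φ.pos_lt 0 ω.1
  rw [Set.mem_inter_iff, cone_mem_neg φ hρ le_rfl, cone_mem_pos φ le_rfl (by omega) (by omega),
    cone_mem_pos φ le_rfl (by omega) (by omega)]
  omega

lemma cone_arc2 (hρ : 2 * ρ ≤ h) : Arc φ (-ρ) ρ = Arc φ (-ρ) (2 * ρ) ∩ (Arc φ 0 h)ᶜ := by
  ext ω
  have a0 := φ.pos_nonneg 0 ω.1
  have a1 := φ.pos_lt 0 ω.1
  rw [Set.mem_inter_iff, Set.mem_compl_iff, cone_mem_neg φ hρ le_rfl, cone_mem_neg φ hρ (by omega),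
    cone_mem_pos φ le_rfl (by omega) (by omega)]
  omega

lemma cone_arc3 (hρ : 2 * ρ ≤ h) : Arc φ (h - ρ) ρ = Arc φ (h - ρ) (2 * ρ) ∩ Arc φ 0 h := by
  ext ω
  have a0 := φ.pos_nonneg 0 ω.1
  have a1 := φ.pos_lt 0 ω.1
  rw [Set.mem_inter_iff, cone_mem_pos φ (by omega) (by omega) (by omega),
    cone_mem_pos φ (by omega) (by omega) (by omega), cone_mem_pos φ le_rfl (by omega) (by omega)]
  omega

lemma cone_arc4 (hρ : 2 * ρ ≤ h) : Arc φ h ρ = Arc φ (h - ρ) (2 * ρ) ∩ (Arc φ 0 h)ᶜ := by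
  ext ω
  have a0 := φ.pos_nonneg 0 ω.1
  have a1 := φ.pos_lt 0 ω.1
  rw [Set.mem_inter_iff, Set.mem_compl_iff, cone_mem_pos φ (by omega) (by omega) (by omega),
    cone_mem_pos φ (by omega) (by omega) (by omega), cone_mem_pos φ le_rfl (by omega) (by omega)]
  omega

end arcs

lemma cone_res_split {g : Perm (Om S)} {A L : Set (Om S)} (hA : ∀ ω, ω ∉ A → g ω = ω)
    (hL : InvO g L) : g = res g (A ∩ L) * res g (A ∩ Lᶜ) ∧ res g L = res g (A ∩ L) ∧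
      res g Lᶜ = res g (A ∩ Lᶜ) := by
  have iA := InvO.of_fix hA
  have e := res_of_fix hA
  refine ⟨?_, ?_, ?_⟩
  · rw [← res_union (iA.inter hL) (iA.inter hL.compl), Set.inter_union_compl, e]
    exact Set.disjoint_left.2 fun ω h1 h2 => h2.2 h1.2
  · rw [← res_res iA hL, e]
  · rw [← res_res iA hL.compl, e]

lemma cone_along_res {Q : Om S → Om S → Prop} {χ : V →+ ℤ} {a : ℕ} {φ : Phase S χ a}
    {c n c' n' : ℤ} (h1 : c' ≤ c) (h2 : c + n ≤ c' + n') (h3 : n' ≤ a) {g : Perm (Om S)}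
    (hg : Along (fun ω ω' => Q ω ω' ∧ ArcR φ c' n' ω ω') g) (hi : InvO g (Arc φ c n)) :
    Along (fun ω ω' => Q ω ω' ∧ ArcR φ c n ω ω') (res g (Arc φ c n)) := by
  intro ω
  by_cases hω : ω ∈ Arc φ c n
  · rw [res_apply_mem hi hω]
    rcases hg ω with e | e
    · exact Or.inl e
    · exact Or.inr ⟨e.1, cone_arcR_sub φ h1 h2 h3 e.2 hω ((hi ω).2 hω)⟩
  · exact Or.inl (res_apply_not_mem g hω)

namespace GateSys

variable {Γ : Type} [Group Γ] (G : GateSys S Γ)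

/-- decomposition `γ = U_L U_R V₀ V_h` for the modulus `2 h`, inside the classes of `Q` -/
def Dec (Q : Om S → Om S → Prop) {χ : V →+ ℤ} {h : ℕ} (φ : Phase S χ (2 * h)) (ρ : ℕ)
    (γ UL UR V0 Vh : Γ) : Prop :=
  UL ∈ G.sub (fun ω ω' => Q ω ω' ∧ ArcR φ 0 h ω ω') ∧
  UR ∈ G.sub (fun ω ω' => Q ω ω' ∧ ArcR φ h h ω ω') ∧
  V0 ∈ G.sub (fun ω ω' => Q ω ω' ∧ ArcR φ (-ρ) (2 * ρ) ω ω') ∧
  Vh ∈ G.sub (fun ω ω' => Q ω ω' ∧ ArcR φ (h - ρ) (2 * ρ) ω ω') ∧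
  γ = UL * UR * V0 * Vh

lemma cone_split {p q : Pt} {W A : Set (Cfg S)} (h : Adm2 p q W) (hA : Loc A) :
    G.s p q W = G.s p q (W ∩ A) * G.s p q (W \ A) := by
  rw [← G.union p q _ _ (by rwa [Set.inter_union_sdiff]) (h.2.1.inter hA) (h.2.1.diff hA)
    (Set.disjoint_left.2 fun ω h1 h2 => h2.2 h1.2), Set.inter_union_sdiff]

lemma cone_commute (hf : Free S) {Q : Om S → Om S → Prop} (hQ : PER Q) {χ : V →+ ℤ} {a : ℕ}
    {φ : Phase S χ a} {c n c' n' : ℤ} (h1 : c + n ≤ c') (h2 : c' + n' ≤ c + a) {γ δ : Γ}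
    (hγ : γ ∈ G.sub (fun ω ω' => Q ω ω' ∧ ArcR φ c n ω ω'))
    (hδ : δ ∈ G.sub (fun ω ω' => Q ω ω' ∧ ArcR φ c' n' ω ω')) : Commute γ δ :=
  G.commute_of_disjoint hf (hQ.and (ArcR.per φ c n)) (hQ.and (ArcR.per φ c' n')) hγ hδ
    fun _ e e' => Set.disjoint_left.1 (Arc.disjoint φ h1 h2) e.2.1 e'.2.1

lemma cone_sub_mono {Q : Om S → Om S → Prop} {χ : V →+ ℤ} {a : ℕ} {φ : Phase S χ a}
    {c n c' n' : ℤ} (h1 : c' ≤ c) (h2 : c + n ≤ c' + n') (h3 : n' ≤ a) {γ : Γ}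
    (hγ : γ ∈ G.sub (fun ω ω' => Q ω ω' ∧ ArcR φ c n ω ω')) :
    γ ∈ G.sub (fun ω ω' => Q ω ω' ∧ ArcR φ c' n' ω ω') :=
  G.sub_mono (fun _ _ e => ⟨e.1, ArcR.mono φ h1 h2 h3 e.2⟩) hγ

/-- splitting of one gate -/
lemma cone_gate_dec {Q : Om S → Om S → Prop} {χ : V →+ ℤ} {h : ℕ} (φ : Phase S χ (2 * h))
    {p q : Pt} {W : Set (Cfg S)} (hW : Adm2 p q W) (hQ : ∀ x ∈ W, Q (pt x p) (pt x q)) {k : ℕ}
    (h1 : -(k : ℤ) ≤ χ (q.1 - p.1)) (h2 : χ (q.1 - p.1) ≤ k) (hk : 2 * k ≤ h) :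
    ∃ sL sR s0 sh, G.Dec Q φ k (G.s p q W) sL sR s0 sh ∧ ConeDisp χ k (G.pr sL) ∧
      ConeDisp χ k (G.pr sR) := by
  set d := χ (q.1 - p.1) with hd
  let t : Cfg S → ℤ := fun x => φ.pos 0 (pt x p).1
  have ht : LocF t := (φ.pos_locF 0).vadd p.1
  have t0 : ∀ x, 0 ≤ t x := fun x => φ.pos_nonneg 0 _
  have t1 : ∀ x, t x < 2 * h := fun x => by
    have := φ.pos_lt 0 (pt x p).1
    push_cast at this
    exact this
  let A : Set (Cfg S) := {x | t x < h ∧ 0 ≤ t x + d ∧ t x + d < h}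
  let B : Set (Cfg S) := {x | h ≤ t x ∧ h ≤ t x + d ∧ t x + d < 2 * h}
  let C : Set (Cfg S) := {x | t x + d < 0 ∨ 2 * h ≤ t x + d}
  have lA : Loc A := ht.comp (fun t => t < h ∧ 0 ≤ t + d ∧ t + d < h)
  have lB : Loc B := ht.comp (fun t => h ≤ t ∧ h ≤ t + d ∧ t + d < 2 * h)
  have lC : Loc C := ht.comp (fun t => t + d < 0 ∨ 2 * h ≤ t + d)
  have w1 : Adm2 p q (W \ A) := hW.mono (hW.2.1.diff lA) Set.sdiff_subset
  have w2 : Adm2 p q ((W \ A) \ B) := w1.mono (w1.2.1.diff lB) Set.sdiff_subset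
  have w3 : Adm2 p q (((W \ A) \ B) \ C) := w2.mono (w2.2.1.diff lC) Set.sdiff_subset
  have u1 : Adm2 p q (W ∩ A) := hW.mono (hW.2.1.inter lA) Set.inter_subset_left
  have u2 : Adm2 p q ((W \ A) ∩ B) := w1.mono (w1.2.1.inter lB) Set.inter_subset_left
  have u3 : Adm2 p q (((W \ A) \ B) ∩ C) := w2.mono (w2.2.1.inter lC) Set.inter_subset_left
  refine ⟨G.s p q (W ∩ A), G.s p q ((W \ A) ∩ B), G.s p q (((W \ A) \ B) ∩ C),
    G.s p q (((W \ A) \ B) \ C), ⟨?_, ?_, ?_, ?_, ?_⟩, ?_, ?_⟩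
  · refine G.s_mem u1 fun x hx => ⟨hQ x hx.1, ?_⟩
    obtain ⟨a1, a2, a3⟩ := hx.2
    have := t0 x
    refine cone_arcR_of' φ (c₀ := 0) (by omega) (cone_pt_fst x p q) ?_ ?_ ?_ ?_ <;>
      simp only [t] at * <;> omega
  · refine G.s_mem u2 fun x hx => ⟨hQ x hx.1.1, ?_⟩
    obtain ⟨a1, a2, a3⟩ := hx.2
    have := t1 x
    refine cone_arcR_of' φ (c₀ := 0) (by omega) (cone_pt_fst x p q) ?_ ?_ ?_ ?_ <;>
      simp only [t] at * <;> omega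
  · refine G.s_mem u3 fun x hx => ⟨hQ x hx.1.1.1, ?_⟩
    have b0 := t0 x
    have b1 := t1 x
    rcases hx.2 with a | a
    · refine cone_arcR_of' φ (c₀ := 0) (by omega) (cone_pt_fst x p q) ?_ ?_ ?_ ?_ <;>
        simp only [t] at * <;> omega
    · rw [← ArcR.add_mod φ (-k) (2 * k) 1]
      refine cone_arcR_of' φ (c₀ := 0) (by omega) (cone_pt_fst x p q) ?_ ?_ ?_ ?_ <;>
        simp only [t] at * <;> omega
  · refine G.s_mem w3 fun x hx => ⟨hQ x hx.1.1.1, ?_⟩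
    have b0 := t0 x
    have b1 := t1 x
    have c1 : ¬ (t x < h ∧ 0 ≤ t x + d ∧ t x + d < h) := hx.1.1.2
    have c2 : ¬ (h ≤ t x ∧ h ≤ t x + d ∧ t x + d < 2 * h) := hx.1.2
    have c3 : ¬ (t x + d < 0 ∨ 2 * h ≤ t x + d) := hx.2
    refine cone_arcR_of' φ (c₀ := 0) (by omega) (cone_pt_fst x p q) ?_ ?_ ?_ ?_ <;>
      simp only [t] at * <;> omega
  · rw [G.cone_split hW lA, G.cone_split w1 lB, G.cone_split w2 lC]
    simp only [mul_assoc]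
  · rw [G.pr_s _ _ _ u1]; exact cone_disp_swW χ u1 h1 h2
  · rw [G.pr_s _ _ _ u2]; exact cone_disp_swW χ u2 h1 h2

lemma cone_exists_dec (hf : Free S) {Q : Om S → Om S → Prop} (hQ : PER Q) (χ : V →+ ℤ) {γ : Γ}
    (hγ : γ ∈ G.sub Q) :
    ∃ ρ₀ : ℕ, ∀ (ρ h : ℕ) (φ : Phase S χ (2 * h)), ρ₀ ≤ ρ → 2 * ρ ≤ h →
      ∃ UL UR V0 Vh, G.Dec Q φ ρ γ UL UR V0 Vh ∧ ConeDisp χ ρ₀ (G.pr (UL * UR)) := by
  have step : ∀ (p q : Pt) (W : Set (Cfg S)), Adm2 p q W → (∀ x ∈ W, Q (pt x p) (pt x q)) →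
      ∀ γ : Γ, (∃ ρ₀ : ℕ, ∀ (ρ h : ℕ) (φ : Phase S χ (2 * h)), ρ₀ ≤ ρ → 2 * ρ ≤ h →
        ∃ UL UR V0 Vh, G.Dec Q φ ρ γ UL UR V0 Vh ∧ ConeDisp χ ρ₀ (G.pr (UL * UR))) →
      ∃ ρ₀ : ℕ, ∀ (ρ h : ℕ) (φ : Phase S χ (2 * h)), ρ₀ ≤ ρ → 2 * ρ ≤ h →
        ∃ UL UR V0 Vh, G.Dec Q φ ρ (G.s p q W * γ) UL UR V0 Vh ∧
          ConeDisp χ ρ₀ (G.pr (UL * UR)) := by
    rintro p q W hW hWQ γ ⟨ρ₀, ih⟩
    set k := (χ (q.1 - p.1)).natAbs with hk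
    refine ⟨ρ₀ + 2 * k, fun ρ h φ h1 h2 => ?_⟩
    obtain ⟨UL, UR, V0, Vh, ⟨a1, a2, a3, a4, a5⟩, a6⟩ := ih ρ h φ (by omega) h2
    obtain ⟨sL, sR, s0, sh, ⟨b1, b2, b3, b4, b5⟩, b6, b7⟩ :=
      G.cone_gate_dec φ hW hWQ (k := k) (by omega) (by omega) (by omega)
    have hUQ : (UL * UR)⁻¹ ∈ G.sub Q :=
      inv_mem (mul_mem (G.sub_mono (fun _ _ e => e.1) a1) (G.sub_mono (fun _ _ e => e.1) a2))
    have hUa : (UL * UR)⁻¹ ∈ G.all := G.sub_le_all Q hUQ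
    have hal := G.along hQ hUQ
    have hdi : ConeDisp χ ρ₀ (G.pr (UL * UR)⁻¹) := by rw [map_inv]; exact a6.inv
    have c3 : (UL * UR)⁻¹ * s0 * (UL * UR)⁻¹⁻¹ ∈
        G.sub (fun ω ω' => Q ω ω' ∧ ArcR φ (-ρ) (2 * ρ) ω ω') :=
      G.conj_mem hf hUa b3 fun _ _ e => ⟨cone_along_rel hQ hal e.1,
        cone_arcR_disp φ (by omega) (by omega) (by omega) hdi e.2⟩
    have c4 : (UL * UR)⁻¹ * sh * (UL * UR)⁻¹⁻¹ ∈
        G.sub (fun ω ω' => Q ω ω' ∧ ArcR φ (h - ρ) (2 * ρ) ω ω') :=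
      G.conj_mem hf hUa b4 fun _ _ e => ⟨cone_along_rel hQ hal e.1,
        cone_arcR_disp φ (by omega) (by omega) (by omega) hdi e.2⟩
    have d1 : Commute UL sR := G.cone_commute hf hQ (by omega) (by omega) a1 b2
    have d2 : Commute V0 ((UL * UR)⁻¹ * sh * (UL * UR)⁻¹⁻¹) :=
      G.cone_commute hf hQ (by omega) (by omega) a3 c4
    have e1 : sL * UL * (sR * UR) = sL * sR * (UL * UR) := by
      rw [mul_assoc sL UL, ← mul_assoc UL sR, d1.eq]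
      simp only [mul_assoc]
    refine ⟨sL * UL, sR * UR, (UL * UR)⁻¹ * s0 * (UL * UR)⁻¹⁻¹ * V0,
      (UL * UR)⁻¹ * sh * (UL * UR)⁻¹⁻¹ * Vh,
      ⟨mul_mem b1 a1, mul_mem b2 a2, mul_mem c3 a3, mul_mem c4 a4, ?_⟩, ?_⟩
    · rw [e1, a5, b5]
      generalize UL * UR = U at d2 ⊢
      have := d2.eq
      calc sL * sR * s0 * sh * (U * V0 * Vh)
          = sL * sR * U * (U⁻¹ * s0 * U⁻¹⁻¹) * ((U⁻¹ * sh * U⁻¹⁻¹) * V0) * Vh := by group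
        _ = _ := by rw [← this]; simp only [mul_assoc]
    · rw [e1, map_mul, map_mul]
      have := (b6.mul b7).mul a6
      convert this using 1
      push_cast
      ring
  induction hγ using Subgroup.closure_induction_left with
  | one =>
    refine ⟨0, fun ρ h φ _ _ => ⟨1, 1, 1, 1, ⟨one_mem _, one_mem _, one_mem _, one_mem _, by simp⟩, ?_⟩⟩
    rw [mul_one, map_one]
    exact ConeDisp.one χ
  | mul_left x hx y _ ih =>
    obtain ⟨p, q, W, h1, h2, rfl⟩ := hx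
    exact step p q W h1 h2 y ih
  | inv_mul_cancel x hx y _ ih =>
    obtain ⟨p, q, W, h1, h2, rfl⟩ := hx
    rw [inv_eq_of_mul_eq_one_right (G.sq p q W h1)]
    exact step p q W h1 h2 y ih

/-- Plan: left induction on the word (`Subgroup.closure_induction_left`; gates are involutions),
with the extra invariant that `pr (UL * UR)` moves every `ω` to `v +ᵥ ω.1` with `|χ v| ≤ ρ₀`.  A gate
`s p q W` with `k = |χ (p.1 - q.1)|` splits as `s_L s_R s_0 s_h` according to the phase of `pt x p`;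
`s_L`, `s_R` are absorbed in `UL`, `UR`; `s_0`, `s_h` are conjugated by `(UL * UR)⁻¹` (`conj_mem`);
the new radius is `ρ₀ + k`. -/
theorem exists_dec (hf : Free S) {Q : Om S → Om S → Prop} (hQ : PER Q) (χ : V →+ ℤ) {γ : Γ}
    (hγ : γ ∈ G.sub Q) :
    ∃ ρ₀ : ℕ, ∀ (ρ h : ℕ) (φ : Phase S χ (2 * h)), ρ₀ ≤ ρ → 2 * ρ ≤ h →
      ∃ UL UR V0 Vh, G.Dec Q φ ρ γ UL UR V0 Vh := by
  obtain ⟨ρ₀, h⟩ := G.cone_exists_dec hf hQ χ hγ
  refine ⟨ρ₀, fun ρ k φ h1 h2 => ?_⟩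
  obtain ⟨UL, UR, V0, Vh, hd, -⟩ := h ρ k φ h1 h2
  exact ⟨UL, UR, V0, Vh, hd⟩

/-- If `pr γ = 1` then `pr V₀` and `pr V_h` preserve the halves of their strips. -/
lemma Dec.invO {Q : Om S → Om S → Prop} (hQ : PER Q) {χ : V →+ ℤ} {h : ℕ}
    {φ : Phase S χ (2 * h)} {ρ : ℕ} (hρ : 2 * ρ ≤ h) {γ UL UR V0 Vh : Γ}
    (hd : G.Dec Q φ ρ γ UL UR V0 Vh) (h1 : G.pr γ = 1) :
    InvO (G.pr V0) (Arc φ 0 ρ) ∧ InvO (G.pr V0) (Arc φ (-ρ) ρ) ∧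
    InvO (G.pr Vh) (Arc φ (h - ρ) ρ) ∧ InvO (G.pr Vh) (Arc φ h ρ) ∧
    G.pr UL = (res (G.pr V0) (Arc φ 0 ρ))⁻¹ * (res (G.pr Vh) (Arc φ (h - ρ) ρ))⁻¹ ∧
    G.pr UR = (res (G.pr Vh) (Arc φ h ρ))⁻¹ * (res (G.pr V0) (Arc φ (-ρ) ρ))⁻¹ ∧
    G.pr V0 = res (G.pr V0) (Arc φ 0 ρ) * res (G.pr V0) (Arc φ (-ρ) ρ) ∧
    G.pr Vh = res (G.pr Vh) (Arc φ (h - ρ) ρ) * res (G.pr Vh) (Arc φ h ρ) := by
  obtain ⟨a1, a2, a3, a4, a5⟩ := hd
  have fa := cone_fix_of_along (G.along (hQ.and (ArcR.per _ _ _)) a1)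
  have fb := cone_fix_of_along (G.along (hQ.and (ArcR.per _ _ _)) a2)
  have fc := cone_fix_of_along (G.along (hQ.and (ArcR.per _ _ _)) a3)
  have fd := cone_fix_of_along (G.along (hQ.and (ArcR.per _ _ _)) a4)
  rw [a5, map_mul, map_mul, map_mul] at h1
  rw [cone_arc_compl φ] at fb
  have hdis : Disjoint (Arc φ (-ρ) (2 * ρ)) (Arc φ (h - ρ) (2 * ρ)) :=
    Arc.disjoint φ (by omega) (by omega)
  rw [cone_arc1 φ hρ, cone_arc2 φ hρ, cone_arc3 φ hρ, cone_arc4 φ hρ]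
  generalize G.pr UL = a at *
  generalize G.pr UR = b at *
  generalize G.pr V0 = c at *
  generalize G.pr Vh = d at *
  generalize Arc φ 0 h = L at *
  generalize Arc φ (-ρ) (2 * ρ) = A at *
  generalize Arc φ (h - ρ) (2 * ρ) = B at *
  have ia : InvO a L := InvO.of_fix fa
  have ib : InvO b L := by
    have := (InvO.of_fix fb).compl
    rwa [compl_compl] at this
  have icd : InvO (c * d) L := by
    have : c * d = (a * b)⁻¹ := by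
      refine eq_inv_of_mul_eq_one_right ?_
      rw [← mul_assoc, h1]
    rw [this]
    exact (ia.mul ib).inv
  have ic : InvO c L := by
    intro ω
    by_cases hω : ω ∈ A
    · have := icd ω
      rwa [Perm.mul_apply, fd ω (Set.disjoint_left.1 hdis hω)] at this
    · rw [fc ω hω]
  have id : InvO d L := by
    have := ic.inv.mul icd
    rwa [inv_mul_cancel_left] at this
  obtain ⟨c1, c2, c3⟩ := cone_res_split fc ic
  obtain ⟨d1, d2, d3⟩ := cone_res_split fd id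
  have r1 := congrArg (fun g => res g L) h1
  have r2 := congrArg (fun g => res g Lᶜ) h1
  rw [res_mul ((ia.mul ib).mul ic) id, res_mul (ia.mul ib) ic, res_mul ia ib, res_one, res_of_fix fa,
    res_eq_one (g := b) (fun ω hω => fb ω (fun h => h hω)), c2, d2, mul_one] at r1
  rw [res_mul ((ia.mul ib).mul ic).compl id.compl, res_mul (ia.mul ib).compl ic.compl,
    res_mul ia.compl ib.compl, res_one, res_of_fix fb,
    res_eq_one (g := a) (Y := Lᶜ) (fun ω hω => fa ω hω), c3, d3, one_mul] at r2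
  have hcomm : Commute (res c (A ∩ L)) (res d (B ∩ L)) :=
    (res_disjoint c d (hdis.mono Set.inter_subset_left Set.inter_subset_left)).commute
  refine ⟨(InvO.of_fix fc).inter ic, (InvO.of_fix fc).inter ic.compl, (InvO.of_fix fd).inter id,
    (InvO.of_fix fd).inter id.compl, ?_, ?_, c1, d1⟩
  · rw [← mul_inv_rev, ← hcomm.eq, eq_inv_iff_mul_eq_one, ← mul_assoc, r1]
  · rw [← mul_inv_rev, eq_inv_iff_mul_eq_one, ← mul_assoc, r2]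

/-- the four restrictions move points inside the small strips -/
lemma Dec.along {Q : Om S → Om S → Prop} (hQ : PER Q) {χ : V →+ ℤ} {h : ℕ}
    {φ : Phase S χ (2 * h)} {ρ : ℕ} (hρ : 2 * ρ ≤ h) {γ UL UR V0 Vh : Γ}
    (hd : G.Dec Q φ ρ γ UL UR V0 Vh) (h1 : G.pr γ = 1) :
    Along (fun ω ω' => Q ω ω' ∧ ArcR φ 0 ρ ω ω') (res (G.pr V0) (Arc φ 0 ρ)) ∧
    Along (fun ω ω' => Q ω ω' ∧ ArcR φ (-ρ) ρ ω ω') (res (G.pr V0) (Arc φ (-ρ) ρ)) ∧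
    Along (fun ω ω' => Q ω ω' ∧ ArcR φ (h - ρ) ρ ω ω') (res (G.pr Vh) (Arc φ (h - ρ) ρ)) ∧
    Along (fun ω ω' => Q ω ω' ∧ ArcR φ h ρ ω ω') (res (G.pr Vh) (Arc φ h ρ)) := by
  obtain ⟨i1, i2, i3, i4, -⟩ := Dec.invO G hQ hρ hd h1
  obtain ⟨-, -, a3, a4, -⟩ := hd
  have b3 := G.along (hQ.and (ArcR.per _ _ _)) a3
  have b4 := G.along (hQ.and (ArcR.per _ _ _)) a4
  exact ⟨cone_along_res (by omega) (by omega) (by omega) b3 i1,
    cone_along_res (by omega) (by omega) (by omega) b3 i2,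
    cone_along_res (by omega) (by omega) (by omega) b4 i3,
    cone_along_res (by omega) (by omega) (by omega) b4 i4⟩

/-- Gluing: if the four restrictions lift inside their strips and `pr` is injective on strips then
`γ = 1`.  Plan: `UL = u₁⁻¹ u₃⁻¹`, `UR = u₄⁻¹ u₂⁻¹`, `V0 = u₁ u₂`, `Vh = u₃ u₄` by injectivity, and the
`uᵢ` commute (`commute_of_disjoint`). -/
theorem Dec.eq_one (hf : Free S) {Q : Om S → Om S → Prop} (hQ : PER Q) {χ : V →+ ℤ} {h : ℕ}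
    {φ : Phase S χ (2 * h)} {ρ : ℕ} (hρ : 2 * ρ ≤ h) {γ UL UR V0 Vh : Γ}
    (hd : G.Dec Q φ ρ γ UL UR V0 Vh) (h1 : G.pr γ = 1)
    (hinj : ∀ c n : ℤ, n ≤ h → G.Inj (fun ω ω' => Q ω ω' ∧ ArcR φ c n ω ω'))
    (l1 : ∃ u ∈ G.sub (fun ω ω' => Q ω ω' ∧ ArcR φ 0 ρ ω ω'), G.pr u = res (G.pr V0) (Arc φ 0 ρ))
    (l2 : ∃ u ∈ G.sub (fun ω ω' => Q ω ω' ∧ ArcR φ (-ρ) ρ ω ω'),
      G.pr u = res (G.pr V0) (Arc φ (-ρ) ρ))
    (l3 : ∃ u ∈ G.sub (fun ω ω' => Q ω ω' ∧ ArcR φ (h - ρ) ρ ω ω'),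
      G.pr u = res (G.pr Vh) (Arc φ (h - ρ) ρ))
    (l4 : ∃ u ∈ G.sub (fun ω ω' => Q ω ω' ∧ ArcR φ h ρ ω ω'), G.pr u = res (G.pr Vh) (Arc φ h ρ)) :
    γ = 1 := by
  obtain ⟨-, -, -, -, e1, e2, e3, e4⟩ := Dec.invO G hQ hρ hd h1
  obtain ⟨a1, a2, a3, a4, a5⟩ := hd
  obtain ⟨u1, m1, p1⟩ := l1
  obtain ⟨u2, m2, p2⟩ := l2
  obtain ⟨u3, m3, p3⟩ := l3
  obtain ⟨u4, m4, p4⟩ := l4
  rw [← p1, ← p3, ← map_inv, ← map_inv, ← map_mul] at e1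
  rw [← p4, ← p2, ← map_inv, ← map_inv, ← map_mul] at e2
  rw [← p1, ← p2, ← map_mul] at e3
  rw [← p3, ← p4, ← map_mul] at e4
  have m2' := m2
  rw [← ArcR.add_mod φ (-ρ) ρ 1] at m2'
  have f1 := Inj.eq G (hinj 0 h le_rfl) a1
    (mul_mem (inv_mem (G.cone_sub_mono (by omega) (by omega) (by omega) m1))
      (inv_mem (G.cone_sub_mono (by omega) (by omega) (by omega) m3))) e1
  have f2 := Inj.eq G (hinj h h le_rfl) a2
    (mul_mem (inv_mem (G.cone_sub_mono (by omega) (by omega) (by omega) m4))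
      (inv_mem (G.cone_sub_mono (by omega) (by omega) (by omega) m2'))) e2
  have f3 := Inj.eq G (hinj (-ρ) (2 * ρ) (by omega)) a3
    (mul_mem (G.cone_sub_mono (by omega) (by omega) (by omega) m1)
      (G.cone_sub_mono (by omega) (by omega) (by omega) m2)) e3
  have f4 := Inj.eq G (hinj (h - ρ) (2 * ρ) (by omega)) a4
    (mul_mem (G.cone_sub_mono (by omega) (by omega) (by omega) m3)
      (G.cone_sub_mono (by omega) (by omega) (by omega) m4)) e4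
  have c21 : Commute u2 u1 := G.cone_commute hf hQ (by omega) (by omega) m2 m1
  have c13 : Commute u1 u3 := G.cone_commute hf hQ (by omega) (by omega) m1 m3
  have c14 : Commute u1 u4 := G.cone_commute hf hQ (by omega) (by omega) m1 m4
  have c34 : Commute u3 u4 := G.cone_commute hf hQ (by omega) (by omega) m3 m4
  rw [a5, f1, f2, f3, f4, ← c21.eq]
  have c : Commute u1 (u3 * u4) := c13.mul_right c14
  calc u1⁻¹ * u3⁻¹ * (u4⁻¹ * u2⁻¹) * (u2 * u1) * (u3 * u4)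
      = u1⁻¹ * (u4 * u3)⁻¹ * (u1 * (u3 * u4)) := by group
    _ = 1 := by rw [c.eq, ← c34.eq]; group

end GateSys

end Crest.Agent.R189
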