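import Crest.Agent.R189.Hat

/-!
Row 189.  Lifts of double transpositions; the garbage group `BB` and its finiteness from `H1`.
-/

set_option autoImplicit false

namespace Crest.Agent.R189

open Equiv

variable {S : Wang}

def Adm4 (p q p' q' : Pt) (W : Set (Cfg S)) : Prop := D4 p q p' q' ∧ Loc W ∧ Adm {p, q, p', q'} W

/-- the aligned transposition of the tracks `0` and `1` over `Z` -/
noncomputable def ab (Z : Set (Cfg S)) : Perm (Om S) := swW (0, 0) (0, 1) Z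

lemma adm2_ab (u : V) {Z : Set (Cfg S)} (hZ : Loc Z) : Adm2 (u, 0) (u, 1) Z := by
  refine ⟨by simp, hZ, adm_of_tracks ?_ Z⟩
  intro p hp q hq e
  simp only [Set.mem_insert_iff, Set.mem_singleton_iff] at hp hq
  rcases hp with rfl | rfl <;> rcases hq with rfl | rfl <;> first | rfl | simp at e
lemma swW_eq_ab (u : V) {Z : Set (Cfg S)} (hZ : Loc Z) : swW (u, 0) (u, 1) Z = ab (tr u Z) := by
  have h := swW_shP (p := ((0 : V), (0 : Track))) (q := ((0 : V), (1 : Track))) (W := Z) u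
    (adm2_ab 0 (hZ.tr u))
  simp only [shP, zero_add] at h
  exact h
lemma ab_mem_locP {Z : Set (Cfg S)} (hZ : Loc Z) : ab Z ∈ LocP S :=
  swW_mem_locP (adm2_ab 0 hZ)
open Classical in
lemma ab_apply {Z : Set (Cfg S)} (hZ : Loc Z) (x : Cfg S) (i : Track) :
    ab Z (x, i) = if x ∈ Z then (x, swap 0 1 i) else (x, i) := by
  have hb := swW_isBlk (adm2_ab (0 : V) hZ).2.2 (p := ((0 : V), (0 : Track)))
    (q := ((0 : V), (1 : Track))) (by simp) (by simp)
  have hfix : (x, i) ∉ img {((0 : V), (0 : Track)), ((0 : V), (1 : Track))} Z → ab Z (x, i) = (x, i) :=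
    hb.2 _
  by_cases hx : x ∈ Z
  · rw [if_pos hx]
    by_cases h0 : i = 0
    · subst h0
      have := hb.1 x hx ((0 : V), (0 : Track)) (by simp)
      simp only [swap_apply_left, pt_zero] at this ⊢
      exact this
    · by_cases h1 : i = 1
      · subst h1
        have := hb.1 x hx ((0 : V), (1 : Track)) (by simp)
        simp only [swap_apply_right, pt_zero] at this ⊢
        exact this
      · rw [swap_apply_of_ne_of_ne h0 h1]
        apply hfix
        rintro ⟨y, -, p, hp, e⟩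
        simp only [Set.mem_insert_iff, Set.mem_singleton_iff] at hp
        rcases hp with rfl | rfl
        · rw [pt_zero] at e; exact h0 (congrArg Prod.snd e)
        · rw [pt_zero] at e; exact h1 (congrArg Prod.snd e)
  · rw [if_neg hx]
    apply hfix
    rintro ⟨y, hy, p, hp, e⟩
    simp only [Set.mem_insert_iff, Set.mem_singleton_iff] at hp
    rcases hp with rfl | rfl
    · rw [pt_zero, Prod.mk.injEq] at e; exact hx (e.1 ▸ hy)
    · rw [pt_zero, Prod.mk.injEq] at e; exact hx (e.1 ▸ hy)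
lemma ab_comm {Z Z' : Set (Cfg S)} (hZ : Loc Z) (hZ' : Loc Z') : Commute (ab Z) (ab Z') := by
  classical
  ext1 ⟨x, i⟩
  simp only [Perm.mul_apply]
  by_cases h : x ∈ Z <;> by_cases h' : x ∈ Z' <;>
    simp only [ab_apply hZ, ab_apply hZ', h, h', if_true, if_false]

lemma Adm4.mono {p q p' q' : Pt} {W W' : Set (Cfg S)} (h : Adm4 p q p' q' W) (hW : Loc W')
    (hs : W' ⊆ W) : Adm4 p q p' q' W' := ⟨h.1, hW, h.2.2.mono subset_rfl hs⟩

lemma D4.dd_left {p q p' q' : Pt} (h : D4 p q p' q') : D3 p p' q :=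
  ⟨h.1.2.1, h.1.1, h.1.2.2.symm⟩
lemma D4.dd_right {p q p' q' : Pt} (h : D4 p q p' q') : D3 p p' q' :=
  ⟨h.1.2.1, h.2.1, h.2.2.2⟩
lemma D4.dd_swap_left {p q p' q' : Pt} (h : D4 p q p' q') : D4 q p p' q' :=
  ⟨⟨h.1.1.symm, h.1.2.2, h.1.2.1⟩, h.2.2.1, h.2.1, h.2.2.2⟩
lemma D4.dd_swap_right {p q p' q' : Pt} (h : D4 p q p' q') : D4 p q q' p' :=
  ⟨⟨h.1.1, h.2.1, h.2.2.1⟩, h.1.2.1, h.1.2.2, h.2.2.2.symm⟩
lemma D4.dd_comm {p q p' q' : Pt} (h : D4 p q p' q') : D4 p' q' p q :=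
  ⟨⟨h.2.2.2, h.1.2.1.symm, h.2.1.symm⟩, h.1.2.2.symm, h.2.2.1.symm, h.1.1⟩

lemma Adm4.dd_left {p q p' q' : Pt} {W : Set (Cfg S)} (h : Adm4 p q p' q' W) : Adm3 p p' q W :=
  ⟨h.1.dd_left, h.2.1, h.2.2.mono (by intro x hx; simp only [Set.mem_insert_iff, Set.mem_singleton_iff] at hx ⊢; tauto) subset_rfl⟩
lemma Adm4.dd_right {p q p' q' : Pt} {W : Set (Cfg S)} (h : Adm4 p q p' q' W) : Adm3 p p' q' W :=
  ⟨h.1.dd_right, h.2.1, h.2.2.mono (by intro x hx; simp only [Set.mem_insert_iff, Set.mem_singleton_iff] at hx ⊢; tauto) subset_rfl⟩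
lemma Adm4.dd_swap_left {p q p' q' : Pt} {W : Set (Cfg S)} (h : Adm4 p q p' q' W) :
    Adm4 q p p' q' W :=
  ⟨h.1.dd_swap_left, h.2.1, h.2.2.mono (by intro x hx; simp only [Set.mem_insert_iff, Set.mem_singleton_iff] at hx ⊢; tauto) subset_rfl⟩
lemma Adm4.dd_swap_right {p q p' q' : Pt} {W : Set (Cfg S)} (h : Adm4 p q p' q' W) :
    Adm4 p q q' p' W :=
  ⟨h.1.dd_swap_right, h.2.1, h.2.2.mono (by intro x hx; simp only [Set.mem_insert_iff, Set.mem_singleton_iff] at hx ⊢; tauto) subset_rfl⟩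
lemma Adm4.dd_finset {p q p' q' : Pt} {W : Set (Cfg S)} (h : Adm4 p q p' q' W) :
    Adm (({p, q, p', q'} : Finset Pt) : Set Pt) W := by
  have := h.2.2
  simpa only [Finset.coe_insert, Finset.coe_singleton] using this

lemma dd_cyc_mem {F : Set Pt} {p q r : Pt} (hp : p ∈ F) (hq : q ∈ F) (hr : r ∈ F) (hd : D3 p q r) :
    ∀ x ∈ F, cyc p q r x ∈ F := by
  intro x hx
  by_cases h1 : x = p
  · rw [h1, cyc_apply_fst hd]; exact hq
  by_cases h2 : x = q
  · rw [h2, cyc_apply_snd hd]; exact hr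
  by_cases h3 : x = r
  · rw [h3, cyc_apply_thd hd]; exact hp
  rw [cyc_apply_of_ne h1 h2 h3]; exact hx

lemma dd_swap_mem {F : Set Pt} {p q : Pt} (hp : p ∈ F) (hq : q ∈ F) :
    ∀ x ∈ F, swap p q x ∈ F := by
  intro x hx
  rw [swap_apply_def]
  split_ifs
  · exact hq
  · exact hp
  · exact hx

namespace HatSys

variable {H : Type} [Group H] (T : HatSys S H)

/-- lift of the double transposition `(p q) (p' q')` over `W` -/
noncomputable def DL (p q p' q' : Pt) (W : Set (Cfg S)) : H :=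
  T.hat (cycW p p' q W) * T.hat (cycW p p' q' W)

/-- `h` is a word in lifts over `W` which projects to the constant block permutation `π` -/
def DDB (F : Finset Pt) (W : Set (Cfg S)) (h : H) (π : Perm Pt) : Prop :=
  h ∈ T.blkSub F W ∧ IsBlk (T.pr h) F W (fun _ => π) ∧ ∀ p ∈ (F : Set Pt), π p ∈ (F : Set Pt)

lemma DDB.one (F : Finset Pt) (W : Set (Cfg S)) : T.DDB F W 1 1 :=
  ⟨Subgroup.one_mem _, ⟨fun x _ p _ => by rw [map_one]; rfl, fun ω _ => by rw [map_one]; rfl⟩,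
    fun _ hp => hp⟩

variable {T} in
lemma DDB.mul {F : Finset Pt} {W : Set (Cfg S)} {h h' : H} {π π' : Perm Pt} (a : T.DDB F W h π)
    (b : T.DDB F W h' π') : T.DDB F W (h * h') (π * π') :=
  ⟨Subgroup.mul_mem _ a.1 b.1, by
    rw [map_mul]; exact a.2.1.mul b.2.1 (fun _ _ p hp => b.2.2 p hp),
    fun p hp => a.2.2 _ (b.2.2 p hp)⟩

lemma DDB.hat {F : Finset Pt} {W : Set (Cfg S)} (hW : Loc W) (ha : Adm (F : Set Pt) W) {p q r : Pt}
    (hp : p ∈ F) (hq : q ∈ F) (hr : r ∈ F) (hd : D3 p q r) :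
    T.DDB F W (T.hat (cycW p q r W)) (cyc p q r) := by
  have h3 : Adm3 p q r W := ⟨hd, hW, ha.mono (by
    intro x hx
    simp only [Set.mem_insert_iff, Set.mem_singleton_iff] at hx
    rcases hx with rfl | rfl | rfl <;> simpa) subset_rfl⟩
  refine ⟨Subgroup.subset_closure ⟨p, hp, q, hq, r, hr, W, hd, hW, subset_rfl, rfl⟩, ?_,
    dd_cyc_mem hp hq hr hd⟩
  rw [T.pr_hat _ (cycW_mem_C3 h3)]
  exact cycW_isBlk ha hp hq hr hd

lemma DDB.dl {F : Finset Pt} {W : Set (Cfg S)} (hW : Loc W) (ha : Adm (F : Set Pt) W)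
    {p q p' q' : Pt} (hp : p ∈ F) (hq : q ∈ F) (hp' : p' ∈ F) (hq' : q' ∈ F) (hd : D4 p q p' q') :
    T.DDB F W (T.DL p q p' q' W) (swap p q * swap p' q') := by
  rw [← cyc_dbl hd]
  exact (DDB.hat T hW ha hp hp' hq hd.dd_left).mul (DDB.hat T hW ha hp hp' hq' hd.dd_right)

variable {T} in
lemma DDB.eq {F : Finset Pt} {W : Set (Cfg S)} (hW : Loc W) (ha : Adm (F : Set Pt) W) {h h' : H}
    {π π' : Perm Pt} (a : T.DDB F W h π) (b : T.DDB F W h' π') (e : π = π') : h = h' := by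
  subst e
  exact T.blk_eq hW ha a.1 b.1 (a.2.1.unique b.2.1)

lemma pr_DL {p q p' q' : Pt} {W : Set (Cfg S)} (h : Adm4 p q p' q' W) :
    T.pr (T.DL p q p' q' W) = swW p q W * swW p' q' W := by
  have a := DDB.dl T h.2.1 h.dd_finset (p := p) (q := q) (p' := p') (q' := q') (by simp) (by simp)
    (by simp) (by simp) h.1
  refine a.2.1.unique ?_
  exact (swW_isBlk h.dd_finset (by simp) (by simp)).mul (swW_isBlk h.dd_finset (by simp) (by simp))
    (fun _ _ => dd_swap_mem (by simp) (by simp))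
lemma DL_mem {F : Set Pt} {W Z : Set (Cfg S)} {p q p' q' : Pt} (hp : p ∈ F) (hq : q ∈ F)
    (hp' : p' ∈ F) (hq' : q' ∈ F) (hd : D4 p q p' q') (hZ : Loc Z) (hs : Z ⊆ W) :
    T.DL p q p' q' Z ∈ T.blkSub F W :=
  Subgroup.mul_mem _
    (Subgroup.subset_closure ⟨p, hp, p', hp', q, hq, Z, hd.dd_left, hZ, hs, rfl⟩)
    (Subgroup.subset_closure ⟨p, hp, p', hp', q', hq', Z, hd.dd_right, hZ, hs, rfl⟩)
lemma DL_swap_left {p q p' q' : Pt} {W : Set (Cfg S)} (h : Adm4 p q p' q' W) :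
    T.DL q p p' q' W = T.DL p q p' q' W := by
  refine DDB.eq h.2.1 h.dd_finset
    (DDB.dl T h.2.1 h.dd_finset (by simp) (by simp) (by simp) (by simp) h.1.dd_swap_left)
    (DDB.dl T h.2.1 h.dd_finset (by simp) (by simp) (by simp) (by simp) h.1) ?_
  rw [swap_comm q p]
lemma DL_swap_right {p q p' q' : Pt} {W : Set (Cfg S)} (h : Adm4 p q p' q' W) :
    T.DL p q q' p' W = T.DL p q p' q' W := by
  refine DDB.eq h.2.1 h.dd_finset
    (DDB.dl T h.2.1 h.dd_finset (by simp) (by simp) (by simp) (by simp) h.1.dd_swap_right)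
    (DDB.dl T h.2.1 h.dd_finset (by simp) (by simp) (by simp) (by simp) h.1) ?_
  rw [swap_comm q' p']
lemma DL_comm {p q p' q' : Pt} {W : Set (Cfg S)} (h : Adm4 p q p' q' W) :
    T.DL p' q' p q W = T.DL p q p' q' W := by
  refine DDB.eq h.2.1 h.dd_finset
    (DDB.dl T h.2.1 h.dd_finset (by simp) (by simp) (by simp) (by simp) h.1.dd_comm)
    (DDB.dl T h.2.1 h.dd_finset (by simp) (by simp) (by simp) (by simp) h.1) ?_
  obtain ⟨⟨h1, h2, h3⟩, h4, h5, h6⟩ := h.1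
  ext1 x
  simp only [Perm.mul_apply, swap_apply_def]
  grind
lemma DL_sq {p q p' q' : Pt} {W : Set (Cfg S)} (h : Adm4 p q p' q' W) :
    T.DL p q p' q' W * T.DL p q p' q' W = 1 := by
  have a := DDB.dl T h.2.1 h.dd_finset (p := p) (q := q) (p' := p') (q' := q') (by simp) (by simp)
    (by simp) (by simp) h.1
  refine DDB.eq h.2.1 h.dd_finset (a.mul a) (DDB.one T _ _) ?_
  obtain ⟨⟨h1, h2, h3⟩, h4, h5, h6⟩ := h.1
  ext1 x
  simp only [Perm.mul_apply, swap_apply_def, Perm.one_apply]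
  grind
lemma DL_empty (p q p' q' : Pt) : T.DL p q p' q' ∅ = 1 := by
  rw [DL, cycW_empty, cycW_empty, T.hat_one, mul_one]
lemma DL_union {p q p' q' : Pt} {W W' : Set (Cfg S)} (h : Adm4 p q p' q' (W ∪ W')) (hW : Loc W)
    (hW' : Loc W') (hd : Disjoint W W') :
    T.DL p q p' q' (W ∪ W') = T.DL p q p' q' W * T.DL p q p' q' W' := by
  have a1 : Adm3 p p' q W' := h.dd_left.mono hW' Set.subset_union_right
  have a2 : Adm3 p p' q' W := h.dd_right.mono hW Set.subset_union_left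
  have hc : Commute (T.hat (cycW p p' q W')) (T.hat (cycW p p' q' W)) := by
    refine (T.hat_disjoint (cycW_mem_C3 a1) (cycW_mem_C3 a2) fun ω => ?_).2
    by_cases h1 : ω ∈ img {p, p', q} W'
    · right
      refine cycW_fix a2 ?_
      rintro ⟨y, hy, b, hb, e'⟩
      obtain ⟨x, hx, a, ha, e⟩ := h1
      have := h.2.2 x (Or.inr hx) y (Or.inl hy) a (by
        simp only [Set.mem_insert_iff, Set.mem_singleton_iff] at ha ⊢; tauto) b (by
        simp only [Set.mem_insert_iff, Set.mem_singleton_iff] at hb ⊢; tauto) (e.symm.trans e')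
      exact Set.disjoint_left.1 hd hy (this.1 ▸ hx)
    · left
      exact cycW_fix a1 h1
  simp only [DL]
  rw [T.hat_union h.dd_left hW hW' hd, T.hat_union h.dd_right hW hW' hd]
  simp only [mul_assoc]
  rw [← mul_assoc (T.hat (cycW p p' q W')), hc.eq, mul_assoc]
lemma DL_shP (v : V) {p q p' q' : Pt} {W : Set (Cfg S)} (h : Adm4 p q p' q' (tr v W)) :
    T.DL (shP v p) (shP v q) (shP v p') (shP v q') W = T.DL p q p' q' (tr v W) := by
  simp only [DL]
  rw [cycW_shP v h.dd_left, cycW_shP v h.dd_right]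
lemma DL_trans {p q p' q' p'' q'' : Pt} {W : Set (Cfg S)} (h1 : D4 p q p' q') (h2 : D4 p' q' p'' q'')
    (h3 : D4 p q p'' q'') (hW : Loc W) (ha : Adm {p, q, p', q', p'', q''} W) :
    T.DL p q p' q' W * T.DL p' q' p'' q'' W = T.DL p q p'' q'' W := by
  have ha' : Adm (({p, q, p', q', p'', q''} : Finset Pt) : Set Pt) W := by
    simpa only [Finset.coe_insert, Finset.coe_singleton] using ha
  refine DDB.eq hW ha'
    ((DDB.dl T hW ha' (by simp) (by simp) (by simp) (by simp) h1).mul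
      (DDB.dl T hW ha' (by simp) (by simp) (by simp) (by simp) h2))
    (DDB.dl T hW ha' (by simp) (by simp) (by simp) (by simp) h3) ?_
  rw [mul_assoc, swap_mul_self_mul]
lemma hat_eq_DL {p q r p' q' : Pt} {W : Set (Cfg S)} (h : D5 p q r p' q') (hW : Loc W)
    (ha : Adm {p, q, r, p', q'} W) :
    T.hat (cycW p q r W) = T.DL p r p' q' W * T.DL p q p' q' W := by
  have ha' : Adm (({p, q, r, p', q'} : Finset Pt) : Set Pt) W := by
    simpa only [Finset.coe_insert, Finset.coe_singleton] using ha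
  obtain ⟨⟨⟨h1, h2, h3⟩, h4, h5, h6⟩, h7, h8, h9, h10⟩ := h
  refine DDB.eq hW ha' (DDB.hat T hW ha' (by simp) (by simp) (by simp) ⟨h1, h2, h3⟩)
    ((DDB.dl T hW ha' (by simp) (by simp) (by simp) (by simp) ⟨⟨h2, h4, h6⟩, h7, h9, h10⟩).mul
      (DDB.dl T hW ha' (by simp) (by simp) (by simp) (by simp) ⟨⟨h1, h4, h5⟩, h7, h8, h10⟩)) ?_
  have c : swap p' q' * swap p q = swap p q * swap p' q' := by
    ext1 x
    simp only [Perm.mul_apply, swap_apply_def]
    grind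
  rw [cyc, ← c, mul_assoc, swap_mul_self_mul]
lemma conj_DL (h : H) {p q p' q' i j i' j' : Pt} {W : Set (Cfg S)} (h1 : Adm4 p q p' q' W)
    (h2 : Adm4 i j i' j' W)
    (e : ∀ x ∈ W, T.pr h (pt x p) = pt x i ∧ T.pr h (pt x q) = pt x j ∧
      T.pr h (pt x p') = pt x i' ∧ T.pr h (pt x q') = pt x j') :
    h * T.DL p q p' q' W * h⁻¹ = T.DL i j i' j' W := by
  simp only [DL]
  rw [← cycW_conj h1.dd_left (T.pr h) (fun x hx => ⟨(e x hx).1, (e x hx).2.2.1, (e x hx).2.1⟩)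
      h2.dd_left,
    ← cycW_conj h1.dd_right (T.pr h) (fun x hx => ⟨(e x hx).1, (e x hx).2.2.1, (e x hx).2.2.2⟩)
      h2.dd_right,
    ← T.conj_hat h (cycW_mem_C3 h1.dd_left), ← T.conj_hat h (cycW_mem_C3 h1.dd_right)]
  group

/-- moving the garbage from `u` to `v` -/
noncomputable def dd (u v : V) (W : Set (Cfg S)) : H := T.DL (u, 0) (u, 1) (v, 0) (v, 1) W

def BB : Subgroup H :=
  Subgroup.closure {h | ∃ u v W, Adm4 (u, 0) (u, 1) (v, 0) (v, 1) W ∧ h = T.dd u v W}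

end HatSys

namespace AutSys

variable {H : Type} [Group H] (T : AutSys S H)

lemma al_DL (m : LocP S) {p q p' q' i j i' j' : Pt} {W : Set (Cfg S)} (h1 : Adm4 p q p' q' W)
    (h2 : Adm4 i j i' j' W)
    (e : ∀ x ∈ W, (m : Perm (Om S)) (pt x p) = pt x i ∧ (m : Perm (Om S)) (pt x q) = pt x j ∧
      (m : Perm (Om S)) (pt x p') = pt x i' ∧ (m : Perm (Om S)) (pt x q') = pt x j') :
    T.al m (T.DL p q p' q' W) = T.DL i j i' j' W := by
  simp only [HatSys.DL]
  rw [map_mul, T.al_hat m _ (cycW_mem_C3 h1.dd_left), T.al_hat m _ (cycW_mem_C3 h1.dd_right),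
    cycW_conj h1.dd_left _ (fun x hx => ⟨(e x hx).1, (e x hx).2.2.1, (e x hx).2.1⟩) h2.dd_left,
    cycW_conj h1.dd_right _ (fun x hx => ⟨(e x hx).1, (e x hx).2.2.1, (e x hx).2.2.2⟩) h2.dd_right]

/-- refine `W` along `(u + x ∈ Z, v + x ∈ Z)`, then `al_DL`, `DL_swap_left`, `DL_swap_right` -/
lemma al_ab_dd {Z W : Set (Cfg S)} (hZ : Loc Z) {u v : V} (h : Adm4 (u, 0) (u, 1) (v, 0) (v, 1) W) :
    T.al ⟨ab Z, ab_mem_locP hZ⟩ (T.dd u v W) = T.dd u v W := by
  classical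
  have hf : LocF (fun x : Cfg S => ((u +ᵥ x ∈ Z), (v +ᵥ x ∈ Z))) :=
    LocF.prod (LocF.vadd hZ u) (LocF.vadd hZ v)
  refine Loc.refine hf h.2.1
    (p := fun Y => T.al ⟨ab Z, ab_mem_locP hZ⟩ (T.dd u v Y) = T.dd u v Y) ?_ ?_
  · intro Y Y' hY hY' sY sY' hd e e'
    have hu := T.DL_union (h.mono (hY.union hY') (Set.union_subset sY sY')) hY hY' hd
    simp only [HatSys.dd] at e e' ⊢
    rw [hu, map_mul, e, e']
  · intro Y hY sY hc
    rcases Y.eq_empty_or_nonempty with rfl | ⟨x0, hx0⟩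
    · simp only [HatSys.dd, T.DL_empty, map_one]
    have a : Adm4 (u, 0) (u, 1) (v, 0) (v, 1) Y := h.mono hY sY
    have hu : ∀ x ∈ Y, (u +ᵥ x ∈ Z ↔ u +ᵥ x0 ∈ Z) := fun x hx =>
      Iff.of_eq (congrArg Prod.fst (hc x hx x0 hx0))
    have hv : ∀ x ∈ Y, (v +ᵥ x ∈ Z ↔ v +ᵥ x0 ∈ Z) := fun x hx =>
      Iff.of_eq (congrArg Prod.snd (hc x hx x0 hx0))
    simp only [HatSys.dd]
    by_cases h1 : u +ᵥ x0 ∈ Z <;> by_cases h2 : v +ᵥ x0 ∈ Z
    · rw [T.al_DL _ a a.dd_swap_left.dd_swap_right fun x hx => by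
        simp only [pt, ab_apply hZ, (hu x hx).2 h1, (hv x hx).2 h2, if_true, swap_apply_left,
          swap_apply_right, and_self],
        T.DL_swap_right a.dd_swap_left, T.DL_swap_left a]
    · rw [T.al_DL _ a a.dd_swap_left fun x hx => by
        simp only [pt, ab_apply hZ, (hu x hx).2 h1, (hv x hx).not.2 h2, if_true, if_false,
          swap_apply_left, swap_apply_right, and_self],
        T.DL_swap_left a]
    · rw [T.al_DL _ a a.dd_swap_right fun x hx => by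
        simp only [pt, ab_apply hZ, (hu x hx).not.2 h1, (hv x hx).2 h2, if_true, if_false,
          swap_apply_left, swap_apply_right, and_self],
        T.DL_swap_right a]
    · rw [T.al_DL _ a a fun x hx => by
        simp only [pt, ab_apply hZ, (hu x hx).not.2 h1, (hv x hx).not.2 h2, if_false, and_self]]

lemma dd_comm {u v u' v' : V} {W W' : Set (Cfg S)} (h : Adm4 (u, 0) (u, 1) (v, 0) (v, 1) W)
    (h' : Adm4 (u', 0) (u', 1) (v', 0) (v', 1) W') : Commute (T.dd u v W) (T.dd u' v' W') := by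
  have hu := h.2.1.tr u
  have hv := h.2.1.tr v
  have e := T.al_pr (T.dd u v W) (T.dd u' v' W')
    ((⟨ab (tr u W), ab_mem_locP hu⟩ : LocP S) * ⟨ab (tr v W), ab_mem_locP hv⟩) (by
      rw [HatSys.dd, T.pr_DL h, swW_eq_ab u h.2.1, swW_eq_ab v h.2.1]; rfl)
  rw [map_mul, MulAut.mul_apply, T.al_ab_dd hv h', T.al_ab_dd hu h'] at e
  rw [Commute, SemiconjBy]
  conv_rhs => rw [e]
  group

end AutSys

end Crest.Agent.R189
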