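import Crest.Agent.R189.DD

/-!
Row 189.  Finiteness of `BB ∩ ker` from `H1`.
-/

set_option autoImplicit false

namespace Crest.Agent.R189

open Equiv

variable {S : Wang}

/-- the points over the ball of radius `k` -/
def ddBox (k : ℕ) : Set Pt := {p | InB k p.1}

lemma dd_box_refine (hp : HasPhases S) (k : ℕ) {W : Set (Cfg S)} (hW : Loc W)
    {p : Set (Cfg S) → Prop}
    (hu : ∀ Z Z', Loc Z → Loc Z' → Z ⊆ W → Z' ⊆ W → Disjoint Z Z' → p Z → p Z' → p (Z ∪ Z'))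
    (hc : ∀ Z, Loc Z → Z ⊆ W → Adm (ddBox k) Z → p Z) : p W := by
  obtain ⟨⟨a, ha, -, ⟨φ1⟩⟩, ⟨b, hb, -, ⟨φ2⟩⟩⟩ := hp (2 * k + 1)
  refine Loc.refine (φ1.loc.prod φ2.loc) hW hu fun Z hZ hs hconst => hc Z hZ hs ?_
  rcases Z.eq_empty_or_nonempty with rfl | ⟨x, hx⟩
  · exact fun _ h => h.elim
  refine adm_of_phases hp.free φ1 φ2 (c := φ1.r x) (d := φ2.r x)
    (fun y hy => Prod.mk.inj (hconst y hy x hx)) ?_
  intro p hp q hq e h1 h2
  have ha' : 2 * (k : ℤ) + 1 ≤ a := by exact_mod_cast ha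
  have hb' : 2 * (k : ℤ) + 1 ≤ b := by exact_mod_cast hb
  obtain ⟨p1, p2⟩ := hp
  obtain ⟨q1, q2⟩ := hq
  rw [abs_le] at p1 p2 q1 q2
  have e1 := Int.eq_zero_of_abs_lt_dvd h1 (by rw [abs_lt]; constructor <;> omega)
  have e2 := Int.eq_zero_of_abs_lt_dvd h2 (by rw [abs_lt]; constructor <;> omega)
  exact Prod.ext (Prod.ext (by omega) (by omega)) e

lemma dd_D4 {u v : V} (h : u ≠ v) :
    D4 ((u, 0) : Pt) (u, 1) (v, 0) (v, 1) := by
  refine ⟨⟨?_, ?_, ?_⟩, ?_, ?_, ?_⟩ <;> simp [h]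

lemma dd_adm4 {k : ℕ} {W : Set (Cfg S)} (hW : Loc W) (hA : Adm (ddBox k) W) {u v : V}
    (hu : InB k u) (hv : InB k v) (h : u ≠ v) : Adm4 (u, 0) (u, 1) (v, 0) (v, 1) W := by
  refine ⟨dd_D4 h, hW, hA.mono ?_ subset_rfl⟩
  rintro s (rfl | rfl | rfl | rfl) <;> assumption

lemma dd_adm4_shift {W : Set (Cfg S)} {u e : V} (h : Adm4 (u, 0) (u, 1) (e + u, 0) (e + u, 1) W) :
    Adm4 (0, 0) (0, 1) (e, 0) (e, 1) (tr u W) := by
  have he : (0 : V) ≠ e := by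
    rintro rfl
    exact h.1.1.2.1 (by simp)
  refine ⟨dd_D4 he, h.2.1.tr u, (Adm.shP u).1 (h.2.2.mono ?_ subset_rfl)⟩
  rintro _ ⟨s, (rfl | rfl | rfl | rfl), rfl⟩ <;> simp [shP]

lemma dd_tr_disjoint (v : V) {W W' : Set (Cfg S)} (h : Disjoint W W') :
    Disjoint (tr v W) (tr v W') := by
  rw [Set.disjoint_left] at h ⊢
  exact fun x h1 h2 => h h1 h2

lemma dd_zmod2 (t : ZMod 2) : t = 0 ∨ t = 1 := by revert t; decide

/-- the support of a function with values in `ZMod 2` -/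
def ddSupp (η : Cfg S → ZMod 2) : Set (Cfg S) := η ⁻¹' {1}

lemma ddSupp_loc {η : Cfg S → ZMod 2} (h : LocF η) : Loc (ddSupp η) := h.preimage _

lemma dd_locF_add {η η' : Cfg S → ZMod 2} (h : LocF η) (h' : LocF η') :
    LocF (fun x => η x + η' x) := (h.prod h').comp fun z => z.1 + z.2

/-- an additive set function with values in a commutative family of involutions is multiplicative -/
lemma dd_mult {G : Type} [Group G] {β : Set (Cfg S) → G}
    (hu : ∀ Z Z', Loc Z → Loc Z' → Disjoint Z Z' → β (Z ∪ Z') = β Z * β Z')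
    (hsq : ∀ Z, Loc Z → β Z * β Z = 1)
    {η η' : Cfg S → ZMod 2} (h : LocF η) (h' : LocF η') :
    β (ddSupp fun x => η x + η' x) = β (ddSupp η) * β (ddSupp η') := by
  have l := ddSupp_loc h
  have l' := ddSupp_loc h'
  have e1 : ddSupp η = (ddSupp η \ ddSupp η') ∪ (ddSupp η ∩ ddSupp η') :=
    (Set.sdiff_union_inter _ _).symm
  have e2 : ddSupp η' = (ddSupp η ∩ ddSupp η') ∪ (ddSupp η' \ ddSupp η) := by
    ext x; simp only [Set.mem_union, Set.mem_inter_iff, Set.mem_sdiff]; tauto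
  have e3 : (ddSupp fun x => η x + η' x) = (ddSupp η \ ddSupp η') ∪ (ddSupp η' \ ddSupp η) := by
    ext x
    simp only [ddSupp, Set.mem_preimage, Set.mem_singleton_iff, Set.mem_union, Set.mem_sdiff]
    generalize η x = s
    generalize η' x = t
    revert s t
    decide
  have a1 := hu _ _ (l.diff l') (l.inter l') (by
    rw [Set.disjoint_left]; exact fun x h1 h2 => h1.2 h2.2)
  have a2 := hu _ _ (l.inter l') (l'.diff l) (by
    rw [Set.disjoint_left]; exact fun x h1 h2 => h2.2 h1.1)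
  have a3 := hu _ _ (l.diff l') (l'.diff l) (by
    rw [Set.disjoint_left]; exact fun x h1 h2 => h2.2 h1.1)
  rw [← e1] at a1
  rw [← e2] at a2
  rw [e3, a1, a2, a3, mul_assoc, ← mul_assoc (β (ddSupp η ∩ ddSupp η')), hsq _ (l.inter l'),
    one_mul]

lemma dd_ab_union {Z Z' : Set (Cfg S)} (hZ : Loc Z) (hZ' : Loc Z') (hd : Disjoint Z Z') :
    ab (Z ∪ Z') = ab Z * ab Z' := swW_union (adm2_ab 0 (hZ.union hZ')) hZ hZ' hd

lemma dd_ab_mult {η η' : Cfg S → ZMod 2} (h : LocF η) (h' : LocF η') :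
    ab (ddSupp fun x => η x + η' x) = ab (ddSupp η) * ab (ddSupp η') :=
  dd_mult (β := ab) (fun _ _ => dd_ab_union) (fun _ hZ => swW_sq (adm2_ab 0 hZ)) h h'

lemma dd_ab_eq_one {η : Cfg S → ZMod 2} (h : LocF η) (h1 : ab (ddSupp η) = 1) (x : Cfg S) :
    η x = 0 := by
  classical
  rcases dd_zmod2 (η x) with e | e
  · exact e
  · have := ab_apply (ddSupp_loc h) x 0
    rw [h1, if_pos (show x ∈ ddSupp η from e), swap_apply_left] at this
    exact absurd (congrArg Prod.snd this) (by show ¬ ((0 : Track) = 1); decide)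

namespace AutSys

variable {H : Type} [Group H] (T : AutSys S H)

lemma BB_comm {h h' : H} (hh : h ∈ T.BB) (hh' : h' ∈ T.BB) : Commute h h' := by
  refine patch_commute ?_ hh hh'
  rintro _ ⟨u, v, W, h, rfl⟩ _ ⟨u', v', W', h', rfl⟩
  exact T.dd_comm h h'

lemma BB_sq {h : H} (hh : h ∈ T.BB) : h * h = 1 := by
  induction hh using Subgroup.closure_induction with
  | mem h hh =>
    obtain ⟨u, v, W, h, rfl⟩ := hh
    exact T.DL_sq h
  | one => exact mul_one _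
  | mul a b ha hb h1 h2 =>
    rw [mul_assoc, ← mul_assoc b, (T.BB_comm hb ha).eq, mul_assoc, h2, mul_one, h1]
  | inv a _ h1 => rw [← mul_inv_rev, h1, inv_one]

lemma dd_mem_BB {u v : V} {W : Set (Cfg S)} (h : Adm4 (u, 0) (u, 1) (v, 0) (v, 1) W) :
    T.dd u v W ∈ T.BB := Subgroup.subset_closure ⟨u, v, W, h, rfl⟩

lemma exists_beta' {χ : V →+ ℤ} {a : ℕ} (φ : Phase S χ a) {e : V} (he : ¬ (a : ℤ) ∣ χ e) :
    ∃ β : Set (Cfg S) → H, (∀ Z, Loc Z → β Z ∈ T.BB) ∧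
      (∀ Z Z', Loc Z → Loc Z' → Disjoint Z Z' → β (Z ∪ Z') = β Z * β Z') ∧
      (∀ Z, Adm4 (0, 0) (0, 1) (e, 0) (e, 1) Z → β Z = T.dd 0 e Z) := by
  classical
  let : CommGroup T.BB :=
    { (inferInstance : Group T.BB) with mul_comm := fun a b => Subtype.ext (T.BB_comm a.2 b.2).eq }
  have he0 : (0 : V) ≠ e := by
    rintro rfl
    exact he (by simp)
  have hA : ∀ Z, Loc Z → ∀ c : ℤ, Adm4 (0, 0) (0, 1) (e, 0) (e, 1) (Z ∩ φ.r ⁻¹' {c}) := by
    intro Z hZ c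
    have l := hZ.inter (φ.loc.preimage {c})
    refine ⟨dd_D4 he0, l, (Adm.union_of_phase φ (c := c) (fun x hx => hx.2) (adm2_ab 0 l).2.2
      (adm2_ab e l).2.2 ?_).mono ?_ subset_rfl⟩
    · rintro s (rfl | rfl) t (rfl | rfl) <;> simpa using he
    · rintro s (rfl | rfl | rfl | rfl) <;> simp
  let d : Set (Cfg S) → T.BB := fun Z =>
    if h : Adm4 (0, 0) (0, 1) (e, 0) (e, 1) Z then ⟨T.dd 0 e Z, T.dd_mem_BB h⟩ else 1
  have hd : ∀ Z, Adm4 (0, 0) (0, 1) (e, 0) (e, 1) Z → (d Z : H) = T.dd 0 e Z := by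
    intro Z h
    simp only [d, dif_pos h]
  let β : Set (Cfg S) → T.BB := fun Z => ∏ c ∈ Finset.Ico (0 : ℤ) a, d (Z ∩ φ.r ⁻¹' {c})
  have hu : ∀ Z Z', Loc Z → Loc Z' → Disjoint Z Z' → β (Z ∪ Z') = β Z * β Z' := by
    intro Z Z' hZ hZ' hdis
    simp only [β]
    rw [← Finset.prod_mul_distrib]
    refine Finset.prod_congr rfl fun c _ => Subtype.ext ?_
    have h3 := hA _ (hZ.union hZ') c
    rw [Subgroup.coe_mul, hd _ h3, hd _ (hA Z hZ c), hd _ (hA Z' hZ' c)]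
    rw [Set.union_inter_distrib_right] at h3 ⊢
    exact T.DL_union h3 (hA Z hZ c).2.1 (hA Z' hZ' c).2.1
      (hdis.mono Set.inter_subset_left Set.inter_subset_left)
  refine ⟨fun Z => β Z, fun Z _ => (β Z).2, fun Z Z' hZ hZ' hdis => by
    simp only [hu Z Z' hZ hZ' hdis, Subgroup.coe_mul], fun W hW => ?_⟩
  refine Loc.refine φ.loc hW.2.1 (p := fun Z => (β Z : H) = T.dd 0 e Z) ?_ ?_
  · intro Z Z' hZ hZ' s1 s2 hdis h1 h2
    rw [hu Z Z' hZ hZ' hdis, Subgroup.coe_mul, h1, h2]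
    exact (T.DL_union ⟨hW.1, hZ.union hZ', hW.2.2.mono subset_rfl (Set.union_subset s1 s2)⟩
      hZ hZ' hdis).symm
  · intro Z hZ s1 hc
    have hempty : d ∅ = 1 := Subtype.ext (by
      have := hA ∅ Loc.empty 0
      rw [Set.empty_inter] at this
      rw [hd _ this]
      exact T.DL_empty _ _ _ _)
    rcases Z.eq_empty_or_nonempty with rfl | ⟨x, hx⟩
    · simp only [β, Set.empty_inter, hempty, Finset.prod_const_one]
      exact (T.DL_empty _ _ _ _).symm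
    · have : β Z = d (Z ∩ φ.r ⁻¹' {φ.r x}) := by
        refine Finset.prod_eq_single _ (fun c _ hne => ?_) fun hn => ?_
        · have : Z ∩ φ.r ⁻¹' {c} = ∅ := by
            ext y
            simp only [Set.mem_inter_iff, Set.mem_preimage, Set.mem_singleton_iff,
              Set.mem_empty_iff_false, iff_false, not_and]
            intro hy e
            exact hne (e.symm.trans (hc y hy x hx))
          rw [this, hempty]
        · exact (hn (Finset.mem_Ico.2 ⟨φ.nonneg x, φ.lt x⟩)).elim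
      have e2 : Z ∩ φ.r ⁻¹' {φ.r x} = Z := Set.inter_eq_left.2 fun y hy => hc y hy x hx
      rw [this, hd _ (hA Z hZ _), e2]

open Classical in
/-- `dd` extended to the diagonal -/
noncomputable def dl (W : Set (Cfg S)) (u v : V) : H := if u = v then 1 else T.dd u v W

lemma dl_mul {k : ℕ} {W : Set (Cfg S)} (hW : Loc W) (hA : Adm (ddBox k) W) {u v w : V}
    (hu : InB k u) (hv : InB k v) (hw : InB k w) : T.dl W u v * T.dl W v w = T.dl W u w := by
  by_cases h1 : u = v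
  · subst h1; simp [dl]
  by_cases h2 : v = w
  · subst h2; simp [dl]
  by_cases h3 : u = w
  · subst h3
    have A := dd_adm4 hW hA hu hv h1
    simp only [dl, if_neg h1, if_neg h2, if_true, HatSys.dd]
    rw [T.DL_comm A, T.DL_sq A]
  · simp only [dl, if_neg h1, if_neg h2, if_neg h3, HatSys.dd]
    refine T.DL_trans (dd_D4 h1) (dd_D4 h2) (dd_D4 h3) hW (hA.mono ?_ subset_rfl)
    rintro s (rfl | rfl | rfl | rfl | rfl | rfl) <;> assumption

lemma dl_step {k : ℕ} {W : Set (Cfg S)} (hW : Loc W) (hA : Adm (ddBox k) W) {u e : V} (he : e ≠ 0)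
    (hu : InB k u) (hv : InB k (e + u)) {β : Set (Cfg S) → H}
    (hβ : ∀ Z, Adm4 (0, 0) (0, 1) (e, 0) (e, 1) Z → β Z = T.dd 0 e Z) :
    T.dl W u (e + u) = β (tr u W) := by
  have hne : u ≠ e + u := fun h => he (by simpa using h)
  have A := dd_adm4_shift (dd_adm4 hW hA hu hv hne)
  have := T.DL_shP u A
  simp only [shP, zero_add] at this
  rw [hβ _ A, dl, if_neg hne, HatSys.dd, HatSys.dd, this]

/-- `β e Z`: an additive extension of `dd 0 e` to all local sets (product over the classes of a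
phase with modulus `≥ 2` in the direction of `e`; `Adm.union_of_phase`). -/
lemma exists_beta (hp : HasPhases S) {e : V} (he : e = e1 ∨ e = e2) :
    ∃ β : Set (Cfg S) → H, (∀ Z, Loc Z → β Z ∈ T.BB) ∧
      (∀ Z Z', Loc Z → Loc Z' → Disjoint Z Z' → β (Z ∪ Z') = β Z * β Z') ∧
      (∀ Z, Adm4 (0, 0) (0, 1) (e, 0) (e, 1) Z → β Z = T.dd 0 e Z) := by 
  obtain ⟨⟨a, ha, -, ⟨φ1⟩⟩, ⟨b, hb, -, ⟨φ2⟩⟩⟩ := hp 2
  rcases he with rfl | rfl
  · refine T.exists_beta' φ1 fun h => ?_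
    have := Int.le_of_dvd one_pos h
    omega
  · refine T.exists_beta' φ2 fun h => ?_
    have := Int.le_of_dvd one_pos h
    omega

/-- Plan.  `BB` is commutative of exponent two (`dd_comm`, `DL_sq`).  For local `η₁ η₂ : Cfg S → ZMod 2`
put `b (η₁, η₂) = β₁ {η₁ = 1} * β₂ {η₂ = 1}`; `b` is multiplicative, `pr (b η) = ab {x | η₁ x +
η₁ (-e1 + x) + η₂ x + η₂ (-e2 + x) = 1}`.  Every `dd u v W` is a value of `b` (refine `W` along two
phases with large moduli, `adm_of_phases`, walk from `u` to `v` by unit steps with `DL_trans`,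
`DL_comm`, `DL_sq`, `DL_shP`).  On a boundary `(ξ + ξ (-e2 + ·), ξ + ξ (-e1 + ·))` the value is `1`
(refine, `blk_inj` on the eight points over the unit square).  So `BB ∩ ker ⊆ b '' Z`. -/
theorem BB_ker_finite (hp : HasPhases S) (h1 : H1 S) : {h | h ∈ T.BB ∧ T.pr h = 1}.Finite := by
  obtain ⟨β1, m1, u1, d1⟩ := T.exists_beta hp (Or.inl rfl)
  obtain ⟨β2, m2, u2, d2⟩ := T.exists_beta hp (Or.inr rfl)
  have n1 : e1 ≠ 0 := by simp [e1]
  have n2 : e2 ≠ 0 := by simp [e2]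
  have mult1 : ∀ {η η' : Cfg S → ZMod 2}, LocF η → LocF η' →
      β1 (ddSupp fun x => η x + η' x) = β1 (ddSupp η) * β1 (ddSupp η') :=
    dd_mult u1 fun Z hZ => T.BB_sq (m1 Z hZ)
  have mult2 : ∀ {η η' : Cfg S → ZMod 2}, LocF η → LocF η' →
      β2 (ddSupp fun x => η x + η' x) = β2 (ddSupp η) * β2 (ddSupp η') :=
    dd_mult u2 fun Z hZ => T.BB_sq (m2 Z hZ)
  let b : (Cfg S → ZMod 2) × (Cfg S → ZMod 2) → H := fun η => β1 (ddSupp η.1) * β2 (ddSupp η.2)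
  have bmul : ∀ η₁ η₂ ζ₁ ζ₂ : Cfg S → ZMod 2, LocF η₁ → LocF η₂ → LocF ζ₁ → LocF ζ₂ →
      b (fun x => η₁ x + ζ₁ x, fun x => η₂ x + ζ₂ x) = b (η₁, η₂) * b (ζ₁, ζ₂) := by
    intro η₁ η₂ ζ₁ ζ₂ l1 l2 l3 l4
    simp only [b]
    rw [mult1 l1 l3, mult2 l2 l4, mul_assoc, mul_assoc, ← mul_assoc (β1 (ddSupp ζ₁)),
      (T.BB_comm (m1 _ (ddSupp_loc l3)) (m2 _ (ddSupp_loc l2))).eq, mul_assoc]
  have hemp : ∀ β : Set (Cfg S) → H,
      (∀ Z Z', Loc Z → Loc Z' → Disjoint Z Z' → β (Z ∪ Z') = β Z * β Z') → β ∅ = 1 := by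
    intro β hu
    have := hu ∅ ∅ Loc.empty Loc.empty (Set.disjoint_empty _)
    rw [Set.union_self] at this
    exact left_eq_mul.1 this
  have supp0 : ddSupp (fun _ : Cfg S => (0 : ZMod 2)) = ∅ := by
    ext x; simp [ddSupp]
  -- projection
  have prβ : ∀ (e : V) (β : Set (Cfg S) → H), e ≠ 0 → InB 1 e →
      (∀ Z Z', Loc Z → Loc Z' → Disjoint Z Z' → β (Z ∪ Z') = β Z * β Z') →
      (∀ Z, Adm4 (0, 0) (0, 1) (e, 0) (e, 1) Z → β Z = T.dd 0 e Z) →
      ∀ η : Cfg S → ZMod 2, LocF η →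
        T.pr (β (ddSupp η)) = ab (ddSupp fun x => η x + η ((-e) +ᵥ x)) := by
    intro e β he hin hu hd η hη
    rw [dd_ab_mult hη (hη.vadd _)]
    show _ = ab (ddSupp η) * ab (tr e (ddSupp η))
    refine dd_box_refine hp 1 (ddSupp_loc hη)
      (p := fun Z => T.pr (β Z) = ab Z * ab (tr e Z)) ?_ ?_
    · intro Z Z' hZ hZ' _ _ hdis h1 h2
      rw [hu Z Z' hZ hZ' hdis, map_mul, h1, h2, show tr e (Z ∪ Z') = tr e Z ∪ tr e Z' from rfl,
        dd_ab_union hZ hZ' hdis, dd_ab_union (hZ.tr e) (hZ'.tr e) (dd_tr_disjoint e hdis),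
        mul_assoc, mul_assoc, ← mul_assoc (ab (tr e Z)), (ab_comm (hZ.tr e) hZ').eq, mul_assoc]
    · intro Z hZ _ hA
      have A := dd_adm4 hZ hA (u := 0) (v := e) ⟨by simp, by simp⟩ hin he.symm
      rw [hd Z A, HatSys.dd, T.pr_DL A, swW_eq_ab e hZ]
      rfl
  have i1 : InB 1 e1 := ⟨by simp [e1], by simp [e1]⟩
  have i2 : InB 1 e2 := ⟨by simp [e2], by simp [e2]⟩
  -- the range of `b`
  let R : Subgroup H :=
    { carrier := {h | ∃ η₁ η₂, LocF η₁ ∧ LocF η₂ ∧ h = b (η₁, η₂)}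
      one_mem' := ⟨fun _ => 0, fun _ => 0, LocF.const _, LocF.const _, by
        simp only [b, supp0, hemp β1 u1, hemp β2 u2, mul_one]⟩
      mul_mem' := by
        rintro _ _ ⟨η₁, η₂, l1, l2, rfl⟩ ⟨ζ₁, ζ₂, l3, l4, rfl⟩
        exact ⟨_, _, dd_locF_add l1 l3, dd_locF_add l2 l4, (bmul _ _ _ _ l1 l2 l3 l4).symm⟩
      inv_mem' := by
        rintro _ ⟨η₁, η₂, l1, l2, rfl⟩
        refine ⟨η₁, η₂, l1, l2, inv_eq_of_mul_eq_one_right (T.BB_sq ?_)⟩
        exact mul_mem (m1 _ (ddSupp_loc l1)) (m2 _ (ddSupp_loc l2)) }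
  have ind : ∀ Z : Set (Cfg S), Loc Z → ∃ η : Cfg S → ZMod 2, LocF η ∧ ddSupp η = Z := by
    classical
    intro Z hZ
    refine ⟨fun x => if x ∈ Z then 1 else 0,
      LocF.comp hZ fun P : Prop => if P then (1 : ZMod 2) else 0, ?_⟩
    ext x
    by_cases hx : x ∈ Z <;> simp [ddSupp, hx]
  have R1 : ∀ Z, Loc Z → β1 Z ∈ R := by
    intro Z hZ
    obtain ⟨η, hη, rfl⟩ := ind Z hZ
    exact ⟨η, fun _ => 0, hη, LocF.const _, by simp only [b, supp0, hemp β2 u2, mul_one]⟩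
  have R2 : ∀ Z, Loc Z → β2 Z ∈ R := by
    intro Z hZ
    obtain ⟨η, hη, rfl⟩ := ind Z hZ
    exact ⟨fun _ => 0, η, LocF.const _, hη, by simp only [b, supp0, hemp β1 u1, one_mul]⟩
  have hBR : T.BB ≤ R := by
    refine (Subgroup.closure_le _).2 ?_
    rintro _ ⟨u, v, W, hW, rfl⟩
    obtain ⟨k1, hk1⟩ := exists_InB u
    obtain ⟨k2, hk2⟩ := exists_InB v
    have hu := perm_InB_mono hk1 (le_max_left k1 k2)
    have hv := perm_InB_mono hk2 (le_max_right k1 k2)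
    generalize max k1 k2 = k at hu hv
    have huv : u ≠ v := by
      rintro rfl
      exact hW.1.1.2.1 rfl
    refine dd_box_refine hp k hW.2.1 (p := fun Z => T.dd u v Z ∈ R) ?_ ?_
    · intro Z Z' hZ hZ' s1 s2 hdis h1 h2
      rw [HatSys.dd, T.DL_union ⟨hW.1, hZ.union hZ', hW.2.2.mono subset_rfl
        (Set.union_subset s1 s2)⟩ hZ hZ' hdis]
      exact mul_mem h1 h2
    · intro Z hZ _ hA
      have i0 : InB k 0 := ⟨by simp, by simp⟩
      have step : ∀ (e w : V), e = e1 ∨ e = e2 → InB k w → InB k (e + w) →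
          (T.dl Z 0 w ∈ R ↔ T.dl Z 0 (e + w) ∈ R) := by
        intro e w he hw hw'
        rw [← T.dl_mul hZ hA i0 hw hw']
        refine (mul_mem_cancel_right ?_).symm
        rcases he with rfl | rfl
        · rw [T.dl_step hZ hA n1 hw hw' d1]; exact R1 _ (hZ.tr _)
        · rw [T.dl_step hZ hA n2 hw hw' d2]; exact R2 _ (hZ.tr _)
      have ax : ∀ m : ℤ, |m| ≤ k → T.dl Z 0 (m, 0) ∈ R := by
        intro m
        induction m using Int.induction_on with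
        | zero => intro _; simp only [dl]; rw [if_pos (show (0 : V) = (0, 0) from rfl)]; exact one_mem _
        | succ n ih =>
          intro h
          have h' : |(n : ℤ)| ≤ k := by rw [abs_le] at h ⊢; omega
          have e : (((n : ℤ) + 1, 0) : V) = e1 + ((n : ℤ), 0) := by simp [e1, add_comm]
          have := step e1 (n, 0) (Or.inl rfl) ⟨h', by simp⟩ (e ▸ ⟨h, by simp⟩)
          rw [e]; exact this.1 (ih h')
        | pred n ih =>
          intro h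
          have h' : |-(n : ℤ)| ≤ k := by rw [abs_le] at h ⊢; omega
          have e : ((-(n : ℤ), 0) : V) = e1 + (-(n : ℤ) - 1, 0) := by simp [e1]
          have := step e1 (-(n : ℤ) - 1, 0) (Or.inl rfl) ⟨h, by simp⟩ (e ▸ ⟨h', by simp⟩)
          exact this.2 (e ▸ ih h')
      have all : ∀ w : V, InB k w → T.dl Z 0 w ∈ R := by
        rintro ⟨m, l⟩ ⟨hm, hl⟩
        simp only at hm hl
        induction l using Int.induction_on with
        | zero => exact ax m hm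
        | succ n ih =>
          have h' : |(n : ℤ)| ≤ k := by rw [abs_le] at hl ⊢; omega
          have e : ((m, (n : ℤ) + 1) : V) = e2 + (m, (n : ℤ)) := by simp [e2, add_comm]
          have := step e2 (m, n) (Or.inr rfl) ⟨hm, h'⟩ (e ▸ ⟨hm, hl⟩)
          rw [e]; exact this.1 (ih h')
        | pred n ih =>
          have h' : |-(n : ℤ)| ≤ k := by rw [abs_le] at hl ⊢; omega
          have e : ((m, -(n : ℤ)) : V) = e2 + (m, -(n : ℤ) - 1) := by simp [e2]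
          have := step e2 (m, -(n : ℤ) - 1) (Or.inr rfl) ⟨hm, hl⟩ (e ▸ ⟨hm, h'⟩)
          exact this.2 (e ▸ ih h')
      have e := T.dl_mul hZ hA i0 hu hv
      have : T.dl Z u v ∈ R := by
        rw [← mul_mem_cancel_left (all u hu), e]
        exact all v hv
      rwa [dl, if_neg huv] at this
  -- boundaries
  have hbd : ∀ ξ : Cfg S → ZMod 2, LocF ξ →
      b (fun x => ξ x + ξ ((-e2) +ᵥ x), fun x => ξ x + ξ ((-e1) +ᵥ x)) = 1 := by
    intro ξ hξ
    simp only [b]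
    rw [mult1 hξ (hξ.vadd _), mult2 hξ (hξ.vadd _)]
    show β1 (ddSupp ξ) * β1 (tr e2 (ddSupp ξ)) * (β2 (ddSupp ξ) * β2 (tr e1 (ddSupp ξ))) = 1
    refine dd_box_refine hp 1 (ddSupp_loc hξ)
      (p := fun Z => β1 Z * β1 (tr e2 Z) * (β2 Z * β2 (tr e1 Z)) = 1) ?_ ?_
    · intro Z Z' hZ hZ' _ _ hdis h1 h2
      rw [show tr e1 (Z ∪ Z') = tr e1 Z ∪ tr e1 Z' from rfl,
        show tr e2 (Z ∪ Z') = tr e2 Z ∪ tr e2 Z' from rfl, u1 Z Z' hZ hZ' hdis,
        u2 Z Z' hZ hZ' hdis, u1 _ _ (hZ.tr _) (hZ'.tr _) (dd_tr_disjoint _ hdis),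
        u2 _ _ (hZ.tr _) (hZ'.tr _) (dd_tr_disjoint _ hdis)]
      let : CommGroup T.BB := { (inferInstance : Group T.BB) with
        mul_comm := fun a b => Subtype.ext (T.BB_comm a.2 b.2).eq }
      have key : ∀ a1 a2 a3 a4 b1 b2 b3 b4 : T.BB, a1 * a2 * (a3 * a4) = 1 →
          b1 * b2 * (b3 * b4) = 1 → a1 * b1 * (a2 * b2) * (a3 * b3 * (a4 * b4)) = 1 := by
        intro a1 a2 a3 a4 b1 b2 b3 b4 h h'
        calc _ = (a1 * a2 * (a3 * a4)) * (b1 * b2 * (b3 * b4)) := by ac_rfl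
          _ = 1 := by rw [h, h', mul_one]
      exact congrArg Subtype.val (key ⟨_, m1 _ hZ⟩ ⟨_, m1 _ (hZ.tr e2)⟩ ⟨_, m2 _ hZ⟩
        ⟨_, m2 _ (hZ.tr e1)⟩ ⟨_, m1 _ hZ'⟩ ⟨_, m1 _ (hZ'.tr e2)⟩ ⟨_, m2 _ hZ'⟩
        ⟨_, m2 _ (hZ'.tr e1)⟩ (Subtype.ext h1) (Subtype.ext h2))
    · intro Z hZ _ hA
      have i0 : InB 1 0 := ⟨by simp, by simp⟩
      have i3 : InB 1 (e1 + e2) := ⟨by simp [e1, e2], by simp [e1, e2]⟩
      have s1 := T.dl_step hZ hA n1 i0 (by simpa using i1) d1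
      have s2 := T.dl_step hZ hA n2 i0 (by simpa using i2) d2
      have s3 := T.dl_step hZ hA n1 i2 i3 d1
      have s4 := T.dl_step hZ hA n2 i1 (add_comm e1 e2 ▸ i3) d2
      rw [add_zero, tr_zero] at s1 s2
      rw [add_comm e2 e1] at s4
      have t1 := T.dl_mul hZ hA i0 i1 i3
      have t2 := T.dl_mul hZ hA i0 i2 i3
      rw [s1, s4] at t1
      rw [s2, s3] at t2
      have c1 := T.BB_comm (m1 _ (hZ.tr e2)) (m2 _ hZ)
      have c2 := T.BB_comm (mul_mem (m2 _ hZ) (m1 _ (hZ.tr e2))) (m2 _ (hZ.tr e1))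
      rw [mul_assoc, ← mul_assoc (β1 (tr e2 Z)), c1.eq, c2.eq, ← mul_assoc, t1, ← t2]
      exact T.BB_sq (mul_mem (m2 _ hZ) (m1 _ (hZ.tr e2)))
  obtain ⟨Z, hZf, hZc, hZ⟩ := h1
  refine (hZf.image b).subset ?_
  rintro h ⟨hh, hpr⟩
  obtain ⟨η₁, η₂, l1, l2, rfl⟩ := hBR hh
  have cyc : IsCycle η₁ η₂ := by
    refine ⟨l1, l2, fun x => ?_⟩
    simp only [b, map_mul] at hpr
    have l3 := dd_locF_add l1 (l1.vadd (-e1))
    have l4 := dd_locF_add l2 (l2.vadd (-e2))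
    rw [prβ e1 β1 n1 i1 u1 d1 η₁ l1, prβ e2 β2 n2 i2 u2 d2 η₂ l2, ← dd_ab_mult l3 l4] at hpr
    have := dd_ab_eq_one (dd_locF_add l3 l4) hpr x
    rwa [← add_assoc] at this
  obtain ⟨ζ, hζ, ξ, hξ, a1, a2⟩ := hZ η₁ η₂ cyc
  refine ⟨ζ, hζ, ?_⟩
  have := bmul ζ.1 ζ.2 _ _ (hZc ζ hζ).1 (hZc ζ hζ).2.1 (dd_locF_add hξ (hξ.vadd (-e2)))
    (dd_locF_add hξ (hξ.vadd (-e1)))
  rw [hbd ξ hξ, mul_one] at this
  rw [← this]
  congr 2
  · funext x; rw [a1, add_assoc]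
  · funext x; rw [a2, add_assoc]

end AutSys

end Crest.Agent.R189
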