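import Crest.Agent.R189.Tile

/-!
Row 189.  The model tiling satisfies the rule; recurrent tiles.
-/

set_option autoImplicit false

namespace Crest.Agent.R189

lemma tm_divmod {N β : ℤ} (hN : 0 < N) (h0 : 0 ≤ β) (h1 : β < 3 * N) :
    (β < N ∧ β / N = 0 ∧ β % N = β) ∨ (N ≤ β ∧ β < 2 * N ∧ β / N = 1 ∧ β % N = β - N) ∨
      (2 * N ≤ β ∧ β / N = 2 ∧ β % N = β - 2 * N) := by
  have key : ∀ q : ℤ, q * N ≤ β → β < q * N + N → β / N = q ∧ β % N = β - q * N := by
    intro q h2 h3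
    exact (Int.ediv_emod_unique hN).2 ⟨by ring, by linarith, by linarith⟩
  by_cases c1 : β < N
  · obtain ⟨e1, e2⟩ := key 0 (by linarith) (by linarith)
    exact Or.inl ⟨c1, e1, by rw [e2]; ring⟩
  · by_cases c2 : β < 2 * N
    · obtain ⟨e1, e2⟩ := key 1 (by linarith) (by linarith)
      exact Or.inr (Or.inl ⟨by linarith, c2, e1, by rw [e2]; ring⟩)
    · obtain ⟨e1, e2⟩ := key 2 (by linarith) (by linarith)
      exact Or.inr (Or.inr ⟨by linarith, e1, e2⟩)

lemma tm_cmp_done {u i : ℤ} : cmp3 u i = St3.done ↔ u < i := by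
  unfold cmp3
  split_ifs with h1 h2 <;> simp [h1]
lemma tm_cmp_wait {u i : ℤ} : cmp3 u i = St3.wait ↔ i < u := by
  unfold cmp3
  split_ifs with h1 h2 <;> simp <;> omega

/-- one step of the counter -/
lemma tm_step {N β β' : ℤ} (hN : 0 < N) (h0 : 0 ≤ β') (h1 : β < 3 * N)
    (h : β = β' + 1 ∨ (β' = 3 * N - 1 ∧ β = 0)) :
    (β' % N = N - 1 → β % N = 0) ∧ (β' % N ≠ N - 1 → β % N = β' % N + 1) ∧
      ((β / N : ℤ) : ZMod 3) = ((β' / N : ℤ) : ZMod 3) + (if β' % N = N - 1 then 1 else 0) := by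
  have h2 : 0 ≤ β := by omega
  have h3 : β' < 3 * N := by omega
  rcases tm_divmod hN h2 h1 with ⟨a1, a2, a3⟩ | ⟨a0, a1, a2, a3⟩ | ⟨a1, a2, a3⟩ <;>
  rcases tm_divmod hN h0 h3 with ⟨b1, b2, b3⟩ | ⟨b0, b1, b2, b3⟩ | ⟨b1, b2, b3⟩ <;>
  rw [a2, a3, b2, b3] <;>
  refine ⟨by omega, by omega, ?_⟩ <;>
  split_ifs with hc <;>
  first | decide | (exfalso; omega)

lemma tm_ne_zero {N β : ℤ} (hN : 0 < N) (h0 : 0 ≤ β) (h1 : β < 3 * N) :
    ((β / N : ℤ) : ZMod 3) ≠ 0 ↔ N ≤ β := by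
  rcases tm_divmod hN h0 h1 with ⟨a1, a2, a3⟩ | ⟨a0, a1, a2, a3⟩ | ⟨a1, a2, a3⟩ <;> rw [a2]
  · exact iff_of_false (by decide) (by omega)
  · exact iff_of_true (by decide) (by omega)
  · exact iff_of_true (by decide) (by omega)

lemma tm_last {N β : ℤ} (hN : 0 < N) (h0 : 0 ≤ β) (h1 : β < 3 * N) :
    (((β / N : ℤ) : ZMod 3) = 2 ∧ β % N = N - 1) ↔ β = 3 * N - 1 := by
  rcases tm_divmod hN h0 h1 with ⟨a1, a2, a3⟩ | ⟨a0, a1, a2, a3⟩ | ⟨a1, a2, a3⟩ <;> rw [a2, a3]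
  · exact iff_of_false (fun h => absurd h.1 (by decide)) (by omega)
  · exact iff_of_false (fun h => absurd h.1 (by decide)) (by omega)
  · exact ⟨fun h => by omega, fun h => ⟨by decide, by omega⟩⟩

/-- The crossing rule holds in the model.  Cases `b = a + 1` (then `D1`) and `b ≥ a + 3`; use the
`idx_pred_*` lemmas.  (Checked numerically.) -/
theorem cross_line {a b : ℕ} {x y : ℤ} (ha : Ex a x) (hb : Ex b y) (hab : a < b)
    (hp : (a + 1) % 2 = b % 2) :
    Cross (line a x (y - 1)) (line a x y) (line b y (x - 1)) (line b y x) := by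
  have hM : (0 : ℤ) < Mn a := by exact_mod_cast Mn_pos a
  have hN : (0 : ℤ) < Mn (a + 1) := by exact_mod_cast Mn_pos (a + 1)
  have hM1 : (Mn (a + 1) : ℤ) = 2 * Mn a := by exact_mod_cast Mn_succ a
  have hM2 : (Mn (a + 2) : ℤ) = 2 * Mn (a + 1) := by exact_mod_cast Mn_succ (a + 1)
  have hZ1 : (Zn (a + 1) : ℤ) = 3 * Mn (a + 1) := by exact_mod_cast Zn_eq (a + 1)
  have hy1 : (sn (a + 1) : ℤ) ∣ y := (hb.dvd_iff hp.symm).2 hab
  have hx1 : idx (b + 1) (x - 1) = idx (b + 1) x :=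
    idx_pred_of_not_dvd fun h => by
      have := (ha.dvd_iff (b := b + 1) (by omega)).1 h
      omega
  have hE : 1 ≤ a → idx (a - 1) (y - 1) = 3 * Mn (a - 1) - 1 ∧ idx (a - 1) y = 0 := fun h => by
    have := idx_pred_of_high (a := a - 1) (x := y) (by rwa [show a - 1 + 2 = a + 1 by omega])
    rwa [Zn_eq, Nat.cast_mul] at this
  have hM0 : (0 : ℤ) < Mn (a - 1) := by exact_mod_cast Mn_pos (a - 1)
  have b0 := idx_nonneg (a + 1) y
  have b1 := idx_lt (a + 1) y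
  have c0 := idx_nonneg (a + 1) (y - 1)
  have c1 := idx_lt (a + 1) (y - 1)
  rw [hZ1] at b1 c1
  have hcase : (b = a + 1 ∧ idx (a + 1) y = idx (a + 1) (y - 1) + 1) ∨
      (a + 3 ≤ b ∧ idx (a + 1) (y - 1) = 3 * Mn (a + 1) - 1 ∧ idx (a + 1) y = 0) := by
    by_cases h : b = a + 1
    · subst h
      have := idx_pred_of_ex hb
      exact Or.inl ⟨rfl, by omega⟩
    · have h3 : a + 3 ≤ b := by omega
      have := idx_pred_of_high (a := a + 1) (x := y) ((hb.dvd_iff (by omega)).2 h3)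
      rw [hZ1] at this
      exact Or.inr ⟨h3, this⟩
  have hstep := tm_step hN c0 b1 (hcase.imp (fun h => h.2) (fun h => h.2))
  have hD : D1 (line a x (y - 1)) ↔ idx (a + 1) (y - 1) ≠ 3 * Mn (a + 1) - 1 := by
    unfold D1
    simp only [line, decide_eq_true_eq]
    exact not_congr (tm_last hN c0 c1)
  have hD1 : D1 (line a x (y - 1)) → b = a + 1 ∧ idx (a + 1) y = idx (a + 1) (y - 1) + 1 :=
    fun h => by
      rcases hcase with h' | h'
      · exact h'
      · exact absurd h'.2.1 (hD.1 h)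
  have hD2 : ¬ D1 (line a x (y - 1)) →
      a + 3 ≤ b ∧ idx (a + 1) (y - 1) = 3 * Mn (a + 1) - 1 ∧ idx (a + 1) y = 0 :=
    fun h => by
      rcases hcase with h' | h'
      · exact absurd (hD.2 (by omega)) h
      · exact h'
  have g0 : 0 ≤ idx (a + 2) x % Mn (a + 2) := Int.emod_nonneg _ (by omega)
  have g1 : idx (a + 2) x % Mn (a + 2) < Mn (a + 2) := Int.emod_lt_of_pos _ (by omega)
  have r0 : 0 ≤ idx (a + 1) (y - 1) % Mn (a + 1) := Int.emod_nonneg _ (by omega)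
  refine ⟨rfl, rfl, rfl, rfl, rfl, rfl, rfl, rfl, rfl, rfl, ?_, ?_, ?_, ?_, ?_, ?_, ?_, ?_, ?_, ?_,
    ?_, ?_, ?_, ?_, ?_, ?_, ?_, ?_⟩
  · simp only [line, decide_eq_true_eq]; omega
  · simp only [line, decide_eq_true_eq]; omega
  · simp only [line, hx1]
  · simp only [line, hx1]
  · simp only [line, hx1]
  · simp only [line, hx1]
  · simp only [line, decide_eq_false_iff_not]; omega
  · simp only [line]
    by_cases h : a = 0
    · simp [h]
    · have := hE (by omega)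
      rw [decide_eq_false h, Bool.not_false, decide_eq_true_eq]
      omega
  · simp only [line, decide_eq_false_iff_not]
    rintro ⟨h1, h2⟩
    have := hE h1
    omega
  · simp only [line, decide_eq_false_iff_not]
    split_ifs with hk
    · rw [tm_cmp_done, Ne, tm_cmp_wait]
      obtain ⟨s1, s2, -⟩ := hstep
      by_cases ht : idx (a + 1) (y - 1) % Mn (a + 1) = Mn (a + 1) - 1
      · have := s1 ht
        omega
      · have := s2 ht
        omega
    · simp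
  · simp only [line, decide_eq_true_eq]
    exact hstep.2.2
  · intro h
    obtain ⟨rfl, -⟩ := hD1 h
    have := idx_pred_of_ex ha
    simp only [line, Nat.add_sub_cancel, this, decide_eq_decide]
    omega
  · intro h
    obtain ⟨rfl, h2⟩ := hD1 h
    simp only [line, decide_eq_true_eq]
    rw [tm_ne_zero hN c0 c1, tm_ne_zero hN b0 b1]
    omega
  · intro h
    obtain ⟨rfl, h2⟩ := hD1 h
    simp only [line, hx1, and_self]
  · intro h
    obtain ⟨rfl, h2⟩ := hD1 h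
    simp only [line, hx1, decide_eq_true_eq]
    intro hap
    rw [if_pos hap, if_pos hap, Ne, tm_cmp_wait]
    refine ⟨?_, rfl⟩
    change _ ↔ ¬ idx (a + 2) x % Mn (a + 2) < _
    split_ifs with h3
    · rw [tm_cmp_done]; omega
    · exact iff_of_true rfl (by omega)
  · intro h
    obtain ⟨rfl, h2⟩ := hD1 h
    simp only [line, hx1, decide_eq_false_iff_not]
    intro hap
    rw [if_neg hap, if_neg hap, if_neg (by omega)]
    exact ⟨rfl, rfl⟩
  · intro h
    obtain ⟨h1, -⟩ := hD2 h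
    have : idx (b - 1) (x - 1) = idx (b - 1) x :=
      idx_pred_of_not_dvd fun h => by
        have := (ha.dvd_iff (b := b - 1) (by omega)).1 h
        omega
    simp only [line, this]
  · intro h
    obtain ⟨h1, h2, h3⟩ := hD2 h
    simp only [line, decide_eq_true_eq]
    rw [if_pos (by omega), if_neg (show ¬ (Mn (a + 1) : ℤ) ≤ idx (a + 1) y by omega)]
    refine ⟨?_, rfl⟩
    unfold cmp3
    rw [if_neg (by omega)]
    by_cases h4 : idx (a + 2) x % Mn (a + 2) = Mn (a + 2) - 1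
    · rw [if_pos h4, if_pos (by omega)]
    · rw [if_neg h4, if_neg (by omega)]

open Classical in
/-- rank of a non-zero position among the ranks of parity `c` -/
noncomputable def rk (c : ℕ) (x : ℤ) : ℕ :=
  if h : ∃ a, a % 2 = c % 2 ∧ Ex a x then h.choose else 0

lemma rk_spec (c : ℕ) {x : ℤ} (hx : x ≠ 0) : rk c x % 2 = c % 2 ∧ Ex (rk c x) x := by
  have h := exists_ex c hx
  unfold rk
  rw [dif_pos h]
  exact h.choose_spec
lemma rk_eq {c a : ℕ} {x : ℤ} (hp : a % 2 = c % 2) (h : Ex a x) : rk c x = a := by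
  have hx : x ≠ 0 := by
    rintro rfl
    exact h.2 (dvd_zero _)
  obtain ⟨h1, h2⟩ := rk_spec c hx
  exact h2.unique h (by omega)

/-- the model tile; columns have odd ranks -/
noncomputable def MT (X Y : ℤ) : Tile :=
  ⟨line (rk 0 Y) Y (X - 1), line (rk 0 Y) Y X, line (rk 1 X) X (Y - 1), line (rk 1 X) X Y⟩

lemma MT_hor (X Y : ℤ) : (MT X Y).R = (MT (X + 1) Y).L := by
  simp only [MT, add_sub_cancel_right]
lemma MT_ver (X Y : ℤ) : (MT X Y).T = (MT X (Y + 1)).B := by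
  simp only [MT, add_sub_cancel_right]
theorem MT_agree (r : ℕ) {X Y : ℤ} (hX : X ≠ 0) (hY : Y ≠ 0) : AgreeT r 1 X Y (MT X Y) := by
  obtain ⟨p1, e1⟩ := rk_spec 1 hX
  obtain ⟨p0, e0⟩ := rk_spec 0 hY
  have ok : ∀ a x y, LineOK r a x y (line a x y) := fun a x y =>
    ⟨rfl, rfl, rfl, rfl, fun _ => ⟨rfl, rfl, rfl⟩, fun _ => ⟨rfl, rfl, rfl⟩⟩
  have hc : rk 1 X < rk 0 Y → ColLow (MT X Y) := fun h => cross_line e1 e0 h (by omega)
  have hr : rk 0 Y < rk 1 X → RowLow (MT X Y) := fun h => cross_line e0 e1 h (by omega)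
  refine ⟨?_, ?_, ?_⟩
  · rcases lt_trichotomy (rk 1 X) (rk 0 Y) with h | h | h
    · exact Or.inl (hc h)
    · omega
    · exact Or.inr (hr h)
  · intro a ha _ hex
    obtain rfl : rk 1 X = a := rk_eq ha hex
    refine ⟨ok _ _ _, ok _ _ _, fun h => hc ?_⟩
    exact (e0.dvd_iff (by omega)).1 h
  · intro a ha _ hex
    obtain rfl : rk 0 Y = a := rk_eq (by omega) hex
    refine ⟨ok _ _ _, ok _ _ _, fun h => hr ?_⟩
    exact (e1.dvd_iff (by omega)).1 h

/-- tiles at crossings of two lines three levels down are determined -/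
lemma AgreeT.eq_of_low {r c a b : ℕ} {X Y : ℤ} {t t' : Tile} (h : AgreeT r c X Y t)
    (h' : AgreeT r c X Y t') (ha : Ex a X) (hac : a % 2 = c % 2) (har : a + 3 ≤ r) (hb : Ex b Y)
    (hbc : b % 2 = (c + 1) % 2) (hbr : b + 3 ≤ r) : t = t' := by
  obtain ⟨a1, a2, -⟩ := h.2.1 a hac (by omega) ha
  obtain ⟨a3, a4, -⟩ := h'.2.1 a hac (by omega) ha
  obtain ⟨b1, b2, -⟩ := h.2.2 b hbc (by omega) hb
  obtain ⟨b3, b4, -⟩ := h'.2.2 b hbc (by omega) hb
  exact Tile.ext ((b1.eq hbr).trans (b3.eq hbr).symm) ((b2.eq hbr).trans (b4.eq hbr).symm)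
    ((a1.eq har).trans (a3.eq har).symm) ((a2.eq har).trans (a4.eq har).symm)

/-- both lines through `(X, Y)` are high at level `K` -/
def HighAt (K : ℕ) (X Y : ℤ) : Prop := (sn (hl K 1) : ℤ) ∣ X ∧ (sn (hl K 0) : ℤ) ∣ Y

lemma HighAt.mono {K K' : ℕ} {X Y : ℤ} (h : HighAt K' X Y) (hK : K ≤ K') : HighAt K X Y := by
  refine ⟨dvd_trans ?_ h.1, dvd_trans ?_ h.2⟩
  · exact Int.natCast_dvd_natCast.2 (sn_dvd (hl_mono hK 1) (by rw [hl_par, hl_par]))
  · exact Int.natCast_dvd_natCast.2 (sn_dvd (hl_mono hK 0) (by rw [hl_par, hl_par]))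

/-- tiles occurring at crossings of arbitrarily high lines -/
def Rec (t : Tile) : Prop := ∀ K, ∃ X Y : ℤ, X ≠ 0 ∧ Y ≠ 0 ∧ HighAt K X Y ∧ MT X Y = t

theorem exists_r0 : ∃ r : ℕ, 4 ≤ r ∧ r % 2 = 0 ∧
    ∀ X Y : ℤ, X ≠ 0 → Y ≠ 0 → HighAt r X Y → Rec (MT X Y) := by
  classical
  have h1 : ∀ t : Tile, ∃ K : ℕ, ¬ Rec t → ∀ X Y : ℤ, X ≠ 0 → Y ≠ 0 → HighAt K X Y → MT X Y ≠ t := by
    intro t
    by_cases h : Rec t
    · exact ⟨0, fun h' => absurd h h'⟩
    · have h' := h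
      unfold Rec at h'
      push Not at h'
      obtain ⟨K, hK⟩ := h'
      exact ⟨K, fun _ => hK⟩
  choose K hK using h1
  obtain ⟨B, hB⟩ := (Set.finite_range K).bddAbove
  refine ⟨2 * B + 4, by omega, by omega, fun X Y hX hY hH => ?_⟩
  by_contra hn
  have := hB (Set.mem_range_self (MT X Y))
  exact hK _ hn X Y hX hY (hH.mono (by omega)) rfl

end Crest.Agent.R189
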