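import Crest.Agent.R189.Anchor
import Crest.Agent.R189.TModel

/-!
Row 189.  Determination lemmas for tilings with hierarchical structure.
-/

set_option autoImplicit false

namespace Crest.Agent.R189

/-- level-`r` knowledge for a tiling, columns of parity `c` -/
def AgrC (x : V → Tile) (r c : ℕ) (o : V) : Prop := ∀ v, AgreeT r c (v.1 + o.1) (v.2 + o.2) (x v)

/-- transposed tiling -/
def Cfg.tp (x : Cfg TileW) : Cfg TileW := ⟨fun v => Tile.tp (x.1 (V.swap v)),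
  ⟨fun v => x.2.2 (V.swap v), fun v => x.2.1 (V.swap v)⟩⟩

lemma AgrC.tp {x : Cfg TileW} {r c : ℕ} {o : V} (h : AgrC x.1 r c o) :
    AgrC x.tp.1 r (c + 1) (V.swap o) := fun v => (h (V.swap v)).tp

lemma AgreeT.det_col {r c a : ℕ} {X Y : ℤ} {t : Tile} (h : AgreeT r c X Y t) (ha : Ex a X)
    (hac : a % 2 = c % 2) (har : a + 3 ≤ r) : t.B = line a X (Y - 1) ∧ t.T = line a X Y :=
  ⟨(h.2.1 a hac (by omega) ha).1.eq har, (h.2.1 a hac (by omega) ha).2.1.eq har⟩

lemma AgreeT.det_row {r c b : ℕ} {X Y : ℤ} {t : Tile} (h : AgreeT r c X Y t) (hb : Ex b Y)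
    (hbc : b % 2 = (c + 1) % 2) (hbr : b + 3 ≤ r) : t.L = line b Y (X - 1) ∧ t.R = line b Y X :=
  ⟨(h.2.2 b hbc (by omega) hb).1.eq hbr, (h.2.2 b hbc (by omega) hb).2.1.eq hbr⟩

lemma det_idx_congr {a b : ℕ} (hb : a + 2 ≤ b) (hp : a % 2 = b % 2) {x x' : ℤ}
    (h : (sn b : ℤ) ∣ x' - x) : idx a x' = idx a x := by
  obtain ⟨k, hk⟩ := h
  rw [show x' = x + k * sn b by linarith, idx_add_mul hb hp]

lemma det_ex_congr {a b : ℕ} (hb : a + 2 ≤ b) (hp : a % 2 = b % 2) {x x' : ℤ}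
    (h : (sn b : ℤ) ∣ x' - x) (hx : Ex a x) : Ex a x' := by
  obtain ⟨k, hk⟩ := h
  rw [show x' = x + k * sn b by linarith]
  exact hx.add_mul hb hp k

lemma det_idx_cell {a : ℕ} {o u : ℤ} (ho : (sn a : ℤ) ∣ o) (h0 : 0 ≤ u) (h1 : u < sn a) :
    idx a (u + o) = idx a o := by
  obtain ⟨k, rfl⟩ := ho
  have h2 := idx_mul_add a k 0 le_rfl (by omega)
  rw [add_zero] at h2
  rw [add_comm, mul_comm, idx_mul_add a k u h0 h1, h2]

lemma det_idx_cell' {a : ℕ} {o u : ℤ} (ho : (sn a : ℤ) ∣ o) (h0 : -(sn a : ℤ) ≤ u) (h1 : u < 0) :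
    idx a (u + o) = idx a (o - 1) := by
  have ho' : (sn a : ℤ) ∣ o - sn a := ho.sub dvd_rfl
  rw [show u + o = (u + sn a) + (o - sn a) by ring, det_idx_cell ho' (by omega) (by omega),
    show o - 1 = (sn a - 1) + (o - sn a) by ring, det_idx_cell ho' (by omega) (by omega)]

lemma det_idx_small {a : ℕ} {o u m : ℤ} (ho : (sn (a + 2) : ℤ) ∣ o) (h0 : 0 ≤ u)
    (h1 : u < m * sn a) : idx a (u + o) < m := by
  have hs : (0 : ℤ) < sn a := by exact_mod_cast sn_pos a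
  rw [det_idx_congr (x := u) le_rfl (by omega) (by rwa [add_sub_cancel_left])]
  have h2 : u / sn a < m := Int.ediv_lt_of_lt_mul hs h1
  have h3 : 0 ≤ u / sn a := Int.ediv_nonneg h0 hs.le
  have hZ : (0 : ℤ) < Zn a := lt_of_le_of_lt (idx_nonneg a 0) (idx_lt a 0)
  have h4 := Int.emod_add_mul_ediv (u / sn a) (Zn a)
  have h5 : 0 ≤ (Zn a : ℤ) * (u / sn a / Zn a) := mul_nonneg hZ.le (Int.ediv_nonneg h3 hZ.le)
  unfold idx
  omega

lemma det_not_dvd {s o u : ℤ} (ho : s ∣ o) (h0 : 0 < u) (h1 : u < s) : ¬ s ∣ u + o := fun h =>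
  absurd (Int.le_of_dvd h0 ((dvd_add_left ho).1 h)) (by omega)

/-- a position which is not a multiple of `sn (a + 2)` has rank at most `a` -/
lemma det_low {a c : ℕ} (hac : a % 2 = c % 2) {x : ℤ} (h : ¬ (sn (a + 2) : ℤ) ∣ x) :
    ∃ b, b % 2 = c % 2 ∧ b ≤ a ∧ Ex b x := by
  rcases high_or_ex (a + 2) c x with h1 | ⟨b, h1, h2, h3⟩
  · have : hl (a + 2) c = a + 2 := by unfold hl; rw [if_pos (by omega)]
    rw [this] at h1
    exact (h h1).elim
  · exact ⟨b, h1, by omega, h3⟩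

lemma det_E {a q : ℕ} (hq : a + 1 ≤ q) (hp : (a + 1) % 2 = q % 2) {x y x' y' : ℤ}
    (h : (sn q : ℤ) ∣ y' - y) : (line a x' y').E = (line a x y).E := by
  rcases Nat.eq_zero_or_pos a with rfl | ha
  · simp [line]
  · have e2 : idx (a - 1) y' = idx (a - 1) y := det_idx_congr (by omega) (by omega) h
    simp only [line, e2]

lemma det_line_congr {a p q : ℕ} (hp : a + 4 ≤ p) (hp' : a % 2 = p % 2) (hq : a + 3 ≤ q)
    (hq' : (a + 1) % 2 = q % 2) {x y x' y' : ℤ} (hx : (sn p : ℤ) ∣ x' - x)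
    (hy : (sn q : ℤ) ∣ y' - y) : line a x' y' = line a x y := by
  have e1 : idx a x' = idx a x := det_idx_congr (by omega) hp' hx
  have e2 : idx (a + 1) y' = idx (a + 1) y := det_idx_congr (by omega) hq' hy
  have e3 : idx (a + 2) x' = idx (a + 2) x := det_idx_congr (by omega) (by omega) hx
  have e4 := det_E (x := x) (x' := x') (by omega) hq' hy
  refine LS.ext ?_ ?_ ?_ ?_ ?_ ?_ ?_ ?_ e4 rfl <;> simp only [line, e1, e2, e3]

/-- lines whose copy is known and whose check is inactive -/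
lemma det_line_cp {a p q : ℕ} (hp : a + 2 ≤ p) (hp' : a % 2 = p % 2) (hq : a + 3 ≤ q)
    (hq' : (a + 1) % 2 = q % 2) {x y x' y' : ℤ} (hx : (sn p : ℤ) ∣ x' - x)
    (hy : (sn q : ℤ) ∣ y' - y) (hi : idx (a + 1) y < Mn (a + 1))
    (hcp : (line a x' y').cp = (line a x y).cp) (hct : (line a x' y').ct = (line a x y).ct) :
    line a x' y' = line a x y := by
  have e1 : idx a x' = idx a x := det_idx_congr (by omega) hp' hx
  have e2 : idx (a + 1) y' = idx (a + 1) y := det_idx_congr (by omega) hq' hy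
  have e4 := det_E (x := x) (x' := x') (by omega) hq' hy
  refine LS.ext ?_ ?_ ?_ hcp hct ?_ ?_ ?_ e4 rfl <;> simp only [line, e1, e2, if_neg hi.not_ge]

lemma det_sn_lt (a : ℕ) : 2 * (sn a : ℤ) < sn (a + 2) := by
  have hs : (0 : ℤ) < sn a := by exact_mod_cast sn_pos a
  have hM : (1 : ℤ) ≤ Mn a := by exact_mod_cast Mn_pos a
  rw [sn_add_two, Zn_eq]
  push_cast
  nlinarith

lemma Cfg.det_ver (x : Cfg TileW) (X Y : ℤ) : Tile.B (x.1 (X, Y + 1)) = Tile.T (x.1 (X, Y)) := by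
  have := x.2.2 (X, Y)
  rw [show ((X, Y) : V) + e2 = (X, Y + 1) by simp [e2]] at this
  exact this.symm

lemma Cfg.det_hor (x : Cfg TileW) (X Y : ℤ) : Tile.L (x.1 (X + 1, Y)) = Tile.R (x.1 (X, Y)) := by
  have := x.2.1 (X, Y)
  rw [show ((X, Y) : V) + e1 = (X + 1, Y) by simp [e1]] at this
  exact this.symm

private lemma strip_high {x : Cfg TileW} {k c : ℕ} (hc : k % 2 = c % 2) {o : V}
    (hx : AgrC x.1 (k + 5) c o) (h1 : (sn (k + 4) : ℤ) ∣ o.1) (h2 : (sn (k + 5) : ℤ) ∣ o.2)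
    {Y : ℤ} (hY : 1 ≤ Y) (hY' : Y < sn (k + 3)) :
    Tile.B (x.1 (sn (k + 4), Y)) = Tile.B (x.1 (sn (k + 4), 1)) ∧
      Tile.T (x.1 (sn (k + 4), Y)) = Tile.B (x.1 (sn (k + 4), 1)) := by
  have key : ∀ Z : ℤ, 1 ≤ Z → Z < sn (k + 3) →
      Tile.T (x.1 (sn (k + 4), Z)) = Tile.B (x.1 (sn (k + 4), Z)) := fun Z hZ hZ' =>
    AgreeT.col_eq_of_high (K := k + 3) (by omega) ((hx (sn (k + 4), Z)).mono (by omega))
      (dvd_rfl.add h1) (det_not_dvd (geo_sn_dvd (by omega) (by omega) h2) (by omega) hZ')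
  have h3 : Tile.B (x.1 (sn (k + 4), Y)) = Tile.B (x.1 (sn (k + 4), 1)) :=
    geo_chain (f := fun Z => Tile.B (x.1 (sn (k + 4), Z))) hY fun Z hZ hZ' =>
      (x.det_ver _ Z).trans (key Z hZ (by omega))
  exact ⟨h3, (key Y hY hY').trans h3⟩

/-- A thin horizontal strip just above a high row.  Rows `1 … n` have rank `≤ K - 3`; columns of rank
`≤ K - 4` are known at level `K`; columns of rank `K - 2` are known at level `K + 1`: `ch = done`
(`idx (K-1) = 0`), `cp, ct` depend only on the cell; the high column keeps its state (`¬ D1`). -/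
theorem strip_det {x y : Cfg TileW} {K c : ℕ} (hK : 4 ≤ K) (hc : K % 2 = c % 2) {o o' : V}
    (hx : AgrC x.1 (K + 1) c o) (hy : AgrC y.1 (K + 1) c o')
    (h1 : (sn K : ℤ) ∣ o.1) (h2 : (sn (K + 1) : ℤ) ∣ o.2)
    (h1' : (sn K : ℤ) ∣ o'.1) (h2' : (sn (K + 1) : ℤ) ∣ o'.2) {n : ℤ} (hn : n < sn (K - 2))
    (e1 : x.1 (sn (K - 2), 1) = y.1 (sn (K - 2), 1)) (e2 : x.1 (sn K, 1) = y.1 (sn K, 1))
    {X Y : ℤ} (hX : 1 ≤ X ∧ X ≤ sn K + n) (hY : 1 ≤ Y ∧ Y ≤ n) : x.1 (X, Y) = y.1 (X, Y) := by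
  obtain ⟨k, rfl⟩ : ∃ k, K = k + 4 := ⟨K - 4, by omega⟩
  change n < sn (k + 2) at hn
  change x.1 (sn (k + 2), 1) = y.1 (sn (k + 2), 1) at e1
  have d1 : ∀ u : ℤ, (sn (k + 4) : ℤ) ∣ u + o'.1 - (u + o.1) := fun u => by
    rw [add_sub_add_left_eq_sub]; exact h1'.sub h1
  have d2 : ∀ u : ℤ, (sn (k + 5) : ℤ) ∣ u + o'.2 - (u + o.2) := fun u => by
    rw [add_sub_add_left_eq_sub]; exact h2'.sub h2
  have d1' : ∀ u : ℤ, (sn (k + 4) : ℤ) ∣ u + o'.1 - 1 - (u + o.1 - 1) := fun u => by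
    rw [sub_sub_sub_cancel_right]; exact d1 u
  have d2' : ∀ u : ℤ, (sn (k + 5) : ℤ) ∣ u + o'.2 - 1 - (u + o.2 - 1) := fun u => by
    rw [sub_sub_sub_cancel_right]; exact d2 u
  have s23 : (sn (k + 2) : ℤ) ≤ sn (k + 3) := by exact_mod_cast sn_mono (by omega)
  have s24 : 2 * (sn (k + 2) : ℤ) < sn (k + 4) := det_sn_lt (k + 2)
  have s0 : (0 : ℤ) < sn (k + 2) := by exact_mod_cast sn_pos _
  have hxa := hx (X, Y)
  have hya := hy (X, Y)
  have hrow : Tile.L (x.1 (X, Y)) = Tile.L (y.1 (X, Y)) ∧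
      Tile.R (x.1 (X, Y)) = Tile.R (y.1 (X, Y)) := by
    obtain ⟨b, b1, b2, b3⟩ := det_low (a := k + 1) (c := c + 1) (by omega) (x := Y + o.2)
      (det_not_dvd (s := sn (k + 3)) (geo_sn_dvd (by omega) (by omega) h2) (by omega) (by omega))
    have b4 := det_ex_congr (by omega) (by omega) (d2 Y) b3
    obtain ⟨l1, l2⟩ := hxa.det_row b3 b1 (by omega)
    obtain ⟨l3, l4⟩ := hya.det_row b4 b1 (by omega)
    rw [l1, l2, l3, l4]
    exact ⟨(det_line_congr (by omega) (by omega) (by omega) (by omega) (d2 Y) (d1' X)).symm,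
      (det_line_congr (by omega) (by omega) (by omega) (by omega) (d2 Y) (d1 X)).symm⟩
  have hcol : Tile.B (x.1 (X, Y)) = Tile.B (y.1 (X, Y)) ∧
      Tile.T (x.1 (X, Y)) = Tile.T (y.1 (X, Y)) := by
    by_cases hh : X = sn (k + 4)
    · subst hh
      obtain ⟨a1, a2⟩ := strip_high (by omega) hx h1 h2 hY.1 (by omega)
      obtain ⟨a3, a4⟩ := strip_high (by omega) hy h1' h2' hY.1 (by omega)
      rw [a1, a2, a3, a4, e2]
      exact ⟨rfl, rfl⟩
    have hnd : ¬ (sn (k + 4) : ℤ) ∣ X + o.1 := by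
      rcases lt_or_gt_of_ne hh with h | h
      · exact det_not_dvd h1 (by omega) h
      · rw [show X + o.1 = X - sn (k + 4) + (o.1 + sn (k + 4)) by ring]
        exact det_not_dvd (h1.add dvd_rfl) (by omega) (by omega)
    obtain ⟨a, a1, a2, a3⟩ := det_low (a := k + 2) (c := c) (by omega) hnd
    have a4 := det_ex_congr (by omega) (by omega) (d1 X) a3
    obtain ⟨l1, l2⟩ := hxa.det_col a3 a1 (by omega)
    obtain ⟨l3, l4⟩ := hya.det_col a4 a1 (by omega)
    rw [l1, l2, l3, l4]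
    by_cases ha : a = k + 2
    · subst ha
      have hXlt : X < sn (k + 4) := by
        by_contra h
        refine det_not_dvd (s := sn (k + 2)) (u := X - sn (k + 4)) (o := o.1 + sn (k + 4))
          ((geo_sn_dvd (by omega) (by omega) h1).add (geo_sn_dvd (by omega) (by omega) dvd_rfl))
          (by omega) (by omega) ?_
        rw [show X - sn (k + 4) + (o.1 + sn (k + 4)) = X + o.1 by ring]
        exact a3.1
      have f1 : Ex (k + 2) (sn (k + 2) + o.1) :=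
        ⟨dvd_rfl.add (geo_sn_dvd (by omega) (by omega) h1), det_not_dvd (s := sn (k + 4)) h1 s0 (by omega)⟩
      have f2 := det_ex_congr (by omega) (by omega) (d1 _) f1
      have g1 := ((hx (sn (k + 2), 1)).det_col f1 a1 (by omega)).2
      have g2 := ((hy (sn (k + 2), 1)).det_col f2 a1 (by omega)).2
      rw [e1, g2] at g1
      have i1 : idx (k + 2 + 2) (X + o.1) = idx (k + 2 + 2) (sn (k + 2) + o.1) := by
        rw [det_idx_cell h1 (by omega) hXlt, det_idx_cell h1 (by omega) (by omega)]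
      have i2 : idx (k + 2 + 2) (X + o'.1) = idx (k + 2 + 2) (sn (k + 2) + o'.1) := by
        rw [det_idx_cell h1' (by omega) hXlt, det_idx_cell h1' (by omega) (by omega)]
      have g3 := congrArg LS.cp g1
      have g4 := congrArg LS.ct g1
      have hM : (1 : ℤ) ≤ Mn (k + 3) := by exact_mod_cast Mn_pos _
      have j1 : idx (k + 2 + 1) (Y + o.2) < Mn (k + 2 + 1) :=
        lt_of_lt_of_le (det_idx_small (a := k + 3) (m := 1) h2 (by omega) (by omega)) hM
      have j2 : idx (k + 2 + 1) (Y + o.2 - 1) < Mn (k + 2 + 1) := by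
        rw [show Y + o.2 - 1 = Y - 1 + o.2 by ring]
        exact lt_of_lt_of_le (det_idx_small (a := k + 3) (m := 1) h2 (by omega) (by omega)) hM
      simp only [line] at g3 g4
      refine ⟨(det_line_cp (by omega) (by omega) (by omega) (by omega) (d1 X) (d2' Y) j2 ?_ ?_).symm,
        (det_line_cp (by omega) (by omega) (by omega) (by omega) (d1 X) (d2 Y) j1 ?_ ?_).symm⟩ <;>
        simp only [line, i1, i2, g3, g4]
    · exact ⟨(det_line_congr (by omega) (by omega) (by omega) (by omega) (d1 X) (d2' Y)).symm,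
        (det_line_congr (by omega) (by omega) (by omega) (by omega) (d1 X) (d2 Y)).symm⟩
  exact Tile.ext hrow.1 hrow.2 hcol.1 hcol.2

end Crest.Agent.R189
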