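import Crest.Agent.R189.Det

/-!
Row 189.  Determination of windows.
-/

set_option autoImplicit false

namespace Crest.Agent.R189

/-- congruence of offsets at level `K` -/
def Cong (K : ℕ) (o o' : V) : Prop :=
  (sn (hl K 1) : ℤ) ∣ o'.1 - o.1 ∧ (sn (hl K 0) : ℤ) ∣ o'.2 - o.2

lemma Cong.refl (K : ℕ) (o : V) : Cong K o o := ⟨by simp, by simp⟩
lemma Cong.symm {K : ℕ} {o o' : V} (h : Cong K o o') : Cong K o' o :=
  ⟨dvd_sub_comm.1 h.1, dvd_sub_comm.1 h.2⟩
lemma Cong.trans {K : ℕ} {o o' o'' : V} (h : Cong K o o') (h' : Cong K o' o'') : Cong K o o'' := by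
  refine ⟨?_, ?_⟩
  · have := h'.1.add h.1
    rwa [sub_add_sub_cancel] at this
  · have := h'.2.add h.2
    rwa [sub_add_sub_cancel] at this
lemma Cong.mono {K K' : ℕ} {o o' : V} (h : Cong K' o o') (hK : K ≤ K') : Cong K o o' :=
  ⟨geo_sn_dvd (hl_mono hK 1) ((hl_par K 1).trans (hl_par K' 1).symm) h.1,
    geo_sn_dvd (hl_mono hK 0) ((hl_par K 0).trans (hl_par K' 0).symm) h.2⟩

/-- the last position `≤ a` of a line divisible by `n` -/
def dwLst (n a o : ℤ) : ℤ := a - (a + o) % n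

lemma dwLst_dvd (n a o : ℤ) : n ∣ dwLst n a o + o := by
  have : dwLst n a o + o = n * ((a + o) / n) := by
    rw [dwLst, Int.emod_def]; ring
  rw [this]; exact dvd_mul_right _ _

lemma dwLst_le {n : ℤ} (hn : 0 < n) (a o : ℤ) : dwLst n a o ≤ a ∧ a - n < dwLst n a o := by
  have h1 := Int.emod_nonneg (a + o) hn.ne'
  have h2 := Int.emod_lt_of_pos (a + o) hn
  rw [dwLst]
  constructor <;> omega

lemma dwLst_max {n : ℤ} (hn : 0 < n) {a o X : ℤ} (h1 : X ≤ a) (h2 : n ∣ X + o) :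
    X ≤ dwLst n a o := by
  by_contra hlt
  have h3 := dwLst_le hn a o
  have h4 := h2.sub (dwLst_dvd n a o)
  have := Int.eq_zero_of_abs_lt_dvd h4 (by rw [abs_lt]; constructor <;> omega)
  omega

lemma dwLst_congr {n : ℤ} (a : ℤ) {o o' : ℤ} (h : n ∣ o' - o) : dwLst n a o' = dwLst n a o := by
  rw [dwLst, dwLst]
  congr 1
  refine (Int.modEq_iff_dvd.2 ?_).symm
  rwa [add_sub_add_left_eq_sub]

/-- the window contains a line divisible by `sn m` -/
def DwA (ρ m : ℕ) (o : ℤ) : Prop := ∃ X : ℤ, |X| ≤ ρ ∧ (sn m : ℤ) ∣ X + o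

lemma DwA.mono {ρ m m' : ℕ} {o : ℤ} (h : DwA ρ m' o) (hm : m ≤ m') (hp : m % 2 = m' % 2) :
    DwA ρ m o := by
  obtain ⟨X, h1, h2⟩ := h
  exact ⟨X, h1, geo_sn_dvd hm hp h2⟩

lemma dwA_congr {ρ m m' : ℕ} {o o' : ℤ} (h : (sn m' : ℤ) ∣ o' - o) (hm : m ≤ m')
    (hp : m % 2 = m' % 2) : DwA ρ m o' ↔ DwA ρ m o := by
  have h' := geo_sn_dvd hm hp h
  refine exists_congr fun X => and_congr_right fun _ => ?_
  have e : X + o' = X + o + (o' - o) := by ring
  rw [e]
  exact (dvd_add_left h')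

lemma DwA.lst {ρ m : ℕ} {o : ℤ} (h : DwA ρ m o) : |dwLst (sn m) ρ o| ≤ ρ := by
  obtain ⟨X, h1, h2⟩ := h
  have hn : (0 : ℤ) < sn m := by exact_mod_cast sn_pos m
  have h3 := abs_le.1 h1
  have h4 := dwLst_max hn h3.2 h2
  have h5 := dwLst_le hn ρ o
  rw [abs_le]
  constructor <;> omega

lemma dw_low_of_ne {ρ K L c m : ℕ} (hK : 2 ≤ K) (hρ : 2 * ρ < sn (K - 2)) (hL : K ≤ L)
    (hm : L - 2 ≤ m) (hp : m % 2 = c % 2) {o X X₁ : ℤ} (hX : |X| ≤ ρ) (hX₁ : |X₁| ≤ ρ)
    (hd : (sn m : ℤ) ∣ X₁ + o) (hne : X ≠ X₁) : Low L c (X + o) := by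
  refine (low_or L c (by omega) _).resolve_right fun h => hne ?_
  have h1 := h.sub (geo_sn_dvd (hl_le_of hm hp) ((hl_par _ _).trans hp.symm) hd)
  have h2 : sn (K - 2) ≤ sn (hl (L - 2) c) := sn_mono ((by omega : K - 2 ≤ L - 2).trans (hl_ge _ _))
  have h3 := abs_le.1 hX
  have h4 := abs_le.1 hX₁
  have := Int.eq_zero_of_abs_lt_dvd h1 (by rw [abs_lt]; constructor <;> omega)
  omega

lemma dw_low_of_not {ρ L c m : ℕ} (hL : 2 ≤ L) (hm : m ≤ L - 1) (hp : m % 2 = c % 2)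
    (hm' : m ≤ L - 2 ∨ (L - 2) % 2 ≠ c % 2) {o X : ℤ} (h : ¬ DwA ρ m o) (hX : |X| ≤ ρ) :
    Low L c (X + o) := by
  refine (low_or L c hL _).resolve_right fun h' => h ⟨X, hX, geo_sn_dvd ?_
    (hp.trans (hl_par _ _).symm) h'⟩
  unfold hl
  split_ifs <;> omega

lemma dw_eq_of_low {L c : ℕ} {X Y : ℤ} {t t' : Tile} (h : AgreeT L c X Y t) (h' : AgreeT L c X Y t')
    (hX : Low L c X) (hY : Low L (c + 1) Y) : t = t' :=
  Tile.ext (h.tp.anc_col h'.tp hY).1 (h.tp.anc_col h'.tp hY).2 (h.anc_col h' hX).1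
    (h.anc_col h' hX).2

/-- a high column keeps its state up to the next high row -/
lemma dw_col {x y : Cfg TileW} {L c : ℕ} {o : V} (hL : L % 2 = (c + 1) % 2) (hx : AgrC x.1 L c o)
    (hy : AgrC y.1 L c o) {X₁ Y₁ a : ℤ} (hX : (sn (L + 1) : ℤ) ∣ X₁ + o.1)
    (hY : ∀ Y, Y₁ < Y → Y ≤ a → ¬ (sn L : ℤ) ∣ Y + o.2) (e : x.1 (X₁, Y₁) = y.1 (X₁, Y₁))
    {Y : ℤ} (h1 : Y₁ < Y) (h2 : Y ≤ a) (hlow : Low L (c + 1) (Y + o.2)) :
    x.1 (X₁, Y) = y.1 (X₁, Y) := by
  have hv : ∀ (z : Cfg TileW) (Y : ℤ), Tile.T (z.1 (X₁, Y)) = Tile.B (z.1 (X₁, Y + 1)) := by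
    intro z Y
    have := z.2.2 (X₁, Y)
    simp only [e2, Prod.mk_add_mk, add_zero] at this
    exact this
  have key : ∀ Y, Y₁ ≤ Y → Y ≤ a → Tile.T (x.1 (X₁, Y)) = Tile.T (y.1 (X₁, Y)) := by
    intro Y h1
    induction Y, h1 using Int.leInduction with
    | base => intro _; rw [e]
    | succ n hn ih =>
      intro h2
      have a1 := (hx (X₁, n + 1)).col_eq_of_high hL hX (hY _ (by omega) h2)
      have a2 := (hy (X₁, n + 1)).col_eq_of_high hL hX (hY _ (by omega) h2)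
      rw [a1, a2, ← hv, ← hv]
      exact ih (by omega)
  have b1 := key Y h1.le h2
  have b2 := (hx (X₁, Y)).col_eq_of_high hL hX (hY _ h1 h2)
  have b3 := (hy (X₁, Y)).col_eq_of_high hL hX (hY _ h1 h2)
  have b4 := (hx (X₁, Y)).tp.anc_col (hy (X₁, Y)).tp hlow
  exact Tile.ext b4.1 b4.2 (b2.symm.trans (b1.trans b3)) b1

lemma dw_row {x y : Cfg TileW} {L c : ℕ} {o : V} (hL : L % 2 = c % 2) (hx : AgrC x.1 L c o)
    (hy : AgrC y.1 L c o) {X₁ Y₁ a : ℤ} (hY : (sn (L + 1) : ℤ) ∣ Y₁ + o.2)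
    (hX : ∀ X, X₁ < X → X ≤ a → ¬ (sn L : ℤ) ∣ X + o.1) (e : x.1 (X₁, Y₁) = y.1 (X₁, Y₁))
    {X : ℤ} (h1 : X₁ < X) (h2 : X ≤ a) (hlow : Low L c (X + o.1)) :
    x.1 (X, Y₁) = y.1 (X, Y₁) := by
  have hlow' : Low L (c + 1 + 1) (X + o.1) := by
    obtain ⟨b, h1, h2⟩ := hlow
    exact ⟨b, by omega, h2⟩
  have := dw_col (x := x.tp) (y := y.tp) (c := c + 1) (by omega) hx.tp hy.tp (X₁ := Y₁) (Y₁ := X₁)
    hY hX (congrArg Tile.tp e) h1 h2 hlow'
  exact congrArg Tile.tp this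

/-- Determination theorem: a window is determined by the offsets at a level `Lf o ∈ [K, K + 7)` and
one tile at a crossing of two high lines.  Plan: `K` even with `2 ρ < sn (K - 2)`; the window contains at
most one column with `sn (K+1) ∣ X + o.1` and one row with `sn (K+2) ∣ Y + o.2`.
(I) both exist: level `K + 1`, anchor at their crossing (`Know.anchor` for `know2`; all other lines of
the window are low).  (II) no such row, a column with `sn (K+5) ∣ X + o.1`: level `K + 4`, anchor at the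
last row `≤ -ρ - 1` with `sn (K+4) ∣ Y + o.2`, `col_eq_of_high`.  (III) no such column, a row with
`sn (K+4) ∣ Y + o.2`: level `K + 3`, `row_eq_of_high`.  (IV) otherwise all lines of the window are low at
level `K + 6` (`eq_of_low`), any anchor depending only on the class of `o`. -/
theorem det_window (ρ K₀ : ℕ) : ∃ K, K₀ ≤ K ∧ ∃ (Lf : V → ℕ) (zf : V → V),
    (Set.range zf).Finite ∧ ∀ o : V, K ≤ Lf o ∧ Lf o < K + 7 ∧
      HighAt (Lf o) ((zf o).1 + o.1) ((zf o).2 + o.2) ∧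
      (∀ o', Cong (Lf o) o o' → Lf o' = Lf o ∧ zf o' = zf o) ∧
      ∀ x y : Cfg TileW, AgrC x.1 (Lf o) 1 o → AgrC y.1 (Lf o) 1 o → x.1 (zf o) = y.1 (zf o) →
        Agree ρ x y := by
  classical
  obtain ⟨K, hK0, hK2, hKe, hρ⟩ : ∃ K, K₀ ≤ K ∧ 2 ≤ K ∧ K % 2 = 0 ∧ 2 * ρ < sn (K - 2) := by
    refine ⟨2 * (K₀ + ρ + 2), by omega, by omega, by omega, ?_⟩
    have := le_sn (2 * (K₀ + ρ + 2) - 2)
    omega
  let Lf : V → ℕ := fun o =>
    if DwA ρ (K + 1) o.1 ∧ DwA ρ (K + 2) o.2 then K + 1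
    else if ¬ DwA ρ (K + 2) o.2 ∧ DwA ρ (K + 5) o.1 then K + 4
    else if ¬ DwA ρ (K + 1) o.1 ∧ DwA ρ (K + 4) o.2 then K + 3 else K + 6
  let zf : V → V := fun o => (dwLst (sn (hl (Lf o) 1)) ρ o.1, dwLst (sn (hl (Lf o) 0)) ρ o.2)
  have hpos : ∀ m, (0 : ℤ) < sn m := fun m => by exact_mod_cast sn_pos m
  have hb : ∀ o, K ≤ Lf o ∧ Lf o < K + 7 := fun o => by
    simp only [Lf]
    split_ifs <;> omega
  have l11 : hl (K + 1) 1 = K + 1 := by unfold hl; rw [if_pos (by omega)]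
  have l10 : hl (K + 1) 0 = K + 2 := by unfold hl; rw [if_neg (by omega)]
  have l41 : hl (K + 4) 1 = K + 5 := by unfold hl; rw [if_neg (by omega)]
  have l40 : hl (K + 4) 0 = K + 4 := by unfold hl; rw [if_pos (by omega)]
  have l31 : hl (K + 3) 1 = K + 3 := by unfold hl; rw [if_pos (by omega)]
  have l30 : hl (K + 3) 0 = K + 4 := by unfold hl; rw [if_neg (by omega)]
  have l61 : hl (K + 6) 1 = K + 7 := by unfold hl; rw [if_neg (by omega)]
  have l60 : hl (K + 6) 0 = K + 6 := by unfold hl; rw [if_pos (by omega)]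
  refine ⟨K, hK0, Lf, zf, ?_, fun o => ⟨(hb o).1, (hb o).2, ⟨dwLst_dvd _ _ _, dwLst_dvd _ _ _⟩,
    ?_, ?_⟩⟩
  · refine ((Set.finite_Icc ((ρ : ℤ) - sn (K + 7)) ρ).prod
      (Set.finite_Icc ((ρ : ℤ) - sn (K + 7)) ρ)).subset ?_
    rintro _ ⟨o, rfl⟩
    have a1 := dwLst_le (hpos (hl (Lf o) 1)) ρ o.1
    have a2 := dwLst_le (hpos (hl (Lf o) 0)) ρ o.2
    have a3 : sn (hl (Lf o) 1) ≤ sn (K + 7) :=
      sn_mono ((hl_le _ _).trans (by have := hb o; omega))
    have a4 : sn (hl (Lf o) 0) ≤ sn (K + 7) :=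
      sn_mono ((hl_le _ _).trans (by have := hb o; omega))
    simp only [zf, Set.mem_prod, Set.mem_Icc]
    omega
  · intro o' hc
    have hL : Lf o' = Lf o := by
      by_cases c1 : DwA ρ (K + 1) o.1 ∧ DwA ρ (K + 2) o.2
      · have e : Lf o = K + 1 := if_pos c1
        rw [e, Cong, l11, l10] at hc
        rw [e]
        exact if_pos ⟨(dwA_congr hc.1 le_rfl rfl).2 c1.1, (dwA_congr hc.2 le_rfl rfl).2 c1.2⟩
      · by_cases c2 : ¬ DwA ρ (K + 2) o.2 ∧ DwA ρ (K + 5) o.1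
        · have e : Lf o = K + 4 := by simp only [Lf, if_neg c1, if_pos c2]
          rw [e, Cong, l41, l40] at hc
          simp only [Lf, dwA_congr (m := K + 1) hc.1 (by omega) (by omega),
            dwA_congr (m := K + 5) hc.1 (by omega) (by omega),
            dwA_congr (m := K + 2) hc.2 (by omega) (by omega),
            dwA_congr (m := K + 4) hc.2 (by omega) (by omega)]
        · by_cases c3 : ¬ DwA ρ (K + 1) o.1 ∧ DwA ρ (K + 4) o.2
          · have e : Lf o = K + 3 := by simp only [Lf, if_neg c1, if_neg c2, if_pos c3]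
            rw [e, Cong, l31, l30] at hc
            have d1 := (dwA_congr (ρ := ρ) (m := K + 1) hc.1 (by omega) (by omega)).not.2 c3.1
            have d2 := (dwA_congr (ρ := ρ) (m := K + 4) hc.2 (by omega) (by omega)).2 c3.2
            rw [e]
            simp only [Lf]
            rw [if_neg fun h => d1 h.1, if_neg fun h => d1 (h.2.mono (by omega) (by omega)),
              if_pos ⟨d1, d2⟩]
          · have e : Lf o = K + 6 := by simp only [Lf, if_neg c1, if_neg c2, if_neg c3]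
            rw [e, Cong, l61, l60] at hc
            simp only [Lf, dwA_congr (m := K + 1) hc.1 (by omega) (by omega),
              dwA_congr (m := K + 5) hc.1 (by omega) (by omega),
              dwA_congr (m := K + 2) hc.2 (by omega) (by omega),
              dwA_congr (m := K + 4) hc.2 (by omega) (by omega)]
    refine ⟨hL, ?_⟩
    simp only [zf, hL]
    rw [dwLst_congr _ hc.1, dwLst_congr _ hc.2]
  · rintro x y hx hy e ⟨X, Y⟩ ⟨hX, hY⟩
    simp only at hX hY
    simp only [zf] at e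
    by_cases c1 : DwA ρ (K + 1) o.1 ∧ DwA ρ (K + 2) o.2
    · have eL : Lf o = K + 1 := if_pos c1
      rw [eL] at hx hy e
      rw [l11, l10] at e
      have hag : Agr (know2 x y).K (K + 1) 1 o := by
        rintro v t (rfl | rfl)
        · exact hx v
        · exact hy v
      refine know2_allG.1 ((know2 x y).anchor hag (abs_le.1 c1.1.lst) (abs_le.1 c1.2.lst) ?_ ?_
        (know2_allG.2 e) (abs_le.1 hX) (abs_le.1 hY))
      · intro X h1 h2 hne
        exact dw_low_of_ne hK2 hρ (by omega) (by omega) (by omega) (abs_le.2 ⟨h1, h2⟩) c1.1.lst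
          (dwLst_dvd _ _ _) hne
      · intro Y h1 h2 hne
        exact dw_low_of_ne hK2 hρ (by omega) (by omega) (by omega) (abs_le.2 ⟨h1, h2⟩) c1.2.lst
          (dwLst_dvd _ _ _) hne
    · by_cases c2 : ¬ DwA ρ (K + 2) o.2 ∧ DwA ρ (K + 5) o.1
      · have eL : Lf o = K + 4 := by simp only [Lf, if_neg c1, if_pos c2]
        rw [eL] at hx hy e
        rw [l41, l40] at e
        have hlow : Low (K + 4) (1 + 1) (Y + o.2) :=
          dw_low_of_not (by omega) (by omega) (by omega) (by omega) c2.1 hY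
        by_cases hne : X = dwLst (sn (K + 5)) ρ o.1
        · rw [hne]
          refine dw_col (a := ρ) (by omega) hx hy (dwLst_dvd _ _ _) (fun Y h1 h2 h3 => ?_) e ?_
            (abs_le.1 hY).2 hlow
          · have := dwLst_max (hpos _) h2 h3
            omega
          · by_contra hn
            have h1 := dwLst_le (hpos (K + 4)) ρ o.2
            have h2 := abs_le.1 hY
            exact c2.1 ⟨_, abs_le.2 ⟨by omega, h1.1⟩,
              geo_sn_dvd (by omega) (by omega) (dwLst_dvd (sn (K + 4)) ρ o.2)⟩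
        · exact dw_eq_of_low (hx (X, Y)) (hy (X, Y)) (dw_low_of_ne hK2 hρ (by omega) (by omega)
            (by omega) hX c2.2.lst (dwLst_dvd _ _ _) hne) hlow
      · by_cases c3 : ¬ DwA ρ (K + 1) o.1 ∧ DwA ρ (K + 4) o.2
        · have eL : Lf o = K + 3 := by simp only [Lf, if_neg c1, if_neg c2, if_pos c3]
          rw [eL] at hx hy e
          rw [l31, l30] at e
          have hlow : Low (K + 3) 1 (X + o.1) :=
            dw_low_of_not (by omega) (by omega) (by omega) (by omega) c3.1 hX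
          by_cases hne : Y = dwLst (sn (K + 4)) ρ o.2
          · rw [hne]
            refine dw_row (a := ρ) (by omega) hx hy (dwLst_dvd _ _ _) (fun X h1 h2 h3 => ?_) e ?_
              (abs_le.1 hX).2 hlow
            · have := dwLst_max (hpos _) h2 h3
              omega
            · by_contra hn
              have h1 := dwLst_le (hpos (K + 3)) ρ o.1
              have h2 := abs_le.1 hX
              exact c3.1 ⟨_, abs_le.2 ⟨by omega, h1.1⟩,
                geo_sn_dvd (by omega) (by omega) (dwLst_dvd (sn (K + 3)) ρ o.1)⟩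
          · exact dw_eq_of_low (hx (X, Y)) (hy (X, Y)) hlow (dw_low_of_ne hK2 hρ (by omega)
              (by omega) (by omega) hY c3.2.lst (dwLst_dvd _ _ _) hne)
        · have eL : Lf o = K + 6 := by simp only [Lf, if_neg c1, if_neg c2, if_neg c3]
          rw [eL] at hx hy
          have d1 : ¬ DwA ρ (K + 5) o.1 := fun h =>
            c2 ⟨fun h' => c1 ⟨h.mono (by omega) (by omega), h'⟩, h⟩
          have d2 : ¬ DwA ρ (K + 4) o.2 := fun h =>
            c3 ⟨fun h' => c1 ⟨h', h.mono (by omega) (by omega)⟩, h⟩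
          exact dw_eq_of_low (hx (X, Y)) (hy (X, Y))
            (dw_low_of_not (by omega) (by omega) (by omega) (by omega) d1 hX)
            (dw_low_of_not (by omega) (by omega) (by omega) (by omega) d2 hY)

end Crest.Agent.R189
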