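import Crest.Agent.R189.Det

/-!
Row 189.  Zones: determination and periodicity.
-/

set_option autoImplicit false

namespace Crest.Agent.R189

/-- inactive lines: the state is given by the state of another line of the same cell and band -/
private lemma detz_in {a : ℕ} {x y x' y' u v u' v' : ℤ} (h0 : idx a x' = idx a x)
    (hi : idx a x < Mn a) (hE : (line a x' y').E = (line a x y).E)
    (h1 : idx (a + 1) y = idx (a + 1) v) (h2 : idx (a + 2) x = idx (a + 2) u)
    (h1' : idx (a + 1) y' = idx (a + 1) v') (h2' : idx (a + 2) x' = idx (a + 2) u')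
    (h : line a u' v' = line a u v) : line a x' y' = line a x y := by
  have g1 := congrArg LS.p h
  have g2 := congrArg LS.t h
  have g3 := congrArg LS.cp h
  have g4 := congrArg LS.ct h
  have g5 := congrArg LS.ch h
  simp only [line] at g1 g2 g3 g4 g5
  refine LS.ext ?_ ?_ ?_ ?_ ?_ ?_ ?_ ?_ hE rfl
  · simp only [line, h0, if_neg hi.not_ge]
  · simp only [line, h1, h1', g1]
  · simp only [line, h1, h1', g2]
  · simp only [line, h2, h2', g3]
  · simp only [line, h2, h2', g4]
  · simp only [line, h1, h1', h2, h2', g5]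
  · simp only [line, h0]
  · simp only [line, h0]

private lemma detz_zone (a : ℕ) : (Mn a : ℤ) * sn a < sn (a + 2) := by
  have hs : (0 : ℤ) < sn a := by exact_mod_cast sn_pos a
  have hM : (1 : ℤ) ≤ Mn a := by exact_mod_cast Mn_pos a
  rw [sn_add_two, Zn_eq]
  push_cast
  nlinarith

private lemma detz_small {M i : ℤ} (h0 : 0 ≤ i) (h1 : i < M - 1) :
    i / M = 0 ∧ decide (i % M = M - 1) = false := by
  refine ⟨Int.ediv_eq_zero_of_lt h0 (by omega), decide_eq_false ?_⟩
  rw [Int.emod_eq_of_lt h0 (by omega)]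
  omega

/-- The inactive zone of a cell around a high row is determined by one tile.  All lines but the row
`0` have rank `≤ K - 1` and are given by `line` (level `K + 2`); inactive lanes of a cell have the same
state in a band up to the known `E`; the row `0` keeps its state along the zone. -/
theorem zone_det {x y : Cfg TileW} {K c : ℕ} (hK : 4 ≤ K) (hc : K % 2 = (c + 1) % 2) {o o' : V}
    (hx : AgrC x.1 (K + 2) c o) (hy : AgrC y.1 (K + 2) c o')
    (h1 : (sn (K + 1) : ℤ) ∣ o.1) (h2 : (sn K : ℤ) ∣ o.2)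
    (h1' : (sn (K + 1) : ℤ) ∣ o'.1) (h2' : (sn K : ℤ) ∣ o'.2)
    (e : x.1 (sn (K - 1), 0) = y.1 (sn (K - 1), 0))
    {X Y : ℤ} (hX : 1 ≤ X ∧ X < Mn (K - 1) * sn (K - 1)) (hY : |Y| < sn K) :
    x.1 (X, Y) = y.1 (X, Y) := by
  obtain ⟨k, rfl⟩ : ∃ k, K = k + 4 := ⟨K - 4, by omega⟩
  change x.1 (sn (k + 3), 0) = y.1 (sn (k + 3), 0) at e
  change 1 ≤ X ∧ X < Mn (k + 3) * sn (k + 3) at hX
  change (sn (k + 5) : ℤ) ∣ o.1 at h1
  change (sn (k + 5) : ℤ) ∣ o'.1 at h1'
  rw [abs_lt] at hY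
  have d1 : ∀ u : ℤ, (sn (k + 5) : ℤ) ∣ u + o'.1 - (u + o.1) := fun u => by
    rw [add_sub_add_left_eq_sub]; exact h1'.sub h1
  have d2 : ∀ u : ℤ, (sn (k + 4) : ℤ) ∣ u + o'.2 - (u + o.2) := fun u => by
    rw [add_sub_add_left_eq_sub]; exact h2'.sub h2
  have s35 : 2 * (sn (k + 3) : ℤ) < sn (k + 5) := det_sn_lt (k + 3)
  have z35 : (Mn (k + 3) : ℤ) * sn (k + 3) < sn (k + 5) := detz_zone (k + 3)
  have s3 : (0 : ℤ) < sn (k + 3) := by exact_mod_cast sn_pos _
  have s4 : (0 : ℤ) < sn (k + 4) := by exact_mod_cast sn_pos _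
  have hM : (1 : ℤ) ≤ Mn (k + 3) := by exact_mod_cast Mn_pos _
  have z3 : (sn (k + 3) : ℤ) ≤ Mn (k + 3) * sn (k + 3) := by nlinarith
  have f1 : Ex (k + 3) (sn (k + 3) + o.1) :=
    ⟨dvd_rfl.add (geo_sn_dvd (by omega) (by omega) h1),
      det_not_dvd (s := sn (k + 5)) h1 s3 (by omega)⟩
  have f2 := det_ex_congr (by omega) (by omega) (d1 _) f1
  obtain ⟨g1, g2⟩ := (hx (sn (k + 3), 0)).det_col f1 (by omega) (by omega)
  obtain ⟨g3, g4⟩ := (hy (sn (k + 3), 0)).det_col f2 (by omega) (by omega)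
  rw [e, g3] at g1
  rw [e, g4] at g2
  simp only [zero_add] at g1 g2
  -- inactive lanes
  have hc3 : ∀ U W : ℤ, 0 ≤ U → U < Mn (k + 3) * sn (k + 3) → -(sn (k + 4) : ℤ) ≤ W →
      W < sn (k + 4) → line (k + 3) (U + o'.1) (W + o'.2) = line (k + 3) (U + o.1) (W + o.2) := by
    intro U W u0 u1 w0 w1
    have i0 : idx (k + 3) (U + o'.1) = idx (k + 3) (U + o.1) :=
      det_idx_congr (by omega) (by omega) (d1 U)
    have i1 : idx (k + 3) (U + o.1) < Mn (k + 3) := det_idx_small h1 u0 u1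
    have i2 : idx (k + 5) (U + o.1) = idx (k + 5) (sn (k + 3) + o.1) := by
      rw [det_idx_cell h1 u0 (by omega), det_idx_cell h1 (by omega) (by omega)]
    have i3 : idx (k + 5) (U + o'.1) = idx (k + 5) (sn (k + 3) + o'.1) := by
      rw [det_idx_cell h1' u0 (by omega), det_idx_cell h1' (by omega) (by omega)]
    have i4 := det_E (a := k + 3) (x := U + o.1) (x' := U + o'.1) (by omega) (by omega) (d2 W)
    rcases le_or_gt 0 W with w | w
    · exact detz_in i0 i1 i4 (det_idx_cell h2 w w1) i2 (det_idx_cell h2' w w1) i3 g2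
    · exact detz_in i0 i1 i4 (det_idx_cell' h2 w0 w) i2 (det_idx_cell' h2' w0 w) i3 g1
  -- columns
  have hcol : ∀ U W : ℤ, 1 ≤ U → U < Mn (k + 3) * sn (k + 3) → -(sn (k + 4) : ℤ) < W →
      W < sn (k + 4) → Tile.B (x.1 (U, W)) = Tile.B (y.1 (U, W)) ∧
        Tile.T (x.1 (U, W)) = Tile.T (y.1 (U, W)) ∧
        (W = 0 → ColLow (x.1 (U, W)) ∧ ColLow (y.1 (U, W))) := by
    intro U W u0 u1 w0 w1
    obtain ⟨a, a1, a2, a3⟩ := det_low (a := k + 3) (c := c) (by omega) (x := U + o.1)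
      (det_not_dvd (s := sn (k + 5)) h1 (by omega) (by omega))
    have a4 := det_ex_congr (by omega) (by omega) (d1 U) a3
    obtain ⟨l1, l2⟩ := (hx (U, W)).det_col a3 a1 (by omega)
    obtain ⟨l3, l4⟩ := (hy (U, W)).det_col a4 a1 (by omega)
    have key : ∀ Z : ℤ, -(sn (k + 4) : ℤ) ≤ Z → Z < sn (k + 4) →
        line a (U + o'.1) (Z + o'.2) = line a (U + o.1) (Z + o.2) := fun Z z0 z1 => by
      by_cases ha : a = k + 3
      · subst ha
        exact hc3 U Z (by omega) u1 z0 z1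
      · exact det_line_congr (by omega) (by omega) (by omega) (by omega) (d1 U) (d2 Z)
    refine ⟨?_, ?_, ?_⟩
    · rw [l1, l3]
      have := key (W - 1) (by omega) (by omega)
      rw [sub_add_eq_add_sub, sub_add_eq_add_sub] at this
      exact this.symm
    · rw [l2, l4]
      exact (key W (by omega) w1).symm
    · rintro rfl
      exact ⟨(hx (U, 0)).colLow a3 a1 (by omega)
          (by simpa using geo_sn_dvd (by omega) (by omega) h2),
        (hy (U, 0)).colLow a4 a1 (by omega)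
          (by simpa using geo_sn_dvd (by omega) (by omega) h2')⟩
  have hrow : Tile.L (x.1 (X, Y)) = Tile.L (y.1 (X, Y)) ∧
      Tile.R (x.1 (X, Y)) = Tile.R (y.1 (X, Y)) := by
    by_cases hY0 : Y = 0
    · subst hY0
      have step : ∀ U : ℤ, 1 ≤ U → U < Mn (k + 3) * sn (k + 3) →
          (Tile.L (x.1 (U, 0)) = Tile.L (y.1 (U, 0)) ↔
            Tile.R (x.1 (U, 0)) = Tile.R (y.1 (U, 0))) := fun U u0 u1 => by
        obtain ⟨b1, -, b2⟩ := hcol U 0 u0 u1 (by omega) (by omega)
        obtain ⟨b2, b3⟩ := b2 rfl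
        unfold ColLow at b2 b3
        rw [b1] at b2
        exact b2.anc_iff b3
      have chain : ∀ U : ℤ, 1 ≤ U → U ≤ Mn (k + 3) * sn (k + 3) →
          (Tile.L (x.1 (U, 0)) = Tile.L (y.1 (U, 0))) =
            (Tile.L (x.1 (1, 0)) = Tile.L (y.1 (1, 0))) := fun U u0 u1 =>
        geo_chain (f := fun Z => Tile.L (x.1 (Z, 0)) = Tile.L (y.1 (Z, 0))) u0 fun Z z0 z1 => by
          rw [x.det_hor, y.det_hor]
          exact propext (step Z z0 (by omega)).symm
      have hL : Tile.L (x.1 (X, 0)) = Tile.L (y.1 (X, 0)) := by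
        rw [chain X hX.1 hX.2.le, ← chain (sn (k + 3)) (by omega) z3, e]
      exact ⟨hL, (step X hX.1 hX.2).1 hL⟩
    have hnd : ¬ (sn (k + 4) : ℤ) ∣ Y + o.2 := by
      rcases lt_or_gt_of_ne hY0 with h | h
      · rw [show Y + o.2 = Y + sn (k + 4) + (o.2 - sn (k + 4)) by ring]
        exact det_not_dvd (h2.sub dvd_rfl) (by omega) (by omega)
      · exact det_not_dvd h2 h hY.2
    obtain ⟨b, b1, b2, b3⟩ := det_low (a := k + 2) (c := c + 1) (by omega) hnd
    have b4 := det_ex_congr (by omega) (by omega) (d2 Y) b3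
    obtain ⟨l1, l2⟩ := (hx (X, Y)).det_row b3 b1 (by omega)
    obtain ⟨l3, l4⟩ := (hy (X, Y)).det_row b4 b1 (by omega)
    have key : ∀ Z : ℤ, 0 ≤ Z → Z < Mn (k + 3) * sn (k + 3) →
        line b (Y + o'.2) (Z + o'.1) = line b (Y + o.2) (Z + o.1) := fun Z z0 z1 => by
      by_cases hb : b = k + 2
      · subst hb
        have g := hc3 Z Y z0 z1 hY.1.le hY.2
        exact det_line_cp (by omega) (by omega) (by omega) (by omega) (d2 Y) (d1 Z)
          (det_idx_small (a := k + 3) h1 z0 z1) (congrArg LS.p g) (congrArg LS.t g)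
      · exact det_line_congr (by omega) (by omega) (by omega) (by omega) (d2 Y) (d1 Z)
    refine ⟨?_, ?_⟩
    · rw [l1, l3]
      have := key (X - 1) (by omega) (by omega)
      rw [sub_add_eq_add_sub, sub_add_eq_add_sub] at this
      exact this.symm
    · rw [l2, l4]
      exact (key X (by omega) hX.2).symm
  obtain ⟨c1, c2, -⟩ := hcol X Y hX.1 hX.2 hY.1 hY.2
  exact Tile.ext hrow.1 hrow.2 c1 c2

/-- periodicity in the inactive slab of the inactive zone (compare the fields of `line`) -/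
theorem zone_per {x : Cfg TileW} {K c : ℕ} (hK : 4 ≤ K) (hc : K % 2 = (c + 1) % 2) {o : V}
    (hx : AgrC x.1 (K + 2) c o) (h1 : (sn (K + 1) : ℤ) ∣ o.1) (h2 : (sn K : ℤ) ∣ o.2)
    {X Y : ℤ} (hX : 1 ≤ X ∧ X + sn (K - 1) < (Mn (K - 1) - 1) * sn (K - 1))
    (hY : 1 ≤ Y ∧ Y < Mn (K - 2) * sn (K - 2)) :
    x.1 (X + sn (K - 1), Y) = x.1 (X, Y) := by
  obtain ⟨k, rfl⟩ : ∃ k, K = k + 4 := ⟨K - 4, by omega⟩
  change 1 ≤ X ∧ X + sn (k + 3) < (Mn (k + 3) - 1) * sn (k + 3) at hX
  change 1 ≤ Y ∧ Y < Mn (k + 2) * sn (k + 2) at hY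
  change (sn (k + 5) : ℤ) ∣ o.1 at h1
  change x.1 (X + sn (k + 3), Y) = x.1 (X, Y)
  have z35 : (Mn (k + 3) : ℤ) * sn (k + 3) < sn (k + 5) := detz_zone (k + 3)
  have z24 : (Mn (k + 2) : ℤ) * sn (k + 2) < sn (k + 4) := detz_zone (k + 2)
  have s3 : (0 : ℤ) < sn (k + 3) := by exact_mod_cast sn_pos _
  have z3 : ((Mn (k + 3) : ℤ) - 1) * sn (k + 3) = Mn (k + 3) * sn (k + 3) - sn (k + 3) := by ring
  have d1 : ∀ u : ℤ, (sn (k + 3) : ℤ) ∣ u + sn (k + 3) + o.1 - (u + o.1) := fun u => by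
    rw [show u + sn (k + 3) + o.1 - (u + o.1) = sn (k + 3) by ring]
  have d0 : ∀ (p : ℕ) (u : ℤ), (sn p : ℤ) ∣ u - u := fun p u => by rw [sub_self]; exact dvd_zero _
  have sm : ∀ U : ℤ, 0 ≤ U → U < (Mn (k + 3) - 1) * sn (k + 3) →
      idx (k + 3) (U + o.1) < Mn (k + 3) - 1 := fun U u0 u1 => det_idx_small h1 u0 u1
  have hxa := hx (X + sn (k + 3), Y)
  have hya := hx (X, Y)
  have hrow : Tile.L (x.1 (X + sn (k + 3), Y)) = Tile.L (x.1 (X, Y)) ∧
      Tile.R (x.1 (X + sn (k + 3), Y)) = Tile.R (x.1 (X, Y)) := by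
    obtain ⟨b, b1, b2, b3⟩ := det_low (a := k + 2) (c := c + 1) (by omega) (x := Y + o.2)
      (det_not_dvd (s := sn (k + 4)) h2 (by omega) (by omega))
    obtain ⟨l1, l2⟩ := hxa.det_row b3 b1 (by omega)
    obtain ⟨l3, l4⟩ := hya.det_row b3 b1 (by omega)
    have key : ∀ Z : ℤ, 0 ≤ Z → Z ≤ X →
        line b (Y + o.2) (Z + sn (k + 3) + o.1) = line b (Y + o.2) (Z + o.1) := fun Z z0 z1 => by
      by_cases hb : b = k + 2
      · subst hb
        have i1 : idx (k + 2) (Y + o.2) < Mn (k + 2) := det_idx_small h2 (by omega) hY.2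
        have i2 : idx (k + 2 + 1) (Z + o.1) < Mn (k + 2 + 1) - 1 := sm Z z0 (by omega)
        have i3 : idx (k + 2 + 1) (Z + sn (k + 3) + o.1) < Mn (k + 2 + 1) - 1 :=
          sm _ (by omega) (by omega)
        obtain ⟨j1, j2⟩ := detz_small (idx_nonneg _ _) i2
        obtain ⟨j3, j4⟩ := detz_small (idx_nonneg _ _) i3
        refine LS.ext ?_ ?_ ?_ rfl rfl ?_ rfl rfl (det_E (by omega) (by omega) (d1 Z)) rfl
        · simp only [line, if_neg i1.not_ge]
        · simp only [line, j1, j3]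
        · simp only [line, j2, j4]
        · simp only [line]
          rw [if_neg (by omega), if_neg (by omega)]
      · exact det_line_congr (p := b + 4) (by omega) (by omega) (by omega) (by omega) (d0 _ _) (d1 Z)
    refine ⟨?_, ?_⟩
    · rw [l1, l3]
      have := key (X - 1) (by omega) (by omega)
      rwa [sub_add_eq_add_sub, sub_add_eq_add_sub, sub_add_eq_add_sub] at this
    · rw [l2, l4]
      exact key X (by omega) le_rfl
  have hcol : Tile.B (x.1 (X + sn (k + 3), Y)) = Tile.B (x.1 (X, Y)) ∧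
      Tile.T (x.1 (X + sn (k + 3), Y)) = Tile.T (x.1 (X, Y)) := by
    obtain ⟨a, a1, a2, a3⟩ := det_low (a := k + 3) (c := c) (by omega) (x := X + o.1)
      (det_not_dvd (s := sn (k + 5)) h1 (by omega) (by omega))
    have a4 : Ex a (X + sn (k + 3) + o.1) := by
      by_cases ha : a = k + 3
      · subst ha
        refine ⟨?_, det_not_dvd (s := sn (k + 5)) h1 (by omega) (by omega)⟩
        rw [add_right_comm]
        exact a3.1.add dvd_rfl
      · exact det_ex_congr (by omega) (by omega) (d1 X) a3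
    obtain ⟨l1, l2⟩ := hxa.det_col a4 a1 (by omega)
    obtain ⟨l3, l4⟩ := hya.det_col a3 a1 (by omega)
    have i2 := sm X (by omega) (by omega)
    have i3 := sm (X + sn (k + 3)) (by omega) hX.2
    have key : ∀ Z : ℤ, 0 ≤ Z → Z ≤ Y →
        line a (X + sn (k + 3) + o.1) (Z + o.2) = line a (X + o.1) (Z + o.2) := fun Z z0 z1 => by
      by_cases ha : a = k + 3
      · subst ha
        have i4 : idx (k + 3 + 2) (X + sn (k + 3) + o.1) = idx (k + 3 + 2) (X + o.1) :=
          (det_idx_cell (a := k + 5) h1 (by omega) (by omega)).trans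
            (det_idx_cell (a := k + 5) h1 (by omega) (by omega)).symm
        refine LS.ext ?_ rfl rfl ?_ ?_ ?_ ?_ ?_ rfl rfl
        · simp only [line]
          rw [if_neg (by omega), if_neg (by omega)]
        · simp only [line, i4]
        · simp only [line, i4]
        · simp only [line, i4]
        · simp only [line]
          rw [decide_eq_false (by omega), decide_eq_false (by omega)]
        · simp only [line]
          rw [decide_eq_false (by omega), decide_eq_false (by omega)]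
      by_cases ha' : a = k + 1
      · subst ha'
        obtain ⟨j1, j2⟩ := detz_small (idx_nonneg _ _) i2
        obtain ⟨j3, j4⟩ := detz_small (idx_nonneg _ _) i3
        refine det_line_cp (q := k + 4) (by omega) (by omega) (by omega) (by omega) (d1 X) (d0 _ _)
          (det_idx_small (a := k + 2) (m := Mn (k + 2)) h2 z0 (by omega)) ?_ ?_
        · exact (congrArg (fun i : ℤ => (i : ZMod 3)) j3).trans
            (congrArg (fun i : ℤ => (i : ZMod 3)) j1).symm
        · exact j4.trans j2.symm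
      · exact det_line_congr (q := a + 3) (by omega) (by omega) (by omega) (by omega) (d1 X) (d0 _ _)
    refine ⟨?_, ?_⟩
    · rw [l1, l3]
      have := key (Y - 1) (by omega) (by omega)
      rwa [sub_add_eq_add_sub] at this
    · rw [l2, l4]
      exact key Y (by omega) le_rfl
  exact Tile.ext hrow.1 hrow.2 hcol.1 hcol.2

end Crest.Agent.R189
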