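import Crest.Agent.R189.Rain

/-!
Row 189.  Lifts of all elementary three-cycles.
-/

set_option autoImplicit false

namespace Crest.Agent.R189

open Equiv

variable {S : Wang}

/-- coherent lifts of the elementary three-cycles -/
structure ESys (S : Wang) (Γ : Type) [Group Γ] where
  e : Set (Cfg S) → Pt → Pt → Pt → Γ
  pr : Γ →* Perm (Om S)
  pr_e : ∀ W p q r, Adm3 p q r W → pr (e W p q r) = cycW p q r W
  pr_mem : ∀ γ, pr γ ∈ LocP S
  rot : ∀ W p q r, Adm3 p q r W → e W p q r = e W q r p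
  inv : ∀ W p q r, Adm3 p q r W → e W p r q = (e W p q r)⁻¹
  cube : ∀ W p q r, Adm3 p q r W → e W p q r ^ 3 = 1
  union : ∀ W W' p q r, Adm3 p q r (W ∪ W') → Loc W → Loc W' → Disjoint W W' →
    e (W ∪ W') p q r = e W p q r * e W' p q r
  shift : ∀ v W p q r, Adm3 p q r (tr v W) → e W (shP v p) (shP v q) (shP v r) = e (tr v W) p q r
  conj : ∀ γ W p q r p' q' r', Adm3 p q r W → Adm3 p' q' r' W →
    (∀ x ∈ W, pr γ (pt x p) = pt x p' ∧ pr γ (pt x q) = pt x q' ∧ pr γ (pt x r) = pt x r') →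
    γ * e W p q r * γ⁻¹ = e W p' q' r'
  prod : ∀ W p q r t, D4 p q r t → Loc W → Adm {p, q, r, t} W → e W q r t * e W p t r = e W p q r
  gen : Subgroup.closure {γ | ∃ W p q r, Adm3 p q r W ∧ γ = e W p q r} = ⊤

/-- six auxiliary points on six further tracks -/
def Aux (p q r : Pt) (a : Fin 6 → Pt) : Prop :=
  Function.Injective (fun i => (a i).2) ∧ ∀ i, (a i).2 ≠ p.2 ∧ (a i).2 ≠ q.2 ∧ (a i).2 ≠ r.2

lemma exists_aux (A : Finset Track) (hA : A.card ≤ 24) :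
    ∃ a : Fin 6 → Pt, Function.Injective (fun i => (a i).2) ∧ ∀ i, (a i).2 ∉ A := by 
  have h : 6 ≤ Aᶜ.card := by
    rw [Finset.card_compl, Fintype.card_fin]; omega
  obtain ⟨t, ht, hc⟩ := Finset.exists_subset_card_eq h
  refine ⟨fun i => (0, t.orderEmbOfFin hc i), (t.orderEmbOfFin hc).injective, fun i => ?_⟩
  exact Finset.mem_compl.1 (ht (t.orderEmbOfFin_mem hc i))

lemma exists_aux_list (l : List Track) (hl : l.length ≤ 24) :
    ∃ a : Fin 6 → Pt, Function.Injective (fun i => (a i).2) ∧ ∀ i, (a i).2 ∉ l := by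
  obtain ⟨a, h1, h2⟩ := exists_aux l.toFinset ((List.toFinset_card_le l).trans hl)
  exact ⟨a, h1, fun i hi => h2 i (List.mem_toFinset.2 hi)⟩

lemma Aux.ne {p q r : Pt} {a : Fin 6 → Pt} (h : Aux p q r a) (i j : Fin 6)
    (hij : i ≠ j := by decide) : (a i).2 ≠ (a j).2 := h.1.ne hij
lemma Aux.p {p q r : Pt} {a : Fin 6 → Pt} (h : Aux p q r a) (i : Fin 6) : (a i).2 ≠ p.2 := (h.2 i).1
lemma Aux.q {p q r : Pt} {a : Fin 6 → Pt} (h : Aux p q r a) (i : Fin 6) : (a i).2 ≠ q.2 :=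
  (h.2 i).2.1
lemma Aux.r {p q r : Pt} {a : Fin 6 → Pt} (h : Aux p q r a) (i : Fin 6) : (a i).2 ≠ r.2 :=
  (h.2 i).2.2
lemma Aux.d0 {p q r : Pt} {a : Fin 6 → Pt} (h : Aux p q r a) : D3 (a 0).2 p.2 (a 3).2 :=
  ⟨h.p 0, h.ne 0 3, (h.p 3).symm⟩
lemma Aux.d1 {p q r : Pt} {a : Fin 6 → Pt} (h : Aux p q r a) : D3 (a 1).2 q.2 (a 4).2 :=
  ⟨h.q 1, h.ne 1 4, (h.q 4).symm⟩
lemma Aux.d2 {p q r : Pt} {a : Fin 6 → Pt} (h : Aux p q r a) : D3 (a 2).2 r.2 (a 5).2 :=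
  ⟨h.r 2, h.ne 2 5, (h.r 5).symm⟩
lemma Aux.d {p q r : Pt} {a : Fin 6 → Pt} (h : Aux p q r a) : D3 (a 0).2 (a 1).2 (a 2).2 :=
  ⟨h.ne 0 1, h.ne 0 2, h.ne 1 2⟩

lemma Aux.mix {p q r : Pt} {a b : Fin 6 → Pt} (ha : Aux p q r a) (hb : Aux p q r b)
    (h : ∀ i j, (a i).2 ≠ (b j).2) (s : Fin 6 → Bool) :
    Aux p q r (fun i => if s i then a i else b i) := by
  refine ⟨fun i j e => ?_, fun i => ?_⟩
  · simp only at e
    split_ifs at e
    exacts [ha.1 e, (h _ _ e).elim, (h _ _ e.symm).elim, hb.1 e]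
  · simp only
    split_ifs
    exacts [ha.2 i, hb.2 i]

lemma el_adm_union {F : Set Pt} {W : Set (Cfg S)} (h : Adm F W) {a : Fin 6 → Pt}
    (ha : Function.Injective fun i => (a i).2) (hF : ∀ s ∈ F, ∀ i, (a i).2 ≠ s.2) :
    Adm (F ∪ Set.range a) W := by
  rintro x hx y hy s (hs | ⟨i, rfl⟩) t (ht | ⟨j, rfl⟩) e
  · exact h x hx y hy s hs t ht e
  · exact (hF s hs j (congrArg Prod.snd e :).symm).elim
  · exact (hF t ht i (congrArg Prod.snd e :)).elim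
  · obtain rfl : i = j := ha (congrArg Prod.snd e :)
    exact ⟨blk_pt_cancel e, rfl⟩

lemma Aux.adm {p q r : Pt} {a : Fin 6 → Pt} (ha : Aux p q r a) {W : Set (Cfg S)}
    (h : Adm {p, q, r} W) : Adm ({p, q, r} ∪ Set.range a) W :=
  el_adm_union h ha.1 (by
    rintro s (rfl | rfl | rfl) i
    exacts [ha.p i, ha.q i, ha.r i])

lemma el_img_disj {F A B : Set Pt} {W : Set (Cfg S)} (h : Adm F W) (hA : A ⊆ F) (hB : B ⊆ F)
    (hd : ∀ s ∈ A, ∀ t ∈ B, s ≠ t) : Disjoint (img A W) (img B W) := by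
  rw [Set.disjoint_left]
  rintro _ ⟨x, hx, s, hs, rfl⟩ ⟨y, hy, t, ht, e⟩
  exact hd s hs t ht (h x hx y hy s (hA hs) t (hB ht) e).2

lemma el_img_disj' {F A B : Set Pt} {W W' : Set (Cfg S)} (h : Adm F (W ∪ W')) (hA : A ⊆ F)
    (hB : B ⊆ F) (hd : Disjoint W W') : Disjoint (img A W) (img B W') := by
  rw [Set.disjoint_left]
  rintro _ ⟨x, hx, s, hs, rfl⟩ ⟨y, hy, t, ht, e⟩
  exact Set.disjoint_left.1 hd hx
    ((h x (Or.inl hx) y (Or.inr hy) s (hA hs) t (hB ht) e).1 ▸ hy)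

lemma el_adm3_map {i j k i' j' k' : Pt} {Z : Set (Cfg S)} (h : Adm3 i j k Z) (hne : Z.Nonempty)
    (g : Perm (Om S))
    (e : ∀ x ∈ Z, g (pt x i) = pt x i' ∧ g (pt x j) = pt x j' ∧ g (pt x k) = pt x k') :
    Adm3 i' j' k' Z := by
  classical
  obtain ⟨x, hx⟩ := hne
  obtain ⟨e1, e2, e3⟩ := e x hx
  have inj : ∀ s ∈ ({i, j, k} : Set Pt), ∀ t ∈ ({i, j, k} : Set Pt), g (pt x s) = g (pt x t) →
      s = t := fun s hs t ht e => (h.2.2 x hx x hx s hs t ht (g.injective e)).2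
  refine ⟨⟨fun e => h.1.1 (inj _ (by simp) _ (by simp) (by rw [e1, e2, e])),
    fun e => h.1.2.1 (inj _ (by simp) _ (by simp) (by rw [e1, e3, e])),
    fun e => h.1.2.2 (inj _ (by simp) _ (by simp) (by rw [e2, e3, e]))⟩, h.2.1, ?_⟩
  have := h.2.2.map g (fun r => if r = i then i' else if r = j then j' else k') (by
    intro x hx r hr
    rcases hr with rfl | rfl | rfl
    · rw [if_pos rfl]; exact (e x hx).1
    · rw [if_neg h.1.1.symm, if_pos rfl]; exact (e x hx).2.1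
    · rw [if_neg h.1.2.1.symm, if_neg h.1.2.2.symm]; exact (e x hx).2.2)
  rwa [Set.image_insert_eq, Set.image_pair, if_pos rfl, if_neg h.1.1.symm, if_pos rfl,
    if_neg h.1.2.1.symm, if_neg h.1.2.2.symm] at this

/-- refinement of a triple along the action of a local permutation -/
lemma el_refine (hf : Free S) {g : Perm (Om S)} (hg : g ∈ LocP S) {i j k : Pt} {Z : Set (Cfg S)}
    (h : Adm3 i j k Z) {P : Set (Cfg S) → Prop} (h0 : P ∅)
    (hu : ∀ Z₁ Z₂, Loc Z₁ → Loc Z₂ → Z₁ ⊆ Z → Z₂ ⊆ Z → Disjoint Z₁ Z₂ → P Z₁ → P Z₂ → P (Z₁ ∪ Z₂))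
    (hc : ∀ Z₁ i' j' k', Loc Z₁ → Z₁ ⊆ Z → Adm3 i' j' k' Z₁ →
      (∀ x ∈ Z₁, g (pt x i) = pt x i' ∧ g (pt x j) = pt x j' ∧ g (pt x k) = pt x k') → P Z₁) :
    P Z := by
  refine Loc.refine ((actP_locF hf hg i).prod ((actP_locF hf hg j).prod (actP_locF hf hg k)))
    h.2.1 hu ?_
  intro Z₁ hZ₁ hs hconst
  rcases Z₁.eq_empty_or_nonempty with rfl | ⟨x₀, hx₀⟩
  · exact h0
  · have e : ∀ x ∈ Z₁, g (pt x i) = pt x (actP g x₀ i) ∧ g (pt x j) = pt x (actP g x₀ j) ∧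
        g (pt x k) = pt x (actP g x₀ k) := by
      intro x hx
      have := hconst x hx x₀ hx₀
      simp only [Prod.mk.injEq] at this
      rw [← this.1, ← this.2.1, ← this.2.2]
      exact ⟨actP_spec hf hg x i, actP_spec hf hg x j, actP_spec hf hg x k⟩
    exact hc Z₁ _ _ _ hZ₁ hs (el_adm3_map (h.mono hZ₁ hs) ⟨x₀, hx₀⟩ g e) e

lemma el_alg {Γ : Type} [Group Γ] {a0 a1 a2 c b0 b1 b2 d : Γ}
    (h : ∀ x ∈ [a0, a1, a2, c], ∀ y ∈ [b0, b1, b2, d], Commute x y) :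
    (a0 * b0 * (a1 * b1) * (a2 * b2)) * (c * d) * (a0 * b0 * (a1 * b1) * (a2 * b2))⁻¹ =
      (a0 * a1 * a2 * c * (a0 * a1 * a2)⁻¹) * (b0 * b1 * b2 * d * (b0 * b1 * b2)⁻¹) := by
  simp only [List.mem_cons, List.not_mem_nil, or_false, forall_eq_or_imp, forall_eq] at h
  obtain ⟨⟨h00, h01, h02, h0d⟩, ⟨h10, h11, h12, h1d⟩, ⟨h20, h21, h22, h2d⟩, hc0, hc1, hc2, -⟩ := h
  have e : a0 * b0 * (a1 * b1) * (a2 * b2) = (a0 * a1 * a2) * (b0 * b1 * b2) := by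
    calc _ = a0 * (b0 * a1) * (b1 * a2) * b2 := by group
      _ = a0 * a1 * (b0 * a2) * b1 * b2 := by rw [← h10.eq, ← h21.eq]; group
      _ = _ := by rw [← h20.eq]; group
  have c1 : Commute (a0 * a1 * a2) (b0 * b1 * b2) :=
    (((h00.mul_left h10).mul_left h20).mul_right ((h01.mul_left h11).mul_left h21)).mul_right
      ((h02.mul_left h12).mul_left h22)
  have c2 : Commute (a0 * a1 * a2) d := (h0d.mul_left h1d).mul_left h2d
  have c3 : Commute c (b0 * b1 * b2) := (hc0.mul_right hc1).mul_right hc2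
  rw [e]
  generalize a0 * a1 * a2 = A at *
  generalize b0 * b1 * b2 = B at *
  have c4 : Commute A⁻¹ (B * d * B⁻¹) := ((c1.mul_right c2).mul_right c1.inv_right).inv_left
  rw [mul_assoc (A * c), c4.eq]
  calc _ = A * (B * c) * d * B⁻¹ * A⁻¹ := by group
    _ = _ := by rw [← c3.eq]; group

namespace RData

variable {Γ : Type} [Group Γ] (T : RData S Γ)

/-- conjugate the rainbow three-cycle `(a 0, a 1, a 2)` to `(p, q, r)` -/
noncomputable def el (W : Set (Cfg S)) (p q r : Pt) (a : Fin 6 → Pt) : Γ :=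
  (T.rb W (a 0) p (a 3) * T.rb W (a 1) q (a 4) * T.rb W (a 2) r (a 5)) * T.rb W (a 0) (a 1) (a 2) *
    (T.rb W (a 0) p (a 3) * T.rb W (a 1) q (a 4) * T.rb W (a 2) r (a 5))⁻¹

lemma rb_c1 {W : Set (Cfg S)} (hW : Loc W) {x y z s t : Pt} (h : D5 x.2 y.2 z.2 s.2 t.2) :
    T.rb W x y z * T.rb W x s t * (T.rb W x y z)⁻¹ = T.rb W y s t := by
  obtain ⟨⟨⟨h1, h2, h3⟩, h4, h5, h6⟩, h7, h8, h9, h10⟩ := id h
  have nd : (([x, y, z, s, t] : List Pt).map Prod.snd).Nodup := by simp [*]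
  have P := T.rb_preOn hW (rb_of_list nd) (lt_of_le_of_lt (List.toFinset_card_le _) (by simp))
  have d := h.1.1.of_snd
  have c1 := P.conj x (by simp) y (by simp) z (by simp) x (by simp) s (by simp) t (by simp) d
    (D3.of_snd ⟨h4, h7, h10⟩)
  rwa [cyc_apply_fst d,
    cyc_apply_of_ne (ne_of_apply_ne Prod.snd h4.symm) (ne_of_apply_ne Prod.snd h5.symm)
      (ne_of_apply_ne Prod.snd h6.symm),
    cyc_apply_of_ne (ne_of_apply_ne Prod.snd h7.symm) (ne_of_apply_ne Prod.snd h8.symm)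
      (ne_of_apply_ne Prod.snd h9.symm)] at c1

lemma rb_c2 {W : Set (Cfg S)} (hW : Loc W) {x y z s t : Pt} (h : D5 x.2 y.2 z.2 s.2 t.2) :
    T.rb W x y z * T.rb W t x s * (T.rb W x y z)⁻¹ = T.rb W t y s := by
  obtain ⟨⟨⟨h1, h2, h3⟩, h4, h5, h6⟩, h7, h8, h9, h10⟩ := id h
  rw [T.rb_rot hW (p := t) (q := x) ⟨h7.symm, h10.symm, h4⟩,
    T.rb_rot hW (p := t) (q := y) ⟨h8.symm, h10.symm, h5⟩]
  exact T.rb_c1 hW h

lemma rb_c3 {W : Set (Cfg S)} (hW : Loc W) {x y z s t : Pt} (h : D5 x.2 y.2 z.2 s.2 t.2) :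
    T.rb W x y z * T.rb W s t x * (T.rb W x y z)⁻¹ = T.rb W s t y := by
  obtain ⟨⟨⟨h1, h2, h3⟩, h4, h5, h6⟩, h7, h8, h9, h10⟩ := id h
  rw [← T.rb_rot hW (p := x) ⟨h4, h7, h10⟩, ← T.rb_rot hW (p := y) ⟨h5, h8, h10⟩]
  exact T.rb_c1 hW h

/-- the conjugating element -/
noncomputable def mv (W : Set (Cfg S)) (p q r : Pt) (a : Fin 6 → Pt) : Γ :=
  T.rb W (a 0) p (a 3) * T.rb W (a 1) q (a 4) * T.rb W (a 2) r (a 5)

lemma pr_mv {F : Set Pt} {W : Set (Cfg S)} (hW : Loc W) {p q r : Pt} {a : Fin 6 → Pt}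
    (ha : Aux p q r a) (hA : Adm F W) (hp : p ∈ F) (hq : q ∈ F) (hr : r ∈ F) (hF : ∀ i, a i ∈ F)
    {x : Cfg S} (hx : x ∈ W) {t : Pt} (ht : t ∈ F) :
    T.pr (T.mv W p q r a) (pt x t) =
      pt x (cyc (a 0) p (a 3) (cyc (a 1) q (a 4) (cyc (a 2) r (a 5) t))) := by
  have m2 := rb_cyc_mem (hF 2) hr (hF 5) ht
  have m1 := rb_cyc_mem (hF 1) hq (hF 4) m2
  rw [mv, map_mul, map_mul, T.pr_rb hW ha.d0, T.pr_rb hW ha.d1, T.pr_rb hW ha.d2, Perm.mul_apply,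
    Perm.mul_apply, (cycW_isBlk hA (hF 2) hr (hF 5) ha.d2.of_snd).1 x hx t ht,
    (cycW_isBlk hA (hF 1) hq (hF 4) ha.d1.of_snd).1 x hx _ m2,
    (cycW_isBlk hA (hF 0) hp (hF 3) ha.d0.of_snd).1 x hx _ m1]

lemma pr_mv3 {W : Set (Cfg S)} {p q r : Pt} (h : Adm3 p q r W) {a : Fin 6 → Pt} (ha : Aux p q r a)
    (x : Cfg S) (hx : x ∈ W) : T.pr (T.mv W p q r a) (pt x (a 0)) = pt x p ∧
      T.pr (T.mv W p q r a) (pt x (a 1)) = pt x q ∧ T.pr (T.mv W p q r a) (pt x (a 2)) = pt x r := by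
  have key := fun i => T.pr_mv h.2.1 ha (ha.adm h.2.2) (by simp) (by simp) (by simp)
    (fun i => Or.inr ⟨i, rfl⟩) hx (t := a i) (Or.inr ⟨i, rfl⟩)
  have n := fun {s t : Pt} (h : s.2 ≠ t.2) => ne_of_apply_ne Prod.snd h
  refine ⟨?_, ?_, ?_⟩
  · rw [key, cyc_apply_of_ne (n (ha.ne 0 2)) (n (ha.r 0)) (n (ha.ne 0 5)),
      cyc_apply_of_ne (n (ha.ne 0 1)) (n (ha.q 0)) (n (ha.ne 0 4)), cyc_apply_fst ha.d0.of_snd]
  · rw [key, cyc_apply_of_ne (n (ha.ne 1 2)) (n (ha.r 1)) (n (ha.ne 1 5)),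
      cyc_apply_fst ha.d1.of_snd, cyc_apply_of_ne (n (ha.q 0).symm) h.1.1.symm (n (ha.q 3).symm)]
  · rw [key, cyc_apply_fst ha.d2.of_snd,
      cyc_apply_of_ne (n (ha.r 1).symm) h.1.2.2.symm (n (ha.r 4).symm),
      cyc_apply_of_ne (n (ha.r 0).symm) h.1.2.1.symm (n (ha.r 3).symm)]

lemma pr_el {W : Set (Cfg S)} {p q r : Pt} (h : Adm3 p q r W) {a : Fin 6 → Pt} (ha : Aux p q r a) :
    T.pr (T.el W p q r a) = cycW p q r W := by 
  show T.pr (T.mv W p q r a * _ * (T.mv W p q r a)⁻¹) = _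
  rw [map_mul, map_mul, map_inv, T.pr_rb h.2.1 ha.d]
  exact cycW_conj (adm3_of_tracks ha.d h.2.1) _ (T.pr_mv3 h ha) h

lemma el_comm {W : Set (Cfg S)} {p q r : Pt} (h : Adm3 p q r W) {a : Fin 6 → Pt}
    (ha : Aux p q r a) :
    Commute (T.rb W (a 0) p (a 3)) (T.rb W (a 1) q (a 4)) ∧
    Commute (T.rb W (a 0) p (a 3)) (T.rb W (a 2) r (a 5)) ∧
    Commute (T.rb W (a 1) q (a 4)) (T.rb W (a 2) r (a 5)) := by
  have n := fun {s t : Pt} (h : s.2 ≠ t.2) => ne_of_apply_ne Prod.snd h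
  have A := ha.adm h.2.2
  refine ⟨T.rb_commute h.2.1 h.2.1 ha.d0 ha.d1 (el_img_disj A ?_ ?_ ?_),
    T.rb_commute h.2.1 h.2.1 ha.d0 ha.d2 (el_img_disj A ?_ ?_ ?_),
    T.rb_commute h.2.1 h.2.1 ha.d1 ha.d2 (el_img_disj A ?_ ?_ ?_)⟩
  any_goals (rintro s (rfl | rfl | rfl) <;> simp; done)
  · rintro s (rfl | rfl | rfl) t (rfl | rfl | rfl)
    exacts [n (ha.ne 0 1), n (ha.q 0), n (ha.ne 0 4), n (ha.p 1).symm, h.1.1, n (ha.p 4).symm,
      n (ha.ne 3 1), n (ha.q 3), n (ha.ne 3 4)]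
  · rintro s (rfl | rfl | rfl) t (rfl | rfl | rfl)
    exacts [n (ha.ne 0 2), n (ha.r 0), n (ha.ne 0 5), n (ha.p 2).symm, h.1.2.1, n (ha.p 5).symm,
      n (ha.ne 3 2), n (ha.r 3), n (ha.ne 3 5)]
  · rintro s (rfl | rfl | rfl) t (rfl | rfl | rfl)
    exacts [n (ha.ne 1 2), n (ha.r 1), n (ha.ne 1 5), n (ha.q 2).symm, h.1.2.2, n (ha.q 5).symm,
      n (ha.ne 4 2), n (ha.r 4), n (ha.ne 4 5)]

lemma el_2 {W : Set (Cfg S)} (hW : Loc W) {p q r : Pt} {a : Fin 6 → Pt} (ha : Aux p q r a) :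
    T.el W p q r a = (T.rb W (a 0) p (a 3) * T.rb W (a 1) q (a 4)) * T.rb W (a 0) (a 1) r *
      (T.rb W (a 0) p (a 3) * T.rb W (a 1) q (a 4))⁻¹ := by
  rw [← T.rb_c3 hW (x := a 2) (y := r) (z := a 5) ⟨⟨ha.d2, ha.ne 2 0, (ha.r 0).symm, ha.ne 5 0⟩,
    ha.ne 2 1, (ha.r 1).symm, ha.ne 5 1, ha.ne 0 1⟩, el]
  group

lemma el_1 {W : Set (Cfg S)} {p q r : Pt} (h : Adm3 p q r W) {a : Fin 6 → Pt} (ha : Aux p q r a) :
    T.el W p q r a = (T.rb W (a 0) p (a 3) * T.rb W (a 2) r (a 5)) * T.rb W (a 0) q (a 2) *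
      (T.rb W (a 0) p (a 3) * T.rb W (a 2) r (a 5))⁻¹ := by
  rw [← T.rb_c2 h.2.1 (x := a 1) (y := q) (z := a 4) ⟨⟨ha.d1, ha.ne 1 2, (ha.q 2).symm, ha.ne 4 2⟩,
    ha.ne 1 0, (ha.q 0).symm, ha.ne 4 0, ha.ne 2 0⟩, el, mul_assoc (T.rb W (a 0) p (a 3)),
    (T.el_comm h ha).2.2.eq]
  group

lemma el_0 {W : Set (Cfg S)} {p q r : Pt} (h : Adm3 p q r W) {a : Fin 6 → Pt} (ha : Aux p q r a) :
    T.el W p q r a = (T.rb W (a 1) q (a 4) * T.rb W (a 2) r (a 5)) * T.rb W p (a 1) (a 2) *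
      (T.rb W (a 1) q (a 4) * T.rb W (a 2) r (a 5))⁻¹ := by
  rw [← T.rb_c1 h.2.1 (x := a 0) (y := p) (z := a 3) ⟨⟨ha.d0, ha.ne 0 1, (ha.p 1).symm, ha.ne 3 1⟩,
    ha.ne 0 2, (ha.p 2).symm, ha.ne 3 2, ha.ne 1 2⟩, el, mul_assoc (T.rb W (a 0) p (a 3)),
    ((T.el_comm h ha).1.mul_right (T.el_comm h ha).2.1).eq]
  group

lemma el_indep' {W : Set (Cfg S)} {p q r : Pt} (h : Adm3 p q r W) {a b : Fin 6 → Pt}
    (ha : Aux p q r a) (hb : Aux p q r b) (hab : ∀ i j, (a i).2 ≠ (b j).2) :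
    T.el W p q r a = T.el W p q r b := by
  have m1 := ha.mix hb hab ![true, true, false, true, true, false]
  have m2 := ha.mix hb hab ![true, false, false, true, false, false]
  exact ((T.el_2 h.2.1 ha).trans (T.el_2 h.2.1 m1).symm).trans
    (((T.el_1 h m1).trans (T.el_1 h m2).symm).trans ((T.el_0 h m2).trans (T.el_0 h hb).symm))

/-- Plan: if all twelve tracks are different, `h'⁻¹ h = k₁ k₂ k₃` (`rb_commute`), and each `kᵢ` changes
one point of the rainbow triple (`rb_preOn` on seven points).  In general go through a third choice. -/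
theorem el_indep {W : Set (Cfg S)} {p q r : Pt} (h : Adm3 p q r W) {a a' : Fin 6 → Pt}
    (ha : Aux p q r a) (ha' : Aux p q r a') : T.el W p q r a = T.el W p q r a' := by 
  obtain ⟨b, h1, h2⟩ := exists_aux_list ([p.2, q.2, r.2] ++ List.ofFn (fun i => (a i).2) ++
    List.ofFn (fun i => (a' i).2)) (by simp)
  simp only [List.mem_append, List.mem_cons, List.not_mem_nil, or_false, List.mem_ofFn, not_or,
    not_exists] at h2
  have hb : Aux p q r b := ⟨h1, fun i => (h2 i).1.1⟩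
  rw [T.el_indep' h ha hb fun i j => (h2 j).1.2 i, T.el_indep' h ha' hb fun i j => (h2 j).2 i]

lemma el_rb {W : Set (Cfg S)} (hW : Loc W) {p q r : Pt} (h : D3 p.2 q.2 r.2) {a : Fin 6 → Pt}
    (ha : Aux p q r a) : T.el W p q r a = T.rb W p q r := by 
  rw [T.el_2 hW ha, ← T.rb_c1 hW (x := a 0) (y := p) (z := a 3)
    ⟨⟨ha.d0, ha.q 0, h.1, ha.q 3⟩, ha.r 0, h.2.1, ha.r 3, h.2.2⟩,
    ← T.rb_c2 hW (x := a 1) (y := q) (z := a 4) ⟨⟨ha.d1, ha.r 1, h.2.2, ha.r 4⟩,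
      ha.ne 1 0, (ha.q 0).symm, ha.ne 4 0, (ha.r 0).symm⟩]
  group

/-- conjugation by a rainbow lift: choose the auxiliary tracks away from everything, `rb_conj_rb` -/
lemma rb_conj_el (hf : Free S) {Z W : Set (Cfg S)} (hZ : Loc Z) {i j k p q r p' q' r' : Pt}
    (h : D3 i.2 j.2 k.2) (h1 : Adm3 p q r W) (h2 : Adm3 p' q' r' W)
    (e : ∀ x ∈ W, cycW i j k Z (pt x p) = pt x p' ∧ cycW i j k Z (pt x q) = pt x q' ∧
      cycW i j k Z (pt x r) = pt x r') {a a' : Fin 6 → Pt} (ha : Aux p q r a) (ha' : Aux p' q' r' a') :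
    T.rb Z i j k * T.el W p q r a * (T.rb Z i j k)⁻¹ = T.el W p' q' r' a' := by 
  obtain ⟨b, g1, g2⟩ := exists_aux_list [i.2, j.2, k.2, p.2, q.2, r.2, p'.2, q'.2, r'.2] (by simp)
  simp only [List.mem_cons, List.not_mem_nil, or_false, not_or] at g2
  have hb : Aux p q r b := ⟨g1, fun i => ⟨(g2 i).2.2.2.1, (g2 i).2.2.2.2.1, (g2 i).2.2.2.2.2.1⟩⟩
  have hb' : Aux p' q' r' b := ⟨g1, fun i => (g2 i).2.2.2.2.2.2⟩
  have g3 : ∀ l, (b l).2 ≠ i.2 ∧ (b l).2 ≠ j.2 ∧ (b l).2 ≠ k.2 :=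
    fun l => ⟨(g2 l).1, (g2 l).2.1, (g2 l).2.2.1⟩
  have hW := h1.2.1
  have c : Commute (T.rb Z i j k) (T.rb W (b 0) (b 1) (b 2)) := by
    refine T.rb_commute hZ hW h hb.d ?_
    rw [Set.disjoint_right]
    rintro _ ⟨x, -, s, hs, rfl⟩ ⟨y, -, t, ht, e₁⟩
    have e₂ : s.2 = t.2 := (congrArg Prod.snd e₁ :)
    obtain ⟨l, rfl⟩ : ∃ l, s = b l := by
      rcases hs with rfl | rfl | rfl <;> exact ⟨_, rfl⟩
    rcases ht with rfl | rfl | rfl
    exacts [(g3 l).1 e₂, (g3 l).2.1 e₂, (g3 l).2.2 e₂]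
  rw [T.el_indep h1 ha hb, T.el_indep h2 ha' hb', el, el,
    ← T.rb_conj_rb hf hZ hW h hb.d0 hb'.d0 (g3 0) (g3 3) fun x hx => (e x hx).1,
    ← T.rb_conj_rb hf hZ hW h hb.d1 hb'.d1 (g3 1) (g3 4) fun x hx => (e x hx).2.1,
    ← T.rb_conj_rb hf hZ hW h hb.d2 hb'.d2 (g3 2) (g3 5) fun x hx => (e x hx).2.2]
  conv_rhs => rw [← mul_inv_eq_iff_eq_mul.2 c.eq]
  group

lemma el_exists_aux (p q r : Pt) : ∃ a, Aux p q r a := by
  obtain ⟨a, h1, h2⟩ := exists_aux_list [p.2, q.2, r.2] (by simp)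
  simp only [List.mem_cons, List.not_mem_nil, or_false, not_or] at h2
  exact ⟨a, h1, h2⟩

/-- the lift of an elementary three-cycle -/
noncomputable def ee (W : Set (Cfg S)) (p q r : Pt) : Γ := T.el W p q r (el_exists_aux p q r).choose

lemma ee_eq {W : Set (Cfg S)} {p q r : Pt} (h : Adm3 p q r W) {a : Fin 6 → Pt} (ha : Aux p q r a) :
    T.ee W p q r = T.el W p q r a := T.el_indep h (el_exists_aux p q r).choose_spec ha

lemma ee_rb {W : Set (Cfg S)} (hW : Loc W) {p q r : Pt} (h : D3 p.2 q.2 r.2) :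
    T.ee W p q r = T.rb W p q r := T.el_rb hW h (el_exists_aux p q r).choose_spec

lemma ee_empty (p q r : Pt) : T.ee ∅ p q r = 1 := by
  rw [ee, el, T.rb_empty (el_exists_aux p q r).choose_spec.d, mul_one, mul_inv_cancel]

lemma ee_union {W W' : Set (Cfg S)} {p q r : Pt} (h : Adm3 p q r (W ∪ W')) (hW : Loc W)
    (hW' : Loc W') (hd : Disjoint W W') : T.ee (W ∪ W') p q r = T.ee W p q r * T.ee W' p q r := by
  have ha := (el_exists_aux p q r).choose_spec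
  simp only [ee, el]
  generalize (el_exists_aux p q r).choose = a at ha
  rw [T.rb_union hW hW' hd ha.d0, T.rb_union hW hW' hd ha.d1, T.rb_union hW hW' hd ha.d2,
    T.rb_union hW hW' hd ha.d]
  refine el_alg ?_
  have key : ∀ Z : Set (Cfg S), ∀ x ∈ [T.rb Z (a 0) p (a 3), T.rb Z (a 1) q (a 4),
      T.rb Z (a 2) r (a 5), T.rb Z (a 0) (a 1) (a 2)], ∃ s t u : Pt, D3 s.2 t.2 u.2 ∧
      ({s, t, u} : Set Pt) ⊆ {p, q, r} ∪ Set.range a ∧ x = T.rb Z s t u := by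
    intro Z x hx
    simp only [List.mem_cons, List.not_mem_nil, or_false] at hx
    rcases hx with rfl | rfl | rfl | rfl
    · exact ⟨_, _, _, ha.d0, by rintro s (rfl | rfl | rfl) <;> simp, rfl⟩
    · exact ⟨_, _, _, ha.d1, by rintro s (rfl | rfl | rfl) <;> simp, rfl⟩
    · exact ⟨_, _, _, ha.d2, by rintro s (rfl | rfl | rfl) <;> simp, rfl⟩
    · exact ⟨_, _, _, ha.d, by rintro s (rfl | rfl | rfl) <;> simp, rfl⟩
  intro x hx y hy
  obtain ⟨s, t, u, d, hs, rfl⟩ := key W x hx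
  obtain ⟨s', t', u', d', hs', rfl⟩ := key W' y hy
  exact T.rb_commute hW hW' d d' (el_img_disj' (ha.adm h.2.2) hs hs' hd)

lemma el_pr_mem (γ : Γ) : T.pr γ ∈ LocP S := by
  have : (⊤ : Subgroup Γ) ≤ (LocP S).comap T.pr := by
    rw [← T.gen, Subgroup.closure_le]
    rintro _ (⟨W, i, j, k, hW, d, rfl⟩ | ⟨D, hD, rfl⟩)
    · show T.pr _ ∈ LocP S
      rw [T.pr_c W i j k hW d]
      exact cycW_mem_locP (adm3_of_tracks (by exact d) hW)
    · show T.pr _ ∈ LocP S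
      rw [T.pr_τ D hD]
      exact tau_mem_locP D
  exact this (Subgroup.mem_top γ)

lemma ee_conj (hf : Free S) (γ : Γ) {W : Set (Cfg S)} {p q r p' q' r' : Pt} (h : Adm3 p q r W)
    (h' : Adm3 p' q' r' W)
    (e : ∀ x ∈ W, T.pr γ (pt x p) = pt x p' ∧ T.pr γ (pt x q) = pt x q' ∧
      T.pr γ (pt x r) = pt x r') : γ * T.ee W p q r * γ⁻¹ = T.ee W p' q' r' := by
  have hγ := T.gen ▸ Subgroup.mem_top γ
  induction hγ using Subgroup.closure_induction generalizing W p q r p' q' r' with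
  | mem γ hγ =>
    rcases hγ with ⟨Z, i, j, k, hZ, d, rfl⟩ | ⟨D, hD, rfl⟩
    · rw [T.pr_c Z i j k hZ d] at e
      rw [← T.rb_aligned hZ d]
      exact T.rb_conj_el hf hZ (by exact d) h h' e (el_exists_aux _ _ _).choose_spec
        (el_exists_aux _ _ _).choose_spec
    · rcases W.eq_empty_or_nonempty with rfl | ⟨x, hx⟩
      · rw [T.ee_empty, T.ee_empty, mul_one, mul_inv_cancel]
      obtain ⟨e1, e2, e3⟩ := e x hx
      rw [T.pr_τ D hD, tau_pt] at e1 e2 e3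
      obtain rfl := hf.pt_inj x e1
      obtain rfl := hf.pt_inj x e2
      obtain rfl := hf.pt_inj x e3
      obtain ⟨a, ha⟩ := el_exists_aux p q r
      have hW := h.2.1
      rw [T.ee_eq h ha, T.ee_eq h' (a := fun i => shP (D (a i).2) (a i)) ha, el, el,
        ← T.τ_rb hD hW ha.d0, ← T.τ_rb hD hW ha.d1, ← T.τ_rb hD hW ha.d2, ← T.τ_rb hD hW ha.d]
      group
  | one =>
    rw [one_mul, inv_one, mul_one]
    rcases W.eq_empty_or_nonempty with rfl | ⟨x, hx⟩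
    · rw [T.ee_empty, T.ee_empty]
    · have := e x hx
      simp only [map_one, Perm.one_apply] at this
      rw [hf.pt_inj x this.1, hf.pt_inj x this.2.1, hf.pt_inj x this.2.2]
  | mul γ δ _ _ ih1 ih2 =>
    refine el_refine hf (T.el_pr_mem δ) h
      (P := fun Z₁ => γ * δ * T.ee Z₁ p q r * (γ * δ)⁻¹ = T.ee Z₁ p' q' r') ?_ ?_ ?_
    · rw [T.ee_empty, T.ee_empty, mul_one, mul_inv_cancel]
    · intro Z₁ Z₂ l1 l2 s1 s2 hd a1 a2
      have hs : Z₁ ∪ Z₂ ⊆ W := Set.union_subset s1 s2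
      rw [T.ee_union (h.mono (l1.union l2) hs) l1 l2 hd,
        T.ee_union (h'.mono (l1.union l2) hs) l1 l2 hd, ← a1, ← a2]
      group
    · intro Z₁ i j k l1 s1 hk e1
      have a2 := ih2 (h.mono l1 s1) hk e1
      have a1 := ih1 hk (h'.mono l1 s1) (by
        intro x hx
        have := e x (s1 hx)
        simp only [map_mul, Perm.mul_apply, (e1 x hx).1, (e1 x hx).2.1, (e1 x hx).2.2] at this
        exact this)
      rw [← a1, ← a2]
      group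
  | inv γ _ ih =>
    have := ih h' h (by
      intro x hx
      have := e x hx
      simp only [map_inv, Perm.inv_eq_iff_eq] at this
      exact ⟨this.1.symm, this.2.1.symm, this.2.2.symm⟩)
    rw [← this]
    group

lemma ee_gen (hf : Free S) :
    Subgroup.closure {γ | ∃ W p q r, Adm3 p q r W ∧ γ = T.ee W p q r} = ⊤ := by
  set N := Subgroup.closure {γ | ∃ W p q r, Adm3 p q r W ∧ γ = T.ee W p q r} with hN
  have mem : ∀ W p q r, Adm3 p q r W → T.ee W p q r ∈ N := fun W p q r h =>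
    Subgroup.subset_closure ⟨W, p, q, r, h, rfl⟩
  have cj : ∀ γ W p q r, Adm3 p q r W → γ * T.ee W p q r * γ⁻¹ ∈ N := by
    intro γ W p q r h
    refine el_refine hf (T.el_pr_mem γ) h (P := fun Z₁ => γ * T.ee Z₁ p q r * γ⁻¹ ∈ N) ?_ ?_ ?_
    · rw [T.ee_empty, mul_one, mul_inv_cancel]; exact one_mem _
    · intro Z₁ Z₂ l1 l2 s1 s2 hd a1 a2
      rw [T.ee_union (h.mono (l1.union l2) (Set.union_subset s1 s2)) l1 l2 hd]
      have := mul_mem a1 a2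
      rwa [show γ * T.ee Z₁ p q r * γ⁻¹ * (γ * T.ee Z₂ p q r * γ⁻¹) =
        γ * (T.ee Z₁ p q r * T.ee Z₂ p q r) * γ⁻¹ by group] at this
    · intro Z₁ i j k l1 s1 hk e1
      rw [T.ee_conj hf γ (h.mono l1 s1) hk e1]
      exact mem _ _ _ _ hk
  have hc : ∀ W i j k, Loc W → D3 i j k → T.c W i j k = T.ee W (0, i) (0, j) (0, k) := by
    intro W i j k hW d
    rw [T.ee_rb hW (by exact d), T.rb_aligned hW d]
  rw [eq_top_iff, ← T.gen, Subgroup.closure_le]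
  rintro _ (⟨W, i, j, k, hW, d, rfl⟩ | ⟨D, hD, rfl⟩)
  · rw [hc W i j k hW d]
    exact mem _ _ _ _ (adm3_of_tracks (by exact d) hW)
  refine SZ.induction (p := fun D => T.τ D ∈ N) Set.univ ?_ ?_ ?_ hD fun _ h => (h trivial).elim
  · rw [T.τ_zero]; exact one_mem _
  · intro i _ j _ e _
    by_cases hij : i = j
    · rw [hij, sub_self, T.τ_zero]; exact one_mem _
    obtain ⟨k, hk⟩ := tri_fresh_list [i, j] (by simp)
    obtain ⟨l, hl⟩ := tri_fresh_list [i, j, k] (by simp)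
    simp only [List.mem_cons, List.not_mem_nil, or_false, not_or] at hk hl
    have d : D3 j i k := ⟨Ne.symm hij, Ne.symm hk.2, Ne.symm hk.1⟩
    have A : Adm3 (0, j) (0, i) (0, k) (Set.univ : Set (Cfg S)) :=
      adm3_of_tracks (by exact d) Loc.univ
    have h1 := T.perm _ j i k (SZ.single j l e) d
    have e1 : (fun t => (Pi.single j e - Pi.single l e : Track → V) ((cyc j i k)⁻¹ t)) =
        (Pi.single i e - Pi.single j e) + (Pi.single j e - Pi.single l e) := by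
      funext t
      obtain ⟨t, rfl⟩ := (cyc j i k).surjective t
      have a1 : cyc j i k t = i ↔ t = j := (cyc j i k).injective.eq_iff' (cyc_apply_fst d)
      have a2 : cyc j i k t = l ↔ t = l :=
        (cyc j i k).injective.eq_iff' (cyc_apply_of_ne hl.2.1 hl.1 hl.2.2)
      simp only [Perm.coe_inv, symm_apply_apply, Pi.sub_apply, Pi.add_apply, sub_add_sub_cancel,
        Pi.single_apply, a1, a2]
    rw [e1, T.τ_add _ _ (SZ.single i j e) (SZ.single j l e), hc _ _ _ _ Loc.univ d] at h1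
    have h2 := mul_mem (mem _ _ _ _ A) (inv_mem (cj (T.τ (Pi.single j e - Pi.single l e)) _ _ _ _ A))
    rwa [show ∀ c t : Γ, c * (t * c * t⁻¹)⁻¹ = c * t * c⁻¹ * t⁻¹ from fun c t => by group, h1,
      mul_inv_cancel_right] at h2
  · intro D D' hD hD' a1 a2
    rw [T.τ_add D D' hD hD']
    exact mul_mem a1 a2

lemma ee_prod (hf : Free S) {W : Set (Cfg S)} {p q r t : Pt} (d : D4 p q r t) (hW : Loc W)
    (hA : Adm {p, q, r, t} W) : T.ee W q r t * T.ee W p t r = T.ee W p q r := by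
  obtain ⟨a, a1, a2⟩ := exists_aux_list [p.2, q.2, r.2, t.2] (by simp)
  obtain ⟨b, b1, b2⟩ := exists_aux_list ([p.2, q.2, r.2, t.2] ++ List.ofFn (fun i => (a i).2))
    (by simp)
  simp only [List.mem_append, List.mem_cons, List.not_mem_nil, or_false, List.mem_ofFn, not_or,
    not_exists] at a2 b2
  have ha : Aux p q r a := ⟨a1, fun i => ⟨(a2 i).1, (a2 i).2.1, (a2 i).2.2.1⟩⟩
  have A1 := el_adm_union hA a1 (by
    rintro s (rfl | rfl | rfl | rfl) i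
    exacts [(a2 i).1, (a2 i).2.1, (a2 i).2.2.1, (a2 i).2.2.2])
  have A2 := el_adm_union A1 b1 (by
    rintro s ((rfl | rfl | rfl | rfl) | ⟨j, rfl⟩) i
    exacts [(b2 i).1.1, (b2 i).1.2.1, (b2 i).1.2.2.1, (b2 i).1.2.2.2, Ne.symm ((b2 i).2 j)])
  have n := fun {s t : Pt} (h : s.2 ≠ t.2) => ne_of_apply_ne Prod.snd h
  have db : D3 (b 0).2 t.2 (b 1).2 := ⟨(b2 0).1.2.2.2, b1.ne (by decide), Ne.symm (b2 1).1.2.2.2⟩
  have h3 : Adm3 p q r W := ⟨d.1, hW, hA.mono (by rintro s (rfl | rfl | rfl) <;> simp) subset_rfl⟩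
  have blk := cycW_isBlk A2 (p := b 0) (q := t) (r := b 1) (by simp) (by simp) (by simp) db.of_snd
  have mvs : ∀ x ∈ W, (∀ i, T.pr (T.mv W p q r a * T.rb W (b 0) t (b 1)) (pt x (a i)) =
      T.pr (T.mv W p q r a) (pt x (a i))) ∧
      T.pr (T.mv W p q r a * T.rb W (b 0) t (b 1)) (pt x (b 0)) = pt x t := by
    intro x hx
    rw [map_mul, T.pr_rb hW db]
    refine ⟨fun i => ?_, ?_⟩
    · rw [Perm.mul_apply, blk.1 x hx _ (by simp),
        cyc_apply_of_ne (n ((b2 0).2 i)) (n (a2 i).2.2.2) (n ((b2 1).2 i))]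
    · rw [Perm.mul_apply, blk.1 x hx _ (by simp), cyc_apply_fst db.of_snd,
        T.pr_mv hW ha A1 (by simp) (by simp) (by simp) (by simp) hx (by simp),
        cyc_apply_of_ne (n (Ne.symm (a2 2).2.2.2)) d.2.2.2.symm (n (Ne.symm (a2 5).2.2.2)),
        cyc_apply_of_ne (n (Ne.symm (a2 1).2.2.2)) d.2.2.1.symm (n (Ne.symm (a2 4).2.2.2)),
        cyc_apply_of_ne (n (Ne.symm (a2 0).2.2.2)) d.2.1.symm (n (Ne.symm (a2 3).2.2.2))]
  have m0 := fun x hx => ((mvs x hx).1 0).trans (T.pr_mv3 h3 ha x hx).1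
  have m1 := fun x hx => ((mvs x hx).1 1).trans (T.pr_mv3 h3 ha x hx).2.1
  have m2 := fun x hx => ((mvs x hx).1 2).trans (T.pr_mv3 h3 ha x hx).2.2
  have m3 := fun x hx => (mvs x hx).2
  generalize T.mv W p q r a * T.rb W (b 0) t (b 1) = γ at m0 m1 m2 m3
  have d4 : D4 (a 0).2 (a 1).2 (a 2).2 (b 0).2 := ⟨ha.d, (b2 0).2 0, (b2 0).2 1, (b2 0).2 2⟩
  have d5 : D3 (a 1).2 (a 2).2 (b 0).2 := ⟨d4.1.2.2, d4.2.2.1, d4.2.2.2⟩
  have d6 : D3 (a 0).2 (b 0).2 (a 2).2 := ⟨d4.2.1, d4.1.2.1, d4.2.2.2.symm⟩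
  rw [← T.ee_conj hf γ (adm3_of_tracks ha.d hW) h3 fun x hx => ⟨m0 x hx, m1 x hx, m2 x hx⟩,
    ← T.ee_conj hf γ (adm3_of_tracks d5 hW) ⟨⟨d.1.2.2, d.2.2.1, d.2.2.2⟩, hW,
      hA.mono (by rintro s (rfl | rfl | rfl) <;> simp) subset_rfl⟩
      fun x hx => ⟨m1 x hx, m2 x hx, m3 x hx⟩,
    ← T.ee_conj hf γ (adm3_of_tracks d6 hW) ⟨⟨d.2.1, d.1.2.1, d.2.2.2.symm⟩, hW,
      hA.mono (by rintro s (rfl | rfl | rfl) <;> simp) subset_rfl⟩
      fun x hx => ⟨m0 x hx, m3 x hx, m2 x hx⟩,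
    T.ee_rb hW ha.d, T.ee_rb hW d5, T.ee_rb hW d6, ← T.rb_prod hW d4]
  group

/-- Plan: `e W p q r = el W p q r a` for a chosen `a`.  `conj` by closure induction on `T.gen` with
refinement of `W` along `actP` (as for `GateSys.conj_s`); `prod`: conjugate the four points to four fresh
tracks by a product of four rainbow lifts, `rb_prodOn`; `gen`: the closure `N` is normal and contains the
`c W`, hence `⁅c univ i j k, τ D⁆ = τ (D ∘ cyc⁻¹ - D)`, hence all `τ D` (`SZ.induction`). -/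
theorem exists_esys (T : RData S Γ) (hf : Free S) : Nonempty (ESys S Γ) := by 
  refine ⟨⟨T.ee, T.pr, fun W p q r h => T.pr_el h (el_exists_aux p q r).choose_spec, T.el_pr_mem,
    fun W p q r h => ?_, fun W p q r h => ?_, fun W p q r h => ?_,
    fun W W' p q r h hW hW' hd => T.ee_union h hW hW' hd, fun v W p q r h => ?_,
    fun γ W p q r p' q' r' h h' e => T.ee_conj hf γ h h' e,
    fun W p q r t d hW hA => T.ee_prod hf d hW hA, T.ee_gen hf⟩⟩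
  · obtain ⟨a, ha⟩ := el_exists_aux p q r
    have hW := h.2.1
    have d : D3 (a 1).2 (a 2).2 (a 0).2 := ⟨ha.ne 1 2, ha.ne 1 0, ha.ne 2 0⟩
    rw [← T.ee_conj hf _ (adm3_of_tracks ha.d hW) h (T.pr_mv3 h ha),
      ← T.ee_conj hf _ (adm3_of_tracks d hW) h.rot fun x hx =>
        ⟨(T.pr_mv3 h ha x hx).2.1, (T.pr_mv3 h ha x hx).2.2, (T.pr_mv3 h ha x hx).1⟩,
      T.ee_rb hW ha.d, T.ee_rb hW d, T.rb_rot hW ha.d]
  · obtain ⟨a, ha⟩ := el_exists_aux p q r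
    have hW := h.2.1
    have d : D3 (a 0).2 (a 2).2 (a 1).2 := ⟨ha.ne 0 2, ha.ne 0 1, ha.ne 2 1⟩
    rw [← T.ee_conj hf _ (adm3_of_tracks ha.d hW) h (T.pr_mv3 h ha),
      ← T.ee_conj hf _ (adm3_of_tracks d hW) h.swap fun x hx =>
        ⟨(T.pr_mv3 h ha x hx).1, (T.pr_mv3 h ha x hx).2.2, (T.pr_mv3 h ha x hx).2.1⟩,
      T.ee_rb hW ha.d, T.ee_rb hW d, T.rb_inv hW ha.d]
    group
  · obtain ⟨a, ha⟩ := el_exists_aux p q r
    obtain ⟨D, hD, a0, a1, a2⟩ := rb_exists_D3 ha.d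
    rw [T.ee_eq h ha, el, conj_pow, T.rb_eq h.2.1 ha.d hD a0 a1 a2, conj_pow,
      (T.pre W h.2.1).cube _ _ _ ha.d]
    group
  · obtain ⟨a, ha⟩ := el_exists_aux p q r
    have hW : Loc W := blk_loc_tr.1 h.2.1
    rw [T.ee_eq h ha, T.ee_eq ((adm3_shP v).2 h) (a := fun i => shP v (a i)) ha, el, el,
      T.rb_shP v hW ha.d0, T.rb_shP v hW ha.d1, T.rb_shP v hW ha.d2, T.rb_shP v hW ha.d]

end RData

end Crest.Agent.R189
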