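import Crest.Agent.R189.Hat

/-!
Row 189.  The universal hat system.
-/

set_option autoImplicit false

namespace Crest.Agent.R189

open Equiv

/-- the relations of the universal hat system -/
def flatRels (S : Wang) : Set (FreeGroup (C3 S)) :=
  {r | ∃ (c c' : C3 S), r = FreeGroup.of c * FreeGroup.of c' * (FreeGroup.of c)⁻¹ *
      (FreeGroup.of (⟨_, conj_mem_C3 c.2.1 c'.2⟩ : C3 S))⁻¹} ∪
  {r | ∃ (c c' : C3 S) (h : c.1 * c'.1 ∈ C3 S), SmallOrb c.1 c'.1 ∧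
      r = FreeGroup.of c * FreeGroup.of c' * (FreeGroup.of (⟨_, h⟩ : C3 S))⁻¹}

abbrev FlatH (S : Wang) := PresentedGroup (flatRels S)

open Classical in
noncomputable def flatHat (S : Wang) (c : Perm (Om S)) : FlatH S :=
  if h : c ∈ C3 S then PresentedGroup.of ⟨c, h⟩ else 1

lemma flatHat_of {S : Wang} (c : C3 S) : flatHat S c.1 = PresentedGroup.of c := dif_pos c.2

lemma flat_lift {S : Wang} {K : Type} [Group K] (f : Perm (Om S) → K)
    (h1 : ∀ c ∈ C3 S, ∀ c' ∈ C3 S, f c * f c' * (f c)⁻¹ = f (c * c' * c⁻¹))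
    (h2 : ∀ c ∈ C3 S, ∀ c' ∈ C3 S, c * c' ∈ C3 S → SmallOrb c c' → f c * f c' = f (c * c')) :
    ∃ Ψ : FlatH S →* K, ∀ c ∈ C3 S, Ψ (flatHat S c) = f c := by
  refine ⟨PresentedGroup.toGroup (f := fun c : C3 S => f c.1) ?_, fun c hc => ?_⟩
  · rintro r (⟨c, c', rfl⟩ | ⟨c, c', h, hs, rfl⟩)
    · simp only [map_mul, map_inv, FreeGroup.lift_apply_of]
      rw [h1 c.1 c.2 c'.1 c'.2, mul_inv_cancel]
    · simp only [map_mul, map_inv, FreeGroup.lift_apply_of]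
      rw [h2 c.1 c.2 c'.1 c'.2 h hs, mul_inv_cancel]
  · rw [flatHat_of ⟨c, hc⟩, PresentedGroup.toGroup.of]

lemma flat_conj {S : Wang} : ∀ c ∈ C3 S, ∀ c' ∈ C3 S,
    flatHat S c * flatHat S c' * (flatHat S c)⁻¹ = flatHat S (c * c' * c⁻¹) := by
  intro c hc c' hc'
  rw [flatHat_of ⟨c, hc⟩, flatHat_of ⟨c', hc'⟩, flatHat_of ⟨_, conj_mem_C3 hc.1 hc'⟩,
    ← mul_inv_eq_one]
  exact PresentedGroup.one_of_mem (rels := flatRels S) (Or.inl ⟨⟨c, hc⟩, ⟨c', hc'⟩, rfl⟩)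

lemma flat_mul {S : Wang} : ∀ c ∈ C3 S, ∀ c' ∈ C3 S, c * c' ∈ C3 S → SmallOrb c c' →
    flatHat S c * flatHat S c' = flatHat S (c * c') := by
  intro c hc c' hc' h hs
  rw [flatHat_of ⟨c, hc⟩, flatHat_of ⟨c', hc'⟩, flatHat_of ⟨_, h⟩, ← mul_inv_eq_one]
  exact PresentedGroup.one_of_mem (rels := flatRels S) (Or.inr ⟨⟨c, hc⟩, ⟨c', hc'⟩, h, hs, rfl⟩)

lemma flat_gen (S : Wang) : Subgroup.closure (flatHat S '' C3 S) = ⊤ := by
  rw [← PresentedGroup.closure_range_of (flatRels S)]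
  congr 1
  ext x
  constructor
  · rintro ⟨c, hc, rfl⟩
    exact ⟨⟨c, hc⟩, (flatHat_of ⟨c, hc⟩).symm⟩
  · rintro ⟨c, rfl⟩
    exact ⟨c.1, c.2, flatHat_of c⟩

lemma flat_ext {S : Wang} {K : Type} [Group K] {f g : FlatH S →* K}
    (h : ∀ c ∈ C3 S, f (flatHat S c) = g (flatHat S c)) : f = g :=
  PresentedGroup.ext fun c => by rw [← flatHat_of c]; exact h c.1 c.2

lemma flat_al {S : Wang} (m : LocP S) : ∃ Ψ : FlatH S →* FlatH S, ∀ c ∈ C3 S,
    Ψ (flatHat S c) = flatHat S ((m : Perm (Om S)) * c * (m : Perm (Om S))⁻¹) := by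
  refine flat_lift (fun c => flatHat S ((m : Perm (Om S)) * c * (m : Perm (Om S))⁻¹)) ?_ ?_
  · intro c hc c' hc'
    rw [flat_conj _ (conj_mem_C3 m.2 hc) _ (conj_mem_C3 m.2 hc')]
    congr 1
    group
  · intro c hc c' hc' h hs
    have e : (m : Perm (Om S)) * c * (m : Perm (Om S))⁻¹ * ((m : Perm (Om S)) * c' *
        (m : Perm (Om S))⁻¹) = (m : Perm (Om S)) * (c * c') * (m : Perm (Om S))⁻¹ := by group
    rw [flat_mul _ (conj_mem_C3 m.2 hc) _ (conj_mem_C3 m.2 hc') (e ▸ conj_mem_C3 m.2 h)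
      (hs.conj _), e]

/-- The universal hat system (`PresentedGroup` on the type `C3 S` with the relations `conj`, `mul`;
`hat c = if h : c ∈ C3 S then of ⟨c, h⟩ else 1`; `al m` is induced by conjugation on generators). -/
theorem exists_flat (S : Wang) : ∃ (H : Type) (_ : Group H) (T : AutSys S H),
    ∀ (H' : Type) [Group H'] (T' : HatSys S H'), ∃ Ψ : H →* H', Function.Surjective Ψ ∧
      ∀ h, T'.pr (Ψ h) = T.pr h := by 
  obtain ⟨pr, hpr⟩ := flat_lift (S := S) (fun c => c) (fun _ _ _ _ => rfl)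
    (fun _ _ _ _ _ _ => rfl)
  choose A hA using flat_al (S := S)
  have hmul : ∀ m m', A (m * m') = (A m).comp (A m') := by
    intro m m'
    refine flat_ext fun c hc => ?_
    rw [MonoidHom.comp_apply, hA m' c hc, hA m _ (conj_mem_C3 m'.2 hc), hA _ c hc]
    congr 1
  have hone : A 1 = MonoidHom.id _ := by
    refine flat_ext fun c hc => ?_
    rw [hA _ c hc]
    simp
  let al : LocP S →* MulAut (FlatH S) := MonoidHom.mk' (fun m =>
    MonoidHom.toMulEquiv (A m) (A m⁻¹) (by rw [← hmul, inv_mul_cancel, hone])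
      (by rw [← hmul, mul_inv_cancel, hone])) (by
    intro m m'
    ext x
    simp only [MonoidHom.toMulEquiv_apply, MulAut.mul_apply, hmul, MonoidHom.comp_apply])
  refine ⟨FlatH S, inferInstance, ⟨⟨flatHat S, pr, hpr, flat_conj, flat_mul, flat_gen S⟩, al,
    fun m c hc => hA m c hc⟩, fun H' _ T' => ?_⟩
  obtain ⟨Ψ, hΨ⟩ := flat_lift T'.hat T'.conj T'.mul
  refine ⟨Ψ, ?_, fun h => ?_⟩
  · rw [← MonoidHom.range_eq_top, eq_top_iff, ← T'.gen, Subgroup.closure_le]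
    rintro _ ⟨c, hc, rfl⟩
    exact ⟨_, hΨ c hc⟩
  · have : T'.pr.comp Ψ = pr := flat_ext fun c hc => by
      rw [MonoidHom.comp_apply, hΨ c hc, T'.pr_hat c hc, hpr c hc]
    exact DFunLike.congr_fun this h

end Crest.Agent.R189
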