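import Crest.Agent.R189.Gate

/-!
Row 189.  A gate system defined on sets inside one phase class extends to a gate system.
-/

set_option autoImplicit false

namespace Crest.Agent.R189

open Equiv

variable {S : Wang}

/-- contained in one residue class -/
def Sm {χ : V →+ ℤ} {a : ℕ} (φ : Phase S χ a) (W : Set (Cfg S)) : Prop := ∃ c, ∀ x ∈ W, φ.r x = c

lemma Sm.mono {χ : V →+ ℤ} {a : ℕ} {φ : Phase S χ a} {W W' : Set (Cfg S)} (h : Sm φ W)
    (hs : W' ⊆ W) : Sm φ W' := by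
  obtain ⟨c, hc⟩ := h
  exact ⟨c, fun x hx => hc x (hs hx)⟩
lemma Sm.tr {χ : V →+ ℤ} {a : ℕ} {φ : Phase S χ a} {W : Set (Cfg S)} (h : Sm φ W) (v : V) :
    Sm φ (tr v W) := by
  obtain ⟨c, hc⟩ := h
  refine ⟨(c + χ v) % a, fun x hx => ?_⟩
  have h1 := φ.r_vadd v ((-v) +ᵥ x)
  rw [vadd_neg_vadd, hc _ hx] at h1
  exact h1

structure PreGate (S : Wang) (Γ : Type) [Group Γ] {χ : V →+ ℤ} {a : ℕ} (φ : Phase S χ a) where
  s : Pt → Pt → Set (Cfg S) → Γ
  pr : Γ →* Perm (Om S)
  pr_s : ∀ p q W, Sm φ W → Adm2 p q W → pr (s p q W) = swW p q W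
  symm : ∀ p q W, Sm φ W → Adm2 p q W → s p q W = s q p W
  sq : ∀ p q W, Sm φ W → Adm2 p q W → s p q W * s p q W = 1
  union : ∀ p q W W', Sm φ (W ∪ W') → Adm2 p q (W ∪ W') → Loc W → Loc W' → Disjoint W W' →
    s p q (W ∪ W') = s p q W * s p q W'
  shift : ∀ v p q W, Sm φ W → Adm2 p q (tr v W) → s (shP v p) (shP v q) W = s p q (tr v W)
  conj : ∀ p q W i j i' j' Z, Sm φ W → Sm φ Z → Adm2 p q W → Adm2 i j Z → Adm2 i' j' Z →
    (∀ x ∈ Z, swW p q W (pt x i) = pt x i' ∧ swW p q W (pt x j) = pt x j') →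
    s p q W * s i j Z * (s p q W)⁻¹ = s i' j' Z

namespace PreGate

variable {Γ : Type} [Group Γ] {χ : V →+ ℤ} {a : ℕ} {φ : Phase S χ a} (P : PreGate S Γ φ)

lemma sm_empty (φ : Phase S χ a) : Sm φ ∅ := ⟨0, fun _ h => h.elim⟩

lemma adm2_empty {p q : Pt} (h : p ≠ q) : Adm2 p q (∅ : Set (Cfg S)) :=
  ⟨h, Loc.empty, fun _ h => h.elim⟩

lemma sm_of_const {Z : Set (Cfg S)} (h : ∀ x ∈ Z, ∀ y ∈ Z, φ.r x = φ.r y) : Sm φ Z := by
  rcases Z.eq_empty_or_nonempty with rfl | ⟨y, hy⟩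
  · exact sm_empty φ
  · exact ⟨φ.r y, fun x hx => h x hx y hy⟩

lemma s_empty' {p q : Pt} (h : p ≠ q) : P.s p q ∅ = 1 := by
  have := P.union p q ∅ ∅ (by simpa using sm_empty φ) (by simpa using adm2_empty h) Loc.empty
    Loc.empty (by simp)
  simpa using this

lemma comm' {p q : Pt} {W W' : Set (Cfg S)} (h : Adm2 p q (W ∪ W')) (hW : Loc W) (hW' : Loc W')
    (hd : Disjoint W W') (hs : Sm φ W) (hs' : Sm φ W') : Commute (P.s p q W) (P.s p q W') := by
  have h1 := h.mono hW Set.subset_union_left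
  have h2 := h.mono hW' Set.subset_union_right
  have hfix : ∀ x ∈ W', ∀ r ∈ ({p, q} : Set Pt), swW p q W (pt x r) = pt x r := by
    intro x hx r hr
    refine swW_fix h1 ?_
    rintro ⟨y, hy, t, ht, e⟩
    have := (h.2.2 x (Or.inr hx) y (Or.inl hy) r hr t ht e).1
    exact Set.disjoint_left.1 hd hy (this ▸ hx)
  have := P.conj p q W p q p q W' hs hs' h1 h2 h2 fun x hx =>
    ⟨hfix x hx p (by simp), hfix x hx q (by simp)⟩
  exact mul_inv_eq_iff_eq_mul.1 this

/-- the part of `W` in the class `c` -/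
def piece (φ : Phase S χ a) (c : ℕ) (W : Set (Cfg S)) : Set (Cfg S) := W ∩ φ.r ⁻¹' {(c : ℤ)}

lemma piece_loc (c : ℕ) {W : Set (Cfg S)} (h : Loc W) : Loc (piece φ c W) :=
  h.inter (φ.loc.preimage _)

lemma piece_sub (c : ℕ) (W : Set (Cfg S)) : piece φ c W ⊆ W := Set.inter_subset_left

lemma piece_sm (c : ℕ) (W : Set (Cfg S)) : Sm φ (piece φ c W) := ⟨c, fun _ h => h.2⟩

/-- the extended gate -/
def ext (p q : Pt) (W : Set (Cfg S)) : Γ :=
  ((List.range a).map fun c => P.s p q (piece φ c W)).prod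

lemma prod_mul_comm (f g : ℕ → Γ) (h : ∀ c d, Commute (f c) (g d)) (l : List ℕ) :
    (l.map fun c => f c * g c).prod = (l.map f).prod * (l.map g).prod := by
  induction l with
  | nil => simp
  | cons c l ih =>
    simp only [List.map_cons, List.prod_cons, ih]
    have : Commute (g c) (l.map f).prod := Commute.list_prod_right _ _ fun y hy => by
      obtain ⟨d, -, rfl⟩ := List.mem_map.1 hy
      exact (h d c).symm
    rw [mul_assoc, ← mul_assoc (g c), this.eq, mul_assoc, mul_assoc]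

lemma prod_single (f : ℕ → Γ) (c0 : ℕ) (h : ∀ c, c ≠ c0 → f c = 1) (n : ℕ) :
    ((List.range n).map f).prod = if c0 < n then f c0 else 1 := by
  induction n with
  | zero => simp
  | succ n ih =>
    rw [List.range_succ, List.map_append, List.prod_append, ih]
    simp only [List.map_cons, List.map_nil, List.prod_cons, List.prod_nil, mul_one]
    rcases lt_trichotomy c0 n with h1 | h1 | h1
    · rw [if_pos h1, if_pos (by omega), h n (by omega), mul_one]
    · subst h1; simp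
    · rw [if_neg (by omega), if_neg (by omega), h n (by omega), mul_one]

lemma ext_union {p q : Pt} {W W' : Set (Cfg S)} (h : Adm2 p q (W ∪ W')) (hW : Loc W)
    (hW' : Loc W') (hd : Disjoint W W') : P.ext p q (W ∪ W') = P.ext p q W * P.ext p q W' := by
  have hA : ∀ c d, Adm2 p q (piece φ c W ∪ piece φ d W') := fun c d =>
    h.mono ((piece_loc c hW).union (piece_loc d hW'))
      (Set.union_subset_union (piece_sub c W) (piece_sub d W'))
  have hD : ∀ c d, Disjoint (piece φ c W) (piece φ d W') := fun c d =>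
    hd.mono (piece_sub c W) (piece_sub d W')
  unfold ext
  rw [← prod_mul_comm _ _ fun c d => P.comm' (hA c d) (piece_loc c hW) (piece_loc d hW') (hD c d)
    (piece_sm c W) (piece_sm d W')]
  congr 1
  refine List.map_congr_left fun c _ => ?_
  have e : piece φ c (W ∪ W') = piece φ c W ∪ piece φ c W' := Set.union_inter_distrib_right _ _ _
  rw [e]
  exact P.union p q _ _ (e ▸ piece_sm c _) (hA c c) (piece_loc c hW) (piece_loc c hW') (hD c c)

lemma ext_sm {p q : Pt} {W : Set (Cfg S)} (hs : Sm φ W) (h : Adm2 p q W) :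
    P.ext p q W = P.s p q W := by
  rcases W.eq_empty_or_nonempty with rfl | ⟨y, hy⟩
  · rw [P.s_empty' h.1]
    refine List.prod_eq_one fun g hg => ?_
    obtain ⟨c, -, rfl⟩ := List.mem_map.1 hg
    rw [show piece φ c ∅ = ∅ from Set.empty_inter _, P.s_empty' h.1]
  · obtain ⟨c, hc⟩ := hs
    have h0 := φ.nonneg y
    have h1 := φ.lt y
    rw [hc y hy] at h0 h1
    unfold ext
    rw [prod_single _ c.toNat, if_pos (by omega)]
    · congr 1
      refine Set.inter_eq_left.2 fun x hx => ?_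
      show φ.r x = _
      rw [hc x hx]; omega
    · intro d hd
      have : piece φ d W = ∅ := Set.eq_empty_of_forall_notMem fun x hx => by
        have h2 : φ.r x = d := hx.2
        rw [hc x hx.1] at h2
        omega
      rw [this, P.s_empty' h.1]

lemma ext_empty {p q : Pt} (h : p ≠ q) : P.ext p q ∅ = 1 := by
  rw [P.ext_sm (sm_empty φ) (adm2_empty h), P.s_empty' h]

lemma ext_conj_of {γ : Γ} {i j i' j' : Pt} {Z : Set (Cfg S)} (h : Adm2 i j Z) (h' : Adm2 i' j' Z)
    {β : Type} {f : Cfg S → β} (hf : LocF f)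
    (H : ∀ Y, Loc Y → Y ⊆ Z → (∀ x ∈ Y, ∀ y ∈ Y, f x = f y) →
      γ * P.ext i j Y * γ⁻¹ = P.ext i' j' Y) :
    γ * P.ext i j Z * γ⁻¹ = P.ext i' j' Z := by
  refine Loc.refine (p := fun Y => γ * P.ext i j Y * γ⁻¹ = P.ext i' j' Y) hf h.2.1 ?_ H
  intro Y Y' hY hY' s1 s2 hd e1 e2
  rw [P.ext_union (h.mono (hY.union hY') (Set.union_subset s1 s2)) hY hY' hd,
    P.ext_union (h'.mono (hY.union hY') (Set.union_subset s1 s2)) hY hY' hd, ← e1, ← e2]
  group

lemma ext_conj (hf : Free S) {p q : Pt} {W : Set (Cfg S)} (hW : Adm2 p q W) :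
    ∀ i j i' j' Z, Adm2 i j Z → Adm2 i' j' Z →
      (∀ x ∈ Z, swW p q W (pt x i) = pt x i' ∧ swW p q W (pt x j) = pt x j') →
      P.ext p q W * P.ext i j Z * (P.ext p q W)⁻¹ = P.ext i' j' Z := by
  refine Loc.refine (p := fun W => ∀ i j i' j' Z, Adm2 i j Z → Adm2 i' j' Z →
      (∀ x ∈ Z, swW p q W (pt x i) = pt x i' ∧ swW p q W (pt x j) = pt x j') →
      P.ext p q W * P.ext i j Z * (P.ext p q W)⁻¹ = P.ext i' j' Z) φ.loc hW.2.1 ?_ ?_
  · intro W1 W2 h1 h2 s1 s2 hd e1 e2 i j i' j' Z hZ hZ' he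
    have hU := hW.mono (h1.union h2) (Set.union_subset s1 s2)
    have hg := swW_mem_locP (hW.mono h2 s2)
    rw [swW_union hU h1 h2 hd] at he
    refine P.ext_conj_of hZ hZ' ((actP_locF hf hg i).prod (actP_locF hf hg j)) ?_
    intro Y hY sY hc
    rcases Y.eq_empty_or_nonempty with rfl | ⟨y, hy⟩
    · rw [P.ext_empty hZ.1, P.ext_empty hZ'.1]; simp
    have hi : ∀ x ∈ Y, swW p q W2 (pt x i) = pt x (actP (swW p q W2) y i) := fun x hx => by
      rw [actP_spec hf hg, (Prod.mk.inj (hc x hx y hy)).1]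
    have hj : ∀ x ∈ Y, swW p q W2 (pt x j) = pt x (actP (swW p q W2) y j) := fun x hx => by
      rw [actP_spec hf hg, (Prod.mk.inj (hc x hx y hy)).2]
    have hA : Adm2 (actP (swW p q W2) y i) (actP (swW p q W2) y j) Y := by
      refine ⟨fun e => hZ.1 ((actP (swW p q W2) y).injective e), hY, ?_⟩
      have := (hZ.mono hY sY).2.2.map (swW p q W2) (actP (swW p q W2) y) fun x hx r hr => by
        rcases hr with rfl | rfl
        · exact hi x hx
        · exact hj x hx
      rwa [Set.image_pair] at this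
    have k2 := e2 i j _ _ Y (hZ.mono hY sY) hA fun x hx => ⟨hi x hx, hj x hx⟩
    have k1 := e1 _ _ i' j' Y hA (hZ'.mono hY sY) fun x hx => by
      have := he x (sY hx)
      rwa [Perm.mul_apply, Perm.mul_apply, hi x hx, hj x hx] at this
    rw [P.ext_union hU h1 h2 hd, ← k1, ← k2]
    group
  · intro W1 h1 s1 hc i j i' j' Z hZ hZ' he
    have hA := hW.mono h1 s1
    rw [P.ext_sm (sm_of_const hc) hA]
    refine P.ext_conj_of hZ hZ' φ.loc fun Y hY sY hc' => ?_
    rw [P.ext_sm (sm_of_const hc') (hZ.mono hY sY), P.ext_sm (sm_of_const hc') (hZ'.mono hY sY)]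
    exact P.conj _ _ _ _ _ _ _ _ (sm_of_const hc) (sm_of_const hc') hA (hZ.mono hY sY)
      (hZ'.mono hY sY) fun x hx => he x (sY hx)

lemma ext_pr {p q : Pt} {W : Set (Cfg S)} (hW : Adm2 p q W) : P.pr (P.ext p q W) = swW p q W := by
  refine Loc.refine (p := fun W => P.pr (P.ext p q W) = swW p q W) φ.loc hW.2.1 ?_ ?_
  · intro W1 W2 h1 h2 s1 s2 hd e1 e2
    have hU := hW.mono (h1.union h2) (Set.union_subset s1 s2)
    rw [P.ext_union hU h1 h2 hd, swW_union hU h1 h2 hd, map_mul, e1, e2]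
  · intro W1 h1 s1 hc
    rw [P.ext_sm (sm_of_const hc) (hW.mono h1 s1)]
    exact P.pr_s _ _ _ (sm_of_const hc) (hW.mono h1 s1)

lemma ext_symm {p q : Pt} {W : Set (Cfg S)} (hW : Adm2 p q W) : P.ext p q W = P.ext q p W := by
  unfold ext
  congr 1
  exact List.map_congr_left fun c _ => P.symm _ _ _ (piece_sm c W)
    (hW.mono (piece_loc c hW.2.1) (piece_sub c W))

lemma ext_sq {p q : Pt} {W : Set (Cfg S)} (hW : Adm2 p q W) : P.ext p q W * P.ext p q W = 1 := by
  refine Loc.refine (p := fun W => P.ext p q W * P.ext p q W = 1) φ.loc hW.2.1 ?_ ?_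
  · intro W1 W2 h1 h2 s1 s2 hd e1 e2
    have hU := hW.mono (h1.union h2) (Set.union_subset s1 s2)
    have k1 := P.ext_union hU h1 h2 hd
    have k2 := P.ext_union (Set.union_comm W1 W2 ▸ hU) h2 h1 hd.symm
    rw [Set.union_comm W2 W1] at k2
    nth_rewrite 1 [k1]
    rw [k2, mul_assoc, ← mul_assoc (P.ext p q W2), e2, one_mul, e1]
  · intro W1 h1 s1 hc
    rw [P.ext_sm (sm_of_const hc) (hW.mono h1 s1)]
    exact P.sq _ _ _ (sm_of_const hc) (hW.mono h1 s1)

lemma ext_shift (v : V) {p q : Pt} {W : Set (Cfg S)} (hW : Adm2 p q (tr v W)) :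
    P.ext (shP v p) (shP v q) W = P.ext p q (tr v W) := by
  have hW' := (adm2_shP v).2 hW
  refine Loc.refine (p := fun W => P.ext (shP v p) (shP v q) W = P.ext p q (tr v W)) φ.loc
    hW'.2.1 ?_ ?_
  · intro W1 W2 h1 h2 s1 s2 hd e1 e2
    have hU := hW'.mono (h1.union h2) (Set.union_subset s1 s2)
    have e : tr v (W1 ∪ W2) = tr v W1 ∪ tr v W2 := rfl
    rw [P.ext_union hU h1 h2 hd, e, P.ext_union (e ▸ (adm2_shP v).1 hU) (h1.tr v) (h2.tr v)
      (Set.disjoint_left.2 fun x hx hx' => Set.disjoint_left.1 hd hx hx'), e1, e2]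
  · intro W1 h1 s1 hc
    have hA := hW'.mono h1 s1
    rw [P.ext_sm (sm_of_const hc) hA, P.ext_sm ((sm_of_const hc).tr v) ((adm2_shP v).1 hA)]
    exact P.shift _ _ _ _ (sm_of_const hc) ((adm2_shP v).1 hA)

end PreGate

/-- Plan: `s' p q W = ((List.range a).map fun c => s p q (W ∩ {φ.r = c})).prod`; for admissible `W`
the factors commute (`conj` with `i' = i`, `j' = j`), which gives `union`; `s' = s` on small sets
(`s p q ∅ = 1`); all other fields by `Loc.refine` along `φ.r` (for `conj`: first in `Z`, then in `W`,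
refining `Z` so that the transposition over the first piece acts constantly). -/
theorem PreGate.extend (hf : Free S) {Γ : Type} [Group Γ] {χ : V →+ ℤ} {a : ℕ} {φ : Phase S χ a}
    (P : PreGate S Γ φ) :
    ∃ G : GateSys S Γ, G.pr = P.pr ∧ ∀ p q W, Sm φ W → Adm2 p q W → G.s p q W = P.s p q W :=
  ⟨{ s := P.ext
     pr := P.pr
     pr_s := fun _ _ _ h => P.ext_pr h
     symm := fun _ _ _ h => P.ext_symm h
     sq := fun _ _ _ h => P.ext_sq h
     union := fun _ _ _ _ h h1 h2 hd => P.ext_union h h1 h2 hd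
     shift := fun v _ _ _ h => P.ext_shift v h
     conj := fun _ _ _ i j i' j' Z h => P.ext_conj hf h i j i' j' Z },
    rfl, fun _ _ _ hs h => P.ext_sm hs h⟩

end Crest.Agent.R189
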