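import Crest.Agent.R189.DD

/-!
Row 189.  The symmetric extension `(H ⋊ M) / K`.
-/

set_option autoImplicit false

namespace Crest.Agent.R189

open Equiv
open scoped commutatorElement

variable {S : Wang}

/-- an extension in which the aligned transpositions `ab Z` have coherent lifts -/
structure SymExt {H : Type} [Group H] (T : AutSys S H) (Γ : Type) [Group Γ] where
  ι : H →* Γ
  μ : Set (Cfg S) → Γ
  pr : Γ →* Perm (Om S)
  pr_ι : ∀ h, pr (ι h) = T.pr h
  pr_μ : ∀ Z, Loc Z → pr (μ Z) = ab Z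
  conj : ∀ Z (hZ : Loc Z) h, μ Z * ι h * (μ Z)⁻¹ = ι (T.al ⟨ab Z, ab_mem_locP hZ⟩ h)
  sq : ∀ Z, Loc Z → μ Z * μ Z = 1
  union : ∀ Z Z', Loc Z → Loc Z' → Disjoint Z Z' → μ (Z ∪ Z') = μ Z * μ Z'
  comm : ∀ Z Z', Loc Z → Loc Z' → Commute (μ Z) (μ Z')
  dd : ∀ u v W, Adm4 (u, 0) (u, 1) (v, 0) (v, 1) W → ι (T.dd u v W) = μ (tr u W) * μ (tr v W)
  ker : ∀ h, ι h = 1 → h ∈ T.BB
  comm_mem : ∀ γ γ' : Γ, ⁅γ, γ'⁆ ∈ ι.range

/-- the group generated by the aligned transpositions -/
def seM (S : Wang) : Subgroup (LocP S) :=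
  Subgroup.closure {m | ∃ Z, ∃ hZ : Loc Z, m = ⟨ab Z, ab_mem_locP hZ⟩}

/-- the aligned transposition as an element of `seM` -/
noncomputable def seAb {Z : Set (Cfg S)} (hZ : Loc Z) : seM S :=
  ⟨⟨ab Z, ab_mem_locP hZ⟩, Subgroup.subset_closure ⟨Z, hZ, rfl⟩⟩

lemma seM_comm (m m' : seM S) : Commute m m' := by
  have : Commute m.1 m'.1 := by
    refine patch_commute ?_ m.2 m'.2
    rintro _ ⟨Z, hZ, rfl⟩ _ ⟨Z', hZ', rfl⟩
    exact Subtype.ext (ab_comm hZ hZ').eq
  exact Subtype.ext this.eq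

lemma seAb_sq {Z : Set (Cfg S)} (hZ : Loc Z) : seAb hZ * seAb hZ = 1 :=
  Subtype.ext (Subtype.ext (swW_sq (adm2_ab 0 hZ)))

lemma seAb_union {Z Z' : Set (Cfg S)} (hZ : Loc Z) (hZ' : Loc Z') (hd : Disjoint Z Z') :
    seAb (hZ.union hZ') = seAb hZ * seAb hZ' :=
  Subtype.ext (Subtype.ext (swW_union (adm2_ab 0 (hZ.union hZ')) hZ hZ' hd))

lemma se_fix {H : Type} [Group H] (T : AutSys S H) (m : seM S) {h : H} (hh : h ∈ T.BB) :
    T.al m.1 h = h := by
  obtain ⟨m, hm⟩ := m
  induction hm using Subgroup.closure_induction with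
  | mem m hm =>
    obtain ⟨Z, hZ, rfl⟩ := hm
    induction hh using Subgroup.closure_induction with
    | mem h hh =>
      obtain ⟨u, v, W, ha, rfl⟩ := hh
      exact T.al_ab_dd hZ ha
    | one => exact map_one _
    | mul a b _ _ h1 h2 => rw [map_mul, h1, h2]
    | inv a _ h1 => rw [map_inv, h1]
  | one => simp
  | mul a b _ _ h1 h2 =>
    simp only at h1 h2 ⊢
    rw [map_mul, MulAut.mul_apply, h2, h1]
  | inv a _ h1 =>
    simp only at h1 ⊢
    rw [map_inv, MulAut.inv_apply, MulEquiv.symm_apply_eq, h1]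

/-- the action of `seM` -/
def sePhi {H : Type} [Group H] (T : AutSys S H) : seM S →* MulAut H := T.al.comp (seM S).subtype

abbrev seP {H : Type} [Group H] (T : AutSys S H) := H ⋊[sePhi T] seM S

lemma Adm4.se_loc {p q p' q' : Pt} {W : Set (Cfg S)} (h : Adm4 p q p' q' W) (u : V) :
    Loc (tr u W) := h.2.1.tr u

/-- Plan: `M = closure {ab Z | Loc Z}` (commutative), `P = H ⋊[al ∘ inclusion] M`,
`K = closure {inl (dd u v W) * inr (ab (tr u W) * ab (tr v W))}` is central in `P` (`al_pr`,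
`al_ab_dd`), `Γ = P ⧸ K`, `pr (h, m) = pr h * m`; the left component of an element of `K` is in `BB`. -/
theorem exists_symExt {H : Type} [Group H] (T : AutSys S H) :
    ∃ (Γ : Type) (_ : Group Γ), Nonempty (SymExt T Γ) := by 
  classical
  let inc : seM S →* Perm (Om S) := (LocP S).subtype.comp (seM S).subtype
  let prP : (seP T) →* Perm (Om S) := SemidirectProduct.lift T.pr inc (by
    intro m
    ext1 h
    simp only [MonoidHom.comp_apply, MulEquiv.toMonoidHom_eq_coe, MonoidHom.coe_coe,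
      MulAut.conj_apply]
    exact T.pr_al m.1 h)
  let gens : Set (seP T) := {k | ∃ u v W, ∃ h : Adm4 (u, 0) (u, 1) (v, 0) (v, 1) W,
    k = SemidirectProduct.inl (T.dd u v W) *
      SemidirectProduct.inr (seAb (h.se_loc u) * seAb (h.se_loc v))}
  let K : Subgroup (seP T) := Subgroup.closure gens
  have hprd : ∀ u v W (h : Adm4 (u, 0) (u, 1) (v, 0) (v, 1) W),
      inc (seAb (h.se_loc u) * seAb (h.se_loc v)) = T.pr (T.dd u v W) := by
    intro u v W h
    rw [HatSys.dd, T.pr_DL h, swW_eq_ab u h.2.1, swW_eq_ab v h.2.1]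
    rfl
  have hsq : ∀ {Z Z' : Set (Cfg S)} (h : Loc Z) (h' : Loc Z'),
      (seAb h * seAb h') * (seAb h * seAb h') = 1 := by
    intro Z Z' h h'
    rw [mul_assoc, ← mul_assoc (seAb h'), (seM_comm (seAb h') (seAb h)).eq, mul_assoc, seAb_sq,
      mul_one, seAb_sq]
  have hcen : ∀ k ∈ K, ∀ p : (seP T), Commute k p := by
    intro k hk p
    have : k ∈ Subgroup.centralizer ({p} : Set (seP T)) := by
      refine (Subgroup.closure_le _).2 ?_ hk
      rintro _ ⟨u, v, W, h, rfl⟩
      rw [SetLike.mem_coe, Subgroup.mem_centralizer_iff]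
      intro p' hp'
      rw [Set.mem_singleton_iff.1 hp']
      have hd : T.dd u v W ∈ T.BB := Subgroup.subset_closure ⟨u, v, W, h, rfl⟩
      have d2 : T.dd u v W * T.dd u v W = 1 := T.DL_sq h
      refine SemidirectProduct.ext ?_ ?_
      · simp only [SemidirectProduct.mul_left, SemidirectProduct.left_inl,
          SemidirectProduct.right_inl, SemidirectProduct.left_inr, map_one, mul_one,
          SemidirectProduct.mul_right, SemidirectProduct.right_inr, one_mul]
        have e1 : sePhi T p.right (T.dd u v W) = T.dd u v W := se_fix T p.right hd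
        have e2 : sePhi T (seAb (h.se_loc u) * seAb (h.se_loc v)) p.left =
            T.dd u v W * p.left * (T.dd u v W)⁻¹ := T.al_pr _ _ _ (hprd u v W h)
        rw [e1, e2, inv_eq_of_mul_eq_one_right d2, ← mul_assoc, ← mul_assoc, d2, one_mul]
      · simp only [SemidirectProduct.mul_right, SemidirectProduct.right_inl,
          SemidirectProduct.right_inr, one_mul]
        exact (seM_comm _ _).eq
    exact (Subgroup.mem_centralizer_iff.1 this p rfl).symm
  have hN : K.Normal := ⟨fun k hk g => by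
    rw [← (hcen k hk g).eq, mul_inv_cancel_right]; exact hk⟩
  have hK : K ≤ prP.ker := by
    refine (Subgroup.closure_le _).2 ?_
    rintro _ ⟨u, v, W, h, rfl⟩
    rw [SetLike.mem_coe, MonoidHom.mem_ker, map_mul, SemidirectProduct.lift_inl,
      SemidirectProduct.lift_inr, ← hprd u v W h, ← map_mul, hsq, map_one]
  let mk : (seP T) →* (seP T) ⧸ K := QuotientGroup.mk' K
  let μ : Set (Cfg S) → (seP T) ⧸ K := fun Z =>
    if hZ : Loc Z then mk (SemidirectProduct.inr (seAb hZ)) else 1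
  have hμ : ∀ Z (hZ : Loc Z), μ Z = mk (SemidirectProduct.inr (seAb hZ)) := fun Z hZ => dif_pos hZ
  refine ⟨(seP T) ⧸ K, inferInstance, ⟨⟨mk.comp SemidirectProduct.inl, μ, QuotientGroup.lift K prP hK,
    fun h => ?_, fun Z hZ => ?_, fun Z hZ h => ?_, fun Z hZ => ?_, fun Z Z' hZ hZ' hd => ?_,
    fun Z Z' hZ hZ' => ?_, fun u v W h => ?_, fun h hh => ?_, fun γ γ' => ?_⟩⟩⟩
  · show prP (SemidirectProduct.inl h) = _
    exact SemidirectProduct.lift_inl _ _ _ h
  · rw [hμ Z hZ]
    show prP (SemidirectProduct.inr _) = _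
    exact SemidirectProduct.lift_inr _ _ _ _
  · rw [hμ Z hZ, MonoidHom.comp_apply, MonoidHom.comp_apply, ← map_inv, ← map_mul, ← map_mul,
      ← map_inv, ← SemidirectProduct.inl_aut]
    rfl
  · rw [hμ Z hZ, ← map_mul, ← map_mul, seAb_sq, map_one, map_one]
  · rw [hμ Z hZ, hμ Z' hZ', hμ _ (hZ.union hZ'), seAb_union hZ hZ' hd, map_mul, map_mul]
  · rw [hμ Z hZ, hμ Z' hZ']
    exact ((seM_comm _ _).map _).map _
  · have hk : SemidirectProduct.inl (T.dd u v W) *
      SemidirectProduct.inr (seAb (h.se_loc u) * seAb (h.se_loc v)) ∈ K :=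
      Subgroup.subset_closure ⟨u, v, W, h, rfl⟩
    have e : mk (SemidirectProduct.inl (T.dd u v W) *
      SemidirectProduct.inr (seAb (h.se_loc u) * seAb (h.se_loc v))) = 1 :=
      (QuotientGroup.eq_one_iff _).2 hk
    rw [map_mul, mul_eq_one_iff_eq_inv, ← map_inv, ← map_inv,
      inv_eq_of_mul_eq_one_right (hsq _ _)] at e
    rw [hμ _ (h.se_loc u), hμ _ (h.se_loc v), MonoidHom.comp_apply, e, map_mul, map_mul]
  · have hk : (SemidirectProduct.inl h : (seP T)) ∈ K := (QuotientGroup.eq_one_iff _).1 hh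
    have key : ∀ k ∈ K, k.left ∈ T.BB := by
      intro k hk
      induction hk using Subgroup.closure_induction with
      | mem k hk =>
        obtain ⟨u, v, W, h, rfl⟩ := hk
        simp only [SemidirectProduct.mul_left, SemidirectProduct.left_inl,
          SemidirectProduct.left_inr, map_one, mul_one]
        exact Subgroup.subset_closure ⟨u, v, W, h, rfl⟩
      | one => exact one_mem _
      | mul a b _ _ h1 h2 =>
        rw [SemidirectProduct.mul_left]
        have : sePhi T a.right b.left = b.left := se_fix T a.right h2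
        rw [this]; exact mul_mem h1 h2
      | inv a _ h1 =>
        rw [SemidirectProduct.inv_left]
        have : sePhi T a.right⁻¹ a.left⁻¹ = a.left⁻¹ := se_fix T a.right⁻¹ (inv_mem h1)
        rw [this]; exact inv_mem h1
    exact key _ hk
  · obtain ⟨p, rfl⟩ := QuotientGroup.mk'_surjective K γ
    obtain ⟨p', rfl⟩ := QuotientGroup.mk'_surjective K γ'
    have : ⁅p, p'⁆ ∈ (SemidirectProduct.inl : H →* (seP T)).range := by
      rw [SemidirectProduct.range_inl_eq_ker_rightHom, MonoidHom.mem_ker, map_commutatorElement,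
        commutatorElement_eq_one_iff_commute]
      exact seM_comm _ _
    obtain ⟨h, hh⟩ := this
    exact ⟨h, by rw [MonoidHom.comp_apply, hh, map_commutatorElement]⟩

end Crest.Agent.R189
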