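import Crest.Agent.R189.Flux

/-!
Row 189.  Theorem F: in a gate system the kernel of `pr` on the group generated by the gates is
generated by one commutator.
-/

set_option autoImplicit false

namespace Crest.Agent.R189

open Equiv
open scoped commutatorElement

variable {S : Wang}

/-- a local function invariant under both unit translations is constant -/
lemma Minimal.const {β : Type} (hm : Minimal S) {f : Cfg S → β} (hf : LocF f)
    (h1 : ∀ x, f (e1 +ᵥ x) = f x) (h2 : ∀ x, f (e2 +ᵥ x) = f x) (x y : Cfg S) : f x = f y := by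
  have key : ∀ e : V, (∀ x, f (e +ᵥ x) = f x) → ∀ (k : ℤ) (x : Cfg S), f ((k • e) +ᵥ x) = f x := by
    intro e he k
    induction k using Int.induction_on with
    | zero => intro x; simp
    | succ k ih => intro x; rw [add_smul, one_smul, add_vadd, ih, he]
    | pred k ih =>
      intro x
      rw [sub_smul, one_smul, sub_eq_add_neg, add_vadd, ih, ← he, vadd_neg_vadd]
  obtain ⟨ρ, hρ⟩ := hf
  obtain ⟨v, hv⟩ := hm x y ρ
  have e : v = v.1 • e1 + v.2 • e2 := by simp [e1, e2]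
  rw [hρ _ _ hv, e, add_vadd, key e1 h1, key e2 h2]

lemma thf_locF_dep {β γ : Type} {r : Cfg S → β} (hr : LocF r) {F : β → Cfg S → γ}
    (hF : ∀ b, LocF (F b)) : LocF (fun x => F (r x) x) := by
  have := hr.finite_range.to_subtype
  obtain ⟨ρ, hρ⟩ := (LocF.pi (ι := Set.range r) fun b => hF b).prod hr
  refine ⟨ρ, fun x y hxy => ?_⟩
  have h := hρ x y hxy
  have h1 := congrFun (congrArg Prod.fst h) ⟨r x, x, rfl⟩
  have h2 : r x = r y := congrArg Prod.snd h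
  simp only at h1 ⊢
  rw [h1, h2]

lemma thf_adm2 {p q : Pt} (h : p.2 ≠ q.2) {W : Set (Cfg S)} (hW : Loc W) : Adm2 p q W := by
  refine ⟨fun e => h (e ▸ rfl), hW, adm_of_tracks ?_ W⟩
  rintro a (rfl | rfl) b (rfl | rfl) e
  · rfl
  · exact (h e).elim
  · exact (h e.symm).elim
  · rfl

lemma thf_sw_fst {p q : Pt} {W : Set (Cfg S)} (h : Adm2 p q W) {x : Cfg S} (hx : x ∈ W) :
    swW p q W (pt x p) = pt x q := by
  rw [(swW_isBlk h.2.2 (p := p) (q := q) (by simp) (by simp)).1 x hx p (by simp), swap_apply_left]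

lemma thf_sw_snd {p q : Pt} {W : Set (Cfg S)} (h : Adm2 p q W) {x : Cfg S} (hx : x ∈ W) :
    swW p q W (pt x q) = pt x p := by
  rw [(swW_isBlk h.2.2 (p := p) (q := q) (by simp) (by simp)).1 x hx q (by simp), swap_apply_right]

/-- displacement vector: `v` on track `i`, `-v` on track `j` -/
def thfD (v : V) (i j : Track) : Track → V := fun l => if l = i then v else if l = j then -v else 0

open Classical in
lemma thf_shift_apply (v : V) {i j : Track} (hij : i ≠ j) {Z : Set (Cfg S)} (hZ : Loc Z)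
    (hv : ∀ y, v +ᵥ y ∈ Z ↔ y ∈ Z) (y : Cfg S) (l : Track) :
    (swW (v, i) (0, j) Z * swW (0, i) (0, j) Z) (y, l) =
      if y ∈ Z then (thfD v i j l +ᵥ y, l) else (y, l) := by
  have h1 : Adm2 (v, i) (0, j) Z := thf_adm2 hij hZ
  have h2 : Adm2 (0, i) (0, j) Z := thf_adm2 hij hZ
  rw [Perm.mul_apply]
  by_cases hy : y ∈ Z
  · rw [if_pos hy]
    by_cases hi : l = i
    · subst hi
      rw [← pt_zero, thf_sw_fst h2 hy, thf_sw_snd h1 hy]
      simp [pt, thfD]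
    · by_cases hj : l = j
      · subst hj
        have hy' : (-v) +ᵥ y ∈ Z := by rw [← hv, vadd_neg_vadd]; exact hy
        have e : pt y (0, i) = pt ((-v) +ᵥ y) (v, i) := by simp [pt]
        rw [← pt_zero, thf_sw_snd h2 hy, e, thf_sw_fst h1 hy']
        simp [pt, thfD, hi]
      · rw [swW_fix h2, swW_fix h1]
        · simp [thfD, hi, hj]
        · rintro ⟨x, -, p, rfl | rfl, e⟩
          · exact hi (congrArg Prod.snd e)
          · exact hj (congrArg Prod.snd e)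
        · rintro ⟨x, -, p, rfl | rfl, e⟩
          · exact hi (congrArg Prod.snd e)
          · exact hj (congrArg Prod.snd e)
  · rw [if_neg hy, swW_fix h2, swW_fix h1]
    · rintro ⟨x, hx, p, rfl | rfl, e⟩
      · have e' : y = v +ᵥ x := congrArg Prod.fst e
        exact hy (e' ▸ (hv x).2 hx)
      · have e' : y = (0 : V) +ᵥ x := congrArg Prod.fst e
        rw [zero_vadd] at e'
        exact hy (e' ▸ hx)
    · rintro ⟨x, hx, p, rfl | rfl, e⟩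
      · have e' : y = (0 : V) +ᵥ x := congrArg Prod.fst e
        rw [zero_vadd] at e'
        exact hy (e' ▸ hx)
      · have e' : y = (0 : V) +ᵥ x := congrArg Prod.fst e
        rw [zero_vadd] at e'
        exact hy (e' ▸ hx)

lemma thf_shift_univ (v : V) {i j : Track} (hij : i ≠ j) :
    (swW (v, i) (0, j) Set.univ * swW (0, i) (0, j) Set.univ : Perm (Om S)) = tau (thfD v i j) := by
  ext1 ⟨y, l⟩
  rw [thf_shift_apply v hij Loc.univ (fun _ => Iff.rfl), if_pos (Set.mem_univ _)]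
  rfl

lemma thf_pos_pt {χ : V →+ ℤ} {a : ℕ} (φ : Phase S χ a) (c : ℤ) (x : Cfg S) (v : V) :
    φ.pos c (v +ᵥ x) = (φ.r x + χ v - c) % a := by
  rw [Phase.pos, φ.r_vadd, Int.emod_sub_emod]

lemma thf_arcR {χ : V →+ ℤ} {a : ℕ} (φ : Phase S χ a) {c n : ℤ} (hn : n ≤ a) {x : Cfg S} {p q : Pt}
    (h1 : c ≤ φ.r x + χ p.1) (h2 : φ.r x + χ p.1 < c + n)
    (h3 : c ≤ φ.r x + χ q.1) (h4 : φ.r x + χ q.1 < c + n) : ArcR φ c n (pt x p) (pt x q) := by
  have e1 : φ.pos c (p.1 +ᵥ x) = φ.r x + χ p.1 - c := by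
    rw [thf_pos_pt, Int.emod_eq_of_lt] <;> omega
  have e2 : φ.pos c (q.1 +ᵥ x) = φ.r x + χ q.1 - c := by
    rw [thf_pos_pt, Int.emod_eq_of_lt] <;> omega
  refine ⟨?_, ?_, q.1 - p.1, ?_, ?_⟩ <;> simp only [pt]
  · omega
  · omega
  · rw [← add_vadd, sub_add_cancel]
  · rw [e1, e2, map_sub]; ring

/-- a range of phases -/
def thfZ {a : ℕ} (φ : Phase S χ1 a) (lo hi : ℤ) : Set (Cfg S) := {x | lo ≤ φ.r x ∧ φ.r x < hi}

lemma thfZ_loc {a : ℕ} (φ : Phase S χ1 a) (lo hi : ℤ) : Loc (thfZ φ lo hi) :=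
  LocF.comp φ.loc (fun z => lo ≤ z ∧ z < hi)

lemma thf_r_snd {a : ℕ} (φ : Phase S χ1 a) (k : ℤ) (x : Cfg S) :
    φ.r (((0, k) : V) +ᵥ x) = φ.r x := by
  rw [φ.r_vadd, χ1_apply, add_zero, Int.emod_eq_of_lt (φ.nonneg x) (φ.lt x)]

lemma thfZ_inv {a : ℕ} (φ : Phase S χ1 a) (lo hi : ℤ) (y : Cfg S) :
    e2 +ᵥ y ∈ thfZ φ lo hi ↔ y ∈ thfZ φ lo hi := by
  simp only [thfZ, Set.mem_ofPred_eq, e2, thf_r_snd]

lemma thf_per (Z : Set (Cfg S)) : PER (fun ω ω' : Om S => ω.1 ∈ Z ∧ ω'.1 ∈ Z) :=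
  ⟨fun _ _ h => h.symm, fun _ _ _ h h' => ⟨h.1, h'.2⟩⟩

lemma thf_mem_arc {a : ℕ} (φ : Phase S χ1 a) {c n c0 n0 : ℤ} (h1 : c0 ≤ c)
    (h2 : c + n ≤ c0 + n0) (h3 : n0 ≤ a) {x : Cfg S} (hx : φ.r x = 0) {p : Pt}
    (hp : p ∈ Cols c0 n0) : pt x p ∈ Arc φ c n ↔ p ∈ Cols c n := by
  simp only [Arc, Cols, Set.mem_ofPred_eq, pt, thf_pos_pt, hx, zero_add, χ1_apply] at hp ⊢
  by_cases h : c ≤ p.1.1
  · by_cases h' : p.1.1 - c < a
    · rw [Int.emod_eq_of_lt (by omega) h']; omega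
    · omega
  · have ha : (0 : ℤ) < a := lt_of_le_of_lt (φ.nonneg x) (φ.lt x)
    have h0 := Int.emod_nonneg (p.1.1 - c) ha.ne'
    by_cases h' : 0 ≤ p.1.1 - c + a
    · rw [← Int.add_emod_right, Int.emod_eq_of_lt h' (by omega)]; omega
    · omega

lemma thf_fl_res (hf : Free S) {a : ℕ} (φ : Phase S χ1 a) {c n c0 n0 : ℤ} (hn : 0 ≤ n) (h1 : c0 ≤ c)
    (h2 : c + n ≤ c0 + n0) (h3 : n0 ≤ a) {g : Perm (Om S)} (hg : g ∈ LocP S)
    (hi : InvO g (Arc φ c n)) {x : Cfg S} (hx : φ.r x = 0) :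
    fl (res g (Arc φ c n)) x c0 n0 = fl g x c n := by
  have hL := res_mem_locP hg (Arc.locO φ c n)
  obtain ⟨ρ, hρ⟩ := id hL
  have hk : ∃ k : ℕ, ∀ p, |(actP (res g (Arc φ c n)) x p).1.2 - p.1.2| ≤ k :=
    ⟨ρ, fun p => (actP_disp hf hρ x p).2⟩
  have e : n0 = (c - c0) + (n + (c0 + n0 - c - n)) := by ring
  rw [fl, e, flux_split (by omega) (by omega) hk, flux_split hn (by omega) hk,
    flux_eq_zero_of_fix (c := c0), flux_eq_zero_of_fix (c := c0 + (c - c0) + n), zero_add, add_zero,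
    add_sub_cancel]
  · refine flux_congr fun p hp => actP_eq hf hL ?_
    have : p ∈ Cols c0 n0 := by
      simp only [Cols, Set.mem_ofPred_eq] at hp ⊢
      omega
    rw [res_apply_mem hi ((thf_mem_arc φ h1 h2 h3 hx this).2 hp), actP_spec hf hg]
  · intro p hp
    have : p ∈ Cols c0 n0 := by
      simp only [Cols, Set.mem_ofPred_eq] at hp ⊢
      omega
    refine actP_eq hf hL (res_apply_not_mem _ ?_)
    rw [thf_mem_arc φ h1 h2 h3 hx this]
    simp only [Cols, Set.mem_ofPred_eq] at hp ⊢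
    omega
  · intro p hp
    have : p ∈ Cols c0 n0 := by
      simp only [Cols, Set.mem_ofPred_eq] at hp ⊢
      omega
    refine actP_eq hf hL (res_apply_not_mem _ ?_)
    rw [thf_mem_arc φ h1 h2 h3 hx this]
    simp only [Cols, Set.mem_ofPred_eq] at hp ⊢
    omega

lemma thf_pos_base {a : ℕ} (φ : Phase S χ1 a) (c : ℤ) {x : Cfg S} (hx : φ.r x = 0) :
    φ.pos c (((c, 0) : V) +ᵥ x) = 0 := by
  rw [thf_pos_pt, hx]; simp

lemma thf_fl_base (hf : Free S) {g : Perm (Om S)} (hg : g ∈ LocP S) (x : Cfg S) (c n : ℤ) :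
    fl g x c n = fl g (((c, 0) : V) +ᵥ x) 0 n := by
  rw [fl_vadd_fst hf hg, zero_add]

lemma thf_fl_inv_inv (hf : Free S) {a : ℕ} (φ : Phase S χ1 a) {c n : ℤ} (hn : n ≤ a)
    {g g' : Perm (Om S)} (hg : g ∈ LocP S) (hg' : g' ∈ LocP S) (ha : Along (ArcR φ c n) g)
    (ha' : Along (ArcR φ c n) g') {x : Cfg S} (hx : φ.r x = 0) :
    fl (g⁻¹ * g'⁻¹) x c n = -fl g x c n - fl g' x c n := by
  have h1 := fluxOK_of_along hf φ hn hg ha (thf_pos_base φ c hx)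
  have h2 := fluxOK_of_along hf φ hn hg' ha' (thf_pos_base φ c hx)
  rw [thf_fl_base hf hg, thf_fl_base hf hg',
    thf_fl_base hf (Subgroup.mul_mem _ (Subgroup.inv_mem _ hg) (Subgroup.inv_mem _ hg')), fl,
    actP_mul hf (Subgroup.inv_mem _ hg) (Subgroup.inv_mem _ hg'), actP_inv hf hg, actP_inv hf hg',
    flux_mul h1.inv h2.inv, flux_inv h1, flux_inv h2]
  rfl

lemma thf_fluxOK_one (c n : ℤ) : FluxOK 1 c n := ⟨⟨0, fun p => by simp⟩, fun _ => Iff.rfl⟩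

lemma thf_flux_zpow {π : Perm Pt} {c n : ℤ} (h : FluxOK π c n) (k : ℤ) :
    FluxOK (π ^ k) c n ∧ flux (π ^ k) c n = k * flux π c n := by
  induction k using Int.induction_on with
  | zero => rw [zpow_zero, flux_one, zero_mul]; exact ⟨thf_fluxOK_one c n, rfl⟩
  | succ k ih =>
    rw [zpow_add_one]
    exact ⟨ih.1.mul h, by rw [flux_mul ih.1 h, ih.2]; ring⟩
  | pred k ih =>
    rw [zpow_sub_one]
    exact ⟨ih.1.mul h.inv, by rw [flux_mul ih.1 h.inv, ih.2, flux_inv h]; ring⟩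

lemma thf_actP_zpow (hf : Free S) {g : Perm (Om S)} (hg : g ∈ LocP S) (x : Cfg S) (k : ℤ) :
    actP (g ^ k) x = actP g x ^ k := by
  induction k using Int.induction_on with
  | zero => rw [zpow_zero, zpow_zero, actP_one hf]
  | succ k ih => rw [zpow_add_one, zpow_add_one, actP_mul hf (Subgroup.zpow_mem _ hg _) hg, ih]
  | pred k ih =>
    rw [zpow_sub_one, zpow_sub_one,
      actP_mul hf (Subgroup.zpow_mem _ hg _) (Subgroup.inv_mem _ hg), ih, actP_inv hf hg]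

namespace GateSys

variable {Γ : Type} [Group Γ] (G : GateSys S Γ)

/-- lift of the shift by `e1` on track `2` and `-e1` on track `3` -/
def tauH : Γ := G.s (e1, 2) (0, 3) Set.univ * G.s (0, 2) (0, 3) Set.univ

/-- lift of the shift by `e2` on track `2` and `-e2` on track `4`, over an `e2`-invariant set -/
def thH (Z : Set (Cfg S)) : Γ := G.s (e2, 2) (0, 4) Z * G.s (0, 2) (0, 4) Z

def om0 : Γ := ⁅G.tauH, G.thH Set.univ⁆

lemma thf_s_all {p q : Pt} (h : p.2 ≠ q.2) {W : Set (Cfg S)} (hW : Loc W) : G.s p q W ∈ G.all :=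
  G.s_mem (thf_adm2 h hW) fun _ _ => trivial

lemma thf_tauH_mem : G.tauH ∈ G.all :=
  Subgroup.mul_mem _ (G.thf_s_all (by decide) Loc.univ) (G.thf_s_all (by decide) Loc.univ)

lemma thf_thH_mem {Z : Set (Cfg S)} (hZ : Loc Z) : G.thH Z ∈ G.all :=
  Subgroup.mul_mem _ (G.thf_s_all (by decide) hZ) (G.thf_s_all (by decide) hZ)

lemma thf_pr_tauH : G.pr G.tauH = tau (thfD e1 2 3) := by
  rw [tauH, map_mul, G.pr_s _ _ _ (thf_adm2 (by decide) Loc.univ),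
    G.pr_s _ _ _ (thf_adm2 (by decide) Loc.univ), thf_shift_univ _ (by decide)]

lemma thf_pr_thH {Z : Set (Cfg S)} (hZ : Loc Z) :
    G.pr (G.thH Z) = swW (e2, 2) (0, 4) Z * swW (0, 2) (0, 4) Z := by
  rw [thH, map_mul, G.pr_s _ _ _ (thf_adm2 (by decide) hZ), G.pr_s _ _ _ (thf_adm2 (by decide) hZ)]

lemma om0_mem : G.om0 ∈ G.all := by
  rw [om0, commutatorElement_def]
  exact Subgroup.mul_mem _ (Subgroup.mul_mem _ (Subgroup.mul_mem _ G.thf_tauH_mem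
    (G.thf_thH_mem Loc.univ)) (Subgroup.inv_mem _ G.thf_tauH_mem))
    (Subgroup.inv_mem _ (G.thf_thH_mem Loc.univ))

lemma pr_om0 : G.pr G.om0 = 1 := by
  rw [om0, map_commutatorElement, commutatorElement_eq_one_iff_mul_comm, G.thf_pr_tauH,
    G.thf_pr_thH Loc.univ, thf_shift_univ _ (by decide), ← tau_add, ← tau_add, add_comm]

lemma thf_conj_thH (hf : Free S) {Z : Set (Cfg S)} (hZ : Loc Z) :
    G.tauH * G.thH Z * G.tauH⁻¹ = G.s (e2 + e1, 2) (0, 4) Z * G.s (e1, 2) (0, 4) Z := by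
  have h1 : G.tauH * G.s (e2, 2) (0, 4) Z * G.tauH⁻¹ = G.s (e2 + e1, 2) (0, 4) Z := by
    refine G.conj_s hf G.thf_tauH_mem (thf_adm2 (by decide) hZ) (thf_adm2 (by decide) hZ) ?_
    intro x _
    rw [G.thf_pr_tauH, tau_pt, tau_pt]
    constructor
    · rfl
    · rfl
  have h2 : G.tauH * G.s (0, 2) (0, 4) Z * G.tauH⁻¹ = G.s (e1, 2) (0, 4) Z := by
    refine G.conj_s hf G.thf_tauH_mem (thf_adm2 (by decide) hZ) (thf_adm2 (by decide) hZ) ?_
    intro x _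
    rw [G.thf_pr_tauH, tau_pt, tau_pt]
    constructor
    · rfl
    · rfl
  rw [← h1, ← h2, thH]
  group

lemma thf_thH_union (hf : Free S) {Z Z' : Set (Cfg S)} (hZ : Loc Z) (hZ' : Loc Z')
    (hd : Disjoint Z Z') (hi' : ∀ y, e2 +ᵥ y ∈ Z' ↔ y ∈ Z') :
    G.thH (Z ∪ Z') = G.thH Z * G.thH Z' := by
  have hc : Commute (G.s (0, 2) (0, 4) Z) (G.s (e2, 2) (0, 4) Z') := by
    refine G.commute_of_disjoint hf (thf_per Z) (thf_per Z')
      (G.s_mem (thf_adm2 (by decide) hZ) fun x hx => ?_)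
      (G.s_mem (thf_adm2 (by decide) hZ') fun x hx => ?_)
      fun ω h h' => Set.disjoint_left.1 hd h.1 h'.1
    · simp only [pt, zero_vadd]; exact ⟨hx, hx⟩
    · simp only [pt, zero_vadd]; exact ⟨(hi' x).2 hx, hx⟩
  rw [thH, G.union _ _ _ _ (thf_adm2 (by decide) (hZ.union hZ')) hZ hZ' hd,
    G.union _ _ _ _ (thf_adm2 (by decide) (hZ.union hZ')) hZ hZ' hd, thH, thH, mul_assoc, mul_assoc,
    ← mul_assoc (G.s (e2, 2) (0, 4) Z'), ← hc.eq, mul_assoc]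

lemma thf_thH_arc (hf : Free S) {a : ℕ} (φ : Phase S χ1 a) {lo hi c n : ℤ} (hn : n ≤ a)
    (h1 : c ≤ lo) (h2 : hi < c + n) :
    G.thH (thfZ φ lo hi) ∈ G.sub (fun ω ω' => True ∧ ArcR φ c n ω ω') ∧
    G.tauH * G.thH (thfZ φ lo hi) * G.tauH⁻¹ ∈ G.sub (fun ω ω' => True ∧ ArcR φ c n ω ω') := by
  have hZ := thfZ_loc φ lo hi
  have key : ∀ v : V, 0 ≤ v.1 → v.1 ≤ 1 →
      G.s (v, 2) (0, 4) (thfZ φ lo hi) ∈ G.sub (fun ω ω' => True ∧ ArcR φ c n ω ω') := by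
    intro v h3 h4
    refine G.s_mem (thf_adm2 (by simp only; decide) hZ) fun x hx => ⟨trivial, ?_⟩
    have a1 := hx.1
    have a2 := hx.2
    refine thf_arcR φ hn ?_ ?_ ?_ ?_ <;> simp only [χ1_apply, Prod.fst_zero] <;> omega
  rw [G.thf_conj_thH hf hZ]
  exact ⟨Subgroup.mul_mem _ (key e2 (by decide) (by decide)) (key 0 (by decide) (by decide)),
    Subgroup.mul_mem _ (key (e2 + e1) (by decide) (by decide)) (key e1 (by decide) (by decide))⟩

lemma thf_commute (hf : Free S) {a : ℕ} (φ : Phase S χ1 a) {c n c' n' : ℤ} (h1 : c + n ≤ c')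
    (h2 : c' + n' ≤ c + a) {γ δ : Γ} (hγ : γ ∈ G.sub (fun ω ω' => True ∧ ArcR φ c n ω ω'))
    (hδ : δ ∈ G.sub (fun ω ω' => True ∧ ArcR φ c' n' ω ω')) : Commute γ δ :=
  G.commute_of_disjoint hf (PER.top.and (ArcR.per φ c n)) (PER.top.and (ArcR.per φ c' n')) hγ hδ
    fun _ h h' => Set.disjoint_left.1 (Arc.disjoint φ h1 h2) h.2.1 h'.2.1

/-- Plan.  Cut `ℤ / 2h` into `I₁ = [0, h-1)`, `I₂ = {h-1}`, `I₃ = [h, 2h-1)`, `I₄ = {2h-1}`; let
`θᵢ = thH {φ.r ∈ Iᵢ}`, `θᵢ' = tauH θᵢ tauH⁻¹`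
(`= s (e1+e2, 2) (0,4) Z * s (e1, 2) (0,4) Z` by `conj_s`).  The `θᵢ` commute and multiply to
`thH univ`; `om0` is central, so
`om0 = (θ₁ θ₃)⁻¹ om0 (θ₁ θ₃) = (θ₁⁻¹ θ₁') (θ₃⁻¹ θ₃') (θ₄' θ₄⁻¹) (θ₂' θ₂⁻¹)`.
`pr (θ₄' θ₄⁻¹)` shifts track `2` up in the columns `≡ 0` and down in the columns `≡ -1`. -/
lemma om0_dec (hf : Free S) {h : ℕ} (φ : Phase S χ1 (2 * h)) {ρ : ℕ} (hρ1 : 1 ≤ ρ)
    (hρ : 2 * ρ ≤ h) :
    ∃ KL KR N0 Nh, G.Dec (fun _ _ => True) φ ρ G.om0 KL KR N0 Nh ∧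
      ∀ x, φ.r x = 0 → fl (G.pr N0) x 0 ρ = 1 := by
  classical
  have hρ1' : (1 : ℤ) ≤ ρ := by exact_mod_cast hρ1
  have hρ' : 2 * (ρ : ℤ) ≤ h := by exact_mod_cast hρ
  have ha : ((2 * h : ℕ) : ℤ) = 2 * h := by push_cast; rfl
  obtain ⟨a1, b1⟩ := G.thf_thH_arc hf φ (lo := 0) (hi := h - 1) (c := 0) (n := h) (by omega)
    le_rfl (by omega)
  obtain ⟨a3, b3⟩ := G.thf_thH_arc hf φ (lo := h) (hi := 2 * h - 1) (c := h) (n := h) (by omega)
    le_rfl (by omega)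
  obtain ⟨a2, b2⟩ := G.thf_thH_arc hf φ (lo := h - 1) (hi := h) (c := h - ρ) (n := 2 * ρ) (by omega)
    (by omega) (by omega)
  obtain ⟨a4, b4⟩ := G.thf_thH_arc hf φ (lo := 2 * h - 1) (hi := 2 * h) (c := -ρ + 1 * (2 * h : ℕ))
    (n := 2 * ρ) (by omega) (by omega) (by omega)
  rw [ArcR.add_mod] at a4 b4
  have hu : G.thH Set.univ = G.thH (thfZ φ 0 (h - 1)) * G.thH (thfZ φ h (2 * h - 1)) *
      G.thH (thfZ φ (2 * h - 1) (2 * h)) * G.thH (thfZ φ (h - 1) h) := by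
    rw [← G.thf_thH_union hf (thfZ_loc _ _ _) (thfZ_loc _ _ _) _ (thfZ_inv _ _ _),
      ← G.thf_thH_union hf ((thfZ_loc _ _ _).union (thfZ_loc _ _ _)) (thfZ_loc _ _ _) _
        (thfZ_inv _ _ _),
      ← G.thf_thH_union hf (((thfZ_loc _ _ _).union (thfZ_loc _ _ _)).union (thfZ_loc _ _ _))
        (thfZ_loc _ _ _) _ (thfZ_inv _ _ _)]
    · congr 1
      ext x
      have := φ.nonneg x
      have := φ.lt x
      simp only [thfZ, Set.mem_univ, Set.mem_union, Set.mem_ofPred_eq, true_iff]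
      omega
    all_goals
      rw [Set.disjoint_left]
      intro x h1 h2
      simp only [thfZ, Set.mem_union, Set.mem_ofPred_eq] at h1 h2
      omega
  have hZ4 := thfZ_loc φ (2 * h - 1) (2 * h)
  have hfl : ∀ x, φ.r x = 0 → fl (G.pr (G.tauH * G.thH (thfZ φ (2 * h - 1) (2 * h)) * G.tauH⁻¹ *
      (G.thH (thfZ φ (2 * h - 1) (2 * h)))⁻¹)) x 0 ρ = 1 := by
    intro x hx
    have hL := G.pr_mem_locP (G.sub_le_all _ (Subgroup.mul_mem _ b4 (Subgroup.inv_mem _ a4)))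
    have happ : ∀ (y : Cfg S) (l : Track), G.pr (G.thH (thfZ φ (2 * h - 1) (2 * h))) (y, l) =
        if y ∈ thfZ φ (2 * h - 1) (2 * h) then (thfD e2 2 4 l +ᵥ y, l) else (y, l) := by
      intro y l
      rw [G.thf_pr_thH hZ4, thf_shift_apply _ (by decide) hZ4 (thfZ_inv _ _ _)]
    have hact : ∀ p ∈ Cols 0 ρ, actP (G.pr (G.tauH * G.thH (thfZ φ (2 * h - 1) (2 * h)) *
        G.tauH⁻¹ * (G.thH (thfZ φ (2 * h - 1) (2 * h)))⁻¹)) x p =
        if p.2 = 2 ∧ p.1.1 = 0 then shP e2 p else p := by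
      rintro ⟨u, l⟩ hp
      simp only [Cols, Set.mem_ofPred_eq, zero_add] at hp
      refine actP_eq hf hL ?_
      have hr : ∀ w : V, φ.r (w +ᵥ u +ᵥ x) = (w.1 + u.1) % (2 * h) := fun w => by
        rw [← add_vadd, φ.r_vadd, hx, zero_add, χ1_apply, ha, Prod.fst_add]
      have hn : u +ᵥ x ∉ thfZ φ (2 * h - 1) (2 * h) := by
        have := hr 0
        rw [zero_vadd, Prod.fst_zero, zero_add, Int.emod_eq_of_lt hp.1 (by omega)] at this
        intro hm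
        have := hm.1
        omega
      have e1' : (G.pr (G.thH (thfZ φ (2 * h - 1) (2 * h))))⁻¹ (pt x (u, l)) = pt x (u, l) := by
        rw [Perm.inv_eq_iff_eq]
        simp only [pt]
        rw [happ, if_neg hn]
      rw [map_mul, map_mul, map_mul, map_inv, map_inv, Perm.mul_apply, e1', Perm.mul_apply,
        Perm.mul_apply, G.thf_pr_tauH]
      have e2' : (tau (thfD e1 2 3) : Perm (Om S))⁻¹ (pt x (u, l)) =
          ((-thfD e1 2 3 l) +ᵥ u +ᵥ x, l) := rfl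
      have e3' : ∀ (y : Cfg S), (tau (thfD e1 2 3) : Perm (Om S)) (y, l) = (thfD e1 2 3 l +ᵥ y, l) :=
        fun y => rfl
      rw [e2', happ]
      by_cases hl2 : l = 2
      · subst hl2
        have d1 : thfD e1 2 3 2 = e1 := rfl
        have d2 : thfD e2 2 4 2 = e2 := rfl
        rw [d1, d2]
        by_cases hu0 : u.1 = 0
        · have hm : (-e1) +ᵥ u +ᵥ x ∈ thfZ φ (2 * h - 1) (2 * h) := by
            have h5 := hr (-e1)
            have h6 : (-e1).1 = -1 := rfl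
            rw [h6, hu0, add_zero, ← Int.add_emod_right, Int.emod_eq_of_lt (by omega) (by omega)]
              at h5
            constructor <;> omega
          rw [if_pos hm, if_pos ⟨rfl, hu0⟩, e3', d1]
          simp only [pt, shP, ← add_vadd]
          congr 2
          abel
        · have hm : (-e1) +ᵥ u +ᵥ x ∉ thfZ φ (2 * h - 1) (2 * h) := by
            have h5 := hr (-e1)
            have h6 : (-e1).1 = -1 := rfl
            rw [h6, Int.emod_eq_of_lt (by omega) (by omega)] at h5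
            intro hm
            have := hm.1
            omega
          rw [if_neg hm, if_neg (fun h => hu0 h.2), e3', d1, vadd_neg_vadd]
          rfl
      · rw [if_neg (fun h : l = 2 ∧ u.1 = 0 => hl2 h.1)]
        by_cases hl4 : l = 4
        · subst hl4
          have d1 : thfD e1 2 3 4 = 0 := rfl
          rw [d1, neg_zero, zero_vadd, if_neg hn, e3', d1, zero_vadd]
          rfl
        · have d2 : thfD e2 2 4 l = 0 := by simp [thfD, hl2, hl4]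
          rw [d2, zero_vadd, ite_self, e3', vadd_neg_vadd]
          rfl
    have hp0 : (((0, -1), 2) : Pt) ∈ Cols 0 ρ := ⟨le_rfl, by simp only; omega⟩
    rw [fl, flux, finsum_mem_eq_sum_of_inter_support_eq (t := {(((0, -1), 2) : Pt)})]
    · rw [Finset.sum_singleton, hact _ hp0]
      rfl
    · apply Set.Subset.antisymm
      · rintro p ⟨h1, h2⟩
        refine ⟨?_, h2⟩
        rw [Function.mem_support, hact p h1] at h2
        by_cases hc : p.2 = 2 ∧ p.1.1 = 0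
        · rw [if_pos hc] at h2
          have h3 : (shP e2 p).1.2 = p.1.2 + 1 := rfl
          simp only [upI, h3] at h2
          have h4 : p.1.2 = -1 := by
            split_ifs at h2 <;> omega
          rw [Finset.coe_singleton, Set.mem_singleton_iff]
          exact Prod.ext (Prod.ext hc.2 h4) hc.1
        · rw [if_neg hc, sub_self] at h2
          exact (h2 rfl).elim
      · rintro p ⟨h1, h2⟩
        rw [Finset.coe_singleton, Set.mem_singleton_iff] at h1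
        exact ⟨h1 ▸ hp0, h2⟩
  have hc := G.central hf G.om0_mem G.pr_om0
    (Subgroup.mul_mem _ (G.sub_le_all _ a1) (G.sub_le_all _ a3))
  have c1 := G.thf_commute hf φ (by omega) (by omega)
    (Subgroup.mul_mem _ (Subgroup.inv_mem _ a1) b1) (Subgroup.inv_mem _ a3)
  have c2 := G.thf_commute hf φ (by omega) (by omega)
    (Subgroup.inv_mem _ a4) (Subgroup.mul_mem _ b2 (Subgroup.inv_mem _ a2))
  refine ⟨_, _, _, _, ⟨Subgroup.mul_mem _ (Subgroup.inv_mem _ a1) b1,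
    Subgroup.mul_mem _ (Subgroup.inv_mem _ a3) b3, Subgroup.mul_mem _ b4 (Subgroup.inv_mem _ a4),
    Subgroup.mul_mem _ b2 (Subgroup.inv_mem _ a2), ?_⟩, hfl⟩
  have e0 : G.om0 = G.tauH * G.thH Set.univ * G.tauH⁻¹ * (G.thH Set.univ)⁻¹ := rfl
  rw [hu] at e0
  generalize G.thH (thfZ φ 0 (h - 1)) = t1 at *
  generalize G.thH (thfZ φ h (2 * h - 1)) = t3 at *
  generalize G.thH (thfZ φ (2 * h - 1) (2 * h)) = t4 at *
  generalize G.thH (thfZ φ (h - 1) h) = t2 at *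
  generalize G.tauH = τ at *
  calc G.om0 = (t1 * t3)⁻¹ * (G.om0 * (t1 * t3)) := by rw [hc.eq]; group
    _ = (t3⁻¹ * (t1⁻¹ * (τ * t1 * τ⁻¹))) * (τ * t3 * τ⁻¹) * (τ * t4 * τ⁻¹) *
        ((τ * t2 * τ⁻¹ * t2⁻¹) * t4⁻¹) := by rw [e0]; group
    _ = _ := by rw [← c1.eq, ← c2.eq]; group

/-- multiplying a decomposition by a power of a central decomposed element -/
lemma Dec.mul_zpow (hf : Free S) {h : ℕ} {φ : Phase S χ1 (2 * h)} {ρ : ℕ} (hρ : 2 * ρ ≤ h)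
    {γ UL UR V0 Vh w KL KR N0 Nh : Γ} (hd : G.Dec (fun _ _ => True) φ ρ γ UL UR V0 Vh)
    (hw : G.Dec (fun _ _ => True) φ ρ w KL KR N0 Nh) (h1 : G.pr w = 1) (k : ℤ) :
    G.Dec (fun _ _ => True) φ ρ (γ * w ^ k) (UL * KL ^ k) (UR * KR ^ k) (N0 ^ k * V0)
      (Nh ^ k * Vh) := by
  have hρ' : 2 * (ρ : ℤ) ≤ h := by exact_mod_cast hρ
  have ha : ((2 * h : ℕ) : ℤ) = 2 * h := by push_cast; rfl
  obtain ⟨a1, a2, a3, a4, a5⟩ := hd
  obtain ⟨b1, b2, b3, b4, b5⟩ := hw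
  refine ⟨Subgroup.mul_mem _ a1 (Subgroup.zpow_mem _ b1 k),
    Subgroup.mul_mem _ a2 (Subgroup.zpow_mem _ b2 k),
    Subgroup.mul_mem _ (Subgroup.zpow_mem _ b3 k) a3,
    Subgroup.mul_mem _ (Subgroup.zpow_mem _ b4 k) a4, ?_⟩
  have hw : w ∈ G.all := by
    rw [b5]
    exact Subgroup.mul_mem _ (Subgroup.mul_mem _ (Subgroup.mul_mem _ (G.sub_le_all _ b1)
      (G.sub_le_all _ b2)) (G.sub_le_all _ b3)) (G.sub_le_all _ b4)
  have c1 : Commute KL KR := G.thf_commute hf φ (by omega) (by omega) b1 b2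
  have c2 : Commute N0 Nh := G.thf_commute hf φ (by omega) (by omega) b3 b4
  have c3 : Commute KL UR := G.thf_commute hf φ (by omega) (by omega) b1 a2
  have c4 : Commute V0 Nh := G.thf_commute hf φ (by omega) (by omega) a3 b4
  have c5 : Commute (KL * KR) (N0 * Nh) := by
    have := G.central hf hw h1 (Subgroup.mul_mem _ (G.sub_le_all _ b1) (G.sub_le_all _ b2))
    have e : N0 * Nh = (KL * KR)⁻¹ * w := by rw [b5]; group
    rw [e]
    exact (Commute.refl _).inv_right.mul_right this.symm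
  have c6 : Commute w (V0 * Vh) :=
    G.central hf hw h1 (Subgroup.mul_mem _ (G.sub_le_all _ a3) (G.sub_le_all _ a4))
  have e : w ^ k = KL ^ k * KR ^ k * (N0 ^ k * Nh ^ k) := by
    rw [← c1.mul_zpow, ← c2.mul_zpow, ← c5.mul_zpow, b5, mul_assoc (KL * KR)]
  calc γ * w ^ k = UL * UR * ((V0 * Vh) * w ^ k) := by rw [a5]; group
    _ = UL * (UR * KL ^ k) * KR ^ k * N0 ^ k * (Nh ^ k * V0) * Vh := by
      rw [← (c6.zpow_left k).eq, e]; group
    _ = _ := by rw [← (c3.zpow_left k).eq, ← (c4.zpow_right k).eq]; group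

lemma thf_fl_sub (hf : Free S) {a : ℕ} (φ : Phase S χ1 a) {c n : ℤ} (hn : n ≤ a) {γ : Γ}
    (hγ : γ ∈ G.sub (fun ω ω' => True ∧ ArcR φ c n ω ω')) {x : Cfg S} (hx : φ.r x = 0) :
    fl (G.pr γ) x c n = 0 := by
  rw [thf_fl_base hf (G.pr_mem_locP (G.sub_le_all _ hγ))]
  exact G.fl_sub hf φ hn (G.sub_mono (fun _ _ e => e.2) hγ) (thf_pos_base φ c hx)

/-- The four fluxes.  For `φ.r x = 0` let `m₁ = fl V0 x 0 ρ`, `m₂ = fl Vh x (h-ρ) ρ`,
`m₃ = fl Vh x h ρ`, `m₄ = fl V0 x (2h-ρ) ρ`.  `fl_sub` for `UL`, `Vh`, `UR`, `V0` gives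
`m₁ + m₂ = 0`, `m₂ + m₃ = 0`, `m₃ + m₄ = 0`, `m₄ x + m₁ (2h e1 + x) = 0`. -/
lemma Dec.fluxes (hf : Free S) {h : ℕ} {φ : Phase S χ1 (2 * h)} {ρ : ℕ} (hρ : 2 * ρ ≤ h)
    {γ UL UR V0 Vh : Γ} (hd : G.Dec (fun _ _ => True) φ ρ γ UL UR V0 Vh) (h1 : G.pr γ = 1)
    {x : Cfg S} (hx : φ.r x = 0) :
    fl (G.pr Vh) x (h - ρ) ρ = -fl (G.pr V0) x 0 ρ ∧ fl (G.pr Vh) x h ρ = fl (G.pr V0) x 0 ρ ∧
    fl (G.pr V0) x (2 * h - ρ) ρ = -fl (G.pr V0) x 0 ρ ∧
    fl (G.pr V0) (((2 * h, 0) : V) +ᵥ x) 0 ρ = fl (G.pr V0) x 0 ρ := by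
  have hρ0 : (0 : ℤ) ≤ ρ := Int.natCast_nonneg ρ
  have hρ' : 2 * (ρ : ℤ) ≤ h := by exact_mod_cast hρ
  have ha : ((2 * h : ℕ) : ℤ) = 2 * h := by push_cast; rfl
  obtain ⟨i1, i2, i3, i4, e1, e2, -, -⟩ := Dec.invO G PER.top hρ hd h1
  obtain ⟨l1, l2, l3, l4⟩ := Dec.along G PER.top hρ hd h1
  obtain ⟨a1, a2, a3, a4, -⟩ := hd
  have hV0 := G.pr_mem_locP (G.sub_le_all _ a3)
  have hVh := G.pr_mem_locP (G.sub_le_all _ a4)
  have ec : (-ρ : ℤ) + 1 * (2 * h : ℕ) = 2 * h - ρ := by omega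
  rw [← Arc.add_mod φ (-ρ) ρ 1, ec] at i2 e2 l2
  rw [← ArcR.add_mod φ (-ρ) ρ 1, ec] at l2
  rw [← ArcR.add_mod φ (-ρ) (2 * ρ) 1, ec] at a3
  have f1 := G.thf_fl_sub hf φ (by omega) a1 hx
  have f2 := G.thf_fl_sub hf φ (by omega) a2 hx
  have f3 := G.thf_fl_sub hf φ (by omega) a3 hx
  have f4 := G.thf_fl_sub hf φ (by omega) a4 hx
  rw [e1, thf_fl_inv_inv hf φ (by omega) (res_mem_locP hV0 (Arc.locO _ _ _))
    (res_mem_locP hVh (Arc.locO _ _ _))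
    (l1.mono fun _ _ e => ArcR.mono φ (by omega) (by omega) (by omega) e.2)
    (l3.mono fun _ _ e => ArcR.mono φ (by omega) (by omega) (by omega) e.2) hx,
    thf_fl_res hf φ hρ0 (by omega) (by omega) (by omega) hV0 i1 hx,
    thf_fl_res hf φ hρ0 (by omega) (by omega) (by omega) hVh i3 hx] at f1
  rw [e2, thf_fl_inv_inv hf φ (by omega) (res_mem_locP hVh (Arc.locO _ _ _))
    (res_mem_locP hV0 (Arc.locO _ _ _))
    (l4.mono fun _ _ e => ArcR.mono φ (by omega) (by omega) (by omega) e.2)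
    (l2.mono fun _ _ e => ArcR.mono φ (by omega) (by omega) (by omega) e.2) hx,
    thf_fl_res hf φ hρ0 (by omega) (by omega) (by omega) hVh i4 hx,
    thf_fl_res hf φ hρ0 (by omega) (by omega) (by omega) hV0 i2 hx] at f2
  obtain ⟨r0, hr0⟩ := id hV0
  obtain ⟨rh, hrh⟩ := id hVh
  rw [fl, two_mul (ρ : ℤ), flux_split hρ0 hρ0 ⟨r0, fun p => (actP_disp hf hr0 x p).2⟩,
    sub_add_cancel] at f3
  rw [fl, two_mul (ρ : ℤ), flux_split hρ0 hρ0 ⟨rh, fun p => (actP_disp hf hrh x p).2⟩,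
    sub_add_cancel] at f4
  rw [← thf_fl_base hf hV0]
  simp only [fl] at f1 f2 ⊢
  refine ⟨?_, ?_, ?_, ?_⟩ <;> linarith

lemma Dec.thf_fluxOK (hf : Free S) {h : ℕ} {φ : Phase S χ1 (2 * h)} {ρ : ℕ} (hρ : 2 * ρ ≤ h)
    {γ UL UR V0 Vh : Γ} (hd : G.Dec (fun _ _ => True) φ ρ γ UL UR V0 Vh) (h1 : G.pr γ = 1)
    {x : Cfg S} (hx : φ.r x = 0) : FluxOK (actP (G.pr V0) x) 0 ρ := by
  have hρ' : 2 * (ρ : ℤ) ≤ h := by exact_mod_cast hρ
  have ha : ((2 * h : ℕ) : ℤ) = 2 * h := by push_cast; rfl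
  obtain ⟨i1, -⟩ := Dec.invO G PER.top hρ hd h1
  obtain ⟨l1, -⟩ := Dec.along G PER.top hρ hd h1
  have hV0 := G.pr_mem_locP (G.sub_le_all _ hd.2.2.1)
  have hL := res_mem_locP hV0 (Arc.locO φ 0 ρ)
  have hok := fluxOK_of_along hf φ (by omega) hL (l1.mono fun _ _ e => e.2)
    ((φ.pos_zero x).trans hx)
  have heq : ∀ p ∈ Cols 0 ρ, actP (res (G.pr V0) (Arc φ 0 ρ)) x p = actP (G.pr V0) x p := by
    intro p hp
    refine actP_eq hf hL ?_
    rw [res_apply_mem i1 ((thf_mem_arc φ le_rfl le_rfl (by omega) hx hp).2 hp), actP_spec hf hV0]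
  obtain ⟨r0, hr0⟩ := id hV0
  refine ⟨⟨r0, fun p => (actP_disp hf hr0 x p).2⟩, fun p => ⟨fun hp => ?_, fun hp => ?_⟩⟩
  · have hq := (hok.inv.2 _).2 hp
    have := heq _ hq
    rw [flx_apply_inv] at this
    rw [(actP (G.pr V0) x).injective this]
    exact hq
  · rw [← heq p hp]
    exact (hok.2 p).2 hp

lemma thf_lift (hp : HasPhases S) {a : ℕ} (φ : Phase S χ1 a) {c n : ℤ} (hn0 : 0 ≤ n) (hn : n ≤ a)
    {g : Perm (Om S)} (hg : g ∈ LocP S) (hi : InvO g (Arc φ c n))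
    (ha : Along (fun ω ω' => True ∧ ArcR φ c n ω ω') (res g (Arc φ c n)))
    (h0 : ∀ x, φ.r x = 0 → fl g x c n = 0) :
    ∃ γ ∈ G.sub (fun ω ω' => True ∧ ArcR φ c n ω ω'), G.pr γ = res g (Arc φ c n) := by
  have hf := hp.free
  have hL := res_mem_locP hg (Arc.locO φ c n)
  obtain ⟨γ, h1, h2⟩ := G.strip_lift hp φ hn hL (ha.mono fun _ _ e => e.2) (fun x hx => by
    have hy : φ.r (((-c, 0) : V) +ᵥ x) = 0 := by
      rw [φ.r_vadd, χ1_apply, ← sub_eq_add_neg]; exact hx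
    have e : ((c, 0) : V) +ᵥ ((-c, 0) : V) +ᵥ x = x := by
      rw [← add_vadd]; simp [Prod.mk_zero_zero]
    rw [← e, ← thf_fl_base hf hL, thf_fl_res hf φ hn0 le_rfl le_rfl hn hg hi hy, h0 _ hy])
  exact ⟨γ, G.sub_mono (fun _ _ e => ⟨trivial, e⟩) h1, h2⟩

/-- Plan: `exists_dec` with `ρ = ρ₀ + 1`; the flux `m` of `V0` is constant (`Minimal.const` for
`x ↦ fl V0 (-(φ.r x) e1 + x) 0 ρ`); replace `γ` by `γ * om0 ^ (-m)`; then `strip_lift`, `strip_inj`,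
`Dec.eq_one`. -/
theorem ker_le (hp : HasPhases S) (hm : Minimal S) {γ : Γ} (hγ : γ ∈ G.all) (h1 : G.pr γ = 1) :
    γ ∈ Subgroup.zpowers G.om0 := by
  have hf := hp.free
  obtain ⟨ρ₀, hρ₀⟩ := G.exists_dec hf PER.top χ1 hγ
  obtain ⟨⟨a, ha, ⟨h, hh⟩, ⟨φ⟩⟩, -⟩ := hp (4 * (ρ₀ + 1))
  rw [← two_mul] at hh
  subst hh
  obtain ⟨ρ, hρe⟩ : ∃ ρ, ρ = ρ₀ + 1 := ⟨_, rfl⟩
  have hρ : 2 * ρ ≤ h := by omega
  have hρ1 : 1 ≤ ρ := by omega
  have hρ0 : (0 : ℤ) ≤ ρ := Int.natCast_nonneg ρ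
  have hρ' : 2 * (ρ : ℤ) ≤ h := by exact_mod_cast hρ
  have ha : ((2 * h : ℕ) : ℤ) = 2 * h := by push_cast; rfl
  obtain ⟨UL, UR, V0, Vh, hd⟩ := hρ₀ ρ h φ (by omega) hρ
  obtain ⟨KL, KR, N0, Nh, hw, hN⟩ := G.om0_dec hf φ hρ1 hρ
  have hV0 := G.pr_mem_locP (G.sub_le_all _ hd.2.2.1)
  have hN0 := G.pr_mem_locP (G.sub_le_all _ hw.2.2.1)
  obtain ⟨m, hm0⟩ : ∃ m : ℤ, ∀ x, φ.r x = 0 → fl (G.pr V0) x 0 ρ = m := by
    have hbase : ∀ x : Cfg S, φ.r (((-φ.r x, 0) : V) +ᵥ x) = 0 := fun x => by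
      rw [φ.r_vadd]; simp
    have hc := hm.const (f := fun x => fl (G.pr V0) (((-φ.r x, 0) : V) +ᵥ x) 0 ρ)
      (thf_locF_dep φ.loc (F := fun b x => fl (G.pr V0) (((-b, 0) : V) +ᵥ x) 0 ρ)
        fun b => (fl_locF hf hV0 0 ρ).vadd _) ?_ ?_
    · rcases isEmpty_or_nonempty (Cfg S) with he | ⟨⟨y⟩⟩
      · exact ⟨0, fun x => (he.false x).elim⟩
      · refine ⟨_, fun x hx => Eq.trans ?_ (hc x y)⟩
        simp only [hx, neg_zero, Prod.mk_zero_zero, zero_vadd]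
    · intro x
      have h2 : φ.r (e1 +ᵥ x) = (φ.r x + 1) % (2 * h) := by rw [φ.r_vadd, ha]; rfl
      have h3 := φ.nonneg x
      have h4 := φ.lt x
      by_cases hlt : φ.r x + 1 < 2 * h
      · rw [Int.emod_eq_of_lt (by omega) hlt] at h2
        have e : ((-φ.r (e1 +ᵥ x), 0) : V) +ᵥ e1 +ᵥ x = ((-φ.r x, 0) : V) +ᵥ x := by
          rw [← add_vadd, h2]; simp [e1]
        simp only [e]
      · have h5 : φ.r x + 1 = 2 * h := by omega
        rw [h5, Int.emod_self] at h2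
        have e : ((-φ.r (e1 +ᵥ x), 0) : V) +ᵥ e1 +ᵥ x =
            ((2 * h, 0) : V) +ᵥ ((-φ.r x, 0) : V) +ᵥ x := by
          rw [← add_vadd, ← add_vadd, h2, ← h5]; simp [e1]
        simp only [e]
        exact (Dec.fluxes G hf hρ hd h1 (hbase x)).2.2.2
    · intro x
      have e : ((-φ.r (e2 +ᵥ x), 0) : V) +ᵥ e2 +ᵥ x =
          ((0, 1) : V) +ᵥ ((-φ.r x, 0) : V) +ᵥ x := by
        rw [← add_vadd, ← add_vadd, e2, thf_r_snd, add_comm]
      simp only [e]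
      exact fl_vadd_snd hf hV0 1 _ (Dec.thf_fluxOK G hf hρ hd h1 (hbase x))
  have hd' := Dec.mul_zpow G hf hρ hd hw G.pr_om0 (-m)
  have h1' : G.pr (γ * G.om0 ^ (-m)) = 1 := by
    rw [map_mul, map_zpow, h1, G.pr_om0, one_zpow, mul_one]
  have hz : ∀ x, φ.r x = 0 → fl (G.pr (N0 ^ (-m) * V0)) x 0 ρ = 0 := by
    intro x hx
    have o1 := Dec.thf_fluxOK G hf hρ hd h1 hx
    have o2 := thf_flux_zpow (Dec.thf_fluxOK G hf hρ hw G.pr_om0 hx) (-m)
    have o3 := hN x hx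
    have o4 := hm0 x hx
    rw [fl] at o3 o4
    rw [fl, map_mul, map_zpow, actP_mul hf (Subgroup.zpow_mem _ hN0 _) hV0, thf_actP_zpow hf hN0,
      flux_mul o2.1 o1, o2.2, o3, o4]
    ring
  obtain ⟨i1, i2, i3, i4, -⟩ := Dec.invO G PER.top hρ hd' h1'
  obtain ⟨l1, l2, l3, l4⟩ := Dec.along G PER.top hρ hd' h1'
  have hV0' := G.pr_mem_locP (G.sub_le_all _ hd'.2.2.1)
  have hVh' := G.pr_mem_locP (G.sub_le_all _ hd'.2.2.2.1)
  have key := Dec.eq_one G hf PER.top hρ hd' h1'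
    (fun c n _ δ hδ => G.strip_inj hp φ c n δ (G.sub_mono (fun _ _ e => e.2) hδ))
    (G.thf_lift hp φ hρ0 (by omega) hV0' i1 l1 hz)
    (G.thf_lift hp φ hρ0 (by omega) hV0' i2 l2 fun x hx => by
      have hy : φ.r (((-(2 * h), 0) : V) +ᵥ x) = 0 := by
        rw [φ.r_vadd, hx, ha]; simp
      have e : ((2 * h, 0) : V) +ᵥ ((-(2 * h), 0) : V) +ᵥ x = x := by
        rw [← add_vadd]; simp [Prod.mk_zero_zero]
      rw [← e, fl_vadd_fst hf hV0', neg_add_eq_sub, (Dec.fluxes G hf hρ hd' h1' hy).2.2.1, hz _ hy,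
        neg_zero])
    (G.thf_lift hp φ hρ0 (by omega) hVh' i3 l3 fun x hx => by
      rw [(Dec.fluxes G hf hρ hd' h1' hx).1, hz x hx, neg_zero])
    (G.thf_lift hp φ hρ0 (by omega) hVh' i4 l4 fun x hx => by
      rw [(Dec.fluxes G hf hρ hd' h1' hx).2.1, hz x hx])
  rw [zpow_neg, mul_inv_eq_one] at key
  exact ⟨m, key.symm⟩

end GateSys

end Crest.Agent.R189
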