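import Crest.Agent.R189.DDFin
import Crest.Agent.R189.SymExt
import Crest.Agent.R189.Flat
import Crest.Agent.R189.PreGate
import Crest.Agent.R189.ThmF

/-!
Row 189.  The symmetric extension `(H ⋊ M) / K` and the kernel of the universal hat system.
-/

set_option autoImplicit false

namespace Crest.Agent.R189

open Equiv
open scoped commutatorElement

variable {S : Wang}

namespace SymExt

variable {H : Type} [Group H] {T : AutSys S H} {Γ : Type} [Group Γ] (E : SymExt T Γ)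

/-- gate with garbage at `v` -/
noncomputable def sg (v : V) (p q : Pt) (W : Set (Cfg S)) : Γ :=
  E.ι (T.DL p q (v, 0) (v, 1) W) * E.μ (tr v W)

/-- the garbage column avoids the residues of `p` and `q` -/
def Good (a : ℕ) (v : V) (p q : Pt) : Prop := ¬ (a : ℤ) ∣ p.1.1 - v.1 ∧ ¬ (a : ℤ) ∣ q.1.1 - v.1

lemma adm4_of_good {a : ℕ} (φ : Phase S χ1 a) {v : V} {p q : Pt} {W : Set (Cfg S)} (hs : Sm φ W)
    (h : Adm2 p q W) (hg : Good a v p q) : Adm4 p q (v, 0) (v, 1) W := by 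
  obtain ⟨c, hc⟩ := hs
  have n1 : ∀ i : Track, p ≠ (v, i) := by
    rintro i rfl
    exact hg.1 (by simp)
  have n2 : ∀ i : Track, q ≠ (v, i) := by
    rintro i rfl
    exact hg.2 (by simp)
  refine ⟨⟨⟨h.1, n1 0, n2 0⟩, n1 1, n2 1, by simp⟩, h.2.1, ?_⟩
  have := Adm.union_of_phase φ hc h.2.2 (adm2_ab v h.2.1).2.2 (by
    rintro s (rfl | rfl) t (rfl | rfl)
    exacts [hg.1, hg.1, hg.2, hg.2])
  refine this.mono ?_ subset_rfl
  rintro s (rfl | rfl | rfl | rfl) <;> simp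

/-- there is a residue avoiding a short list -/
lemma exists_avoid {a : ℕ} (ha : 16 ≤ a) (l : List ℤ) (hl : l.length < 16) :
    ∃ k : ℤ, ∀ c ∈ l, ¬ (a : ℤ) ∣ c - k := by 
  classical
  by_contra hn
  push Not at hn
  choose f hf1 hf2 using hn
  have hinj : Set.InjOn f ((Finset.Ico (0 : ℤ) 16 : Finset ℤ) : Set ℤ) := by
    intro k hk k' hk' e
    simp only [Finset.coe_Ico, Set.mem_Ico] at hk hk'
    have h1 := dvd_sub (hf2 k) (hf2 k')
    rw [e, show f k' - k - (f k' - k') = k' - k by ring] at h1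
    have ha' : (16 : ℤ) ≤ a := by exact_mod_cast ha
    have := Int.eq_zero_of_abs_lt_dvd h1 (by rw [abs_lt]; constructor <;> omega)
    omega
  have := Finset.card_le_card_of_injOn f (t := l.toFinset)
    (fun k _ => by simpa using hf1 k) hinj
  have h2 := List.toFinset_card_le l
  simp at this
  omega

lemma sg_indep' {a : ℕ} (φ : Phase S χ1 a) {v v' : V} {p q : Pt} {W : Set (Cfg S)}
    (hs : Sm φ W) (h : Adm2 p q W) (hg : Good a v p q) (hg' : Good a v' p q)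
    (hv : ¬ (a : ℤ) ∣ v.1 - v'.1) : E.sg v p q W = E.sg v' p q W := by
  have A1 := adm4_of_good φ hs h hg
  have A2 := adm4_of_good φ hs h hg'
  have A3 : Adm4 (v, 0) (v, 1) (v', 0) (v', 1) W :=
    adm4_of_good φ hs (adm2_ab v h.2.1) ⟨hv, hv⟩
  obtain ⟨c, hc⟩ := hs
  have A4 := Adm.union_of_phase φ hc A1.2.2 (adm2_ab v' h.2.1).2.2 (by
    rintro s (rfl | rfl | rfl | rfl) t (rfl | rfl)
    exacts [hg'.1, hg'.1, hg'.2, hg'.2, hv, hv, hv, hv])
  have e := T.DL_trans A1.1 A3.1 A2.1 h.2.1 (A4.mono (by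
    rintro s (rfl | rfl | rfl | rfl | rfl | rfl) <;> simp) subset_rfl)
  have e2 := E.dd v v' W A3
  rw [HatSys.dd] at e2
  rw [sg, sg, ← e, map_mul, e2, mul_assoc, mul_assoc, E.sq _ (h.2.1.tr v'), mul_one]

lemma sg_indep {a : ℕ} (ha : 16 ≤ a) (φ : Phase S χ1 a) {v v' : V} {p q : Pt} {W : Set (Cfg S)}
    (hs : Sm φ W) (h : Adm2 p q W) (hg : Good a v p q) (hg' : Good a v' p q) :
    E.sg v p q W = E.sg v' p q W := by 
  obtain ⟨k, hk⟩ := exists_avoid ha [p.1.1, q.1.1, v.1, v'.1] (by simp)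
  have g : Good a (k, 0) p q := ⟨hk _ (by simp), hk _ (by simp)⟩
  rw [E.sg_indep' φ hs h hg g (hk _ (by simp)), E.sg_indep' φ hs h hg' g (hk _ (by simp))]

lemma gs_dvd_congr {a b c : ℤ} (h : b = c) : a ∣ b ↔ a ∣ c := by rw [h]

lemma gs_sep {a : ℕ} (φ : Phase S χ1 a) {x y : Cfg S} {p q : Pt} (e : pt x p = pt y q) :
    (a : ℤ) ∣ (φ.r x + p.1.1) - (φ.r y + q.1.1) := by
  have e1 : p.1 +ᵥ x = q.1 +ᵥ y := congrArg Prod.fst e
  have a1 := φ.eqv p.1 x
  have a2 := φ.eqv q.1 y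
  rw [e1] at a1
  have := dvd_sub a2 a1
  simp only [χ1_apply] at this
  exact (gs_dvd_congr (by ring)).1 this

lemma gs_fix {s t : Pt} {Z : Set (Cfg S)} (h : Adm2 s t Z) {ω : Om S}
    (hω : ∀ y ∈ Z, ω ≠ pt y s ∧ ω ≠ pt y t) : swW s t Z ω = ω := by
  refine swW_fix h ?_
  rintro ⟨y, hy, r, (rfl | rfl), e⟩
  · exact (hω y hy).1 e
  · exact (hω y hy).2 e

/-- `μ` commutes with a lifted double transposition whose points it fixes -/
lemma mu_comm_of_fix {v : V} {Z W : Set (Cfg S)} (hZ : Loc Z) {p q p' q' : Pt}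
    (h : Adm4 p q p' q' W)
    (hf : ∀ x ∈ W, ∀ s ∈ ({p, q, p', q'} : Set Pt), ∀ y ∈ Z, ∀ i : Track, i = 0 ∨ i = 1 →
      pt x s ≠ pt y (v, i)) :
    Commute (E.μ (tr v Z)) (E.ι (T.DL p q p' q' W)) := by
  have e := E.conj _ (hZ.tr v) (T.DL p q p' q' W)
  have key : ∀ x ∈ W, ∀ s ∈ ({p, q, p', q'} : Set Pt), ab (tr v Z) (pt x s) = pt x s := by
    intro x hx s hs
    rw [← swW_eq_ab v hZ]
    exact gs_fix (adm2_ab v hZ) fun y hy =>
      ⟨hf x hx s hs y hy 0 (Or.inl rfl), hf x hx s hs y hy 1 (Or.inr rfl)⟩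
  rw [T.al_DL _ h h fun x hx => ⟨key x hx p (by simp), key x hx q (by simp),
    key x hx p' (by simp), key x hx q' (by simp)⟩] at e
  exact mul_inv_eq_iff_eq_mul.1 e

lemma mu_comm_self {v : V} {W : Set (Cfg S)} {p q : Pt} (h : Adm4 p q (v, 0) (v, 1) W) :
    Commute (E.μ (tr v W)) (E.ι (T.DL p q (v, 0) (v, 1) W)) := by
  have e := E.conj _ (h.2.1.tr v) (T.DL p q (v, 0) (v, 1) W)
  obtain ⟨⟨⟨d1, d2, d3⟩, d4, d5, d6⟩, hW, hA⟩ := id h
  have h' : Adm4 p q (v, 1) (v, 0) W :=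
    ⟨⟨⟨d1, d4, d5⟩, d2, d3, d6.symm⟩, hW, hA.mono (by
      rintro s (rfl | rfl | rfl | rfl) <;> simp) subset_rfl⟩
  have hb := swW_isBlk hA (p := (v, 0)) (q := (v, 1)) (by simp) (by simp)
  rw [swW_eq_ab v hW] at hb
  rw [T.al_DL _ h h' fun x hx => ⟨
    by rw [Subgroup.coe_mk, hb.1 x hx p (by simp), swap_apply_of_ne_of_ne d2 d4],
    by rw [Subgroup.coe_mk, hb.1 x hx q (by simp), swap_apply_of_ne_of_ne d3 d5],
    by rw [Subgroup.coe_mk, hb.1 x hx _ (by simp), swap_apply_left],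
    by rw [Subgroup.coe_mk, hb.1 x hx _ (by simp), swap_apply_right]⟩, T.DL_swap_right h] at e
  exact mul_inv_eq_iff_eq_mul.1 e

lemma pr_sg {v : V} {W : Set (Cfg S)} {p q : Pt} (h : Adm4 p q (v, 0) (v, 1) W) :
    E.pr (E.sg v p q W) = swW p q W := by
  rw [sg, map_mul, E.pr_ι, E.pr_μ _ (h.2.1.tr v), T.pr_DL h, ← swW_eq_ab v h.2.1, mul_assoc,
    swW_sq (adm2_ab v h.2.1), mul_one]

lemma sg_conj {v : V} {W : Set (Cfg S)} {p q : Pt} (h : Adm4 p q (v, 0) (v, 1) W)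
    (h2 : Adm2 p q W) (g : H) :
    E.sg v p q W * E.ι g * (E.sg v p q W)⁻¹ = E.ι (T.al ⟨swW p q W, swW_mem_locP h2⟩ g) := by
  have hD : T.pr (T.DL p q (v, 0) (v, 1) W) ∈ LocP S := GG_le (T.pr_mem _)
  have e : (⟨swW p q W, swW_mem_locP h2⟩ : LocP S) =
      ⟨_, hD⟩ * ⟨ab (tr v W), ab_mem_locP (h.2.1.tr v)⟩ := by
    apply Subtype.ext
    show swW p q W = T.pr (T.DL p q (v, 0) (v, 1) W) * ab (tr v W)
    rw [T.pr_DL h, ← swW_eq_ab v h.2.1, mul_assoc, swW_sq (adm2_ab v h.2.1), mul_one]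
  rw [e, map_mul, MulAut.mul_apply, T.al_pr (T.DL p q (v, 0) (v, 1) W) _ _ rfl, map_mul, map_mul,
    ← E.conj _ (h.2.1.tr v), map_inv, sg]
  group

lemma gs_tr_union (v : V) (W W' : Set (Cfg S)) : tr v (W ∪ W') = tr v W ∪ tr v W' := rfl

lemma gs_tr_disjoint (v : V) {W W' : Set (Cfg S)} (h : Disjoint W W') :
    Disjoint (tr v W) (tr v W') := by
  rw [Set.disjoint_left] at h ⊢
  exact fun x h1 h2 => h h1 h2

/-- Plan: `s p q W = sg (k p q, 0) p q W` with `k p q` from `exists_avoid`.  For `conj` move both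
garbage columns (`sg_indep`) to residues avoiding all other points involved. -/
theorem exists_preGate {a : ℕ} (ha : 16 ≤ a) (φ : Phase S χ1 a) :
    ∃ P : PreGate S Γ φ, P.pr = E.pr ∧ ∀ p q r W, Sm φ W → Adm3 p q r W →
      E.ι (T.hat (cycW p q r W)) = P.s p r W * P.s p q W := by 
  choose k hk using fun p q : Pt => exists_avoid ha [p.1.1, q.1.1] (by simp)
  have g0 : ∀ p q, Good a (k p q, 0) p q := fun p q => ⟨hk p q _ (by simp), hk p q _ (by simp)⟩
  let s : Pt → Pt → Set (Cfg S) → Γ := fun p q W => E.sg (k p q, 0) p q W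
  have key : ∀ v p q W, Sm φ W → Adm2 p q W → Good a v p q → s p q W = E.sg v p q W :=
    fun v p q W hs h hg => E.sg_indep ha φ hs h (g0 p q) hg
  refine ⟨⟨s, E.pr, fun p q W hs h => ?_, fun p q W hs h => ?_, fun p q W hs h => ?_,
    fun p q W W' hs h hW hW' hd => ?_, fun v p q W hs h => ?_,
    fun p q W i j i' j' Z hs hsZ h hZ hZ' e => ?_⟩, rfl, fun p q r W hs h => ?_⟩
  · exact E.pr_sg (adm4_of_good φ hs h (g0 p q))
  · rw [key (k p q, 0) q p W hs h.symm ⟨(g0 p q).2, (g0 p q).1⟩]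
    simp only [s, sg]
    rw [T.DL_swap_left (adm4_of_good φ hs h (g0 p q))]
  · have A := adm4_of_good φ hs h (g0 p q)
    simp only [s, sg]
    rw [mul_assoc, ← mul_assoc (E.μ _), (E.mu_comm_self A).eq, mul_assoc, E.sq _ (h.2.1.tr _),
      mul_one, ← map_mul, T.DL_sq A, map_one]
  · have A := adm4_of_good φ hs h (g0 p q)
    have A' : Adm4 p q ((k p q, 0), 0) ((k p q, 0), 1) W' :=
      ⟨A.1, hW', A.2.2.mono subset_rfl Set.subset_union_right⟩
    have c := E.mu_comm_of_fix (v := (k p q, 0)) hW A' (by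
      intro x hx t ht y hy i hi e
      have := A.2.2 x (Or.inr hx) y (Or.inl hy) t ht _ (by rcases hi with rfl | rfl <;> simp) e
      exact Set.disjoint_left.1 hd hy (this.1 ▸ hx))
    simp only [s, sg]
    rw [T.DL_union A hW hW' hd, map_mul, gs_tr_union,
      E.union _ _ (hW.tr _) (hW'.tr _) (gs_tr_disjoint _ hd), mul_assoc, mul_assoc,
      ← mul_assoc (E.μ _), c.eq, mul_assoc]
  · have g : Good a ((k p q, 0) + v) (shP v p) (shP v q) := by
      obtain ⟨g1, g2⟩ := g0 p q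
      refine ⟨?_, ?_⟩
      · simpa [shP] using g1
      · simpa [shP] using g2
    rw [key _ _ _ W hs ((adm2_shP v).2 h) g]
    have A := adm4_of_good φ (hs.tr v) h (g0 p q)
    have e := T.DL_shP v A
    simp only [s, sg]
    rw [tr_tr, ← e]
    rfl
  · obtain ⟨c, hc⟩ := id hs
    obtain ⟨d, hd⟩ := id hsZ
    obtain ⟨w, hw⟩ := exists_avoid ha [i.1.1, j.1.1, i'.1.1, j'.1.1, c - d + p.1.1, c - d + q.1.1]
      (by simp)
    obtain ⟨v, hv⟩ := exists_avoid ha [p.1.1, q.1.1, d - c + w] (by simp)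
    have gv : Good a (v, 0) p q := ⟨hv _ (by simp), hv _ (by simp)⟩
    have gw : Good a (w, 0) i j := ⟨hw _ (by simp), hw _ (by simp)⟩
    have gw' : Good a (w, 0) i' j' := ⟨hw _ (by simp), hw _ (by simp)⟩
    have A := adm4_of_good φ hs h gv
    have B := adm4_of_good φ hsZ hZ gw
    have B' := adm4_of_good φ hsZ hZ' gw'
    rw [key _ _ _ _ hs h gv, key _ _ _ _ hsZ hZ gw, key _ _ _ _ hsZ hZ' gw']
    have fixw : ∀ x ∈ Z, ∀ t : Track, swW p q W (pt x ((w, 0), t)) = pt x ((w, 0), t) := by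
      intro x hx t
      refine gs_fix h fun y hy => ⟨fun e => ?_, fun e => ?_⟩
      · have := gs_sep φ e.symm
        rw [hc y hy, hd x hx] at this
        refine hw (c - d + p.1.1) (by simp) ?_
        convert this using 1
        ring
      · have := gs_sep φ e.symm
        rw [hc y hy, hd x hx] at this
        refine hw (c - d + q.1.1) (by simp) ?_
        convert this using 1
        ring
    have e1 := E.sg_conj A h (T.DL i j ((w, 0), 0) ((w, 0), 1) Z)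
    rw [T.al_DL _ B B' fun x hx => ⟨(e x hx).1, (e x hx).2, fixw x hx 0, fixw x hx 1⟩] at e1
    have c1 := E.mu_comm_of_fix (v := (w, 0)) hZ.2.1 A (by
      intro x hx t ht y hy l _ e
      have := gs_sep φ e
      rw [hc x hx, hd y hy] at this
      rcases ht with rfl | rfl | rfl | rfl
      · refine hw (c - d + t.1.1) (by simp) ?_
        convert this using 1
        ring
      · refine hw (c - d + t.1.1) (by simp) ?_
        convert this using 1
        ring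
      · refine hv (d - c + w) (by simp) ?_
        rw [← dvd_neg]
        exact (gs_dvd_congr (by simp only []; ring)).1 this
      · refine hv (d - c + w) (by simp) ?_
        rw [← dvd_neg]
        exact (gs_dvd_congr (by simp only []; ring)).1 this)
    have c2 : Commute (E.μ (tr (w, 0) Z)) (E.sg (v, 0) p q W) :=
      c1.mul_right (E.comm _ _ (hZ.2.1.tr _) (h.2.1.tr _))
    rw [sg.eq_1 E (w, 0) i j, sg.eq_1 E (w, 0) i' j', ← e1, ← mul_assoc,
      mul_assoc _ (E.μ (tr (w, 0) Z)), c2.inv_right.eq, ← mul_assoc]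
  · obtain ⟨v, hv⟩ := exists_avoid ha [p.1.1, q.1.1, r.1.1] (by simp)
    have h1 : Adm2 p r W := ⟨h.1.2.1, h.2.1, h.2.2.mono (by
      rintro t (rfl | rfl) <;> simp) subset_rfl⟩
    have h2 : Adm2 p q W := ⟨h.1.1, h.2.1, h.2.2.mono (by
      rintro t (rfl | rfl) <;> simp) subset_rfl⟩
    have g1 : Good a (v, 0) p r := ⟨hv _ (by simp), hv _ (by simp)⟩
    have g2 : Good a (v, 0) p q := ⟨hv _ (by simp), hv _ (by simp)⟩
    have A1 := adm4_of_good φ hs h1 g1
    have A2 := adm4_of_good φ hs h2 g2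
    obtain ⟨c, hc⟩ := id hs
    have A := Adm.union_of_phase φ hc h.2.2 (adm2_ab (v, 0) h.2.1).2.2 (by
      rintro s (rfl | rfl | rfl) t (rfl | rfl)
      exacts [g1.1, g1.1, g2.2, g2.2, g1.2, g1.2])
    have D : D5 p q r ((v, 0), 0) ((v, 0), 1) :=
      ⟨⟨h.1, A1.1.1.2.1, A2.1.1.2.2, A1.1.1.2.2⟩, A1.1.2.1, A2.1.2.2.1, A1.1.2.2.1, A1.1.2.2.2⟩
    show _ = s p r W * s p q W
    rw [key _ _ _ _ hs h1 g1, key _ _ _ _ hs h2 g2, T.hat_eq_DL D h.2.1 (A.mono (by
      rintro s (rfl | rfl | rfl | rfl | rfl) <;> simp) subset_rfl), map_mul, sg, sg,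
      mul_assoc, ← mul_assoc (E.μ _), (E.mu_comm_self A2).eq, mul_assoc, E.sq _ (h.2.1.tr _),
      mul_one]

theorem exists_gateSys (hp : HasPhases S) :
    ∃ G : GateSys S Γ, G.pr = E.pr ∧ ∀ h, E.ι h ∈ G.all := by 
  obtain ⟨⟨a, ha, -, ⟨φ⟩⟩, -⟩ := hp 16
  obtain ⟨P, hP1, hP2⟩ := E.exists_preGate ha φ
  obtain ⟨G, hG1, hG2⟩ := P.extend hp.free
  refine ⟨G, hG1.trans hP1, fun h => ?_⟩
  have hh : h ∈ Subgroup.closure {h | ∃ p q r W, Adm3 p q r W ∧ h = T.hat (cycW p q r W)} := by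
    rw [T.gen_cycW hp]; trivial
  have : Subgroup.closure {h | ∃ p q r W, Adm3 p q r W ∧ h = T.hat (cycW p q r W)} ≤
      G.all.comap E.ι := by
    refine (Subgroup.closure_le _).2 ?_
    rintro _ ⟨p, q, r, W, hA, rfl⟩
    show E.ι (T.hat (cycW p q r W)) ∈ G.all
    refine Loc.refine φ.loc hA.2.1 (p := fun Z => E.ι (T.hat (cycW p q r Z)) ∈ G.all) ?_ ?_
    · intro Z Z' hZ hZ' s1 s2 hd h1 h2
      rw [T.hat_union (hA.mono (hZ.union hZ') (Set.union_subset s1 s2)) hZ hZ' hd, map_mul]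
      exact mul_mem h1 h2
    · intro Z hZ s1 hc
      have hs : Sm φ Z := by
        rcases Z.eq_empty_or_nonempty with rfl | ⟨x, hx⟩
        · exact ⟨0, fun _ h => h.elim⟩
        · exact ⟨φ.r x, fun y hy => hc y hy x hx⟩
      have h := hA.mono hZ s1
      have h1 : Adm2 p r Z := ⟨h.1.2.1, h.2.1, h.2.2.mono (by
        rintro t (rfl | rfl) <;> simp) subset_rfl⟩
      have h2 : Adm2 p q Z := ⟨h.1.1, h.2.1, h.2.2.mono (by
        rintro t (rfl | rfl) <;> simp) subset_rfl⟩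
      rw [hP2 p q r Z hs h, ← hG2 p r Z hs h1, ← hG2 p q Z hs h2]
      exact mul_mem (G.s_mem h1 fun _ _ => trivial) (G.s_mem h2 fun _ _ => trivial)
  exact this hh

end SymExt

/-- The kernel of `pr` is normally generated by `BB ∩ ker` and one lift of `om0`. -/
theorem AutSys.ker_fng {H : Type} [Group H] (T : AutSys S H) (hp : HasPhases S) (hm : Minimal S)
    (h1 : H1 S) : T.pr.ker.IsFinitelyNormallyGenerated := by 
  obtain ⟨Γ, _, ⟨E⟩⟩ := exists_symExt T
  obtain ⟨G, hG1, hG2⟩ := E.exists_gateSys hp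
  obtain ⟨h0, hh0⟩ : G.om0 ∈ E.ι.range := E.comm_mem _ _
  have p0 : T.pr h0 = 1 := by rw [← E.pr_ι, hh0, ← hG1, G.pr_om0]
  refine ⟨insert h0 {h | h ∈ T.BB ∧ T.pr h = 1}, (T.BB_ker_finite hp h1).insert _,
    le_antisymm (Subgroup.normalClosure_le_normal ?_) fun h hh => ?_⟩
  · rintro h (rfl | hh)
    · exact p0
    · exact hh.2
  · have hh' : T.pr h = 1 := hh
    obtain ⟨k, hk⟩ := Subgroup.mem_zpowers_iff.1
      (G.ker_le hp hm (hG2 h) (by rw [hG1, E.pr_ι, hh']))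
    have hb : h * (h0 ^ k)⁻¹ ∈ T.BB := E.ker _ (by
      rw [map_mul, map_inv, map_zpow, hh0, hk, mul_inv_cancel])
    have e : h = h * (h0 ^ k)⁻¹ * h0 ^ k := by group
    rw [e]
    refine mul_mem (Subgroup.subset_normalClosure (Or.inr ⟨hb, ?_⟩))
      (zpow_mem (Subgroup.subset_normalClosure (Set.mem_insert _ _)) k)
    rw [map_mul, map_inv, map_zpow, p0, hh']
    simp

theorem HatSys.ker_fng {H : Type} [Group H] (T : HatSys S H) (hp : HasPhases S) (hm : Minimal S)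
    (h1 : H1 S) : T.pr.ker.IsFinitelyNormallyGenerated := by 
  obtain ⟨H', _, T', hT⟩ := exists_flat S
  obtain ⟨Ψ, hΨ, e⟩ := hT H T
  have := (T'.ker_fng hp hm h1).map hΨ
  convert this using 1
  ext h
  constructor
  · intro hh
    obtain ⟨g, rfl⟩ := hΨ h
    exact ⟨g, by rw [SetLike.mem_coe, MonoidHom.mem_ker, ← e]; exact hh, rfl⟩
  · rintro ⟨g, hg, rfl⟩
    rw [MonoidHom.mem_ker, e]
    exact hg

theorem HatSys.fp {H : Type} [Group H] [Group.IsFinitelyPresented H] (T : HatSys S H)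
    (hp : HasPhases S) (hm : Minimal S) (h1 : H1 S) : Group.IsFinitelyPresented (GG S) := by 
  rw [← T.range_pr]
  refine Group.IsFinitelyPresented.of_surjective T.pr.rangeRestrict
    T.pr.rangeRestrict_surjective ?_
  rw [MonoidHom.ker_rangeRestrict]
  exact T.ker_fng hp hm h1

end Crest.Agent.R189
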