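import Crest.Agent.R189.Lift
import Crest.Agent.R189.GammaS

/-!
Row 189.  Finite presentation of `GG`.
-/

set_option autoImplicit false

namespace Crest.Agent.R189

variable {S : Wang}

theorem GG_fp (hp : HasPhases S) (hm : Minimal S) (hr : Rigid S) (h0 : H0 S) (h1 : H1 S) :
    Group.IsFinitelyPresented (GG S) := by
  obtain ⟨Γ, _, hfp, ⟨T⟩⟩ := exists_pdata S
  obtain ⟨T0⟩ := T.exists_rdata0 hr
  obtain ⟨Γ', _, hfp', ⟨T1⟩⟩ := T0.quot h0
  obtain ⟨E⟩ := T1.exists_esys hp.free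
  obtain ⟨H⟩ := E.exists_hatSys hp
  exact H.fp hp hm h1

end Crest.Agent.R189
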