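import Crest.Agent.R189.Strip

/-!
Row 189.  Vertical flux of a local permutation through a vertical strip; lifting lemma.
-/

set_option autoImplicit false

namespace Crest.Agent.R189

open Equiv

variable {S : Wang}

/-- the columns `[c, c + n)` -/
def Cols (c n : ℤ) : Set Pt := {p | c ≤ p.1.1 ∧ p.1.1 < c + n}

/-- indicator of the upper half plane -/
def upI (p : Pt) : ℤ := if 0 ≤ p.1.2 then 1 else 0

/-- upward flux through level `0` inside the columns `[c, c + n)` -/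
noncomputable def flux (π : Perm Pt) (c n : ℤ) : ℤ := ∑ᶠ p ∈ Cols c n, (upI (π p) - upI p)

/-- bounded vertical displacement, columns preserved -/
def FluxOK (π : Perm Pt) (c n : ℤ) : Prop :=
  (∃ k : ℕ, ∀ p, |(π p).1.2 - p.1.2| ≤ k) ∧ ∀ p, π p ∈ Cols c n ↔ p ∈ Cols c n

lemma flx_apply_inv (π : Perm Pt) (p : Pt) : π (π⁻¹ p) = p := by simp
lemma flx_inv_apply (π : Perm Pt) (p : Pt) : π⁻¹ (π p) = p := by simp

/-- the finite box carrying the flux -/
noncomputable def flxBox (c n k : ℤ) : Finset Pt :=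
  (Finset.Ico c (c + n) ×ˢ Finset.Ico (-k) k) ×ˢ Finset.univ

lemma mem_flxBox {c n k : ℤ} {p : Pt} :
    p ∈ flxBox c n k ↔ p ∈ Cols c n ∧ -k ≤ p.1.2 ∧ p.1.2 < k := by
  simp [flxBox, Cols]

lemma flx_supp {π : Perm Pt} {k : ℤ} (h : ∀ p, |(π p).1.2 - p.1.2| ≤ k) (c n : ℤ) :
    Cols c n ∩ Function.support (fun p => upI (π p) - upI p) ⊆ flxBox c n k := by
  rintro p ⟨h1, h2⟩
  rw [Finset.mem_coe, mem_flxBox]
  refine ⟨h1, ?_⟩
  have h3 := abs_le.1 (h p)
  simp only [Function.mem_support, upI] at h2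
  split_ifs at h2 with a b b
  · simp at h2
  · constructor <;> omega
  · constructor <;> omega
  · simp at h2

lemma flx_fin {π : Perm Pt} (h : ∃ k : ℕ, ∀ p, |(π p).1.2 - p.1.2| ≤ k) (c n : ℤ) :
    (Cols c n ∩ Function.support (fun p => upI (π p) - upI p)).Finite := by
  obtain ⟨k, hk⟩ := h
  exact (flxBox c n k).finite_toSet.subset (flx_supp hk c n)

lemma flx_eq_sum {π : Perm Pt} {k : ℤ} (h : ∀ p, |(π p).1.2 - p.1.2| ≤ k) (c n : ℤ) :
    flux π c n = ∑ p ∈ flxBox c n k, (upI (π p) - upI p) := by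
  refine finsum_mem_eq_sum_of_inter_support_eq _ ?_
  apply Set.Subset.antisymm
  · intro p hp
    exact ⟨flx_supp h c n hp, hp.2⟩
  · intro p hp
    exact ⟨(mem_flxBox.1 hp.1).1, hp.2⟩

lemma flx_inv_disp {π : Perm Pt} {k : ℤ} (h : ∀ p, |(π p).1.2 - p.1.2| ≤ k) (p : Pt) :
    |(π⁻¹ p).1.2 - p.1.2| ≤ k := by
  have := h (π⁻¹ p)
  rw [flx_apply_inv, abs_sub_comm] at this
  exact this

lemma FluxOK.mul {π π' : Perm Pt} {c n : ℤ} (h : FluxOK π c n) (h' : FluxOK π' c n) :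
    FluxOK (π * π') c n := by
  obtain ⟨⟨k, hk⟩, h1⟩ := h
  obtain ⟨⟨k', hk'⟩, h2⟩ := h'
  refine ⟨⟨k + k', fun p => ?_⟩, fun p => (h1 (π' p)).trans (h2 p)⟩
  have a := abs_le.1 (hk (π' p))
  have b := abs_le.1 (hk' p)
  rw [Perm.mul_apply, abs_le]
  push_cast
  constructor <;> linarith
lemma FluxOK.inv {π : Perm Pt} {c n : ℤ} (h : FluxOK π c n) : FluxOK π⁻¹ c n := by
  obtain ⟨⟨k, hk⟩, h1⟩ := h
  refine ⟨⟨k, flx_inv_disp hk⟩, fun p => ?_⟩
  rw [← h1, flx_apply_inv]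
lemma flux_one (c n : ℤ) : flux 1 c n = 0 := by simp [flux]
lemma flux_mul {π π' : Perm Pt} {c n : ℤ} (h : FluxOK π c n) (h' : FluxOK π' c n) :
    flux (π * π') c n = flux π c n + flux π' c n := by
  have hb : Set.BijOn π' (Cols c n) (Cols c n) := by
    refine ⟨fun p hp => (h'.2 p).2 hp, π'.injective.injOn, fun q hq => ⟨π'⁻¹ q, ?_, by simp⟩⟩
    rw [← h'.2, flx_apply_inv]; exact hq
  have e1 : flux π c n = ∑ᶠ p ∈ Cols c n, (upI (π (π' p)) - upI (π' p)) :=
    (finsum_mem_eq_of_bijOn π' hb fun _ _ => rfl).symm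
  have f1 : (Cols c n ∩ Function.support (fun p => upI (π (π' p)) - upI (π' p))).Finite := by
    refine ((flx_fin h.1 c n).preimage (f := π') π'.injective.injOn).subset ?_
    rintro p ⟨h1, h2⟩
    exact ⟨(h'.2 p).2 h1, h2⟩
  rw [e1, flux, flux, ← finsum_mem_add_distrib' f1 (flx_fin h'.1 c n)]
  refine finsum_mem_congr rfl fun p _ => ?_
  rw [Perm.mul_apply]; ring
lemma flux_inv {π : Perm Pt} {c n : ℤ} (h : FluxOK π c n) : flux π⁻¹ c n = -flux π c n := by
  have := flux_mul h.inv h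
  rw [inv_mul_cancel, flux_one] at this
  linarith
lemma flux_congr {π π' : Perm Pt} {c n : ℤ} (h : ∀ p ∈ Cols c n, π p = π' p) :
    flux π c n = flux π' c n := finsum_mem_congr rfl fun p hp => by rw [h p hp]
lemma flux_split {π : Perm Pt} {c n m : ℤ} (hn : 0 ≤ n) (hm : 0 ≤ m)
    (h : ∃ k : ℕ, ∀ p, |(π p).1.2 - p.1.2| ≤ k) :
    flux π c (n + m) = flux π c n + flux π (c + n) m := by
  have e : Cols c (n + m) = Cols c n ∪ Cols (c + n) m := by
    ext p
    simp only [Cols, Set.mem_ofPred_eq, Set.mem_union]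
    omega
  have hd : Disjoint (Cols c n) (Cols (c + n) m) := by
    rw [Set.disjoint_left]
    intro p h1 h2
    simp only [Cols, Set.mem_ofPred_eq] at h1 h2
    omega
  rw [flux, e, finsum_mem_union' hd (flx_fin h _ _) (flx_fin h _ _)]
  rfl
lemma flux_eq_zero_of_fix {π : Perm Pt} {c n : ℤ} (h : ∀ p ∈ Cols c n, π p = p) :
    flux π c n = 0 := by
  rw [← flux_one c n]
  exact flux_congr h

/-- the flux of `g` seen from `x` -/
noncomputable def fl (g : Perm (Om S)) (x : Cfg S) (c n : ℤ) : ℤ := flux (actP g x) c n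

lemma fl_locF (hf : Free S) {g : Perm (Om S)} (hg : g ∈ LocP S) (c n : ℤ) :
    LocF (fun x => fl g x c n) := by
  obtain ⟨ρ, hρ⟩ := hg
  obtain ⟨r, hr⟩ : LocF (fun (x : Cfg S) (p : flxBox c n ρ) => actP g x p) :=
    LocF.pi fun p => actP_locF hf ⟨ρ, hρ⟩ p
  refine ⟨r, fun x y hxy => ?_⟩
  simp only [fl]
  rw [flx_eq_sum (fun p => (actP_disp hf hρ x p).2), flx_eq_sum (fun p => (actP_disp hf hρ y p).2)]
  refine Finset.sum_congr rfl fun p hp => ?_
  rw [show actP g x p = actP g y p from congrFun (hr x y hxy) ⟨p, hp⟩]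

/-- translation of relative positions -/
def flxSh (v : V) : Perm Pt where
  toFun := shP v
  invFun := shP (-v)
  left_inv p := by simp [shP]
  right_inv p := by simp [shP]

lemma flxSh_apply (v : V) (p : Pt) : flxSh v p = shP v p := rfl

lemma flx_actP_vadd (hf : Free S) {g : Perm (Om S)} (hg : g ∈ LocP S) (v : V) (x : Cfg S) :
    actP g (v +ᵥ x) = (flxSh v)⁻¹ * actP g x * flxSh v := by
  ext1 p
  rw [Perm.mul_apply, Perm.mul_apply, Perm.eq_inv_iff_eq, flxSh_apply, flxSh_apply,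
    actP_vadd hf hg]

/-- horizontal translation -/
lemma fl_vadd_fst (hf : Free S) {g : Perm (Om S)} (hg : g ∈ LocP S) (k : ℤ) (x : Cfg S)
    (c n : ℤ) : fl g (((k, 0) : V) +ᵥ x) c n = fl g x (c + k) n := by
  have hb : Set.BijOn (flxSh (k, 0)) (Cols c n) (Cols (c + k) n) := by
    refine ⟨fun p hp => ?_, (flxSh _).injective.injOn, fun q hq => ⟨shP (-k, 0) q, ?_, ?_⟩⟩
    · simp only [Cols, Set.mem_ofPred_eq, flxSh_apply, shP, Prod.fst_add] at hp ⊢
      omega
    · simp only [Cols, Set.mem_ofPred_eq, shP, Prod.fst_add] at hq ⊢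
      omega
    · simp [flxSh_apply, shP, add_assoc, Prod.mk_zero_zero]
  refine finsum_mem_eq_of_bijOn _ hb fun p _ => ?_
  rw [flxSh_apply, actP_vadd hf hg]
  simp [upI, shP]
/-- the flux does not depend on the level (a row of the strip is finite) -/
lemma fl_vadd_snd (hf : Free S) {g : Perm (Om S)} (hg : g ∈ LocP S) (k : ℤ) (x : Cfg S)
    {c n : ℤ} (h : FluxOK (actP g x) c n) : fl g (((0, k) : V) +ᵥ x) c n = fl g x c n := by
  have hT : FluxOK (flxSh (0, k)) c n := by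
    refine ⟨⟨k.natAbs, fun p => ?_⟩, fun p => ?_⟩
    · simp [flxSh_apply, shP]
    · simp [flxSh_apply, shP, Cols]
  rw [fl, flx_actP_vadd hf hg, flux_mul (hT.inv.mul h) hT, flux_mul hT.inv h, flux_inv hT, fl]
  ring
lemma fluxOK_of_along (hf : Free S) {a : ℕ} (φ : Phase S χ1 a) {c n : ℤ} (hn : n ≤ a)
    {g : Perm (Om S)} (hg : g ∈ LocP S) (ha : Along (ArcR φ c n) g) {x : Cfg S}
    (hx : φ.pos c x = 0) : FluxOK (actP g x) 0 n := by
  obtain ⟨ρ, hρ⟩ := hg
  refine ⟨⟨ρ, fun p => (actP_disp hf hρ x p).2⟩, fun p => ?_⟩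
  rcases ha (pt x p) with e | e
  · rw [actP_eq hf ⟨ρ, hρ⟩ e]
  · rw [actP_spec hf ⟨ρ, hρ⟩] at e
    simp only [Cols, Set.mem_ofPred_eq, zero_add]
    constructor
    · intro h
      exact (arcR_pt_iff hf φ hn hx h.1 h.2).1 ((ArcR.per φ c n).symm _ _ e)
    · intro h
      exact (arcR_pt_iff hf φ hn hx h.1 h.2).1 e

lemma flx_exists_exch (A B : Finset Pt) : ∃ σ : Perm Pt, Disjoint A B → A.card = B.card →
    (∀ q ∈ A, σ q ∈ B) ∧ (∀ q ∈ B, σ q ∈ A) ∧ ∀ q, q ∉ A → q ∉ B → σ q = q := by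
  classical
  by_cases h : Disjoint A B ∧ A.card = B.card
  · obtain ⟨hd, hc⟩ := h
    let e : A ≃ B := Finset.equivOfCardEq hc
    let f : Pt → Pt := fun q =>
      if h : q ∈ A then (e ⟨q, h⟩ : Pt) else if h : q ∈ B then (e.symm ⟨q, h⟩ : Pt) else q
    have hA : ∀ q (h : q ∈ A), f q = e ⟨q, h⟩ := fun q h => dif_pos h
    have hB : ∀ q (h : q ∈ B), f q = e.symm ⟨q, h⟩ := fun q h => by
      have : q ∉ A := fun h' => Finset.disjoint_left.1 hd h' h
      simp only [f, dif_neg this, dif_pos h]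
    have hN : ∀ q, q ∉ A → q ∉ B → f q = q := fun q h h' => by
      simp only [f, dif_neg h, dif_neg h']
    have hi : Function.Involutive f := by
      intro q
      by_cases h : q ∈ A
      · rw [hA q h, hB _ (e ⟨q, h⟩).2]; simp
      · by_cases h' : q ∈ B
        · rw [hB q h', hA _ (e.symm ⟨q, h'⟩).2]; simp
        · rw [hN q h h', hN q h h']
    refine ⟨hi.toPerm, fun _ _ => ⟨fun q h => ?_, fun q h => ?_, hN⟩⟩
    · change f q ∈ B
      rw [hA q h]; exact (e ⟨q, h⟩).2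
    · change f q ∈ A
      rw [hB q h]; exact (e.symm ⟨q, h⟩).2
  · exact ⟨1, fun h1 h2 => (h ⟨h1, h2⟩).elim⟩

/-- points moved up through level `0` -/
noncomputable def flxA (n k : ℤ) (π : Perm Pt) : Finset Pt :=
  (flxBox 0 n k).filter fun q => 0 ≤ q.1.2 ∧ (π⁻¹ q).1.2 < 0

/-- points moved down through level `0` -/
noncomputable def flxB (n k : ℤ) (π : Perm Pt) : Finset Pt :=
  (flxBox 0 n k).filter fun q => q.1.2 < 0 ∧ 0 ≤ (π⁻¹ q).1.2

lemma flxAB_disjoint (n k : ℤ) (π : Perm Pt) : Disjoint (flxA n k π) (flxB n k π) := by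
  rw [Finset.disjoint_left]
  intro q h1 h2
  simp only [flxA, flxB, Finset.mem_filter] at h1 h2
  omega

lemma flxAB_card {n k : ℤ} {π : Perm Pt} (h : FluxOK π 0 n) (hk : ∀ p, |(π p).1.2 - p.1.2| ≤ k)
    (h0 : flux π 0 n = 0) : (flxA n k π).card = (flxB n k π).card := by
  have h1 := flux_inv h
  rw [h0, neg_zero, flx_eq_sum (flx_inv_disp hk)] at h1
  have h2 : ((flxB n k π).card : ℤ) - (flxA n k π).card = 0 := by
    rw [← h1, flxA, flxB, Finset.card_filter, Finset.card_filter]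
    push_cast
    rw [← Finset.sum_sub_distrib]
    refine Finset.sum_congr rfl fun q _ => ?_
    simp only [upI]
    split_ifs <;> omega
  omega

namespace GateSys

variable {Γ : Type} [Group Γ] (G : GateSys S Γ)

/-- words inside a strip have no flux (gates are involutions: `2 * flux = 0`) -/
lemma fl_sub (hf : Free S) {a : ℕ} (φ : Phase S χ1 a) {c n : ℤ} (hn : n ≤ a) {γ : Γ}
    (hγ : γ ∈ G.sub (ArcR φ c n)) {x : Cfg S} (hx : φ.pos c x = 0) :
    fl (G.pr γ) x 0 n = 0 := by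
  have hL : ∀ δ ∈ G.sub (ArcR φ c n), G.pr δ ∈ LocP S := fun δ hδ =>
    G.pr_mem_locP (G.sub_le_all _ hδ)
  have hok : ∀ δ ∈ G.sub (ArcR φ c n), FluxOK (actP (G.pr δ) x) 0 n := fun δ hδ =>
    fluxOK_of_along hf φ hn (hL δ hδ) (G.along (ArcR.per φ c n) hδ) hx
  have hmul : ∀ δ ∈ G.sub (ArcR φ c n), ∀ δ' ∈ G.sub (ArcR φ c n),
      fl (G.pr (δ * δ')) x 0 n = fl (G.pr δ) x 0 n + fl (G.pr δ') x 0 n := fun δ h δ' h' => by
    rw [fl, map_mul, actP_mul hf (hL δ h) (hL δ' h'), flux_mul (hok δ h) (hok δ' h')]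
    rfl
  have hone : fl (G.pr 1) x 0 n = 0 := by rw [fl, map_one, actP_one hf, flux_one]
  induction hγ using Subgroup.closure_induction with
  | mem δ hδ =>
    have hm : δ ∈ G.sub (ArcR φ c n) := Subgroup.subset_closure hδ
    obtain ⟨p, q, W, hA, -, rfl⟩ := hδ
    have := hmul _ hm _ hm
    rw [G.sq _ _ _ hA, hone] at this
    linarith
  | one => exact hone
  | mul δ δ' h h' e e' => rw [hmul δ h δ' h', e, e', add_zero]
  | inv δ h e =>
    have := hmul _ h _ (Subgroup.inv_mem _ h)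
    rw [mul_inv_cancel, hone, e] at this
    linarith

/-- Lifting lemma.  Plan: let `ρ` be a radius of `g`, take a vertical phase `φ2` with modulus
`b > 2 ρ`.  Over `W = {pos c = 0, φ2.r = 0}` the sets `A x = π (Cols ∩ {y < 0}) ∩ {y ≥ 0}` and
`B x = π (Cols ∩ {y ≥ 0}) ∩ {y < 0}` (`π = actP g x`) are finite, of equal size (flux `0`), inside
`F = Cols 0 n ∩ {-ρ ≤ y < ρ}`; choose (as a function of the pair of finsets) an involution `σ x`
exchanging them and fixing the rest; `σ = blk F W σ` lifts by `patch_lift` (strips `[-ρ, ρ)`) and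
`σ * g` preserves all levels `≡ 0 mod b` (`fl_vadd_snd`), so it lifts by `patch_lift` (strips `[0, b)`). -/
theorem strip_lift (hp : HasPhases S) {a : ℕ} (φ : Phase S χ1 a) {c n : ℤ} (hn : n ≤ a)
    {g : Perm (Om S)} (hg : g ∈ LocP S) (ha : Along (ArcR φ c n) g)
    (h0 : ∀ x, φ.pos c x = 0 → fl g x 0 n = 0) : ∃ γ ∈ G.sub (ArcR φ c n), G.pr γ = g := by
  classical
  have hf := hp.free
  obtain ⟨ρ, hρ⟩ := id hg
  obtain ⟨-, b, hb, -, ⟨φ2⟩⟩ := hp (2 * ρ + 1)
  have hb' : 2 * (ρ : ℤ) + 1 ≤ b := by exact_mod_cast hb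
  choose σ₀ hσ₀ using flx_exists_exch
  let W : Set (Cfg S) := stpBase φ φ2 c 0
  let F : Finset Pt := flxBox 0 n ρ
  let σ : Cfg S → Perm Pt := fun x => σ₀ (flxA n ρ (actP g x)) (flxB n ρ (actP g x))
  have hW : Loc W := stpBase_loc φ φ2 c 0
  have hdisp : ∀ x p, |(actP g x p).1.2 - p.1.2| ≤ (ρ : ℤ) := fun x p => (actP_disp hf hρ x p).2
  have hok : ∀ x ∈ W, FluxOK (actP g x) 0 n := fun x hx => fluxOK_of_along hf φ hn hg ha hx.1
  have hσ : ∀ x ∈ W, (∀ q ∈ flxA n ρ (actP g x), σ x q ∈ flxB n ρ (actP g x)) ∧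
      (∀ q ∈ flxB n ρ (actP g x), σ x q ∈ flxA n ρ (actP g x)) ∧
      ∀ q, q ∉ flxA n ρ (actP g x) → q ∉ flxB n ρ (actP g x) → σ x q = q := fun x hx =>
    hσ₀ _ _ (flxAB_disjoint _ _ _) (flxAB_card (hok x hx) (hdisp x) (h0 x hx.1))
  have hσF : ∀ x ∈ W, ∀ p, σ x p ∈ (F : Set Pt) ↔ p ∈ (F : Set Pt) := fun x hx =>
    strip_mem_of_fix fun p hp => (hσ x hx).2.2 p (fun h => hp (Finset.mem_filter.1 h).1)
      (fun h => hp (Finset.mem_filter.1 h).1)
  have hpos2 : ∀ x ∈ W, ∀ v : V, φ2.pos 0 (v +ᵥ x) = v.2 % b := fun x hx v => by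
    rw [φ2.pos_vadd, hx.2, zero_add, χ2_apply]
  have hadm : Adm (F : Set Pt) W := by
    refine adm_of_phases hf φ φ2 (c := c % a) (d := 0) (fun x hx => ⟨?_, ?_⟩) ?_
    · have h1 : (φ.r x - c) % a = 0 := hx.1
      rw [← Int.emod_eq_emod_iff_emod_sub_eq_zero, Int.emod_eq_of_lt (φ.nonneg x) (φ.lt x)] at h1
      exact h1
    · rw [← φ2.pos_zero]; exact hx.2
    · intro p hp q hq e h1 h2
      rw [Finset.mem_coe, mem_flxBox] at hp hq
      simp only [Cols, Set.mem_ofPred_eq] at hp hq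
      have e1 := Int.eq_zero_of_abs_lt_dvd h1 (by rw [abs_lt]; constructor <;> omega)
      have e2 := Int.eq_zero_of_abs_lt_dvd h2 (by rw [abs_lt]; constructor <;> omega)
      exact Prod.ext (Prod.ext (by omega) (by omega)) e
  have hblk := isBlk_blk hadm hσF
  set k : Perm (Om S) := blk F W σ with hk
  have hkL : k ∈ LocP S := by
    refine hblk.mem_locP F.finite_toSet hW fun p _ => ?_
    obtain ⟨r, hr⟩ : LocF (fun (x : Cfg S) (q : F) => actP g⁻¹ x q) :=
      LocF.pi fun q => actP_locF hf (Subgroup.inv_mem _ hg) q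
    refine ⟨r, fun x y hxy => ?_⟩
    have e : ∀ q ∈ F, (actP g x)⁻¹ q = (actP g y)⁻¹ q := fun q hq => by
      rw [← actP_inv hf hg, ← actP_inv hf hg]
      exact congrFun (hr x y hxy) ⟨q, hq⟩
    have eA : flxA n ρ (actP g x) = flxA n ρ (actP g y) :=
      Finset.filter_congr fun q hq => by rw [e q hq]
    have eB : flxB n ρ (actP g x) = flxB n ρ (actP g y) :=
      Finset.filter_congr fun q hq => by rw [e q hq]
    simp only [σ, eA, eB]
  have hka : Along (fun ω ω' => ArcR φ c n ω ω' ∧ ArcR φ2 (-ρ) (2 * ρ) ω ω') k := by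
    intro ω
    by_cases hω : ω ∈ img (F : Set Pt) W
    · obtain ⟨x, hx, p, hp, rfl⟩ := hω
      have hq := (hσF x hx p).2 hp
      rw [hblk.1 x hx p hp]
      generalize σ x p = q at hq
      rw [Finset.mem_coe, mem_flxBox] at hp hq
      simp only [Cols, Set.mem_ofPred_eq, zero_add] at hp hq
      refine Or.inr ⟨(arcR_pt_iff hf φ hn hx.1 hp.1.1 hp.1.2).2 hq.1, ?_⟩
      have hx' : φ2.pos (-ρ) (((0, -ρ) : V) +ᵥ x) = 0 := by
        have h1 : φ2.r x = 0 := by rw [← φ2.pos_zero]; exact hx.2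
        simp only [Phase.pos, φ2.r_vadd, h1, χ2_apply, zero_add, sub_neg_eq_add]
        rw [Int.emod_add_emod]; simp
      have e : ∀ r, pt x r = pt (((0, -ρ) : V) +ᵥ x) (shP (0, ρ) r) := fun r => by
        rw [← pt_vadd, ← add_vadd]; simp [Prod.mk_zero_zero]
      rw [e p, e q]
      refine (arcR_pt_iff hf φ2 (by omega) hx' ?_ ?_).2 ⟨?_, ?_⟩ <;>
        simp only [χ2_apply, shP, Prod.snd_add] <;> omega
    · exact Or.inl (hblk.2 ω hω)
  have hstar : ∀ z ∈ W, ∀ p, actP g z p ∈ F → k (g (pt z p)) = pt z (σ z (actP g z p)) ∧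
      σ z (actP g z p) ∈ F ∧ (0 ≤ (σ z (actP g z p)).1.2 ↔ 0 ≤ p.1.2) := by
    intro z hz p hq
    refine ⟨by rw [actP_spec hf hg, hblk.1 z hz _ hq], (hσF z hz _).2 hq, ?_⟩
    by_cases hA : actP g z p ∈ flxA n ρ (actP g z)
    · have h1 := (hσ z hz).1 _ hA
      simp only [flxA, flxB, Finset.mem_filter, flx_inv_apply] at hA h1
      omega
    · by_cases hB : actP g z p ∈ flxB n ρ (actP g z)
      · have h1 := (hσ z hz).2.1 _ hB
        simp only [flxA, flxB, Finset.mem_filter, flx_inv_apply] at hB h1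
        omega
      · rw [(hσ z hz).2.2 _ hA hB]
        simp only [flxA, flxB, Finset.mem_filter, flx_inv_apply, not_and] at hA hB
        have h1 := hA hq
        have h2 := hB hq
        omega
  have hkg : Along (fun ω ω' => ArcR φ c n ω ω' ∧ ArcR φ2 0 b ω ω') (k * g) := by
    intro ω
    rcases ((hka.mono fun _ _ e => e.1).mul (ArcR.per φ c n) ha) ω with e | e
    · exact Or.inl e
    refine Or.inr ⟨e, ?_⟩
    obtain ⟨x, hx, p, hp, rfl⟩ := stpBase_cover φ φ2 c 0 ω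
    have hp1 : p.1.1 < n := by
      have := e.1
      simp only [pt] at this
      rwa [(stpBase_pos hx hp).1] at this
    rw [Finset.mem_coe, mem_stpBox] at hp
    have hpC : p ∈ Cols 0 n := ⟨hp.1.1, by omega⟩
    have hqC : actP g x p ∈ Cols 0 n := ((hok x hx).2 p).2 hpC
    have hd := abs_le.1 (hdisp x p)
    have hfin : ∀ r : Pt, 0 ≤ r.1.2 → r.1.2 < b → ArcR φ2 0 b (pt x p) (pt x r) := fun r h1 h2 =>
      (arcR_pt_iff hf φ2 le_rfl hx.2 hp.2.1 hp.2.2).2 ⟨h1, h2⟩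
    rw [Perm.mul_apply]
    by_cases c1 : (actP g x p).1.2 < ρ
    · obtain ⟨s1, s2, s3⟩ := hstar x hx p (mem_flxBox.2 ⟨hqC, by omega, c1⟩)
      rw [s1]
      have := mem_flxBox.1 s2
      exact hfin _ (s3.2 hp.2.1) (by omega)
    · by_cases c2 : (b : ℤ) - ρ ≤ (actP g x p).1.2
      · let v : V := (0, b)
        have hx' : v +ᵥ x ∈ W := by
          constructor
          · rw [φ.pos_vadd, hx.1]; simp [v]
          · rw [hpos2 x hx]; simp [v]
        have e1 : shP v (shP (-v) p) = p := by simp [shP]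
        have e2 : shP v (actP g (v +ᵥ x) (shP (-v) p)) = actP g x p := by
          rw [← actP_vadd hf hg, e1]
        have e3 : (actP g (v +ᵥ x) (shP (-v) p)).1.1 = (actP g x p).1.1 := by
          rw [← e2]; simp [shP, v]
        have e4 : (actP g (v +ᵥ x) (shP (-v) p)).1.2 + b = (actP g x p).1.2 := by
          rw [← e2]; simp [shP, v]
        have hq' : actP g (v +ᵥ x) (shP (-v) p) ∈ F := by
          refine mem_flxBox.2 ⟨?_, by omega, by omega⟩
          simp only [Cols, Set.mem_ofPred_eq, e3] at hqC ⊢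
          exact hqC
        obtain ⟨s1, s2, s3⟩ := hstar _ hx' _ hq'
        rw [pt_vadd, e1, pt_vadd] at s1
        rw [s1]
        have h5 := mem_flxBox.1 s2
        have h6 : (shP (-v) p).1.2 = p.1.2 - b := by simp [shP, v, sub_eq_add_neg]
        rw [h6] at s3
        have h7 : ∀ r : Pt, (shP v r).1.2 = r.1.2 + b := fun r => rfl
        refine hfin _ ?_ ?_ <;> rw [h7] <;> omega
      · rw [actP_spec hf hg, hblk.2]
        · exact hfin _ (by omega) (by omega)
        · rintro ⟨z, hz, r, hr, e'⟩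
          have e1 : (actP g x p).1 +ᵥ x = r.1 +ᵥ z := congrArg Prod.fst e'
          have e2 := hpos2 x hx (actP g x p).1
          rw [e1, hpos2 z hz, Int.emod_eq_emod_iff_emod_sub_eq_zero] at e2
          have h5 := mem_flxBox.1 hr
          have := Int.eq_zero_of_abs_lt_dvd (Int.dvd_of_emod_eq_zero e2)
            (by rw [abs_lt]; constructor <;> omega)
          omega
  obtain ⟨γ₁, a1, a2⟩ := G.patch_lift hf φ φ2 ((ArcR.per _ _ _).and (ArcR.per _ _ _))
    (fun _ _ e => e) hkL hka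
  obtain ⟨γ₂, b1, b2⟩ := G.patch_lift hf φ φ2 ((ArcR.per _ _ _).and (ArcR.per _ _ _))
    (fun _ _ e => e) (Subgroup.mul_mem _ hkL hg) hkg
  refine ⟨γ₁⁻¹ * γ₂, Subgroup.mul_mem _ (Subgroup.inv_mem _ (G.sub_mono (fun _ _ e => e.1) a1))
    (G.sub_mono (fun _ _ e => e.1) b1), ?_⟩
  rw [map_mul, map_inv, a2, b2, inv_mul_cancel_left]

end GateSys

end Crest.Agent.R189
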