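import Crest.Agent.R189.GG

/-!
Row 189.  Gate systems: lifts of elementary transpositions.  Basic calculus.
-/

set_option autoImplicit false

namespace Crest.Agent.R189

open Equiv

variable {S : Wang}

/-- lifts of the elementary transpositions -/
structure GateSys (S : Wang) (Γ : Type) [Group Γ] where
  s : Pt → Pt → Set (Cfg S) → Γ
  pr : Γ →* Perm (Om S)
  pr_s : ∀ p q W, Adm2 p q W → pr (s p q W) = swW p q W
  symm : ∀ p q W, Adm2 p q W → s p q W = s q p W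
  sq : ∀ p q W, Adm2 p q W → s p q W * s p q W = 1
  union : ∀ p q W W', Adm2 p q (W ∪ W') → Loc W → Loc W' → Disjoint W W' →
    s p q (W ∪ W') = s p q W * s p q W'
  shift : ∀ v p q W, Adm2 p q (tr v W) → s (shP v p) (shP v q) W = s p q (tr v W)
  conj : ∀ p q W i j i' j' Z, Adm2 p q W → Adm2 i j Z → Adm2 i' j' Z →
    (∀ x ∈ Z, swW p q W (pt x i) = pt x i' ∧ swW p q W (pt x j) = pt x j') →
    s p q W * s i j Z * (s p q W)⁻¹ = s i' j' Z

/-- partial equivalence relations on `Om S` -/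
structure PER (R : Om S → Om S → Prop) : Prop where
  symm : ∀ ω ω', R ω ω' → R ω' ω
  trans : ∀ ω ω' ω'', R ω ω' → R ω' ω'' → R ω ω''

lemma PER.top : PER (fun _ _ : Om S => True) := ⟨fun _ _ _ => trivial, fun _ _ _ _ _ => trivial⟩
lemma PER.and {R R' : Om S → Om S → Prop} (h : PER R) (h' : PER R') :
    PER (fun ω ω' => R ω ω' ∧ R' ω ω') :=
  ⟨fun _ _ e => ⟨h.symm _ _ e.1, h'.symm _ _ e.2⟩,
    fun _ _ _ e e' => ⟨h.trans _ _ _ e.1 e'.1, h'.trans _ _ _ e.2 e'.2⟩⟩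

/-- `g` moves points inside classes of `R` -/
def Along (R : Om S → Om S → Prop) (g : Perm (Om S)) : Prop := ∀ ω, g ω = ω ∨ R ω (g ω)

lemma Along.one (R : Om S → Om S → Prop) : Along R 1 := fun _ => Or.inl rfl
lemma Along.mul {R : Om S → Om S → Prop} (hR : PER R) {g h : Perm (Om S)} (hg : Along R g)
    (hh : Along R h) : Along R (g * h) := by
  intro ω
  rw [Perm.mul_apply]
  rcases hh ω with e | e
  · rw [e]; exact hg ω
  · rcases hg (h ω) with e' | e'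
    · rw [e']; exact Or.inr e
    · exact Or.inr (hR.trans _ _ _ e e')
lemma Along.inv {R : Om S → Om S → Prop} (hR : PER R) {g : Perm (Om S)} (hg : Along R g) :
    Along R g⁻¹ := by
  intro ω
  have e0 : g (g⁻¹ ω) = ω := g.apply_symm_apply ω
  rcases hg (g⁻¹ ω) with e | e
  · left
    rw [e0] at e
    exact e.symm
  · rw [e0] at e
    exact Or.inr (hR.symm _ _ e)
lemma Along.mono {R R' : Om S → Om S → Prop} (h : ∀ ω ω', R ω ω' → R' ω ω') {g : Perm (Om S)}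
    (hg : Along R g) : Along R' g := fun ω => (hg ω).imp id (h _ _)
lemma Along.res {R : Om S → Om S → Prop} {g : Perm (Om S)} (hg : Along R g) (Y : Set (Om S)) :
    Along R (res g Y) := by
  intro ω
  by_cases hY : InvO g Y
  · by_cases hω : ω ∈ Y
    · rw [res_apply_mem hY hω]; exact hg ω
    · exact Or.inl (res_apply_not_mem g hω)
  · left
    unfold R189.res
    rw [dif_neg hY, Perm.one_apply]

/-- position relative to `c` -/
def Phase.pos {χ : V →+ ℤ} {a : ℕ} (φ : Phase S χ a) (c : ℤ) (x : Cfg S) : ℤ := (φ.r x - c) % a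

lemma Phase.pos_nonneg {χ : V →+ ℤ} {a : ℕ} (φ : Phase S χ a) (c : ℤ) (x : Cfg S) :
    0 ≤ φ.pos c x := by
  have h1 := φ.nonneg x
  have h2 := φ.lt x
  exact Int.emod_nonneg _ (by omega)
lemma Phase.pos_lt {χ : V →+ ℤ} {a : ℕ} (φ : Phase S χ a) (c : ℤ) (x : Cfg S) :
    φ.pos c x < a := by
  have h1 := φ.nonneg x
  have h2 := φ.lt x
  exact Int.emod_lt_of_pos _ (by omega)
lemma Phase.pos_vadd {χ : V →+ ℤ} {a : ℕ} (φ : Phase S χ a) (c : ℤ) (v : V) (x : Cfg S) :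
    φ.pos c (v +ᵥ x) = (φ.pos c x + χ v) % a := by
  unfold Phase.pos
  rw [φ.r_vadd, Int.emod_sub_emod, Int.emod_add_emod]
  congr 1
  ring
lemma Phase.pos_locF {χ : V →+ ℤ} {a : ℕ} (φ : Phase S χ a) (c : ℤ) : LocF (φ.pos c) :=
  φ.loc.comp (fun t => (t - c) % a)
lemma Phase.pos_zero {χ : V →+ ℤ} {a : ℕ} (φ : Phase S χ a) (x : Cfg S) : φ.pos 0 x = φ.r x := by
  unfold Phase.pos
  rw [sub_zero, Int.emod_eq_of_lt (φ.nonneg x) (φ.lt x)]

lemma gate_pos_change {χ : V →+ ℤ} {a : ℕ} (φ : Phase S χ a) (c c' : ℤ) (x : Cfg S) :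
    φ.pos c' x = (φ.pos c x + (c - c')) % a := by
  unfold Phase.pos
  rw [Int.emod_add_emod]
  congr 1
  ring

lemma gate_pos_change' {χ : V →+ ℤ} {a : ℕ} (φ : Phase S χ a) {c c' : ℤ} {x : Cfg S}
    (h0 : 0 ≤ φ.pos c x + (c - c')) (h1 : φ.pos c x + (c - c') < a) :
    φ.pos c' x = φ.pos c x + (c - c') := by
  rw [gate_pos_change φ c c' x, Int.emod_eq_of_lt h0 h1]

lemma gate_pos_vadd' {χ : V →+ ℤ} {a : ℕ} (φ : Phase S χ a) {c : ℤ} {v : V} {x : Cfg S}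
    (h0 : 0 ≤ φ.pos c x + χ v) (h1 : φ.pos c x + χ v < a) :
    φ.pos c (v +ᵥ x) = φ.pos c x + χ v := by
  rw [φ.pos_vadd, Int.emod_eq_of_lt h0 h1]

lemma gate_pos_add_mod {χ : V →+ ℤ} {a : ℕ} (φ : Phase S χ a) (c k : ℤ) :
    φ.pos (c + k * a) = φ.pos c := by
  funext x
  unfold Phase.pos
  rw [show φ.r x - (c + k * a) = φ.r x - c + (-k) * a by ring, Int.add_mul_emod_self_right]

/-- the union of the strips `[c, c + n)` modulo `a` -/
def Arc {χ : V →+ ℤ} {a : ℕ} (φ : Phase S χ a) (c n : ℤ) : Set (Om S) := {ω | φ.pos c ω.1 < n}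

/-- both points lie in the same strip `[c, c + n)` -/
def ArcR {χ : V →+ ℤ} {a : ℕ} (φ : Phase S χ a) (c n : ℤ) (ω ω' : Om S) : Prop :=
  φ.pos c ω.1 < n ∧ φ.pos c ω'.1 < n ∧
    ∃ v : V, ω'.1 = v +ᵥ ω.1 ∧ φ.pos c ω'.1 = φ.pos c ω.1 + χ v

lemma ArcR.per {χ : V →+ ℤ} {a : ℕ} (φ : Phase S χ a) (c n : ℤ) : PER (ArcR φ c n) := by
  constructor
  · rintro ω ω' ⟨h1, h2, v, hv, e⟩
    refine ⟨h2, h1, -v, ?_, ?_⟩
    · rw [hv, neg_vadd_vadd]
    · rw [e, map_neg]; ring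
  · rintro ω ω' ω'' ⟨h1, -, v, hv, e⟩ ⟨-, h2, w, hw, e'⟩
    refine ⟨h1, h2, w + v, ?_, ?_⟩
    · rw [hw, hv, add_vadd]
    · rw [e', e, map_add]; ring
lemma Arc.locO {χ : V →+ ℤ} {a : ℕ} (φ : Phase S χ a) (c n : ℤ) : LocO (Arc φ c n) :=
  fun _ => (φ.pos_locF c).comp (fun t => t < n)

lemma gate_pos_sub {χ : V →+ ℤ} {a : ℕ} (φ : Phase S χ a) {c n c' n' : ℤ} (h1 : c' ≤ c)
    (h2 : c + n ≤ c' + n') (h3 : n' ≤ a) {x : Cfg S} (h : φ.pos c x < n) :
    φ.pos c' x = φ.pos c x + (c - c') := by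
  have := φ.pos_nonneg c x
  exact gate_pos_change' φ (by omega) (by omega)

/-- a smaller strip -/
lemma ArcR.mono {χ : V →+ ℤ} {a : ℕ} (φ : Phase S χ a) {c n c' n' : ℤ} (h1 : c' ≤ c)
    (h2 : c + n ≤ c' + n') (h3 : n' ≤ a) {ω ω' : Om S} (h : ArcR φ c n ω ω') :
    ArcR φ c' n' ω ω' := by
  obtain ⟨a1, a2, v, hv, e⟩ := h
  have b1 := gate_pos_sub φ h1 h2 h3 a1
  have b2 := gate_pos_sub φ h1 h2 h3 a2
  exact ⟨by omega, by omega, v, hv, by omega⟩
lemma ArcR.add_mod {χ : V →+ ℤ} {a : ℕ} (φ : Phase S χ a) (c n k : ℤ) :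
    ArcR φ (c + k * a) n = ArcR φ c n := by
  funext ω ω'
  unfold ArcR
  rw [gate_pos_add_mod]
lemma Arc.add_mod {χ : V →+ ℤ} {a : ℕ} (φ : Phase S χ a) (c n k : ℤ) :
    Arc φ (c + k * a) n = Arc φ c n := by
  unfold Arc
  rw [gate_pos_add_mod]
lemma Arc.disjoint {χ : V →+ ℤ} {a : ℕ} (φ : Phase S χ a) {c n c' n' : ℤ} (h1 : c + n ≤ c')
    (h2 : c' + n' ≤ c + a) : Disjoint (Arc φ c n) (Arc φ c' n') := by
  rw [Set.disjoint_left]
  intro ω a1 a2
  change φ.pos c ω.1 < n at a1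
  change φ.pos c' ω.1 < n' at a2
  have b1 := φ.pos_nonneg c ω.1
  have b2 := φ.pos_nonneg c' ω.1
  have := gate_pos_change' φ (c := c') (c' := c) (x := ω.1) (by omega) (by omega)
  omega
/-- description in the coordinates of a base point -/
lemma arcR_pt_iff (hf : Free S) {χ : V →+ ℤ} {a : ℕ} (φ : Phase S χ a) {c n : ℤ} (hn : n ≤ a)
    {x : Cfg S} (hx : φ.pos c x = 0) {p q : Pt} (h0 : 0 ≤ χ p.1) (h1 : χ p.1 < n) :
    ArcR φ c n (pt x p) (pt x q) ↔ 0 ≤ χ q.1 ∧ χ q.1 < n := by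
  have hp : φ.pos c (p.1 +ᵥ x) = χ p.1 := by
    rw [gate_pos_vadd' φ (by omega) (by omega), hx, zero_add]
  constructor
  · rintro ⟨-, a2, v, hv, e⟩
    change φ.pos c (q.1 +ᵥ x) < n at a2
    change q.1 +ᵥ x = v +ᵥ p.1 +ᵥ x at hv
    change φ.pos c (q.1 +ᵥ x) = φ.pos c (p.1 +ᵥ x) + χ v at e
    have hq : q.1 = v + p.1 := by
      have : (-(v + p.1) + q.1) +ᵥ x = x := by
        rw [add_vadd, hv, ← add_vadd v, neg_vadd_vadd]
      have := hf _ _ this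
      rw [neg_add_eq_zero] at this
      exact this.symm
    have b := φ.pos_nonneg c (q.1 +ᵥ x)
    have : χ q.1 = χ v + χ p.1 := by rw [hq, map_add]
    omega
  · rintro ⟨b0, b1⟩
    have hq : φ.pos c (q.1 +ᵥ x) = χ q.1 := by
      rw [gate_pos_vadd' φ (by omega) (by omega), hx, zero_add]
    refine ⟨?_, ?_, q.1 - p.1, ?_, ?_⟩
    · change φ.pos c (p.1 +ᵥ x) < n
      omega
    · change φ.pos c (q.1 +ᵥ x) < n
      omega
    · change q.1 +ᵥ x = (q.1 - p.1) +ᵥ p.1 +ᵥ x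
      rw [← add_vadd, sub_add_cancel]
    · change φ.pos c (q.1 +ᵥ x) = φ.pos c (p.1 +ᵥ x) + χ (q.1 - p.1)
      rw [map_sub]
      omega

lemma gate_adm2_empty {p q : Pt} (h : p ≠ q) : Adm2 p q (∅ : Set (Cfg S)) :=
  ⟨h, Loc.empty, fun _ hx => absurd hx (Set.notMem_empty _)⟩

lemma gate_swW_apply {p q : Pt} {W : Set (Cfg S)} (h : Adm2 p q W) {x : Cfg S} (hx : x ∈ W) :
    swW p q W (pt x p) = pt x q ∧ swW p q W (pt x q) = pt x p := by
  have hb := swW_isBlk h.2.2 (p := p) (q := q) (by simp) (by simp)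
  refine ⟨?_, ?_⟩
  · rw [hb.1 x hx p (by simp), swap_apply_left]
  · rw [hb.1 x hx q (by simp), swap_apply_right]

lemma gate_swW_along {R : Om S → Om S → Prop} (hR : PER R) {p q : Pt} {W : Set (Cfg S)}
    (h : Adm2 p q W) (hW : ∀ x ∈ W, R (pt x p) (pt x q)) : Along R (swW p q W) := by
  intro ω
  by_cases hω : ω ∈ img {p, q} W
  · obtain ⟨x, hx, r, hr, rfl⟩ := hω
    right
    rcases hr with rfl | rfl
    · rw [(gate_swW_apply h hx).1]; exact hW x hx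
    · rw [(gate_swW_apply h hx).2]; exact hR.symm _ _ (hW x hx)
  · exact Or.inl (swW_fix h hω)

/-- transport of an admissible pair by a permutation acting uniformly on it -/
lemma gate_adm2_map {i j k l : Pt} {Z : Set (Cfg S)} (h : Adm2 i j Z) (hne : Z.Nonempty)
    (g : Perm (Om S)) (e : ∀ x ∈ Z, g (pt x i) = pt x k ∧ g (pt x j) = pt x l) : Adm2 k l Z := by
  classical
  have hkl : k ≠ l := by
    rintro rfl
    obtain ⟨x, hx⟩ := hne
    have := g.injective ((e x hx).1.trans (e x hx).2.symm)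
    exact h.1 (h.2.2 x hx x hx i (by simp) j (by simp) this).2
  refine ⟨hkl, h.2.1, ?_⟩
  have := h.2.2.map g (fun r => if r = i then k else l) (by
    intro x hx r hr
    rcases hr with rfl | rfl
    · rw [if_pos rfl]; exact (e x hx).1
    · rw [if_neg h.1.symm]; exact (e x hx).2)
  rwa [Set.image_pair, if_pos rfl, if_neg h.1.symm] at this

namespace GateSys

variable {Γ : Type} [Group Γ] (G : GateSys S Γ)

/-- the subgroup generated by the gates whose two points are `R`-related -/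
def sub (R : Om S → Om S → Prop) : Subgroup Γ :=
  Subgroup.closure {γ | ∃ p q W, Adm2 p q W ∧ (∀ x ∈ W, R (pt x p) (pt x q)) ∧ γ = G.s p q W}

/-- all gates -/
def all : Subgroup Γ := G.sub (fun _ _ => True)

/-- `pr` is injective on `sub R` -/
def Inj (R : Om S → Om S → Prop) : Prop := ∀ γ ∈ G.sub R, G.pr γ = 1 → γ = 1

lemma s_mem {R : Om S → Om S → Prop} {p q : Pt} {W : Set (Cfg S)} (h : Adm2 p q W)
    (hR : ∀ x ∈ W, R (pt x p) (pt x q)) : G.s p q W ∈ G.sub R :=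
  Subgroup.subset_closure ⟨p, q, W, h, hR, rfl⟩
lemma s_empty {p q : Pt} (h : p ≠ q) : G.s p q ∅ = 1 := by
  have := G.union p q ∅ ∅ (by rw [Set.union_empty]; exact gate_adm2_empty h) Loc.empty Loc.empty
    (Set.disjoint_empty _)
  rw [Set.union_empty] at this
  exact mul_eq_left.1 this.symm
lemma sub_mono {R R' : Om S → Om S → Prop} (h : ∀ ω ω', R ω ω' → R' ω ω') : G.sub R ≤ G.sub R' := by
  refine Subgroup.closure_mono ?_
  rintro _ ⟨p, q, W, h1, h2, rfl⟩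
  exact ⟨p, q, W, h1, fun x hx => h _ _ (h2 x hx), rfl⟩
lemma sub_le_all (R : Om S → Om S → Prop) : G.sub R ≤ G.all := G.sub_mono (fun _ _ _ => trivial)
lemma pr_mem_locP {γ : Γ} (h : γ ∈ G.all) : G.pr γ ∈ LocP S := by
  have : G.all ≤ (LocP S).comap G.pr := by
    refine (Subgroup.closure_le _).2 ?_
    rintro _ ⟨p, q, W, h1, -, rfl⟩
    change G.pr (G.s p q W) ∈ LocP S
    rw [G.pr_s p q W h1]
    exact swW_mem_locP h1
  exact this h
lemma along {R : Om S → Om S → Prop} (hR : PER R) {γ : Γ} (h : γ ∈ G.sub R) :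
    Along R (G.pr γ) := by
  induction h using Subgroup.closure_induction with
  | mem γ hγ =>
    obtain ⟨p, q, W, h1, h2, rfl⟩ := hγ
    rw [G.pr_s p q W h1]
    exact gate_swW_along hR h1 h2
  | one => rw [map_one]; exact Along.one R
  | mul γ δ _ _ h1 h2 => rw [map_mul]; exact h1.mul hR h2
  | inv γ _ h1 => rw [map_inv]; exact h1.inv hR
lemma Inj.eq {R : Om S → Om S → Prop} (h : G.Inj R) {γ γ' : Γ} (hγ : γ ∈ G.sub R)
    (hγ' : γ' ∈ G.sub R) (e : G.pr γ = G.pr γ') : γ = γ' := by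
  have := h (γ * γ'⁻¹) (mul_mem hγ (inv_mem hγ')) (by rw [map_mul, map_inv, e, mul_inv_cancel])
  exact mul_inv_eq_one.1 this

lemma gate_conj_union (γ : Γ) {i j : Pt} {Z Z' : Set (Cfg S)} (h : Adm2 i j (Z ∪ Z')) (hZ : Loc Z)
    (hZ' : Loc Z') (hd : Disjoint Z Z') :
    γ * G.s i j (Z ∪ Z') * γ⁻¹ = (γ * G.s i j Z * γ⁻¹) * (γ * G.s i j Z' * γ⁻¹) := by
  rw [G.union i j Z Z' h hZ hZ' hd]
  group

/-- refinement of a gate along the action of a local permutation -/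
lemma gate_refine (hf : Free S) {g : Perm (Om S)} (hg : g ∈ LocP S) {i j : Pt} {Z : Set (Cfg S)}
    (h : Adm2 i j Z) {P : Set (Cfg S) → Prop} (h0 : P ∅)
    (hu : ∀ Z₁ Z₂, Loc Z₁ → Loc Z₂ → Z₁ ⊆ Z → Z₂ ⊆ Z → Disjoint Z₁ Z₂ → P Z₁ → P Z₂ → P (Z₁ ∪ Z₂))
    (hc : ∀ Z₁ k l, Loc Z₁ → Z₁ ⊆ Z → Adm2 k l Z₁ →
      (∀ x ∈ Z₁, g (pt x i) = pt x k ∧ g (pt x j) = pt x l) → P Z₁) : P Z := by
  refine Loc.refine ((actP_locF hf hg i).prod (actP_locF hf hg j)) h.2.1 hu ?_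
  intro Z₁ hZ₁ hs hconst
  rcases Z₁.eq_empty_or_nonempty with rfl | ⟨x₀, hx₀⟩
  · exact h0
  · have e : ∀ x ∈ Z₁, g (pt x i) = pt x (actP g x₀ i) ∧ g (pt x j) = pt x (actP g x₀ j) := by
      intro x hx
      have := hconst x hx x₀ hx₀
      simp only [Prod.mk.injEq] at this
      rw [← this.1, ← this.2]
      exact ⟨actP_spec hf hg x i, actP_spec hf hg x j⟩
    exact hc Z₁ _ _ hZ₁ hs (gate_adm2_map (h.mono hZ₁ hs) ⟨x₀, hx₀⟩ g e) e

/-- Plan: closure induction on `γ` for all `i j i' j' Z` at once; for a product refine `Z`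
(`Loc.refine`) so that `actP (pr γ₂) x i`, `actP (pr γ₂) x j` are constant, use `Adm.map`, `union`. -/
lemma conj_s (hf : Free S) {γ : Γ} (hγ : γ ∈ G.all) {i j i' j' : Pt} {Z : Set (Cfg S)}
    (h : Adm2 i j Z) (h' : Adm2 i' j' Z)
    (e : ∀ x ∈ Z, G.pr γ (pt x i) = pt x i' ∧ G.pr γ (pt x j) = pt x j') :
    γ * G.s i j Z * γ⁻¹ = G.s i' j' Z := by
  induction hγ using Subgroup.closure_induction generalizing i j i' j' Z with
  | mem γ hγ =>
    obtain ⟨p, q, W, h1, -, rfl⟩ := hγ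
    rw [G.pr_s p q W h1] at e
    exact G.conj p q W i j i' j' Z h1 h h' e
  | one =>
    rw [one_mul, inv_one, mul_one]
    rcases Z.eq_empty_or_nonempty with rfl | ⟨x, hx⟩
    · rw [G.s_empty h.1, G.s_empty h'.1]
    · have := e x hx
      rw [map_one, Perm.one_apply, Perm.one_apply] at this
      rw [hf.pt_inj x this.1, hf.pt_inj x this.2]
  | mul γ δ hγ hδ ih1 ih2 =>
    refine gate_refine hf (G.pr_mem_locP hδ) h
      (P := fun Z₁ => γ * δ * G.s i j Z₁ * (γ * δ)⁻¹ = G.s i' j' Z₁) ?_ ?_ ?_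
    · rw [G.s_empty h.1, G.s_empty h'.1, mul_one, mul_inv_cancel]
    · intro Z₁ Z₂ l1 l2 s1 s2 hd a1 a2
      have hs : Z₁ ∪ Z₂ ⊆ Z := Set.union_subset s1 s2
      rw [G.gate_conj_union _ (h.mono (l1.union l2) hs) l1 l2 hd, a1, a2,
        G.union i' j' Z₁ Z₂ (h'.mono (l1.union l2) hs) l1 l2 hd]
    · intro Z₁ k l l1 s1 hkl e1
      have a2 := ih2 (h.mono l1 s1) hkl e1
      have a1 := ih1 hkl (h'.mono l1 s1) (by
        intro x hx
        have := e x (s1 hx)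
        rw [map_mul, Perm.mul_apply, Perm.mul_apply, (e1 x hx).1, (e1 x hx).2] at this
        exact this)
      rw [← a1, ← a2]
      group
  | inv γ hγ ih =>
    have := ih h' h (by
      intro x hx
      have := e x hx
      rw [map_inv, Perm.inv_eq_iff_eq, Perm.inv_eq_iff_eq] at this
      exact ⟨this.1.symm, this.2.symm⟩)
    rw [← this]
    group

lemma conj_mem (hf : Free S) {γ δ : Γ} (hγ : γ ∈ G.all) {R R' : Om S → Om S → Prop}
    (hδ : δ ∈ G.sub R) (h : ∀ ω ω', R ω ω' → R' (G.pr γ ω) (G.pr γ ω')) :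
    γ * δ * γ⁻¹ ∈ G.sub R' := by
  induction hδ using Subgroup.closure_induction with
  | mem δ hδ =>
    obtain ⟨p, q, W, h1, h2, rfl⟩ := hδ
    refine gate_refine hf (G.pr_mem_locP hγ) h1
      (P := fun Z₁ => γ * G.s p q Z₁ * γ⁻¹ ∈ G.sub R') ?_ ?_ ?_
    · rw [G.s_empty h1.1, mul_one, mul_inv_cancel]
      exact one_mem _
    · intro Z₁ Z₂ l1 l2 s1 s2 hd a1 a2
      have hs : Z₁ ∪ Z₂ ⊆ W := Set.union_subset s1 s2
      rw [G.gate_conj_union _ (h1.mono (l1.union l2) hs) l1 l2 hd]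
      exact mul_mem a1 a2
    · intro Z₁ k l l1 s1 hkl e1
      rw [G.conj_s hf hγ (h1.mono l1 s1) hkl e1]
      refine G.s_mem hkl fun x hx => ?_
      rw [← (e1 x hx).1, ← (e1 x hx).2]
      exact h _ _ (h2 x (s1 hx))
  | one => rw [mul_one, mul_inv_cancel]; exact one_mem _
  | mul δ ε _ _ h1 h2 =>
    rw [show γ * (δ * ε) * γ⁻¹ = (γ * δ * γ⁻¹) * (γ * ε * γ⁻¹) by group]
    exact mul_mem h1 h2
  | inv δ _ h1 =>
    rw [show γ * δ⁻¹ * γ⁻¹ = (γ * δ * γ⁻¹)⁻¹ by group]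
    exact inv_mem h1

/-- an element fixing all points of the domain of `R` commutes with `sub R` -/
lemma commute_of_fix (hf : Free S) {γ δ : Γ} (hγ : γ ∈ G.all) {R : Om S → Om S → Prop}
    (hδ : δ ∈ G.sub R) (h : ∀ ω ω', R ω ω' → G.pr γ ω = ω ∧ G.pr γ ω' = ω') : Commute γ δ := by
  induction hδ using Subgroup.closure_induction with
  | mem δ hδ =>
    obtain ⟨p, q, W, h1, h2, rfl⟩ := hδ
    have := G.conj_s hf hγ h1 h1 fun x hx => h _ _ (h2 x hx)
    exact mul_inv_eq_iff_eq_mul.1 this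
  | one => exact Commute.one_right γ
  | mul δ ε _ _ h1 h2 => exact h1.mul_right h2
  | inv δ _ h1 => exact h1.inv_right

lemma commute_of_disjoint (hf : Free S) {γ δ : Γ} {R R' : Om S → Om S → Prop} (hR : PER R)
    (hR' : PER R') (hγ : γ ∈ G.sub R) (hδ : δ ∈ G.sub R') (h : ∀ ω, R ω ω → R' ω ω → False) :
    Commute γ δ := by
  have key : ∀ ω, R' ω ω → G.pr γ ω = ω := by
    intro ω hω
    rcases G.along hR hγ ω with e | e
    · exact e
    · exact (h ω (hR.trans _ _ _ e (hR.symm _ _ e)) hω).elim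
  refine G.commute_of_fix hf (G.sub_le_all R hγ) hδ fun ω ω' e => ⟨key _ ?_, key _ ?_⟩
  · exact hR'.trans _ _ _ e (hR'.symm _ _ e)
  · exact hR'.trans _ _ _ (hR'.symm _ _ e) e

lemma central (hf : Free S) {γ δ : Γ} (hγ : γ ∈ G.all) (h1 : G.pr γ = 1) (hδ : δ ∈ G.all) :
    Commute γ δ :=
  G.commute_of_fix hf hγ hδ fun _ _ _ => by rw [h1]; exact ⟨rfl, rfl⟩

end GateSys

end Crest.Agent.R189
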