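import Crest.Agent.R189.Know

/-!
Row 189.  Geometry of one level.  Standard orientation: the rows have the parity of `r`.
"Lanes" are the columns of exact rank `r - 1`, "check rows" the rows of exact rank `r - 2`,
band `β` consists of the vertical edges between the rows `β sn r` and `(β + 1) sn r`.
-/

set_option autoImplicit false

namespace Crest.Agent.R189

/-- the `u`-th active lane of the cell `j` -/
def laneX (r : ℕ) (j u : ℤ) : ℤ := j * sn (r + 1) + (Mn (r - 1) + u) * sn (r - 1)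

/-- a check row in band `β` -/
def chkY (r : ℕ) (β : ℤ) : ℤ := β * sn r + sn (r - 2)

lemma ex_laneX {r : ℕ} (hr : 1 ≤ r) (j : ℤ) {u : ℤ} (h0 : 0 ≤ u) (h1 : u < Mn r) :
    Ex (r - 1) (laneX r j u) ∧ idx (r - 1) (laneX r j u) = Mn (r - 1) + u ∧
      j * sn (r + 1) < laneX r j u ∧ laneX r j u < (j + 1) * sn (r + 1) := by
  obtain ⟨a, rfl⟩ : ∃ a, r = a + 1 := ⟨r - 1, by omega⟩
  have hs : (0 : ℤ) < sn a := by exact_mod_cast sn_pos a
  have hM : (0 : ℤ) < Mn a := by exact_mod_cast Mn_pos a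
  have e1 : (sn (a + 1 + 1) : ℤ) = Zn a * sn a := by exact_mod_cast sn_add_two a
  have e2 : (Zn a : ℤ) = 3 * Mn a := by exact_mod_cast Zn_eq a
  have e3 : (Mn (a + 1) : ℤ) = 2 * Mn a := by exact_mod_cast Mn_succ a
  have e4 : laneX (a + 1) j u = (Mn a + u + Zn a * j) * sn a + 0 := by
    simp only [laneX, Nat.add_sub_cancel, e1]; ring
  have e5 : idx a (laneX (a + 1) j u) = Mn a + u := by
    rw [e4, idx_mul_add a _ 0 le_rfl hs, Int.add_mul_emod_self_left]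
    exact Int.emod_eq_of_lt (by omega) (by omega)
  simp only [Nat.add_sub_cancel]
  refine ⟨ex_iff_idx.2 ⟨?_, by omega⟩, e5, ?_, ?_⟩
  · rw [e4, add_zero]; exact dvd_mul_left _ _
  · rw [e4, e1]; nlinarith
  · rw [e4, e1, e2]; nlinarith
lemma ex_chkY {r : ℕ} (hr : 2 ≤ r) (β : ℤ) :
    Ex (r - 2) (chkY r β) ∧ β * sn r < chkY r β ∧ chkY r β < (β + 1) * sn r := by
  obtain ⟨a, rfl⟩ : ∃ a, r = a + 2 := ⟨r - 2, by omega⟩
  have hs : (0 : ℤ) < sn a := by exact_mod_cast sn_pos a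
  have hM : (0 : ℤ) < Mn a := by exact_mod_cast Mn_pos a
  have e1 : (sn (a + 2) : ℤ) = Zn a * sn a := by exact_mod_cast sn_add_two a
  have e2 : (Zn a : ℤ) = 3 * Mn a := by exact_mod_cast Zn_eq a
  have e4 : chkY (a + 2) β = (1 + Zn a * β) * sn a + 0 := by
    simp only [chkY, Nat.add_sub_cancel, e1]; ring
  have e5 : idx a (chkY (a + 2) β) = 1 := by
    rw [e4, idx_mul_add a _ 0 le_rfl hs, Int.add_mul_emod_self_left]
    exact Int.emod_eq_of_lt (by omega) (by omega)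
  simp only [Nat.add_sub_cancel]
  refine ⟨ex_iff_idx.2 ⟨?_, by omega⟩, ?_, ?_⟩
  · rw [e4, add_zero]; exact dvd_mul_left _ _
  · rw [e4, e1]; nlinarith
  · rw [e4, e1, e2]; nlinarith

/-- the part of a state that a higher line keeps -/
def LS.core (σ : LS) : St3 × ZMod 3 × Bool × St3 := (σ.st, σ.p, σ.t, σ.ch)
/-- the part of a state that is constant along the whole line -/
def LS.cst (σ : LS) : ZMod 3 × Bool × Bool × Bool × Bool := (σ.cp, σ.ct, σ.am, σ.ap, σ.bot)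

lemma Cross.geo_cst {lm lp hm hp : LS} (h : Cross lm lp hm hp) :
    lp.cst = lm.cst ∧ hp.cst = hm.cst := by
  simp only [LS.cst, h.lcp, h.lct, h.lam, h.lap, h.lbot, h.hcp, h.hct, h.ham, h.hap, h.hbot,
    and_self]

lemma Cross.geo_core {lm lp hm hp : LS} (h : Cross lm lp hm hp) : hp.core = hm.core := by
  simp only [LS.core, h.hst, h.hpp, h.htt, h.hch]

lemma Rule.cst {t : Tile} (h : Rule t) : t.R.cst = t.L.cst ∧ t.T.cst = t.B.cst := by
  rcases h with h | h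
  · exact (Cross.geo_cst h).symm
  · exact Cross.geo_cst h

/-- which line is lower, from level-`r` knowledge -/
lemma AgreeT.rowLow {r c b : ℕ} {X Y : ℤ} {t : Tile} (h : AgreeT r c X Y t) (hb : Ex b Y)
    (hbc : b % 2 = (c + 1) % 2) (hbr : b < r) (hX : (sn (b + 1) : ℤ) ∣ X) : RowLow t :=
  (h.2.2 b hbc hbr hb).2.2 hX
lemma AgreeT.colLow {r c a : ℕ} {X Y : ℤ} {t : Tile} (h : AgreeT r c X Y t) (ha : Ex a X)
    (hac : a % 2 = c % 2) (har : a < r) (hY : (sn (a + 1) : ℤ) ∣ Y) : ColLow t :=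
  (h.2.1 a hac har ha).2.2 hY

lemma geo_chain {α : Type} {f : ℤ → α} {a b : ℤ} (hab : a ≤ b)
    (h : ∀ x, a ≤ x → x < b → f (x + 1) = f x) : f b = f a := by
  induction b, hab using Int.le_induction with
  | base => rfl
  | succ n hn ih => rw [h n hn (by omega), ih fun x h1 h2 => h x h1 (by omega)]

lemma geo_not_dvd {s β y : ℤ} (h0 : β * s < y) (h1 : y < (β + 1) * s) : ¬ s ∣ y := by
  rintro ⟨w, rfl⟩
  have hs : 0 < s := by nlinarith
  have a1 : β < w := by nlinarith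
  have a2 : w < β + 1 := by nlinarith
  omega

lemma geo_sn_dvd {a b : ℕ} (h : a ≤ b) (hp : a % 2 = b % 2) {x : ℤ} (hx : (sn b : ℤ) ∣ x) :
    (sn a : ℤ) ∣ x := (Int.natCast_dvd_natCast.2 (sn_dvd h hp)).trans hx

lemma Agr.geo_at {K : V → Set Tile} {r c : ℕ} (h : Agr K r c 0) {X Y : ℤ} {t : Tile}
    (ht : t ∈ K (X, Y)) : AgreeT r c X Y t := by
  simpa using h (X, Y) t ht

/-- facts at the crossing of a check row and a lane -/
lemma AgreeT.geo_lane {r c : ℕ} (hr : 2 ≤ r) (hc : r % 2 = (c + 1) % 2) {X Y : ℤ} {t : Tile}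
    (h : AgreeT r c X Y t) (hX : Ex (r - 1) X) (hY : Ex (r - 2) Y) :
    RowLow t ∧ D1 t.L ∧ (t.B.ap = true ↔ (Mn (r - 1) : ℤ) ≤ idx (r - 1) X) := by
  obtain ⟨a, rfl⟩ : ∃ a, r = a + 2 := ⟨r - 2, by omega⟩
  have hX' : Ex (a + 1) X := hX
  have hY' : Ex a Y := hY
  refine ⟨h.rowLow hY' (by omega) (by omega) hX'.1,
    (h.2.2 a (by omega) (by omega) hY').1.d1 le_rfl hX'.1 hX'.2, ?_⟩
  rw [(h.2.1 (a + 1) (by omega) (by omega) hX').1.ap]
  simp [line]

/-- facts at the crossing of a check row and a high column -/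
lemma AgreeT.geo_high {r c : ℕ} (hr : 2 ≤ r) (hc : r % 2 = (c + 1) % 2) {X Y : ℤ} {t : Tile}
    (h : AgreeT r c X Y t) (hX : (sn (r + 1) : ℤ) ∣ X) (hY : Ex (r - 2) Y) :
    RowLow t ∧ ¬ D1 t.L := by
  obtain ⟨a, rfl⟩ : ∃ a, r = a + 2 := ⟨r - 2, by omega⟩
  have hY' : Ex a Y := hY
  exact ⟨h.rowLow hY' (by omega) (by omega) (geo_sn_dvd (by omega) (by omega) hX),
    (h.2.2 a (by omega) (by omega) hY').1.not_d1 le_rfl hX⟩

/-- the check row keeps `ch` at low columns and at inactive lanes -/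
lemma AgreeT.geo_passive {r c : ℕ} (hr : 2 ≤ r) (hc : r % 2 = (c + 1) % 2) {X Y : ℤ} {t : Tile}
    (h : AgreeT r c X Y t) (hY : Ex (r - 2) Y)
    (hX : ¬ (sn (r - 1) : ℤ) ∣ X ∨ (Ex (r - 1) X ∧ idx (r - 1) X < Mn (r - 1))) :
    t.R.ch = t.L.ch := by
  rcases hX with hX | ⟨hX, hX'⟩
  · rcases high_or_ex (r - 1) c X with h1 | ⟨a, h1, h2, h3⟩
    · have : hl (r - 1) c = r - 1 := by unfold hl; rw [if_pos (by omega)]
      rw [this] at h1
      exact (hX h1).elim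
    · exact Cross.hch (h.colLow h3 h1 (by omega) (geo_sn_dvd (by omega) (by omega) hY.1))
  · obtain ⟨h1, h2, h3⟩ := h.geo_lane hr hc hX hY
    refine (Cross.dch' h1 h2 ?_).2
    rw [← Bool.not_eq_true, h3]
    omega

namespace Trans

variable {α : Type} (τ : Trans α)

lemma geo_hor (X Y : ℤ) (p : LS → Prop) :
    τ.μ (X + 1, Y) {t | p t.L} = τ.μ (X, Y) {t | p t.R} := by
  have := τ.hor (X, Y) {σ | p σ}
  simp only [e1, Prod.mk_add_mk, add_zero] at this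
  exact this.symm

lemma geo_ver (X Y : ℤ) (p : LS → Prop) :
    τ.μ (X, Y + 1) {t | p t.B} = τ.μ (X, Y) {t | p t.T} := by
  have := τ.ver (X, Y) {σ | p σ}
  simp only [e2, Prod.mk_add_mk, add_zero] at this
  exact this.symm

lemma row_cst (hR : ∀ v, ∀ t ∈ τ.K v, Rule t) (X X' Y : ℤ) (A : Set (ZMod 3 × Bool × Bool × Bool × Bool)) :
    τ.μ (X, Y) {t | t.L.cst ∈ A} = τ.μ (X', Y) {t | t.L.cst ∈ A} := by
  have key : ∀ x : ℤ, τ.μ (x + 1, Y) {t | t.L.cst ∈ A} = τ.μ (x, Y) {t | t.L.cst ∈ A} := by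
    intro x
    rw [τ.geo_hor x Y fun σ => σ.cst ∈ A]
    exact τ.congr _ _ _ fun t ht => by simp only [Set.mem_ofPred_eq, (hR _ t ht).cst.1]
  rcases le_total X X' with h | h
  · exact (geo_chain (f := fun x => τ.μ (x, Y) {t | t.L.cst ∈ A}) h fun x _ _ => key x).symm
  · exact geo_chain (f := fun x => τ.μ (x, Y) {t | t.L.cst ∈ A}) h fun x _ _ => key x
lemma col_cst (hR : ∀ v, ∀ t ∈ τ.K v, Rule t) (X Y Y' : ℤ) (A : Set (ZMod 3 × Bool × Bool × Bool × Bool)) :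
    τ.μ (X, Y) {t | t.B.cst ∈ A} = τ.μ (X, Y') {t | t.B.cst ∈ A} := by
  have key : ∀ y : ℤ, τ.μ (X, y + 1) {t | t.B.cst ∈ A} = τ.μ (X, y) {t | t.B.cst ∈ A} := by
    intro y
    rw [τ.geo_ver X y fun σ => σ.cst ∈ A]
    exact τ.congr _ _ _ fun t ht => by simp only [Set.mem_ofPred_eq, (hR _ t ht).cst.2]
  rcases le_total Y Y' with h | h
  · exact (geo_chain (f := fun y => τ.μ (X, y) {t | t.B.cst ∈ A}) h fun y _ _ => key y).symm
  · exact geo_chain (f := fun y => τ.μ (X, y) {t | t.B.cst ∈ A}) h fun y _ _ => key y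

lemma geo_univ (hR : ∀ v, ∀ t ∈ τ.K v, Rule t) (v w : V) : τ.μ v Set.univ = τ.μ w Set.univ :=
  (τ.row_cst hR v.1 w.1 v.2 Set.univ).trans (τ.col_cst hR w.1 v.2 w.2 Set.univ)

variable {r c : ℕ}

/-- a column of rank `≥ r - 1` keeps its core along a band -/
lemma col_band (hr : 2 ≤ r) (hc : r % 2 = (c + 1) % 2) (h : Agr τ.K r c 0) {X : ℤ}
    (hX : (sn (r - 1) : ℤ) ∣ X) {β Y : ℤ} (h0 : β * sn r ≤ Y) (h1 : Y < (β + 1) * sn r)
    (A : Set (St3 × ZMod 3 × Bool × St3)) :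
    τ.μ (X, Y) {t | t.T.core ∈ A} = τ.μ (X, β * sn r) {t | t.T.core ∈ A} := by
  refine geo_chain (f := fun y => τ.μ (X, y) {t | t.T.core ∈ A}) h0 fun y h2 h3 => ?_
  show τ.μ (X, y + 1) _ = τ.μ (X, y) _
  rw [← τ.geo_ver X y fun σ => σ.core ∈ A]
  refine τ.congr _ _ _ fun t ht => ?_
  rcases high_or_ex r (c + 1) (y + 1) with h4 | ⟨b, h4, h5, h6⟩
  · have : hl r (c + 1) = r := by unfold hl; rw [if_pos hc]
    rw [this] at h4
    exact (geo_not_dvd (β := β) (by omega) (by omega) h4).elim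
  · have := (h.geo_at ht).rowLow h6 h4 h5 (geo_sn_dvd (by omega) (by omega) hX)
    simp only [Set.mem_ofPred_eq, Cross.geo_core this]

/-- a row of rank `≥ r` keeps its core inside a cell -/
lemma row_cell (hr : 2 ≤ r) (hc : r % 2 = (c + 1) % 2) (h : Agr τ.K r c 0) {Y : ℤ}
    (hY : (sn r : ℤ) ∣ Y) {j X : ℤ} (h0 : j * sn (r + 1) ≤ X) (h1 : X < (j + 1) * sn (r + 1))
    (A : Set (St3 × ZMod 3 × Bool × St3)) :
    τ.μ (X, Y) {t | t.R.core ∈ A} = τ.μ (j * sn (r + 1), Y) {t | t.R.core ∈ A} := by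
  refine geo_chain (f := fun x => τ.μ (x, Y) {t | t.R.core ∈ A}) h0 fun x h2 h3 => ?_
  show τ.μ (x + 1, Y) _ = τ.μ (x, Y) _
  rw [← τ.geo_hor x Y fun σ => σ.core ∈ A]
  refine τ.congr _ _ _ fun t ht => ?_
  rcases high_or_ex r c (x + 1) with h4 | ⟨a, h4, h5, h6⟩
  · have : hl r c = r + 1 := by unfold hl; rw [if_neg (by omega)]
    rw [this] at h4
    exact (geo_not_dvd (β := j) (by omega) (by omega) h4).elim
  · have := (h.geo_at ht).colLow h6 h4 h5 (geo_sn_dvd (by omega) (by omega) hY)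
    simp only [Set.mem_ofPred_eq, Cross.geo_core this]

/-- from the bottom of the band to the check row -/
lemma geo_to_chk (hr : 2 ≤ r) (hc : r % 2 = (c + 1) % 2) (h : Agr τ.K r c 0) {X : ℤ}
    (hX : (sn (r - 1) : ℤ) ∣ X) (β : ℤ) (A : Set (St3 × ZMod 3 × Bool × St3)) :
    τ.μ (X, β * sn r) {t | t.T.core ∈ A} = τ.μ (X, chkY r β) {t | t.B.core ∈ A} := by
  obtain ⟨-, h1, h2⟩ := ex_chkY hr β
  rw [← τ.col_band hr hc h hX (Y := chkY r β - 1) (by omega) (by omega) A,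
    ← τ.geo_ver X (chkY r β - 1) fun σ => σ.core ∈ A, sub_add_cancel]

/-- `ch` along passive columns -/
lemma geo_ch (hr : 2 ≤ r) (hc : r % 2 = (c + 1) % 2) (h : Agr τ.K r c 0) {X₁ X₂ Y : ℤ}
    (hY : Ex (r - 2) Y) (h12 : X₁ < X₂)
    (hp : ∀ X, X₁ < X → X < X₂ →
      ¬ (sn (r - 1) : ℤ) ∣ X ∨ (Ex (r - 1) X ∧ idx (r - 1) X < Mn (r - 1))) (A : Set St3) :
    τ.μ (X₂, Y) {t | t.L.ch ∈ A} = τ.μ (X₁, Y) {t | t.R.ch ∈ A} := by
  rw [← τ.geo_hor X₁ Y fun σ => σ.ch ∈ A]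
  refine geo_chain (f := fun x => τ.μ (x, Y) {t | t.L.ch ∈ A}) (by omega) fun x h2 h3 => ?_
  show τ.μ (x + 1, Y) _ = τ.μ (x, Y) _
  rw [τ.geo_hor x Y fun σ => σ.ch ∈ A]
  refine τ.congr _ _ _ fun t ht => ?_
  simp only [Set.mem_ofPred_eq, (h.geo_at ht).geo_passive hr hc hY (hp x (by omega) h3)]

/-- an active lane: the state is the outgoing `ch` -/
lemma geo_out (hr : 2 ≤ r) (hc : r % 2 = (c + 1) % 2) (h : Agr τ.K r c 0) (j β : ℤ) {u : ℤ}
    (h0 : 0 ≤ u) (h1 : u < Mn r) (A : Set St3) :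
    τ.μ (laneX r j u, β * sn r) {t | t.T.st ∈ A} =
      τ.μ (laneX r j u, chkY r β) {t | t.R.ch ∈ A} := by
  obtain ⟨a1, a2, -⟩ := ex_laneX (by omega : 1 ≤ r) j h0 h1
  refine (τ.geo_to_chk hr hc h a1.1 β {x | x.1 ∈ A}).trans (τ.congr _ _ _ fun t ht => ?_)
  obtain ⟨b1, b2, b3⟩ := (h.geo_at ht).geo_lane hr hc a1 (ex_chkY hr β).1
  simp only [Set.mem_ofPred_eq, LS.core, (Cross.dch b1 b2 (b3.2 (by omega))).2]

/-- an active lane: the incoming `ch` is `done` iff the lane is not waiting -/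
lemma geo_in (hr : 2 ≤ r) (hc : r % 2 = (c + 1) % 2) (h : Agr τ.K r c 0) (j β : ℤ) {u : ℤ}
    (h0 : 0 ≤ u) (h1 : u < Mn r) (p : Prop → Prop) :
    τ.μ (laneX r j u, β * sn r) {t | p (t.T.st ≠ St3.wait)} =
      τ.μ (laneX r j u, chkY r β) {t | p (t.L.ch = St3.done)} := by
  obtain ⟨a1, a2, -⟩ := ex_laneX (by omega : 1 ≤ r) j h0 h1
  refine (τ.geo_to_chk hr hc h a1.1 β {x | p (x.1 ≠ St3.wait)}).trans
    (τ.congr _ _ _ fun t ht => ?_)
  obtain ⟨b1, b2, b3⟩ := (h.geo_at ht).geo_lane hr hc a1 (ex_chkY hr β).1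
  simp only [Set.mem_ofPred_eq, LS.core, propext (Cross.dch b1 b2 (b3.2 (by omega))).1]

lemma geo_next (hr : 2 ≤ r) (hc : r % 2 = (c + 1) % 2) (h : Agr τ.K r c 0) (j β u : ℤ)
    (A : Set St3) :
    τ.μ (laneX r j (u + 1), chkY r β) {t | t.L.ch ∈ A} =
      τ.μ (laneX r j u, chkY r β) {t | t.R.ch ∈ A} := by
  have hs : (0 : ℤ) < sn (r - 1) := by exact_mod_cast sn_pos _
  have e1 : (sn (r + 1) : ℤ) = Zn (r - 1) * sn (r - 1) := by
    rw [show r + 1 = r - 1 + 2 by omega]; exact_mod_cast sn_add_two _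
  have e2 : ∀ u : ℤ, laneX r j u = (j * Zn (r - 1) + Mn (r - 1) + u) * sn (r - 1) := by
    intro u; rw [laneX, e1]; ring
  refine τ.geo_ch hr hc h (ex_chkY hr β).1 (by rw [e2, e2]; nlinarith) (fun X a b => Or.inl ?_) A
  rw [e2] at a b
  exact geo_not_dvd a (by rw [add_assoc _ u]; exact b)

/-- `(p, t)` of every lane in band `β` is `(cp, ct)` of the check row -/
lemma lane_pt (hr : 2 ≤ r) (hc : r % 2 = (c + 1) % 2) (h : Agr τ.K r c 0) {X : ℤ}
    (hX : Ex (r - 1) X) (β X' : ℤ) (A : Set (ZMod 3 × Bool)) :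
    τ.μ (X, β * sn r) {t | (t.T.p, t.T.t) ∈ A} =
      τ.μ (X', chkY r β) {t | (t.L.cp, t.L.ct) ∈ A} := by
  refine (τ.geo_to_chk hr hc h hX.1 β {x | (x.2.1, x.2.2.1) ∈ A}).trans
    (Eq.trans (τ.congr _ _ _ fun t ht => ?_)
      (τ.row_cst (fun v t ht => (h v t ht).1) X X' (chkY r β) {x | (x.1, x.2.1) ∈ A}))
  obtain ⟨b1, b2, -⟩ := (h.geo_at ht).geo_lane hr hc hX (ex_chkY hr β).1
  simp only [Set.mem_ofPred_eq, LS.core, LS.cst, (Cross.dc b1 b2).1, (Cross.dc b1 b2).2]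

/-- the check row enters lane `0` with `ch = done`, so lane `0` is not waiting -/
lemma lane_first (hr : 2 ≤ r) (hc : r % 2 = (c + 1) % 2) (h : Agr τ.K r c 0) (j β : ℤ) :
    τ.μ (laneX r j 0, β * sn r) {t | t.T.st ≠ St3.wait} =
      τ.μ (laneX r j 0, β * sn r) (Tile.T ⁻¹' Set.univ) := by
  have hM : (0 : ℤ) < Mn r := by exact_mod_cast Mn_pos r
  have hs : (0 : ℤ) < sn (r - 1) := by exact_mod_cast sn_pos _
  have e1 : (sn (r + 1) : ℤ) = Zn (r - 1) * sn (r - 1) := by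
    rw [show r + 1 = r - 1 + 2 by omega]; exact_mod_cast sn_add_two _
  have e2 : (Zn (r - 1) : ℤ) = 3 * Mn (r - 1) := by exact_mod_cast Zn_eq _
  obtain ⟨-, -, a3, a4⟩ := ex_laneX (by omega : 1 ≤ r) j le_rfl hM
  refine (τ.geo_in hr hc h j β le_rfl hM id).trans
    ((τ.geo_ch hr hc h (ex_chkY hr β).1 a3 (fun X a b => ?_) {St3.done}).trans
      ((τ.congr _ _ Set.univ fun t ht => ?_).trans (τ.geo_univ (fun v t ht => (h v t ht).1) _ _)))
  · by_cases hd : (sn (r - 1) : ℤ) ∣ X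
    · obtain ⟨w, rfl⟩ := hd
      rw [laneX, e1] at b
      rw [e1] at a
      have c1 : j * Zn (r - 1) < w := by nlinarith
      have c2 : w < j * Zn (r - 1) + Mn (r - 1) := by nlinarith
      have c3 : idx (r - 1) (sn (r - 1) * w) = w - j * Zn (r - 1) := by
        rw [show (sn (r - 1) : ℤ) * w = (w - j * Zn (r - 1) + Zn (r - 1) * j) * sn (r - 1) + 0 by ring,
          idx_mul_add _ _ 0 le_rfl hs, Int.add_mul_emod_self_left]
        exact Int.emod_eq_of_lt (by omega) (by omega)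
      exact Or.inr ⟨ex_iff_idx.2 ⟨dvd_mul_right _ _, by omega⟩, by omega⟩
    · exact Or.inl hd
  · obtain ⟨b1, b2⟩ := (h.geo_at ht).geo_high hr hc (dvd_mul_left _ _) (ex_chkY hr β).1
    simp [(Cross.nch b1 b2).2]

lemma lane_next (hr : 2 ≤ r) (hc : r % 2 = (c + 1) % 2) (h : Agr τ.K r c 0) (j β : ℤ) {u : ℤ}
    (h0 : 0 ≤ u) (h1 : u + 1 < Mn r) :
    τ.μ (laneX r j (u + 1), β * sn r) {t | t.T.st ≠ St3.wait} =
      τ.μ (laneX r j u, β * sn r) {t | t.T.st = St3.done} :=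
  (τ.geo_in hr hc h j β (by omega) h1 id).trans ((τ.geo_next hr hc h j β u {St3.done}).trans
    (τ.geo_out hr hc h j β h0 (by omega) {St3.done}).symm)

/-- the same for the complementary events -/
lemma lane_next' (hr : 2 ≤ r) (hc : r % 2 = (c + 1) % 2) (h : Agr τ.K r c 0) (j β : ℤ) {u : ℤ}
    (h0 : 0 ≤ u) (h1 : u + 1 < Mn r) :
    τ.μ (laneX r j (u + 1), β * sn r) {t | t.T.st = St3.wait} =
      τ.μ (laneX r j u, β * sn r) {t | t.T.st ≠ St3.done} := by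
  have := τ.geo_in hr hc h j β (u := u + 1) (by omega) h1 Not
  simp only [ne_eq, not_not] at this
  exact this.trans ((τ.geo_next hr hc h j β u {St3.done}ᶜ).trans
    (τ.geo_out hr hc h j β h0 (by omega) {St3.done}ᶜ).symm)

/-- the last lane is `on` or `wait` according to `t` (`nch` at the end of the cell; `ch` and `ct` are
read on the same edge of the check row) -/
lemma lane_last (hr : 2 ≤ r) (hc : r % 2 = (c + 1) % 2) (h : Agr τ.K r c 0) (j β : ℤ)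
    (A : Set St3) :
    τ.μ (laneX r j (Mn r - 1), β * sn r) {t | t.T.st ∈ A} =
      τ.μ (laneX r j (Mn r - 1), β * sn r)
        {t | (if t.T.t = true then St3.on else St3.wait) ∈ A} := by
  have hM : (0 : ℤ) < Mn r := by exact_mod_cast Mn_pos r
  obtain ⟨a1, -⟩ := ex_laneX (by omega : 1 ≤ r) j (u := Mn r - 1) (by omega) (by omega)
  have e1 : laneX r j (Mn r - 1 + 1) = (j + 1) * sn (r + 1) := by
    have e1 : (sn (r + 1) : ℤ) = Zn (r - 1) * sn (r - 1) := by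
      rw [show r + 1 = r - 1 + 2 by omega]; exact_mod_cast sn_add_two _
    have e2 : (Zn (r - 1) : ℤ) = 3 * Mn (r - 1) := by exact_mod_cast Zn_eq _
    have e3 : (Mn r : ℤ) = 2 * Mn (r - 1) := by
      conv_lhs => rw [show r = r - 1 + 1 by omega]
      exact_mod_cast Mn_succ _
    rw [laneX, e1, e2, e3]; ring
  refine (τ.geo_out hr hc h j β (by omega) (by omega) A).trans
    ((τ.geo_next hr hc h j β _ A).symm.trans (Eq.trans (τ.congr _ _ _ fun t ht => ?_)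
      (τ.lane_pt hr hc h a1 β _ {x | (if x.2 = true then St3.on else St3.wait) ∈ A}).symm))
  rw [e1] at ht
  obtain ⟨b1, b2⟩ := (h.geo_at ht).geo_high hr hc (dvd_mul_left _ _) (ex_chkY hr β).1
  simp only [Set.mem_ofPred_eq, (Cross.nch b1 b2).1]

end Trans

end Crest.Agent.R189
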