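import Crest.Agent.R189.Basic

/-!
Row 189.  Boolean powers: injectivity of a presentation over every local set gives injectivity for
words whose letters live over different local sets.
-/

set_option autoImplicit false

namespace Crest.Agent.R189

variable {S : Wang}

lemma patch_commute {Γ : Type} [Group Γ] {s t : Set Γ} (h : ∀ a ∈ s, ∀ b ∈ t, Commute a b)
    {a b : Γ} (ha : a ∈ Subgroup.closure s) (hb : b ∈ Subgroup.closure t) : Commute a b := by
  induction ha using Subgroup.closure_induction with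
  | mem x hx =>
    induction hb using Subgroup.closure_induction with
    | mem y hy => exact h x hx y hy
    | one => exact Commute.one_right _
    | mul y z _ _ h1 h2 => exact h1.mul_right h2
    | inv y _ h1 => exact h1.inv_right
  | one => exact Commute.one_left _
  | mul y z _ _ h1 h2 => exact h1.mul_left h2
  | inv y _ h1 => exact h1.inv_left

open Classical in
/-- Plan.  For `Z ⊆ W` local, `hinj` says that the closure of `{(g i Z, t i)}` is the graph of a
homomorphism `σ Z : A' →* Γ` on `A' = closure (range t)`; `σ (Z ∪ Z') a = σ Z a * σ Z' a` and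
`σ Z a`, `σ Z' b` commute for disjoint `Z, Z'`; `σ ∅ = 1`.  For a local `f` with values in `A'` put
`Σ f = ∏_{a ∈ range f} σ (W ∩ f⁻¹ {a}) a` (`Finset.noncommProd`, any finset containing the range gives
the same value).  Then `Σ (f * f') = Σ f * Σ f'`, and `γ = Σ f` on the closure. -/
theorem patch_inj {ι A Γ : Type} [Group A] [Group Γ] {W : Set (Cfg S)} (hW : Loc W) (t : ι → A)
    (g : ι → Set (Cfg S) → Γ)
    (hinj : ∀ Z, Loc Z → Z ⊆ W → ∀ γ : Γ,
      (γ, (1 : A)) ∈ Subgroup.closure {y : Γ × A | ∃ i, y = (g i Z, t i)} → γ = 1)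
    (hu : ∀ i Z Z', Loc Z → Loc Z' → Z ⊆ W → Z' ⊆ W → Disjoint Z Z' →
      g i (Z ∪ Z') = g i Z * g i Z')
    (hc : ∀ i j Z Z', Loc Z → Loc Z' → Z ⊆ W → Z' ⊆ W → Disjoint Z Z' → Commute (g i Z) (g j Z'))
    {γ : Γ} {f : Cfg S → A}
    (hm : (γ, f) ∈ Subgroup.closure {y : Γ × (Cfg S → A) | ∃ i Z, Loc Z ∧ Z ⊆ W ∧
      y = (g i Z, fun x => if x ∈ Z then t i else 1)})
    (hf : ∀ x ∈ W, f x = 1) : γ = 1 := by
  have hempty : ∀ i, g i ∅ = 1 := by
    intro i
    have := hu i ∅ ∅ Loc.empty Loc.empty (Set.empty_subset _) (Set.empty_subset _)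
      (Set.disjoint_empty _)
    rw [Set.union_self] at this
    exact left_eq_mul.1 this
  let T : Set (Cfg S) → Set Γ := fun Y => {δ | ∃ i Z, Loc Z ∧ Z ⊆ Y ∧ δ = g i Z}
  have hT : ∀ Y Y', Y ⊆ W → Y' ⊆ W → Disjoint Y Y' → ∀ a ∈ Subgroup.closure (T Y),
      ∀ b ∈ Subgroup.closure (T Y'), Commute a b := by
    intro Y Y' hY hY' hd a ha b hb
    refine patch_commute ?_ ha hb
    rintro _ ⟨i, Z, h1, h2, rfl⟩ _ ⟨j, Z', h3, h4, rfl⟩
    exact hc i j Z Z' h1 h3 (h2.trans hY) (h4.trans hY') (hd.mono h2 h4)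
  have key : ∀ y ∈ Subgroup.closure {y : Γ × (Cfg S → A) | ∃ i Z, Loc Z ∧ Z ⊆ W ∧
      y = (g i Z, fun x => if x ∈ Z then t i else 1)},
      ∃ (E : Set (Cfg S) → Γ) (β : Type) (h : Cfg S → β), LocF h ∧ E W = y.1 ∧
        (∀ Y, Loc Y → Y ⊆ W → E Y ∈ Subgroup.closure (T Y)) ∧
        (∀ Y Y', Loc Y → Loc Y' → Y ⊆ W → Y' ⊆ W → Disjoint Y Y' → E (Y ∪ Y') = E Y * E Y') ∧
        (∀ Y, Loc Y → Y ⊆ W → (∀ x ∈ Y, ∀ z ∈ Y, h x = h z) → ∀ x ∈ Y,
          (E Y, y.2 x) ∈ Subgroup.closure {y : Γ × A | ∃ i, y = (g i Y, t i)}) := by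
    intro y hy
    induction hy using Subgroup.closure_induction with
    | mem y hy =>
      obtain ⟨i, Z, hZ, hZW, rfl⟩ := hy
      refine ⟨fun Y => g i (Z ∩ Y), Prop, fun x => x ∈ Z, hZ, ?_, ?_, ?_, ?_⟩
      · simp only [Set.inter_eq_left.2 hZW]
      · intro Y hY _
        exact Subgroup.subset_closure ⟨i, Z ∩ Y, hZ.inter hY, Set.inter_subset_right, rfl⟩
      · intro Y Y' hY hY' h1 h2 hd
        simp only [Set.inter_union_distrib_left]
        exact hu i _ _ (hZ.inter hY) (hZ.inter hY') (Set.inter_subset_left.trans hZW)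
          (Set.inter_subset_left.trans hZW) (hd.mono Set.inter_subset_right Set.inter_subset_right)
      · intro Y hY h1 hconst x hx
        by_cases hxZ : x ∈ Z
        · have : Z ∩ Y = Y := Set.inter_eq_right.2 fun z hz => (hconst x hx z hz).mp hxZ
          simp only [this, if_pos hxZ]
          exact Subgroup.subset_closure ⟨i, rfl⟩
        · have : Z ∩ Y = ∅ := Set.eq_empty_of_forall_notMem fun z hz =>
            hxZ ((hconst x hx z hz.2).mpr hz.1)
          simp only [this, if_neg hxZ, hempty]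
          exact Subgroup.one_mem _
    | one =>
      refine ⟨fun _ => 1, Unit, fun _ => (), LocF.const _, rfl, fun _ _ _ => Subgroup.one_mem _,
        fun _ _ _ _ _ _ _ => (mul_one _).symm, fun _ _ _ _ _ _ => Subgroup.one_mem _⟩
    | mul y z _ _ h1 h2 =>
      obtain ⟨E, β, h, a1, a2, a3, a4, a5⟩ := h1
      obtain ⟨E', β', h', b1, b2, b3, b4, b5⟩ := h2
      refine ⟨fun Y => E Y * E' Y, β × β', fun x => (h x, h' x), a1.prod b1, ?_, ?_, ?_, ?_⟩
      · simp only [a2, b2, Prod.fst_mul]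
      · intro Y hY hYW
        exact Subgroup.mul_mem _ (a3 Y hY hYW) (b3 Y hY hYW)
      · intro Y Y' hY hY' h1 h2 hd
        simp only [a4 Y Y' hY hY' h1 h2 hd, b4 Y Y' hY hY' h1 h2 hd]
        have := hT Y Y' h1 h2 hd _ (b3 Y hY h1) _ (a3 Y' hY' h2)
        rw [mul_assoc, mul_assoc, ← mul_assoc (E Y'), ← this.eq, mul_assoc]
      · intro Y hY hYW hconst x hx
        exact Subgroup.mul_mem _
          (a5 Y hY hYW (fun x hx z hz => congrArg Prod.fst (hconst x hx z hz)) x hx)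
          (b5 Y hY hYW (fun x hx z hz => congrArg Prod.snd (hconst x hx z hz)) x hx)
    | inv y _ h1 =>
      obtain ⟨E, β, h, a1, a2, a3, a4, a5⟩ := h1
      refine ⟨fun Y => (E Y)⁻¹, β, h, a1, ?_, ?_, ?_, ?_⟩
      · simp only [a2, Prod.fst_inv]
      · intro Y hY hYW
        exact Subgroup.inv_mem _ (a3 Y hY hYW)
      · intro Y Y' hY hY' h1 h2 hd
        simp only [a4 Y Y' hY hY' h1 h2 hd]
        have := hT Y Y' h1 h2 hd _ (a3 Y hY h1) _ (a3 Y' hY' h2)
        rw [this.eq, mul_inv_rev]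
      · intro Y hY hYW hconst x hx
        exact Subgroup.inv_mem _ (a5 Y hY hYW hconst x hx)
  obtain ⟨E, β, h, a1, a2, a3, a4, a5⟩ := key _ hm
  change E W = γ at a2
  rw [← a2]
  refine Loc.refine a1 hW (p := fun Y => E Y = 1) ?_ ?_
  · intro Z Z' h1 h2 h3 h4 hd e1 e2
    rw [a4 Z Z' h1 h2 h3 h4 hd, e1, e2, mul_one]
  · intro Z h1 h2 hconst
    rcases Z.eq_empty_or_nonempty with rfl | ⟨x, hx⟩
    · have := a4 ∅ ∅ h1 h1 h2 h2 (Set.disjoint_empty _)
      rw [Set.union_self] at this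
      exact left_eq_mul.1 this
    · have := a5 Z h1 h2 hconst x hx
      change (E Z, f x) ∈ _ at this
      rw [hf x (h2 hx)] at this
      exact hinj Z h1 h2 _ this

end Crest.Agent.R189
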