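import Crest.Agent.R189.Msec
import Crest.Agent.R189.Patch

/-!
Row 189.  Hat systems: central extensions of `GG` with coherent lifts of the elements of `C3`.
-/

set_option autoImplicit false

namespace Crest.Agent.R189

open Equiv

variable {S : Wang}

/-- coherent lifts of the elements of `C3` -/
structure HatSys (S : Wang) (H : Type) [Group H] where
  hat : Perm (Om S) → H
  pr : H →* Perm (Om S)
  pr_hat : ∀ c ∈ C3 S, pr (hat c) = c
  conj : ∀ c ∈ C3 S, ∀ c' ∈ C3 S, hat c * hat c' * (hat c)⁻¹ = hat (c * c' * c⁻¹)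
  mul : ∀ c ∈ C3 S, ∀ c' ∈ C3 S, c * c' ∈ C3 S → SmallOrb c c' → hat c * hat c' = hat (c * c')
  gen : Subgroup.closure (hat '' C3 S) = ⊤

/-- a hat system on which the full group acts -/
structure AutSys (S : Wang) (H : Type) [Group H] extends HatSys S H where
  al : LocP S →* MulAut H
  al_hat : ∀ (m : LocP S), ∀ c ∈ C3 S, al m (hat c) = hat ((m : Perm (Om S)) * c * (m : Perm (Om S))⁻¹)

lemma hat_one_mem : (1 : Perm (Om S)) ∈ C3 S := ⟨(LocP S).one_mem, one_pow 3⟩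

lemma hat_inv_mem {c : Perm (Om S)} (hc : c ∈ C3 S) : c⁻¹ ∈ C3 S :=
  ⟨(LocP S).inv_mem hc.1, by rw [inv_pow, hc.2, inv_one]⟩

lemma hat_mul_mem {c c' : Perm (Om S)} (hc : c ∈ C3 S) (hc' : c' ∈ C3 S)
    (hd : Perm.Disjoint c c') : c * c' ∈ C3 S :=
  ⟨(LocP S).mul_mem hc.1 hc'.1, by rw [hd.commute.mul_pow, hc.2, hc'.2, one_mul]⟩

lemma hat_adm3 {F : Set Pt} {W : Set (Cfg S)} (hW : Loc W) (ha : Adm F W) {p q r : Pt}
    (hp : p ∈ F) (hq : q ∈ F) (hr : r ∈ F) (hd : D3 p q r) : Adm3 p q r W :=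
  ⟨hd, hW, ha.mono (by
    rintro x (rfl | rfl | rfl)
    exacts [hp, hq, hr]) subset_rfl⟩

lemma hat_perm_mem {F : Set Pt} {π : Perm Pt} (h : ∀ p, p ∉ F → π p = p) {p : Pt} (hp : p ∈ F) :
    π p ∈ F := by
  by_contra hn
  have e : π p = p := π.injective (h _ hn)
  exact hn (by rw [e]; exact hp)

lemma hat_cyc_fix {F : Set Pt} {p q r : Pt} (hp : p ∈ F) (hq : q ∈ F) (hr : r ∈ F) (x : Pt)
    (hx : x ∉ F) : cyc p q r x = x :=
  cyc_apply_of_ne (fun h => hx (h ▸ hp)) (fun h => hx (h ▸ hq)) (fun h => hx (h ▸ hr))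

lemma hat_cyc_mem {F : Set Pt} {p q r : Pt} (hp : p ∈ F) (hq : q ∈ F) (hr : r ∈ F) {x : Pt}
    (hx : x ∈ F) : cyc p q r x ∈ F := hat_perm_mem (hat_cyc_fix hp hq hr) hx

lemma hat_cycW_disjoint {F : Set Pt} {W Z Z' : Set (Cfg S)} (ha : Adm F W) (hZ : Z ⊆ W)
    (hZ' : Z' ⊆ W) (hd : Disjoint Z Z') {p q r i j k : Pt} (hp : p ∈ F) (hq : q ∈ F) (hr : r ∈ F)
    (hi : i ∈ F) (hj : j ∈ F) (hk : k ∈ F) (d : D3 p q r) (d' : D3 i j k) :
    Perm.Disjoint (cycW p q r Z) (cycW i j k Z') := by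
  intro ω
  by_cases h : ω ∈ img F Z
  · refine Or.inr ((cycW_isBlk (ha.mono subset_rfl hZ') hi hj hk d').2 ω ?_)
    obtain ⟨x, hx, a, ha', rfl⟩ := h
    rintro ⟨y, hy, b, hb, e⟩
    obtain ⟨rfl, -⟩ := ha x (hZ hx) y (hZ' hy) a ha' b hb e
    exact Set.disjoint_left.1 hd hx hy
  · exact Or.inl ((cycW_isBlk (ha.mono subset_rfl hZ) hp hq hr d).2 ω h)

namespace HatSys

variable {H : Type} [Group H] (T : HatSys S H)

lemma hat_one : T.hat 1 = 1 := by
  have := T.mul 1 hat_one_mem 1 hat_one_mem (by rw [mul_one]; exact hat_one_mem)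
    (smallOrb_self (one_pow 3)).1
  rw [mul_one] at this
  exact mul_eq_left.1 this
lemma hat_inv {c : Perm (Om S)} (hc : c ∈ C3 S) : T.hat c⁻¹ = (T.hat c)⁻¹ := by
  have := T.mul c hc c⁻¹ (hat_inv_mem hc) (by rw [mul_inv_cancel]; exact hat_one_mem)
    (smallOrb_self hc.2).2
  rw [mul_inv_cancel, T.hat_one] at this
  exact eq_inv_of_mul_eq_one_right this
lemma hat_cube {c : Perm (Om S)} (hc : c ∈ C3 S) : T.hat c ^ 3 = 1 := by
  have h1 : c * c = c⁻¹ := by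
    rw [eq_inv_iff_mul_eq_one, ← hc.2, pow_succ, pow_two]
  have := T.mul c hc c hc (by rw [h1]; exact hat_inv_mem hc) (smallOrb_self hc.2).1
  rw [pow_succ, pow_two, this, h1, T.hat_inv hc, inv_mul_cancel]
lemma mem_gen (h : H) : h ∈ Subgroup.closure (T.hat '' C3 S) := by
  rw [T.gen]; exact Subgroup.mem_top h
lemma pr_mem (h : H) : T.pr h ∈ GG S := by
  induction T.mem_gen h using Subgroup.closure_induction with
  | mem x hx =>
    obtain ⟨c, hc, rfl⟩ := hx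
    rw [T.pr_hat c hc]
    exact Subgroup.subset_closure hc
  | one => rw [map_one]; exact (GG S).one_mem
  | mul x y _ _ h1 h2 => rw [map_mul]; exact (GG S).mul_mem h1 h2
  | inv x _ h1 => rw [map_inv]; exact (GG S).inv_mem h1
lemma range_pr : T.pr.range = GG S := by
  refine le_antisymm ?_ ((Subgroup.closure_le _).2 fun c hc => ⟨T.hat c, T.pr_hat c hc⟩)
  rintro _ ⟨h, rfl⟩
  exact T.pr_mem h
lemma conj_hat (h : H) {c : Perm (Om S)} (hc : c ∈ C3 S) :
    h * T.hat c * h⁻¹ = T.hat (T.pr h * c * (T.pr h)⁻¹) := by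
  induction T.mem_gen h using Subgroup.closure_induction generalizing c with
  | mem x hx =>
    obtain ⟨c', hc', rfl⟩ := hx
    rw [T.pr_hat c' hc', T.conj c' hc' c hc]
  | one => simp
  | mul x y _ _ h1 h2 =>
    have := h1 (conj_mem_C3 (GG_le (T.pr_mem y)) hc)
    rw [← h2 hc] at this
    simpa only [map_mul, mul_inv_rev, mul_assoc] using this
  | inv x _ h1 =>
    have := h1 (conj_mem_C3 (GG_le (T.pr_mem x⁻¹)) hc)
    have e : T.pr x * (T.pr x⁻¹ * c * (T.pr x⁻¹)⁻¹) * (T.pr x)⁻¹ = c := by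
      rw [map_inv]; group
    rw [e] at this
    rw [← this]
    group
lemma central {h : H} (h1 : T.pr h = 1) (h' : H) : Commute h h' := by
  refine patch_commute (s := {h}) ?_ (Subgroup.subset_closure rfl) (T.mem_gen h')
  rintro a rfl _ ⟨c, hc, rfl⟩
  have := T.conj_hat a hc
  rw [h1, one_mul, inv_one, mul_one] at this
  exact mul_inv_eq_iff_eq_mul.1 this
lemma hat_disjoint {c c' : Perm (Om S)} (hc : c ∈ C3 S) (hc' : c' ∈ C3 S)
    (hd : Perm.Disjoint c c') : T.hat (c * c') = T.hat c * T.hat c' ∧ Commute (T.hat c) (T.hat c') := by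
  have h1 := T.mul c hc c' hc' (hat_mul_mem hc hc' hd) (smallOrb_of_disjoint hc.2 hc'.2 hd)
  have h2 := T.mul c' hc' c hc (hat_mul_mem hc' hc hd.symm) (smallOrb_of_disjoint hc'.2 hc.2 hd.symm)
  refine ⟨h1.symm, ?_⟩
  rw [Commute, SemiconjBy, h1, h2, hd.commute.eq]
lemma hat_union {p q r : Pt} {W W' : Set (Cfg S)} (h : Adm3 p q r (W ∪ W')) (hW : Loc W)
    (hW' : Loc W') (hd : Disjoint W W') :
    T.hat (cycW p q r (W ∪ W')) = T.hat (cycW p q r W) * T.hat (cycW p q r W') := by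
  rw [cycW_union h hW hW' hd]
  exact (T.hat_disjoint (cycW_mem_C3 (h.mono hW Set.subset_union_left))
    (cycW_mem_C3 (h.mono hW' Set.subset_union_right))
    (hat_cycW_disjoint h.2.2 Set.subset_union_left Set.subset_union_right hd (by simp) (by simp)
      (by simp) (by simp) (by simp) (by simp) h.1 h.1)).1
lemma preOn {F : Set Pt} {W : Set (Cfg S)} (hW : Loc W) (ha : Adm F W) :
    PreOn F (fun p q r => T.hat (cycW p q r W)) := by
  refine ⟨fun p hp q hq r hr d => ?_, fun p hp q hq r hr d => ?_, fun p hp q hq r hr d => ?_,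
    fun p hp q hq r hr i hi j hj k hk d d' => ?_⟩
  · rw [cycW_rot (hat_adm3 hW ha hp hq hr d)]
  · rw [cycW_inv (hat_adm3 hW ha hp hq hr d), T.hat_inv (cycW_mem_C3 (hat_adm3 hW ha hp hq hr d))]
  · exact T.hat_cube (cycW_mem_C3 (hat_adm3 hW ha hp hq hr d))
  · have hb := (cycW_isBlk ha hp hq hr d).1
    rw [T.conj _ (cycW_mem_C3 (hat_adm3 hW ha hp hq hr d)) _
      (cycW_mem_C3 (hat_adm3 hW ha hi hj hk d')),
      cycW_conj (hat_adm3 hW ha hi hj hk d') _ (fun x hx => ⟨hb x hx i hi, hb x hx j hj, hb x hx k hk⟩)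
        (hat_adm3 hW ha (hat_cyc_mem hp hq hr hi) (hat_cyc_mem hp hq hr hj) (hat_cyc_mem hp hq hr hk)
          (d'.map (cyc p q r).injective))]
lemma prodOn {F : Set Pt} {W : Set (Cfg S)} (hW : Loc W) (ha : Adm F W) :
    ProdOn F (fun p q r => T.hat (cycW p q r W)) := by
  intro p hp q hq r hr t ht d
  have d1 : D3 q r t := ⟨d.1.2.2, d.2.2.1, d.2.2.2⟩
  have d2 : D3 p t r := ⟨d.2.1, d.1.2.1, d.2.2.2.symm⟩
  let F0 : Finset Pt := {p, q, r, t}
  have hp0 : p ∈ (F0 : Set Pt) := by simp [F0]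
  have hq0 : q ∈ (F0 : Set Pt) := by simp [F0]
  have hr0 : r ∈ (F0 : Set Pt) := by simp [F0]
  have ht0 : t ∈ (F0 : Set Pt) := by simp [F0]
  have ha0 : Adm (F0 : Set Pt) W := ha.mono (by
    intro x hx
    simp only [F0, Finset.coe_insert, Finset.coe_singleton] at hx
    rcases hx with rfl | rfl | rfl | rfl
    exacts [hp, hq, hr, ht]) subset_rfl
  have b1 := cycW_isBlk ha0 hq0 hr0 ht0 d1
  have b2 := cycW_isBlk ha0 hp0 ht0 hr0 d2
  have b3 := b1.mul b2 fun x _ a ha => hat_cyc_mem hp0 ht0 hr0 ha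
  simp only [cyc_prod d] at b3
  have e := b3.unique (cycW_isBlk ha0 hp0 hq0 hr0 d.1)
  have := T.mul _ (cycW_mem_C3 (hat_adm3 hW ha hq hr ht d1)) _
    (cycW_mem_C3 (hat_adm3 hW ha hp ht hr d2))
    (by rw [e]; exact cycW_mem_C3 (hat_adm3 hW ha hp hq hr d.1))
    (smallOrb_of_isBlk (F := F0) Finset.card_le_four b1 b2 fun x _ a ha =>
      ⟨hat_cyc_mem hq0 hr0 ht0 ha, hat_cyc_mem hp0 ht0 hr0 ha⟩)
  rw [e] at this
  exact this
lemma gen_cycW (hp : HasPhases S) :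
    Subgroup.closure {h | ∃ p q r W, Adm3 p q r W ∧ h = T.hat (cycW p q r W)} = ⊤ := by
  rw [eq_top_iff, ← T.gen, Subgroup.closure_le]
  rintro _ ⟨c, hc, rfl⟩
  refine C3_induction hp (P := fun c => T.hat c ∈ Subgroup.closure
    {h | ∃ p q r W, Adm3 p q r W ∧ h = T.hat (cycW p q r W)}) ?_ ?_ ?_ hc
  · rw [T.hat_one]; exact Subgroup.one_mem _
  · exact fun p q r W h => Subgroup.subset_closure ⟨p, q, r, W, h, rfl⟩
  · intro c c' hc hc' hd h1 h2
    rw [(T.hat_disjoint hc hc' hd).1]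
    exact Subgroup.mul_mem _ h1 h2

/-- lifts of elementary three-cycles on `F` over subsets of `W` -/
def blkSub (F : Set Pt) (W : Set (Cfg S)) : Subgroup H :=
  Subgroup.closure {h | ∃ p ∈ F, ∃ q ∈ F, ∃ r ∈ F, ∃ Z, D3 p q r ∧ Loc Z ∧ Z ⊆ W ∧
    h = T.hat (cycW p q r Z)}

/-- Plan: `patch_inj` with `ι` the triples in `F`, `hinj` from `alt_inj`; on the closure `pr γ` is the
block permutation of `f`. -/
theorem blk_inj {F : Finset Pt} {W : Set (Cfg S)} (hW : Loc W) (ha : Adm (F : Set Pt) W) {h : H}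
    (hh : h ∈ T.blkSub F W) (h1 : T.pr h = 1) : h = 1 := by
  classical
  let ι := {x : Pt × Pt × Pt // x.1 ∈ F ∧ x.2.1 ∈ F ∧ x.2.2 ∈ F ∧ D3 x.1 x.2.1 x.2.2}
  let t : ι → Perm Pt := fun i => cyc i.1.1 i.1.2.1 i.1.2.2
  let g : ι → Set (Cfg S) → H := fun i Z => T.hat (cycW i.1.1 i.1.2.1 i.1.2.2 Z)
  have hA : ∀ (i : ι) Z, Loc Z → Z ⊆ W → Adm3 i.1.1 i.1.2.1 i.1.2.2 Z := fun i Z hZ hZW =>
    hat_adm3 hZ (ha.mono subset_rfl hZW) i.2.1 i.2.2.1 i.2.2.2.1 i.2.2.2.2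
  have key : ∃ f : Cfg S → Perm Pt, (h, f) ∈ Subgroup.closure {y : H × (Cfg S → Perm Pt) |
      ∃ i Z, Loc Z ∧ Z ⊆ W ∧ y = (g i Z, fun x => if x ∈ Z then t i else 1)} ∧
      (∀ x ∈ W, ∀ p ∈ (F : Set Pt), T.pr h (pt x p) = pt x (f x p)) ∧
      ∀ x p, p ∉ (F : Set Pt) → f x p = p := by
    clear h1
    induction hh using Subgroup.closure_induction with
    | mem y hy =>
      obtain ⟨p, hp, q, hq, r, hr, Z, d, hZ, hZW, rfl⟩ := hy
      have hb := cycW_isBlk (ha.mono subset_rfl hZW) hp hq hr d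
      refine ⟨fun x => if x ∈ Z then cyc p q r else 1,
        Subgroup.subset_closure ⟨⟨(p, q, r), hp, hq, hr, d⟩, Z, hZ, hZW, rfl⟩, fun x hx a ha' => ?_,
        fun x a ha' => ?_⟩
      · rw [T.pr_hat _ (cycW_mem_C3 (hat_adm3 hZ (ha.mono subset_rfl hZW) hp hq hr d))]
        by_cases hxZ : x ∈ Z
        · simp only [if_pos hxZ]
          exact hb.1 x hxZ a ha'
        · simp only [if_neg hxZ]
          refine hb.2 _ ?_
          rintro ⟨y, hy, b, hb', e⟩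
          obtain ⟨rfl, -⟩ := ha x hx y (hZW hy) a ha' b hb' e
          exact hxZ hy
      · by_cases hxZ : x ∈ Z
        · simp only [if_pos hxZ]
          exact hat_cyc_fix hp hq hr a ha'
        · simp only [if_neg hxZ]
          rfl
    | one => exact ⟨1, Subgroup.one_mem _, fun x _ p _ => by rw [map_one]; rfl, fun _ _ _ => rfl⟩
    | mul y z _ _ h1 h2 =>
      obtain ⟨f, a1, a2, a3⟩ := h1
      obtain ⟨f', b1, b2, b3⟩ := h2
      refine ⟨f * f', Subgroup.mul_mem _ a1 b1, fun x hx p hp => ?_, fun x p hp => ?_⟩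
      · rw [map_mul, Perm.mul_apply, b2 x hx p hp, a2 x hx _ (hat_perm_mem (b3 x) hp)]
        rfl
      · rw [Pi.mul_apply, Perm.mul_apply, b3 x p hp, a3 x p hp]
    | inv y _ h1 =>
      obtain ⟨f, a1, a2, a3⟩ := h1
      have a4 : ∀ x p, p ∉ (F : Set Pt) → (f x)⁻¹ p = p := fun x p hp => by
        rw [Perm.inv_eq_iff_eq, a3 x p hp]
      refine ⟨f⁻¹, Subgroup.inv_mem _ a1, fun x hx p hp => ?_, a4⟩
      rw [map_inv, Perm.inv_eq_iff_eq, Pi.inv_apply, a2 x hx _ (hat_perm_mem (a4 x) hp)]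
      simp
  obtain ⟨f, a1, a2, a3⟩ := key
  refine patch_inj hW t g (fun Z hZ hZW γ hγ => ?_) (fun i Z Z' hZ hZ' h1 h2 hd => ?_)
    (fun i j Z Z' hZ hZ' h1 h2 hd => ?_) a1 fun x hx => ?_
  · refine alt_inj F (T.preOn hZ (ha.mono subset_rfl hZW)) (T.prodOn hZ (ha.mono subset_rfl hZW))
      (Subgroup.closure_mono ?_ hγ) rfl
    rintro _ ⟨i, rfl⟩
    exact ⟨_, i.2.1, _, i.2.2.1, _, i.2.2.2.1, i.2.2.2.2, rfl⟩
  · exact T.hat_union (hA i _ (hZ.union hZ') (Set.union_subset h1 h2)) hZ hZ' hd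
  · exact (T.hat_disjoint (cycW_mem_C3 (hA i Z hZ h1)) (cycW_mem_C3 (hA j Z' hZ' h2))
      (hat_cycW_disjoint ha h1 h2 hd i.2.1 i.2.2.1 i.2.2.2.1 j.2.1 j.2.2.1 j.2.2.2.1 i.2.2.2.2
        j.2.2.2.2)).2
  · ext1 p
    by_cases hp : p ∈ (F : Set Pt)
    · have := a2 x hx p hp
      rw [h1] at this
      exact (ha x hx x hx p hp _ (hat_perm_mem (a3 x) hp) this).2.symm
    · exact a3 x p hp

lemma blk_eq {F : Finset Pt} {W : Set (Cfg S)} (hW : Loc W) (ha : Adm (F : Set Pt) W) {h h' : H}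
    (hh : h ∈ T.blkSub F W) (hh' : h' ∈ T.blkSub F W) (e : T.pr h = T.pr h') : h = h' :=
  mul_inv_eq_one.1 (T.blk_inj hW ha (Subgroup.mul_mem _ hh (Subgroup.inv_mem _ hh'))
    (by rw [map_mul, map_inv, e, mul_inv_cancel]))

end HatSys

namespace AutSys

variable {H : Type} [Group H] (T : AutSys S H)

lemma pr_al (m : LocP S) (h : H) :
    T.pr (T.al m h) = (m : Perm (Om S)) * T.pr h * (m : Perm (Om S))⁻¹ := by
  induction T.toHatSys.mem_gen h using Subgroup.closure_induction with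
  | mem x hx =>
    obtain ⟨c, hc, rfl⟩ := hx
    rw [T.al_hat m c hc, T.pr_hat c hc, T.pr_hat _ (conj_mem_C3 m.2 hc)]
  | one => simp
  | mul x y _ _ h1 h2 => rw [map_mul, map_mul, h1, h2, map_mul]; group
  | inv x _ h1 => rw [map_inv, map_inv, h1, map_inv]; group
lemma al_pr (h h' : H) (m : LocP S) (hm : (m : Perm (Om S)) = T.pr h) :
    T.al m h' = h * h' * h⁻¹ := by
  induction T.toHatSys.mem_gen h' using Subgroup.closure_induction with
  | mem x hx =>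
    obtain ⟨c, hc, rfl⟩ := hx
    rw [T.al_hat m c hc, T.toHatSys.conj_hat h hc, hm]
  | one => simp
  | mul x y _ _ h1 h2 => rw [map_mul, h1, h2]; group
  | inv x _ h1 => rw [map_inv, h1]; group

end AutSys

end Crest.Agent.R189
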