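import Crest.Agent.R189.Basic

/-!
Row 189.  Combinatorial criteria for the finiteness of `H₀` and `H₁` with coefficients in `𝔽₂`.
-/

set_option autoImplicit false

namespace Crest.Agent.R189

variable {S : Wang}

/-- at every scale the space is partitioned into translates of boundedly many local sets -/
def HD (S : Wang) : Prop :=
  ∃ (ι : Type) (_ : Finite ι), ∀ ρ : ℕ, ∃ (Γ : ι → Set (Cfg S)) (u : Cfg S → V) (i : Cfg S → ι),
    (∀ j, Loc (Γ j)) ∧ (Set.range u).Finite ∧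
    (∀ x y, (u y = u x ∧ i y = i x) ↔ y ∈ tr (u x) (Γ (i x))) ∧
    ∀ x y, u x = u y → i x = i y → Agree ρ x y

/-- at every scale the crossings between neighbouring cells have boundedly many types -/
def HC (S : Wang) : Prop :=
  ∃ (ι : Type) (_ : Finite ι), ∀ ρ : ℕ, ∃ (a b : ℕ) (φ1 : Phase S χ1 a) (φ2 : Phase S χ2 b)
    (Y : Set (Cfg S)) (d1 d2 : Cfg S → ι),
    (∀ x ∈ Y, φ1.r x = 0 ∧ φ2.r x = 0) ∧
    (∀ x, φ1.r x = 0 → φ2.r x = 0 → ∃ k : ℤ, ((k * a, 0) : V) +ᵥ x ∈ Y) ∧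
    (∀ x y, φ1.r x = 0 → φ2.r x = 0 → φ1.r y = 0 → φ2.r y = 0 → d1 x = d1 y →
      ∀ u : ℤ, 0 ≤ u → u ≤ a → Agree ρ (((u, 0) : V) +ᵥ x) (((u, 0) : V) +ᵥ y)) ∧
    (∀ x ∈ Y, ∀ y ∈ Y, d2 x = d2 y →
      ∀ u : ℤ, 0 ≤ u → u ≤ b → Agree ρ (((0, u) : V) +ᵥ x) (((0, u) : V) +ᵥ y))

/-- Plan: finitely many local sets have a common radius `ρ`; each is a disjoint union of fibres of
`(u, i)`, so its value lies in the subgroup generated by the `z (Γ j)`, which has at most
`2 ^ card ι` elements.  Hence every finite subset of the image has at most that many elements. -/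
theorem HD.h0 (h : HD S) : H0 S := by
  classical
  obtain ⟨ι, hι, h⟩ := h
  have := Fintype.ofFinite ι
  intro A _ z h2 hu ht
  by_contra hinf
  obtain ⟨T, hT, hc⟩ := Set.Infinite.exists_subset_card_eq hinf (Fintype.card (ι → Bool) + 1)
  have hW : ∀ t : T, ∃ W, Loc W ∧ z W = t := fun t => hT t.2
  choose W hW1 hW2 using hW
  obtain ⟨ρ, hρ⟩ : LocF (fun (x : Cfg S) (t : T) => x ∈ W t) := LocF.pi hW1
  obtain ⟨Γ, u, i, a1, a2, a3, a4⟩ := h ρ
  let g : (ι → Bool) → A := fun e => ∏ j, if e j then z (Γ j) else 1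
  have hmul : ∀ e e', g e * g e' = g (fun j => xor (e j) (e' j)) := by
    intro e e'
    simp only [g, ← Finset.prod_mul_distrib]
    refine Finset.prod_congr rfl fun j _ => ?_
    have := h2 _ (a1 j)
    rw [sq] at this
    by_cases b1 : e j = true <;> by_cases b2 : e' j = true <;> simp [b1, b2, this]
  have hone : g (fun _ => false) = 1 := by simp [g]
  have hgen : ∀ j, g (fun j' => decide (j' = j)) = z (Γ j) := fun j => by simp [g]
  have hempty : z ∅ = 1 := by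
    have := hu ∅ ∅ Loc.empty Loc.empty (Set.disjoint_empty _)
    rw [Set.union_self] at this
    exact left_eq_mul.1 this
  let f : Cfg S → V × ι := fun x => (u x, i x)
  have hfib : ∀ x y, f y = f x ↔ y ∈ tr (u x) (Γ (i x)) := fun x y => by
    rw [← a3, Prod.ext_iff]
  have hfin : (Set.range f).Finite := by
    refine (a2.prod (Set.finite_univ (α := ι))).subset ?_
    rintro _ ⟨x, rfl⟩
    exact ⟨⟨x, rfl⟩, trivial⟩
  have hf : LocF f := by
    refine locF_of_closed hfin fun x b hb => ?_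
    obtain ⟨y₀, rfl, -⟩ := hb 0
    obtain ⟨r, hr⟩ := ((a1 (i y₀)).tr (u y₀)).exists_radius
    obtain ⟨y, h1, h3⟩ := hb r
    exact (hfib y₀ x).2 (hr y x h3.symm ((hfib y₀ y).1 h1))
  have key : ∀ t : T, ∀ U : Finset (V × ι), z (W t ∩ f ⁻¹' (U : Set (V × ι))) ∈ Set.range g := by
    intro t U
    induction U using Finset.induction_on with
    | empty => exact ⟨fun _ => false, by simp [hone, hempty]⟩
    | insert b U hb ih =>
      have e : W t ∩ f ⁻¹' ((insert b U : Finset (V × ι)) : Set (V × ι)) =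
          (W t ∩ f ⁻¹' {b}) ∪ (W t ∩ f ⁻¹' (U : Set (V × ι))) := by
        ext x; simp only [Finset.coe_insert, Set.mem_inter_iff, Set.mem_preimage,
          Set.mem_insert_iff, Set.mem_union, Set.mem_singleton_iff]; tauto
      have hd : Disjoint (W t ∩ f ⁻¹' {b}) (W t ∩ f ⁻¹' (U : Set (V × ι))) := by
        rw [Set.disjoint_left]
        rintro x ⟨-, h1⟩ ⟨-, h3⟩
        simp only [Set.mem_preimage, Set.mem_singleton_iff, Finset.mem_coe] at h1 h3
        exact hb (h1 ▸ h3)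
      rw [e, hu _ _ ((hW1 t).inter (hf.preimage _)) ((hW1 t).inter (hf.preimage _)) hd]
      obtain ⟨e', he'⟩ := ih
      have h1 : z (W t ∩ f ⁻¹' {b}) ∈ Set.range g := by
        rcases (W t ∩ f ⁻¹' {b}).eq_empty_or_nonempty with h0 | ⟨x, hx, hxb⟩
        · rw [h0, hempty]; exact ⟨_, hone⟩
        · have hxb' : f x = b := hxb
          have : W t ∩ f ⁻¹' {b} = tr (u x) (Γ (i x)) := by
            ext y
            rw [← hfib, hxb']
            refine ⟨fun h => h.2, fun h => ⟨?_, h⟩⟩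
            have h3 : f x = f y := hxb'.trans h.symm
            exact (congrFun (hρ x y (a4 x y (congrArg Prod.fst h3) (congrArg Prod.snd h3))) t).mp hx
          rw [this, ht _ _ (a1 _)]
          exact ⟨_, hgen _⟩
      obtain ⟨e'', he''⟩ := h1
      exact ⟨_, (hmul e'' e').symm.trans (by rw [he', he''])⟩
  have hsub : T ⊆ Finset.univ.image g := by
    intro t ht
    have := key ⟨t, ht⟩ hfin.toFinset
    have e : W ⟨t, ht⟩ ∩ f ⁻¹' ((hfin.toFinset : Finset (V × ι)) : Set (V × ι)) = W ⟨t, ht⟩ := by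
      ext x; simp
    rw [e, hW2] at this
    obtain ⟨e', he'⟩ := this
    exact Finset.mem_image.2 ⟨e', Finset.mem_univ _, he'⟩
  have := (Finset.card_le_card hsub).trans Finset.card_image_le
  rw [Finset.card_univ] at this
  omega

lemma hom_locF_dep {β γ : Type} {r : Cfg S → β} (hr : LocF r) {F : β → Cfg S → γ}
    (hF : ∀ b, LocF (F b)) : LocF (fun x => F (r x) x) := by
  have := hr.finite_range.to_subtype
  obtain ⟨ρ, hρ⟩ := (LocF.pi (ι := Set.range r) fun b => hF b).prod hr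
  refine ⟨ρ, fun x y hxy => ?_⟩
  have h := hρ x y hxy
  have h1 := congrFun (congrArg Prod.fst h) ⟨r x, x, rfl⟩
  have h2 : r x = r y := congrArg Prod.snd h
  simp only at h1 ⊢
  rw [h1, h2]

lemma hom_int_ind {p : ℤ → Prop} (h0 : p 0) (h : ∀ k, p k ↔ p (k + 1)) (k : ℤ) : p k := by
  induction k using Int.induction_on with
  | zero => exact h0
  | succ k ih => exact (h k).1 ih
  | pred k ih => exact (h _).2 (by rwa [sub_add_cancel])

lemma hom_V_ind {p : V → Prop} (h0 : p 0) (h1 : ∀ v, p v ↔ p (v + e1)) (h2 : ∀ v, p v ↔ p (v + e2))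
    (v : V) : p v := by
  obtain ⟨a, b⟩ := v
  refine hom_int_ind (p := fun b => p (a, b)) (hom_int_ind (p := fun a => p (a, 0)) h0 ?_ a) ?_ b
  · intro k
    exact h1 (k, 0)
  · intro k
    have := h2 (a, k)
    simpa [e2] using this

lemma hom_isum (g : ℤ → ZMod 2) : ∃ F : ℤ → ZMod 2, F 0 = 0 ∧ ∀ k, F (k + 1) = F k + g k := by
  refine ⟨fun k => ∑ j ∈ Finset.Ico 0 k, g j - ∑ j ∈ Finset.Ico k 0, g j, by simp, fun k => ?_⟩
  rcases le_or_gt 0 k with hk | hk
  · have e1 : Finset.Ico 0 (k + 1) = insert k (Finset.Ico 0 k) := by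
      ext j; simp only [Finset.mem_Ico, Finset.mem_insert]; omega
    have e2 : Finset.Ico (k + 1) 0 = ∅ := Finset.Ico_eq_empty (by omega)
    have e3 : Finset.Ico k 0 = ∅ := Finset.Ico_eq_empty (by omega)
    simp only [e1, e2, e3]
    rw [Finset.sum_insert (by simp)]
    ring
  · have e1 : Finset.Ico k 0 = insert k (Finset.Ico (k + 1) 0) := by
      ext j; simp only [Finset.mem_Ico, Finset.mem_insert]; omega
    have e2 : Finset.Ico 0 (k + 1) = ∅ := Finset.Ico_eq_empty (by omega)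
    have e3 : Finset.Ico 0 k = ∅ := Finset.Ico_eq_empty (by omega)
    simp only [e1, e2, e3]
    rw [Finset.sum_insert (by simp)]
    ring

/-- potentials of a cycle -/
structure HomPot (η₁ η₂ : Cfg S → ZMod 2) (c : V → Cfg S → ZMod 2) : Prop where
  zero : ∀ x, c 0 x = 0
  s1 : ∀ v x, c (v + e1) x = c v x + η₂ ((v + e1) +ᵥ x)
  s2 : ∀ v x, c (v + e2) x = c v x + η₁ ((v + e2) +ᵥ x)

lemma hom_two (a : ZMod 2) : a + a = 0 := CharTwo.add_self_eq_zero a

lemma hom_exists_pot {η₁ η₂ : Cfg S → ZMod 2} (h : IsCycle η₁ η₂) : ∃ c, HomPot η₁ η₂ c := by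
  choose F hF0 hF using hom_isum
  refine ⟨fun v x => F (fun k => η₂ (((k + 1, 0) : V) +ᵥ x)) v.1 +
    F (fun k => η₁ (((v.1, k + 1) : V) +ᵥ x)) v.2, fun x => by simp [hF0], ?_, ?_⟩
  · rintro ⟨a, b⟩ x
    have e : ∀ b : ℤ, ((a, b) : V) + e1 = (a + 1, b) := fun b => by simp [e1]
    simp only [e, hF]
    have : F (fun k => η₁ (((a + 1, k + 1) : V) +ᵥ x)) b + η₂ (((a + 1, 0) : V) +ᵥ x) =
        F (fun k => η₁ (((a, k + 1) : V) +ᵥ x)) b + η₂ (((a + 1, b) : V) +ᵥ x) := by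
      refine hom_int_ind (p := fun b => F (fun k => η₁ (((a + 1, k + 1) : V) +ᵥ x)) b +
        η₂ (((a + 1, 0) : V) +ᵥ x) = F (fun k => η₁ (((a, k + 1) : V) +ᵥ x)) b +
        η₂ (((a + 1, b) : V) +ᵥ x)) (by simp [hF0]) (fun k => ?_) b
      have h1 := h.2.2 (((a + 1, k + 1) : V) +ᵥ x)
      have e1' : -e1 + ((a + 1, k + 1) : V) = (a, k + 1) := by simp [e1]
      have e2' : -e2 + ((a + 1, k + 1) : V) = (a + 1, k) := by simp [e2]
      rw [← add_vadd, ← add_vadd, e1', e2'] at h1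
      simp only [hF]
      have t1 := hom_two (η₁ (((a, k + 1) : V) +ᵥ x))
      have t2 := hom_two (η₂ (((a + 1, k + 1) : V) +ᵥ x))
      constructor
      · intro h2
        linear_combination h2 + h1 - t1 - t2
      · intro h2
        linear_combination h2 - h1 + t1 + t2
    linear_combination this
  · rintro ⟨a, b⟩ x
    have e : ((a, b) : V) + e2 = (a, b + 1) := by simp [e2]
    simp only [e, hF]
    ring

lemma HomPot.cocycle {η₁ η₂ : Cfg S → ZMod 2} {c : V → Cfg S → ZMod 2} (h : HomPot η₁ η₂ c)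
    (v w : V) (x : Cfg S) : c (v + w) x = c v x + c w (v +ᵥ x) := by
  refine hom_V_ind (p := fun w => c (v + w) x = c v x + c w (v +ᵥ x)) (by simp [h.zero])
    (fun w => ?_) (fun w => ?_) w
  · rw [← add_assoc, h.s1, h.s1, ← add_vadd, add_comm (w + e1) v, ← add_assoc v, ← add_assoc,
      add_left_inj]
  · rw [← add_assoc, h.s2, h.s2, ← add_vadd, add_comm (w + e2) v, ← add_assoc v, ← add_assoc,
      add_left_inj]

lemma HomPot.locF {η₁ η₂ : Cfg S → ZMod 2} {c : V → Cfg S → ZMod 2} (h : HomPot η₁ η₂ c)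
    (h1 : LocF η₁) (h2 : LocF η₂) (v : V) : LocF (c v) := by
  have key : ∀ {f g k : Cfg S → ZMod 2}, LocF k → (∀ x, g x = f x + k x) → (LocF f ↔ LocF g) := by
    intro f g k hk e
    constructor
    · intro hf
      rw [show g = fun x => f x + k x from funext e]
      exact (hf.prod hk).comp fun z => z.1 + z.2
    · intro hg
      rw [show f = fun x => g x - k x from funext fun x => by rw [e x]; ring]
      exact (hg.prod hk).comp fun z => z.1 - z.2
  refine hom_V_ind (p := fun v => LocF (c v)) ?_ (fun v => key (h2.vadd _) (h.s1 v))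
    (fun v => key (h1.vadd _) (h.s2 v)) v
  rw [show c 0 = fun _ => 0 from funext h.zero]
  exact LocF.const _

lemma HomPot.add {η₁ η₂ η₁' η₂' : Cfg S → ZMod 2} {c c' : V → Cfg S → ZMod 2} (h : HomPot η₁ η₂ c)
    (h' : HomPot η₁' η₂' c') :
    HomPot (fun x => η₁ x + η₁' x) (fun x => η₂ x + η₂' x) (fun v x => c v x + c' v x) :=
  ⟨fun x => by simp [h.zero, h'.zero], fun v x => by rw [h.s1, h'.s1]; ring,
    fun v x => by rw [h.s2, h'.s2]; ring⟩

lemma HomPot.bdry {η₁ η₂ : Cfg S → ZMod 2} {c : V → Cfg S → ZMod 2} (h : HomPot η₁ η₂ c)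
    (h1 : LocF η₁) (h2 : LocF η₂) {a b : ℕ} (φ1 : Phase S χ1 a) (φ2 : Phase S χ2 b)
    {Y : Set (Cfg S)}
    (hY : ∀ x, φ1.r x = 0 → φ2.r x = 0 → ∃ k : ℤ, ((k * a, 0) : V) +ᵥ x ∈ Y)
    (z1 : ∀ x, φ1.r x = 0 → φ2.r x = 0 → c (a, 0) x = 0) (z2 : ∀ x ∈ Y, c (0, b) x = 0) :
    ∃ ξ : Cfg S → ZMod 2, LocF ξ ∧ (∀ x, η₁ x = ξ x + ξ ((-e2) +ᵥ x)) ∧
      (∀ x, η₂ x = ξ x + ξ ((-e1) +ᵥ x)) := by
  have hbase : ∀ (k m : ℤ) x, φ1.r x = 0 → φ2.r x = 0 →
      φ1.r (((k * a, m * b) : V) +ᵥ x) = 0 ∧ φ2.r (((k * a, m * b) : V) +ᵥ x) = 0 := by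
    intro k m x a1 a2
    rw [φ1.r_vadd, φ2.r_vadd, a1, a2]
    simp
  have t1 : ∀ (k : ℤ) x, φ1.r x = 0 → φ2.r x = 0 → c (k * a, 0) x = 0 := by
    intro k x a1 a2
    refine hom_int_ind (p := fun k => c (k * a, 0) x = 0) (by rw [zero_mul]; exact h.zero x)
      (fun k => ?_) k
    have e : (((k + 1) * a, 0) : V) = (k * a, 0) + ((a : ℤ), 0) := by simp [add_mul]
    have := hbase k 0 x a1 a2
    rw [zero_mul] at this
    rw [e, h.cocycle, z1 _ this.1 this.2, add_zero]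
  have t2 : ∀ x, φ1.r x = 0 → φ2.r x = 0 → c (0, b) x = 0 := by
    intro x a1 a2
    obtain ⟨k, hk⟩ := hY x a1 a2
    have b1 := h.cocycle (k * a, 0) (0, b) x
    have b2 := h.cocycle (0, b) (k * a, 0) x
    have := hbase 0 1 x a1 a2
    rw [zero_mul, one_mul] at this
    rw [t1 k x a1 a2, z2 _ hk, add_zero] at b1
    rw [t1 k _ this.1 this.2, add_zero, add_comm, b1] at b2
    exact b2.symm
  have t3 : ∀ (m : ℤ) x, φ1.r x = 0 → φ2.r x = 0 → c (0, m * b) x = 0 := by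
    intro m x a1 a2
    refine hom_int_ind (p := fun m => c (0, m * b) x = 0) (by rw [zero_mul]; exact h.zero x)
      (fun m => ?_) m
    have e : ((0, (m + 1) * b) : V) = (0, m * b) + (0, (b : ℤ)) := by simp [add_mul]
    have := hbase 0 m x a1 a2
    rw [zero_mul] at this
    rw [e, h.cocycle, t2 _ this.1 this.2, add_zero]
  have t4 : ∀ (s : V) x, φ1.r x = 0 → φ2.r x = 0 → (a : ℤ) ∣ s.1 → (b : ℤ) ∣ s.2 → c s x = 0 := by
    rintro ⟨s1, s2⟩ x a1 a2 ⟨k, hk⟩ ⟨m, hm⟩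
    have e : ((s1, s2) : V) = (k * a, 0) + (0, m * b) := by
      simp only at hk hm
      simp [hk, hm, mul_comm]
    have := hbase k 0 x a1 a2
    rw [zero_mul] at this
    rw [e, h.cocycle, t1 k x a1 a2, t3 m _ this.1 this.2, add_zero]
  let w : Cfg S → V := fun x => (-φ1.r x, -φ2.r x)
  have key : ∀ (v : V) x, c v x + c (w (v +ᵥ x)) (v +ᵥ x) = c (w x) x := by
    intro v x
    have e : v + w (v +ᵥ x) = w x + (v + w (v +ᵥ x) - w x) := by abel
    rw [← h.cocycle, e, h.cocycle, t4 _ (w x +ᵥ x), add_zero]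
    · rw [φ1.r_vadd]; simp [w]
    · rw [φ2.r_vadd]; simp [w]
    · have := (φ1.eqv v x).neg_right
      have e' : (v + w (v +ᵥ x) - w x).1 = -(φ1.r (v +ᵥ x) - φ1.r x - χ1 v) := by
        simp only [w, Prod.fst_sub, Prod.fst_add, χ1_apply]; ring
      rwa [e']
    · have := (φ2.eqv v x).neg_right
      have e' : (v + w (v +ᵥ x) - w x).2 = -(φ2.r (v +ᵥ x) - φ2.r x - χ2 v) := by
        simp only [w, Prod.snd_sub, Prod.snd_add, χ2_apply]; ring
      rwa [e']
  refine ⟨fun x => c (w x) x, hom_locF_dep ((φ1.loc.prod φ2.loc).comp fun z => ((-z.1, -z.2) : V))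
    (h.locF h1 h2), fun x => ?_, fun x => ?_⟩
  · have b1 := key e2 ((-e2) +ᵥ x)
    have b2 := h.s2 0 ((-e2) +ᵥ x)
    rw [zero_add, h.zero, zero_add, vadd_neg_vadd] at b2
    rw [vadd_neg_vadd, b2] at b1
    have := hom_two (c (w x) x)
    linear_combination b1 - this
  · have b1 := key e1 ((-e1) +ᵥ x)
    have b2 := h.s1 0 ((-e1) +ᵥ x)
    rw [zero_add, h.zero, zero_add, vadd_neg_vadd] at b2
    rw [vadd_neg_vadd, b2] at b1
    have := hom_two (c (w x) x)
    linear_combination b1 - this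

lemma hom_nat_ind {p : ℤ → Prop} {n : ℕ} (h0 : p 0) (h : ∀ u : ℤ, 0 ≤ u → u + 1 ≤ n → p u → p (u + 1)) :
    p n := by
  have : ∀ m : ℕ, m ≤ n → p m := by
    intro m
    induction m with
    | zero => exact fun _ => h0
    | succ m ih =>
      intro hm
      push_cast
      exact h m (Int.natCast_nonneg m) (by exact_mod_cast hm) (ih (by omega))
  exact this n le_rfl

/-- Plan.  A cycle `η` gives a cocycle `c v x` (`c e1 x = η₂ (e1 + x)`, `c e2 x = η₁ (e2 + x)`,
`c (v + w) x = c v x + c w (v + x)`; define it along the path first horizontally, then vertically).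
For finitely many cycles take a common radius `ρ` (plus one) and let `Δ η : ι ⊕ ι → ZMod 2` record
`c (a, 0) x` on `{d1 = i}` and `c (0, b) x` on `Y ∩ {d2 = i}` (at a chosen witness).  If `Δ η = Δ η'`, then for
`η - η'` the cocycle vanishes on `aℤ × bℤ` at all base points, and `ξ x = c (-(φ1.r x), -(φ2.r x)) x` is
local with `η - η' = ∂ ξ`.  So there are at most `2 ^ (2 card ι)` pairwise inequivalent cycles; take a
maximal such family. -/
theorem HC.h1 (h : HC S) : H1 S := by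
  classical
  obtain ⟨ι, hι, h⟩ := h
  have := Fintype.ofFinite ι
  let C := {ζ : (Cfg S → ZMod 2) × (Cfg S → ZMod 2) // IsCycle ζ.1 ζ.2}
  let R : C → C → Prop := fun η ζ => ∃ ξ : Cfg S → ZMod 2, LocF ξ ∧
    (∀ x, η.1.1 x = ζ.1.1 x + ξ x + ξ ((-e2) +ᵥ x)) ∧ (∀ x, η.1.2 x = ζ.1.2 x + ξ x + ξ ((-e1) +ᵥ x))
  have hR : Equivalence R := by
    refine ⟨fun η => ⟨fun _ => 0, LocF.const _, fun x => by simp, fun x => by simp⟩, ?_, ?_⟩
    · rintro η ζ ⟨ξ, h1, h2, h3⟩
      refine ⟨ξ, h1, fun x => ?_, fun x => ?_⟩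
      · linear_combination -h2 x - hom_two (ξ x) - hom_two (ξ ((-e2) +ᵥ x))
      · linear_combination -h3 x - hom_two (ξ x) - hom_two (ξ ((-e1) +ᵥ x))
    · rintro η ζ κ ⟨ξ, h1, h2, h3⟩ ⟨ξ', h1', h2', h3'⟩
      refine ⟨fun x => ξ x + ξ' x, (h1.prod h1').comp fun z => z.1 + z.2, fun x => ?_, fun x => ?_⟩
      · linear_combination h2 x + h2' x
      · linear_combination h3 x + h3' x
  let s : Setoid C := ⟨R, hR⟩
  have hfin : Finite (Quotient s) := by
    by_contra hinf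
    rw [not_finite_iff_infinite] at hinf
    obtain ⟨T, hT⟩ := Infinite.exists_subset_card_eq (Quotient s)
      (Fintype.card ((ι → ZMod 2) × (ι → ZMod 2)) + 1)
    obtain ⟨ρ, hρ⟩ : LocF (fun (x : Cfg S) (t : T) => (t.1.out.1.1 x, t.1.out.1.2 x)) :=
      LocF.pi fun t => t.1.out.2.1.prod t.1.out.2.2.1
    obtain ⟨a, b, φ1, φ2, Y, d1, d2, a1, a2, a3, a4⟩ := h ρ
    choose c hc using fun η : C => hom_exists_pot η.2
    let Δ : Quotient s → (ι → ZMod 2) × (ι → ZMod 2) := fun t =>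
      (fun j => if hj : ∃ x, (φ1.r x = 0 ∧ φ2.r x = 0) ∧ d1 x = j then c t.out (a, 0) hj.choose else 0,
       fun j => if hj : ∃ x, x ∈ Y ∧ d2 x = j then c t.out (0, b) hj.choose else 0)
    have hΔ1 : ∀ t ∈ T, ∀ x, φ1.r x = 0 → φ2.r x = 0 → (Δ t).1 (d1 x) = c t.out (a, 0) x := by
      intro t ht x b1 b2
      have hj : ∃ y, (φ1.r y = 0 ∧ φ2.r y = 0) ∧ d1 y = d1 x := ⟨x, ⟨b1, b2⟩, rfl⟩
      simp only [Δ, dif_pos hj]
      have hs := hj.choose_spec
      refine hom_nat_ind (p := fun u => c t.out (u, 0) hj.choose = c t.out (u, 0) x) ?_ ?_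
      · exact ((hc _).zero _).trans ((hc _).zero _).symm
      · intro u h0 h1 ih
        have e : ((u + 1, 0) : V) = (u, 0) + e1 := by simp [e1]
        have := congrArg Prod.snd (congrFun (hρ _ _
          (a3 _ _ hs.1.1 hs.1.2 b1 b2 hs.2 (u + 1) (by omega) h1)) ⟨t, ht⟩)
        simp only at this
        rw [e, (hc _).s1, (hc _).s1, ih, ← e, this]
    have hΔ2 : ∀ t ∈ T, ∀ x ∈ Y, (Δ t).2 (d2 x) = c t.out (0, b) x := by
      intro t ht x b1
      have hj : ∃ y, y ∈ Y ∧ d2 y = d2 x := ⟨x, b1, rfl⟩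
      simp only [Δ, dif_pos hj]
      have hs := hj.choose_spec
      refine hom_nat_ind (p := fun u => c t.out (0, u) hj.choose = c t.out (0, u) x) ?_ ?_
      · exact ((hc _).zero _).trans ((hc _).zero _).symm
      · intro u h0 h1 ih
        have e : ((0, u + 1) : V) = (0, u) + e2 := by simp [e2]
        have := congrArg Prod.fst (congrFun (hρ _ _
          (a4 _ hs.1 _ b1 hs.2 (u + 1) (by omega) h1)) ⟨t, ht⟩)
        simp only at this
        rw [e, (hc _).s2, (hc _).s2, ih, ← e, this]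
    obtain ⟨t, ht, t', ht', hne, e⟩ := Finset.exists_ne_map_eq_of_card_lt_of_maps_to
      (s := T) (t := Finset.univ) (f := Δ) (by rw [hT, Finset.card_univ]; omega)
      (fun _ _ => Finset.mem_univ _)
    obtain ⟨ξ, b1, b2, b3⟩ := ((hc t.out).add (hc t'.out)).bdry
      ((t.out.2.1.prod t'.out.2.1).comp fun z => z.1 + z.2)
      ((t.out.2.2.1.prod t'.out.2.2.1).comp fun z => z.1 + z.2) φ1 φ2 a2
      (fun x h1 h2 => by
        rw [← hΔ1 t ht x h1 h2, ← hΔ1 t' ht' x h1 h2, e, hom_two])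
      (fun x hx => by
        rw [← hΔ2 t ht x hx, ← hΔ2 t' ht' x hx, e, hom_two])
    refine hne (Quotient.out_equiv_out.1 ⟨ξ, b1, fun x => ?_, fun x => ?_⟩)
    · linear_combination b2 x - hom_two (t'.out.1.1 x)
    · linear_combination b3 x - hom_two (t'.out.1.2 x)
  refine ⟨Set.range fun q : Quotient s => q.out.1, Set.finite_range _, ?_, fun η₁ η₂ hη => ?_⟩
  · rintro _ ⟨q, rfl⟩
    exact q.out.2
  · exact ⟨_, ⟨Quotient.mk s ⟨(η₁, η₂), hη⟩, rfl⟩,
      hR.symm (Quotient.mk_out (s := s) ⟨(η₁, η₂), hη⟩)⟩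

end Crest.Agent.R189
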