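import Crest.Agent.R189.OMP

/-!
Row 189.  Partitions and projection valued measures in a regular orthomodular poset.
-/

set_option autoImplicit false

namespace Crest.Agent.R189

namespace OMP

variable {P : Type} [OMP P]

/-- sum of a list -/
def lsum : List P → P
  | [] => zero
  | x :: l => add x (lsum l)

lemma pvm_orth_lsum {l : List P} (hl : l.Pairwise orth) {w : P} (h : ∀ x ∈ l, orth w x) :
    orth w (lsum l) := by
  induction l generalizing w with
  | nil => exact orth_zero w
  | cons x l ih =>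
    obtain ⟨h1, h2⟩ := List.pairwise_cons.1 hl
    exact (orth_add _ _ _ (ih h2 h1)).2
      ⟨h x List.mem_cons_self, ih h2 fun y hy => h y (List.mem_cons_of_mem _ hy)⟩

lemma orth_lsum {l : List P} (hl : l.Pairwise orth) {w : P} :
    orth w (lsum l) ↔ ∀ x ∈ l, orth w x := by
  induction l with
  | nil => simpa [lsum] using orth_zero w
  | cons x l ih =>
    obtain ⟨h1, h2⟩ := List.pairwise_cons.1 hl
    have h3 : orth x (lsum l) := pvm_orth_lsum h2 h1
    rw [lsum, orth_add _ _ _ h3, ih h2, List.forall_mem_cons]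
lemma le_lsum {l : List P} (hl : l.Pairwise orth) {x : P} (hx : x ∈ l) : le x (lsum l) := by
  induction l with
  | nil => simp at hx
  | cons y l ih =>
    obtain ⟨h1, h2⟩ := List.pairwise_cons.1 hl
    have h3 : orth y (lsum l) := (orth_lsum h2).2 h1
    rcases List.mem_cons.1 hx with rfl | hx
    · exact le_add_left h3
    · exact le_trans (ih h2 hx) (le_add_right h3)
lemma lsum_append {l l' : List P} (hl : (l ++ l').Pairwise orth) :
    lsum (l ++ l') = add (lsum l) (lsum l') := by
  induction l with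
  | nil => exact (zero_add _).symm
  | cons x l ih =>
    rw [List.cons_append] at hl
    obtain ⟨h1, h2⟩ := List.pairwise_cons.1 hl
    obtain ⟨h3, h4, h5⟩ := List.pairwise_append.1 h2
    rw [List.cons_append, lsum, lsum, ih h2, add_assoc]
    · exact (orth_lsum h3).2 fun y hy => h1 y (List.mem_append_left _ hy)
    · exact (orth_lsum h4).2 fun y hy => h1 y (List.mem_append_right _ hy)
    · exact (orth_lsum h4).2 fun y hy =>
        orth_symm _ _ ((orth_lsum h3).2 fun z hz => orth_symm _ _ (h5 z hz y hy))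
lemma Compat.lsum {l : List P} (hl : l.Pairwise orth) {w : P} (h : ∀ x ∈ l, Compat w x) :
    Compat w (lsum l) := by
  induction l with
  | nil => exact Compat.of_orth (orth_zero w)
  | cons x l ih =>
    obtain ⟨h1, h2⟩ := List.pairwise_cons.1 hl
    exact Compat.add_right ((orth_lsum h2).2 h1) (h x List.mem_cons_self)
      (ih h2 fun y hy => h y (List.mem_cons_of_mem _ hy))

/-- `q` is a partition of `e` -/
def IsPart {ι : Type} (e : P) (q : ι → P) : Prop :=
  (∀ i j, i ≠ j → orth (q i) (q j)) ∧ (∀ i, le (q i) e) ∧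
    ∀ w, le w e → (∀ i, orth w (q i)) → w = zero

/-- finite gluing -/
lemma Compat.glue_part {ι : Type} [Finite ι] {e : P} {q : ι → P} (hq : IsPart e q) {x y : P}
    (hxe : le x e) (hye : le y e) (hx : ∀ i, Compat (q i) x) (hy : ∀ i, Compat (q i) y)
    (h : ∀ i, Compat (inf (q i) x) (inf (q i) y)) : Compat x y := by
  classical
  obtain ⟨L, hL, hL'⟩ : ∃ L : List ι, L.Nodup ∧ ∀ i, i ∈ L := by
    have := Fintype.ofFinite ι
    exact ⟨Finset.univ.toList, Finset.nodup_toList _, fun i => by simp⟩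
  have hp : ∀ L : List ι, L.Nodup → (L.map q).Pairwise orth := fun L hL =>
    List.pairwise_map.2 (hL.imp fun {i j} hij => hq.1 i j hij)
  have hc : ∀ {z : P}, (∀ i, Compat (q i) z) → ∀ L : List ι, L.Nodup →
      Compat z (OMP.lsum (L.map q)) := fun hz L hL =>
    Compat.lsum (hp L hL) fun y hy => by
      obtain ⟨i, -, rfl⟩ := List.mem_map.1 hy
      exact (hz i).symm
  have key : ∀ L : List ι, L.Nodup →
      Compat (inf x (OMP.lsum (L.map q))) (inf y (OMP.lsum (L.map q))) := by
    intro L hL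
    induction L with
    | nil =>
      rw [List.map_nil, OMP.lsum, inf_eq_zero (orth_zero x)]
      exact Compat.of_orth (zero_orth _)
    | cons i L ih =>
      obtain ⟨h1, h2⟩ := List.nodup_cons.1 hL
      have ho : orth (q i) (OMP.lsum (L.map q)) :=
        (orth_lsum (hp L h2)).2 (List.pairwise_cons.1 (hp _ hL)).1
      have ho' : ∀ z w : P, orth (inf z (q i)) (inf w (OMP.lsum (L.map q))) := fun z w =>
        orth_of_le (inf_le_right _ _)
          (orth_symm _ _ (orth_of_le (inf_le_right _ _) (orth_symm _ _ ho)))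
      rw [List.map_cons, OMP.lsum, inf_add ho (hx i).symm (hc hx L h2),
        inf_add ho (hy i).symm (hc hy L h2)]
      have hi := h i
      rw [inf_comm (q i) x, inf_comm (q i) y] at hi
      refine Compat.add_right (ho' y y) ?_ ?_
      · exact (Compat.add_right (ho' x x) hi.symm (Compat.of_orth (ho' y x))).symm
      · exact (Compat.add_right (ho' x x) (Compat.of_orth (ho' x y)).symm (ih h2).symm).symm
  have hle : le (OMP.lsum (L.map q)) e :=
    orth_symm _ _ ((orth_lsum (hp L hL)).2 fun y hy => by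
      obtain ⟨i, -, rfl⟩ := List.mem_map.1 hy
      exact orth_symm _ _ (hq.2.1 i))
  have he : OMP.lsum (L.map q) = e := by
    have h1 := orth_sub hle
    have h2 := add_sub hle
    have h3 : sub e (OMP.lsum (L.map q)) = zero := by
      refine hq.2.2 _ ?_ fun i => ?_
      · have := le_add_right h1
        rwa [h2] at this
      · exact (orth_lsum (hp L hL)).1 (orth_symm _ _ h1) _ (List.mem_map_of_mem (hL' i))
    rwa [h3, add_zero] at h2
  have := key L hL
  rwa [he, inf_eq_left hxe, inf_eq_left hye] at this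

lemma IsPart.exists_ne_zero {ι : Type} {e : P} {q : ι → P} (hq : IsPart e q) (he : e ≠ zero) :
    ∃ i, q i ≠ zero := by
  by_contra hn
  push Not at hn
  exact he (hq.2.2 e (le_refl e) fun i => by rw [hn i]; exact orth_zero e)

/-- projection valued measure on the subsets of `A` with total mass `e` -/
structure IsPVM {A : Type} (e : P) (m : Set A → P) : Prop where
  univ : m Set.univ = e
  orth : ∀ U U', Disjoint U U' → orth (m U) (m U')
  union : ∀ U U', Disjoint U U' → m (U ∪ U') = add (m U) (m U')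

namespace IsPVM

variable {A : Type} {e : P} {m : Set A → P}

lemma pvm_split (h : IsPVM e m) (U U' : Set A) :
    OMP.orth (m (U ∩ U')) (m (U \ U')) ∧ OMP.orth (m (U ∩ U')) (m (U' \ U)) ∧
      OMP.orth (m (U \ U')) (m (U' \ U)) ∧ m U = add (m (U ∩ U')) (m (U \ U')) ∧
      m U' = add (m (U ∩ U')) (m (U' \ U)) := by
  have d1 : Disjoint (U ∩ U') (U \ U') := Set.disjoint_sdiff_right.mono_left Set.inter_subset_right
  have d2 : Disjoint (U ∩ U') (U' \ U) := Set.disjoint_sdiff_right.mono_left Set.inter_subset_left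
  have d3 : Disjoint (U \ U') (U' \ U) := disjoint_sdiff_sdiff
  refine ⟨h.orth _ _ d1, h.orth _ _ d2, h.orth _ _ d3, ?_, ?_⟩
  · rw [← h.union _ _ d1, Set.inter_union_sdiff]
  · rw [← h.union _ _ d2, Set.inter_comm, Set.inter_union_sdiff]

lemma empty (h : IsPVM e m) : m ∅ = zero := orth_self _ (h.orth ∅ ∅ (by simp))
lemma mono (h : IsPVM e m) {U U' : Set A} (hs : U ⊆ U') : le (m U) (m U') := by
  have h1 : Disjoint U (U' \ U) := Set.disjoint_sdiff_right
  have h2 := le_add_left (h.orth _ _ h1)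
  rwa [← h.union _ _ h1, Set.union_sdiff_cancel hs] at h2
lemma le_e (h : IsPVM e m) (U : Set A) : le (m U) e := h.univ ▸ h.mono (Set.subset_univ U)
lemma compat (h : IsPVM e m) (U U' : Set A) : Compat (m U) (m U') := by
  obtain ⟨h1, h2, h3, e1, e2⟩ := pvm_split h U U'
  exact ⟨_, _, _, h1, h2, h3, e1, e2⟩
lemma inter (h : IsPVM e m) (U U' : Set A) : m (U ∩ U') = inf (m U) (m U') := by
  obtain ⟨h1, h2, h3, e1, e2⟩ := pvm_split h U U'
  rw [e1, e2, inf_eq h1 h2 h3]
lemma comap {B : Type} (h : IsPVM e m) (f : A → B) : IsPVM e (fun U => m (f ⁻¹' U)) := ⟨by rw [Set.preimage_univ, h.univ], fun _ _ hd => h.orth _ _ (hd.preimage f),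
    fun _ _ hd => by rw [Set.preimage_union, h.union _ _ (hd.preimage f)]⟩
lemma res (h : IsPVM e m) {q : P} (hq : le q e) (hc : ∀ U, Compat q (m U)) :
    IsPVM q (fun U => inf q (m U)) := ⟨by rw [h.univ, inf_eq_left hq], fun _ _ hd => orth_of_le (inf_le_right _ _)
      (orth_symm _ _ (orth_of_le (inf_le_right _ _) (orth_symm _ _ (h.orth _ _ hd)))),
    fun _ _ hd => by rw [h.union _ _ hd, inf_add (h.orth _ _ hd) (hc _) (hc _)]⟩
lemma pvm_ind [Finite A] (h : IsPVM e m) {p : P → Prop} (h0 : p zero)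
    (ha : ∀ x y, OMP.orth x y → p x → p y → p (add x y)) {U : Set A} (hU : ∀ a ∈ U, p (m {a})) :
    p (m U) := by
  induction U, Set.toFinite U using Set.Finite.induction_on with
  | empty => rwa [h.empty]
  | @insert a s has _ ih =>
    have d : Disjoint {a} s := Set.disjoint_singleton_left.2 has
    rw [Set.insert_eq, h.union _ _ d]
    exact ha _ _ (h.orth _ _ d) (hU a (Set.mem_insert _ _))
      (ih fun b hb => hU b (Set.mem_insert_of_mem _ hb))
lemma orth_of_singles [Finite A] (h : IsPVM e m) {w : P} {U : Set A}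
    (hw : ∀ a ∈ U, OMP.orth w (m {a})) : OMP.orth w (m U) := pvm_ind h (p := fun x => OMP.orth w x) (orth_zero w)
    (fun _ _ ho h1 h2 => (orth_add _ _ _ ho).2 ⟨h1, h2⟩) hw
lemma compat_of_singles [Finite A] (h : IsPVM e m) {w : P} {U : Set A}
    (hw : ∀ a ∈ U, Compat w (m {a})) : Compat w (m U) := pvm_ind h (p := fun x => Compat w x) (Compat.of_orth (orth_zero w))
    (fun _ _ ho h1 h2 => Compat.add_right ho h1 h2) hw
lemma eq_zero [Finite A] (h : IsPVM e m) {U : Set A} (hU : ∀ a ∈ U, m {a} = zero) : m U = zero := 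
  orth_self _ (h.orth_of_singles fun a ha => by rw [hU a ha]; exact orth_zero _)
/-- only the support matters -/
lemma congr [Finite A] (h : IsPVM e m) {U U' : Set A}
    (hU : ∀ a, m {a} ≠ zero → (a ∈ U ↔ a ∈ U')) : m U = m U' := by
  obtain ⟨-, -, -, e1, e2⟩ := pvm_split h U U'
  rw [e1, e2, h.eq_zero (U := U \ U'), h.eq_zero (U := U' \ U)]
  · intro a ha
    by_contra hn
    exact ha.2 ((hU a hn).2 ha.1)
  · intro a ha
    by_contra hn
    exact ha.2 ((hU a hn).1 ha.1)
lemma le_compl_iff (h : IsPVM e m) {w : P} (hw : le w e) (U : Set A) :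
    le w (m Uᶜ) ↔ OMP.orth w (m U) := by
  refine ⟨fun h1 => orth_of_le h1 (h.orth _ _ disjoint_compl_left), fun h1 => ?_⟩
  have ho := h.orth _ _ (disjoint_compl_right (a := U))
  have e1 : add (m U) (m Uᶜ) = e := by
    rw [← h.union _ _ disjoint_compl_right, Set.union_compl_self, h.univ]
  have h2 : OMP.orth (compl e) (m U) := orth_symm _ _ (h.le_e U)
  have h3 : OMP.orth (compl e) (m Uᶜ) := orth_symm _ _ (h.le_e Uᶜ)
  have h4 : OMP.orth (m Uᶜ) (add (m U) (compl e)) :=
    (orth_add _ _ _ (orth_symm _ _ h2)).2 ⟨orth_symm _ _ ho, orth_symm _ _ h3⟩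
  have e2 : add (m U) (compl e) = compl (m Uᶜ) := by
    refine compl_unique _ _ h4 ?_
    rw [← add_assoc _ _ _ (orth_symm _ _ ho) (orth_symm _ _ h3) (orth_symm _ _ h2),
      ← add_comm _ _ ho, e1, add_compl]
  show OMP.orth w (compl (m Uᶜ))
  rw [← e2]
  exact (orth_add _ _ _ (orth_symm _ _ h2)).2 ⟨h1, hw⟩
lemma le_iff [Finite A] (h : IsPVM e m) {w : P} (hw : le w e) (U : Set A) :
    le w (m U) ↔ ∀ a, ¬ OMP.orth (m {a}) w → a ∈ U := by
  refine ⟨fun h1 a ha => ?_, fun h1 => ?_⟩
  · by_contra hn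
    exact ha (orth_symm _ _ (orth_of_le h1 (h.orth _ _ (Set.disjoint_singleton_right.2 hn))))
  · rw [← _root_.compl_compl U, h.le_compl_iff hw]
    refine h.orth_of_singles fun a ha => ?_
    by_contra hn
    exact ha (h1 a fun h2 => hn (orth_symm _ _ h2))
lemma compat_compl (h : IsPVM e m) {w : P} (hw : le w e) {U : Set A} (hU : Compat w (m U)) :
    Compat w (m Uᶜ) := by
  obtain ⟨x1, x2, h1, h2, h3, rfl⟩ := compat_iff.1 hU
  have h4 : le x2 e := le_trans (le_add_right h3) hw
  exact compat_iff.2 ⟨x2, x1, (h.le_compl_iff h4 U).2 h2,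
    orth_of_le h1 (h.orth _ _ disjoint_compl_right), orth_symm _ _ h3, add_comm _ _ h3⟩
lemma isPart [Finite A] (h : IsPVM e m) : IsPart e (fun a => m {a}) := by
  refine ⟨fun i j hij => h.orth _ _ (Set.disjoint_singleton.2 hij), fun i => h.le_e _,
    fun w hw ho => eq_zero_of_le_of_orth hw ?_⟩
  rw [← h.univ]
  exact h.orth_of_singles fun a _ => ho a

end IsPVM

end OMP

/-- subsets of a type -/
instance setOMP (α : Type) : OMP (Set α) where
  zero := ∅
  one := Set.univ
  orth := Disjoint
  add := fun x y => x ∪ y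
  compl := fun x => xᶜ
  orth_symm := fun _ _ h => h.symm
  zero_orth := fun _ => by simp
  orth_self := fun _ h => by simpa using h
  add_comm := fun x y _ => Set.union_comm x y
  add_assoc := fun x y w _ _ _ => Set.union_assoc x y w
  zero_add := fun x => Set.empty_union x
  orth_add := fun _ _ _ _ => Set.disjoint_union_right
  orth_compl := fun _ => disjoint_compl_right
  add_compl := fun x => Set.union_compl_self x
  compl_unique := fun x y h1 h2 => (IsCompl.compl_eq ⟨h1, codisjoint_iff.2 h2⟩).symm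
  reg := fun e _ _ _ _ α _ _ _ _ _ _ _ _ _ _ _ _ _ =>
    ⟨α ∩ e, α \ e, disjoint_compl_right.mono_left Set.inter_subset_right, Set.disjoint_sdiff_left,
      Set.disjoint_sdiff_right.mono_left Set.inter_subset_right, (Set.inter_union_sdiff α e).symm⟩

/-- a "quantum tiling" with total mass `e` -/
structure IsModel (S : Wang) {P : Type} [OMP P] (e : P) (m : V → Set S.A → P) : Prop where
  pvm : ∀ v, OMP.IsPVM e (m v)
  hor : ∀ v (U : Set S.CH), m v (S.R ⁻¹' U) = m (v + e1) (S.L ⁻¹' U)
  ver : ∀ v (U : Set S.CV), m v (S.T ⁻¹' U) = m (v + e2) (S.B ⁻¹' U)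

/-- every quantum tiling is classical -/
def Rigid (S : Wang) : Prop :=
  ∀ (P : Type) [OMP P] (m : V → Set S.A → P), IsModel S OMP.one m →
    ∀ v w U U', OMP.Compat (m v U) (m w U')

end Crest.Agent.R189
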