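import Crest.Agent.R189.Tile
import Crest.Agent.R189.PVM

/-!
Row 189.  Support systems, transport systems and knowledge systems on the tile set.
-/

set_option autoImplicit false

namespace Crest.Agent.R189

/-- sets of possible tiles with matching edge states -/
structure Supp where
  K : V → Set Tile
  hor : ∀ v, Tile.R '' K v = Tile.L '' K (v + e1)
  ver : ∀ v, Tile.T '' K v = Tile.B '' K (v + e2)

/-- level-`r` knowledge everywhere, with offset `o` -/
def Agr (K : V → Set Tile) (r c : ℕ) (o : V) : Prop :=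
  ∀ v, ∀ t ∈ K v, AgreeT r c (v.1 + o.1) (v.2 + o.2) t

/-- an invariant of events which is transported across edges -/
structure Trans (α : Type) where
  K : V → Set Tile
  μ : V → Set Tile → α
  congr : ∀ v U U', (∀ t ∈ K v, (t ∈ U ↔ t ∈ U')) → μ v U = μ v U'
  hor : ∀ v (A : Set LS), μ v (Tile.R ⁻¹' A) = μ (v + e1) (Tile.L ⁻¹' A)
  ver : ∀ v (A : Set LS), μ v (Tile.T ⁻¹' A) = μ (v + e2) (Tile.B ⁻¹' A)

/-- "certainly": the transport system of a support system -/
def Supp.trans (s : Supp) : Trans Prop where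
  K := s.K
  μ := fun v U => s.K v ⊆ U
  congr := fun v U U' h => propext ⟨fun hs t ht => (h t ht).1 (hs ht), fun hs t ht => (h t ht).2 (hs ht)⟩
  hor := fun v A => by
    rw [← Set.image_subset_iff, ← Set.image_subset_iff, s.hor]
  ver := fun v A => by
    rw [← Set.image_subset_iff, ← Set.image_subset_iff, s.ver]

/-- a support system with a Boolean algebra of good events at every site -/
structure Know extends Supp where
  G : V → Set Tile → Prop
  G_null : ∀ v U, Disjoint U (K v) → G v U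
  G_compl : ∀ v U, G v U → G v Uᶜ
  G_inter : ∀ v U U', G v U → G v U' → G v (U ∩ U')
  G_hor : ∀ v (A : Set LS), G v (Tile.R ⁻¹' A) ↔ G (v + e1) (Tile.L ⁻¹' A)
  G_ver : ∀ v (A : Set LS), G v (Tile.T ⁻¹' A) ↔ G (v + e2) (Tile.B ⁻¹' A)

namespace Know

variable (k : Know)

/-- a good function at a site -/
def GF {β : Type} (v : V) (f : Tile → β) : Prop := ∀ A : Set β, k.G v (f ⁻¹' A)

def AllG (v : V) : Prop := ∀ U, k.G v U

lemma G_union {v : V} {U U' : Set Tile} (h : k.G v U) (h' : k.G v U') : k.G v (U ∪ U') := by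
  have := k.G_compl _ _ (k.G_inter _ _ _ (k.G_compl _ _ h) (k.G_compl _ _ h'))
  rwa [Set.compl_inter, compl_compl, compl_compl] at this
lemma G_congr {v : V} {U U' : Set Tile} (h : k.G v U) (e : ∀ t ∈ k.K v, (t ∈ U ↔ t ∈ U')) :
    k.G v U' := by
  have h1 : k.G v (U \ U') := k.G_null _ _ (Set.disjoint_left.2 fun t ht hk => ht.2 ((e t hk).1 ht.1))
  have h2 : k.G v (U' \ U) := k.G_null _ _ (Set.disjoint_left.2 fun t ht hk => ht.2 ((e t hk).2 ht.1))
  have h3 := k.G_union (k.G_inter _ _ _ h (k.G_compl _ _ h1)) h2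
  convert h3 using 1
  ext t
  simp only [Set.mem_union, Set.mem_inter_iff, Set.mem_compl_iff, Set.mem_diff]
  tauto
lemma know_G_biUnion {v : V} {ι : Type} {s : Set ι} (hs : s.Finite) {U : ι → Set Tile}
    (h : ∀ i ∈ s, k.G v (U i)) : k.G v (⋃ i ∈ s, U i) := by
  induction s, hs using Set.Finite.induction_on with
  | empty => exact k.G_null _ _ (by simp)
  | @insert a s _ _ ih =>
    rw [Set.biUnion_insert]
    exact k.G_union (h a (Set.mem_insert _ _)) (ih fun i hi => h i (Set.mem_insert_of_mem _ hi))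
lemma GF.const {β : Type} {v : V} {f : Tile → β} (h : ∀ t ∈ k.K v, ∀ t' ∈ k.K v, f t = f t') :
    k.GF v f := by
  intro A
  by_cases hA : ∃ t ∈ k.K v, f t ∈ A
  · obtain ⟨t, ht, hA⟩ := hA
    have h1 : k.G v (f ⁻¹' A)ᶜ := k.G_null _ _ (Set.disjoint_left.2 fun t' ht' hk => ht' (by
      show f t' ∈ A
      rw [h t' hk t ht]; exact hA))
    have := k.G_compl _ _ h1
    rwa [compl_compl] at this
  · exact k.G_null _ _ (Set.disjoint_left.2 fun t ht hk => hA ⟨t, hk, ht⟩)
lemma GF.prod {β γ : Type} {v : V} {f : Tile → β} {g : Tile → γ} (hf : k.GF v f) (hg : k.GF v g) :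
    k.GF v (fun t => (f t, g t)) := by
  intro A
  have h := k.know_G_biUnion (v := v) (s := (fun t => (f t, g t)) ⁻¹' A) (Set.toFinite _)
    (U := fun t => f ⁻¹' {f t} ∩ g ⁻¹' {g t}) fun t _ => k.G_inter _ _ _ (hf _) (hg _)
  convert h using 1
  ext t
  simp only [Set.mem_preimage, Set.mem_iUnion, Set.mem_inter_iff, Set.mem_singleton_iff,
    exists_prop]
  constructor
  · intro ht
    exact ⟨t, ht, rfl, rfl⟩
  · rintro ⟨t', ht', h1, h2⟩
    rw [h1, h2]; exact ht'
/-- a function which is determined by a good function on the possible tiles is good -/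
lemma GF.of_det {β γ : Type} {v : V} {f : Tile → β} {g : Tile → γ} (hf : k.GF v f)
    (h : ∀ t ∈ k.K v, ∀ t' ∈ k.K v, f t = f t' → g t = g t') : k.GF v g := by
  intro A
  refine k.G_congr (hf (f '' (k.K v ∩ g ⁻¹' A))) fun t ht => ⟨?_, fun hA => ⟨t, ⟨ht, hA⟩, rfl⟩⟩
  rintro ⟨t', ⟨h1, h2⟩, h3⟩
  show g t ∈ A
  rw [← h t' h1 t ht h3]; exact h2
lemma GF_hor {β : Type} (v : V) (f : LS → β) :
    k.GF v (fun t => f t.R) ↔ k.GF (v + e1) (fun t => f t.L) := forall_congr' fun A => k.G_hor v (f ⁻¹' A)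
lemma GF_ver {β : Type} (v : V) (f : LS → β) :
    k.GF v (fun t => f t.T) ↔ k.GF (v + e2) (fun t => f t.B) := forall_congr' fun A => k.G_ver v (f ⁻¹' A)
lemma allG_of_edges {v : V} (hL : k.GF v Tile.L) (hR : k.GF v Tile.R) (hB : k.GF v Tile.B)
    (hT : k.GF v Tile.T) : k.AllG v := by
  intro U
  have h := GF.prod k (GF.prod k hL hR) (GF.prod k hB hT)
  have h2 : k.GF v (fun t => t) := GF.of_det k h fun t _ t' _ e => by
    simp only [Prod.mk.injEq] at e
    exact Tile.ext e.1.1 e.1.2 e.2.1 e.2.2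
  exact h2 U
lemma AllG.gf {β : Type} {v : V} (h : k.AllG v) (f : Tile → β) : k.GF v f := fun _ => h _

/-- the transport system of good events -/
def trans : Trans Prop where
  K := k.K
  μ := k.G
  congr := fun _ _ _ h => propext ⟨fun g => k.G_congr g h, fun g => k.G_congr g fun t ht => (h t ht).symm⟩
  hor := fun v A => propext (k.G_hor v A)
  ver := fun v A => propext (k.G_ver v A)

end Know

def V.swap (v : V) : V := (v.2, v.1)

lemma know_swap_e1 (v : V) : V.swap (v + e1) = V.swap v + e2 := rfl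
lemma know_swap_e2 (v : V) : V.swap (v + e2) = V.swap v + e1 := rfl

def Supp.shift (s : Supp) (u : V) : Supp where
  K := fun v => s.K (v + u)
  hor := fun v => by rw [add_right_comm v e1 u]; exact s.hor _
  ver := fun v => by rw [add_right_comm v e2 u]; exact s.ver _

def Supp.tp (s : Supp) : Supp where
  K := fun v => Tile.tp '' s.K (V.swap v)
  hor := fun v => by
    rw [know_swap_e1, Set.image_image, Set.image_image]; exact s.ver _
  ver := fun v => by
    rw [know_swap_e2, Set.image_image, Set.image_image]; exact s.hor _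

def Know.shift (k : Know) (u : V) : Know where
  toSupp := k.toSupp.shift u
  G := fun v => k.G (v + u)
  G_null := fun v U h => k.G_null _ U h
  G_compl := fun v U h => k.G_compl _ U h
  G_inter := fun v U U' h h' => k.G_inter _ U U' h h'
  G_hor := fun v A => by rw [add_right_comm v e1 u]; exact k.G_hor _ A
  G_ver := fun v A => by rw [add_right_comm v e2 u]; exact k.G_ver _ A

def Know.tp (k : Know) : Know where
  toSupp := k.toSupp.tp
  G := fun v U => k.G (V.swap v) (Tile.tp ⁻¹' U)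
  G_null := fun v U h => k.G_null _ _ (Set.disjoint_left.2 fun t ht hk =>
    Set.disjoint_left.1 h ht ⟨t, hk, rfl⟩)
  G_compl := fun v U h => k.G_compl _ _ h
  G_inter := fun v U U' h h' => k.G_inter _ _ _ h h'
  G_hor := fun v A => by rw [know_swap_e1]; exact k.G_ver _ A
  G_ver := fun v A => by rw [know_swap_e2]; exact k.G_hor _ A

lemma Agr.shift {K : V → Set Tile} {r c : ℕ} {o : V} (h : Agr K r c o) (u : V) :
    Agr (fun v => K (v + u)) r c (o + u) := by
  intro v t ht
  have := h (v + u) t ht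
  simp only [Prod.fst_add, Prod.snd_add] at this ⊢
  rwa [add_assoc, add_assoc, add_comm u.1, add_comm u.2] at this
lemma Agr.tp {K : V → Set Tile} {r c : ℕ} {o : V} (h : Agr K r c o) :
    Agr (fun v => Tile.tp '' K (V.swap v)) r (c + 1) (V.swap o) := by
  rintro v t ⟨t', ht', rfl⟩
  exact (h (V.swap v) t' ht').tp
lemma Agr.sub {K K' : V → Set Tile} {r c : ℕ} {o : V} (h : Agr K r c o) (hs : ∀ v, K' v ⊆ K v) :
    Agr K' r c o := fun v t ht => h v t (hs v ht)
lemma Agr.mono {K : V → Set Tile} {r r' c : ℕ} {o : V} (h : Agr K r' c o) (hr : r ≤ r') :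
    Agr K r c o := fun v t ht => (h v t ht).mono hr
lemma Agr.congr {K : V → Set Tile} {r c c' : ℕ} {o : V} (h : Agr K r c o) (hc : c % 2 = c' % 2) :
    Agr K r c' o := fun v t ht => (h v t ht).congr hc
lemma Agr.periodic {K : V → Set Tile} {r c : ℕ} {o o' : V} (h : Agr K r c o)
    (h1 : (sn (hl r c) : ℤ) ∣ o'.1 - o.1) (h2 : (sn (hl r (c + 1)) : ℤ) ∣ o'.2 - o.2) :
    Agr K r c o' := fun v t ht => (h v t ht).periodic (by simpa using h1) (by simpa using h2)

/-- all tiles, matched along edge states -/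
noncomputable def TileW : Wang where
  A := Tile
  fin := Fintype.ofFinite Tile
  dec := inferInstanceAs (DecidableEq Tile)
  CH := LS
  CV := LS
  L := Tile.L
  R := Tile.R
  B := Tile.B
  T := Tile.T

/-- two tilings: good events are those which do not separate them -/
def know2 (x y : Cfg TileW) : Know where
  K := fun v => {x.1 v, y.1 v}
  hor := fun v => by
    have h1 : Tile.R (x.1 v) = Tile.L (x.1 (v + e1)) := x.2.1 v
    have h2 : Tile.R (y.1 v) = Tile.L (y.1 (v + e1)) := y.2.1 v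
    exact (Set.image_pair Tile.R _ _).trans
      ((congrArg₂ (fun a b : LS => ({a, b} : Set LS)) h1 h2).trans (Set.image_pair Tile.L _ _).symm)
  ver := fun v => by
    have h1 : Tile.T (x.1 v) = Tile.B (x.1 (v + e2)) := x.2.2 v
    have h2 : Tile.T (y.1 v) = Tile.B (y.1 (v + e2)) := y.2.2 v
    exact (Set.image_pair Tile.T _ _).trans
      ((congrArg₂ (fun a b : LS => ({a, b} : Set LS)) h1 h2).trans (Set.image_pair Tile.B _ _).symm)
  G := fun v U => (x.1 v ∈ U ↔ y.1 v ∈ U)
  G_null := fun v U h => iff_of_false (fun hx => Set.disjoint_left.1 h hx (Or.inl rfl))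
    (fun hy => Set.disjoint_left.1 h hy (Or.inr rfl))
  G_compl := fun v U h => not_congr h
  G_inter := fun v U U' h h' => and_congr h h'
  G_hor := fun v A => by
    have h1 : Tile.R (x.1 v) = Tile.L (x.1 (v + e1)) := x.2.1 v
    have h2 : Tile.R (y.1 v) = Tile.L (y.1 (v + e1)) := y.2.1 v
    show (Tile.R (x.1 v) ∈ A ↔ Tile.R (y.1 v) ∈ A) ↔
      (Tile.L (x.1 (v + e1)) ∈ A ↔ Tile.L (y.1 (v + e1)) ∈ A)
    rw [h1, h2]
  G_ver := fun v A => by
    have h1 : Tile.T (x.1 v) = Tile.B (x.1 (v + e2)) := x.2.2 v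
    have h2 : Tile.T (y.1 v) = Tile.B (y.1 (v + e2)) := y.2.2 v
    show (Tile.T (x.1 v) ∈ A ↔ Tile.T (y.1 v) ∈ A) ↔
      (Tile.B (x.1 (v + e2)) ∈ A ↔ Tile.B (y.1 (v + e2)) ∈ A)
    rw [h1, h2]

lemma know2_allG {x y : Cfg TileW} {v : V} : (know2 x y).AllG v ↔ x.1 v = y.1 v := by
  constructor
  · intro h
    have h1 : x.1 v ∈ ({x.1 v} : Set Tile) ↔ y.1 v ∈ ({x.1 v} : Set Tile) := h {x.1 v}
    exact (h1.1 rfl).symm
  · intro h U
    show x.1 v ∈ U ↔ y.1 v ∈ U
    rw [h]

section
open OMP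
variable {P : Type} [OMP P]

/-- tiles possible below `q` -/
def poss (m : V → Set Tile → P) (q : P) (v : V) : Set Tile := {t | ¬ orth (m v {t}) q}

lemma mem_poss_self {e : P} {m : V → Set Tile → P} (h : IsModel TileW e m) {v : V} {t : Tile} :
    t ∈ poss m e v ↔ m v {t} ≠ zero := by
  refine not_congr ⟨fun ho => eq_zero_of_le_of_orth ((h.pvm v).le_e _) ho, fun h0 => ?_⟩
  rw [h0]; exact zero_orth e
lemma poss_mono {m : V → Set Tile → P} {q q' : P} (h : le q q') (v : V) :
    poss m q v ⊆ poss m q' v := fun _ ht ho => ht (orth_symm _ _ (orth_of_le h (orth_symm _ _ ho)))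
lemma poss_sub_iff {e : P} {m : V → Set Tile → P} (h : IsModel TileW e m) {q : P} (hq : le q e)
    (v : V) (U : Set Tile) : poss m q v ⊆ U ↔ le q (m v U) := ((h.pvm v).le_iff hq U).symm

/-- the knowledge system of a quantum tiling below `q`: good = compatible with `q` -/
def IsModel.know {e : P} {m : V → Set Tile → P} (h : IsModel TileW e m) {q : P} (hq : le q e) :
    Know where
  K := poss m q
  hor := fun v => by
    refine eq_of_forall_ge_iff fun A => ?_
    show Tile.R '' _ ⊆ A ↔ Tile.L '' _ ⊆ A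
    rw [Set.image_subset_iff, Set.image_subset_iff, poss_sub_iff h hq, poss_sub_iff h hq]
    exact iff_of_eq (congrArg (le q) (h.hor v A))
  ver := fun v => by
    refine eq_of_forall_ge_iff fun A => ?_
    show Tile.T '' _ ⊆ A ↔ Tile.B '' _ ⊆ A
    rw [Set.image_subset_iff, Set.image_subset_iff, poss_sub_iff h hq, poss_sub_iff h hq]
    exact iff_of_eq (congrArg (le q) (h.ver v A))
  G := fun v U => Compat q (m v U)
  G_null := fun v U hd => Compat.of_orth ((h.pvm v).orth_of_singles fun a ha => by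
    by_contra hn
    exact Set.disjoint_left.1 hd ha fun ho => hn (orth_symm _ _ ho))
  G_compl := fun v U hU => (h.pvm v).compat_compl hq hU
  G_inter := fun v U U' hU hU' => by
    have e1 : m v (U ∩ U') = inf (m v U) (m v U') := (h.pvm v).inter U U'
    rw [e1]
    exact Compat.inf_right ((h.pvm v).compat U U') hU hU'
  G_hor := fun v A => iff_of_eq (congrArg (Compat q) (h.hor v A))
  G_ver := fun v A => iff_of_eq (congrArg (Compat q) (h.ver v A))

/-- good = in the range of the measure at the site `z` -/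
def IsModel.knowAt {e : P} {m : V → Set Tile → P} (h : IsModel TileW e m) (z : V) : Know where
  K := poss m e
  hor := (h.know ((h.pvm z).univ ▸ (h.pvm z).le_e Set.univ)).hor
  ver := (h.know ((h.pvm z).univ ▸ (h.pvm z).le_e Set.univ)).ver
  G := fun v U => ∃ U₀, m v U = m z U₀
  G_null := fun v U hd => ⟨∅, by
    have e1 : m z ∅ = zero := (h.pvm z).empty
    rw [e1]
    refine (h.pvm v).eq_zero fun a ha => ?_
    by_contra hn
    exact Set.disjoint_left.1 hd ha ((mem_poss_self h).2 hn)⟩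
  G_compl := fun v U ⟨U₀, hU⟩ => ⟨U₀ᶜ, by
    have o1 : orth (m v U) (m v Uᶜ) := (h.pvm v).orth _ _ disjoint_compl_right
    have o2 : orth (m z U₀) (m z U₀ᶜ) := (h.pvm z).orth _ _ disjoint_compl_right
    have a1 : m v (U ∪ Uᶜ) = add (m v U) (m v Uᶜ) := (h.pvm v).union _ _ disjoint_compl_right
    have a2 : m z (U₀ ∪ U₀ᶜ) = add (m z U₀) (m z U₀ᶜ) := (h.pvm z).union _ _ disjoint_compl_right
    have b1 : m v Set.univ = e := (h.pvm v).univ
    have b2 : m z Set.univ = e := (h.pvm z).univ
    rw [Set.union_compl_self] at a1 a2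
    rw [← hU] at o2 a2
    exact add_cancel o1 o2 (by rw [← a1, ← a2, b1, b2])⟩
  G_inter := fun v U U' ⟨U₀, hU⟩ ⟨U₁, hU'⟩ => ⟨U₀ ∩ U₁, by
    have e1 : m v (U ∩ U') = inf (m v U) (m v U') := (h.pvm v).inter U U'
    have e2 : m z (U₀ ∩ U₁) = inf (m z U₀) (m z U₁) := (h.pvm z).inter U₀ U₁
    rw [e1, e2, hU, hU']⟩
  G_hor := fun v A => iff_of_eq (congrArg (fun w => ∃ U₀, w = m z U₀) (h.hor v A))
  G_ver := fun v A => iff_of_eq (congrArg (fun w => ∃ U₀, w = m z U₀) (h.ver v A))

/-- the transport system of a quantum tiling -/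
def IsModel.trans {e : P} {m : V → Set Tile → P} (h : IsModel TileW e m) : Trans P where
  K := poss m e
  μ := m
  congr := fun v U U' hU => (h.pvm v).congr fun a ha => hU a ((mem_poss_self h).2 ha)
  hor := h.hor
  ver := h.ver

lemma IsModel.shift {S : Wang} {e : P} {m : V → Set S.A → P} (h : IsModel S e m) (u : V) :
    IsModel S e (fun v => m (v + u)) := ⟨fun v => h.pvm _, fun v U => by rw [add_right_comm v e1 u]; exact h.hor _ U,
    fun v U => by rw [add_right_comm v e2 u]; exact h.ver _ U⟩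
lemma IsModel.tp {e : P} {m : V → Set Tile → P} (h : IsModel TileW e m) :
    IsModel TileW e (fun v U => m (V.swap v) (Tile.tp ⁻¹' U)) := ⟨fun v => (h.pvm (V.swap v)).comap Tile.tp, fun v U => by rw [know_swap_e1]; exact h.ver _ U,
    fun v U => by rw [know_swap_e2]; exact h.hor _ U⟩
lemma poss_tp (m : V → Set Tile → P) (q : P) (v : V) :
    poss (fun v U => m (V.swap v) (Tile.tp ⁻¹' U)) q v = Tile.tp '' poss m q (V.swap v) := by
  ext t
  have e1 : Tile.tp ⁻¹' {t} = {t.tp} := by
    ext s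
    simp only [Set.mem_preimage, Set.mem_singleton_iff]
    exact ⟨fun h => by rw [← h, Tile.tp_tp], fun h => by rw [h, Tile.tp_tp]⟩
  show ¬ orth (m (V.swap v) (Tile.tp ⁻¹' {t})) q ↔ _
  rw [e1]
  constructor
  · intro h
    exact ⟨t.tp, h, rfl⟩
  · rintro ⟨s, hs, rfl⟩
    exact hs
lemma IsModel.res {S : Wang} {e : P} {m : V → Set S.A → P} (h : IsModel S e m) {q : P}
    (hq : le q e) (hc : ∀ v U, Compat q (m v U)) : IsModel S q (fun v U => inf q (m v U)) := ⟨fun v => (h.pvm v).res hq (hc v), fun v U => congrArg (inf q) (h.hor v U),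
    fun v U => congrArg (inf q) (h.ver v U)⟩
lemma poss_res {e : P} {m : V → Set Tile → P} (h : IsModel TileW e m) {q : P} (hq : le q e)
    (hc : ∀ v U, Compat q (m v U)) (v : V) :
    poss (fun v U => inf q (m v U)) q v = poss m q v := by
  ext t
  refine not_congr ⟨fun ho => ?_, fun ho => orth_of_le (inf_le_right _ _) ho⟩
  exact orth_symm _ _ (orth_of_inf_eq_zero (hc v {t})
    (eq_zero_of_le_of_orth (inf_le_left _ _) ho))

end

end Crest.Agent.R189
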