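import Crest.Agent.R189.Elem
import Crest.Agent.R189.Hat

/-!
Row 189.  From elementary lifts to a hat system.
-/

set_option autoImplicit false

namespace Crest.Agent.R189

open Equiv

variable {S : Wang}

lemma lf_moved {p q r : Pt} {W : Set (Cfg S)} (h : Adm3 p q r W) {x : Cfg S} (hx : x ∈ W) {s : Pt}
    (hs : s ∈ ({p, q, r} : Set Pt)) : cycW p q r W (pt x s) ≠ pt x s := by
  obtain ⟨a1, a2, a3⟩ := h.apply hx
  intro e
  rcases hs with rfl | rfl | rfl
  · exact h.1.1 (h.2.2 x hx x hx _ (by simp) _ (by simp) (e.symm.trans a1)).2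
  · exact h.1.2.2 (h.2.2 x hx x hx _ (by simp) _ (by simp) (e.symm.trans a2)).2
  · exact h.1.2.1 (h.2.2 x hx x hx _ (by simp) _ (by simp) (a3.symm.trans e)).2

lemma lf_left {c c' : Perm (Om S)} (hd : Perm.Disjoint c c') {ω : Om S} (h : c ω ≠ ω) :
    (c * c') ω = c ω := by rw [Perm.mul_apply, (hd ω).resolve_left h]

lemma lf_right {c c' : Perm (Om S)} (hd : Perm.Disjoint c c') {ω : Om S} (h : c ω = ω) :
    (c * c') ω = c' ω := by rw [hd.commute.eq, Perm.mul_apply, h]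

lemma lf_invO {c c' : Perm (Om S)} (hd : Perm.Disjoint c c') {Y : Set (Om S)}
    (h : InvO (c * c') Y) : InvO c Y := by
  intro ω
  by_cases e : c ω = ω
  · rw [e]
  · rw [← lf_left hd e, h ω]

lemma lf_res_fix {g : Perm (Om S)} (Y : Set (Om S)) {ω : Om S} (h : g ω = ω) : res g Y ω = ω := by
  by_cases hY : InvO g Y
  · by_cases hω : ω ∈ Y
    · rw [res_apply_mem hY hω, h]
    · exact res_apply_not_mem g hω
  · rw [res, dif_neg hY, Perm.one_apply]

lemma lf_res_disjoint {c c' : Perm (Om S)} (hd : Perm.Disjoint c c') (Y Y' : Set (Om S)) :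
    Perm.Disjoint (res c Y) (res c' Y') := fun ω => (hd ω).imp (lf_res_fix Y) (lf_res_fix Y')

lemma lf_split {c c' : Perm (Om S)} (hd : Perm.Disjoint c c') :
    InvO (c * c') {ω | c ω ≠ ω} ∧ res (c * c') {ω | c ω ≠ ω} = c ∧
      res (c * c') {ω | c ω ≠ ω}ᶜ = c' := by
  have i1 : InvO c {ω | c ω ≠ ω} := InvO.of_fix fun ω h => not_not.1 h
  have f2 : ∀ ω ∈ {ω | c ω ≠ ω}, c' ω = ω := fun ω h => (hd ω).resolve_left h
  have i2 : InvO c' {ω | c ω ≠ ω}ᶜ := InvO.of_fix fun ω h => f2 ω (not_not.1 h)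
  have i2' : InvO c' {ω | c ω ≠ ω} := by simpa only [compl_compl] using i2.compl
  refine ⟨i1.mul i2', ?_, ?_⟩
  · rw [res_mul i1 i2', res_eq_one f2, mul_one]
    exact res_of_fix fun ω h => not_not.1 h
  · have e1 : res c {ω | c ω ≠ ω}ᶜ = 1 := res_eq_one fun ω h => not_not.1 h
    rw [res_mul i1.compl i2, e1, one_mul]
    exact res_of_fix fun ω h => f2 ω (not_not.1 h)

lemma lf_res_cycW {p q r : Pt} {W : Set (Cfg S)} (h : Adm3 p q r W) {Y : Set (Om S)} (hY : LocO Y)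
    (hi : InvO (cycW p q r W) Y) :
    res (cycW p q r W) Y = cycW p q r (W ∩ {x | pt x p ∈ Y}) := by
  have key : ∀ x ∈ W, (pt x q ∈ Y ↔ pt x p ∈ Y) ∧ (pt x r ∈ Y ↔ pt x p ∈ Y) := by
    intro x hx
    obtain ⟨a1, -, a3⟩ := h.apply hx
    exact ⟨by rw [← a1, hi], by rw [← a3, hi]⟩
  refine cycW_eq_of (h.mono (h.2.1.inter (hY.pt p)) Set.inter_subset_left) ?_ fun ω hω => ?_
  · rintro x ⟨hx, hp⟩
    rw [res_apply_mem hi hp, res_apply_mem hi ((key x hx).1.2 hp),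
      res_apply_mem hi ((key x hx).2.2 hp)]
    exact h.apply hx
  · by_cases hm : ω ∈ Y
    · refine lf_res_fix Y (cycW_fix h ?_)
      rintro ⟨x, hx, s, (rfl | rfl | rfl), rfl⟩
      · exact (hω x ⟨hx, hm⟩).1 rfl
      · exact (hω x ⟨hx, (key x hx).1.1 hm⟩).2.1 rfl
      · exact (hω x ⟨hx, (key x hx).2.1 hm⟩).2.2 rfl
    · exact res_apply_not_mem _ hm

lemma lf_case (hf : Free S) {W W' Z : Set (Cfg S)} {p q r p' q' r' : Pt} (h : Adm3 p q r W)
    (h' : Adm3 p' q' r' W') (e : cycW p q r W = cycW p' q' r' W') (hs : Z ⊆ W) (hne : Z.Nonempty)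
    (hi : ∀ x ∈ Z, pt x p ∈ img {p'} W') :
    ∃ v, tr v Z ⊆ W' ∧ p = shP v p' ∧ q = shP v q' ∧ r = shP v r' := by
  obtain ⟨x₀, hx₀⟩ := hne
  have e0 : p.2 = p'.2 := by
    obtain ⟨y, -, t, rfl, e'⟩ := hi x₀ hx₀
    exact (congrArg Prod.snd e' :)
  obtain ⟨v, rfl⟩ : ∃ v, p = shP v p' := ⟨p.1 - p'.1, Prod.ext (by simp [shP]) e0⟩
  have hv : ∀ x ∈ Z, v +ᵥ x ∈ W' := by
    intro x hx
    obtain ⟨y, hy, t, rfl, e'⟩ := hi x hx
    rw [← pt_vadd] at e'
    rwa [blk_pt_cancel e']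
  obtain ⟨a1, -, a3⟩ := h.apply (hs hx₀)
  obtain ⟨b1, -, b3⟩ := h'.apply (hv x₀ hx₀)
  rw [← e, pt_vadd, pt_vadd] at b1 b3
  refine ⟨v, fun y hy => ?_, rfl, hf.pt_inj x₀ (a1.symm.trans b1),
    hf.pt_inj x₀ ((cycW _ q r W).injective (a3.trans b3.symm))⟩
  have := hv _ hy
  rwa [vadd_neg_vadd] at this

namespace ESys

variable {Γ : Type} [Group Γ] (E : ESys S Γ)

/-- `γ` is a lift of `c` obtained from a decomposition into disjoint elementary three-cycles -/
inductive LR : Perm (Om S) → Γ → Prop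
  | one : LR 1 1
  | elem (W : Set (Cfg S)) (p q r : Pt) : Adm3 p q r W → LR (cycW p q r W) (E.e W p q r)
  | mul (c c' : Perm (Om S)) (γ γ' : Γ) : Perm.Disjoint c c' → LR c γ → LR c' γ' →
      LR (c * c') (γ * γ')

lemma e_empty {p q r : Pt} (h : D3 p q r) : E.e ∅ p q r = 1 := by 
  have := E.union ∅ ∅ p q r ⟨h, by rw [Set.union_self]; exact Loc.empty, fun _ hx => by simp at hx⟩
    Loc.empty Loc.empty (Set.disjoint_empty _)
  rw [Set.union_self] at this
  exact left_eq_mul.1 this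
lemma LR.pr {c : Perm (Om S)} {γ : Γ} (h : E.LR c γ) : E.pr γ = c ∧ c ∈ C3 S := by 
  induction h with
  | one => exact ⟨map_one _, hat_one_mem⟩
  | elem W p q r h => exact ⟨E.pr_e W p q r h, cycW_mem_C3 h⟩
  | mul c c' γ γ' hd _ _ h1 h2 => exact ⟨by rw [map_mul, h1.1, h2.1], hat_mul_mem h1.2 h2.2 hd⟩
lemma LR.exists (hp : HasPhases S) {c : Perm (Om S)} (hc : c ∈ C3 S) : ∃ γ, E.LR c γ := by 
  refine C3_induction hp (P := fun c => ∃ γ, E.LR c γ) ⟨1, LR.one⟩
    (fun p q r W h => ⟨_, LR.elem W p q r h⟩) ?_ hc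
  rintro c c' - - hd ⟨γ, h⟩ ⟨γ', h'⟩
  exact ⟨_, LR.mul c c' γ γ' hd h h'⟩
/-- an element fixing the support of `c` pointwise commutes with its lift -/
lemma LR.commute {c : Perm (Om S)} {γ : Γ} (h : E.LR c γ) {δ : Γ}
    (hd : Perm.Disjoint (E.pr δ) c) : Commute δ γ := by 
  induction h with
  | one => exact Commute.one_right _
  | elem W p q r h =>
    have key : ∀ x ∈ W, ∀ s ∈ ({p, q, r} : Set Pt), E.pr δ (pt x s) = pt x s :=
      fun x hx s hs => (hd _).resolve_right (lf_moved h hx hs)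
    exact mul_inv_eq_iff_eq_mul.1 (E.conj δ W p q r p q r h h fun x hx =>
      ⟨key x hx p (by simp), key x hx q (by simp), key x hx r (by simp)⟩)
  | mul c c' γ γ' hc _ _ h1 h2 =>
    refine (h1 fun ω => ?_).mul_right (h2 fun ω => ?_)
    · by_cases e : c ω = ω
      · exact Or.inr e
      · exact (hd ω).imp_right fun e' => (lf_left hc e).symm.trans e'
    · by_cases e : c' ω = ω
      · exact Or.inr e
      · exact (hd ω).imp_right fun e' => (lf_right hc ((hc ω).resolve_right e)).symm.trans e'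
lemma LR.split {c : Perm (Om S)} {γ : Γ} (h : E.LR c γ) {Y : Set (Om S)} (hY : LocO Y)
    (hi : InvO c Y) : ∃ γ₁ γ₂, E.LR (res c Y) γ₁ ∧ E.LR (res c Yᶜ) γ₂ ∧ γ = γ₁ * γ₂ := by 
  induction h with
  | one => exact ⟨1, 1, by rw [res_one]; exact LR.one, by rw [res_one]; exact LR.one, by simp⟩
  | elem W p q r h =>
    have l1 := h.2.1.inter (hY.pt p)
    have l2 := h.2.1.inter (hY.compl.pt p)
    have e : W = (W ∩ {x | pt x p ∈ Y}) ∪ (W ∩ {x | pt x p ∈ Yᶜ}) :=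
      (Set.inter_union_compl W {x | pt x p ∈ Y}).symm
    refine ⟨_, _, ?_, ?_, (congrArg (fun W => E.e W p q r) e).trans
      (E.union _ _ p q r (e ▸ h) l1 l2 ?_)⟩
    · rw [lf_res_cycW h hY hi]
      exact LR.elem _ p q r (h.mono l1 Set.inter_subset_left)
    · rw [lf_res_cycW h hY.compl hi.compl]
      exact LR.elem _ p q r (h.mono l2 Set.inter_subset_left)
    · rw [Set.disjoint_left]
      exact fun x h1 h2 => h2.2 h1.2
  | mul c c' γ γ' hd _ _ h1 h2 =>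
    have i1 := lf_invO hd hi
    have i2 := lf_invO hd.symm (hd.commute.eq ▸ hi)
    obtain ⟨a1, a2, l1, l2, rfl⟩ := h1 i1
    obtain ⟨b1, b2, m1, m2, rfl⟩ := h2 i2
    refine ⟨a1 * b1, a2 * b2, ?_, ?_, ?_⟩
    · rw [res_mul i1 i2]
      exact LR.mul _ _ _ _ (lf_res_disjoint hd _ _) l1 m1
    · rw [res_mul i1.compl i2.compl]
      exact LR.mul _ _ _ _ (lf_res_disjoint hd _ _) l2 m2
    · have := m1.commute E (δ := a2) (by rw [(l2.pr E).1]; exact lf_res_disjoint hd _ _)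
      rw [mul_assoc, ← mul_assoc a2, this.eq, mul_assoc, mul_assoc]
/-- split `W` according to which of `img {p'} W'`, `img {q'} W'`, `img {r'} W'` contains `pt x p`;
`shift`, `rot`, `union` -/
lemma e_eq (hf : Free S) {W W' : Set (Cfg S)} {p q r p' q' r' : Pt} (h : Adm3 p q r W)
    (h' : Adm3 p' q' r' W') (e : cycW p q r W = cycW p' q' r' W') :
    E.e W p q r = E.e W' p' q' r' := by 
  have loc : ∀ t : Pt, Loc {x | pt x p ∈ img {t} W'} := fun t =>
    (LocO.img (Set.finite_singleton t) h'.2.1).pt p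
  have loc' : ∀ Z, Loc Z → Loc (W' ∩ {y | pt y p' ∈ img {p, q, r} Z}) := fun Z hZ =>
    h'.2.1.inter ((LocO.img (Set.toFinite _) hZ).pt p')
  have e0 : W' ∩ {y | pt y p' ∈ img {p, q, r} W} = W' := by
    refine Set.inter_eq_left.2 fun y hy => ?_
    by_contra hn
    exact lf_moved h' hy (s := p') (by simp) (e ▸ cycW_fix h hn)
  rw [← e0]
  refine Loc.refine (LocF.prod (loc p') (LocF.prod (loc q') (loc r'))) h.2.1
    (p := fun Z => E.e Z p q r = E.e (W' ∩ {y | pt y p' ∈ img {p, q, r} Z}) p' q' r') ?_ ?_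
  · intro Z Z' l1 l2 s1 s2 hd a1 a2
    have A := h.mono (l1.union l2) (Set.union_subset s1 s2)
    have e1 : W' ∩ {y | pt y p' ∈ img {p, q, r} (Z ∪ Z')} =
        (W' ∩ {y | pt y p' ∈ img {p, q, r} Z}) ∪ (W' ∩ {y | pt y p' ∈ img {p, q, r} Z'}) := by
      rw [← Set.inter_union_distrib_left]
      congr 1
      ext y
      constructor
      · rintro ⟨x, hx | hx, r⟩
        exacts [Or.inl ⟨x, hx, r⟩, Or.inr ⟨x, hx, r⟩]
      · rintro (⟨x, hx, r⟩ | ⟨x, hx, r⟩)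
        exacts [⟨x, Or.inl hx, r⟩, ⟨x, Or.inr hx, r⟩]
    rw [E.union _ _ p q r A l1 l2 hd, e1, E.union _ _ p' q' r' (h'.mono ((loc' Z l1).union
      (loc' Z' l2)) (Set.union_subset Set.inter_subset_left Set.inter_subset_left)) (loc' Z l1)
      (loc' Z' l2) ?_, a1, a2]
    rw [Set.disjoint_left]
    exact fun y h1 h2 =>
      Set.disjoint_left.1 (el_img_disj' A.2.2 subset_rfl subset_rfl hd) h1.2 h2.2
  intro Z l1 s1 hc
  rcases Z.eq_empty_or_nonempty with rfl | ⟨x₀, hx₀⟩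
  · have : W' ∩ {y | pt y p' ∈ img {p, q, r} ∅} = ∅ := by
      ext y; simp [img]
    rw [this, E.e_empty h.1, E.e_empty h'.1]
  have hc' : ∀ x ∈ Z, (pt x p ∈ img {p'} W' ↔ pt x₀ p ∈ img {p'} W') ∧
      (pt x p ∈ img {q'} W' ↔ pt x₀ p ∈ img {q'} W') ∧
      (pt x p ∈ img {r'} W' ↔ pt x₀ p ∈ img {r'} W') := by
    intro x hx
    have := hc x hx x₀ hx₀
    simp only [Prod.mk.injEq, Set.mem_ofPred_eq, eq_iff_iff] at this
    exact this
  have fin : ∀ v, tr v Z ⊆ W' → (∀ s ∈ ({p, q, r} : Set Pt), ∃ s' ∈ ({p', q', r'} : Set Pt),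
      s = shP v s') → shP v p' ∈ ({p, q, r} : Set Pt) →
      W' ∩ {y | pt y p' ∈ img {p, q, r} Z} = tr v Z := by
    intro v h1 h2 h3
    ext y
    constructor
    · rintro ⟨hy, x, hx, s, hs, e'⟩
      obtain ⟨s', hs', rfl⟩ := h2 s hs
      rw [← pt_vadd] at e'
      rw [(h'.2.2 y hy _ (h1 (vadd_mem_tr.2 hx)) p' (by simp) s' hs' e').1]
      exact vadd_mem_tr.2 hx
    · intro hy
      exact ⟨h1 hy, _, hy, _, h3, by rw [← pt_vadd, vadd_neg_vadd]⟩
  have hm : pt x₀ p ∈ img {p', q', r'} W' := by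
    by_contra hn
    exact lf_moved h (s1 hx₀) (s := p) (by simp) (e ▸ cycW_fix h' hn)
  obtain ⟨y, hy, t, (rfl | rfl | rfl), e'⟩ := hm
  · obtain ⟨v, h1, rfl, rfl, rfl⟩ := lf_case hf h h' e s1 ⟨x₀, hx₀⟩
      fun x hx => (hc' x hx).1.2 ⟨y, hy, t, rfl, e'⟩
    rw [fin v h1 (by rintro s (rfl | rfl | rfl) <;> exact ⟨_, by simp, rfl⟩) (by simp)]
    exact E.shift v Z _ _ _ (h'.mono (l1.tr v) h1)
  · obtain ⟨v, h1, rfl, rfl, rfl⟩ := lf_case hf h h'.rot (e.trans (cycW_rot h')) s1 ⟨x₀, hx₀⟩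
      fun x hx => (hc' x hx).2.1.2 ⟨y, hy, t, rfl, e'⟩
    rw [fin v h1 (by rintro s (rfl | rfl | rfl) <;> exact ⟨_, by simp, rfl⟩) (by simp),
      E.rot _ _ _ _ (h'.mono (l1.tr v) h1)]
    exact E.shift v Z _ _ _ (h'.rot.mono (l1.tr v) h1)
  · obtain ⟨v, h1, rfl, rfl, rfl⟩ := lf_case hf h h'.rot.rot
      (e.trans ((cycW_rot h').trans (cycW_rot h'.rot))) s1 ⟨x₀, hx₀⟩
      fun x hx => (hc' x hx).2.2.2 ⟨y, hy, t, rfl, e'⟩
    rw [fin v h1 (by rintro s (rfl | rfl | rfl) <;> exact ⟨_, by simp, rfl⟩) (by simp),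
      ← E.rot _ _ _ _ (h'.rot.rot.mono (l1.tr v) h1)]
    exact E.shift v Z _ _ _ (h'.rot.rot.mono (l1.tr v) h1)
lemma LR.eq_e (hf : Free S) {c : Perm (Om S)} {γ : Γ} (h : E.LR c γ) {W : Set (Cfg S)} {p q r : Pt}
    (ha : Adm3 p q r W) (e : c = cycW p q r W) : γ = E.e W p q r := by 
  induction h generalizing W with
  | one =>
    rcases W.eq_empty_or_nonempty with rfl | ⟨x, hx⟩
    · exact (E.e_empty ha.1).symm
    · exact absurd (e ▸ rfl) (lf_moved ha hx (s := p) (by simp))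
  | elem W' p' q' r' h => exact E.e_eq hf h ha e
  | mul c c' γ γ' hd h1 _ ih1 ih2 =>
    have hY := locO_moved hf (h1.pr E).2.1
    obtain ⟨i, e1, e2⟩ := lf_split hd
    rw [e] at i e1 e2
    rw [lf_res_cycW ha hY i] at e1
    rw [lf_res_cycW ha hY.compl i.compl] at e2
    generalize {ω | c ω ≠ ω} = Y at hY e1 e2
    have l1 := ha.2.1.inter (hY.pt p)
    have l2 := ha.2.1.inter (hY.compl.pt p)
    have e0 : W = (W ∩ {x | pt x p ∈ Y}) ∪ (W ∩ {x | pt x p ∈ Yᶜ}) :=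
      (Set.inter_union_compl W {x | pt x p ∈ Y}).symm
    rw [ih1 (ha.mono l1 Set.inter_subset_left) e1.symm,
      ih2 (ha.mono l2 Set.inter_subset_left) e2.symm, ← E.union _ _ p q r (e0 ▸ ha) l1 l2 (by
        rw [Set.disjoint_left]
        exact fun x h1 h2 => h2.2 h1.2), ← e0]
lemma LR.unique (hf : Free S) {c : Perm (Om S)} {γ γ' : Γ} (h : E.LR c γ) (h' : E.LR c γ') :
    γ = γ' := by 
  induction h generalizing γ' with
  | one =>
    have d : D3 (((0 : V), (0 : Track)) : Pt) (0, 1) (0, 2) := ⟨by simp, by simp, by simp⟩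
    rw [h'.eq_e E hf (W := ∅) ⟨d, Loc.empty, fun _ hx => hx.elim⟩ (cycW_empty _ _ _).symm,
      E.e_empty d]
  | elem W p q r h => exact (h'.eq_e E hf h rfl).symm
  | mul c c' γ₁ γ₂ hd h1 _ ih1 ih2 =>
    obtain ⟨i, e1, e2⟩ := lf_split hd
    obtain ⟨a, b, l1, l2, rfl⟩ := h'.split E (locO_moved hf (h1.pr E).2.1) i
    rw [e1] at l1
    rw [e2] at l2
    rw [ih1 l1, ih2 l2]
lemma LR.conj (hf : Free S) {c : Perm (Om S)} {γ : Γ} (h : E.LR c γ) (δ : Γ) :
    E.LR (E.pr δ * c * (E.pr δ)⁻¹) (δ * γ * δ⁻¹) := by 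
  have hm : ∀ c c' γ γ', Perm.Disjoint c c' → E.LR (E.pr δ * c * (E.pr δ)⁻¹) (δ * γ * δ⁻¹) →
      E.LR (E.pr δ * c' * (E.pr δ)⁻¹) (δ * γ' * δ⁻¹) →
      E.LR (E.pr δ * (c * c') * (E.pr δ)⁻¹) (δ * (γ * γ') * δ⁻¹) := by
    intro c c' γ γ' hd h1 h2
    have := LR.mul _ _ _ _ (hd.conj (E.pr δ)) h1 h2
    rwa [conj_mul, conj_mul] at this
  have h0 : E.LR (E.pr δ * 1 * (E.pr δ)⁻¹) (δ * 1 * δ⁻¹) := by
    rw [mul_one, mul_one, mul_inv_cancel, mul_inv_cancel]; exact LR.one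
  induction h with
  | one => exact h0
  | elem W p q r h =>
    refine el_refine hf (E.pr_mem δ) h
      (P := fun Z => E.LR (E.pr δ * cycW p q r Z * (E.pr δ)⁻¹) (δ * E.e Z p q r * δ⁻¹)) ?_ ?_ ?_
    · rw [cycW_empty, E.e_empty h.1]; exact h0
    · intro Z₁ Z₂ l1 l2 s1 s2 hd a1 a2
      have A := h.mono (l1.union l2) (Set.union_subset s1 s2)
      rw [cycW_union A l1 l2 hd, E.union _ _ p q r A l1 l2 hd]
      exact hm _ _ _ _ (hat_cycW_disjoint h.2.2 s1 s2 hd (by simp) (by simp)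
        (by simp) (by simp) (by simp) (by simp) h.1 h.1) a1 a2
    · intro Z i j k l1 s1 hk e1
      rw [cycW_conj (h.mono l1 s1) _ e1 hk, E.conj δ Z p q r i j k (h.mono l1 s1) hk e1]
      exact LR.elem Z i j k hk
  | mul c c' γ γ' hd _ _ h1 h2 => exact hm _ _ _ _ hd h1 h2

/-- Plan: `hat c` is the unique `γ` with `LR c γ`; `mul` by `ms_induction` with
`P Y := hat (res c Y) * hat (res c' Y) = hat (res (c * c') Y)`, on a block use `IsBlk.one_or_cycW` and
`alt_inj` (`PreOn`, `ProdOn` on `F` from `conj`, `prod`). -/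
theorem exists_hatSys (E : ESys S Γ) (hp : HasPhases S) : Nonempty (HatSys S Γ) := by 
  classical
  have hf := hp.free
  let hat : Perm (Om S) → Γ := fun c => if h : ∃ γ, E.LR c γ then h.choose else 1
  have spec : ∀ c ∈ C3 S, E.LR c (hat c) := by
    intro c hc
    have := LR.exists E hp hc
    simp only [hat, dif_pos this]
    exact this.choose_spec
  have heq : ∀ c γ, E.LR c γ → hat c = γ := fun c γ h => (spec c (h.pr E).2).unique E hf h
  have hmul : ∀ c ∈ C3 S, ∀ c' ∈ C3 S, Perm.Disjoint c c' → hat (c * c') = hat c * hat c' :=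
    fun c hc c' hc' hd => heq _ _ (LR.mul _ _ _ _ hd (spec c hc) (spec c' hc'))
  refine ⟨⟨hat, E.pr, fun c hc => ((spec c hc).pr E).1, fun c hc c' hc' => ?_,
    fun c hc c' hc' hcc hs => ?_, ?_⟩⟩
  · have := (spec c' hc').conj E hf (hat c)
    rw [((spec c hc).pr E).1] at this
    exact (heq _ _ this).symm
  · have h0 : hat (res c ∅) * hat (res c' ∅) = hat (res (c * c') ∅) := by
      rw [res_empty, res_empty, res_empty, heq _ _ LR.one, mul_one]
    have := ms_induction hp hc.1 hc'.1 hs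
      (P := fun Y => hat (res c Y) * hat (res c' Y) = hat (res (c * c') Y)) h0 ?_ ?_
    · rwa [res_univ, res_univ, res_univ] at this
    · intro Y Y' l1 l2 i1 i2 i3 i4 hd a1 a2
      rw [res_union i1 i3 hd, res_union i2 i4 hd, res_union (i1.mul i2) (i3.mul i4) hd,
        hmul _ (res_mem_C3 hc l1) _ (res_mem_C3 hc l2) (res_disjoint _ _ hd),
        hmul _ (res_mem_C3 hc' l1) _ (res_mem_C3 hc' l2) (res_disjoint _ _ hd),
        hmul _ (res_mem_C3 hcc l1) _ (res_mem_C3 hcc l2) (res_disjoint _ _ hd), ← a1, ← a2]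
      have := (spec _ (res_mem_C3 hc' l1)).commute E (δ := hat (res c Y')) (by
        rw [((spec _ (res_mem_C3 hc l2)).pr E).1]
        exact res_disjoint _ _ hd.symm)
      rw [mul_assoc, ← mul_assoc (hat (res c Y')), this.eq, mul_assoc, mul_assoc]
    · intro F W π₁ π₂ hF hW hA f1 f2 i1 i2 b1 b2
      rcases W.eq_empty_or_nonempty with rfl | ⟨x₀, hx₀⟩
      · have : img (F : Set Pt) (∅ : Set (Cfg S)) = ∅ := by ext y; simp [img]
        rw [this]; exact h0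
      have lY : LocO (img (F : Set Pt) W) := LocO.img F.finite_toSet hW
      have b3 := b1.mul b2 fun x _ a ha => hat_perm_mem f2 ha
      rw [← res_mul i1 i2] at b3
      have P : PreOn (F : Set Pt) (E.e W) := by
        refine ⟨fun p hp q hq r hr d => E.rot _ _ _ _ (hat_adm3 hW hA hp hq hr d),
          fun p hp q hq r hr d => E.inv _ _ _ _ (hat_adm3 hW hA hp hq hr d),
          fun p hp q hq r hr d => E.cube _ _ _ _ (hat_adm3 hW hA hp hq hr d),
          fun p hp q hq r hr i hi j hj k hk d d' => ?_⟩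
        have hb := (cycW_isBlk hA hp hq hr d).1
        refine E.conj _ _ _ _ _ _ _ _ (hat_adm3 hW hA hi hj hk d')
          (hat_adm3 hW hA (hat_cyc_mem hp hq hr hi) (hat_cyc_mem hp hq hr hj)
            (hat_cyc_mem hp hq hr hk) (d'.map (cyc p q r).injective)) fun x hx => ?_
        rw [E.pr_e _ _ _ _ (hat_adm3 hW hA hp hq hr d)]
        exact ⟨hb x hx i hi, hb x hx j hj, hb x hx k hk⟩
      have Q : ProdOn (F : Set Pt) (E.e W) := fun p hp q hq r hr t ht d =>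
        E.prod W p q r t d hW (hA.mono (by
          rintro x (rfl | rfl | rfl | rfl)
          exacts [hp, hq, hr, ht]) subset_rfl)
      have key : ∀ g ∈ C3 S, ∀ π : Perm Pt, (∀ p, p ∉ F → π p = p) →
          IsBlk g F W (fun _ => π) → (hat g, π) ∈ Subgroup.closure
            {x : Γ × Perm Pt | ∃ p ∈ F, ∃ q ∈ F, ∃ r ∈ F, D3 p q r ∧
              x = (E.e W p q r, cyc p q r)} := by
        intro g hg π hπ b
        rcases b.one_or_cycW (by omega) hW hA hπ hg.2 with rfl | ⟨p, hp, q, hq, r, hr, A, rfl, rfl⟩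
        · have : π = 1 := by
            refine Equiv.ext fun p => ?_
            by_cases hp : p ∈ F
            · exact (hf.pt_inj x₀ (b.1 x₀ hx₀ p hp)).symm
            · exact hπ p hp
          rw [this, heq _ _ LR.one]
          exact one_mem _
        · rw [heq _ _ (LR.elem W p q r A)]
          exact Subgroup.subset_closure ⟨p, hp, q, hq, r, hr, A.1, rfl⟩
      have m := mul_mem (mul_mem (key _ (res_mem_C3 hc lY) π₁ f1 b1)
        (key _ (res_mem_C3 hc' lY) π₂ f2 b2)) (inv_mem (key _ (res_mem_C3 hcc lY) (π₁ * π₂)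
          (fun p hp => by rw [Perm.mul_apply, f2 p hp, f1 p hp]) b3))
      exact mul_inv_eq_one.1 (alt_inj F P Q m (mul_inv_cancel _))
  · rw [eq_top_iff, ← E.gen]
    refine Subgroup.closure_mono ?_
    rintro _ ⟨W, p, q, r, h, rfl⟩
    exact ⟨_, cycW_mem_C3 h, heq _ _ (LR.elem W p q r h)⟩

end ESys

end Crest.Agent.R189
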