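import Crest.Agent.R189.SFT
import Crest.Agent.R189.Homol

/-!
Row 189.  The shift is non-empty and minimal; `HD`.
-/

set_option autoImplicit false

namespace Crest.Agent.R189

variable {l : Lvl}

lemma letOK_MT (l : Lvl) {X Y : ℤ} (hX : X ≠ 0) (hY : Y ≠ 0) :
    LetOK l (phOf l (X, Y), MT X Y) := by
  refine ⟨fun v hv => ?_, fun h0 => l.recur X Y hX hY ?_⟩
  · have hc := phOf_eq_iff.1 hv.symm
    refine (MT_agree l.r hX hY).periodic hc.1 ?_
    rw [hl_congr l.r (c := 1 + 1) (c' := 0) rfl]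
    exact hc.2
  · have e : phOf l 0 = phOf l (X, Y) := by
      rw [show phOf l (X, Y) = 0 from h0]
      simp [phOf]
    have hc := phOf_eq_iff.1 e
    exact ⟨by simpa using hc.1, by simpa using hc.2⟩

/-- limit (`exists_limit`) of the model translated far away from the axes -/
theorem sw_nonempty (l : Lvl) : Nonempty (Cfg (SW l)) := by
  classical
  let f : V → (SW l).A := fun v =>
    if h : v.1 ≠ 0 ∧ v.2 ≠ 0 then ⟨(phOf l (v.1, v.2), MT v.1 v.2), letOK_MT l h.1 h.2⟩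
    else ⟨(phOf l (1, 1), MT 1 1), letOK_MT l one_ne_zero one_ne_zero⟩
  have hf : ∀ v : V, 0 < v.1 → 0 < v.2 → (f v).1 = (phOf l v, MT v.1 v.2) := fun v h1 h2 => by
    simp only [f, dif_pos (⟨h1.ne', h2.ne'⟩ : v.1 ≠ 0 ∧ v.2 ≠ 0)]
  obtain ⟨y, hy⟩ := exists_limit (S := SW l) fun k v => f (v + ((k : ℤ), (k : ℤ)))
  have key : ∀ v e : V, InB 1 e → ∃ w : V, 1 < w.1 ∧ 1 < w.2 ∧ y v = f w ∧ y (v + e) = f (w + e) := by
    intro v e he
    obtain ⟨a, ha⟩ := exists_InB v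
    obtain ⟨k, hk, h⟩ := hy (a + 1) (a + 2)
    have a1 := abs_le.1 ha.1
    have a2 := abs_le.1 ha.2
    have a3 := abs_le.1 he.1
    have a4 := abs_le.1 he.2
    refine ⟨v + ((k : ℤ), (k : ℤ)), ?_, ?_, (h v ⟨?_, ?_⟩).symm, ?_⟩
    · simp only [Prod.fst_add]; omega
    · simp only [Prod.snd_add]; omega
    · rw [abs_le]; push_cast; omega
    · rw [abs_le]; push_cast; omega
    · rw [add_right_comm]
      refine (h (v + e) ⟨?_, ?_⟩).symm
      · rw [abs_le, Prod.fst_add]; push_cast at *; omega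
      · rw [abs_le, Prod.snd_add]; push_cast at *; omega
  refine ⟨⟨y, fun v => ?_, fun v => ?_⟩⟩
  · obtain ⟨w, h1, h2, h3, h4⟩ := key v e1 ⟨by decide, by decide⟩
    have e : w + e1 = (w.1 + 1, w.2) := by simp [e1, Prod.ext_iff]
    change ((y v).1.1 + phOf l e1, (y v).1.2.R) = ((y (v + e1)).1.1, (y (v + e1)).1.2.L)
    rw [h3, h4, hf w (by omega) (by omega), hf (w + e1) (by rw [e]; simp only; omega)
      (by rw [e]; simp only; omega), phOf_add, e, MT_hor]
  · obtain ⟨w, h1, h2, h3, h4⟩ := key v e2 ⟨by decide, by decide⟩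
    have e : w + e2 = (w.1, w.2 + 1) := by simp [e2, Prod.ext_iff]
    change ((y v).1.1 + phOf l e2, (y v).1.2.T) = ((y (v + e2)).1.1, (y (v + e2)).1.2.B)
    rw [h3, h4, hf w (by omega) (by omega), hf (w + e2) (by rw [e]; simp only; omega)
      (by rw [e]; simp only; omega), phOf_add, e, MT_ver]

/-- every tiling contains every model tile, in the right class at any given level (at a high level
both lines are low, `eq_of_low`, `MT_agree`) -/
theorem contains_MT (y : Cfg (SW l)) {K : ℕ} (hK : l.r ≤ K) {X Y : ℤ} (hX : X ≠ 0) (hY : Y ≠ 0) :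
    ∃ u : V, Off (u +ᵥ y) K (X, Y) ∧ (tl (u +ᵥ y)).1 0 = MT X Y := by
  obtain ⟨a1, a2⟩ := rk_spec 1 hX
  obtain ⟨b1, b2⟩ := rk_spec 0 hY
  obtain ⟨o, ho⟩ := exists_off y (K := K + rk 1 X + rk 0 Y + 3) (by omega)
  have h := ho.vadd ((X, Y) - o)
  rw [add_sub_cancel] at h
  refine ⟨(X, Y) - o, h.mono (by omega), ?_⟩
  have h2 := h.2 0
  simp only [Prod.fst_zero, Prod.snd_zero, zero_add] at h2
  exact h2.eq_of_low (MT_agree _ hX hY) a2 a1 (by omega) b2 (by omega) (by omega)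

/-- `det_window`, `Off.rec_of_high`, `contains_MT` -/
theorem sw_minimal (l : Lvl) : Minimal (SW l) := by
  intro x y ρ
  obtain ⟨K, hK, Lf, zf, -, h⟩ := det_window ρ l.r
  obtain ⟨o, ho⟩ := exists_off x (K := K + 7) (by omega)
  obtain ⟨h1, h2, h3, -, h5⟩ := h o
  have ho' := ho.mono h2.le
  obtain ⟨X, Y, hX, hY, hH, e⟩ := ho'.rec_of_high (hK.trans h1) h3 (Lf o)
  obtain ⟨u, a1, a2⟩ := contains_MT y (hK.trans h1) hX hY
  have a3 : Off ((-zf o) +ᵥ u +ᵥ y) (Lf o) o := by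
    refine (a1.vadd (-zf o)).cong (hK.trans h1) ⟨?_, ?_⟩
    · have := h3.1.sub hH.1
      have e' : o.1 - ((X, Y) + -zf o).1 = (zf o).1 + o.1 - X := by
        simp only [Prod.fst_add, Prod.fst_neg]; ring
      rwa [e']
    · have := h3.2.sub hH.2
      have e' : o.2 - ((X, Y) + -zf o).2 = (zf o).2 + o.2 - Y := by
        simp only [Prod.snd_add, Prod.snd_neg]; ring
      rwa [e']
  have a4 : (tl x).1 (zf o) = (tl ((-zf o) +ᵥ u +ᵥ y)).1 (zf o) := by
    rw [← e, ← a2, tl_vadd (-zf o), vadd_val, add_neg_cancel]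
  refine ⟨-zf o + u, fun v hv => ?_⟩
  rw [add_vadd]
  exact ho'.val_eq a3 (Cong.refl _ _) (h5 _ _ ho'.2 a3.2 a4 v hv)

/-- `ι = Fin 7 × letters`, `Γ (j, a) = {y | Off y (K + j) 0 ∧ y 0 = a}`, `u x = - zf (o x)` for a chosen
offset `o x` at level `K + 7` -/
theorem sw_HD (l : Lvl) : HD (SW l) := by
  refine ⟨Fin 7 × (SW l).A, inferInstance, fun ρ => ?_⟩
  obtain ⟨K, hK, Lf, zf, hfin, h⟩ := det_window ρ l.r
  choose o ho using fun x : Cfg (SW l) => exists_off x (K := K + 7) (by omega)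
  have ho' : ∀ x, Off x (Lf (o x)) (o x) := fun x => (ho x).mono (h _).2.1.le
  have hL : ∀ x, l.r ≤ Lf (o x) := fun x => hK.trans (h _).1
  have hc : ∀ x, Cong (Lf (o x)) (o x + zf (o x)) 0 := fun x => by
    have := (h (o x)).2.2.1
    refine Cong.symm ⟨?_, ?_⟩
    · simp only [Prod.fst_add, Prod.fst_zero, sub_zero]
      rw [add_comm]; exact this.1
    · simp only [Prod.snd_add, Prod.snd_zero, sub_zero]
      rw [add_comm]; exact this.2
  let j : Cfg (SW l) → Fin 7 := fun x => ⟨Lf (o x) - K, by have := (h (o x)).2.1; omega⟩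
  have hj : ∀ x, K + (j x : ℕ) = Lf (o x) := fun x => by
    have := (h (o x)).1
    simp only [j]; omega
  have hback : ∀ x y : Cfg (SW l), Off (zf (o x) +ᵥ y) (Lf (o x)) 0 → Off y (Lf (o x)) (o x) := by
    intro x y hy
    have := (hy.cong (hL x) (hc x).symm).vadd (-zf (o x))
    rwa [neg_vadd_vadd, add_neg_cancel_right] at this
  have key : ∀ x y : Cfg (SW l), (-zf (o y) = -zf (o x) ∧
      (j y, y.1 (zf (o y))) = (j x, x.1 (zf (o x)))) ↔
      (Off (zf (o x) +ᵥ y) (Lf (o x)) 0 ∧ y.1 (zf (o x)) = x.1 (zf (o x))) := by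
    intro x y
    constructor
    · rintro ⟨h1, h2⟩
      have e1 : zf (o y) = zf (o x) := neg_injective h1
      have e2 : Lf (o y) = Lf (o x) := by rw [← hj, ← hj, (Prod.mk.inj h2).1]
      have e3 := (Prod.ext_iff.1 h2).2
      simp only [e1] at e3
      refine ⟨?_, e3⟩
      have := ((ho' y).vadd (zf (o y))).cong (hL y) (hc y)
      rwa [e1, e2] at this
    · rintro ⟨h1, h2⟩
      have := (hback x y h1).unique (hL x) ((ho y).mono (h _).2.1.le)
      obtain ⟨e1, e2⟩ := (h (o x)).2.2.2.1 _ this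
      refine ⟨by rw [e2], Prod.ext (Fin.ext ?_) ?_⟩
      · simp only [j, e1]
      · simp only [e2, h2]
  refine ⟨fun i => {y | Off y (K + i.1) 0 ∧ y.1 0 = i.2}, fun x => -zf (o x),
    fun x => (j x, x.1 (zf (o x))), fun i => ?_, ?_, fun x y => ?_, fun x y h1 h2 v hv => ?_⟩
  · exact (loc_off (by omega) 0).inter (Loc.st 0 {i.2})
  · refine (hfin.image Neg.neg).subset ?_
    rintro _ ⟨x, rfl⟩
    exact ⟨_, ⟨o x, rfl⟩, rfl⟩
  · rw [key, mem_tr, neg_neg, Set.mem_ofPred_eq, hj, vadd_val, zero_add]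
  · obtain ⟨a1, a2⟩ := (key x y).1 ⟨h1.symm, h2.symm⟩
    have a3 := hback x y a1
    exact (ho' x).val_eq a3 (Cong.refl _ _)
      ((h (o x)).2.2.2.2 _ _ (ho' x).2 a3.2 (congrArg tile a2.symm) v hv)

end Crest.Agent.R189
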