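import Crest.Agent.R189.SFT
import Crest.Agent.R189.Homol

/-!
Row 189.  The shift is rigid.
-/

set_option autoImplicit false

namespace Crest.Agent.R189

/-- Plan: `q φ = m 0 {ph = φ} = m v {ph = φ + phOf v}` is a central partition (`IsPVM.isPart` of the
comap, `hor`, `ver`); below `q φ` the tile measure `U ↦ inf (q φ) (m v (tile ⁻¹' U))` is a model of `TileW`
with level-`r` knowledge, and `inf (q φ) (m v U)` is one of its values; `compat_of_agr`,
`Compat.glue_part`. -/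
theorem sw_rigid (l : Lvl) : Rigid (SW l) := by
  intro P _ m h v w U U'
  have hT : IsModel TileW OMP.one (fun v U => m v (tile ⁻¹' U)) :=
    ⟨fun v => (h.pvm v).comap tile, fun v U => h.hor v (Prod.snd ⁻¹' U),
      fun v U => h.ver v (Prod.snd ⁻¹' U)⟩
  have h1 : ∀ v ψ, m v (ph ⁻¹' {ψ}) = m (v + e1) (ph ⁻¹' {ψ + phOf l e1}) := by
    intro v ψ
    have := h.hor v (Prod.fst ⁻¹' {ψ + phOf l e1})
    refine Eq.trans (congrArg (m v) ?_) this
    ext a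
    exact (add_left_inj (phOf l e1)).symm
  have h2 : ∀ v ψ, m v (ph ⁻¹' {ψ}) = m (v + e2) (ph ⁻¹' {ψ + phOf l e2}) := by
    intro v ψ
    have := h.ver v (Prod.fst ⁻¹' {ψ + phOf l e2})
    refine Eq.trans (congrArg (m v) ?_) this
    ext a
    exact (add_left_inj (phOf l e2)).symm
  have hq : ∀ φ v, m 0 (ph ⁻¹' {φ}) = m v (ph ⁻¹' {φ + phOf l v}) := by
    intro φ v
    refine hom_V_ind (p := fun v => m 0 (ph ⁻¹' {φ}) = m v (ph ⁻¹' {φ + phOf l v})) ?_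
      (fun v => ?_) (fun v => ?_) v
    · have : phOf l 0 = 0 := by simp [phOf]
      rw [this, add_zero]
    · rw [phOf_add, ← add_assoc, ← h1]
    · rw [phOf_add, ← add_assoc, ← h2]
  have hc : ∀ φ v U, OMP.Compat (m 0 (ph ⁻¹' {φ})) (m v U) := fun φ v U => by
    rw [hq φ v]; exact (h.pvm v).compat _ _
  have hi : ∀ φ v U, OMP.inf (m 0 (ph ⁻¹' {φ})) (m v U) = m v (ph ⁻¹' {φ + phOf l v} ∩ U) :=
    fun φ v U => by rw [hq φ v, (h.pvm v).inter]
  refine OMP.Compat.glue_part ((h.pvm 0).comap ph).isPart (OMP.le_one _) (OMP.le_one _)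
    (fun φ => hc φ v U) (fun φ => hc φ w U') fun φ => ?_
  have hM := hT.res (OMP.le_one (m 0 (ph ⁻¹' {φ}))) fun v U => hc φ v _
  obtain ⟨o, ho⟩ := phOf_surj φ
  have hA : Agr (poss (fun v U => OMP.inf (m 0 (ph ⁻¹' {φ})) (m v (tile ⁻¹' U)))
      (m 0 (ph ⁻¹' {φ}))) l.r 1 o := by
    intro v t ht
    have h3 := (mem_poss_self hM).1 ht
    rw [hi] at h3
    rcases (ph ⁻¹' {φ + phOf l v} ∩ tile ⁻¹' {t} : Set (SW l).A).eq_empty_or_nonempty with
      h0 | ⟨a, a1, a2⟩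
    · exact (h3 (h0 ▸ (h.pvm v).empty)).elim
    · have a2' : tile a = t := a2
      rw [← a2']
      refine a.2.1 (v + o) ?_
      rw [phOf_add, ho, add_comm]
      exact Eq.symm a1
  have key : ∀ v U, OMP.inf (m 0 (ph ⁻¹' {φ})) (m v U) = OMP.inf (m 0 (ph ⁻¹' {φ}))
      (m v (tile ⁻¹' (tile '' (ph ⁻¹' {φ + phOf l v} ∩ U)))) := by
    intro v U
    rw [hi, hi]
    congr 1
    ext a
    refine and_congr_right fun ha => ⟨fun hU => ⟨a, ⟨ha, hU⟩, rfl⟩, ?_⟩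
    rintro ⟨b, ⟨b1, b2⟩, b3⟩
    rwa [← let_ext (Eq.trans b1 (Eq.symm ha)) b3]
  have h4 := l.h4
  change OMP.Compat (OMP.inf (m 0 (ph ⁻¹' {φ})) (m v U)) (OMP.inf (m 0 (ph ⁻¹' {φ})) (m w U'))
  rw [key v U, key w U']
  exact compat_of_agr hM (by omega) hA v w _ _

end Crest.Agent.R189
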