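import Crest.Agent.R189.SFT
import Crest.Agent.R189.Homol
import Crest.Agent.R189.DetZ
import Crest.Agent.R189.Gate

/-!
Row 189.  `HC`, `HZ1`, `HZ2` for the shift.
-/

set_option autoImplicit false

namespace Crest.Agent.R189

variable {S : Wang}

/-- a phase with shifted origin -/
def Phase.shift {χ : V →+ ℤ} {a : ℕ} (φ : Phase S χ a) (c : ℤ) : Phase S χ a where
  r := φ.pos c
  nonneg := φ.pos_nonneg c
  lt := φ.pos_lt c
  loc := φ.pos_locF c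
  eqv := fun v x => by
    rw [φ.pos_vadd, sub_sub, Int.emod_def]
    exact ⟨-((φ.pos c x + χ v) / a), by ring⟩

lemma sz_phases (l : Lvl) {K : ℕ} (hK : l.r ≤ K) {a b : ℕ} (ha : hl K 1 = a) (hb : hl K 0 = b)
    (p : V) : ∃ (φ1 : Phase (SW l) χ1 (sn a)) (φ2 : Phase (SW l) χ2 (sn b)),
      ∀ x, Off x K p ↔ (φ1.r x = 0 ∧ φ2.r x = 0) := by
  subst ha hb
  obtain ⟨φ1, φ2, h⟩ := exists_phases l hK
  refine ⟨φ1.shift p.1, φ2.shift p.2, fun x => (h x p).trans (and_congr ?_ ?_)⟩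
  · change _ ↔ (φ1.r x - p.1) % _ = 0
    rw [← Int.emod_eq_emod_iff_emod_sub_eq_zero, Int.emod_eq_of_lt (φ1.nonneg x) (φ1.lt x)]
  · change _ ↔ (φ2.r x - p.2) % _ = 0
    rw [← Int.emod_eq_emod_iff_emod_sub_eq_zero, Int.emod_eq_of_lt (φ2.nonneg x) (φ2.lt x)]

lemma sz_lift {l : Lvl} {x : Cfg (SW l)} {K K' : ℕ} (hK : l.r ≤ K) (hK' : K ≤ K') {a b : ℕ}
    (ha : hl K 1 = a) (hb : hl K 0 = b) (h : Off x K 0) :
    ∃ o : V, (sn a : ℤ) ∣ o.1 ∧ (sn b : ℤ) ∣ o.2 ∧ AgrC (tl x).1 K' 1 o := by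
  subst ha hb
  obtain ⟨o, h1, h2⟩ := h.lift hK hK'
  exact ⟨o, by simpa using h1.1, by simpa using h1.2, h2.2⟩

lemma sz_neg {l : Lvl} {x : Cfg (SW l)} {K : ℕ} {p : V} (h : Off x K p) : Off ((-p) +ᵥ x) K 0 := by
  have := h.vadd (-p)
  rwa [add_neg_cancel] at this

lemma sz_big (n m c : ℕ) : ∃ a, m ≤ a ∧ a % 2 = c % 2 ∧ ∀ b, a ≤ b → n * sn b ≤ sn (b + 1) := by
  obtain ⟨a₀, h⟩ := sn_ratio n
  exact ⟨2 * (a₀ + m) + c % 2, by omega, by omega, fun b hb => h b (by omega)⟩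

/-- `K` odd with `2 ρ + 1 < sn (K - 2)`, base point `(ρ + 1, ρ + 1)` at level `K` (`a = sn K`,
`b = sn (K+1)`), `Y = {Off · (K + 1) (ρ + 1, ρ + 1)}`; `d1`, `d2` are pairs of letters; `strip_det` at level
`K` and, transposed, at level `K + 1`. -/
theorem sw_HC (l : Lvl) : HC (SW l) := by
  refine ⟨(SW l).A × (SW l).A, inferInstance, fun ρ => ?_⟩
  obtain ⟨K, hK, hK4, hKo, hρ⟩ : ∃ K, l.r ≤ K ∧ 4 ≤ K ∧ K % 2 = 1 ∧ 2 * ρ + 1 < sn (K - 2) := by
    refine ⟨2 * (l.r + ρ + 2) + 1, by omega, by omega, by omega, ?_⟩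
    have := le_sn (2 * (l.r + ρ + 2) + 1 - 2)
    omega
  have l1 : hl K 1 = K := by unfold hl; rw [if_pos (by omega)]
  have l0 : hl K 0 = K + 1 := by unfold hl; rw [if_neg (by omega)]
  have l1' : hl (K + 1) 1 = K + 1 + 1 := by unfold hl; rw [if_neg (by omega)]
  have l0' : hl (K + 1) 0 = K + 1 := by unfold hl; rw [if_pos (by omega)]
  let p : V := (ρ + 1, ρ + 1)
  obtain ⟨φ1, φ2, h⟩ := sz_phases l hK l1 l0 p
  refine ⟨_, _, φ1, φ2, {x | Off x (K + 1) p},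
    fun x => (((-p) +ᵥ x).1 (sn (K - 2), 1), ((-p) +ᵥ x).1 (sn K, 1)),
    fun x => (((-p) +ᵥ x).1 (1, sn (K + 1 - 2)), ((-p) +ᵥ x).1 (1, sn (K + 1))),
    fun x hx => (h x).1 (Off.mono hx (Nat.le_succ K)), fun x h1 h2 => ?_, ?_, ?_⟩
  · obtain ⟨o, a1, a2⟩ := ((h x).2 ⟨h1, h2⟩).lift hK (Nat.le_succ K)
    rw [Cong, l1, l0] at a1
    obtain ⟨⟨k, hk⟩, a3⟩ := a1
    refine ⟨-k, (a2.vadd _).cong (by omega) ⟨?_, ?_⟩⟩
    · have : p.1 - (o + ((-k * sn K, 0) : V)).1 = 0 := by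
        simp only [Prod.fst_add]; linear_combination -hk
      rw [this]; exact dvd_zero _
    · rw [l0', Prod.snd_add, add_zero]
      exact dvd_sub_comm.1 a3
  · intro x y h1 h2 h3 h4 e u hu0 hu1 v hv
    have hx := sz_neg ((h x).2 ⟨h1, h2⟩)
    have hy := sz_neg ((h y).2 ⟨h3, h4⟩)
    obtain ⟨o, a1, a2, a3⟩ := sz_lift hK (Nat.le_succ K) l1 l0 hx
    obtain ⟨o', b1, b2, b3⟩ := sz_lift hK (Nat.le_succ K) l1 l0 hy
    have c1 := abs_le.1 hv.1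
    have c2 := abs_le.1 hv.2
    have := strip_det hK4 (c := 1) hKo a3 b3 a1 a2 b1 b2 (n := 2 * ρ + 1) (by exact_mod_cast hρ)
      (congrArg tile (Prod.mk.inj e).1) (congrArg tile (Prod.mk.inj e).2)
      (X := v.1 + u + (ρ + 1)) (Y := v.2 + (ρ + 1)) (by omega) (by omega)
    have h5 := hx.val_eq hy (Cong.refl _ _) this
    have e' : ((v.1 + u + (ρ + 1), v.2 + (ρ + 1)) : V) + -p = v + (u, 0) := by
      refine Prod.ext ?_ ?_ <;> simp only [p, Prod.fst_add, Prod.snd_add, Prod.fst_neg,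
        Prod.snd_neg] <;> ring
    simp only [vadd_val, e'] at h5 ⊢
    exact h5
  · intro x h1 y h2 e u hu0 hu1 v hv
    have hx := sz_neg h1
    have hy := sz_neg h2
    obtain ⟨o, a1, a2, a3⟩ := sz_lift (by omega) (Nat.le_succ (K + 1)) l1' l0' hx
    obtain ⟨o', b1, b2, b3⟩ := sz_lift (by omega) (Nat.le_succ (K + 1)) l1' l0' hy
    have c1 := abs_le.1 hv.1
    have c2 := abs_le.1 hv.2
    have hρ' : 2 * ρ + 1 < sn (K + 1 - 2) := hρ.trans_le (sn_mono (by omega))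
    have := strip_det (K := K + 1) (by omega) (c := 1 + 1) (by omega) a3.tp b3.tp a2 a1 b2 b1
      (n := 2 * ρ + 1) (by exact_mod_cast hρ')
      (congrArg (fun a => Tile.tp (tile a)) (Prod.mk.inj e).1)
      (congrArg (fun a => Tile.tp (tile a)) (Prod.mk.inj e).2)
      (X := v.2 + u + (ρ + 1)) (Y := v.1 + (ρ + 1)) (by omega) (by omega)
    have h5 := hx.val_eq hy (Cong.refl _ _) (v := (v.1 + (ρ + 1), v.2 + u + (ρ + 1)))
      (congrArg Tile.tp this)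
    have e' : ((v.1 + (ρ + 1), v.2 + u + (ρ + 1)) : V) + -p = v + (0, u) := by
      refine Prod.ext ?_ ?_ <;> simp only [p, Prod.fst_add, Prod.snd_add, Prod.fst_neg,
        Prod.snd_neg] <;> ring
    simp only [vadd_val, e'] at h5 ⊢
    exact h5

/-- `K` even, `Pi = sn (K+1)`, `N = sn K`, `π = sn (K-1)`, `c = sn (K-1)`, `R = r = 1`; `zone_det`,
`zone_per`, `sn_ratio` -/
theorem sw_HZ1 (l : Lvl) : HZ1 (SW l) := by
  intro n
  obtain ⟨a, ha, hae, hr⟩ := sz_big (3 * (n + 3)) (l.r + n + 2) 0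
  have hev := l.even
  have l1 : hl (a + 2) 1 = a + 2 + 1 := by unfold hl; rw [if_neg (by omega)]
  have l0 : hl (a + 2) 0 = a + 2 := by unfold hl; rw [if_pos (by omega)]
  obtain ⟨φ1, φ2, h⟩ := sz_phases l (K := a + 2) (by omega) l1 l0 0
  have s1 : sn (a + 2) = 3 * (Mn a * sn a) := by rw [sn_add_two, Zn_eq, mul_assoc]
  have s2 : sn (a + 2 + 1) = 3 * (Mn (a + 1) * sn (a + 1)) := by
    rw [show a + 2 + 1 = a + 1 + 2 from rfl, sn_add_two, Zn_eq, mul_assoc]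
  have r1 := hr (a + 1) (by omega)
  have r2 := hr (a + 2) (by omega)
  have p1 := sn_pos (a + 1)
  have m1 : sn (a + 1) ≤ sn (a + 2) := sn_mono (by omega)
  have q1 : n * sn (a + 1) + 2 ≤ Mn a * sn a := by
    change 3 * (n + 3) * sn (a + 1) ≤ sn (a + 2) at r1
    nlinarith
  have q2 : n * sn (a + 2) + 2 + sn (a + 1) ≤ Mn (a + 1) * sn (a + 1) := by nlinarith
  obtain ⟨W, hW⟩ : ∃ W, Mn (a + 1) * sn (a + 1) = W + 2 + sn (a + 1) :=
    ⟨Mn (a + 1) * sn (a + 1) - 2 - sn (a + 1), by omega⟩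
  obtain ⟨H, hH⟩ : ∃ H, Mn a * sn a = H + 2 := ⟨Mn a * sn a - 2, by omega⟩
  have hW' : (Mn (a + 1) : ℤ) * sn (a + 1) = W + 2 + sn (a + 1) := by exact_mod_cast hW
  have hH' : (Mn a : ℤ) * sn a = H + 2 := by exact_mod_cast hH
  refine ⟨_, _, sn (a + 1), W, H, φ1, φ2, sn (a + 1), 1, 1, ?_, by omega, by omega, zero_le_one,
    by omega, zero_le_one, by omega, ?_, ?_⟩
  · have := le_sn (a + 1)
    omega
  · intro y y' h1 h2 h3 h4 e u j u1 u2 hj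
    have hx := (h y).2 ⟨h1, h2⟩
    have hy := (h y').2 ⟨h3, h4⟩
    obtain ⟨o, a1, a2, a3⟩ := sz_lift (K' := a + 2 + 2) (by omega) (by omega) l1 l0 hx
    obtain ⟨o', b1, b2, b3⟩ := sz_lift (K' := a + 2 + 2) (by omega) (by omega) l1 l0 hy
    exact hx.val_eq hy (Cong.refl _ _) (zone_det (K := a + 2) (by omega) (c := 1) (by omega) a3 b3
      a1 a2 b1 b2 (congrArg tile e) ⟨u1, by change u < (Mn (a + 1) : ℤ) * sn (a + 1); omega⟩ hj)
  · intro y h1 h2 u j u1 u2 j1 j2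
    have hx := (h y).2 ⟨h1, h2⟩
    obtain ⟨o, a1, a2, a3⟩ := sz_lift (K' := a + 2 + 2) (by omega) (by omega) l1 l0 hx
    refine let_ext ?_ (zone_per (K := a + 2) (by omega) (c := 1) (by omega) a3 a1 a2
      ⟨u1, ?_⟩ ⟨j1, by change j < (Mn a : ℤ) * sn a; omega⟩)
    · rw [ph_val, ph_val y (u, j)]
      congr 1
      refine (phOf_eq_iff.2 ⟨?_, by simp⟩).symm
      simp only [add_sub_cancel_left]
      exact_mod_cast sn_dvd (hl_le_of (by omega) (by omega)) ((hl_par _ _).trans (by omega))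
    · change u + (sn (a + 1) : ℤ) < ((Mn (a + 1) : ℤ) - 1) * sn (a + 1)
      rw [sub_mul, one_mul]
      omega

/-- `K` odd, `Pi = sn K`, `N = sn (K+1)`; transposed `zone_det` -/
theorem sw_HZ2 (l : Lvl) : HZ2 (SW l) := by
  intro n
  obtain ⟨a, ha, hae, hr⟩ := sz_big (3 * (n + 3)) (l.r + n + 4) 0
  have l1 : hl (a + 1) 1 = a + 1 := by unfold hl; rw [if_pos (by omega)]
  have l0 : hl (a + 1) 0 = a + 1 + 1 := by unfold hl; rw [if_neg (by omega)]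
  obtain ⟨φ1, φ2, h⟩ := sz_phases l (K := a + 1) (by omega) l1 l0 0
  have s1 : sn (a + 1 + 1) = 3 * (Mn a * sn a) := by
    rw [show a + 1 + 1 = a + 2 from rfl, sn_add_two, Zn_eq, mul_assoc]
  have r1 := hr (a + 1) (by omega)
  have p1 := sn_pos (a + 1)
  have q1 : n * sn (a + 1) + 2 ≤ Mn a * sn a := by nlinarith
  obtain ⟨H, hH⟩ : ∃ H, Mn a * sn a = H + 2 := ⟨Mn a * sn a - 2, by omega⟩
  have hH' : (Mn a : ℤ) * sn a = H + 2 := by exact_mod_cast hH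
  refine ⟨_, _, H, φ1, φ2, sn a, 1, ?_, by omega, zero_le_one, by omega, ?_⟩
  · have := le_sn (a + 1)
    omega
  · intro y y' h1 h2 h3 h4 e u j hu j1 j2
    have hx := (h y).2 ⟨h1, h2⟩
    have hy := (h y').2 ⟨h3, h4⟩
    obtain ⟨o, a1, a2, a3⟩ := sz_lift (K' := a + 1 + 2) (by omega) (by omega) l1 l0 hx
    obtain ⟨o', b1, b2, b3⟩ := sz_lift (K' := a + 1 + 2) (by omega) (by omega) l1 l0 hy
    have := zone_det (K := a + 1) (by omega) (c := 1 + 1) (by omega) a3.tp b3.tp a2 a1 b2 b1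
      (congrArg (fun a => Tile.tp (tile a)) e) (X := j) (Y := u)
      ⟨j1, by change j < (Mn a : ℤ) * sn a; omega⟩ hu
    exact hx.val_eq hy (Cong.refl _ _) (v := (u, j)) (congrArg Tile.tp this)

end Crest.Agent.R189
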