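import Crest.Agent.R189.PVM

/-!
Row 189.  Spectral theorem: a commuting quantum tiling is a Boolean homomorphism on local sets.
-/

set_option autoImplicit false

namespace Crest.Agent.R189

open OMP

variable {S : Wang} {P : Type} [OMP P]

/-- Boolean homomorphism on the local sets -/
structure IsSpec (Φ : Set (Cfg S) → P) : Prop where
  univ : Φ Set.univ = one
  orth : ∀ W W', Loc W → Loc W' → Disjoint W W' → orth (Φ W) (Φ W')
  union : ∀ W W', Loc W → Loc W' → Disjoint W W' → Φ (W ∪ W') = add (Φ W) (Φ W')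

lemma IsSpec.empty {Φ : Set (Cfg S) → P} (h : IsSpec Φ) : Φ ∅ = zero :=
  OMP.orth_self _ (h.orth ∅ ∅ Loc.empty Loc.empty (by simp))

lemma IsSpec.compl {Φ : Set (Cfg S) → P} (h : IsSpec Φ) {W : Set (Cfg S)} (hW : Loc W) :
    Φ Wᶜ = OMP.compl (Φ W) := by
  refine OMP.compl_unique _ _ (h.orth W Wᶜ hW hW.compl disjoint_compl_right) ?_
  rw [← h.union W Wᶜ hW hW.compl disjoint_compl_right, Set.union_compl_self, h.univ]

lemma IsSpec.spec_dec {Φ : Set (Cfg S) → P} (h : IsSpec Φ) {W W' : Set (Cfg S)} (hW : Loc W)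
    (hW' : Loc W') : OMP.orth (Φ (W ∩ W')) (Φ (W \ W')) ∧ OMP.orth (Φ (W ∩ W')) (Φ (W' \ W)) ∧
      OMP.orth (Φ (W \ W')) (Φ (W' \ W)) ∧ Φ W = add (Φ (W ∩ W')) (Φ (W \ W')) ∧
      Φ W' = add (Φ (W ∩ W')) (Φ (W' \ W)) := by
  have d1 : Disjoint (W ∩ W') (W \ W') := by
    rw [Set.disjoint_left]; rintro x ⟨-, h1⟩ ⟨-, h2⟩; exact h2 h1
  have d2 : Disjoint (W ∩ W') (W' \ W) := by
    rw [Set.disjoint_left]; rintro x ⟨h1, -⟩ ⟨-, h2⟩; exact h2 h1
  have d3 : Disjoint (W \ W') (W' \ W) := by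
    rw [Set.disjoint_left]; rintro x ⟨h1, -⟩ ⟨-, h2⟩; exact h2 h1
  refine ⟨h.orth _ _ (hW.inter hW') (hW.diff hW') d1, h.orth _ _ (hW.inter hW') (hW'.diff hW) d2,
    h.orth _ _ (hW.diff hW') (hW'.diff hW) d3, ?_, ?_⟩
  · rw [← h.union _ _ (hW.inter hW') (hW.diff hW') d1, Set.inter_union_sdiff]
  · rw [← h.union _ _ (hW.inter hW') (hW'.diff hW) d2, Set.inter_comm, Set.inter_union_sdiff]

lemma IsSpec.compat {Φ : Set (Cfg S) → P} (h : IsSpec Φ) {W W' : Set (Cfg S)} (hW : Loc W)
    (hW' : Loc W') : Compat (Φ W) (Φ W') := ⟨_, _, _, h.spec_dec hW hW'⟩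

lemma IsSpec.inter {Φ : Set (Cfg S) → P} (h : IsSpec Φ) {W W' : Set (Cfg S)} (hW : Loc W)
    (hW' : Loc W') : Φ (W ∩ W') = inf (Φ W) (Φ W') := by
  obtain ⟨h1, h2, h3, h4, h5⟩ := h.spec_dec hW hW'
  rw [h4, h5, inf_eq h1 h2 h3]

lemma spec_ext_orth {x y : P} (h : ∀ w, orth w x ↔ orth w y) : x = y :=
  OMP.le_antisymm (orth_symm _ _ ((h _).2 (orth_symm _ _ (orth_compl y))))
    (orth_symm _ _ ((h _).1 (orth_symm _ _ (orth_compl x))))

lemma spec_orth_of_le {w x y : P} (h : le x y) (h' : orth w y) : orth w x :=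
  orth_symm _ _ (orth_of_le h (orth_symm _ _ h'))

lemma spec_exists_sup (T : Set P) (hT : T.Finite) (h : T.Pairwise orth) :
    ∃ s : P, ∀ w, orth w s ↔ ∀ t ∈ T, orth w t := by
  induction T, hT using Set.Finite.induction_on with
  | empty => exact ⟨zero, fun w => ⟨fun _ _ h => h.elim, fun _ => orth_zero w⟩⟩
  | @insert a T ha _ ih =>
    obtain ⟨s, hs⟩ := ih (h.mono (Set.subset_insert _ _))
    have h1 : orth a s := (hs a).2 fun t ht =>
      h (Set.mem_insert _ _) (Set.mem_insert_of_mem _ ht) fun e => ha (e ▸ ht)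
    refine ⟨add a s, fun w => ?_⟩
    rw [orth_add _ _ _ h1, hs, Set.forall_mem_insert]

/-- iterated meet of the site projections -/
noncomputable def specCyl (m : V → Set S.A → P) (x : V → S.A) : List V → P
  | [] => one
  | v :: l => inf (m v {x v}) (specCyl m x l)

section

variable {m : V → Set S.A → P}

lemma specCyl_congr {x y : V → S.A} {l : List V} (h : ∀ v ∈ l, x v = y v) :
    specCyl m x l = specCyl m y l := by
  induction l with
  | nil => rfl
  | cons v l ih =>
    simp only [specCyl]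
    rw [h v (by simp), ih fun u hu => h u (by simp [hu])]

lemma specCyl_compat (hc : ∀ v w U U', Compat (m v U) (m w U')) (x : V → S.A) (l : List V) :
    ∀ v U, Compat (m v U) (specCyl m x l) := by
  induction l with
  | nil => exact fun v U => Compat.of_le (le_one _)
  | cons u l ih => exact fun v U => Compat.inf_right (ih _ _) (hc _ _ _ _) (ih _ _)

lemma specCyl_le {x : V → S.A} {l : List V} {v : V} (hv : v ∈ l) :
    le (specCyl m x l) (m v {x v}) := by
  induction l with
  | nil => simp at hv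
  | cons u l ih =>
    rcases List.mem_cons.1 hv with rfl | hv
    · exact inf_le_left _ _
    · exact OMP.le_trans (inf_le_right _ _) (ih hv)

lemma le_specCyl (hc : ∀ v w U U', Compat (m v U) (m w U')) {x : V → S.A} {l : List V} {w : P}
    (h : ∀ v ∈ l, le w (m v {x v})) : le w (specCyl m x l) := by
  induction l with
  | nil => exact le_one _
  | cons u l ih =>
    exact OMP.le_inf (specCyl_compat hc x l _ _) (h u (by simp)) (ih fun v hv => h v (by simp [hv]))

lemma specCyl_mono (hc : ∀ v w U U', Compat (m v U) (m w U')) {x : V → S.A} {l l' : List V}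
    (h : ∀ v ∈ l, v ∈ l') : le (specCyl m x l') (specCyl m x l) :=
  le_specCyl hc fun v hv => specCyl_le (h v hv)

lemma specCyl_orth (hm : IsModel S one m) {x y : V → S.A} {l : List V} {v : V} (hv : v ∈ l)
    (h : x v ≠ y v) : orth (specCyl m x l) (specCyl m y l) :=
  orth_of_le (specCyl_le hv) (spec_orth_of_le (specCyl_le hv)
    ((hm.pvm v).orth _ _ (Set.disjoint_singleton.2 h)))

lemma spec_extend (hm : IsModel S one m) (hc : ∀ v w U U', Compat (m v U) (m w U')) {w : P}
    {x : V → S.A} {l : List V} (h : ¬ orth w (specCyl m x l)) (l' : List V) :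
    ∃ y : V → S.A, (∀ v ∈ l, y v = x v) ∧ ¬ orth w (specCyl m y (l' ++ l)) := by
  classical
  induction l' with
  | nil => exact ⟨x, fun _ _ => rfl, h⟩
  | cons u l' ih =>
    obtain ⟨y, h1, h2⟩ := ih
    by_cases hu : u ∈ l' ++ l
    · refine ⟨y, h1, fun h3 => h2 (spec_orth_of_le (specCyl_mono hc fun v hv => ?_) h3)⟩
      rcases List.mem_cons.1 hv with rfl | hv
      · exact hu
      · exact hv
    · have h3 := (hm.pvm u).res (q := specCyl m y (l' ++ l)) (le_one _)
        fun U => (specCyl_compat hc _ _ _ _).symm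
      have h4 : ∃ a, ¬ orth w (inf (specCyl m y (l' ++ l)) (m u {a})) := by
        by_contra h5
        push Not at h5
        refine h2 ?_
        rw [← h3.univ]
        exact h3.orth_of_singles fun a _ => h5 a
      obtain ⟨a, ha⟩ := h4
      have h6 : ∀ v ∈ l' ++ l, Function.update y u a v = y v := fun v hv =>
        Function.update_of_ne (fun (e : v = u) => hu (e ▸ hv)) _ _
      refine ⟨Function.update y u a, fun v hv => (h6 v (by simp [hv])).trans (h1 v hv), ?_⟩
      show ¬ orth w (inf (m u {Function.update y u a u}) (specCyl m _ (l' ++ l)))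
      rw [Function.update_self, specCyl_congr h6, OMP.inf_comm]
      exact ha

lemma spec_ball (ρ : ℕ) : ∃ l : List V, ∀ v, v ∈ l ↔ InB ρ v := by
  have hfin : Set.Finite {v : V | InB ρ v} := basic_finite_ball ρ
  exact ⟨hfin.toFinset.toList, fun v => by simp⟩

lemma spec_list_ball (l : List V) : ∃ ρ : ℕ, ∀ k, ρ ≤ k → ∀ v ∈ l, InB k v := by
  induction l with
  | nil => exact ⟨0, fun _ _ _ h => by simp at h⟩
  | cons u l ih =>
    obtain ⟨ρ, hρ⟩ := ih
    obtain ⟨a, ha⟩ := exists_InB u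
    refine ⟨max ρ a, fun k hk v hv => ?_⟩
    rcases List.mem_cons.1 hv with rfl | hv
    · have h1 : (a : ℤ) ≤ k := by exact_mod_cast (le_max_right ρ a).trans hk
      exact ⟨ha.1.trans h1, ha.2.trans h1⟩
    · exact hρ k ((le_max_left _ _).trans hk) v hv

lemma spec_key (hm : IsModel S one m) (hc : ∀ v w U U', Compat (m v U) (m w U')) {w : P}
    {x : V → S.A} {l : List V} (h : ¬ orth w (specCyl m x l)) :
    ∃ y : Cfg S, (∀ v ∈ l, y.1 v = x v) ∧ ∀ l', ¬ orth w (specCyl m y.1 l') := by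
  choose B hB using spec_ball
  choose z hz1 hz2 using fun k : ℕ => spec_extend hm hc h (B k)
  obtain ⟨y, hy⟩ := exists_limit z
  have h1 : ∀ l', ¬ orth w (specCyl m y l') := by
    intro l' h2
    obtain ⟨ρ, hρ⟩ := spec_list_ball l'
    obtain ⟨k, hk, h3⟩ := hy ρ ρ
    rw [← specCyl_congr (x := z k) fun v hv => h3 v (hρ ρ le_rfl v hv)] at h2
    exact hz2 k (spec_orth_of_le (specCyl_mono hc fun v hv =>
      List.mem_append_left _ ((hB k v).2 (hρ k hk v hv))) h2)
  have h4 : ∀ u v (U : Set S.A), le (m u {y u}) (m v U) → y v ∈ U := by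
    intro u v U h5
    by_contra h6
    refine h1 [u, v] ?_
    have h7 : le (specCyl m y [u, v]) (m v U) := OMP.le_trans (specCyl_le (by simp)) h5
    have h8 : orth (specCyl m y [u, v]) (m v U) :=
      orth_of_le (specCyl_le (v := v) (by simp))
        ((hm.pvm v).orth _ _ (Set.disjoint_singleton_left.2 h6))
    rw [eq_zero_of_le_of_orth h7 h8]
    exact orth_zero w
  refine ⟨⟨y, fun v => ?_, fun v => ?_⟩, fun v hv => ?_, h1⟩
  · refine (h4 v (v + e1) (S.L ⁻¹' {S.R (y v)}) ?_).symm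
    rw [← hm.hor]
    exact (hm.pvm v).mono (by simp)
  · refine (h4 v (v + e2) (S.B ⁻¹' {S.T (y v)}) ?_).symm
    rw [← hm.ver]
    exact (hm.pvm v).mono (by simp)
  · obtain ⟨ρ, hρ⟩ := spec_list_ball l
    obtain ⟨k, -, h3⟩ := hy ρ ρ
    exact (h3 v (hρ ρ le_rfl v hv)).symm.trans (hz1 k v hv)

lemma spec_exists (hm : IsModel S one m) (hc : ∀ v w U U', Compat (m v U) (m w U'))
    {W : Set (Cfg S)} (hW : Loc W) :
    ∃ s : P, ∀ w, orth w s ↔ ∀ x ∈ W, ∃ l, orth w (specCyl m x.1 l) := by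
  obtain ⟨ρ, hρ⟩ := hW.exists_radius
  obtain ⟨l, hl⟩ := spec_ball ρ
  have hloc : LocF fun x : Cfg S => specCyl m x.1 l :=
    ⟨ρ, fun x y hxy => specCyl_congr fun v hv => hxy v ((hl v).1 hv)⟩
  obtain ⟨s, hs⟩ := spec_exists_sup ((fun x : Cfg S => specCyl m x.1 l) '' W)
    (hloc.finite_range.subset (Set.image_subset_range _ _)) (by
      rintro _ ⟨x, -, rfl⟩ _ ⟨y, -, rfl⟩ hne
      by_contra h1
      refine hne (specCyl_congr fun v hv => ?_)
      by_contra h2
      exact h1 (specCyl_orth hm hv h2))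
  refine ⟨s, fun w => ?_⟩
  rw [hs, Set.forall_mem_image]
  refine ⟨fun h x hx => ⟨l, h hx⟩, fun h x hx => ?_⟩
  by_contra h1
  obtain ⟨y, h2, h3⟩ := spec_key hm hc h1
  obtain ⟨l', h4⟩ := h y (hρ x y (fun v hv => (h2 v ((hl v).2 hv)).symm) hx)
  exact h3 l' h4

end

/-- Plan.  For a list `l` of sites and a pattern `x : V → S.A` let `cyl l x` be the iterated meet of
the `m v {x v}`, `v ∈ l` (all these elements are compatible, `Compat.inf_right`); it is invariant under
permutations/duplications of `l` (it is the greatest lower bound), `cyl l x = Σ_a cyl (v :: l) (x[v ↦ a])`,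
so a non-zero `cyl` extends site by site along an enumeration of `ℤ²` to a total `x` with all
`cyl l x ≠ zero`; such `x` is valid by `hor`, `ver`.  Hence patterns not occurring in `Cfg S` have
`cyl = zero`.  For the window `B_ρ` the map `U ↦ Σ_{x ∈ U} cyl B_ρ x` is a PVM `M ρ` on patterns,
compatible with restriction of patterns, supported on restrictions of valid tilings; put
`Φ W = M ρ {patterns of points of W}` for any radius `ρ` of `W`. -/
theorem exists_spec {m : V → Set S.A → P} (hm : IsModel S one m)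
    (hc : ∀ v w U U', Compat (m v U) (m w U')) :
    ∃ Φ : Set (Cfg S) → P, IsSpec Φ ∧ ∀ v U, Φ (St v U) = m v U := by
  classical
  have h0 : ∀ W : Set (Cfg S), ∃ s : P, Loc W →
      ∀ w, orth w s ↔ ∀ x ∈ W, ∃ l, orth w (specCyl m x.1 l) := by
    intro W
    by_cases hW : Loc W
    · obtain ⟨s, hs⟩ := spec_exists hm hc hW
      exact ⟨s, fun _ => hs⟩
    · exact ⟨zero, fun h => (hW h).elim⟩
  choose Φ hΦ using h0
  have hst : ∀ v U, Φ (St v U) = m v U := by
    intro v U
    refine spec_ext_orth fun w => ?_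
    rw [hΦ _ (Loc.st v U)]
    constructor
    · intro h
      refine (hm.pvm v).orth_of_singles fun a ha => ?_
      by_contra h1
      obtain ⟨y, h2, h3⟩ := spec_key hm hc (w := w) (x := fun _ => a) (l := [v]) fun h2 =>
        h1 (spec_orth_of_le (le_specCyl hc (x := fun _ => a) fun u hu => by
          rw [List.mem_singleton.1 hu]; exact OMP.le_refl _) h2)
      obtain ⟨l, h4⟩ := h y (by
        show y.1 v ∈ U
        rw [h2 v (by simp)]; exact ha)
      exact h3 l h4
    · intro h x hx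
      exact ⟨[v], spec_orth_of_le (OMP.le_trans (specCyl_le (by simp))
        ((hm.pvm v).mono (Set.singleton_subset_iff.2 hx))) h⟩
  have horth : ∀ W W', Loc W → Loc W' → Disjoint W W' → orth (Φ W) (Φ W') := by
    intro W W' hW hW' hd
    obtain ⟨ρ, hρ⟩ := hW.exists_radius
    obtain ⟨l, hl⟩ := spec_ball ρ
    refine (hΦ _ hW' _).2 fun y hy => ⟨l, orth_symm _ _ ((hΦ _ hW _).2 fun x hx => ⟨l, ?_⟩)⟩
    by_contra h1
    refine Set.disjoint_left.1 hd (hρ x y (fun v hv => ?_) hx) hy
    by_contra h2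
    exact h1 (specCyl_orth hm ((hl v).2 hv) (Ne.symm h2))
  refine ⟨Φ, ⟨?_, horth, fun W W' hW hW' hd => spec_ext_orth fun w => ?_⟩, hst⟩
  · have : (Set.univ : Set (Cfg S)) = St 0 Set.univ := by
      ext x; simp [St]
    rw [this, hst, (hm.pvm 0).univ]
  · rw [orth_add _ _ _ (horth W W' hW hW' hd), hΦ _ hW, hΦ _ hW', hΦ _ (hW.union hW')]
    exact ⟨fun h => ⟨fun x hx => h x (Or.inl hx), fun x hx => h x (Or.inr hx)⟩,
      fun h x hx => hx.elim (h.1 x) (h.2 x)⟩

end Crest.Agent.R189
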