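import Crest.Agent.R189.PresA
import Crest.Agent.R189.CondReg
import Crest.Agent.R189.Spec

/-!
Row 189.  From the presentation and rigidity to lifts of all aligned three-cycles.
-/

set_option autoImplicit false

namespace Crest.Agent.R189

open Equiv
open scoped commutatorElement

variable {S : Wang}

/-- lifts of the aligned three-cycles over all local sets -/
structure RData0 (S : Wang) (Γ : Type) [Group Γ] where
  c : Set (Cfg S) → Track → Track → Track → Γ
  τ : (Track → V) → Γ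
  pr : Γ →* Perm (Om S)
  pre : ∀ W, Loc W → Pre (c W)
  union : ∀ W W' i j k, Loc W → Loc W' → Disjoint W W' → D3 i j k →
    c (W ∪ W') i j k = c W i j k * c W' i j k
  orth : ∀ W W' i j k i' j' k', Loc W → Loc W' → Disjoint W W' → D3 i j k → D3 i' j' k' →
    Commute (c W i j k) (c W' i' j' k')
  loc : ∀ W W' i j k i' j' k', Loc W → Loc W' → D3 i j k → D3 i' j' k' →
    Disjoint ({i, j, k} : Finset Track) {i', j', k'} → Commute (c W i j k) (c W' i' j' k')
  τ_add : ∀ D D', SZ D → SZ D' → τ (D + D') = τ D * τ D'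
  eqv : ∀ D u W i j k, SZ D → Loc W → D3 i j k → D i = u → D j = u → D k = u →
    τ D * c W i j k * (τ D)⁻¹ = c (tr u W) i j k
  perm : ∀ D i j k, SZ D → D3 i j k →
    c Set.univ i j k * τ D * (c Set.univ i j k)⁻¹ = τ (fun l => D ((cyc i j k)⁻¹ l))
  pr_c : ∀ W i j k, Loc W → D3 i j k → pr (c W i j k) = cW i j k W
  pr_τ : ∀ D, SZ D → pr (τ D) = tau D
  gen : Subgroup.closure ({γ | ∃ W i j k, Loc W ∧ D3 i j k ∧ γ = c W i j k} ∪
    {γ | ∃ D, SZ D ∧ γ = τ D}) = ⊤

lemma cW_comm {W W' : Set (Cfg S)} (hW : Loc W) (hW' : Loc W') {p q r s t : Track}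
    (h : D5 p q r s t) : ⁅cW p q s W, cW p r t W'⁆ ^ 4 = cW p q r (W ∩ W') := by
  classical
  rw [pres_cW_eq (split_D5_l h) hW, pres_cW_eq (split_D5_r h) hW', pres_cW_eq h.1.1 (hW.inter hW'),
    ← map_commutatorElement, ← map_pow]
  congr 1
  funext x
  simp only [Pi.pow_apply, commutatorElement_def, Pi.mul_apply, Pi.inv_apply, Set.mem_inter_iff]
  by_cases h1 : x ∈ W
  · by_cases h2 : x ∈ W'
    · simp only [h1, h2, if_true, and_self]
      rw [← commutatorElement_def, cyc_comm h, pow_succ, cyc_cube h.1.1, one_mul]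
    · simp [h1, h2]
  · simp [h1]
lemma cW_compl {W : Set (Cfg S)} (hW : Loc W) {p q r : Track} (h : D3 p q r) :
    cW p q r Wᶜ = (cW p q r W)⁻¹ * cW p q r Set.univ := by
  rw [eq_inv_mul_iff_mul_eq, ← pres_cW_union h hW hW.compl disjoint_compl_right,
    Set.union_compl_self]

lemma presb_closure_comm {Γ : Type} [Group Γ] {s t : Set Γ} (h : ∀ x ∈ s, ∀ y ∈ t, Commute x y) :
    ∀ a ∈ Subgroup.closure s, ∀ b ∈ Subgroup.closure t, Commute a b := by
  intro a ha b hb
  induction ha using Subgroup.closure_induction with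
  | mem x hx =>
    induction hb using Subgroup.closure_induction with
    | mem y hy => exact h x hx y hy
    | one => exact Commute.one_right _
    | mul y z _ _ h1 h2 => exact h1.mul_right h2
    | inv y _ h1 => exact h1.inv_right
  | one => exact Commute.one_left _
  | mul x y _ _ h1 h2 => exact h1.mul_left h2
  | inv x _ h1 => exact h1.inv_left

/-- a sum-zero vector which is constant off one track -/
lemma presb_const (u : V) (l : Track) : ∃ D, SZ D ∧ ∀ m, m ≠ l → D m = u := by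
  obtain ⟨D, h1, h2, -⟩ := exists_SZ (Finset.univ.erase l) (fun _ => u) (l := l) (by simp)
  exact ⟨D, h1, fun m hm => h2 m (by simp [hm])⟩

lemma presb_cyc_ne {p q r l m : Track} (hp : l ≠ p) (hq : l ≠ q) (hr : l ≠ r) (hm : m ≠ l) :
    cyc p q r m ≠ l := fun e =>
  hm ((cyc p q r).injective (e.trans (cyc_apply_of_ne hp hq hr).symm))

namespace PData

variable {Γ : Type} [Group Γ] (T : PData S Γ)

lemma τ_zero : T.τ 0 = 1 := by
  have := T.τ_add 0 0 SZ.zero SZ.zero
  rw [add_zero] at this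
  exact mul_left_cancel (this.symm.trans (mul_one _).symm)

lemma φ_comm (U U' : Set S.A) {i j k i' j' k' : Track} (hi : i' ∉ [i, j, k]) (hj : j' ∉ [i, j, k])
    (hk : k' ∉ [i, j, k]) : Commute (T.φ U i j k) (T.φ U' i' j' k') := by
  have c : Commute (T.φ (U ∩ U') i j k) (T.φ (U ∩ U') i' j' k') := by
    by_cases d : D3 i j k
    · by_cases d' : D3 i' j' k'
      · simp only [List.mem_cons, List.not_mem_nil, or_false, not_or] at hi hj hk
        have := (T.pre (U ∩ U')).conj i j k i' j' k' d d'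
        rw [cyc_apply_of_ne hi.1 hi.2.1 hi.2.2, cyc_apply_of_ne hj.1 hj.2.1 hj.2.2,
          cyc_apply_of_ne hk.1 hk.2.1 hk.2.2] at this
        exact mul_inv_eq_iff_eq_mul.1 this
      · rw [T.junk _ _ _ _ d']; exact Commute.one_right _
    · rw [T.junk _ _ _ _ d]; exact Commute.one_left _
  have d1 : Disjoint (U ∩ U') (U \ U') := by
    rw [Set.disjoint_left]; rintro x ⟨-, h1⟩ ⟨-, h2⟩; exact h2 h1
  have d2 : Disjoint (U ∩ U') (U' \ U) := by
    rw [Set.disjoint_left]; rintro x ⟨h1, -⟩ ⟨-, h2⟩; exact h2 h1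
  have d3 : Disjoint (U \ U') (U' \ U) := by
    rw [Set.disjoint_left]; rintro x ⟨h1, -⟩ ⟨-, h2⟩; exact h2 h1
  have e1 := T.union _ _ i j k d1
  have e2 := T.union _ _ i' j' k' d2
  rw [Set.inter_union_sdiff] at e1
  rw [Set.inter_comm U U', Set.inter_union_sdiff, Set.inter_comm U' U] at e2
  rw [e1, e2]
  exact (c.mul_right (T.orth _ _ _ _ _ _ _ _ d2)).mul_left
    ((T.orth _ _ _ _ _ _ _ _ d1.symm).mul_right (T.orth _ _ _ _ _ _ _ _ d3))

/-- the unit commutes with the translations which are constant on the triple -/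
lemma τ_unit {D : Track → V} (hD : SZ D) {u : V} {i j k : Track} (d : D3 i j k) (hi : D i = u)
    (hj : D j = u) (hk : D k = u) : Commute (T.τ D) (T.φ Set.univ i j k) := by
  have := T.perm D i j k hD d
  have e : (fun l => D ((cyc i j k)⁻¹ l)) = D := by
    funext l
    obtain ⟨m, rfl⟩ := (cyc i j k).surjective l
    rw [show (cyc i j k)⁻¹ (cyc i j k m) = m by simp]
    by_cases h1 : m = i
    · rw [h1, cyc_apply_fst d, hi, hj]
    by_cases h2 : m = j
    · rw [h2, cyc_apply_snd d, hj, hk]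
    by_cases h3 : m = k
    · rw [h3, cyc_apply_thd d, hk, hi]
    rw [cyc_apply_of_ne h1 h2 h3]
  rw [e] at this
  exact (Commute.symm (mul_inv_eq_iff_eq_mul.1 this))

lemma τ_change {D D' : Track → V} (hD : SZ D) (hD' : SZ D') {x : Γ}
    (h : Commute (T.τ (D + -D')) x) : T.τ D * x * (T.τ D)⁻¹ = T.τ D' * x * (T.τ D')⁻¹ := by
  have e : T.τ D = T.τ D' * T.τ (D + -D') := by
    rw [← T.τ_add _ _ hD' (hD.add hD'.neg)]
    congr 1
    abel
  rw [e, mul_assoc _ _ x, h.eq, mul_inv_rev, ← mul_assoc, ← mul_assoc, mul_inv_cancel_right]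

lemma unit_conj (U : Set S.A) {p q r i j k : Track} (d : D3 p q r) (d' : D3 i j k) :
    T.φ Set.univ p q r * T.φ U i j k * (T.φ Set.univ p q r)⁻¹ =
      T.φ U (cyc p q r i) (cyc p q r j) (cyc p q r k) := by
  have c := T.orth Uᶜ U p q r i j k disjoint_compl_left
  rw [← Set.union_compl_self U, T.union _ _ _ _ _ disjoint_compl_right, mul_assoc _ _ (T.φ U i j k),
    c.eq, mul_inv_rev, ← mul_assoc, ← mul_assoc, mul_inv_cancel_right, (T.pre U).conj _ _ _ _ _ _ d d']

/-- unit `φ univ`; `Lc A` is generated by the `φ U` on triples in `A` and the `τ D` supported in `A` -/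
def cond : CondData Γ where
  ι := T.φ Set.univ
  junk := T.junk _
  pre := T.pre _
  Lc := fun A => Subgroup.closure ({γ | ∃ U, ∃ i ∈ A, ∃ j ∈ A, ∃ k ∈ A, γ = T.φ U i j k} ∪
    {γ | ∃ D, SZ D ∧ (∀ i, i ∉ A → D i = 0) ∧ γ = T.τ D})
  comm := fun A B hAB => presb_closure_comm (by
    have hd : ∀ l ∈ A, l ∉ B := fun l hl => Finset.disjoint_left.1 hAB hl
    rintro _ (⟨U, i, hi, j, hj, k, hk, rfl⟩ | ⟨D, hD, hD', rfl⟩) _
      (⟨U', i', hi', j', hj', k', hk', rfl⟩ | ⟨D', hE, hE', rfl⟩)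
    · have key : ∀ l ∈ B, l ∉ [i, j, k] := by
        intro l hl h
        simp only [List.mem_cons, List.not_mem_nil, or_false] at h
        rcases h with rfl | rfl | rfl
        exacts [hd _ hi hl, hd _ hj hl, hd _ hk hl]
      exact T.φ_comm U U' (key _ hi') (key _ hj') (key _ hk')
    · exact (T.τ_off D' U i j k hE (hE' _ (hd _ hi)) (hE' _ (hd _ hj)) (hE' _ (hd _ hk))).symm
    · exact T.τ_off D U' i' j' k' hD (hD' _ fun h => hd _ h hi') (hD' _ fun h => hd _ h hj')
        (hD' _ fun h => hd _ h hk')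
    · show _ * _ = _ * _
      rw [← T.τ_add _ _ hD hE, ← T.τ_add _ _ hE hD, add_comm])
  mem := fun _ _ p hp q hq r hr =>
    Subgroup.subset_closure (Or.inl ⟨Set.univ, p, hp, q, hq, r, hr, rfl⟩)

/-- every condition commutes with the translations supported off the triple -/
lemma τ_commute (ψ : Cond T.cond) {D : Track → V} (hD : SZ D) {i j k : Track} (hi : D i = 0)
    (hj : D j = 0) (hk : D k = 0) : Commute (T.τ D) (ψ.val i j k) := by
  refine SZ.induction (p := fun D => Commute (T.τ D) (ψ.val i j k))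
    {l | l ≠ i ∧ l ≠ j ∧ l ≠ k} ?_ ?_ ?_ hD ?_
  · rw [T.τ_zero]; exact Commute.one_left _
  · intro a ha b hb e _
    refine T.cond.comm {a, b} {a, b}ᶜ disjoint_compl_right _
      (Subgroup.subset_closure (Or.inr ⟨_, SZ.single a b e, fun l hl => ?_, rfl⟩)) _
      (ψ.mem _ ?_ i ?_ j ?_ k ?_)
    · simp only [Finset.mem_insert, Finset.mem_singleton, not_or] at hl
      simp [Pi.single_eq_of_ne hl.1, Pi.single_eq_of_ne hl.2]
    · have := Finset.card_le_two (a := a) (b := b)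
      rw [Finset.card_compl, Fintype.card_fin]
      omega
    · simp [ha.1.symm, hb.1.symm]
    · simp [ha.2.1.symm, hb.2.1.symm]
    · simp [ha.2.2.symm, hb.2.2.symm]
  · intro D D' h1 h2 a b
    rw [T.τ_add _ _ h1 h2]
    exact a.mul_left b
  · intro l hl
    by_contra h0
    exact hl ⟨fun e => h0 (e ▸ hi), fun e => h0 (e ▸ hj), fun e => h0 (e ▸ hk)⟩

/-- the values of the site measures -/
noncomputable def sv (v : V) (U : Set S.A) (i j k : Track) : Γ :=
  T.τ (presD (-v) i j k) * T.φ U i j k * (T.τ (presD (-v) i j k))⁻¹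

lemma sv_eq (v : V) (U : Set S.A) {D : Track → V} {i j k : Track} (hD : SZ D) (hi : D i = -v)
    (hj : D j = -v) (hk : D k = -v) : T.sv v U i j k = T.τ D * T.φ U i j k * (T.τ D)⁻¹ := by
  obtain ⟨a1, a2, a3, a4⟩ := presD_spec (-v) i j k
  exact T.τ_change a1 hD (T.τ_off _ U i j k (a1.add hD.neg) (by simp [hi, a2]) (by simp [hj, a3])
    (by simp [hk, a4]))

lemma sv_const (v : V) (l : Track) : ∃ D, SZ D ∧ (∀ m, m ≠ l → D m = -v) ∧
    ∀ U i j k, i ≠ l → j ≠ l → k ≠ l → T.sv v U i j k = T.τ D * T.φ U i j k * (T.τ D)⁻¹ := by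
  obtain ⟨D, h1, h2⟩ := presb_const (-v) l
  exact ⟨D, h1, h2, fun U i j k hi hj hk => T.sv_eq v U h1 (h2 _ hi) (h2 _ hj) (h2 _ hk)⟩

/-- the site measures -/
noncomputable def sm (v : V) (U : Set S.A) : Cond T.cond where
  val := T.sv v U
  junk := fun p q r d => by rw [sv, T.junk _ _ _ _ d, mul_one, mul_inv_cancel]
  pre := by
    refine ⟨fun p q r d => ?_, fun p q r d => ?_, fun p q r d => ?_, fun p q r i j k d d' => ?_⟩
    · obtain ⟨a1, a2, a3, a4⟩ := presD_spec (-v) p q r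
      rw [T.sv_eq v U a1 a2 a3 a4, T.sv_eq v U a1 a3 a4 a2, (T.pre U).rot p q r d]
    · obtain ⟨a1, a2, a3, a4⟩ := presD_spec (-v) p q r
      rw [T.sv_eq v U a1 a2 a3 a4, T.sv_eq v U a1 a2 a4 a3, (T.pre U).inv p q r d]
      group
    · rw [sv, conj_pow, (T.pre U).cube p q r d, mul_one, mul_inv_cancel]
    · obtain ⟨l, hl⟩ := split_fresh [p, q, r, i, j, k] (by simp)
      simp only [List.mem_cons, List.not_mem_nil, or_false, not_or] at hl
      obtain ⟨l1, l2, l3, l4, l5, l6⟩ := hl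
      obtain ⟨D, -, -, h⟩ := T.sv_const v l
      rw [h U p q r (Ne.symm l1) (Ne.symm l2) (Ne.symm l3), h U i j k (Ne.symm l4) (Ne.symm l5) (Ne.symm l6),
        h U _ _ _ (presb_cyc_ne l1 l2 l3 (Ne.symm l4)) (presb_cyc_ne l1 l2 l3 (Ne.symm l5))
          (presb_cyc_ne l1 l2 l3 (Ne.symm l6)), ← (T.pre U).conj p q r i j k d d']
      group
  eqv := fun p q r i j k d d' => by
    obtain ⟨l, hl⟩ := split_fresh [p, q, r, i, j, k] (by simp)
    simp only [List.mem_cons, List.not_mem_nil, or_false, not_or] at hl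
    obtain ⟨l1, l2, l3, l4, l5, l6⟩ := hl
    obtain ⟨D, h1, h2, h⟩ := T.sv_const v l
    have c := T.τ_unit h1 d (h2 _ (Ne.symm l1)) (h2 _ (Ne.symm l2)) (h2 _ (Ne.symm l3))
    rw [h U i j k (Ne.symm l4) (Ne.symm l5) (Ne.symm l6),
      h U _ _ _ (presb_cyc_ne l1 l2 l3 (Ne.symm l4)) (presb_cyc_ne l1 l2 l3 (Ne.symm l5))
        (presb_cyc_ne l1 l2 l3 (Ne.symm l6)), ← T.unit_conj U d d']
    show T.φ Set.univ p q r * _ * (T.φ Set.univ p q r)⁻¹ = _
    calc T.φ Set.univ p q r * (T.τ D * T.φ U i j k * (T.τ D)⁻¹) * (T.φ Set.univ p q r)⁻¹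
        = (T.φ Set.univ p q r * T.τ D) * T.φ U i j k * (T.φ Set.univ p q r * T.τ D)⁻¹ := by group
      _ = _ := by rw [← c.eq]; group
  mem := fun A hA p hp q hq r hr => by
    obtain ⟨l, hl, hl'⟩ := Finset.exists_mem_notMem_of_card_lt_card (s := {p, q, r}) (t := A)
      (lt_of_le_of_lt Finset.card_le_three (by omega))
    obtain ⟨D, h1, h2, h3⟩ := exists_SZ {p, q, r} (fun _ => -v) hl'
    rw [T.sv_eq v U h1 (h2 _ (by simp)) (h2 _ (by simp)) (h2 _ (by simp))]
    have m1 : T.τ D ∈ T.cond.Lc A := by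
      refine Subgroup.subset_closure (Or.inr ⟨D, h1, fun i hi => h3 i (fun h => hi ?_)
        (fun e => hi (e ▸ hl)), rfl⟩)
      simp only [Finset.mem_insert, Finset.mem_singleton] at h
      rcases h with rfl | rfl | rfl <;> assumption
    exact Subgroup.mul_mem _ (Subgroup.mul_mem _ m1
      (Subgroup.subset_closure (Or.inl ⟨U, p, hp, q, hq, r, hr, rfl⟩))) (Subgroup.inv_mem _ m1)

lemma sm_orth (v : V) {U U' : Set S.A} (h : Disjoint U U') : OMP.orth (T.sm v U) (T.sm v U') := by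
  intro p q r i j k
  obtain ⟨l, hl⟩ := split_fresh [p, q, r, i, j, k] (by simp)
  simp only [List.mem_cons, List.not_mem_nil, or_false, not_or] at hl
  obtain ⟨l1, l2, l3, l4, l5, l6⟩ := hl
  obtain ⟨D, -, -, h1⟩ := T.sv_const v l
  show Commute (T.sv v U p q r) (T.sv v U' i j k)
  rw [h1 U p q r (Ne.symm l1) (Ne.symm l2) (Ne.symm l3),
    h1 U' i j k (Ne.symm l4) (Ne.symm l5) (Ne.symm l6)]
  exact (T.orth U U' p q r i j k h).conj _

lemma sm_edge (v e : V) {U U' : Set S.A} (h : ∀ D i j k, SZ D → D i = -e → D j = -e → D k = -e →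
    T.φ U i j k = T.τ D * T.φ U' i j k * (T.τ D)⁻¹) : T.sm v U = T.sm (v + e) U' := by
  ext i j k
  obtain ⟨a1, a2, a3, a4⟩ := presD_spec (-v) i j k
  obtain ⟨b1, b2, b3, b4⟩ := presD_spec (-e) i j k
  show T.sv v U i j k = T.sv (v + e) U' i j k
  rw [T.sv_eq v U a1 a2 a3 a4, h _ i j k b1 b2 b3 b4,
    T.sv_eq (v + e) U' (a1.add b1) (by simp [a2, b2, add_comm]) (by simp [a3, b3, add_comm])
      (by simp [a4, b4, add_comm]), T.τ_add _ _ a1 b1]
  group

/-- the site measures `μ v U i j k = τ D * φ U i j k * (τ D)⁻¹`, `D = -v` on the triple -/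
lemma exists_model : ∃ μ : V → Set S.A → Cond T.cond, IsModel S OMP.one μ ∧
    ∀ v U D i j k, SZ D → D i = -v → D j = -v → D k = -v →
      (μ v U).val i j k = T.τ D * T.φ U i j k * (T.τ D)⁻¹ := by
  refine ⟨T.sm, ⟨fun v => ⟨?_, fun U U' h => T.sm_orth v h, fun U U' h => ?_⟩,
    fun v A => T.sm_edge v e1 (T.hor A), fun v A => T.sm_edge v e2 (T.ver A)⟩,
    fun v U D i j k hD hi hj hk => T.sv_eq v U hD hi hj hk⟩
  · ext i j k
    show T.sv v Set.univ i j k = T.φ Set.univ i j k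
    by_cases d : D3 i j k
    · obtain ⟨a1, a2, a3, a4⟩ := presD_spec (-v) i j k
      rw [sv, (T.τ_unit a1 d a2 a3 a4).eq, mul_inv_cancel_right]
    · rw [sv, T.junk _ _ _ _ d, mul_one, mul_inv_cancel]
  · ext i j k
    rw [Cond.omp_add_val (T.sm_orth v h)]
    show T.sv v (U ∪ U') i j k = T.sv v U i j k * T.sv v U' i j k
    rw [sv, sv, sv, T.union _ _ _ _ _ h]
    group

/-- Plan: `c W = (Φ W).val` with `Φ` from `exists_spec`; `eqv` and `pr_c` by `Loc.induction`
(`omp_compl_val`, `omp_inf_val`; for intersections first change `D` by `τ_commute` so that it is constant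
on five tracks). -/
theorem exists_rdata0 (T : PData S Γ) (hr : Rigid S) : Nonempty (RData0 S Γ) := by
  obtain ⟨μ, hμ, hval⟩ := T.exists_model
  obtain ⟨Φ, hΦ, hst⟩ := exists_spec hμ (hr _ μ hμ)
  have hinter : ∀ W W', Loc W → Loc W' → ∀ p q r s t, D5 p q r s t →
      (Φ (W ∩ W')).val p q r = ⁅(Φ W).val p q s, (Φ W').val p r t⁆ ^ 4 := by
    intro W W' hW hW' p q r s t d
    rw [hΦ.inter hW hW', Cond.omp_inf_val (hΦ.compat hW hW') d]
  have hcompl : ∀ W, Loc W → ∀ p q r,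
      (Φ Wᶜ).val p q r = ((Φ W).val p q r)⁻¹ * T.φ Set.univ p q r := by
    intro W hW p q r
    rw [hΦ.compl hW]
    rfl
  have huniv : ∀ p q r, (Φ Set.univ).val p q r = T.φ Set.univ p q r := by
    intro p q r
    rw [hΦ.univ]
    rfl
  have heqv : ∀ W, Loc W → ∀ D u i j k, SZ D → D3 i j k → D i = u → D j = u → D k = u →
      T.τ D * (Φ W).val i j k * (T.τ D)⁻¹ = (Φ (tr u W)).val i j k := by
    refine Loc.induction (fun v U D u i j k hD d hi hj hk => ?_)
      (fun W hW ih D u i j k hD d hi hj hk => ?_)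
      (fun W W' hW hW' ih ih' D u i j k hD d hi hj hk => ?_)
    · obtain ⟨a1, a2, a3, a4⟩ := presD_spec (-v) i j k
      rw [tr_St, hst, hst, hval v U _ i j k a1 a2 a3 a4,
        hval (v - u) U _ i j k (hD.add a1) (by simp [a2, hi, sub_eq_add_neg])
          (by simp [a3, hj, sub_eq_add_neg]) (by simp [a4, hk, sub_eq_add_neg]), T.τ_add _ _ hD a1]
      group
    · rw [show tr u Wᶜ = (tr u W)ᶜ from rfl, hcompl W hW, hcompl _ (hW.tr u),
        ← ih D u i j k hD d hi hj hk]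
      have c := T.τ_unit hD d hi hj hk
      calc T.τ D * (((Φ W).val i j k)⁻¹ * T.φ Set.univ i j k) * (T.τ D)⁻¹
          = T.τ D * ((Φ W).val i j k)⁻¹ * (T.τ D)⁻¹ * (T.τ D * T.φ Set.univ i j k) * (T.τ D)⁻¹ := by
            group
        _ = _ := by rw [c.eq]; group
    · obtain ⟨s, t, d5⟩ := split_D5 d
      obtain ⟨l, hl⟩ := split_fresh [i, j, k, s, t] (by simp)
      simp only [List.mem_cons, List.not_mem_nil, or_false, not_or] at hl
      obtain ⟨l1, l2, l3, l4, l5⟩ := hl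
      obtain ⟨D', b1, b2⟩ := presb_const u l
      rw [T.τ_change hD b1 (T.τ_commute _ (hD.add b1.neg) (by simp [hi, b2 _ (Ne.symm l1)])
          (by simp [hj, b2 _ (Ne.symm l2)]) (by simp [hk, b2 _ (Ne.symm l3)])),
        show tr u (W ∩ W') = tr u W ∩ tr u W' from rfl, hinter W W' hW hW' i j k s t d5,
        hinter _ _ (hW.tr u) (hW'.tr u) i j k s t d5, split_conj_comm,
        ih D' u i j s b1 (split_D5_l d5) (b2 _ (Ne.symm l1)) (b2 _ (Ne.symm l2)) (b2 _ (Ne.symm l4)),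
        ih' D' u i k t b1 (split_D5_r d5) (b2 _ (Ne.symm l1)) (b2 _ (Ne.symm l3)) (b2 _ (Ne.symm l5))]
  have hpr : ∀ W, Loc W → ∀ i j k, D3 i j k → T.pr ((Φ W).val i j k) = cW i j k W := by
    refine Loc.induction (fun v U i j k d => ?_) (fun W hW ih i j k d => ?_)
      (fun W W' hW hW' ih ih' i j k d => ?_)
    · obtain ⟨a1, a2, a3, a4⟩ := presD_spec (-v) i j k
      rw [hst, hval v U _ i j k a1 a2 a3 a4, map_mul, map_mul, map_inv, T.pr_τ _ a1,
        T.pr_φ _ _ _ _ d, pres_tau_conj d (Loc.st 0 U) a2 a3 a4, tr_St, zero_sub, neg_neg]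
    · rw [hcompl W hW, map_mul, map_inv, ih i j k d, T.pr_φ _ _ _ _ d, cW_compl hW d]
      rfl
    · obtain ⟨s, t, d5⟩ := split_D5 d
      rw [hinter W W' hW hW' i j k s t d5, map_pow, map_commutatorElement,
        ih _ _ _ (split_D5_l d5), ih' _ _ _ (split_D5_r d5), cW_comm hW hW' d5]
  refine ⟨⟨fun W => (Φ W).val, T.τ, T.pr, fun W _ => (Φ W).pre, fun W W' i j k hW hW' hd _ => ?_,
    fun W W' i j k i' j' k' hW hW' hd _ _ => hΦ.orth W W' hW hW' hd i j k i' j' k',
    fun W W' i j k i' j' k' _ _ _ _ hd => Cond.commute_of_disjoint _ _ hd, T.τ_add,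
    fun D u W i j k hD hW d hi hj hk => heqv W hW D u i j k hD d hi hj hk,
    fun D i j k hD d => ?_, fun W i j k hW d => hpr W hW i j k d, T.pr_τ, ?_⟩⟩
  · show (Φ (W ∪ W')).val i j k = _
    rw [hΦ.union W W' hW hW' hd, Cond.omp_add_val (hΦ.orth W W' hW hW' hd)]
  · show (Φ Set.univ).val i j k * _ * ((Φ Set.univ).val i j k)⁻¹ = _
    rw [huniv, T.perm D i j k hD d]
  · rw [eq_top_iff, ← T.gen, Subgroup.closure_le]
    rintro _ (⟨U, i, j, k, rfl⟩ | h)
    · by_cases d : D3 i j k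
      · refine Subgroup.subset_closure (Or.inl ⟨St 0 U, i, j, k, Loc.st 0 U, d, ?_⟩)
        show _ = (Φ (St 0 U)).val i j k
        rw [hst, hval 0 U 0 i j k SZ.zero (by simp) (by simp) (by simp), T.τ_zero]
        simp
      · rw [T.junk _ _ _ _ d]
        exact Subgroup.one_mem _
    · exact Subgroup.subset_closure (Or.inr h)

end PData

end Crest.Agent.R189
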