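import Crest.Agent.R189.Msec
import Crest.Agent.R189.PresB

/-!
Row 189.  `GG` is infinite and simple.
-/

set_option autoImplicit false

namespace Crest.Agent.R189

open Equiv
open scoped commutatorElement

variable {S : Wang}

lemma simple_cycW_mem {p q r : Pt} {W : Set (Cfg S)} (h : Adm3 p q r W) : cycW p q r W ∈ GG S :=
  Subgroup.subset_closure (cycW_mem_C3 h)

lemma simple_adm3 {i j k : Track} (h : D3 i j k) {W : Set (Cfg S)} (hW : Loc W) :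
    Adm3 (0, i) (0, j) (0, k) W := adm3_of_tracks h hW

lemma simple_D3_012 : D3 (0 : Track) 1 2 := ⟨by decide, by decide, by decide⟩

/-- the `cW 0 1 2 {φ.r = c}`, `0 ≤ c < a`, are pairwise different -/
theorem GG_infinite (hp : HasPhases S) (hn : Nonempty (Cfg S)) : Infinite (GG S) := by
  classical
  by_contra hfin
  have : Finite (GG S) := not_infinite_iff_finite.1 hfin
  obtain ⟨⟨a, ha, -, ⟨φ⟩⟩, -⟩ := hp (Nat.card (GG S) + 1)
  obtain ⟨x₀⟩ := hn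
  have hloc : ∀ c : Fin a, Loc (φ.r ⁻¹' {(c : ℤ)}) := fun c => φ.loc.preimage _
  have hinj : Function.Injective fun c : Fin a =>
      (⟨cW 0 1 2 (φ.r ⁻¹' {(c : ℤ)}), simple_cycW_mem (simple_adm3 simple_D3_012 (hloc c))⟩ : GG S) := by
    intro c c' e
    have e' : cW 0 1 2 (φ.r ⁻¹' {(c : ℤ)}) = cW 0 1 2 (φ.r ⁻¹' {(c' : ℤ)}) := congrArg Subtype.val e
    have hx : φ.r ((((c : ℤ) - φ.r x₀, 0) : V) +ᵥ x₀) = c := by
      rw [φ.r_vadd, χ1_apply, add_sub_cancel]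
      exact Int.emod_eq_of_lt (by omega) (by have := c.2; omega)
    have e2 := congrArg (fun g : Perm (Om S) => g ((((c : ℤ) - φ.r x₀, 0) : V) +ᵥ x₀, 0)) e'
    simp only [cW_apply simple_D3_012 (hloc _), Set.mem_preimage, Set.mem_singleton_iff, hx, if_true,
      cyc_apply_fst simple_D3_012] at e2
    split_ifs at e2 with h
    · exact Fin.ext (by omega)
    · exact absurd (show (1 : Track) = 0 from congrArg Prod.snd e2) (by decide)
  have := Nat.card_le_card_of_injective _ hinj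
  simp only [Nat.card_eq_fintype_card, Fintype.card_fin] at this
  omega

/-- a subgroup of `GG` normalised by `GG` -/
structure NormIn (N : Subgroup (Perm (Om S))) : Prop where
  le : N ≤ GG S
  conj : ∀ g ∈ GG S, ∀ n ∈ N, g * n * g⁻¹ ∈ N

lemma NormIn.comm_mem {N : Subgroup (Perm (Om S))} (hN : NormIn N) {n g : Perm (Om S)} (hn : n ∈ N)
    (hg : g ∈ GG S) : ⁅n, g⁆ ∈ N := by
  have := N.mul_mem hn (hN.conj g hg _ (N.inv_mem hn))
  rwa [commutatorElement_def, mul_assoc, mul_assoc, ← mul_assoc g]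

lemma simple_radius (l : List Pt) : ∃ k : ℕ, ∀ p ∈ l, InB k p.1 := by
  induction l with
  | nil => exact ⟨0, fun _ h => by simp at h⟩
  | cons u l ih =>
    obtain ⟨k, hk⟩ := ih
    obtain ⟨a, ha⟩ := exists_InB u.1
    refine ⟨max k a, fun v hv => ?_⟩
    rcases List.mem_cons.1 hv with rfl | hv
    · exact perm_InB_mono ha (le_max_right _ _)
    · exact perm_InB_mono (hk v hv) (le_max_left _ _)

/-- small neighbourhoods are admissible -/
lemma simple_small (hp : HasPhases S) (l : List Pt) (x₀ : Cfg S) :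
    ∃ W, Loc W ∧ x₀ ∈ W ∧ Adm {p | p ∈ l} W := by
  obtain ⟨k, hk⟩ := simple_radius l
  obtain ⟨⟨a, ha, -, ⟨φ1⟩⟩, ⟨b, hb, -, ⟨φ2⟩⟩⟩ := hp (2 * k + 1)
  refine ⟨φ1.r ⁻¹' {φ1.r x₀} ∩ φ2.r ⁻¹' {φ2.r x₀}, (φ1.loc.preimage _).inter (φ2.loc.preimage _),
    ⟨rfl, rfl⟩, adm_of_phases hp.free φ1 φ2 (fun x hx => hx) fun p h1 q h2 e d1 d2 => ?_⟩
  obtain ⟨a1, a2⟩ := hk p h1
  obtain ⟨a3, a4⟩ := hk q h2
  rw [abs_le] at a1 a2 a3 a4
  have e1 := Int.eq_zero_of_abs_lt_dvd d1 (by rw [abs_lt]; omega)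
  have e2 := Int.eq_zero_of_abs_lt_dvd d2 (by rw [abs_lt]; omega)
  exact Prod.ext (Prod.ext (by omega) (by omega)) e

lemma simple_cyc_mem {F : Set Pt} {p q r : Pt} (hp : p ∈ F) (hq : q ∈ F) (hr : r ∈ F) {s : Pt}
    (hs : s ∈ F) : cyc p q r s ∈ F :=
  (perm_mem_iff (fun _ hs => cyc_apply_of_ne (fun e => hs (e ▸ hp)) (fun e => hs (e ▸ hq))
    (fun e => hs (e ▸ hr))) s).2 hs

lemma simple_adm3_sub {F : Set Pt} {W : Set (Cfg S)} (h : Adm F W) (hW : Loc W) {p q r : Pt}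
    (hp : p ∈ F) (hq : q ∈ F) (hr : r ∈ F) (d : D3 p q r) : Adm3 p q r W :=
  ⟨d, hW, h.mono (by rintro s (rfl | rfl | rfl) <;> assumption) subset_rfl⟩

/-- Plan: `g (x₀, i) ≠ (x₀, i)`; with `π = actP g x₀`, `a = (0, i)`, `b = π a ≠ a` choose `c, d` such that
`a, c, d, b, π c, π d` are six different points, and fresh `e, f`.  Let `W ∋ x₀` be local, inside one class of two
phases with large moduli (`adm_of_phases` for these eight points), with `actP g x = π` on `a, c, d`.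
`n = ⁅g, cycW a c d W⁆ = cycW b (π c) (π d) W * cycW a d c W`, and `⁅n, cycW a e f W⁆ = cycW a d e W`. -/
lemma NormIn.exists_cycW (hp : HasPhases S) {N : Subgroup (Perm (Om S))} (hN : NormIn N)
    (hne : N ≠ ⊥) : ∃ p q r W, Adm3 p q r W ∧ W.Nonempty ∧ cycW p q r W ∈ N := by
  have hf := hp.free
  obtain ⟨⟨g, hg⟩, hg1⟩ := Subgroup.ne_bot_iff_exists_ne_one.1 hne
  have hgl : g ∈ LocP S := GG_le (hN.le hg)
  obtain ⟨⟨x₀, i⟩, hx₀⟩ : ∃ ω, g ω ≠ ω := by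
    by_contra h
    push Not at h
    exact hg1 (Subtype.ext (Equiv.ext h))
  obtain ⟨π, hπ⟩ : ∃ π, π = actP g x₀ := ⟨_, rfl⟩
  have hb : π (0, i) ≠ (0, i) := fun e => hx₀ (by
    rw [← pt_zero x₀ i, actP_spec hf hgl, ← hπ, e])
  obtain ⟨t₁, h1⟩ := split_fresh [i, (π⁻¹ (0, i)).2] (by simp)
  obtain ⟨t₂, h2⟩ := split_fresh [i, (π⁻¹ (0, i)).2, t₁] (by simp)
  obtain ⟨t₃, h3⟩ := split_fresh [i, t₁, t₂, (π (0, i)).2, (π (0, t₁)).2, (π (0, t₂)).2] (by simp)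
  obtain ⟨t₄, h4⟩ := split_fresh [i, t₁, t₂, (π (0, i)).2, (π (0, t₁)).2, (π (0, t₂)).2, t₃] (by simp)
  simp only [List.mem_cons, List.not_mem_nil, or_false, not_or] at h1 h2 h3 h4
  have ne2 : ∀ {p q : Pt}, p.2 ≠ q.2 → p ≠ q := fun h e => h (congrArg Prod.snd e)
  have hc : (0, i) ≠ π (0, t₁) := fun e => h1.2 (by rw [e]; simp)
  have hd : (0, i) ≠ π (0, t₂) := fun e => h2.2.1 (by rw [e]; simp)
  obtain ⟨W₀, hW₀, hx, hadm₀⟩ := simple_small hp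
    [(0, i), (0, t₁), (0, t₂), π (0, i), π (0, t₁), π (0, t₂), (0, t₃), (0, t₄)] x₀
  obtain ⟨W, hW, hxW, hsub, hact⟩ : ∃ W, Loc W ∧ x₀ ∈ W ∧ W ⊆ W₀ ∧ ∀ x ∈ W,
      actP g x (0, i) = π (0, i) ∧ actP g x (0, t₁) = π (0, t₁) ∧ actP g x (0, t₂) = π (0, t₂) :=
    ⟨W₀ ∩ ((fun x => actP g x (0, i)) ⁻¹' {π (0, i)} ∩ ((fun x => actP g x (0, t₁)) ⁻¹' {π (0, t₁)} ∩
      (fun x => actP g x (0, t₂)) ⁻¹' {π (0, t₂)})),
      hW₀.inter (((actP_locF hf hgl _).preimage _).inter (((actP_locF hf hgl _).preimage _).inter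
        ((actP_locF hf hgl _).preimage _))), ⟨hx, by simp [hπ]⟩, Set.inter_subset_left,
      fun x hx => hx.2⟩
  have hadm := hadm₀.mono subset_rfl hsub
  generalize hF : {p | p ∈ [((0 : V), i), (0, t₁), (0, t₂), π (0, i), π (0, t₁), π (0, t₂), (0, t₃),
    (0, t₄)]} = F at hadm
  have m1 : ((0 : V), i) ∈ F := by simp [← hF]
  have m2 : ((0 : V), t₁) ∈ F := by simp [← hF]
  have m3 : ((0 : V), t₂) ∈ F := by simp [← hF]
  have m4 : π (0, i) ∈ F := by simp [← hF]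
  have m5 : π (0, t₁) ∈ F := by simp [← hF]
  have m6 : π (0, t₂) ∈ F := by simp [← hF]
  have m7 : ((0 : V), t₃) ∈ F := by simp [← hF]
  have m8 : ((0 : V), t₄) ∈ F := by simp [← hF]
  have d1 : D3 ((0 : V), i) (0, t₁) (0, t₂) :=
    ⟨ne2 (Ne.symm h1.1), ne2 (Ne.symm h2.1), ne2 (Ne.symm h2.2.2)⟩
  have A1 := simple_adm3_sub hadm hW m1 m2 m3 d1
  have A2 := simple_adm3_sub hadm hW m4 m5 m6 (d1.map π.injective)
  have hn := hN.comm_mem hg (simple_cycW_mem A1)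
  rw [commutatorElement_def, cycW_conj A1 g (fun x hx => by
    simp only [actP_spec hf hgl, hact x hx, and_self]) A2, ← cycW_inv A1] at hn
  have B := (cycW_isBlk hadm m4 m5 m6 A2.1).mul (cycW_isBlk hadm m1 m3 m2 A1.swap.1)
    fun _ _ s hs => simple_cyc_mem m1 m3 m2 hs
  have d4 : D4 ((0 : V), t₁) (0, i) (0, t₃) (0, t₄) :=
    ⟨⟨ne2 h1.1, ne2 (Ne.symm h3.2.1), ne2 (Ne.symm h3.1)⟩, ne2 (Ne.symm h4.2.1), ne2 (Ne.symm h4.1),
      ne2 (Ne.symm h4.2.2.2.2.2.2)⟩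
  have A3 := simple_adm3_sub hadm hW m2 m7 m8 ⟨d4.1.2.1, d4.2.1, d4.2.2.2⟩
  have A4 := simple_adm3_sub hadm hW m1 m7 m8 ⟨d4.1.2.2, d4.2.2.1, d4.2.2.2⟩
  have A5 := simple_adm3_sub hadm hW m2 m1 m7 d4.1
  have hn2 := hN.comm_mem hn (simple_cycW_mem A3)
  rw [commutatorElement_def, cycW_conj A3 _ (fun x hx => ?_) A4, ← cycW_inv A3] at hn2
  · refine ⟨_, _, _, W, A5, ⟨x₀, hxW⟩, ?_⟩
    have B2 := (cycW_isBlk hadm m1 m7 m8 A4.1).mul (cycW_isBlk hadm m2 m8 m7 A3.swap.1)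
      fun _ _ s hs => simple_cyc_mem m2 m8 m7 hs
    rw [cyc_prod d4] at B2
    rw [← B2.unique (cycW_isBlk hadm m2 m1 m7 d4.1)]
    exact hn2
  · rw [B.1 x hx _ m2, B.1 x hx _ m7, B.1 x hx _ m8]
    simp only [Perm.mul_apply]
    rw [cyc_apply_thd A1.swap.1, cyc_apply_of_ne hb.symm hc hd,
      cyc_apply_of_ne (p := (0, i)) (x := (0, t₃)) (ne2 h3.1) (ne2 h3.2.2.1) (ne2 h3.2.1),
      cyc_apply_of_ne (x := (0, t₃)) (ne2 h3.2.2.2.1) (ne2 h3.2.2.2.2.1) (ne2 h3.2.2.2.2.2),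
      cyc_apply_of_ne (p := (0, i)) (x := (0, t₄)) (ne2 h4.1) (ne2 h4.2.2.1) (ne2 h4.2.1),
      cyc_apply_of_ne (x := (0, t₄)) (ne2 h4.2.2.2.1) (ne2 h4.2.2.2.2.1) (ne2 h4.2.2.2.2.2.1)]
    exact ⟨rfl, rfl, rfl⟩

lemma simple_adm_insert {F : Set Pt} {W : Set (Cfg S)} (h : Adm F W) {a : Pt}
    (ha : ∀ p ∈ F, a.2 ≠ p.2) : Adm (insert a F) W := by
  rintro x hx y hy p (rfl | hp) q (rfl | hq) e
  · exact ⟨blk_pt_cancel e, rfl⟩
  · exact (ha q hq (congrArg Prod.snd e :)).elim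
  · exact (ha p hp (congrArg Prod.snd e :).symm).elim
  · exact h x hx y hy p hp q hq e

/-- move the last point to a fresh track and rotate -/
lemma NormIn.simple_move {N : Subgroup (Perm (Om S))} (hN : NormIn N) {p q r : Pt}
    {W : Set (Cfg S)} (h : Adm3 p q r W) {a : Pt} (h1 : a.2 ≠ p.2) (h2 : a.2 ≠ q.2)
    (h3 : a.2 ≠ r.2) : Adm3 q r a W ∧ (cycW p q r W ∈ N ↔ cycW q r a W ∈ N) := by
  have ne2 : ∀ {p q : Pt}, p.2 ≠ q.2 → p ≠ q := fun h e => h (congrArg Prod.snd e)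
  obtain ⟨t, ht⟩ := split_fresh [p.2, q.2, r.2, a.2] (by simp)
  simp only [List.mem_cons, List.not_mem_nil, or_false, not_or] at ht
  have hadm : Adm (insert (0, t) (insert a {p, q, r})) W :=
    simple_adm_insert (simple_adm_insert h.2.2 (by rintro s (rfl | rfl | rfl) <;> assumption)) (by
      rintro s (rfl | rfl | rfl | rfl)
      exacts [ht.2.2.2, ht.1, ht.2.1, ht.2.2.1])
  have d1 : D3 p a (0, t) := ⟨ne2 h1.symm, ne2 (Ne.symm ht.1), ne2 (Ne.symm ht.2.2.2)⟩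
  have A1 : Adm3 p a (0, t) W := simple_adm3_sub hadm h.2.1 (by simp) (by simp) (by simp) d1
  have A2 : Adm3 a q r W :=
    simple_adm3_sub hadm h.2.1 (by simp) (by simp) (by simp) ⟨ne2 h2, ne2 h3, h.1.2.2⟩
  have B := cycW_isBlk hadm (p := p) (q := a) (r := (0, t)) (by simp) (by simp) (by simp) d1
  have e := cycW_conj h (cycW p a (0, t) W) (fun x hx => by
    rw [B.1 x hx p (by simp), B.1 x hx q (by simp), B.1 x hx r (by simp), cyc_apply_fst d1,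
      cyc_apply_of_ne h.1.1.symm (ne2 h2.symm) (ne2 (Ne.symm ht.2.1)),
      cyc_apply_of_ne h.1.2.1.symm (ne2 h3.symm) (ne2 (Ne.symm ht.2.2.1))]
    exact ⟨rfl, rfl, rfl⟩) A2
  refine ⟨A2.rot, ?_⟩
  rw [← cycW_rot A2, ← e]
  refine ⟨hN.conj _ (simple_cycW_mem A1) _, fun hm => ?_⟩
  have := hN.conj _ ((GG S).inv_mem (simple_cycW_mem A1)) _ hm
  simpa [mul_assoc] using this

/-- all admissible triples over the same set are conjugate (conjugate both to a triple on three fresh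
tracks by `cycW a p s W * cycW a' q s' W * cycW a'' r s'' W`) -/
lemma NormIn.cycW_change {N : Subgroup (Perm (Om S))} (hN : NormIn N) {p q r p' q' r' : Pt}
    {W : Set (Cfg S)} (h : Adm3 p q r W) (h' : Adm3 p' q' r' W) (hm : cycW p q r W ∈ N) :
    cycW p' q' r' W ∈ N := by
  obtain ⟨a, ha⟩ := split_fresh [p.2, q.2, r.2, p'.2, q'.2, r'.2] (by simp)
  obtain ⟨b, hb⟩ := split_fresh [p.2, q.2, r.2, p'.2, q'.2, r'.2, a] (by simp)
  obtain ⟨c, hc⟩ := split_fresh [p.2, q.2, r.2, p'.2, q'.2, r'.2, a, b] (by simp)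
  simp only [List.mem_cons, List.not_mem_nil, or_false, not_or] at ha hb hc
  obtain ⟨a1, a2, a3, a4, a5, a6⟩ := ha
  obtain ⟨b1, b2, b3, b4, b5, b6, b7⟩ := hb
  obtain ⟨c1, c2, c3, c4, c5, c6, c7, c8⟩ := hc
  obtain ⟨A1, e1⟩ := hN.simple_move h (a := (0, a)) a1 a2 a3
  obtain ⟨A2, e2⟩ := hN.simple_move A1 (a := (0, b)) b2 b3 b7
  obtain ⟨-, e3⟩ := hN.simple_move A2 (a := (0, c)) c3 c7 c8
  obtain ⟨A1', e1'⟩ := hN.simple_move h' (a := (0, a)) a4 a5 a6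
  obtain ⟨A2', e2'⟩ := hN.simple_move A1' (a := (0, b)) b5 b6 b7
  obtain ⟨-, e3'⟩ := hN.simple_move A2' (a := (0, c)) c6 c7 c8
  exact e1'.2 (e2'.2 (e3'.2 (e3.1 (e2.1 (e1.1 hm)))))

/-- subsets: `⁅cW 0 1 3 W, cW 0 2 4 W'⁆ ^ 4 = cW 0 1 2 (W ∩ W')` -/
lemma NormIn.cW_sub {N : Subgroup (Perm (Om S))} (hN : NormIn N) {W W' : Set (Cfg S)} (hW : Loc W)
    (hW' : Loc W') (hs : W' ⊆ W) (hm : cW 0 1 2 W ∈ N) : cW 0 1 2 W' ∈ N := by
  have d5 : D5 (0 : Track) 1 2 3 4 := by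
    refine ⟨⟨⟨?_, ?_, ?_⟩, ?_, ?_, ?_⟩, ?_, ?_, ?_, ?_⟩ <;> decide
  have h1 : cW 0 1 3 W ∈ N :=
    hN.cycW_change (simple_adm3 simple_D3_012 hW) (simple_adm3 (split_D5_l d5) hW) hm
  have h2 := N.pow_mem (hN.comm_mem h1 (simple_cycW_mem (simple_adm3 (split_D5_r d5) hW'))) 4
  have h3 := cW_comm hW hW' d5
  rw [Set.inter_eq_right.2 hs] at h3
  rw [← h3]
  exact h2

lemma NormIn.cW_tr {N : Subgroup (Perm (Om S))} (hN : NormIn N) {W : Set (Cfg S)} (hW : Loc W)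
    (v : V) (hm : cW 0 1 2 W ∈ N) : cW 0 1 2 (tr v W) ∈ N := by
  have A := simple_adm3 simple_D3_012 (hW.tr v)
  rw [cW, ← cycW_shP v A]
  exact hN.cycW_change (simple_adm3 simple_D3_012 hW) ((adm3_shP v).2 A) hm

/-- `Minimal.cover`, `Loc.refine`, `cycW_union`, `C3_induction` -/
theorem NormIn.eq_top (hp : HasPhases S) (hm : Minimal S) {N : Subgroup (Perm (Om S))}
    (hN : NormIn N) (hne : N ≠ ⊥) : N = GG S := by
  obtain ⟨p, q, r, W, A, hW, h1⟩ := hN.exists_cycW hp hne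
  have h2 : cW 0 1 2 W ∈ N := hN.cycW_change A (simple_adm3 simple_D3_012 A.2.1) h1
  obtain ⟨F, hF⟩ := hm.cover A.2.1 hW
  have h3 : ∀ Z, Loc Z → cW 0 1 2 Z ∈ N := by
    intro Z hZ
    refine Loc.refine (f := fun x (v : F) => x ∈ tr v.1 W) (LocF.pi fun v => A.2.1.tr v.1) hZ
      (p := fun Z => cW 0 1 2 Z ∈ N) (fun Z Z' a b _ _ d h h' => ?_) fun Z a _ hc => ?_
    · show cW 0 1 2 (Z ∪ Z') ∈ N
      rw [pres_cW_union simple_D3_012 a b d]
      exact N.mul_mem h h'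
    · rcases Z.eq_empty_or_nonempty with rfl | ⟨x, hx⟩
      · show cycW _ _ _ _ ∈ N
        rw [cycW_empty]
        exact N.one_mem
      · obtain ⟨v, hv, hxv⟩ := hF x
        exact hN.cW_sub (A.2.1.tr v) a (fun y hy => (congrFun (hc x hx y hy) ⟨v, hv⟩).mp hxv)
          (hN.cW_tr A.2.1 v h2)
  refine le_antisymm hN.le ((Subgroup.closure_le _).2 fun c hc => ?_)
  exact C3_induction hp (P := fun c => c ∈ N) N.one_mem
    (fun p q r Z B => hN.cycW_change (simple_adm3 simple_D3_012 B.2.1) B (h3 Z B.2.1))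
    (fun c c' _ _ _ a b => N.mul_mem a b) hc

theorem GG_simple (hp : HasPhases S) (hm : Minimal S) (hn : Nonempty (Cfg S)) :
    IsSimpleGroup (GG S) := by
  have := GG_infinite hp hn
  refine ⟨fun H hH => ?_⟩
  by_cases h : H = ⊥
  · exact Or.inl h
  right
  have hN : NormIn (H.map (GG S).subtype) := by
    refine ⟨Subgroup.map_subtype_le H, ?_⟩
    rintro g hg _ ⟨n, hn, rfl⟩
    exact ⟨_, hH.conj_mem n hn ⟨g, hg⟩, rfl⟩
  have e := hN.eq_top hp hm fun e =>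
    h ((Subgroup.map_eq_bot_iff_of_injective H (GG S).subtype_injective).1 e)
  rw [eq_top_iff]
  intro g _
  have hg : g.1 ∈ H.map (GG S).subtype := by rw [e]; exact g.2
  obtain ⟨n, hn, e'⟩ := hg
  rwa [← Subtype.ext e']

end Crest.Agent.R189
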