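import Crest.Agent.R189.FP
import Crest.Agent.R189.Amen
import Crest.Agent.R189.Simple
import Crest.Agent.R189.SFTMin
import Crest.Agent.R189.SFTZone
import Crest.Agent.R189.SFTRigid

/-!
Row 189.  Assembly.
-/

set_option autoImplicit false

namespace Crest.Agent.R189

theorem main : ∃ (G : Type) (_ : Group G),
    Infinite G ∧ Group.IsFinitelyPresented G ∧ IsSimpleGroup G ∧ Crest.GroupTheory.Amenable G := by
  obtain ⟨l⟩ := nonempty_lvl
  have hp := sw_hasPhases l
  have hm := sw_minimal l
  have hn := sw_nonempty l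
  exact ⟨GG (SW l), inferInstance, GG_infinite hp hn,
    GG_fp hp hm (sw_rigid l) (sw_HD l).h0 (sw_HC l).h1, GG_simple hp hm hn,
    GG_amenable hp.free (sw_HZ1 l) (sw_HZ2 l)⟩

end Crest.Agent.R189
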