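import Crest.Agent.R189.Tri

/-!
Row 189.  Presentations of alternating and symmetric groups by conjugation relations.
-/

set_option autoImplicit false

namespace Crest.Agent.R189

open Equiv

section
variable {α : Type} [DecidableEq α] {Γ : Type} [Group Γ]

lemma tp_orbit {π : Perm α} (h3 : π ^ 3 = 1) {p : α} (hp : π p ≠ p) :
    D3 p (π p) (π (π p)) ∧ π (π (π p)) = p := by
  have e : π (π (π p)) = p := by
    have := congrArg (fun σ : Perm α => σ p) h3
    simpa [pow_succ] using this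
  refine ⟨⟨hp.symm, fun h => hp ?_, fun h => hp (π.injective h).symm⟩, e⟩
  rw [← h] at e
  exact e

/-- A permutation of order dividing three moving at most five points is trivial or a three-cycle. -/
lemma eq_one_or_cyc (π : Perm α) (F : Finset α) (hF : F.card ≤ 5) (hfix : ∀ x, x ∉ F → π x = x)
    (h3 : π ^ 3 = 1) : π = 1 ∨ ∃ p ∈ F, ∃ q ∈ F, ∃ r ∈ F, D3 p q r ∧ π = cyc p q r := by
  by_cases h1 : π = 1
  · exact Or.inl h1
  right
  obtain ⟨p, hp⟩ : ∃ p, π p ≠ p := by
    by_contra hn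
    push Not at hn
    exact h1 (Equiv.ext hn)
  have hF' : ∀ x, π x ≠ x → x ∈ F ∧ π x ∈ F ∧ π (π x) ∈ F := by
    intro x hx
    have a : ∀ y, π y ≠ y → y ∈ F := fun y hy => by
      by_contra hn; exact hy (hfix y hn)
    have b : π (π x) ≠ π x := fun h => hx (π.injective h)
    exact ⟨a x hx, a _ b, a _ fun h => b (π.injective h)⟩
  obtain ⟨d, e⟩ := tp_orbit h3 hp
  obtain ⟨m1, m2, m3⟩ := hF' p hp
  refine ⟨p, m1, π p, m2, π (π p), m3, d, Equiv.ext fun x => ?_⟩
  by_cases x1 : x = p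
  · rw [x1, cyc_apply_fst d]
  by_cases x2 : x = π p
  · rw [x2, cyc_apply_snd d]
  by_cases x3 : x = π (π p)
  · rw [x3, cyc_apply_thd d, e]
  rw [cyc_apply_of_ne x1 x2 x3]
  by_contra hx
  obtain ⟨d', e'⟩ := tp_orbit h3 hx
  obtain ⟨n1, n2, n3⟩ := hF' x hx
  have inj := π.injective
  have y1 : π x ≠ p := fun h => x3 (inj (by rw [h, e]))
  have y2 : π x ≠ π p := fun h => x1 (inj h)
  have y3 : π x ≠ π (π p) := fun h => x2 (inj h)
  have z1 : π (π x) ≠ p := fun h => y3 (inj (by rw [h, e]))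
  have z2 : π (π x) ≠ π p := fun h => y1 (inj h)
  have z3 : π (π x) ≠ π (π p) := fun h => y2 (inj h)
  have hsub : ({p, π p, π (π p), x, π x, π (π x)} : Finset α) ⊆ F := by
    intro y hy
    simp only [Finset.mem_insert, Finset.mem_singleton] at hy
    rcases hy with rfl | rfl | rfl | rfl | rfl | rfl <;> assumption
  have hc := Finset.card_le_card hsub
  obtain ⟨d1, d2, d3⟩ := d
  obtain ⟨d4, d5, d6⟩ := d'
  rw [Finset.card_insert_of_notMem, Finset.card_insert_of_notMem, Finset.card_insert_of_notMem,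
    Finset.card_insert_of_notMem, Finset.card_pair d6] at hc
  · omega
  all_goals
    simp only [Finset.mem_insert, Finset.mem_singleton, not_or]
    refine ⟨?_, ?_⟩ <;> grind

/-- generators of the alternating type -/
def tpA (F : Finset α) (φ : α → α → α → Γ) : Subgroup Γ :=
  Subgroup.closure {x : Γ | ∃ p ∈ F, ∃ q ∈ F, ∃ r ∈ F, D3 p q r ∧ x = φ p q r}

lemma tpA_mem {F : Finset α} (φ : α → α → α → Γ) {p q r : α} (hp : p ∈ F) (hq : q ∈ F)
    (hr : r ∈ F) (d : D3 p q r) : φ p q r ∈ tpA F φ :=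
  Subgroup.subset_closure ⟨p, hp, q, hq, r, hr, d, rfl⟩

lemma tp_cyc_mem {F : Finset α} {i j k : α} (hi : i ∈ F) (hj : j ∈ F) (hk : k ∈ F) (d : D3 i j k)
    {x : α} (hx : x ∈ F) : cyc i j k x ∈ F := by
  by_cases x1 : x = i
  · rw [x1, cyc_apply_fst d]; exact hj
  by_cases x2 : x = j
  · rw [x2, cyc_apply_snd d]; exact hk
  by_cases x3 : x = k
  · rw [x3, cyc_apply_thd d]; exact hi
  rw [cyc_apply_of_ne x1 x2 x3]; exact hx

lemma tpA_coset {F : Finset α} {p : α} (hpF : p ∉ F) {φ : α → α → α → Γ}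
    (h : PreOn ((insert p F : Finset α) : Set α) φ)
    (hp : ProdOn ((insert p F : Finset α) : Set α) φ) {x : Γ} (hx : x ∈ tpA (insert p F) φ) :
    x ∈ tpA F φ ∨ ∃ q ∈ F, ∃ s ∈ F, q ≠ s ∧ ∃ κ ∈ tpA F φ, x = φ p q s * κ := by
  have mp : p ∈ ((insert p F : Finset α) : Set α) := by simp
  have mF : ∀ {a}, a ∈ F → a ∈ ((insert p F : Finset α) : Set α) := fun ha => by simp [ha]
  have ne : ∀ {a}, a ∈ F → p ≠ a := fun ha e => hpF (e ▸ ha)
  -- change of the last point
  have chg : ∀ q ∈ F, ∀ s ∈ F, ∀ t ∈ F, q ≠ s → q ≠ t → ∃ κ ∈ tpA F φ, φ p q s = φ p q t * κ := by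
    intro q hq s hs t ht hqs hqt
    by_cases hst : s = t
    · exact ⟨1, one_mem _, by rw [hst, mul_one]⟩
    have e := hp p mp s (mF hs) q (mF hq) t (mF ht) ⟨⟨ne hs, ne hq, hqs.symm⟩, ne ht, hst, hqt⟩
    refine ⟨(φ s q t)⁻¹, inv_mem (tpA_mem φ hs hq ht ⟨hqs.symm, hst, hqt⟩), ?_⟩
    rw [h.inv p mp s (mF hs) q (mF hq) ⟨ne hs, ne hq, hqs.symm⟩, ← e,
      h.inv p mp t (mF ht) q (mF hq) ⟨ne ht, ne hq, hqt.symm⟩, mul_inv_rev]
  set P : Γ → Prop := fun x =>
    x ∈ tpA F φ ∨ ∃ q ∈ F, ∃ s ∈ F, q ≠ s ∧ ∃ κ ∈ tpA F φ, x = φ p q s * κ with hP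
  have step1 : ∀ j ∈ F, ∀ k ∈ F, j ≠ k → ∀ y, P y → P (φ p j k * y) := by
    intro j hj k hk hjk y hy
    have d : D3 p j k := ⟨ne hj, ne hk, hjk⟩
    rcases hy with hy | ⟨q, hq, s, hs, hqs, κ, hκ, rfl⟩
    · exact Or.inr ⟨j, hj, k, hk, hjk, y, hy, rfl⟩
    by_cases hqk : q = k
    · subst hqk
      obtain ⟨κ', hκ', e⟩ := chg q hq s hs j hj hqs hjk.symm
      left
      rw [e, h.inv p mp j (mF hj) q (mF hq) d, mul_assoc, mul_inv_cancel_left]
      exact mul_mem hκ' hκ
    by_cases hqj : q = j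
    · subst hqj
      obtain ⟨κ', hκ', e⟩ := chg q hq s hs k hk hqs hjk
      refine Or.inr ⟨k, hk, q, hq, hjk.symm, κ' * κ, mul_mem hκ' hκ, ?_⟩
      have c := h.cube p mp q (mF hq) k (mF hk) d
      have c2 : φ p q k * φ p q k = (φ p q k)⁻¹ := by
        rw [eq_inv_iff_mul_eq_one, ← c, pow_succ, pow_two]
      rw [e, h.inv p mp q (mF hq) k (mF hk) d, ← c2]
      group
    · obtain ⟨κ', hκ', e⟩ := chg q hq s hs j hj hqs hqj
      have d' : D3 p j q := ⟨ne hj, ne hq, Ne.symm hqj⟩
      have c := h.conj p mp j (mF hj) q (mF hq) p mp j (mF hj) k (mF hk) d' d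
      rw [cyc_apply_fst d', cyc_apply_snd d', cyc_apply_of_ne (ne hk).symm hjk.symm (Ne.symm hqk)]
        at c
      refine Or.inr ⟨q, hq, j, hj, hqj, φ j q k * (κ' * κ),
        mul_mem (tpA_mem φ hj hq hk ⟨Ne.symm hqj, hjk, hqk⟩) (mul_mem hκ' hκ), ?_⟩
      rw [e, ← c, h.inv p mp j (mF hj) q (mF hq) d']
      group
  have step : ∀ i ∈ insert p F, ∀ j ∈ insert p F, ∀ k ∈ insert p F, D3 i j k →
      ∀ y, P y → P (φ i j k * y) := by
    intro i hi j hj k hk d y hy
    have mem : ∀ {a}, a ∈ insert p F → p ≠ a → a ∈ F := fun ha e => by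
      rcases Finset.mem_insert.1 ha with rfl | ha
      · exact (e rfl).elim
      · exact ha
    by_cases x1 : p = i
    · subst x1
      exact step1 j (mem hj d.1) k (mem hk d.2.1) d.2.2 y hy
    by_cases x2 : p = j
    · subst x2
      rw [h.rot i hi p mp k hk d]
      exact step1 k (mem hk d.2.2) i (mem hi x1) d.2.1.symm y hy
    by_cases x3 : p = k
    · subst x3
      rw [← h.rot p mp i hi j hj ⟨x1, x2, d.1⟩]
      exact step1 i (mem hi x1) j (mem hj x2) d.1 y hy
    have hi' := mem hi x1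
    have hj' := mem hj x2
    have hk' := mem hk x3
    have g := tpA_mem φ hi' hj' hk' d
    rcases hy with hy | ⟨q, hq, s, hs, hqs, κ, hκ, rfl⟩
    · exact Or.inl (mul_mem g hy)
    have c := h.conj i hi j hj k hk p mp q (mF hq) s (mF hs) d ⟨ne hq, ne hs, hqs⟩
    rw [cyc_apply_of_ne x1 x2 x3] at c
    refine Or.inr ⟨_, tp_cyc_mem hi' hj' hk' d hq, _, tp_cyc_mem hi' hj' hk' d hs,
      (cyc i j k).injective.ne hqs, φ i j k * κ, mul_mem g hκ, ?_⟩
    rw [← c]
    group
  show P x
  induction hx using Subgroup.closure_induction_left with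
  | one => exact Or.inl (one_mem _)
  | mul_left g hg y _ ih =>
    obtain ⟨i, hi, j, hj, k, hk, d, rfl⟩ := hg
    exact step i hi j hj k hk d y ih
  | inv_mul_cancel g hg y _ ih =>
    obtain ⟨i, hi, j, hj, k, hk, d, rfl⟩ := hg
    rw [← h.inv i hi j hj k hk d]
    exact step i hi k hk j hj ⟨d.2.1, d.1, d.2.2.symm⟩ y ih

/-- Presentation of the alternating group.  Plan: induction on `F`; for `F = insert p F'` every
element of the closure `K_F` is in `K_{F'}` or in `(φ p q s, cyc p q s) * K_{F'}` for some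
`q, s ∈ F'`; the coset does not depend on `s` (product relation). -/
theorem alt_inj (F : Finset α) {φ : α → α → α → Γ} (h : PreOn (F : Set α) φ)
    (hp : ProdOn (F : Set α) φ) {γ : Γ} {π : Perm α}
    (hm : (γ, π) ∈ Subgroup.closure
      {x : Γ × Perm α | ∃ p ∈ F, ∃ q ∈ F, ∃ r ∈ F, D3 p q r ∧ x = (φ p q r, cyc p q r)})
    (h1 : π = 1) : γ = 1 := by 
  induction F using Finset.induction_on generalizing γ π with
  | empty =>
    have : {x : Γ × Perm α | ∃ p ∈ (∅ : Finset α), ∃ q ∈ (∅ : Finset α), ∃ r ∈ (∅ : Finset α),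
        D3 p q r ∧ x = (φ p q r, cyc p q r)} = ∅ := by
      ext x; simp
    rw [this, Subgroup.closure_empty, Subgroup.mem_bot] at hm
    exact congrArg Prod.fst hm
  | insert p F hpF ih =>
    have sub : (F : Set α) ⊆ ((insert p F : Finset α) : Set α) := by
      intro a ha; simp at ha ⊢; exact Or.inr ha
    have hF : PreOn (F : Set α) φ :=
      ⟨fun a ha b hb c hc => h.rot a (sub ha) b (sub hb) c (sub hc),
        fun a ha b hb c hc => h.inv a (sub ha) b (sub hb) c (sub hc),
        fun a ha b hb c hc => h.cube a (sub ha) b (sub hb) c (sub hc),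
        fun a ha b hb c hc i hi j hj k hk =>
          h.conj a (sub ha) b (sub hb) c (sub hc) i (sub hi) j (sub hj) k (sub hk)⟩
    have hpF' : ProdOn (F : Set α) φ := fun a ha b hb c hc t ht =>
      hp a (sub ha) b (sub hb) c (sub hc) t (sub ht)
    let Φ : α → α → α → Γ × Perm α := fun a b c => (φ a b c, cyc a b c)
    have H : PreOn ((insert p F : Finset α) : Set α) Φ :=
      ⟨fun a ha b hb c hc d => Prod.ext (h.rot a ha b hb c hc d) (cyc_rot d),
        fun a ha b hb c hc d => Prod.ext (h.inv a ha b hb c hc d) (cyc_inv d),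
        fun a ha b hb c hc d => Prod.ext (h.cube a ha b hb c hc d) (cyc_cube d),
        fun a ha b hb c hc i hi j hj k hk d d' =>
          Prod.ext (h.conj a ha b hb c hc i hi j hj k hk d d') (cyc_conj _ _ _ _)⟩
    have HP : ProdOn ((insert p F : Finset α) : Set α) Φ := fun a ha b hb c hc t ht d =>
      Prod.ext (hp a ha b hb c hc t ht d) (cyc_prod d)
    rcases tpA_coset hpF H HP hm with hx | ⟨q, hq, s, hs, hqs, κ, hκ, e⟩
    · exact ih hF hpF' hx h1
    · exfalso
      have fix : ∀ κ ∈ tpA F Φ, κ.2 p = p := by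
        intro κ hκ
        induction hκ using Subgroup.closure_induction with
        | mem x hx =>
          obtain ⟨a, ha, b, hb, c, hc, -, rfl⟩ := hx
          exact cyc_apply_of_ne (fun e => hpF (e ▸ ha)) (fun e => hpF (e ▸ hb))
            (fun e => hpF (e ▸ hc))
        | one => rfl
        | mul x y _ _ hx hy => rw [Prod.snd_mul, Perm.mul_apply, hy, hx]
        | inv x _ hx => rw [Prod.snd_inv, Perm.inv_eq_iff_eq, hx]
      have e2 : π p = cyc p q s (κ.2 p) := by
        have := congrArg (fun z : Γ × Perm α => z.2 p) e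
        exact this
      have hq' : p ≠ q := fun e => hpF (e ▸ hq)
      rw [fix κ hκ, h1, cyc_apply_fst ⟨hq', fun e => hpF (e ▸ hs), hqs⟩] at e2
      exact hq' e2

/-- generators of the symmetric type -/
def tpS (F : Finset α) (ψ : α → α → Γ) : Subgroup Γ :=
  Subgroup.closure {x : Γ | ∃ p ∈ F, ∃ q ∈ F, p ≠ q ∧ x = ψ p q}

lemma tpS_mem {F : Finset α} (ψ : α → α → Γ) {p q : α} (hp : p ∈ F) (hq : q ∈ F)
    (d : p ≠ q) : ψ p q ∈ tpS F ψ :=
  Subgroup.subset_closure ⟨p, hp, q, hq, d, rfl⟩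

lemma tpS_coset {F : Finset α} {p : α} (hpF : p ∉ F) {ψ : α → α → Γ}
    (h : SPreOn ((insert p F : Finset α) : Set α) ψ) {x : Γ} (hx : x ∈ tpS (insert p F) ψ) :
    x ∈ tpS F ψ ∨ ∃ q ∈ F, ∃ κ ∈ tpS F ψ, x = ψ p q * κ := by
  have mp : p ∈ ((insert p F : Finset α) : Set α) := by simp
  have mF : ∀ {a}, a ∈ F → a ∈ ((insert p F : Finset α) : Set α) := fun ha => by simp [ha]
  have ne : ∀ {a}, a ∈ F → p ≠ a := fun ha e => hpF (e ▸ ha)
  set P : Γ → Prop := fun x => x ∈ tpS F ψ ∨ ∃ q ∈ F, ∃ κ ∈ tpS F ψ, x = ψ p q * κ with hP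
  have step1 : ∀ j ∈ F, ∀ y, P y → P (ψ p j * y) := by
    intro j hj y hy
    rcases hy with hy | ⟨q, hq, κ, hκ, rfl⟩
    · exact Or.inr ⟨j, hj, y, hy, rfl⟩
    by_cases hqj : q = j
    · subst hqj
      left
      rw [← mul_assoc, h.sq p mp q (mF hq) (ne hq), one_mul]
      exact hκ
    · have c := h.conj p mp q (mF hq) p mp j (mF hj) (ne hq) (ne hj)
      rw [swap_apply_left, swap_apply_of_ne_of_ne (ne hj).symm (Ne.symm hqj)] at c
      refine Or.inr ⟨q, hq, ψ q j * κ, mul_mem (tpS_mem ψ hq hj hqj) hκ, ?_⟩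
      have c2 := h.sq p mp q (mF hq) (ne hq)
      rw [← c, inv_eq_of_mul_eq_one_right c2, ← mul_assoc, ← mul_assoc, ← mul_assoc, ← mul_assoc,
        c2, one_mul]
  have step : ∀ i ∈ insert p F, ∀ j ∈ insert p F, i ≠ j → ∀ y, P y → P (ψ i j * y) := by
    intro i hi j hj d y hy
    have mem : ∀ {a}, a ∈ insert p F → p ≠ a → a ∈ F := fun ha e => by
      rcases Finset.mem_insert.1 ha with rfl | ha
      · exact (e rfl).elim
      · exact ha
    by_cases x1 : p = i
    · subst x1
      exact step1 j (mem hj d) y hy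
    by_cases x2 : p = j
    · subst x2
      rw [h.symm i hi p mp d]
      exact step1 i (mem hi x1) y hy
    have hi' := mem hi x1
    have hj' := mem hj x2
    have g := tpS_mem ψ hi' hj' d
    rcases hy with hy | ⟨q, hq, κ, hκ, rfl⟩
    · exact Or.inl (mul_mem g hy)
    have c := h.conj i hi j hj p mp q (mF hq) d (ne hq)
    rw [swap_apply_of_ne_of_ne x1 x2] at c
    refine Or.inr ⟨swap i j q, ?_, ψ i j * κ, mul_mem g hκ, ?_⟩
    · rw [swap_apply_def]
      split_ifs <;> assumption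
    · rw [← c]
      group
  show P x
  induction hx using Subgroup.closure_induction_left with
  | one => exact Or.inl (one_mem _)
  | mul_left g hg y _ ih =>
    obtain ⟨i, hi, j, hj, d, rfl⟩ := hg
    exact step i hi j hj d y ih
  | inv_mul_cancel g hg y _ ih =>
    obtain ⟨i, hi, j, hj, d, rfl⟩ := hg
    rw [inv_eq_of_mul_eq_one_right (h.sq i hi j hj d)]
    exact step i hi j hj d y ih

/-- Presentation of the symmetric group (same coset induction with representatives `ψ p q`). -/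
theorem sym_inj (F : Finset α) {ψ : α → α → Γ} (h : SPreOn (F : Set α) ψ) {γ : Γ} {π : Perm α}
    (hm : (γ, π) ∈ Subgroup.closure
      {x : Γ × Perm α | ∃ p ∈ F, ∃ q ∈ F, p ≠ q ∧ x = (ψ p q, swap p q)})
    (h1 : π = 1) : γ = 1 := by 
  induction F using Finset.induction_on generalizing γ π with
  | empty =>
    have : {x : Γ × Perm α | ∃ p ∈ (∅ : Finset α), ∃ q ∈ (∅ : Finset α),
        p ≠ q ∧ x = (ψ p q, swap p q)} = ∅ := by
      ext x; simp
    rw [this, Subgroup.closure_empty, Subgroup.mem_bot] at hm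
    exact congrArg Prod.fst hm
  | insert p F hpF ih =>
    have sub : (F : Set α) ⊆ ((insert p F : Finset α) : Set α) := by
      intro a ha; simp at ha ⊢; exact Or.inr ha
    have hF : SPreOn (F : Set α) ψ :=
      ⟨fun a ha b hb => h.symm a (sub ha) b (sub hb),
        fun a ha b hb => h.sq a (sub ha) b (sub hb),
        fun a ha b hb i hi j hj => h.conj a (sub ha) b (sub hb) i (sub hi) j (sub hj)⟩
    let Φ : α → α → Γ × Perm α := fun a b => (ψ a b, swap a b)
    have H : SPreOn ((insert p F : Finset α) : Set α) Φ :=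
      ⟨fun a ha b hb d => Prod.ext (h.symm a ha b hb d) (swap_comm a b),
        fun a ha b hb d => Prod.ext (h.sq a ha b hb d) (swap_mul_self a b),
        fun a ha b hb i hi j hj d d' =>
          Prod.ext (h.conj a ha b hb i hi j hj d d') (swap_apply_apply _ _ _).symm⟩
    rcases tpS_coset hpF H hm with hx | ⟨q, hq, κ, hκ, e⟩
    · exact ih hF hx h1
    · exfalso
      have fix : ∀ κ ∈ tpS F Φ, κ.2 p = p := by
        intro κ hκ
        induction hκ using Subgroup.closure_induction with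
        | mem x hx =>
          obtain ⟨a, ha, b, hb, -, rfl⟩ := hx
          exact swap_apply_of_ne_of_ne (fun e => hpF (e ▸ ha)) (fun e => hpF (e ▸ hb))
        | one => rfl
        | mul x y _ _ hx hy => rw [Prod.snd_mul, Perm.mul_apply, hy, hx]
        | inv x _ hx => rw [Prod.snd_inv, Perm.inv_eq_iff_eq, hx]
      have e2 : π p = swap p q (κ.2 p) := by
        have := congrArg (fun z : Γ × Perm α => z.2 p) e
        exact this
      have hq' : p ≠ q := fun e => hpF (e ▸ hq)
      rw [fix κ hκ, h1, swap_apply_left] at e2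
      exact hq' e2

/-- a permutation supported in `F` is a product of transpositions of points of `F` -/
lemma mem_closure_swaps (F : Finset α) (π : Perm α) (hfix : ∀ x, x ∉ F → π x = x) :
    π ∈ Subgroup.closure {σ : Perm α | ∃ p ∈ F, ∃ q ∈ F, p ≠ q ∧ σ = swap p q} := by 
  induction F using Finset.induction_on generalizing π with
  | empty =>
    have : π = 1 := Equiv.ext fun x => hfix x (by simp)
    rw [this]; exact one_mem _
  | insert p F hpF ih =>
    have mono : Subgroup.closure {σ : Perm α | ∃ a ∈ F, ∃ q ∈ F, a ≠ q ∧ σ = swap a q} ≤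
        Subgroup.closure {σ : Perm α | ∃ a ∈ insert p F, ∃ q ∈ insert p F, a ≠ q ∧ σ = swap a q} := by
      apply Subgroup.closure_mono
      rintro _ ⟨a, ha, b, hb, d, rfl⟩
      exact ⟨a, Finset.mem_insert_of_mem ha, b, Finset.mem_insert_of_mem hb, d, rfl⟩
    by_cases hp : π p = p
    · refine mono (ih π fun x hx => ?_)
      by_cases e : x = p
      · rw [e, hp]
      · exact hfix x (by simp [e, hx])
    · have hq : π p ∈ insert p F := by
        by_contra hn
        exact hp (π.injective (hfix _ hn))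
      have h1 : swap p (π p) * π ∈ _ := mono (ih (swap p (π p) * π) fun x hx => by
        by_cases e : x = p
        · rw [e, Perm.mul_apply, swap_apply_right]
        · have hx' : x ∉ insert p F := by simp [e, hx]
          rw [Perm.mul_apply, hfix x hx', swap_apply_of_ne_of_ne e]
          rintro rfl
          exact hx' hq)
      have h2 : swap p (π p) ∈
          Subgroup.closure {σ : Perm α | ∃ a ∈ insert p F, ∃ q ∈ insert p F, a ≠ q ∧ σ = swap a q} :=
        Subgroup.subset_closure ⟨p, Finset.mem_insert_self _ _, π p, hq, Ne.symm hp, rfl⟩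
      have := mul_mem h2 h1
      rwa [swap_mul_self_mul] at this

end

end Crest.Agent.R189
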