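import Crest.Agent.R189.GG
import Crest.Agent.R189.TriPres

/-!
Row 189.  Multisection induction: a pair of local permutations with small orbits is glued from
constant block permutations.
-/

set_option autoImplicit false

namespace Crest.Agent.R189

open Equiv

variable {S : Wang}

lemma ms_invO {c₁ c₂ : Perm (Om S)} {A : Finset (Om S)} (hA : ∀ ω ∈ A, c₁ ω ∈ A ∧ c₂ ω ∈ A)
    {h : Perm (Om S)} (hh : h ∈ Subgroup.closure ({c₁, c₂} : Set (Perm (Om S)))) :
    InvO h (A : Set (Om S)) := by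
  have key : ∀ c : Perm (Om S), (∀ ω ∈ A, c ω ∈ A) → InvO c (A : Set (Om S)) := fun c hc ω =>
    ⟨fun h => by simpa using Perm.perm_symm_on_of_perm_on_finset hc h, hc ω⟩
  induction hh using Subgroup.closure_induction with
  | mem c hc =>
    rcases hc with rfl | rfl
    · exact key _ fun ω hω => (hA ω hω).1
    · exact key _ fun ω hω => (hA ω hω).2
  | one => exact InvO.one _
  | mul _ _ _ _ a b => exact a.mul b
  | inv _ _ a => exact a.inv

lemma ms_orb {c₁ c₂ : Perm (Om S)} (hs : SmallOrb c₁ c₂) : ∃ B : Finset (Perm (Om S)),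
    (∀ b ∈ B, b ∈ Subgroup.closure ({c₁, c₂} : Set (Perm (Om S)))) ∧
    (∀ ω, ∀ h ∈ Subgroup.closure ({c₁, c₂} : Set (Perm (Om S))), ∃ b ∈ B, b ω = h ω) ∧
    ∀ ω, ∃ O : Finset (Om S), O.card ≤ 4 ∧
      ∀ h ∈ Subgroup.closure ({c₁, c₂} : Set (Perm (Om S))), h ω ∈ O := by
  classical
  set H := Subgroup.closure ({c₁, c₂} : Set (Perm (Om S))) with hH
  have hc1 : c₁ ∈ H := Subgroup.subset_closure (by simp)
  have hc2 : c₂ ∈ H := Subgroup.subset_closure (by simp)
  have h4 : ∀ ω, ∃ O : Finset (Om S), O.card ≤ 4 ∧ ∀ h ∈ H, h ω ∈ O := fun ω => by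
    obtain ⟨O, a, b, c⟩ := hs ω
    exact ⟨O, a, fun h hh => (ms_invO c hh ω).2 b⟩
  let B : ℕ → Finset (Perm (Om S)) := fun n => Nat.rec {1}
    (fun _ b => b ∪ b.image (c₁ * ·) ∪ b.image (c₂ * ·)) n
  have hBs : ∀ n, B (n + 1) = B n ∪ (B n).image (c₁ * ·) ∪ (B n).image (c₂ * ·) := fun _ => rfl
  have hBH : ∀ n, ∀ b ∈ B n, b ∈ H := fun n => by
    induction n with
    | zero => intro b hb; rw [Finset.mem_singleton.1 hb]; exact H.one_mem
    | succ n ih =>
      intro b hb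
      simp only [hBs, Finset.mem_union, Finset.mem_image] at hb
      rcases hb with (hb | ⟨a, ha, rfl⟩) | ⟨a, ha, rfl⟩
      exacts [ih b hb, H.mul_mem hc1 (ih a ha), H.mul_mem hc2 (ih a ha)]
  have hB1 : ∀ n, 1 ∈ B n := fun n => by
    induction n with
    | zero => exact Finset.mem_singleton_self _
    | succ n ih => rw [hBs]; simp [ih]
  refine ⟨B 4, hBH 4, fun ω => ?_, h4⟩
  let A : ℕ → Finset (Om S) := fun n => (B n).image fun b => b ω
  have hAs : ∀ n, A (n + 1) = A n ∪ (A n).image c₁ ∪ (A n).image c₂ := fun n => by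
    simp only [A, hBs, Finset.image_union, Finset.image_image]
    rfl
  have hcl : ∀ n, (∀ a ∈ A n, c₁ a ∈ A n ∧ c₂ a ∈ A n) ∨ n + 1 ≤ (A n).card := fun n => by
    induction n with
    | zero => right; simp [A, B]
    | succ n ih =>
      by_cases hc : ∀ a ∈ A n, c₁ a ∈ A n ∧ c₂ a ∈ A n
      · left
        have : A (n + 1) = A n := by
          rw [hAs, Finset.union_assoc, Finset.union_eq_left, Finset.union_subset_iff,
            Finset.image_subset_iff, Finset.image_subset_iff]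
          exact ⟨fun a ha => (hc a ha).1, fun a ha => (hc a ha).2⟩
        rwa [this]
      · right
        refine Nat.succ_le_of_lt (lt_of_le_of_lt (ih.resolve_left hc) (Finset.card_lt_card ⟨?_, ?_⟩))
        · rw [hAs, Finset.union_assoc]; exact Finset.subset_union_left
        · intro hsub
          refine hc fun a ha => ⟨hsub ?_, hsub ?_⟩ <;> rw [hAs]
          · exact Finset.mem_union_left _ (Finset.mem_union_right _ (Finset.mem_image_of_mem _ ha))
          · exact Finset.mem_union_right _ (Finset.mem_image_of_mem _ ha)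
  rcases hcl 4 with hc | hc
  · intro h hh
    have := (ms_invO hc hh ω).2 (Finset.mem_image.2 ⟨1, hB1 4, rfl⟩)
    exact Finset.mem_image.1 this
  · obtain ⟨O, hO, hO'⟩ := h4 ω
    have : (A 4).card ≤ O.card := Finset.card_le_card fun a ha => by
      obtain ⟨b, hb, rfl⟩ := Finset.mem_image.1 ha
      exact hO' b (hBH 4 b hb)
    omega

/-- Plan.  Let `O ω` be the orbit of `ω` under `⟨c₁, c₂⟩` (smallest invariant set; at most four
points, all of the form `pt x p` with `p` in a ball of radius `3 ρ`).  Take phases with moduli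
`> 6 ρ`; `key ω = (φ₁.r ω.1, φ₂.r ω.1, ω.2)` is injective on every orbit.  For a track `i` let
`W i = {x | key (x, i)` is lexicographically minimal on `O (x, i)}` and
`f x = (F x, actP c₁ x on F x, actP c₂ x on F x)` with `F x` the orbit of `(0, i)` under
`actP c₁ x, actP c₂ x`; `f` and `W i` are local.  Apply `Loc.refine` to
`p Z := LocO Y ∧ InvO c₁ Y ∧ InvO c₂ Y ∧ P Y` for `Y = ⋃ x ∈ Z, pt x '' F x`, then add up the tracks. -/
theorem ms_induction (hp : HasPhases S) {c₁ c₂ : Perm (Om S)} (h1 : c₁ ∈ LocP S) (h2 : c₂ ∈ LocP S)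
    (hs : SmallOrb c₁ c₂) {P : Set (Om S) → Prop} (h0 : P ∅)
    (hu : ∀ Y Y', LocO Y → LocO Y' → InvO c₁ Y → InvO c₂ Y → InvO c₁ Y' → InvO c₂ Y' →
      Disjoint Y Y' → P Y → P Y' → P (Y ∪ Y'))
    (hb : ∀ (F : Finset Pt) (W : Set (Cfg S)) (π₁ π₂ : Perm Pt), F.card ≤ 4 → Loc W →
      Adm (F : Set Pt) W → (∀ p, p ∉ F → π₁ p = p) → (∀ p, p ∉ F → π₂ p = p) →
      InvO c₁ (img (F : Set Pt) W) → InvO c₂ (img (F : Set Pt) W) →
      IsBlk (res c₁ (img (F : Set Pt) W)) F W (fun _ => π₁) →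
      IsBlk (res c₂ (img (F : Set Pt) W)) F W (fun _ => π₂) → P (img (F : Set Pt) W)) :
    P Set.univ := by
  classical
  have hf := hp.free
  set H := Subgroup.closure ({c₁, c₂} : Set (Perm (Om S))) with hH
  have hHle : H ≤ LocP S := (Subgroup.closure_le _).2 (by rintro c (rfl | rfl) <;> assumption)
  have hc1 : c₁ ∈ H := Subgroup.subset_closure (by simp)
  have hc2 : c₂ ∈ H := Subgroup.subset_closure (by simp)
  obtain ⟨B, hB, hBH, hB4⟩ := ms_orb hs
  -- relative orbits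
  set F : Track → Cfg S → Finset Pt := fun i x => B.image fun b => actP b x (0, i) with hF
  have hFl : ∀ i, LocF (F i) := fun i => by
    have := (LocF.pi (f := fun (b : B) x => actP b.1 x (0, i))
      fun b => actP_locF hf (hHle (hB b.1 b.2)) _).comp fun d : B → Pt => Finset.univ.image d
    convert this using 2 with x
    ext p; simp [hF]
  have hFm : ∀ i x p, p ∈ F i x ↔ ∃ h ∈ H, h (x, i) = pt x p := fun i x p => by
    simp only [hF, Finset.mem_image]
    constructor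
    · rintro ⟨b, hb, rfl⟩
      exact ⟨b, hB b hb, by rw [← actP_spec hf (hHle (hB b hb)), pt_zero]⟩
    · rintro ⟨h, hh, e⟩
      obtain ⟨b, hb, e'⟩ := hBH (x, i) h hh
      exact ⟨b, hb, actP_eq hf (hHle (hB b hb)) (by rw [pt_zero, e', e])⟩
  have hFall : ∀ i x, ∀ h ∈ H, ∃ p ∈ F i x, h (x, i) = pt x p := fun i x h hh => by
    have e : h (x, i) = pt x (actP h x (0, i)) := by rw [← actP_spec hf (hHle hh), pt_zero]
    exact ⟨_, (hFm _ _ _).2 ⟨h, hh, e⟩, e⟩
  obtain ⟨R, hR⟩ : ∃ R : ℕ, ∀ i x, ∀ p ∈ F i x, InB R p.1 := by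
    have h1 : LocF (fun x i => F i x) := LocF.pi hFl
    choose k hk using exists_InB
    refine ⟨h1.finite_range.toFinset.sup fun b => Finset.univ.sup fun i => (b i).sup fun p => k p.1,
      fun i x p hp => ?_⟩
    have e1 : k p.1 ≤ h1.finite_range.toFinset.sup fun b =>
        Finset.univ.sup fun i => (b i).sup fun p => k p.1 := by
      refine le_trans ?_ (Finset.le_sup (f := fun b : Track → Finset Pt =>
        Finset.univ.sup fun i => (b i).sup fun p => k p.1) (b := fun i => F i x) (by simp))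
      refine le_trans ?_ (Finset.le_sup (f := fun i => (F i x).sup fun p => k p.1) (Finset.mem_univ i))
      exact Finset.le_sup (f := fun p : Pt => k p.1) hp
    have e2 := Int.ofNat_le.2 e1
    exact ⟨(hk _).1.trans e2, (hk _).2.trans e2⟩
  obtain ⟨⟨a, ha, -, ⟨φ⟩⟩, ⟨b, hb', -, ⟨ψ⟩⟩⟩ := hp (R + 1)
  set key : Om S → ℕ := fun ω => Encodable.encode (φ.r ω.1, ψ.r ω.1, ω.2) with hkey
  have hkinj : ∀ ω, ∀ h ∈ H, key (h ω) = key ω → h ω = ω := by
    rintro ⟨x, i⟩ h hh e
    obtain ⟨p, hp, e'⟩ := hFall i x h hh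
    rw [e'] at e ⊢
    have e1 := Encodable.encode_injective e
    simp only [pt, Prod.mk.injEq] at e1
    have a1 := φ.eqv p.1 x
    have a2 := ψ.eqv p.1 x
    rw [e1.1, sub_self, zero_sub, dvd_neg] at a1
    rw [e1.2.1, sub_self, zero_sub, dvd_neg] at a2
    simp only [χ1_apply, χ2_apply] at a1 a2
    have ha' : (R : ℤ) + 1 ≤ a := by exact_mod_cast ha
    have hb'' : (R : ℤ) + 1 ≤ b := by exact_mod_cast hb'
    have z : p.1 = 0 := Prod.ext (Int.eq_zero_of_abs_lt_dvd a1 (by linarith [(hR i x p hp).1]))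
      (Int.eq_zero_of_abs_lt_dvd a2 (by linarith [(hR i x p hp).2]))
    simp only [pt, z, zero_vadd, e1.2.2]
  set Rep : Set (Om S) := {ω | ∀ h ∈ H, key ω ≤ key (h ω)} with hRep
  have hRu : ∀ ω ∈ Rep, ∀ h ∈ H, h ω ∈ Rep → h ω = ω := fun ω hω h hh h' =>
    hkinj ω h hh (le_antisymm (by simpa using h' h⁻¹ (H.inv_mem hh)) (hω h hh))
  have hRl : ∀ i, Loc {x | (x, i) ∈ Rep} := fun i => by
    have hk : ∀ p : Pt, LocF fun x => key (pt x p) := fun p =>
      ((φ.loc.prod ψ.loc).vadd p.1).comp fun z => Encodable.encode (z.1, z.2, p.2)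
    have h3 := gg_locF_dep (hFl i) (f := fun (A : Finset Pt) x => ∀ p ∈ A, key (pt x (0, i)) ≤ key (pt x p))
      fun A => by
        have := ((hk (0, i)).prod (LocF.pi (f := fun (p : A) x => key (pt x p.1)) fun p => hk p.1)).comp
          fun z : ℕ × (A → ℕ) => ∀ p, z.1 ≤ z.2 p
        simpa only [Subtype.forall] using this
    unfold Loc
    convert h3 using 2 with x
    simp only [hRep, Set.mem_ofPred_eq, pt_zero]
    refine ⟨fun h p hp => ?_, fun h g hg => ?_⟩
    · obtain ⟨g, hg, e⟩ := (hFm i x p).1 hp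
      exact e ▸ h g hg
    · obtain ⟨p, hp, e⟩ := hFall i x g hg
      exact e ▸ h p hp
  -- saturation
  set Y : Set (Om S) → Set (Om S) := fun U => {ω | ∃ h ∈ H, h ω ∈ U} with hY
  have hYl : ∀ U, LocO U → LocO (Y U) := fun U hU i => by
    have := (LocF.pi (f := fun (b : B) x => x ∈ {x | (x, i) ∈ b.1 ⁻¹' U})
      fun b => hU.preimage (hHle (hB b.1 b.2)) i).comp fun d : B → Prop => ∃ b, d b
    unfold Loc
    convert this using 2 with x
    simp only [hY, Set.mem_ofPred_eq, Set.mem_preimage, Subtype.exists, exists_prop]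
    refine ⟨fun ⟨h, hh, e⟩ => ?_, fun ⟨h, hh, e⟩ => ⟨h, hB h hh, e⟩⟩
    obtain ⟨b, hb, e'⟩ := hBH (x, i) h hh
    exact ⟨b, hb, e' ▸ e⟩
  have hYi : ∀ U, ∀ c ∈ H, InvO c (Y U) := fun U c hc ω =>
    ⟨fun ⟨h, hh, e⟩ => ⟨h * c, H.mul_mem hh hc, e⟩,
      fun ⟨h, hh, e⟩ => ⟨h * c⁻¹, H.mul_mem hh (H.inv_mem hc), by simpa using e⟩⟩
  have hYu : ∀ U U', LocO U → LocO U' → U ⊆ Rep → U' ⊆ Rep → Disjoint U U' → P (Y U) → P (Y U') →
      P (Y (U ∪ U')) := by
    intro U U' l l' s s' d p p'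
    have e : Y (U ∪ U') = Y U ∪ Y U' := by
      ext ω
      simp only [hY, Set.mem_ofPred_eq, Set.mem_union, and_or_left, exists_or]
    rw [e]
    refine hu _ _ (hYl U l) (hYl U' l') (hYi U _ hc1) (hYi U _ hc2) (hYi U' _ hc1) (hYi U' _ hc2)
      ?_ p p'
    rw [Set.disjoint_left] at d ⊢
    rintro ω ⟨h, hh, e⟩ ⟨h', hh', e'⟩
    have := hRu _ (s e) (h' * h⁻¹) (H.mul_mem hh' (H.inv_mem hh)) (by simpa using s' e')
    simp only [Perm.mul_apply, Perm.coe_inv, symm_apply_apply] at this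
    exact d e (this ▸ e')
  have hY0 : P (Y ∅) := by simpa [hY] using h0
  have hlo : ∀ (i : Track) (Z : Set (Cfg S)), Loc Z → LocO {ω : Om S | ω.2 = i ∧ ω.1 ∈ Z} :=
    fun i Z hZ j => LocF.comp hZ fun z => j = i ∧ z
  have hone : ∀ i : Track, P (Y {ω | ω.2 = i ∧ ω.1 ∈ {x | (x, i) ∈ Rep}}) := by
    intro i
    have hg : ∀ c ∈ H, LocF fun x => fun p => if p ∈ F i x then actP c x p else p := fun c hc =>
      gg_locF_dep (hFl i) (f := fun (A : Finset Pt) x => fun p => if p ∈ A then actP c x p else p)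
        fun A => by
          have := (LocF.pi (f := fun (p : A) x => actP c x p.1)
            fun p => actP_locF hf (hHle hc) _).comp
              fun (d : A → Pt) (p : Pt) => if h : p ∈ A then d ⟨p, h⟩ else p
          simpa only [dite_eq_ite] using this
    refine Loc.refine ((hFl i).prod ((hg _ hc1).prod (hg _ hc2))) (hRl i)
      (p := fun Z => P (Y {ω | ω.2 = i ∧ ω.1 ∈ Z})) ?_ ?_
    · intro Z Z' l l' s s' d p p'
      have e : {ω : Om S | ω.2 = i ∧ ω.1 ∈ Z ∪ Z'} =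
          {ω | ω.2 = i ∧ ω.1 ∈ Z} ∪ {ω | ω.2 = i ∧ ω.1 ∈ Z'} := by
        ext ω; simp only [Set.mem_ofPred_eq, Set.mem_union, and_or_left]
      rw [e]
      refine hYu _ _ (hlo i Z l) (hlo i Z' l') ?_ ?_ ?_ p p'
      · rintro ⟨x, j⟩ ⟨rfl, h⟩; exact s h
      · rintro ⟨x, j⟩ ⟨rfl, h⟩; exact s' h
      · rw [Set.disjoint_left] at d ⊢
        exact fun ω h h' => d h.2 h'.2
    · intro Z l s hc
      rcases Z.eq_empty_or_nonempty with rfl | ⟨x₀, hx₀⟩
      · simpa using hY0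
      have hF0 : ∀ x ∈ Z, F i x = F i x₀ := fun x hx => congrArg Prod.fst (hc x hx x₀ hx₀)
      have e : Y {ω | ω.2 = i ∧ ω.1 ∈ Z} = img (F i x₀ : Set Pt) Z := by
        ext ω
        constructor
        · rintro ⟨h, hh, e1, e2⟩
          obtain ⟨p, hp, e⟩ := hFall i (h ω).1 h⁻¹ (H.inv_mem hh)
          refine ⟨_, e2, p, by rw [← hF0 _ e2]; exact hp, ?_⟩
          rw [← e, ← e1]; simp
        · rintro ⟨x, hx, p, hp, rfl⟩
          rw [← hF0 x hx] at hp
          obtain ⟨h, hh, e⟩ := (hFm i x p).1 hp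
          refine ⟨h⁻¹, H.inv_mem hh, ?_⟩
          rw [← e]; simpa using hx
      have hadm : Adm (F i x₀ : Set Pt) Z := by
        intro x hx y hy p hp q hq e
        rw [← hF0 x hx] at hp
        rw [← hF0 y hy] at hq
        obtain ⟨h, hh, e1⟩ := (hFm i x p).1 hp
        obtain ⟨h', hh', e2⟩ := (hFm i y q).1 hq
        have e3 : (h'⁻¹ * h) (x, i) = (y, i) := by
          rw [Perm.mul_apply, e1, e, ← e2]; simp
        have := hRu _ (s hx) _ (H.mul_mem (H.inv_mem hh') hh) (by rw [e3]; exact s hy)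
        rw [e3] at this
        obtain rfl : y = x := congrArg Prod.fst this
        exact ⟨rfl, hf.pt_inj _ e⟩
      have hπ : ∀ c ∈ H, (∀ x ∈ Z, (fun p => if p ∈ F i x then actP c x p else p) =
          fun p => if p ∈ F i x₀ then actP c x₀ p else p) → ∃ π : Perm Pt,
          (∀ p, p ∉ F i x₀ → π p = p) ∧
            IsBlk (res c (img (F i x₀ : Set Pt) Z)) (F i x₀) Z (fun _ => π) := by
        intro c hcH hc
        have hinv : ∀ p, actP c x₀ p ∈ F i x₀ ↔ p ∈ F i x₀ := fun p => by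
          rw [hFm, hFm, ← actP_spec hf (hHle hcH)]
          exact ⟨fun ⟨h, hh, e⟩ => ⟨c⁻¹ * h, H.mul_mem (H.inv_mem hcH) hh, by simp [e]⟩,
            fun ⟨h, hh, e⟩ => ⟨c * h, H.mul_mem hcH hh, by simp [e]⟩⟩
        refine ⟨Perm.ofSubtype ((actP c x₀).subtypePerm (p := fun p => p ∈ F i x₀) hinv),
          fun p hp => Perm.ofSubtype_apply_of_not_mem _ hp, fun x hx p hp => ?_,
          fun ω hω => res_apply_not_mem _ hω⟩
        have hp' : p ∈ F i x₀ := hp
        have hi : InvO c (img (F i x₀ : Set Pt) Z) := e ▸ hYi _ c hcH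
        rw [res_apply_mem hi ⟨x, hx, p, hp, rfl⟩,
          Perm.ofSubtype_subtypePerm_of_mem (p := fun p => p ∈ F i x₀) hinv hp',
          actP_spec hf (hHle hcH)]
        have := congrFun (hc x hx) p
        simp only [hF0 x hx, if_pos hp'] at this
        rw [this]
      obtain ⟨π₁, a1, b1⟩ := hπ c₁ hc1 fun x hx => congrArg (fun z => z.2.1) (hc x hx x₀ hx₀)
      obtain ⟨π₂, a2, b2⟩ := hπ c₂ hc2 fun x hx => congrArg (fun z => z.2.2) (hc x hx x₀ hx₀)
      show P (Y _)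
      rw [e]
      refine hb _ Z π₁ π₂ ?_ l hadm a1 a2 (e ▸ hYi _ _ hc1) (e ▸ hYi _ _ hc2) b1 b2
      obtain ⟨O, hO, hO'⟩ := hB4 (x₀, i)
      refine le_trans (Finset.card_le_card_of_injOn (pt x₀) (fun p hp => ?_)
        (hf.pt_inj x₀).injOn) hO
      obtain ⟨h, hh, e⟩ := (hFm i x₀ p).1 hp
      exact e ▸ hO' h hh
  have hall : ∀ T : Finset Track, P (Y {ω | ω.2 ∈ T ∧ ω ∈ Rep}) := by
    intro T
    induction T using Finset.induction_on with
    | empty => simpa using hY0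
    | insert i T hi ih =>
      have e : {ω : Om S | ω.2 ∈ insert i T ∧ ω ∈ Rep} =
          {ω | ω.2 = i ∧ ω.1 ∈ {x | (x, i) ∈ Rep}} ∪ {ω | ω.2 ∈ T ∧ ω ∈ Rep} := by
        ext ⟨x, j⟩
        simp only [Set.mem_ofPred_eq, Set.mem_union, Finset.mem_insert, or_and_right]
        refine or_congr (and_congr_right ?_) Iff.rfl
        rintro rfl; rfl
      rw [e]
      refine hYu _ _ (hlo i _ (hRl i)) (fun j => LocF.comp (hRl j) fun z => j ∈ T ∧ z) ?_
        (fun _ h => h.2) ?_ (hone i) ih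
      · rintro ⟨x, j⟩ ⟨rfl, h⟩; exact h
      · rw [Set.disjoint_left]
        rintro ω ⟨rfl, -⟩ ⟨h, -⟩
        exact hi h
  convert hall Finset.univ
  refine (Set.eq_univ_of_forall fun ω => ?_).symm
  have hex : ∃ n, ∃ h ∈ H, key (h ω) = n := ⟨_, 1, H.one_mem, rfl⟩
  obtain ⟨h, hh, e⟩ := Nat.find_spec hex
  refine ⟨h, hh, Finset.mem_univ _, fun g hg => ?_⟩
  rw [e]
  exact Nat.find_min' hex ⟨g * h, H.mul_mem hg hh, rfl⟩

/-- A constant block permutation of order dividing three on at most five points is trivial or an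
elementary three-cycle. -/
lemma IsBlk.one_or_cycW {g : Perm (Om S)} {F : Finset Pt} {W : Set (Cfg S)} {π : Perm Pt}
    (hF : F.card ≤ 5) (hW : Loc W) (ha : Adm (F : Set Pt) W) (hfix : ∀ p, p ∉ F → π p = p)
    (h : IsBlk g F W (fun _ => π)) (h3 : g ^ 3 = 1) :
    g = 1 ∨ ∃ p ∈ F, ∃ q ∈ F, ∃ r ∈ F, Adm3 p q r W ∧ π = cyc p q r ∧ g = cycW p q r W := by
  rcases W.eq_empty_or_nonempty with rfl | ⟨x, hx⟩
  · exact Or.inl (h.unique ⟨fun _ hx => hx.elim, fun _ _ => rfl⟩)
  have hm : ∀ p, π p ∈ F ↔ p ∈ F := perm_mem_iff (F := (F : Set Pt)) hfix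
  have hπ : π ^ 3 = 1 := by
    refine Equiv.ext fun p => ?_
    simp only [pow_three, Perm.mul_apply, Perm.one_apply]
    by_cases hp : p ∈ F
    · have e := gg_cube h3 (pt x p)
      have h1 := (hm p).2 hp
      have h2 := (hm _).2 h1
      rw [h.1 x hx p hp, h.1 x hx _ h1, h.1 x hx _ h2] at e
      exact (ha x hx x hx _ ((hm _).2 h2) p hp e).2
    · rw [hfix p hp, hfix p hp, hfix p hp]
  rcases eq_one_or_cyc π F hF hfix hπ with rfl | ⟨p, hp, q, hq, r, hr, hd, rfl⟩
  · exact Or.inl (h.unique (IsBlk.one _ _))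
  · refine Or.inr ⟨p, hp, q, hq, r, hr, ⟨hd, hW, ha.mono ?_ subset_rfl⟩, rfl,
      h.unique (cycW_isBlk ha hp hq hr hd)⟩
    rintro s (rfl | rfl | rfl) <;> assumption

/-- every element of `C3` is obtained from elementary three-cycles by disjoint products -/
theorem C3_induction (hp : HasPhases S) {P : Perm (Om S) → Prop} (h1 : P 1)
    (hc : ∀ p q r W, Adm3 p q r W → P (cycW p q r W))
    (hm : ∀ c c', c ∈ C3 S → c' ∈ C3 S → Perm.Disjoint c c' → P c → P c' → P (c * c'))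
    {c : Perm (Om S)} (h : c ∈ C3 S) : P c := by
  rw [← res_univ c]
  refine ms_induction hp h.1 h.1 (smallOrb_self h.2).1 (P := fun Y => P (res c Y))
    (by simpa only [res_empty] using h1) ?_ ?_
  · intro Y Y' l l' i1 _ i2 _ d p p'
    rw [res_union i1 i2 d]
    exact hm _ _ (res_mem_C3 h l) (res_mem_C3 h l') (res_disjoint _ _ d) p p'
  · intro F W π₁ _ hF hW ha f1 _ _ _ b _
    rcases b.one_or_cycW (hF.trans (by norm_num)) hW ha f1
      (res_mem_C3 h (LocO.img F.finite_toSet hW)).2 with e | ⟨p, -, q, -, r, -, a, -, e⟩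
    · rw [e]; exact h1
    · rw [e]; exact hc p q r W a

end Crest.Agent.R189
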