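import Crest.Agent.R189.Basic

/-!
Row 189.  Regular orthomodular posets (axiomatised by orthogonality and a partial sum).
-/

set_option autoImplicit false

namespace Crest.Agent.R189

/-- regular orthomodular poset; `add` is only meaningful on orthogonal pairs -/
class OMP (P : Type) where
  zero : P
  one : P
  orth : P → P → Prop
  add : P → P → P
  compl : P → P
  orth_symm : ∀ x y, orth x y → orth y x
  zero_orth : ∀ x, orth zero x
  orth_self : ∀ x, orth x x → x = zero
  add_comm : ∀ x y, orth x y → add x y = add y x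
  add_assoc : ∀ x y w, orth x y → orth x w → orth y w → add (add x y) w = add x (add y w)
  zero_add : ∀ x, add zero x = x
  orth_add : ∀ x y w, orth x y → (orth w (add x y) ↔ orth w x ∧ orth w y)
  orth_compl : ∀ x, orth x (compl x)
  add_compl : ∀ x, add x (compl x) = one
  compl_unique : ∀ x y, orth x y → add x y = one → y = compl x
  reg : ∀ e ψ₁ ψ₂ χ₁ χ₂ α β γ, orth ψ₁ (compl e) → orth χ₁ (compl e) → orth ψ₂ e → orth χ₂ e →
    orth ψ₁ ψ₂ → orth χ₁ χ₂ → orth α β → orth α γ → orth β γ →
    add ψ₁ ψ₂ = add α β → add χ₁ χ₂ = add α γ →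
    ∃ α₁ α₂, orth α₁ (compl e) ∧ orth α₂ e ∧ orth α₁ α₂ ∧ α = add α₁ α₂

namespace OMP

variable {P : Type} [OMP P]

def le (x y : P) : Prop := orth x (compl y)

/-- compatibility (commuting) -/
def Compat (x y : P) : Prop :=
  ∃ α β γ, orth α β ∧ orth α γ ∧ orth β γ ∧ x = add α β ∧ y = add α γ

/-- `sub y x = y - x` for `x ≤ y` -/
def sub (y x : P) : P := compl (add x (compl y))

open Classical in
/-- the meet of a compatible pair -/
noncomputable def inf (x y : P) : P := if h : Compat x y then h.choose else zero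

lemma add_zero (x : P) : add x zero = x := by
  rw [add_comm x zero (orth_symm _ _ (zero_orth x)), zero_add]
lemma orth_zero (x : P) : orth x zero := orth_symm _ _ (zero_orth x)
lemma compl_compl (x : P) : compl (compl x) = x := by
  symm
  apply compl_unique _ _ (orth_symm _ _ (orth_compl x))
  rw [← add_comm _ _ (orth_compl x), add_compl]
lemma compl_zero : compl (zero : P) = one := by
  have h := add_compl (zero : P)
  rwa [zero_add] at h
lemma compl_one : compl (one : P) = zero := by
  rw [← compl_zero, compl_compl]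
lemma eq_zero_of_orth_one {x : P} (h : orth x one) : x = zero := by
  rw [← add_compl x, orth_add _ _ _ (orth_compl x)] at h
  exact orth_self _ h.1
private lemma omp_orth_add {x y w : P} (h : orth x y) (hx : orth w x) (hy : orth w y) :
    orth w (add x y) := (orth_add x y w h).2 ⟨hx, hy⟩
private lemma omp_add_orth {x y w : P} (h : orth x y) (hx : orth x w) (hy : orth y w) :
    orth (add x y) w := orth_symm _ _ (omp_orth_add h (orth_symm _ _ hx) (orth_symm _ _ hy))
private lemma omp_cancel_aux {x y : P} (hy : orth x y) :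
    y = compl (add x (compl (add x y))) := by
  have hc := (orth_add x y _ hy).1 (orth_symm _ _ (orth_compl (add x y)))
  have hxc : orth x (compl (add x y)) := orth_symm _ _ hc.1
  have hyc : orth y (compl (add x y)) := orth_symm _ _ hc.2
  apply compl_unique
  · exact omp_add_orth hxc hy hc.2
  · rw [add_assoc _ _ _ hxc hy hc.2, add_comm _ _ hc.2, ← add_assoc _ _ _ hy hxc hyc, add_compl]
lemma add_cancel {x y w : P} (hy : orth x y) (hw : orth x w) (e : add x y = add x w) : y = w := by
  rw [omp_cancel_aux hy, e, ← omp_cancel_aux hw]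
lemma le_refl (x : P) : le x x := orth_compl x
lemma zero_le (x : P) : le zero x := zero_orth _
lemma le_one (x : P) : le x one := by
  unfold le
  rw [compl_one]
  exact orth_zero x
lemma eq_zero_of_le_zero {x : P} (h : le x zero) : x = zero := by
  unfold le at h
  rw [compl_zero] at h
  exact eq_zero_of_orth_one h
lemma le_compl_iff {x y : P} : le x (compl y) ↔ orth x y := by
  unfold le
  rw [compl_compl]
lemma orth_sub {x y : P} (h : le x y) : orth x (sub y x) :=
  orth_symm _ _ ((orth_add x (compl y) _ h).1 (orth_symm _ _ (orth_compl (add x (compl y))))).1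
private lemma omp_sub_le {x y : P} (h : le x y) : le (sub y x) y :=
  ((orth_add x (compl y) _ h).1 (orth_symm _ _ (orth_compl (add x (compl y))))).2
lemma add_sub {x y : P} (h : le x y) : add x (sub y x) = y := by
  have h1 : orth x (sub y x) := orth_sub h
  have h2 : orth (compl y) (sub y x) := orth_symm _ _ (omp_sub_le h)
  have h3 : orth (compl y) x := orth_symm _ _ h
  have : add x (sub y x) = compl (compl y) := by
    apply compl_unique
    · exact omp_orth_add h1 h3 h2
    · rw [← add_assoc _ _ _ h3 h2 h1, add_comm _ _ h3]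
      exact add_compl _
  rw [this, compl_compl]
lemma orth_of_le {x y w : P} (h : le x y) (h' : orth y w) : orth x w := by
  have h2 : orth w (add x (sub y x)) := by
    rw [add_sub h]
    exact orth_symm _ _ h'
  exact orth_symm _ _ ((orth_add _ _ _ (orth_sub h)).1 h2).1
lemma le_trans {x y w : P} (h : le x y) (h' : le y w) : le x w := orth_of_le h h'
lemma eq_zero_of_le_of_orth' {x y : P} (h : le x y) (h' : orth x y) : x = zero := by
  apply eq_zero_of_orth_one
  rw [← add_compl y]
  exact omp_orth_add (orth_compl y) h' h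
lemma le_antisymm {x y : P} (h : le x y) (h' : le y x) : x = y := by
  have h0 : sub y x = zero :=
    eq_zero_of_le_of_orth' (le_trans (omp_sub_le h) h') (orth_symm _ _ (orth_sub h))
  have h1 := add_sub h
  rwa [h0, add_zero] at h1
lemma le_add_left {x y : P} (h : orth x y) : le x (add x y) :=
  orth_symm _ _ ((orth_add x y _ h).1 (orth_symm _ _ (orth_compl (add x y)))).1
lemma le_add_right {x y : P} (h : orth x y) : le y (add x y) :=
  orth_symm _ _ ((orth_add x y _ h).1 (orth_symm _ _ (orth_compl (add x y)))).2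
lemma add_le {x y w : P} (h : orth x y) (hx : le x w) (hy : le y w) : le (add x y) w :=
  omp_add_orth h hx hy
lemma compl_le_compl {x y : P} (h : le x y) : le (compl y) (compl x) :=
  le_compl_iff.2 (orth_symm _ _ h)
lemma eq_zero_of_le_of_orth {x y : P} (h : le x y) (h' : orth x y) : x = zero :=
  eq_zero_of_le_of_orth' h h'
/-- termwise smaller summands with the same sum are equal -/
lemma eq_of_le_of_add_eq {x y x' y' : P} (h' : orth x' y') (hx : le x x') (hy : le y y')
    (e : add x y = add x' y') : x = x' := by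
  have hxy' : orth x y' := orth_of_le hx h'
  have hxy : orth x y := orth_symm _ _ (orth_of_le hy (orth_symm _ _ hxy'))
  have hs : le (sub x' x) x' := omp_sub_le hx
  have hsy : orth (sub x' x) y :=
    orth_symm _ _ (orth_of_le hy (orth_symm _ _ (orth_of_le hs h')))
  have h0 : sub x' x = zero := by
    apply eq_zero_of_le_of_orth (y := add x y)
    · rw [e]
      exact le_trans hs (le_add_left h')
    · exact omp_orth_add hxy (orth_symm _ _ (orth_sub hx)) hsy
  have h1 := add_sub hx
  rwa [h0, add_zero] at h1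

private lemma omp_le_of_le_add {e c d : P} (h : orth c d) (h1 : le e (add c d)) (h2 : orth e c) :
    le e d := by
  have hc := (orth_add c d _ h).1 (orth_symm _ _ (orth_compl (add c d)))
  have hcc : orth c (compl (add c d)) := orth_symm _ _ hc.1
  have hdc : orth d (compl (add c d)) := orth_symm _ _ hc.2
  have hdc' : orth d c := orth_symm _ _ h
  have : add c (compl (add c d)) = compl d := by
    apply compl_unique
    · exact omp_orth_add hcc hdc' hdc
    · rw [← add_assoc _ _ _ hdc' hdc hcc, add_comm _ _ hdc', add_compl]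
  unfold le
  rw [← this]
  exact omp_orth_add hcc h2 h1

lemma Compat.symm {x y : P} (h : Compat x y) : Compat y x := by
  obtain ⟨α, β, γ, h1, h2, h3, hx, hy⟩ := h
  exact ⟨α, γ, β, h2, h1, orth_symm _ _ h3, hy, hx⟩
lemma Compat.refl (x : P) : Compat x x :=
  ⟨x, zero, zero, orth_zero x, orth_zero x, zero_orth _, (add_zero x).symm, (add_zero x).symm⟩
lemma Compat.of_orth {x y : P} (h : orth x y) : Compat x y :=
  ⟨zero, x, y, zero_orth _, zero_orth _, h, (zero_add x).symm, (zero_add y).symm⟩
lemma Compat.of_le {x y : P} (h : le x y) : Compat x y :=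
  ⟨x, zero, sub y x, orth_zero x, orth_sub h, zero_orth _, (add_zero x).symm, (add_sub h).symm⟩
private lemma omp_compat_iff {x y : P} :
    Compat x y ↔ ∃ x₁ x₂, le x₁ y ∧ orth x₂ y ∧ orth x₁ x₂ ∧ x = add x₁ x₂ := by
  constructor
  · rintro ⟨α, β, γ, h1, h2, h3, hx, rfl⟩
    exact ⟨α, β, le_add_left h2, omp_orth_add h2 (orth_symm _ _ h1) h3, h1, hx⟩
  · rintro ⟨a, b, h1, h2, h3, hx⟩
    exact ⟨a, b, sub y a, h3, orth_sub h1,
      orth_symm _ _ (orth_of_le (omp_sub_le h1) (orth_symm _ _ h2)), hx, (add_sub h1).symm⟩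
lemma Compat.compl_right {x y : P} (h : Compat x y) : Compat x (compl y) := by
  obtain ⟨a, b, h1, h2, h3, hx⟩ := omp_compat_iff.1 h
  exact omp_compat_iff.2 ⟨b, a, le_compl_iff.2 h2, h1, orth_symm _ _ h3, by
    rw [hx, add_comm _ _ h3]⟩
lemma Compat.compl_left {x y : P} (h : Compat x y) : Compat (compl x) y :=
  h.symm.compl_right.symm
lemma compat_iff {x y : P} :
    Compat x y ↔ ∃ x₁ x₂, le x₁ y ∧ orth x₂ y ∧ orth x₁ x₂ ∧ x = add x₁ x₂ := omp_compat_iff
private lemma omp_glb {α β γ w : P} (h1 : orth α β) (h2 : orth α γ) (h3 : orth β γ)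
    (hx : le w (add α β)) (hy : le w (add α γ)) : le w α := by
  have hw : orth w γ := orth_of_le hx (omp_add_orth h1 h2 h3)
  rw [add_comm _ _ h2] at hy
  exact omp_le_of_le_add (orth_symm _ _ h2) hy hw
private lemma omp_inf_spec {x y : P} (h : Compat x y) :
    ∃ β γ, orth (inf x y) β ∧ orth (inf x y) γ ∧ orth β γ ∧ x = add (inf x y) β ∧
      y = add (inf x y) γ := by
  have e : inf x y = h.choose := by
    unfold inf
    rw [dif_pos h]
  rw [e]
  exact h.choose_spec
private lemma omp_inf_neg {x y : P} (h : ¬ Compat x y) : inf x y = zero := by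
  unfold inf
  rw [dif_neg h]
private lemma omp_inf_le_left (x y : P) : le (inf x y) x := by
  by_cases h : Compat x y
  · obtain ⟨β, γ, h1, _, _, hx, _⟩ := omp_inf_spec h
    have := le_add_left h1
    rwa [← hx] at this
  · rw [omp_inf_neg h]
    exact zero_le x
private lemma omp_inf_le_right (x y : P) : le (inf x y) y := by
  by_cases h : Compat x y
  · obtain ⟨β, γ, _, h2, _, _, hy⟩ := omp_inf_spec h
    have := le_add_left h2
    rwa [← hy] at this
  · rw [omp_inf_neg h]
    exact zero_le y
private lemma omp_le_inf {x y w : P} (h : Compat x y) (hx : le w x) (hy : le w y) :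
    le w (inf x y) := by
  obtain ⟨β, γ, h1, h2, h3, ex, ey⟩ := omp_inf_spec h
  exact omp_glb h1 h2 h3 (by rw [← ex]; exact hx) (by rw [← ey]; exact hy)
lemma inf_eq {α β γ : P} (h1 : orth α β) (h2 : orth α γ) (h3 : orth β γ) :
    inf (add α β) (add α γ) = α :=
  le_antisymm (omp_glb h1 h2 h3 (omp_inf_le_left _ _) (omp_inf_le_right _ _))
    (omp_le_inf ⟨α, β, γ, h1, h2, h3, rfl, rfl⟩ (le_add_left h1) (le_add_left h2))
lemma inf_le_left (x y : P) : le (inf x y) x := omp_inf_le_left x y
lemma inf_le_right (x y : P) : le (inf x y) y := omp_inf_le_right x y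
lemma le_inf {x y w : P} (h : Compat x y) (hx : le w x) (hy : le w y) : le w (inf x y) :=
  omp_le_inf h hx hy
lemma inf_comm (x y : P) : inf x y = inf y x := by
  by_cases h : Compat x y
  · exact le_antisymm (le_inf h.symm (inf_le_right _ _) (inf_le_left _ _))
      (le_inf h (inf_le_right _ _) (inf_le_left _ _))
  · rw [omp_inf_neg h, omp_inf_neg (fun h' => h h'.symm)]
lemma inf_eq_left {x y : P} (h : le x y) : inf x y = x :=
  le_antisymm (inf_le_left _ _) (le_inf (Compat.of_le h) (le_refl x) h)
lemma inf_eq_zero {x y : P} (h : orth x y) : inf x y = zero :=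
  eq_zero_of_le_of_orth (inf_le_right x y) (orth_of_le (inf_le_left x y) h)
lemma orth_of_inf_eq_zero {x y : P} (h : Compat x y) (e : inf x y = zero) : orth x y := by
  obtain ⟨β, γ, _, _, h3, ex, ey⟩ := omp_inf_spec h
  rw [e, zero_add] at ex ey
  rw [ex, ey]
  exact h3
private lemma omp_inf_eq_of {a b y : P} (h1 : le a y) (h2 : orth b y) (h3 : orth a b) :
    inf (add a b) y = a := by
  have := inf_eq h3 (orth_sub h1)
    (orth_symm _ _ (orth_of_le (omp_sub_le h1) (orth_symm _ _ h2)))
  rwa [add_sub h1] at this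
lemma inf_add_inf_compl {x y : P} (h : Compat x y) :
    orth (inf x y) (inf x (compl y)) ∧ add (inf x y) (inf x (compl y)) = x := by
  obtain ⟨a, b, h1, h2, h3, rfl⟩ := compat_iff.1 h
  have e1 : inf (add a b) y = a := omp_inf_eq_of h1 h2 h3
  have e2 : inf (add a b) (compl y) = b := by
    rw [add_comm _ _ h3]
    exact omp_inf_eq_of (le_compl_iff.2 h2) h1 (orth_symm _ _ h3)
  rw [e1, e2]
  exact ⟨h3, rfl⟩
private lemma omp_add_right_aux {w x y : P} (h : orth x y) (hx : Compat w x) (hy : Compat w y) :
    ∃ e, le (add (inf w x) (inf w y)) (add x y) ∧ orth e (add x y) ∧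
      orth (add (inf w x) (inf w y)) e ∧ w = add (add (inf w x) (inf w y)) e := by
  obtain ⟨hab, eab⟩ := inf_add_inf_compl hx
  obtain ⟨hcd, ecd⟩ := inf_add_inf_compl hy
  have hcb : le (inf w y) (inf w (compl x)) :=
    le_inf hx.compl_right (inf_le_left _ _)
      (le_compl_iff.2 (orth_of_le (inf_le_right _ _) (orth_symm _ _ h)))
  have heb := omp_sub_le hcb
  have hce := orth_sub hcb
  have hac : orth (inf w x) (inf w y) := orth_symm _ _ (orth_of_le hcb (orth_symm _ _ hab))
  have hae : orth (inf w x) (sub (inf w (compl x)) (inf w y)) :=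
    orth_symm _ _ (orth_of_le heb (orth_symm _ _ hab))
  have hed : le (sub (inf w (compl x)) (inf w y)) (inf w (compl y)) := by
    apply omp_le_of_le_add hcd _ (orth_symm _ _ hce)
    rw [ecd]
    exact le_trans heb (inf_le_left _ _)
  refine ⟨sub (inf w (compl x)) (inf w y), ?_, ?_, omp_add_orth hac hae hce, ?_⟩
  · exact add_le hac (le_trans (inf_le_right _ _) (le_add_left h))
      (le_trans (inf_le_right _ _) (le_add_right h))
  · exact omp_orth_add h (le_compl_iff.1 (le_trans heb (inf_le_right _ _)))
      (le_compl_iff.1 (le_trans hed (inf_le_right _ _)))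
  · rw [add_assoc _ _ _ hac hae hce, add_sub hcb, eab]
lemma Compat.add_right {w x y : P} (h : orth x y) (hx : Compat w x) (hy : Compat w y) :
    Compat w (add x y) := by
  obtain ⟨e, h1, h2, h3, h4⟩ := omp_add_right_aux h hx hy
  exact compat_iff.2 ⟨_, e, h1, h2, h3, h4⟩
lemma inf_add {w x y : P} (h : orth x y) (hx : Compat w x) (hy : Compat w y) :
    inf w (add x y) = add (inf w x) (inf w y) := by
  obtain ⟨e, h1, h2, h3, h4⟩ := omp_add_right_aux h hx hy
  have := omp_inf_eq_of h1 h2 h3
  rwa [← h4] at this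
/-- regularity -/
lemma Compat.inf_right {w x y : P} (h : Compat x y) (hx : Compat w x) (hy : Compat w y) :
    Compat w (inf x y) := by
  obtain ⟨β, γ, h1, h2, h3, ex, ey⟩ := omp_inf_spec h
  obtain ⟨ψ₁, ψ₂, p1, p2, p3, ep⟩ := compat_iff.1 hx.symm
  obtain ⟨χ₁, χ₂, q1, q2, q3, eq⟩ := compat_iff.1 hy.symm
  obtain ⟨α₁, α₂, a1, a2, a3, ea⟩ := reg w ψ₁ ψ₂ χ₁ χ₂ (inf x y) β γ p1 q1 p2 q2 p3 q3 h1 h2 h3
    (ep.symm.trans ex) (eq.symm.trans ey)
  exact (compat_iff.2 ⟨α₁, α₂, a1, a2, a3, ea⟩).symm
lemma inf_assoc {x y w : P} (h1 : Compat x y) (h2 : Compat x w) (h3 : Compat y w) :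
    inf (inf x y) w = inf x (inf y w) := by
  have c1 : Compat (inf x y) w := (Compat.inf_right h1 h2.symm h3.symm).symm
  have c2 : Compat x (inf y w) := Compat.inf_right h3 h1 h2
  apply le_antisymm
  · exact le_inf c2 (le_trans (inf_le_left _ _) (inf_le_left _ _))
      (le_inf h3 (le_trans (inf_le_left _ _) (inf_le_right _ _)) (inf_le_right _ _))
  · exact le_inf c1 (le_inf h1 (inf_le_left _ _) (le_trans (inf_le_right _ _) (inf_le_left _ _)))
      (le_trans (inf_le_right _ _) (inf_le_right _ _))
/-- localisation below `τ` -/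
lemma Compat.of_local {q τ x : P} (h1 : le q τ) (h2 : Compat τ x) (h3 : Compat q (inf τ x)) :
    Compat q x := by
  obtain ⟨o, e⟩ := inf_add_inf_compl h2.symm
  rw [← e]
  apply Compat.add_right o
  · rw [inf_comm]
    exact h3
  · exact Compat.of_orth (orth_of_le h1 (orth_symm _ _ (le_compl_iff.1 (inf_le_right _ _))))
/-- binary gluing -/
lemma Compat.glue {q x y : P} (hx : Compat q x) (hy : Compat q y)
    (h1 : Compat (inf q x) (inf q y)) (h2 : Compat (inf (compl q) x) (inf (compl q) y)) :
    Compat x y := by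
  obtain ⟨ox, ex⟩ := inf_add_inf_compl hx.symm
  obtain ⟨oy, ey⟩ := inf_add_inf_compl hy.symm
  rw [inf_comm q x, inf_comm q y] at h1
  rw [inf_comm (compl q) x, inf_comm (compl q) y] at h2
  have a1 : Compat (inf x q) y := by
    rw [← ey]
    exact Compat.add_right oy h1 (Compat.of_orth
      (orth_of_le (inf_le_right _ _) (orth_symm _ _ (le_compl_iff.1 (inf_le_right _ _)))))
  have a2 : Compat (inf x (compl q)) y := by
    rw [← ey]
    exact Compat.add_right oy (Compat.of_orth (orth_symm _ _
      (orth_of_le (inf_le_right _ _) (orth_symm _ _ (le_compl_iff.1 (inf_le_right _ _)))))) h2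
  have := Compat.add_right ox a1.symm a2.symm
  rw [ex] at this
  exact this.symm

end OMP

end Crest.Agent.R189
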