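import Crest.Agent.R189.GG

/-!
Row 189.  The finite presentation.
-/

set_option autoImplicit false

namespace Crest.Agent.R189

open Equiv

variable {S : Wang}

/-- displacement vectors with total sum zero -/
def SZ (D : Track → V) : Prop := ∑ i, D i = 0

lemma SZ.zero : SZ 0 := by simp [SZ]
lemma SZ.add {D D' : Track → V} (h : SZ D) (h' : SZ D') : SZ (D + D') := by
  unfold SZ at *
  simp only [Pi.add_apply, Finset.sum_add_distrib, h, h', add_zero]
lemma SZ.neg {D : Track → V} (h : SZ D) : SZ (-D) := by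
  unfold SZ at *
  simp only [Pi.neg_apply, Finset.sum_neg_distrib, h, neg_zero]
lemma SZ.comp {D : Track → V} (h : SZ D) (π : Perm Track) : SZ (fun i => D (π i)) :=
  (Equiv.sum_comp π D).trans h
lemma SZ.single (i j : Track) (u : V) : SZ (Pi.single i u - Pi.single j u) := by
  unfold SZ
  simp only [Pi.sub_apply, Finset.sum_sub_distrib, Finset.sum_pi_single', Finset.mem_univ, if_true,
    sub_self]
/-- prescribed values on a set of tracks, compensated on one further track -/
lemma exists_SZ (A : Finset Track) (f : Track → V) {l : Track} (hl : l ∉ A) :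
    ∃ D, SZ D ∧ (∀ i ∈ A, D i = f i) ∧ ∀ i, i ∉ A → i ≠ l → D i = 0 := by
  refine ⟨(fun i => if i ∈ A then f i else 0) - Pi.single l (∑ i ∈ A, f i), ?_, fun i hi => ?_,
    fun i hi hil => ?_⟩
  · unfold SZ
    simp only [Pi.sub_apply, Finset.sum_sub_distrib, Finset.sum_pi_single', Finset.mem_univ, if_true,
      Finset.sum_ite_mem, Finset.univ_inter, sub_self]
  · have : i ≠ l := fun e => hl (e ▸ hi)
    simp [hi, Pi.single_eq_of_ne this]
  · simp [hi, Pi.single_eq_of_ne hil]
/-- sum-zero vectors supported in `B` are generated by differences of unit steps -/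
lemma SZ.induction {p : (Track → V) → Prop} (B : Set Track) (h0 : p 0)
    (hs : ∀ i ∈ B, ∀ j ∈ B, ∀ e : V, (e = e1 ∨ e = e2) → p (Pi.single i e - Pi.single j e))
    (ha : ∀ D D', SZ D → SZ D' → p D → p D' → p (D + D')) {D : Track → V} (hD : SZ D)
    (hB : ∀ i, i ∉ B → D i = 0) : p D := by
  by_cases hne : B.Nonempty
  swap
  · have : D = 0 := funext fun i => hB i fun hi => hne ⟨i, hi⟩
    rw [this]; exact h0
  obtain ⟨j, hj⟩ := hne
  have key : ∀ i ∈ B, ∀ v : V, p (Pi.single i v - Pi.single j v) := by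
    intro i hi
    have step : ∀ e : V, (e = e1 ∨ e = e2) → ∀ (n : ℤ) (v : V), p (Pi.single i v - Pi.single j v) →
        p (Pi.single i (v + n • e) - Pi.single j (v + n • e)) := by
      intro e he n v hv
      induction n using Int.induction_on with
      | zero => simpa using hv
      | succ n ih =>
        have := ha _ _ (SZ.single _ _ _) (SZ.single _ _ _) ih (hs i hi j hj e he)
        convert this using 1
        rw [add_smul, one_smul, ← add_assoc, Pi.single_add, Pi.single_add (j)]
        abel
      | pred n ih =>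
        have := ha _ _ (SZ.single _ _ _) (SZ.single _ _ _) ih (hs j hj i hi e he)
        convert this using 1
        rw [sub_smul, one_smul, ← add_sub_assoc, Pi.single_sub, Pi.single_sub (j)]
        abel
    intro v
    have := step e2 (Or.inr rfl) v.2 _ (step e1 (Or.inl rfl) v.1 0 (by simpa using h0))
    rwa [show (0 : V) + v.1 • e1 + v.2 • e2 = v by ext <;> simp [e1, e2]] at this
  have e : D = ∑ i, (Pi.single i (D i) - Pi.single j (D i) : Track → V) := by
    rw [Finset.sum_sub_distrib, Finset.univ_sum_single]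
    have : ∑ i, (Pi.single j (D i) : Track → V) = 0 := by
      funext l
      rw [Finset.sum_apply]
      by_cases hl : l = j
      · subst hl
        simpa [SZ] using hD
      · simp [Pi.single_eq_of_ne hl]
    rw [this, sub_zero]
  rw [e]
  refine (Finset.sum_induction _ (fun D => SZ D ∧ p D)
    (fun a b h1 h2 => ⟨h1.1.add h2.1, ha _ _ h1.1 h2.1 h1.2 h2.2⟩) ⟨SZ.zero, h0⟩
    fun i _ => ⟨SZ.single _ _ _, ?_⟩).2
  by_cases hi : i ∈ B
  · exact key i hi _
  · rw [hB i hi]
    simpa using h0

/-- the consequences of the defining relations -/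
structure PData (S : Wang) (Γ : Type) [Group Γ] where
  φ : Set S.A → Track → Track → Track → Γ
  τ : (Track → V) → Γ
  pr : Γ →* Perm (Om S)
  junk : ∀ U i j k, ¬ D3 i j k → φ U i j k = 1
  pre : ∀ U, Pre (φ U)
  union : ∀ U U' i j k, Disjoint U U' → φ (U ∪ U') i j k = φ U i j k * φ U' i j k
  orth : ∀ U U' i j k i' j' k', Disjoint U U' → Commute (φ U i j k) (φ U' i' j' k')
  τ_add : ∀ D D', SZ D → SZ D' → τ (D + D') = τ D * τ D'
  τ_off : ∀ D U i j k, SZ D → D i = 0 → D j = 0 → D k = 0 → Commute (τ D) (φ U i j k)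
  perm : ∀ D i j k, SZ D → D3 i j k →
    φ Set.univ i j k * τ D * (φ Set.univ i j k)⁻¹ = τ (fun l => D ((cyc i j k)⁻¹ l))
  hor : ∀ (A : Set S.CH) D i j k, SZ D → D i = -e1 → D j = -e1 → D k = -e1 →
    φ (S.R ⁻¹' A) i j k = τ D * φ (S.L ⁻¹' A) i j k * (τ D)⁻¹
  ver : ∀ (A : Set S.CV) D i j k, SZ D → D i = -e2 → D j = -e2 → D k = -e2 →
    φ (S.T ⁻¹' A) i j k = τ D * φ (S.B ⁻¹' A) i j k * (τ D)⁻¹
  pr_φ : ∀ U i j k, D3 i j k → pr (φ U i j k) = cW i j k (St 0 U)
  pr_τ : ∀ D, SZ D → pr (τ D) = tau D
  gen : Subgroup.closure ({γ | ∃ U i j k, γ = φ U i j k} ∪ {γ | ∃ D, SZ D ∧ γ = τ D}) = ⊤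

/-- fibrewise permutations of the tracks -/
def presF : (Cfg S → Perm Track) →* Perm (Om S) where
  toFun f := Equiv.prodCongrRight f
  map_one' := Equiv.ext fun _ => rfl
  map_mul' _ _ := Equiv.ext fun _ => rfl

lemma presF_apply (f : Cfg S → Perm Track) (x : Cfg S) (l : Track) :
    presF f (x, l) = (x, f x l) := rfl

open Classical in
lemma pres_cW_eq {i j k : Track} (h : D3 i j k) {W : Set (Cfg S)} (hW : Loc W) :
    cW i j k W = presF fun x => if x ∈ W then cyc i j k else 1 := by
  refine Equiv.ext fun ω => ?_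
  obtain ⟨x, l⟩ := ω
  rw [cW_apply h hW, presF_apply]
  split_ifs <;> rfl

lemma pres_cW_pre {W : Set (Cfg S)} (hW : Loc W) : Pre fun i j k => cW i j k W := by
  classical
  refine ⟨fun p q r d => ?_, fun p q r d => ?_, fun p q r d => ?_, fun p q r i j k d d' => ?_⟩
  · rw [pres_cW_eq d hW, pres_cW_eq ⟨d.2.2, d.1.symm, d.2.1.symm⟩ hW, cyc_rot d]
  · rw [pres_cW_eq d hW, pres_cW_eq ⟨d.2.1, d.1, d.2.2.symm⟩ hW, ← map_inv]
    congr 1
    funext x
    simp only [Pi.inv_apply]
    split_ifs
    · exact cyc_inv d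
    · rfl
  · rw [pres_cW_eq d hW, ← map_pow, ← map_one presF]
    congr 1
    funext x
    simp only [Pi.pow_apply, Pi.one_apply]
    split_ifs
    · exact cyc_cube d
    · exact one_pow _
  · rw [pres_cW_eq d hW, pres_cW_eq d' hW, pres_cW_eq (d'.map (cyc p q r).injective) hW, ← map_inv,
      ← map_mul, ← map_mul]
    congr 1
    funext x
    simp only [Pi.mul_apply, Pi.inv_apply]
    split_ifs
    · exact cyc_conj _ _ _ _
    · simp

lemma pres_cW_union {i j k : Track} (h : D3 i j k) {W W' : Set (Cfg S)} (hW : Loc W) (hW' : Loc W')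
    (hd : Disjoint W W') : cW i j k (W ∪ W') = cW i j k W * cW i j k W' := by
  classical
  rw [pres_cW_eq h hW, pres_cW_eq h hW', pres_cW_eq h (hW.union hW'), ← map_mul]
  congr 1
  funext x
  have : x ∈ W → x ∉ W' := fun h => Set.disjoint_left.1 hd h
  simp only [Pi.mul_apply, Set.mem_union]
  by_cases h1 : x ∈ W
  · simp [h1, this h1]
  · by_cases h2 : x ∈ W' <;> simp [h1, h2]

lemma pres_cW_orth {i j k i' j' k' : Track} (h : D3 i j k) (h' : D3 i' j' k') {W W' : Set (Cfg S)}
    (hW : Loc W) (hW' : Loc W') (hd : Disjoint W W') : Commute (cW i j k W) (cW i' j' k' W') := by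
  classical
  rw [pres_cW_eq h hW, pres_cW_eq h' hW']
  refine Commute.map (funext fun x => ?_) _
  have : x ∈ W → x ∉ W' := fun h => Set.disjoint_left.1 hd h
  simp only [Pi.mul_apply]
  by_cases h1 : x ∈ W
  · simp [h1, this h1]
  · simp [h1]

lemma pres_tau_conj {D : Track → V} {u : V} {i j k : Track} (h : D3 i j k) {W : Set (Cfg S)}
    (hW : Loc W) (hi : D i = u) (hj : D j = u) (hk : D k = u) :
    tau D * cW i j k W * (tau D)⁻¹ = cW i j k (tr u W) := by
  classical
  rw [mul_inv_eq_iff_eq_mul]
  refine Equiv.ext fun ω => ?_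
  obtain ⟨x, l⟩ := ω
  show tau D (cW i j k W (x, l)) = cW i j k (tr u W) (D l +ᵥ x, l)
  rw [cW_apply h hW, cW_apply h (hW.tr u)]
  by_cases h1 : l = i ∨ l = j ∨ l = k
  · have e1 : D l = u := by rcases h1 with rfl | rfl | rfl <;> assumption
    have e2 : D (cyc i j k l) = u := by
      rcases h1 with rfl | rfl | rfl
      · rwa [cyc_apply_fst h]
      · rwa [cyc_apply_snd h]
      · rwa [cyc_apply_thd h]
    simp only [e1, vadd_mem_tr]
    split_ifs
    · show (D (cyc i j k l) +ᵥ x, cyc i j k l) = _
      rw [e2]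
    · show (D l +ᵥ x, l) = _
      rw [e1]
  · push Not at h1
    rw [cyc_apply_of_ne h1.1 h1.2.1 h1.2.2, ite_self, ite_self]
    rfl

lemma pres_tau_perm (D : Track → V) {i j k : Track} (h : D3 i j k) :
    cW i j k (Set.univ : Set (Cfg S)) * tau D * (cW i j k Set.univ)⁻¹ =
      tau fun l => D ((cyc i j k)⁻¹ l) := by
  classical
  rw [mul_inv_eq_iff_eq_mul]
  refine Equiv.ext fun ω => ?_
  obtain ⟨x, l⟩ := ω
  show cW i j k Set.univ (D l +ᵥ x, l) =
    tau (fun l => D ((cyc i j k)⁻¹ l)) (cW i j k Set.univ (x, l))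
  rw [cW_apply h Loc.univ, cW_apply h Loc.univ, if_pos (Set.mem_univ _), if_pos (Set.mem_univ _)]
  show _ = (D ((cyc i j k)⁻¹ (cyc i j k l)) +ᵥ x, cyc i j k l)
  simp

section words

variable {G H : Type} [Group G] [Group H]

/-- unit steps -/
def presE (b : Bool) : V := if b then e1 else e2

/-- the word for a translation -/
def presT (θ : Track → Bool → G) (D : Track → V) : G :=
  ((List.finRange 30).map fun j => θ j true ^ (D j).1 * θ j false ^ (D j).2).prod

lemma presT_map (f : G →* H) (θ : Track → Bool → G) (D : Track → V) :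
    f (presT θ D) = presT (fun j b => f (θ j b)) D := by
  simp only [presT, map_list_prod, List.map_map, Function.comp_def, map_mul, map_zpow]

lemma pres_list_mul {ι : Type} (l : List ι) (a b : ι → G) (h : ∀ i j, Commute (b i) (a j)) :
    (l.map fun i => a i * b i).prod = (l.map a).prod * (l.map b).prod := by
  induction l with
  | nil => simp
  | cons i l ih =>
    have c : Commute (b i) (l.map a).prod := Commute.list_prod_right _ _ fun x hx => by
      obtain ⟨j, -, rfl⟩ := List.mem_map.1 hx
      exact h i j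
    simp only [List.map_cons, List.prod_cons, ih, mul_assoc]
    rw [← mul_assoc (b i), c.eq, mul_assoc]

lemma presT_add {θ : Track → Bool → G} (h : ∀ j b j' b', Commute (θ j b) (θ j' b'))
    (D D' : Track → V) : presT θ (D + D') = presT θ D * presT θ D' := by
  unfold presT
  rw [← pres_list_mul _ _ _ fun i j => (((h _ _ _ _).zpow_zpow _ _).mul_right
    ((h _ _ _ _).zpow_zpow _ _)).mul_left (((h _ _ _ _).zpow_zpow _ _).mul_right
    ((h _ _ _ _).zpow_zpow _ _))]
  congr 2
  funext j
  simp only [Pi.add_apply, Prod.fst_add, Prod.snd_add, zpow_add, mul_assoc]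
  congr 1
  rw [← mul_assoc, ((h j true j false).zpow_zpow _ _).eq, mul_assoc]

lemma presT_zero (θ : Track → Bool → G) : presT θ 0 = 1 := by
  simp [presT]

lemma presT_single (θ : Track → Bool → G) (j : Track) (b : Bool) :
    presT θ (Pi.single j (presE b)) = θ j b := by
  unfold presT
  rw [List.prod_map_eq_pow_single j _ fun a ha _ => by simp [Pi.single_eq_of_ne ha],
    List.count_eq_one_of_mem (List.nodup_finRange 30) (List.mem_finRange j), pow_one]
  cases b <;> simp [presE, e1, e2]

lemma presT_diff {θ : Track → Bool → G} (h : ∀ j b j' b', Commute (θ j b) (θ j' b'))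
    (i j : Track) (b : Bool) :
    presT θ (Pi.single i (presE b) - Pi.single j (presE b)) = θ i b * (θ j b)⁻¹ := by
  rw [eq_mul_inv_iff_mul_eq, ← presT_single θ j, ← presT_add h, sub_add_cancel, presT_single]

lemma pres_exists_D (u : V) (i j k : Track) : ∃ D, SZ D ∧ D i = u ∧ D j = u ∧ D k = u := by
  obtain ⟨l, hl⟩ := exists_fresh ({i, j, k} : Finset Track)
    (lt_of_le_of_lt Finset.card_le_three (by simp))
  obtain ⟨D, h1, h2, -⟩ := exists_SZ {i, j, k} (fun _ => u) hl
  exact ⟨D, h1, h2 i (by simp), h2 j (by simp), h2 k (by simp)⟩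

/-- a chosen translation with value `u` on a triple -/
noncomputable def presD (u : V) (i j k : Track) : Track → V := (pres_exists_D u i j k).choose

lemma presD_spec (u : V) (i j k : Track) :
    SZ (presD u i j k) ∧ presD u i j k i = u ∧ presD u i j k j = u ∧ presD u i j k k = u :=
  (pres_exists_D u i j k).choose_spec

/-- unit differences -/
def presU (a a' : Track) (b : Bool) : Track → V := Pi.single a (presE b) - Pi.single a' (presE b)

/-- indices of the defining relations -/
inductive PIdx (S : Wang) : Type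
  | junk (U : Set S.A) (i j k : Track) (h : ¬ D3 i j k)
  | rot (U : Set S.A) (i j k : Track) (h : D3 i j k)
  | inv (U : Set S.A) (i j k : Track) (h : D3 i j k)
  | cube (U : Set S.A) (i j k : Track) (h : D3 i j k)
  | conj (U : Set S.A) (p q r i j k : Track) (h : D3 p q r) (h' : D3 i j k)
  | union (U U' : Set S.A) (i j k : Track) (h : Disjoint U U')
  | orth (U U' : Set S.A) (i j k i' j' k' : Track) (h : Disjoint U U')
  | tcomm (j : Track) (b : Bool) (j' : Track) (b' : Bool)
  | tzero (b : Bool)
  | off (a a' : Track) (b : Bool) (U : Set S.A) (i j k : Track)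
      (h : presU a a' b i = 0 ∧ presU a a' b j = 0 ∧ presU a a' b k = 0)
  | perm (a a' : Track) (b : Bool) (i j k : Track) (h : D3 i j k)
  | edge (b : Bool) (U U' : Set S.A) (i j k : Track)
      (h : (St 0 U : Set (Cfg S)) = St (presE b) U')

set_option synthInstance.maxSize 2000 in
set_option synthInstance.maxHeartbeats 200000 in
instance : Finite (PIdx S) := Finite.of_equiv _ (proxy_equiv% (PIdx S))

/-- the two sides of a relation -/
noncomputable def presW (φ : Set S.A → Track → Track → Track → G) (θ : Track → Bool → G) :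
    PIdx S → G × G
  | .junk U i j k _ => (φ U i j k, 1)
  | .rot U i j k _ => (φ U i j k, φ U j k i)
  | .inv U i j k _ => (φ U i k j, (φ U i j k)⁻¹)
  | .cube U i j k _ => (φ U i j k ^ 3, 1)
  | .conj U p q r i j k _ _ =>
    (φ U p q r * φ U i j k * (φ U p q r)⁻¹, φ U (cyc p q r i) (cyc p q r j) (cyc p q r k))
  | .union U U' i j k _ => (φ (U ∪ U') i j k, φ U i j k * φ U' i j k)
  | .orth U U' i j k i' j' k' _ => (φ U i j k * φ U' i' j' k', φ U' i' j' k' * φ U i j k)
  | .tcomm j b j' b' => (θ j b * θ j' b', θ j' b' * θ j b)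
  | .tzero b => (θ 0 b, 1)
  | .off a a' b U i j k _ =>
    (presT θ (presU a a' b) * φ U i j k, φ U i j k * presT θ (presU a a' b))
  | .perm a a' b i j k _ =>
    (φ Set.univ i j k * presT θ (presU a a' b) * (φ Set.univ i j k)⁻¹,
      presT θ fun l => presU a a' b ((cyc i j k)⁻¹ l))
  | .edge b U U' i j k _ =>
    (φ U i j k, presT θ (presD (-presE b) i j k) * φ U' i j k * (presT θ (presD (-presE b) i j k))⁻¹)

lemma presW_map (f : G →* H) (φ : Set S.A → Track → Track → Track → G) (θ : Track → Bool → G)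
    (n : PIdx S) : f (presW φ θ n).1 = (presW (fun U i j k => f (φ U i j k)) (fun j b => f (θ j b)) n).1 ∧
      f (presW φ θ n).2 = (presW (fun U i j k => f (φ U i j k)) (fun j b => f (θ j b)) n).2 := by
  cases n <;> simp only [presW, map_mul, map_inv, map_pow, map_one, presT_map, and_self]

end words

lemma presE_cases {e : V} (he : e = e1 ∨ e = e2) : ∃ b, e = presE b := by
  rcases he with rfl | rfl
  · exact ⟨true, rfl⟩
  · exact ⟨false, rfl⟩

open Classical in
/-- the images of the generators -/
noncomputable def presφ (S : Wang) (U : Set S.A) (i j k : Track) : Perm (Om S) :=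
  if D3 i j k then cW i j k (St 0 U) else 1

def presθ (S : Wang) (j : Track) (b : Bool) : Perm (Om S) := tau (presU j 0 b)

lemma presθ_comm (j : Track) (b : Bool) (j' : Track) (b' : Bool) :
    Commute (presθ S j b) (presθ S j' b') := by
  show _ * _ = _ * _
  unfold presθ
  rw [← tau_add, ← tau_add, add_comm]

lemma presT_θ {D : Track → V} (hD : SZ D) : presT (presθ S) D = tau D := by
  refine SZ.induction (p := fun D => presT (presθ S) D = tau D) Set.univ ?_ ?_ ?_ hD
    fun i hi => (hi (Set.mem_univ _)).elim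
  · rw [presT_zero, tau_zero]
  · intro i _ j _ e he
    obtain ⟨b, rfl⟩ := presE_cases he
    rw [presT_diff presθ_comm, mul_inv_eq_iff_eq_mul, presθ, presθ, ← tau_add, presU, presU,
      sub_add_sub_cancel]
  · intro D D' _ _ h h'
    rw [presT_add presθ_comm, tau_add, h, h']

lemma presW_true (n : PIdx S) :
    (presW (presφ S) (presθ S) n).1 = (presW (presφ S) (presθ S) n).2 := by
  cases n with
  | junk U i j k h => exact if_neg h
  | rot U i j k h =>
    simp only [presW, presφ, if_pos h, if_pos (show D3 j k i from ⟨h.2.2, h.1.symm, h.2.1.symm⟩)]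
    exact (pres_cW_pre (Loc.st 0 U)).rot i j k h
  | inv U i j k h =>
    simp only [presW, presφ, if_pos h, if_pos (show D3 i k j from ⟨h.2.1, h.1, h.2.2.symm⟩)]
    exact (pres_cW_pre (Loc.st 0 U)).inv i j k h
  | cube U i j k h =>
    simp only [presW, presφ, if_pos h]
    exact (pres_cW_pre (Loc.st 0 U)).cube i j k h
  | conj U p q r i j k h h' =>
    simp only [presW, presφ, if_pos h, if_pos h', if_pos (h'.map (cyc p q r).injective)]
    exact (pres_cW_pre (Loc.st 0 U)).conj p q r i j k h h'
  | union U U' i j k h =>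
    simp only [presW, presφ]
    split_ifs with d
    · exact pres_cW_union d (Loc.st 0 U) (Loc.st 0 U') (h.preimage fun x : Cfg S => x.1 0)
    · exact (mul_one _).symm
  | orth U U' i j k i' j' k' h =>
    simp only [presW, presφ]
    split_ifs with d d'
    · exact pres_cW_orth d d' (Loc.st 0 U) (Loc.st 0 U') (h.preimage fun x : Cfg S => x.1 0)
    · simp
    · simp
    · simp
  | tcomm j b j' b' => exact presθ_comm j b j' b'
  | tzero b =>
    show tau (presU 0 0 b) = 1
    rw [presU, sub_self, tau_zero]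
  | off a a' b U i j k h =>
    simp only [presW, presφ, presT_θ (show SZ (presU a a' b) from SZ.single _ _ _)]
    split_ifs with d
    · rw [← mul_inv_eq_iff_eq_mul, pres_tau_conj d (Loc.st 0 U) h.1 h.2.1 h.2.2, tr_zero]
    · simp
  | perm a a' b i j k h =>
    have h1 : SZ (presU a a' b) := SZ.single _ _ _
    simp only [presW, presφ, presT_θ h1, presT_θ (h1.comp (cyc i j k)⁻¹), if_pos h]
    exact pres_tau_perm _ h
  | edge b U U' i j k h =>
    obtain ⟨h1, h2, h3, h4⟩ := presD_spec (-presE b) i j k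
    simp only [presW, presφ, presT_θ h1]
    split_ifs with d
    · rw [pres_tau_conj d (Loc.st 0 U') h2 h3 h4, tr_St, zero_sub, neg_neg, h]
    · simp

/-- a group with generators satisfying the relations -/
lemma pres_build {Γ : Type} [Group Γ] (φ : Set S.A → Track → Track → Track → Γ)
    (θ : Track → Bool → Γ) (h : ∀ n : PIdx S, (presW φ θ n).1 = (presW φ θ n).2)
    (pr : Γ →* Perm (Om S)) (h1 : ∀ U i j k, pr (φ U i j k) = presφ S U i j k)
    (h2 : ∀ j b, pr (θ j b) = presθ S j b)
    (hg : ∀ K : Subgroup Γ, (∀ U i j k, φ U i j k ∈ K) → (∀ j b, θ j b ∈ K) → K = ⊤) :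
    Nonempty (PData S Γ) := by
  have hc : ∀ j b j' b', Commute (θ j b) (θ j' b') := fun j b j' b' => h (.tcomm j b j' b')
  have hoff : ∀ D U i j k, SZ D → D i = 0 → D j = 0 → D k = 0 →
      Commute (presT θ D) (φ U i j k) := by
    intro D U i j k hD hi hj hk
    refine SZ.induction (p := fun D => Commute (presT θ D) (φ U i j k))
      {l | l ≠ i ∧ l ≠ j ∧ l ≠ k} ?_ ?_ ?_ hD ?_
    · rw [presT_zero]; exact Commute.one_left _
    · intro a ha a' ha' e he
      obtain ⟨b, rfl⟩ := presE_cases he
      exact h (.off a a' b U i j k (by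
        simp [presU, Pi.single_eq_of_ne' ha.1, Pi.single_eq_of_ne' ha.2.1,
          Pi.single_eq_of_ne' ha.2.2, Pi.single_eq_of_ne' ha'.1, Pi.single_eq_of_ne' ha'.2.1,
          Pi.single_eq_of_ne' ha'.2.2]))
    · intro D D' _ _ a b
      rw [presT_add hc]
      exact a.mul_left b
    · intro l hl
      by_contra h0
      exact hl ⟨fun e => h0 (e ▸ hi), fun e => h0 (e ▸ hj), fun e => h0 (e ▸ hk)⟩
  have hedge : ∀ b U U' D i j k, (St 0 U : Set (Cfg S)) = St (presE b) U' → SZ D →
      D i = -presE b → D j = -presE b → D k = -presE b →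
      φ U i j k = presT θ D * φ U' i j k * (presT θ D)⁻¹ := by
    intro b U U' D i j k hU hD hi hj hk
    obtain ⟨a1, a2, a3, a4⟩ := presD_spec (-presE b) i j k
    have e : D = presD (-presE b) i j k + (D + -presD (-presE b) i j k) := by abel
    have c := hoff _ U' i j k (hD.add a1.neg) (by simp [hi, a2]) (by simp [hj, a3])
      (by simp [hk, a4])
    rw [e, presT_add hc, mul_assoc _ _ (φ U' i j k), c.eq, mul_inv_rev, ← mul_assoc, ← mul_assoc,
      mul_inv_cancel_right]
    exact h (.edge b U U' i j k hU)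
  refine ⟨⟨φ, presT θ, pr, fun U i j k d => h (.junk U i j k d),
    fun U => ⟨fun i j k d => h (.rot U i j k d), fun i j k d => h (.inv U i j k d),
      fun i j k d => h (.cube U i j k d), fun p q r i j k d d' => h (.conj U p q r i j k d d')⟩,
    fun U U' i j k d => h (.union U U' i j k d),
    fun U U' i j k i' j' k' d => h (.orth U U' i j k i' j' k' d),
    fun D D' _ _ => presT_add hc D D', hoff, fun D i j k hD d => ?_,
    fun A D i j k => hedge true _ _ D i j k ?_, fun A D i j k => hedge false _ _ D i j k ?_,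
    fun U i j k d => by rw [h1, presφ, if_pos d], fun D hD => ?_, hg _ (fun U i j k => ?_) fun j b => ?_⟩⟩
  · refine SZ.induction (p := fun D => φ Set.univ i j k * presT θ D * (φ Set.univ i j k)⁻¹ =
      presT θ fun l => D ((cyc i j k)⁻¹ l)) Set.univ ?_ ?_ ?_ hD fun i hi => (hi (Set.mem_univ _)).elim
    · rw [presT_zero, mul_one, mul_inv_cancel]
      exact (presT_zero θ).symm
    · intro a _ a' _ e he
      obtain ⟨b, rfl⟩ := presE_cases he
      exact h (.perm a a' b i j k d)
    · intro D D' _ _ a b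
      rw [presT_add hc]
      refine Eq.trans ?_ (presT_add hc _ _).symm
      rw [← a, ← b]
      group
  · ext x
    show S.R (x.1 0) ∈ A ↔ S.L (x.1 e1) ∈ A
    rw [x.2.1 0, zero_add]
  · ext x
    show S.T (x.1 0) ∈ A ↔ S.B (x.1 e2) ∈ A
    rw [x.2.2 0, zero_add]
  · rw [presT_map]
    simp only [h2]
    exact presT_θ hD
  · exact Subgroup.subset_closure (Or.inl ⟨U, i, j, k, rfl⟩)
  · refine Subgroup.subset_closure (Or.inr ⟨_, SZ.single j 0 (presE b), ?_⟩)
    have h0 : θ 0 b = 1 := h (.tzero b)
    rw [presT_diff hc, h0, inv_one, mul_one]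

/-- Plan.  Generators (a finite type): `φ U i j k` for all `U : Set S.A` and tracks, `θ j b` for a track
`j` and `b : Bool` (lift of the shift by `e_b` on `j` and `-e_b` on track `0`).  Relations (a finite set;
take the set of all words of the following shapes): `junk`, `pre`, `union`, `orth`; the `θ` commute,
`θ 0 b = 1`; `θ j b (θ j' b)⁻¹` commutes with `φ U i i' i''` for `j, j'` outside the triple;
`φ univ c * θ j b * (φ univ c)⁻¹ = θ (c j) b * (θ (c 0) b)⁻¹`; `hor`, `ver` for one `D` for every triple and every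
pair `(R ⁻¹' A, L ⁻¹' A)`.  `τ D = ∏ θ j 0 ^ (D j).1 * θ j 1 ^ (D j).2` (e.g. through a homomorphism from
`Multiplicative (Track → V)`, `MonoidHom.noncommPiCoprod`, or into the commutative subgroup generated by
the `θ`).  The general statements follow with `SZ.induction`.  `pr` by `PresentedGroup.toGroup`
(check the relations on points with `cW_apply`). -/
theorem exists_pdata (S : Wang) :
    ∃ (Γ : Type) (_ : Group Γ), Group.IsFinitelyPresented Γ ∧ Nonempty (PData S Γ) := by
  let X : Type := (Set S.A × Track × Track × Track) ⊕ (Track × Bool)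
  let w : PIdx S → FreeGroup X × FreeGroup X :=
    presW (fun U i j k => FreeGroup.of (Sum.inl (U, i, j, k))) fun j b => FreeGroup.of (Sum.inr (j, b))
  let rels : Set (FreeGroup X) := Set.range fun n => (w n).1 * (w n).2⁻¹
  have : Finite rels := Set.finite_range _
  let g : X → Perm (Om S) := Sum.elim (fun a => presφ S a.1 a.2.1 a.2.2.1 a.2.2.2)
    fun a => presθ S a.1 a.2
  have hg : ∀ r ∈ rels, FreeGroup.lift g r = 1 := by
    rintro _ ⟨n, rfl⟩
    obtain ⟨a1, a2⟩ := presW_map (FreeGroup.lift g) (fun U i j k => FreeGroup.of (Sum.inl (U, i, j, k)))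
      (fun j b => FreeGroup.of (Sum.inr (j, b))) n
    rw [map_mul, map_inv, mul_inv_eq_one, a1, a2]
    simp only [FreeGroup.lift_apply_of]
    exact presW_true n
  refine ⟨PresentedGroup rels, inferInstance, inferInstance,
    pres_build (fun U i j k => PresentedGroup.of (Sum.inl (U, i, j, k)))
      (fun j b => PresentedGroup.of (Sum.inr (j, b))) (fun n => ?_) (PresentedGroup.toGroup hg)
      (fun U i j k => PresentedGroup.toGroup.of hg) (fun j b => PresentedGroup.toGroup.of hg)
      fun K h1 h2 => ?_⟩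
  · obtain ⟨a1, a2⟩ := presW_map (PresentedGroup.mk rels)
      (fun U i j k => FreeGroup.of (Sum.inl (U, i, j, k))) (fun j b => FreeGroup.of (Sum.inr (j, b))) n
    refine a1.symm.trans (Eq.trans ?_ a2)
    exact PresentedGroup.mk_eq_mk_of_mul_inv_mem ⟨n, rfl⟩
  · rw [eq_top_iff, ← PresentedGroup.closure_range_of rels, Subgroup.closure_le]
    rintro _ ⟨a | a, rfl⟩
    · exact h1 _ _ _ _
    · exact h2 _ _

end Crest.Agent.R189
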