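import Crest.Agent.R189.PresB

/-!
Row 189.  Killing the Schur multiplier elements.
-/

set_option autoImplicit false

namespace Crest.Agent.R189

open Equiv

variable {S : Wang}

structure RData (S : Wang) (Γ : Type) [Group Γ] extends RData0 S Γ where
  prod : ∀ W, Loc W → ProdOn Set.univ (c W)

lemma presc_D4 (l : List Track) (h : l.length ≤ 3) :
    ∃ p q r t, D4 p q r t ∧ p ∉ l ∧ q ∉ l ∧ r ∉ l ∧ t ∉ l := by
  obtain ⟨p, hp⟩ := split_fresh l (by omega)
  obtain ⟨q, hq⟩ := split_fresh (p :: l) (by simp; omega)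
  obtain ⟨r, hr⟩ := split_fresh (p :: q :: l) (by simp; omega)
  obtain ⟨t, ht⟩ := split_fresh (p :: q :: r :: l) (by simp; omega)
  simp only [List.mem_cons, not_or] at hq hr ht
  exact ⟨p, q, r, t, ⟨⟨Ne.symm hq.1, Ne.symm hr.1, Ne.symm hr.2.1⟩, Ne.symm ht.1, Ne.symm ht.2.1,
    Ne.symm ht.2.2.1⟩, hp, hq.2, hr.2.2, ht.2.2.2⟩

lemma presc_D4_0 : D4 (0 : Track) 1 2 3 := by
  refine ⟨⟨?_, ?_, ?_⟩, ?_, ?_, ?_⟩ <;> decide

lemma presc_comm_zz {Γ : Type} [Group Γ] {φ : Track → Track → Track → Γ} {g : Γ} {p q r t : Track}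
    (d : D4 p q r t) (h : ∀ i j k, D3 i j k → i ∈ [p, q, r, t] → j ∈ [p, q, r, t] →
      k ∈ [p, q, r, t] → Commute g (φ i j k)) : Commute g (zz φ p q r t) :=
  ((h q r t ⟨d.1.2.2, d.2.2.1, d.2.2.2⟩ (by simp) (by simp) (by simp)).mul_right
    (h p t r ⟨d.2.1, d.1.2.1, d.2.2.2.symm⟩ (by simp) (by simp) (by simp))).mul_right
    (h p q r d.1 (by simp) (by simp) (by simp)).inv_right

namespace RData0

variable {Γ : Type} [Group Γ] (T : RData0 S Γ)

lemma presc_τ_zero : T.τ 0 = 1 := by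
  have := T.τ_add 0 0 SZ.zero SZ.zero
  rw [add_zero] at this
  exact mul_left_cancel (this.symm.trans (mul_one _).symm)

lemma presc_eq {W : Set (Cfg S)} (hW : Loc W) {p q r t : Track} (d : D4 p q r t) :
    zz (T.c W) 0 1 2 3 = zz (T.c W) p q r t :=
  (T.pre W hW).zz_eq (by simp) presc_D4_0 d

lemma presc_central {W : Set (Cfg S)} (hW : Loc W) : zz (T.c W) 0 1 2 3 ∈ Subgroup.center Γ := by
  rw [Subgroup.mem_center_iff]
  intro g
  have hg : g ∈ (⊤ : Subgroup Γ) := Subgroup.mem_top g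
  rw [← T.gen] at hg
  refine presb_closure_comm (t := {zz (T.c W) 0 1 2 3}) ?_ g hg _ (Subgroup.subset_closure rfl)
  rintro _ (⟨W', i, j, k, hW', d, rfl⟩ | ⟨D, hD, rfl⟩) _ rfl
  · obtain ⟨p, q, r, t, d4, h1, h2, h3, h4⟩ := presc_D4 [i, j, k] (by simp)
    rw [T.presc_eq hW d4]
    refine presc_comm_zz d4 fun a b c d' ha hb hc => T.loc _ _ _ _ _ _ _ _ hW' hW d d' ?_
    have key : ∀ x ∈ [p, q, r, t], x ∉ [i, j, k] := by
      intro x hx
      simp only [List.mem_cons, List.not_mem_nil, or_false] at hx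
      rcases hx with rfl | rfl | rfl | rfl <;> assumption
    rw [Finset.disjoint_right]
    intro x hx hx'
    simp only [Finset.mem_insert, Finset.mem_singleton] at hx hx'
    rcases hx with rfl | rfl | rfl
    exacts [key _ ha (by simpa using hx'), key _ hb (by simpa using hx'),
      key _ hc (by simpa using hx')]
  · refine SZ.induction (p := fun D => Commute (T.τ D) (zz (T.c W) 0 1 2 3)) Set.univ ?_ ?_ ?_ hD
      fun i hi => (hi (Set.mem_univ _)).elim
    · rw [T.presc_τ_zero]; exact Commute.one_left _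
    · intro a _ b _ e _
      obtain ⟨p, q, r, t, d4, h1, h2, h3, h4⟩ := presc_D4 [a, b] (by simp)
      rw [T.presc_eq hW d4]
      have key : ∀ x ∈ [p, q, r, t], (Pi.single a e - Pi.single b e : Track → V) x = 0 := by
        intro x hx
        have : x ∉ [a, b] := by
          simp only [List.mem_cons, List.not_mem_nil, or_false] at hx
          rcases hx with rfl | rfl | rfl | rfl <;> assumption
        simp only [List.mem_cons, List.not_mem_nil, or_false, not_or] at this
        simp [Pi.single_eq_of_ne this.1, Pi.single_eq_of_ne this.2]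
      refine presc_comm_zz d4 fun i j k d' hi hj hk => ?_
      have := T.eqv _ 0 W i j k (SZ.single a b e) hW d' (key _ hi) (key _ hj) (key _ hk)
      rw [tr_zero] at this
      exact mul_inv_eq_iff_eq_mul.1 this
    · intro D D' h1 h2 a b
      rw [T.τ_add _ _ h1 h2]
      exact a.mul_left b

lemma presc_union {W W' : Set (Cfg S)} (hW : Loc W) (hW' : Loc W') (hd : Disjoint W W') :
    zz (T.c (W ∪ W')) 0 1 2 3 = zz (T.c W) 0 1 2 3 * zz (T.c W') 0 1 2 3 := by
  have d1 : D3 (1 : Track) 2 3 := ⟨by decide, by decide, by decide⟩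
  have d2 : D3 (0 : Track) 3 2 := ⟨by decide, by decide, by decide⟩
  have d3 : D3 (0 : Track) 1 2 := ⟨by decide, by decide, by decide⟩
  have c1 := T.orth W W' _ _ _ _ _ _ hW hW' hd d2 d1
  have c2 := T.orth W W' _ _ _ _ _ _ hW hW' hd d3 d1
  have c3 := T.orth W W' _ _ _ _ _ _ hW hW' hd d3 d2
  have c4 := T.orth W W' _ _ _ _ _ _ hW hW' hd d3 d3
  have c5 := ((c2.mul_right c3).mul_right c4.inv_right).inv_left
  simp only [zz]
  rw [T.union _ _ _ _ _ hW hW' hd d1, T.union _ _ _ _ _ hW hW' hd d2,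
    T.union _ _ _ _ _ hW hW' hd d3, mul_assoc _ _ (_ * _ * _), c5.eq]
  calc _ = T.c W 1 2 3 * (T.c W' 1 2 3 * T.c W 0 3 2) * T.c W' 0 3 2 * (T.c W' 0 1 2)⁻¹ *
        (T.c W 0 1 2)⁻¹ := by group
    _ = _ := by rw [← c1.eq]; group

lemma presc_tr {W : Set (Cfg S)} (hW : Loc W) (v : V) :
    zz (T.c (tr v W)) 0 1 2 3 = zz (T.c W) 0 1 2 3 := by
  have d1 : D3 (1 : Track) 2 3 := ⟨by decide, by decide, by decide⟩
  have d2 : D3 (0 : Track) 3 2 := ⟨by decide, by decide, by decide⟩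
  have d3 : D3 (0 : Track) 1 2 := ⟨by decide, by decide, by decide⟩
  obtain ⟨D, h1, h2⟩ := presb_const v 4
  have e : zz (T.c (tr v W)) 0 1 2 3 = T.τ D * zz (T.c W) 0 1 2 3 * (T.τ D)⁻¹ := by
    simp only [zz]
    rw [← T.eqv D v W _ _ _ h1 hW d1 (h2 _ (by decide)) (h2 _ (by decide)) (h2 _ (by decide)),
      ← T.eqv D v W _ _ _ h1 hW d2 (h2 _ (by decide)) (h2 _ (by decide)) (h2 _ (by decide)),
      ← T.eqv D v W _ _ _ h1 hW d3 (h2 _ (by decide)) (h2 _ (by decide)) (h2 _ (by decide))]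
    group
  rw [e, Subgroup.mem_center_iff.1 (T.presc_central hW), mul_inv_cancel_right]

lemma presc_pr {W : Set (Cfg S)} (hW : Loc W) : T.pr (zz (T.c W) 0 1 2 3) = 1 := by
  classical
  have d1 : D3 (1 : Track) 2 3 := ⟨by decide, by decide, by decide⟩
  have d2 : D3 (0 : Track) 3 2 := ⟨by decide, by decide, by decide⟩
  have d3 : D3 (0 : Track) 1 2 := ⟨by decide, by decide, by decide⟩
  rw [zz, map_mul, map_mul, map_inv, T.pr_c _ _ _ _ hW d1, T.pr_c _ _ _ _ hW d2,
    T.pr_c _ _ _ _ hW d3, mul_inv_eq_one, pres_cW_eq d1 hW, pres_cW_eq d2 hW, pres_cW_eq d3 hW,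
    ← map_mul]
  congr 1
  funext x
  simp only [Pi.mul_apply]
  split_ifs
  · exact cyc_prod presc_D4_0
  · exact mul_one _

open scoped IsMulCommutative in
lemma presc_finite (h0 : H0 S) : ((fun W => zz (T.c W) 0 1 2 3) '' {W | Loc W}).Finite := by
  classical
  have := h0 (Subgroup.center Γ)
    (fun W => if h : Loc W then ⟨zz (T.c W) 0 1 2 3, T.presc_central h⟩ else 1)
    (fun W hW => by
      rw [dif_pos hW]
      exact Subtype.ext ((T.pre W hW).zz_sq presc_D4_0))
    (fun W W' hW hW' hd => by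
      rw [dif_pos hW, dif_pos hW', dif_pos (hW.union hW')]
      exact Subtype.ext (T.presc_union hW hW' hd))
    (fun W v hW => by
      rw [dif_pos hW, dif_pos (hW.tr v)]
      exact Subtype.ext (T.presc_tr hW v))
  refine (this.image Subtype.val).subset ?_
  rintro _ ⟨W, hW, rfl⟩
  exact ⟨_, ⟨W, hW, rfl⟩, by simp only [dif_pos (show Loc W from hW)]⟩

end RData0

/-- Plan: `z W = zz (c W) 0 1 2 3` does not depend on the quadruple (`Pre.zz_eq`), so it commutes with
all generators (choose the quadruple away from them: `loc`, `eqv` with `u = 0`, `SZ.induction`); it has order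
`≤ 2`, is additive and translation invariant, so by `H0` (in `Subgroup.center Γ`) it has finitely many
values; `pr (z W) = 1`.  Divide by the normal closure of these values. -/
theorem RData0.quot {Γ : Type} [Group Γ] [Group.IsFinitelyPresented Γ] (T : RData0 S Γ)
    (h0 : H0 S) : ∃ (Γ' : Type) (_ : Group Γ'), Group.IsFinitelyPresented Γ' ∧
      Nonempty (RData S Γ') := by
  let N := Subgroup.normalClosure ((fun W => zz (T.c W) 0 1 2 3) '' {W | Loc W})
  have hN : N ≤ T.pr.ker := Subgroup.normalClosure_le_normal (by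
    rintro _ ⟨W, hW, rfl⟩
    exact T.presc_pr hW)
  let f : Γ →* Γ ⧸ N := QuotientGroup.mk' N
  refine ⟨Γ ⧸ N, inferInstance, Group.IsFinitelyPresented.quotient N ⟨_, T.presc_finite h0, rfl⟩,
    ⟨⟨⟨fun W i j k => f (T.c W i j k), fun D => f (T.τ D), QuotientGroup.lift N T.pr hN,
      fun W hW => (T.pre W hW).map f, fun W W' i j k hW hW' hd d => ?_,
      fun W W' i j k i' j' k' hW hW' hd d d' => (T.orth W W' i j k i' j' k' hW hW' hd d d').map f,
      fun W W' i j k i' j' k' hW hW' d d' hd => (T.loc W W' i j k i' j' k' hW hW' d d' hd).map f,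
      fun D D' h1 h2 => ?_, fun D u W i j k hD hW d hi hj hk => ?_, fun D i j k hD d => ?_,
      fun W i j k hW d => T.pr_c W i j k hW d, fun D hD => T.pr_τ D hD, ?_⟩,
      fun W hW p _ q _ r _ t _ d => ?_⟩⟩⟩
  · rw [T.union W W' i j k hW hW' hd d, map_mul]
  · rw [T.τ_add D D' h1 h2, map_mul]
  · rw [← T.eqv D u W i j k hD hW d hi hj hk, map_mul, map_mul, map_inv]
  · rw [← T.perm D i j k hD d, map_mul, map_mul, map_inv]
  · rw [eq_top_iff]
    intro x _
    obtain ⟨y, rfl⟩ := QuotientGroup.mk'_surjective N x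
    have hy : y ∈ (⊤ : Subgroup Γ) := Subgroup.mem_top y
    rw [← T.gen] at hy
    refine Subgroup.mem_comap.1 ((Subgroup.closure_le _).2 ?_ hy)
    rintro _ (⟨W, i, j, k, hW, d, rfl⟩ | ⟨D, hD, rfl⟩)
    · exact Subgroup.subset_closure (Or.inl ⟨W, i, j, k, hW, d, rfl⟩)
    · exact Subgroup.subset_closure (Or.inr ⟨D, hD, rfl⟩)
  · have : f (zz (T.c W) p q r t) = 1 := by
      rw [← T.presc_eq hW d]
      exact (QuotientGroup.eq_one_iff _).2 (Subgroup.subset_normalClosure ⟨W, hW, rfl⟩)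
    rw [zz, map_mul, map_mul, map_inv, mul_inv_eq_one] at this
    exact this

end Crest.Agent.R189
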