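import Crest.Agent.R189.PresC

/-!
Row 189.  Lifts of elementary three-cycles on three different tracks ("rainbow" triples).
-/

set_option autoImplicit false

namespace Crest.Agent.R189

open Equiv

variable {S : Wang}

/-- points on pairwise different tracks -/
def Rb (F : Set Pt) : Prop := ∀ p ∈ F, ∀ q ∈ F, p.2 = q.2 → p = q

lemma Rb.exists_D {F : Finset Pt} (hF : Rb (F : Set Pt)) (hc : F.card < 30) :
    ∃ D, SZ D ∧ ∀ p ∈ F, D p.2 = p.1 := by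
  classical
  obtain ⟨l, hl⟩ := exists_fresh (F.image Prod.snd) (lt_of_le_of_lt Finset.card_image_le
    (by rw [Fintype.card_fin]; exact hc))
  obtain ⟨D, h1, h2, -⟩ := exists_SZ (F.image Prod.snd)
    (fun i => if h : ∃ p ∈ F, p.2 = i then h.choose.1 else 0) hl
  refine ⟨D, h1, fun p hp => ?_⟩
  have hex : ∃ q ∈ F, q.2 = p.2 := ⟨p, hp, rfl⟩
  rw [h2 _ (Finset.mem_image_of_mem _ hp), dif_pos hex,
    hF _ hex.choose_spec.1 p hp hex.choose_spec.2]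

/-- a list of points on pairwise different tracks -/
lemma rb_of_list {l : List Pt} (h : (l.map Prod.snd).Nodup) : Rb (l.toFinset : Set Pt) := by
  intro p hp q hq e
  simp only [List.coe_toFinset, Set.mem_ofPred_eq] at hp hq
  exact List.inj_on_of_nodup_map h hp hq e

lemma rb_exists_D_list {l : List Pt} (h : (l.map Prod.snd).Nodup) (hc : l.length < 30) :
    ∃ D, SZ D ∧ ∀ p ∈ l, D p.2 = p.1 := by
  obtain ⟨D, h1, h2⟩ := (rb_of_list h).exists_D (lt_of_le_of_lt (List.toFinset_card_le l) hc)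
  exact ⟨D, h1, fun p hp => h2 p (List.mem_toFinset.2 hp)⟩

lemma rb_exists_D3 {p q r : Pt} (h : D3 p.2 q.2 r.2) :
    ∃ D, SZ D ∧ D p.2 = p.1 ∧ D q.2 = q.1 ∧ D r.2 = r.1 := by
  obtain ⟨D, h1, h2⟩ := rb_exists_D_list (l := [p, q, r]) (by simp [h.1, h.2.1, h.2.2]) (by simp)
  exact ⟨D, h1, h2 p (by simp), h2 q (by simp), h2 r (by simp)⟩

lemma Rb.d3 {F : Set Pt} (hF : Rb F) {p q r : Pt} (hp : p ∈ F) (hq : q ∈ F) (hr : r ∈ F)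
    (h : D3 p q r) : D3 p.2 q.2 r.2 :=
  ⟨fun e => h.1 (hF p hp q hq e), fun e => h.2.1 (hF p hp r hr e), fun e => h.2.2 (hF q hq r hr e)⟩

lemma D3.of_snd {p q r : Pt} (h : D3 p.2 q.2 r.2) : D3 p q r :=
  ⟨fun e => h.1 (e ▸ rfl), fun e => h.2.1 (e ▸ rfl), fun e => h.2.2 (e ▸ rfl)⟩

lemma Rb.cyc_snd {F : Set Pt} (hF : Rb F) {p q r i : Pt} (hp : p ∈ F) (hq : q ∈ F) (hr : r ∈ F)
    (hi : i ∈ F) (h : D3 p q r) : (cyc p q r i).2 = cyc p.2 q.2 r.2 i.2 := by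
  have d := hF.d3 hp hq hr h
  by_cases x1 : i = p
  · rw [x1, cyc_apply_fst h, cyc_apply_fst d]
  by_cases x2 : i = q
  · rw [x2, cyc_apply_snd h, cyc_apply_snd d]
  by_cases x3 : i = r
  · rw [x3, cyc_apply_thd h, cyc_apply_thd d]
  rw [cyc_apply_of_ne x1 x2 x3, cyc_apply_of_ne (fun e => x1 (hF i hi p hp e))
    (fun e => x2 (hF i hi q hq e)) (fun e => x3 (hF i hi r hr e))]

lemma rb_cyc_mem {F : Set Pt} {p q r i : Pt} (hp : p ∈ F) (hq : q ∈ F) (hr : r ∈ F)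
    (hi : i ∈ F) : cyc p q r i ∈ F :=
  (perm_mem_iff (fun _ hx => cyc_apply_of_ne (fun h => hx (h ▸ hp)) (fun h => hx (h ▸ hq))
    (fun h => hx (h ▸ hr))) i).2 hi

lemma rb_shP_shP (u v : V) (p : Pt) : shP u (shP v p) = shP (v + u) p := by
  simp only [shP, add_assoc]

lemma rb_shP_zero (p : Pt) : shP 0 p = p := by simp only [shP, add_zero]

namespace RData

variable {Γ : Type} [Group Γ] (T : RData S Γ)

open Classical in
/-- the lift of `cycW p q r W` for a rainbow triple -/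
noncomputable def rb (W : Set (Cfg S)) (p q r : Pt) : Γ :=
  if h : ∃ D, SZ D ∧ D p.2 = p.1 ∧ D q.2 = q.1 ∧ D r.2 = r.1 then
    T.τ h.choose * T.c W p.2 q.2 r.2 * (T.τ h.choose)⁻¹ else 1

lemma τ_zero : T.τ 0 = 1 := by 
  have := T.τ_add 0 0 SZ.zero SZ.zero
  rw [add_zero] at this
  exact left_eq_mul.1 this
lemma c_empty {i j k : Track} (h : D3 i j k) : T.c ∅ i j k = 1 := by 
  have := T.union ∅ ∅ i j k Loc.empty Loc.empty (Set.disjoint_empty _) h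
  rw [Set.union_self] at this
  exact left_eq_mul.1 this
lemma rb_eq {W : Set (Cfg S)} (hW : Loc W) {p q r : Pt} (h : D3 p.2 q.2 r.2) {D : Track → V}
    (hD : SZ D) (hp : D p.2 = p.1) (hq : D q.2 = q.1) (hr : D r.2 = r.1) :
    T.rb W p q r = T.τ D * T.c W p.2 q.2 r.2 * (T.τ D)⁻¹ := by 
  have hex : ∃ D, SZ D ∧ D p.2 = p.1 ∧ D q.2 = q.1 ∧ D r.2 = r.1 := ⟨D, hD, hp, hq, hr⟩
  rw [rb, dif_pos hex]
  obtain ⟨a0, a1, a2, a3⟩ := hex.choose_spec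
  generalize hex.choose = D' at *
  have e : D' = D + (D' + -D) := by abel
  have := T.eqv (D' + -D) 0 W p.2 q.2 r.2 (a0.add hD.neg) hW h (by simp [a1, hp]) (by simp [a2, hq])
    (by simp [a3, hr])
  rw [tr_zero] at this
  rw [e, T.τ_add _ _ hD (a0.add hD.neg)]
  conv_rhs => rw [← this]
  group
lemma rb_aligned {W : Set (Cfg S)} (hW : Loc W) {i j k : Track} (h : D3 i j k) :
    T.rb W (0, i) (0, j) (0, k) = T.c W i j k := by 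
  rw [T.rb_eq hW (D := 0) h SZ.zero rfl rfl rfl, T.τ_zero, one_mul, inv_one, mul_one]
lemma pr_rb {W : Set (Cfg S)} (hW : Loc W) {p q r : Pt} (h : D3 p.2 q.2 r.2) :
    T.pr (T.rb W p q r) = cycW p q r W := by 
  obtain ⟨D, hD, hp, hq, hr⟩ := rb_exists_D3 h
  rw [T.rb_eq hW h hD hp hq hr, map_mul, map_mul, map_inv, T.pr_τ D hD, T.pr_c W _ _ _ hW h]
  refine cycW_conj (p := (0, p.2)) (q := (0, q.2)) (r := (0, r.2)) (adm3_of_tracks (by exact h) hW) _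
    (fun x _ => ?_) (adm3_of_tracks h hW)
  simp only [tau_pt, shP, zero_add, hp, hq, hr, and_self]
lemma rb_preOn {W : Set (Cfg S)} (hW : Loc W) {F : Finset Pt} (hF : Rb (F : Set Pt))
    (hc : F.card < 30) : PreOn (F : Set Pt) (T.rb W) := by 
  obtain ⟨D, hD, h0⟩ := hF.exists_D hc
  have key : ∀ p ∈ (F : Set Pt), ∀ q ∈ (F : Set Pt), ∀ r ∈ (F : Set Pt), D3 p q r →
      T.rb W p q r = T.τ D * T.c W p.2 q.2 r.2 * (T.τ D)⁻¹ := fun p hp q hq r hr d =>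
    T.rb_eq hW (hF.d3 hp hq hr d) hD (h0 p hp) (h0 q hq) (h0 r hr)
  have P := T.pre W hW
  refine ⟨fun p hp q hq r hr d => ?_, fun p hp q hq r hr d => ?_, fun p hp q hq r hr d => ?_,
    fun p hp q hq r hr i hi j hj k hk d d' => ?_⟩
  · rw [key p hp q hq r hr d, key q hq r hr p hp ⟨d.2.2, d.1.symm, d.2.1.symm⟩,
      P.rot _ _ _ (hF.d3 hp hq hr d)]
  · rw [key p hp q hq r hr d, key p hp r hr q hq ⟨d.2.1, d.1, d.2.2.symm⟩,
      P.inv _ _ _ (hF.d3 hp hq hr d)]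
    group
  · rw [key p hp q hq r hr d, conj_pow, P.cube _ _ _ (hF.d3 hp hq hr d), mul_one, mul_inv_cancel]
  · rw [key p hp q hq r hr d, key i hi j hj k hk d',
      key _ (rb_cyc_mem hp hq hr hi) _ (rb_cyc_mem hp hq hr hj) _ (rb_cyc_mem hp hq hr hk)
        (d'.map (cyc p q r).injective), hF.cyc_snd hp hq hr hi d, hF.cyc_snd hp hq hr hj d,
      hF.cyc_snd hp hq hr hk d, ← P.conj _ _ _ _ _ _ (hF.d3 hp hq hr d) (hF.d3 hi hj hk d')]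
    group
lemma rb_prodOn {W : Set (Cfg S)} (hW : Loc W) {F : Finset Pt} (hF : Rb (F : Set Pt))
    (hc : F.card < 30) : ProdOn (F : Set Pt) (T.rb W) := by 
  obtain ⟨D, hD, h0⟩ := hF.exists_D hc
  have key : ∀ p ∈ (F : Set Pt), ∀ q ∈ (F : Set Pt), ∀ r ∈ (F : Set Pt), D3 p q r →
      T.rb W p q r = T.τ D * T.c W p.2 q.2 r.2 * (T.τ D)⁻¹ := fun p hp q hq r hr d =>
    T.rb_eq hW (hF.d3 hp hq hr d) hD (h0 p hp) (h0 q hq) (h0 r hr)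
  intro p hp q hq r hr t ht d
  rw [key p hp q hq r hr d.1, key q hq r hr t ht ⟨d.1.2.2, d.2.2.1, d.2.2.2⟩,
    key p hp t ht r hr ⟨d.2.1, d.1.2.1, d.2.2.2.symm⟩,
    ← T.prod W hW p.2 trivial q.2 trivial r.2 trivial t.2 trivial ⟨hF.d3 hp hq hr d.1,
      fun e => d.2.1 (hF p hp t ht e), fun e => d.2.2.1 (hF q hq t ht e),
      fun e => d.2.2.2 (hF r hr t ht e)⟩]
  group
lemma rb_empty {p q r : Pt} (h : D3 p.2 q.2 r.2) : T.rb ∅ p q r = 1 := by 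
  obtain ⟨D, hD, hp, hq, hr⟩ := rb_exists_D3 h
  rw [T.rb_eq Loc.empty h hD hp hq hr, T.c_empty h, mul_one, mul_inv_cancel]
lemma rb_union {W W' : Set (Cfg S)} (hW : Loc W) (hW' : Loc W') (hd : Disjoint W W') {p q r : Pt}
    (h : D3 p.2 q.2 r.2) : T.rb (W ∪ W') p q r = T.rb W p q r * T.rb W' p q r := by 
  obtain ⟨D, hD, hp, hq, hr⟩ := rb_exists_D3 h
  rw [T.rb_eq hW h hD hp hq hr, T.rb_eq hW' h hD hp hq hr, T.rb_eq (hW.union hW') h hD hp hq hr,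
    T.union W W' _ _ _ hW hW' hd h]
  group
lemma rb_shP (v : V) {W : Set (Cfg S)} (hW : Loc W) {p q r : Pt} (h : D3 p.2 q.2 r.2) :
    T.rb W (shP v p) (shP v q) (shP v r) = T.rb (tr v W) p q r := by 
  obtain ⟨D, hD, hp, hq, hr⟩ := rb_exists_D3 h
  obtain ⟨E, hE, ep, eq, er⟩ := rb_exists_D3 (p := (v, p.2)) (q := (v, q.2)) (r := (v, r.2)) h
  simp only at ep eq er
  rw [T.rb_eq (hW.tr v) h hD hp hq hr, T.rb_eq hW (p := shP v p) (q := shP v q) (r := shP v r) h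
    (hD.add hE) (by simp [shP, hp, ep]) (by simp [shP, hq, eq]) (by simp [shP, hr, er]),
    ← T.eqv E v W _ _ _ hE hW h ep eq er, T.τ_add D E hD hE]
  simp only [shP]
  group
lemma τ_rb {D : Track → V} (hD : SZ D) {W : Set (Cfg S)} (hW : Loc W) {p q r : Pt}
    (h : D3 p.2 q.2 r.2) : T.τ D * T.rb W p q r * (T.τ D)⁻¹ =
      T.rb W (shP (D p.2) p) (shP (D q.2) q) (shP (D r.2) r) := by 
  obtain ⟨E, hE, hp, hq, hr⟩ := rb_exists_D3 h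
  rw [T.rb_eq hW h hE hp hq hr, T.rb_eq hW (p := shP (D p.2) p) (q := shP (D q.2) q)
    (r := shP (D r.2) r) h (hD.add hE) (by simp [shP, hp, add_comm]) (by simp [shP, hq, add_comm])
    (by simp [shP, hr, add_comm]), T.τ_add D E hD hE]
  simp only [shP]
  group

lemma rb_rot {W : Set (Cfg S)} (hW : Loc W) {p q r : Pt} (h : D3 p.2 q.2 r.2) :
    T.rb W p q r = T.rb W q r p := by
  obtain ⟨D, hD, hp, hq, hr⟩ := rb_exists_D3 h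
  rw [T.rb_eq hW h hD hp hq hr, T.rb_eq hW ⟨h.2.2, h.1.symm, h.2.1.symm⟩ hD hq hr hp,
    (T.pre W hW).rot _ _ _ h]

lemma rb_inv {W : Set (Cfg S)} (hW : Loc W) {p q r : Pt} (h : D3 p.2 q.2 r.2) :
    T.rb W p r q = (T.rb W p q r)⁻¹ := by
  obtain ⟨D, hD, hp, hq, hr⟩ := rb_exists_D3 h
  rw [T.rb_eq hW h hD hp hq hr, T.rb_eq hW ⟨h.2.1, h.1, h.2.2.symm⟩ hD hp hr hq,
    (T.pre W hW).inv _ _ _ h]
  group

lemma rb_prod {W : Set (Cfg S)} (hW : Loc W) {p q r t : Pt} (h : D4 p.2 q.2 r.2 t.2) :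
    T.rb W q r t * T.rb W p t r = T.rb W p q r := by
  obtain ⟨⟨h1, h2, h3⟩, h4, h5, h6⟩ := id h
  obtain ⟨D, hD, h0⟩ := rb_exists_D_list (l := [p, q, r, t]) (by simp [*]) (by simp)
  simp only [List.mem_cons, List.not_mem_nil, or_false, forall_eq_or_imp, forall_eq] at h0
  obtain ⟨hp, hq, hr, ht⟩ := h0
  rw [T.rb_eq hW h.1 hD hp hq hr, T.rb_eq hW ⟨h3, h5, h6⟩ hD hq hr ht,
    T.rb_eq hW ⟨h4, h2, h6.symm⟩ hD hp ht hr,
    ← T.prod W hW p.2 trivial q.2 trivial r.2 trivial t.2 trivial h]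
  group

lemma rb_comm_of_D {W W' : Set (Cfg S)} (hW : Loc W) (hW' : Loc W') {p q r p' q' r' : Pt}
    (h : D3 p.2 q.2 r.2) (h' : D3 p'.2 q'.2 r'.2) {D : Track → V} (hD : SZ D)
    (h0 : ∀ t ∈ [p, q, r, p', q', r'], D t.2 = t.1)
    (hc : Commute (T.c W p.2 q.2 r.2) (T.c W' p'.2 q'.2 r'.2)) :
    Commute (T.rb W p q r) (T.rb W' p' q' r') := by
  simp only [List.mem_cons, List.not_mem_nil, or_false, forall_eq_or_imp, forall_eq] at h0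
  obtain ⟨a1, a2, a3, a4, a5, a6⟩ := h0
  rw [T.rb_eq hW h hD a1 a2 a3, T.rb_eq hW' h' hD a4 a5 a6]
  exact hc.conj _

lemma rb_comm_share {W W' : Set (Cfg S)} (hW : Loc W) (hW' : Loc W') {p s u p' q' r' : Pt}
    (h : D3 p.2 s.2 u.2) (h' : D3 p'.2 q'.2 r'.2) (hs : s.2 ≠ q'.2 ∧ s.2 ≠ r'.2)
    (hu : u.2 ≠ q'.2 ∧ u.2 ≠ r'.2) (e : p.2 = p'.2)
    (hd : ∀ x ∈ W, ∀ y ∈ W', pt x p ≠ pt y p') :
    Commute (T.rb W p s u) (T.rb W' p' q' r') := by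
  obtain ⟨v, rfl⟩ : ∃ v, p' = shP v p := ⟨p'.1 - p.1, Prod.ext (by simp [shP]) e.symm⟩
  obtain ⟨q, rfl⟩ : ∃ q, q' = shP v q := ⟨shP (-v) q', by rw [rb_shP_shP, neg_add_cancel, rb_shP_zero]⟩
  obtain ⟨r, rfl⟩ : ∃ r, r' = shP v r := ⟨shP (-v) r', by rw [rb_shP_shP, neg_add_cancel, rb_shP_zero]⟩
  have d : D3 p.2 q.2 r.2 := h'
  rw [T.rb_shP v hW' d]
  obtain ⟨h1, h2, h3⟩ := id h
  obtain ⟨h4, h5, h6⟩ := id d
  have h7 : s.2 ≠ q.2 := hs.1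
  have h8 : s.2 ≠ r.2 := hs.2
  have h9 : u.2 ≠ q.2 := hu.1
  have h10 : u.2 ≠ r.2 := hu.2
  obtain ⟨D, hD, h0⟩ := rb_exists_D_list (l := [p, s, u, q, r])
    (by simp [h1, h2, h3, h4, h5, h6, h7, h8, h9, h10]) (by simp)
  refine T.rb_comm_of_D hW (hW'.tr v) h d hD (fun t ht => h0 t (by
    simp only [List.mem_cons, List.not_mem_nil, or_false] at ht ⊢
    tauto)) (T.orth _ _ _ _ _ _ _ _ hW (hW'.tr v) ?_ h d)
  rw [Set.disjoint_left]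
  intro x hx hx'
  exact hd x hx _ hx' (by rw [← pt_vadd, vadd_neg_vadd])

lemma rb_comm_base {W W' : Set (Cfg S)} (hW : Loc W) (hW' : Loc W') {p s u p' q' r' : Pt}
    (h : D3 p.2 s.2 u.2) (h' : D3 p'.2 q'.2 r'.2) (hs : s.2 ≠ p'.2 ∧ s.2 ≠ q'.2 ∧ s.2 ≠ r'.2)
    (hu : u.2 ≠ p'.2 ∧ u.2 ≠ q'.2 ∧ u.2 ≠ r'.2)
    (hd : ∀ x ∈ W, pt x p ∉ img {p', q', r'} W') :
    Commute (T.rb W p s u) (T.rb W' p' q' r') := by
  by_cases e1 : p.2 = p'.2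
  · exact T.rb_comm_share hW hW' h h' hs.2 hu.2 e1 fun x hx y hy e =>
      hd x hx ⟨y, hy, p', by simp, e⟩
  by_cases e2 : p.2 = q'.2
  · rw [T.rb_rot hW' h']
    exact T.rb_comm_share hW hW' h ⟨h'.2.2, h'.1.symm, h'.2.1.symm⟩ ⟨hs.2.2, hs.1⟩ ⟨hu.2.2, hu.1⟩ e2
      fun x hx y hy e => hd x hx ⟨y, hy, q', by simp, e⟩
  by_cases e3 : p.2 = r'.2
  · rw [← T.rb_rot hW' (p := r') ⟨h'.2.1.symm, h'.2.2.symm, h'.1⟩]
    exact T.rb_comm_share hW hW' h ⟨h'.2.1.symm, h'.2.2.symm, h'.1⟩ ⟨hs.1, hs.2.1⟩ ⟨hu.1, hu.2.1⟩ e3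
      fun x hx y hy e => hd x hx ⟨y, hy, r', by simp, e⟩
  obtain ⟨h1, h2, h3⟩ := id h
  obtain ⟨h4, h5, h6⟩ := id h'
  obtain ⟨s1, s2, s3⟩ := hs
  obtain ⟨u1, u2, u3⟩ := hu
  obtain ⟨D, hD, h0⟩ := rb_exists_D_list (l := [p, s, u, p', q', r']) (by simp [*]) (by simp)
  refine T.rb_comm_of_D hW hW' h h' hD h0 (T.loc _ _ _ _ _ _ _ _ hW hW' h h' ?_)
  rw [Finset.disjoint_left]
  simp [*]

/-- Plan.  With fresh tracks `s, u, w`: `rb p q r` is generated by the `rb p s u`, `rb q s u`, `rb r s u`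
(`s, u` fresh; twice the commutator formula `(p q r) = ⁅(p q s), (p r t)⁆` from `PreOn` and `ProdOn`).
A triple `(p, s, u)` shares at most the track of `p` with `(p', q', r')`: if not, use `loc`; if
`p.2 = p'.2`, shift `W'` (`rb_shP`) so that `p' = p`; then the sets are disjoint and `orth` applies. -/
theorem rb_commute {W W' : Set (Cfg S)} (hW : Loc W) (hW' : Loc W') {p q r p' q' r' : Pt}
    (h : D3 p.2 q.2 r.2) (h' : D3 p'.2 q'.2 r'.2)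
    (hd : Disjoint (img {p, q, r} W) (img {p', q', r'} W')) :
    Commute (T.rb W p q r) (T.rb W' p' q' r') := by 
  obtain ⟨s, hs⟩ := tri_fresh_list [p.2, q.2, r.2, p'.2, q'.2, r'.2] (by simp)
  obtain ⟨u, hu⟩ := tri_fresh_list [p.2, q.2, r.2, p'.2, q'.2, r'.2, s] (by simp)
  simp only [List.mem_cons, List.not_mem_nil, or_false, not_or] at hs hu
  obtain ⟨s1, s2, s3, s4⟩ := hs
  obtain ⟨u1, u2, u3, u4, u5, u6, u7⟩ := hu
  have base : ∀ x ∈ ({p, q, r} : Set Pt), s ≠ x.2 → u ≠ x.2 →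
      Commute (T.rb W x (0, s) (0, u)) (T.rb W' p' q' r') := fun x hx a b =>
    T.rb_comm_base hW hW' ⟨a.symm, b.symm, Ne.symm u7⟩ h' s4 ⟨u4, u5, u6⟩ fun y hy hm =>
      Set.disjoint_left.1 hd ⟨y, hy, x, hx, rfl⟩ hm
  have two : ∀ x ∈ ({p, q, r} : Set Pt), ∀ y ∈ ({p, q, r} : Set Pt), x.2 ≠ y.2 → s ≠ x.2 → u ≠ x.2 →
      s ≠ y.2 → u ≠ y.2 → Commute (T.rb W x y (0, s)) (T.rb W' p' q' r') := by
    intro x hx y hy a b c d e
    rw [← T.rb_prod hW (t := (0, u)) ⟨⟨a, b.symm, d.symm⟩, c.symm, e.symm, Ne.symm u7⟩,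
      T.rb_inv hW (p := x) (q := (0, s)) (r := (0, u)) ⟨b.symm, c.symm, Ne.symm u7⟩]
    exact (base y hy d e).mul_left (base x hx b c).inv_left
  rw [← T.rb_prod hW (t := (0, s)) ⟨h, Ne.symm s1, Ne.symm s2, Ne.symm s3⟩,
    T.rb_inv hW (p := p) (q := r) (r := (0, s)) ⟨h.2.1, Ne.symm s1, Ne.symm s3⟩]
  exact (two q (by simp) r (by simp) h.2.2 s2 u2 s3 u3).mul_left
    (two p (by simp) r (by simp) h.2.1 s1 u1 s3 u3).inv_left

lemma rb_conj_case (hf : Free S) {Z W : Set (Cfg S)} (hZ : Loc Z) (hW : Loc W)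
    {i j k a p p₁ b : Pt} (h : D3 i.2 j.2 k.2) (h1 : D3 a.2 p.2 b.2)
    (ha : a.2 ≠ i.2 ∧ a.2 ≠ j.2 ∧ a.2 ≠ k.2) (hb : b.2 ≠ i.2 ∧ b.2 ≠ j.2 ∧ b.2 ≠ k.2)
    (e : ∀ x ∈ W, cycW i j k Z (pt x p) = pt x p₁) (hne : W.Nonempty)
    (hi : ∀ x ∈ W, pt x p ∈ img {i} Z) :
    T.rb Z i j k * T.rb W a p b * (T.rb Z i j k)⁻¹ = T.rb W a p₁ b := by
  obtain ⟨x₀, hx₀⟩ := hne
  have e0 : p.2 = i.2 := by
    obtain ⟨y, -, t, rfl, e'⟩ := hi x₀ hx₀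
    exact (congrArg Prod.snd e' :)
  obtain ⟨v, rfl⟩ : ∃ v, i = shP v p := ⟨i.1 - p.1, Prod.ext (by simp [shP]) e0.symm⟩
  obtain ⟨j, rfl⟩ : ∃ q, j = shP v q := ⟨shP (-v) j, by rw [rb_shP_shP, neg_add_cancel, rb_shP_zero]⟩
  obtain ⟨k, rfl⟩ : ∃ r, k = shP v r := ⟨shP (-v) k, by rw [rb_shP_shP, neg_add_cancel, rb_shP_zero]⟩
  have d : D3 p.2 j.2 k.2 := h
  have hsub : W ⊆ tr v Z := by
    intro x hx
    obtain ⟨y, hy, t, rfl, e⟩ := hi x hx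
    rw [← pt_vadd] at e
    rw [blk_pt_cancel e]
    exact vadd_mem_tr.2 hy
  rw [cycW_shP v (adm3_of_tracks d (hZ.tr v))] at e
  obtain rfl : j = p₁ := hf.pt_inj x₀
    (((adm3_of_tracks d (hZ.tr v)).apply (hsub hx₀)).1.symm.trans (e x₀ hx₀))
  have hU : tr v Z = (tr v Z \ W) ∪ W := (Set.sdiff_union_of_subset hsub).symm
  have l : Loc (tr v Z \ W) := (hZ.tr v).diff hW
  obtain ⟨h2, h3, h4⟩ := id d
  obtain ⟨h5, h6, h7⟩ := id h1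
  have a2 : a.2 ≠ j.2 := ha.2.1
  have a3 : a.2 ≠ k.2 := ha.2.2
  have b2 : b.2 ≠ j.2 := hb.2.1
  have b3 : b.2 ≠ k.2 := hb.2.2
  have nd : (([a, b, p, j, k] : List Pt).map Prod.snd).Nodup := by
    simp [h2, h3, h4, h5, h6, a2, a3, b2, b3, h7.symm]
  have P := T.rb_preOn hW (rb_of_list nd) (lt_of_le_of_lt (List.toFinset_card_le _) (by simp))
  have c1 := P.conj p (by simp) j (by simp) k (by simp) a (by simp) p (by simp) b (by simp)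
    d.of_snd h1.of_snd
  rw [cyc_apply_fst d.of_snd,
    cyc_apply_of_ne (ne_of_apply_ne Prod.snd h5) (ne_of_apply_ne Prod.snd a2)
      (ne_of_apply_ne Prod.snd a3),
    cyc_apply_of_ne (ne_of_apply_ne Prod.snd h7.symm) (ne_of_apply_ne Prod.snd b2)
      (ne_of_apply_ne Prod.snd b3)] at c1
  obtain ⟨D, hD, h0⟩ := rb_exists_D_list nd (by simp)
  have d2 : D3 a.2 j.2 b.2 := ⟨a2, h6, b2.symm⟩
  have c2 := T.rb_comm_of_D l hW d d2 hD (fun t ht => h0 t (by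
    simp only [List.mem_cons, List.not_mem_nil, or_false] at ht ⊢
    tauto)) (T.orth _ _ _ _ _ _ _ _ l hW Set.disjoint_sdiff_left d d2)
  rw [T.rb_shP v hZ d, hU, T.rb_union l hW Set.disjoint_sdiff_left d, mul_inv_rev, ← mul_assoc,
    mul_assoc _ (T.rb W p j k), mul_assoc _ _ (T.rb W p j k)⁻¹, c1, c2.eq, mul_inv_cancel_right]

/-- Plan: refine `W` according to which of the sets `img {i} Z`, `img {j} Z`, `img {k} Z` contains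
`pt x p`.  If none: `p₁ = p`, `rb_commute`.  If `img {i} Z` (rotate): shift `Z` so that `i = p`; then
`W ⊆ Z`, `p₁ = j`, split `Z = W ∪ (Z \ W)`, `rb_preOn` on `{p, j, k, a, b}`. -/
theorem rb_conj_rb (hf : Free S) {Z W : Set (Cfg S)} (hZ : Loc Z) (hW : Loc W)
    {i j k a p p₁ b : Pt} (h : D3 i.2 j.2 k.2) (h1 : D3 a.2 p.2 b.2) (h2 : D3 a.2 p₁.2 b.2)
    (ha : a.2 ≠ i.2 ∧ a.2 ≠ j.2 ∧ a.2 ≠ k.2) (hb : b.2 ≠ i.2 ∧ b.2 ≠ j.2 ∧ b.2 ≠ k.2)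
    (e : ∀ x ∈ W, cycW i j k Z (pt x p) = pt x p₁) :
    T.rb Z i j k * T.rb W a p b * (T.rb Z i j k)⁻¹ = T.rb W a p₁ b := by 
  have loc : ∀ t : Pt, Loc {x | pt x p ∈ img {t} Z} := fun t =>
    (LocO.img (Set.finite_singleton t) hZ).pt p
  refine Loc.refine (LocF.prod (loc i) (LocF.prod (loc j) (loc k))) hW
    (p := fun W => T.rb Z i j k * T.rb W a p b * (T.rb Z i j k)⁻¹ = T.rb W a p₁ b) ?_ ?_
  · intro W₁ W₂ l1 l2 _ _ hd a1 a2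
    rw [T.rb_union l1 l2 hd h1, T.rb_union l1 l2 hd h2, ← a1, ← a2]
    group
  intro W₁ l1 s1 hc
  rcases W₁.eq_empty_or_nonempty with rfl | ⟨x₀, hx₀⟩
  · rw [T.rb_empty h1, T.rb_empty h2, mul_one, mul_inv_cancel]
  have e' : ∀ x ∈ W₁, cycW i j k Z (pt x p) = pt x p₁ := fun x hx => e x (s1 hx)
  have hc' : ∀ x ∈ W₁, (pt x p ∈ img {i} Z ↔ pt x₀ p ∈ img {i} Z) ∧
      (pt x p ∈ img {j} Z ↔ pt x₀ p ∈ img {j} Z) ∧ (pt x p ∈ img {k} Z ↔ pt x₀ p ∈ img {k} Z) := by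
    intro x hx
    have := hc x hx x₀ hx₀
    simp only [Prod.mk.injEq, Set.mem_ofPred_eq, eq_iff_iff] at this
    exact this
  have A := adm3_of_tracks h hZ
  by_cases c1 : pt x₀ p ∈ img {i} Z
  · exact T.rb_conj_case hf hZ l1 h h1 ha hb e' ⟨x₀, hx₀⟩ fun x hx => (hc' x hx).1.2 c1
  by_cases c2 : pt x₀ p ∈ img {j} Z
  · rw [T.rb_rot hZ h]
    rw [cycW_rot A] at e'
    exact T.rb_conj_case hf hZ l1 ⟨h.2.2, h.1.symm, h.2.1.symm⟩ h1 ⟨ha.2.1, ha.2.2, ha.1⟩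
      ⟨hb.2.1, hb.2.2, hb.1⟩ e' ⟨x₀, hx₀⟩ fun x hx => (hc' x hx).2.1.2 c2
  by_cases c3 : pt x₀ p ∈ img {k} Z
  · rw [← T.rb_rot hZ (p := k) ⟨h.2.1.symm, h.2.2.symm, h.1⟩]
    rw [cycW_rot A, cycW_rot A.rot] at e'
    exact T.rb_conj_case hf hZ l1 ⟨h.2.1.symm, h.2.2.symm, h.1⟩ h1 ⟨ha.2.2, ha.1, ha.2.1⟩
      ⟨hb.2.2, hb.1, hb.2.1⟩ e' ⟨x₀, hx₀⟩ fun x hx => (hc' x hx).2.2.2 c3
  have nm : ∀ x ∈ W₁, pt x p ∉ img {i, j, k} Z := by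
    rintro x hx ⟨y, hy, t, (rfl | rfl | rfl), e₁⟩
    · exact c1 ((hc' x hx).1.1 ⟨y, hy, t, rfl, e₁⟩)
    · exact c2 ((hc' x hx).2.1.1 ⟨y, hy, t, rfl, e₁⟩)
    · exact c3 ((hc' x hx).2.2.1 ⟨y, hy, t, rfl, e₁⟩)
  obtain rfl : p = p₁ := hf.pt_inj x₀ ((cycW_fix A (nm x₀ hx₀)).symm.trans (e' x₀ hx₀))
  refine mul_inv_eq_iff_eq_mul.2 (T.rb_commute hZ l1 h h1 ?_).eq
  rw [Set.disjoint_right]
  rintro _ ⟨x, hx, t, (rfl | rfl | rfl), rfl⟩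
  · rintro ⟨y, -, t', (rfl | rfl | rfl), e₁⟩
    exacts [ha.1 (congrArg Prod.snd e₁ :), ha.2.1 (congrArg Prod.snd e₁ :),
      ha.2.2 (congrArg Prod.snd e₁ :)]
  · exact nm x hx
  · rintro ⟨y, -, t', (rfl | rfl | rfl), e₁⟩
    exacts [hb.1 (congrArg Prod.snd e₁ :), hb.2.1 (congrArg Prod.snd e₁ :),
      hb.2.2 (congrArg Prod.snd e₁ :)]

end RData

end Crest.Agent.R189
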