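import Crest.Agent.R189.Chain
import Crest.Agent.R189.Central
import Crest.Agent.R189.Anchor

/-!
Row 189.  Rigidity of quantum tilings with level-`r` knowledge; the structure theorem.
-/

set_option autoImplicit false

namespace Crest.Agent.R189

open OMP

variable {P : Type} [OMP P]

lemma rigid_step0 {e : P} {m : V → Set Tile → P} (hm : IsModel TileW e m) {r c : ℕ} (hr : 2 ≤ r)
    (hc : r % 2 = (c + 1) % 2) (h : Agr (poss m e) r c 0) :
    ∃ q : Fin (Zn r) → P, IsPart e q ∧ ∀ n, (∀ v U, Compat (q n) (m v U)) ∧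
      Agr (poss m (q n)) (r + 1) c (0, (n : ℤ) * sn r) := by
  have hM : (0 : ℤ) < Mn r := by exact_mod_cast Mn_pos r
  have pv : ∀ v, IsPVM (A := Tile) e (m v) := hm.pvm
  obtain ⟨q, hq, hq'⟩ := chain_atoms hm hr hc h
  refine ⟨q, hq, fun n => ?_⟩
  obtain ⟨h1, h2, h3⟩ := hq' n
  have hA : Agr (poss m (q n)) (r + 1) c (0, (n : ℤ) * sn r) :=
    step_supp (hm.know (hq.2.1 n)).toSupp hr hc (h.sub fun v => poss_mono (hq.2.1 n) v)
      (ex_laneX (by omega : 1 ≤ r) 0 le_rfl hM).1 h1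
  refine ⟨fun v U => ?_, hA⟩
  have hA' := hA.shift (0, -((n : ℤ) * sn r))
  simp only [Prod.mk_add_mk, _root_.add_zero, add_neg_cancel] at hA'
  have := ((hm.know (hq.2.1 n)).shift (0, -((n : ℤ) * sn r))).central hr hc hA' (fun β j => ?_)
    (fun X β hβ => ?_) (v + (0, (n : ℤ) * sn r)) U
  · have e1 : v + (0, (n : ℤ) * sn r) + (0, -((n : ℤ) * sn r)) = v := by
      ext <;> simp
    change Compat (q n) (m (v + (0, (n : ℤ) * sn r) + (0, -((n : ℤ) * sn r))) U) at this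
    rwa [e1] at this
  · obtain ⟨X, a1, a2, U₀, a3⟩ := h2 (β - n) j
    refine ⟨X, a1, a2, fun U => ?_⟩
    have e1 : ((X, β * sn r) : V) + (0, -((n : ℤ) * sn r)) = (X, (β - n) * sn r) := by
      ext
      · simp
      · simp; ring
    change Compat (q n) (m (((X, β * sn r) : V) + (0, -((n : ℤ) * sn r))) U)
    rw [e1, a3]
    exact (pv _).compat _ _
  · obtain ⟨U₀, a3⟩ := h3 X (β - n) (by rwa [sub_add_cancel])
    intro U
    have e1 : ((X, chkY r β) : V) + (0, -((n : ℤ) * sn r)) = (X, chkY r (β - n)) := by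
      ext
      · simp
      · simp [chkY]; ring
    change Compat (q n) (m (((X, chkY r β) : V) + (0, -((n : ℤ) * sn r))) U)
    rw [e1, a3]
    exact (pv _).compat _ _

lemma rigid_step1 {e : P} {m : V → Set Tile → P} (hm : IsModel TileW e m) {r c : ℕ} (hr : 2 ≤ r)
    (hc : r % 2 = (c + 1) % 2) {o : V} (h : Agr (poss m e) r c o) :
    ∃ q : Fin (Zn r) → P, IsPart e q ∧ ∀ n, (∀ v U, Compat (q n) (m v U)) ∧
      ∃ o' : V, (sn (hl r c) : ℤ) ∣ o'.1 - o.1 ∧ (sn (hl r (c + 1)) : ℤ) ∣ o'.2 - o.2 ∧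
        Agr (poss m (q n)) (r + 1) c o' := by
  have h0 := h.shift (-o)
  rw [add_neg_cancel] at h0
  obtain ⟨q, hq, hq'⟩ := rigid_step0 (m := fun v => m (v + -o)) (hm.shift (-o)) hr hc h0
  refine ⟨q, hq, fun n => ⟨fun v U => ?_, (0, (n : ℤ) * sn r) + o, by simp, ?_, ?_⟩⟩
  · have := (hq' n).1 (v + o) U
    simpa using this
  · have : hl r (c + 1) = r := by unfold hl; rw [if_pos hc]
    simp [this]
  · refine ((hq' n).2.shift o).sub fun v t ht => ?_
    show ¬ orth (m (v + o + -o) {t}) (q n)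
    rw [add_neg_cancel_right]
    exact ht

/-- One level.  Plan: shift to offset `0`, transpose if the columns have the parity of `r`; then
`chain_atoms`, `step_supp` for `(hm.know _).toSupp`, `Know.central` for the shifted knowledge system. -/
theorem level_step {e : P} {m : V → Set Tile → P} (hm : IsModel TileW e m) {r c : ℕ} (hr : 2 ≤ r)
    {o : V} (h : Agr (poss m e) r c o) :
    ∃ q : Fin (Zn r) → P, IsPart e q ∧ ∀ n, (∀ v U, Compat (q n) (m v U)) ∧
      ∃ o' : V, (sn (hl r c) : ℤ) ∣ o'.1 - o.1 ∧ (sn (hl r (c + 1)) : ℤ) ∣ o'.2 - o.2 ∧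
        Agr (poss m (q n)) (r + 1) c o' := by
  by_cases hc : r % 2 = (c + 1) % 2
  · exact rigid_step1 hm hr hc h
  have h0 : Agr (poss (fun v U => m (V.swap v) (Tile.tp ⁻¹' U)) e) r (c + 1) (V.swap o) :=
    h.tp.sub fun v => (poss_tp m e v).subset
  obtain ⟨q, hq, hq'⟩ := rigid_step1 hm.tp hr (by omega) h0
  refine ⟨q, hq, fun n => ?_⟩
  obtain ⟨h1, o', h2, h3, h4⟩ := hq' n
  refine ⟨fun v U => h1 (V.swap v) (Tile.tp ⁻¹' U), V.swap o', ?_, h2, ?_⟩
  · rw [hl_congr r (show c % 2 = (c + 1 + 1) % 2 by omega)]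
    exact h3
  · refine (h4.tp.congr (show (c + 1 + 1) % 2 = c % 2 by omega)).sub fun v t ht => ?_
    exact ⟨t.tp, (poss_tp m (q n) (V.swap v)).symm.subset ⟨t, ht, rfl⟩, rfl⟩

/-- at a high level two given sites are read off one anchor site (`exists_special`, `Know.anchor` for
`hm.knowAt`) -/
theorem compat_of_high {e : P} {m : V → Set Tile → P} (hm : IsModel TileW e m) {K c : ℕ}
    (hK : 2 ≤ K) {o : V} (h : Agr (poss m e) K c o) {v w : V} (h1 : |v.1 - w.1| < sn (K - 2))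
    (h2 : |v.2 - w.2| < sn (K - 2)) (U U' : Set Tile) : Compat (m v U) (m w U') := by
  have pv : ∀ v, IsPVM (A := Tile) e (m v) := hm.pvm
  obtain ⟨a1, a2⟩ := abs_lt.1 h1
  obtain ⟨a3, a4⟩ := abs_lt.1 h2
  obtain ⟨x, b1, b2, b3⟩ := exists_special K c hK (x₀ := min v.1 w.1 + o.1)
    (x₁ := max v.1 w.1 + o.1) (by omega) (by omega)
  obtain ⟨y, c1, c2, c3⟩ := exists_special K (c + 1) hK (x₀ := min v.2 w.2 + o.2)
    (x₁ := max v.2 w.2 + o.2) (by omega) (by omega)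
  have key : ∀ X Y : ℤ, min v.1 w.1 ≤ X ∧ X ≤ max v.1 w.1 → min v.2 w.2 ≤ Y ∧ Y ≤ max v.2 w.2 →
      (hm.knowAt (x - o.1, y - o.2)).AllG (X, Y) := fun X Y hX hY =>
    (hm.knowAt (x - o.1, y - o.2)).anchor (X₁ := x - o.1) (Y₁ := y - o.2) h
      ⟨by omega, by omega⟩ ⟨by omega, by omega⟩
      (fun X d1 d2 d3 => b3 _ (by omega) (by omega) (by omega))
      (fun Y d1 d2 d3 => c3 _ (by omega) (by omega) (by omega)) (fun U => ⟨U, rfl⟩) hX hY
  obtain ⟨U₀, e0⟩ := key v.1 v.2 ⟨by omega, by omega⟩ ⟨by omega, by omega⟩ U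
  obtain ⟨U₁, e1⟩ := key w.1 w.2 ⟨by omega, by omega⟩ ⟨by omega, by omega⟩ U'
  rw [show m v U = _ from e0, show m w U' = _ from e1]
  exact (pv _).compat _ _

/-- downward induction on the level, `Compat.glue_part`, `IsModel.res`, `poss_res` -/
theorem compat_of_agr {e : P} {m : V → Set Tile → P} (hm : IsModel TileW e m) {r c : ℕ}
    (hr : 2 ≤ r) {o : V} (h : Agr (poss m e) r c o) (v w : V) (U U' : Set Tile) :
    Compat (m v U) (m w U') := by
  have key : ∀ d r : ℕ, 2 ≤ r → (v.1 - w.1).natAbs + (v.2 - w.2).natAbs + 3 ≤ r + d →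
      ∀ (e : P) (m : V → Set Tile → P), IsModel TileW e m → ∀ o, Agr (poss m e) r c o →
        Compat (m v U) (m w U') := by
    intro d
    induction d with
    | zero =>
      intro r hr hd e m hm o h
      have := le_sn (r - 2)
      refine compat_of_high hm hr h ?_ ?_ U U'
      · rw [Int.abs_eq_natAbs]; omega
      · rw [Int.abs_eq_natAbs]; omega
    | succ d ih =>
      intro r hr hd e m hm o h
      have pv : ∀ v, IsPVM (A := Tile) e (m v) := hm.pvm
      obtain ⟨q, hq, hq'⟩ := level_step hm hr h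
      refine Compat.glue_part hq ((pv v).le_e U) ((pv w).le_e U') (fun n => (hq' n).1 v U)
        (fun n => (hq' n).1 w U') fun n => ?_
      obtain ⟨h1, o', -, -, h2⟩ := hq' n
      exact ih (r + 1) (by omega) (by omega) (q n) (fun v U => inf (q n) (m v U))
        (hm.res (hq.2.1 n) h1) o' (h2.sub fun v => (poss_res hm (hq.2.1 n) h1 v).subset)
  exact key _ r hr (Nat.le_add_left _ _) e m hm o h

/-- level-`r` knowledge for a tiling -/
def AgrX (x : V → Tile) (r : ℕ) (o : V) : Prop := ∀ v, AgreeT r 1 (v.1 + o.1) (v.2 + o.2) (x v)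

/-- structure theorem: `level_step` in `Set Unit` for `m v U = {_ | x v ∈ U}` -/
theorem agrX_succ (x : Cfg TileW) {r : ℕ} (hr : 2 ≤ r) {o : V} (h : AgrX x.1 r o) :
    ∃ o' : V, (sn (hl r 1) : ℤ) ∣ o'.1 - o.1 ∧ (sn (hl r 0) : ℤ) ∣ o'.2 - o.2 ∧
      AgrX x.1 (r + 1) o' := by
  have hm : IsModel TileW (P := Set Unit) Set.univ
      (fun (v : V) (U : Set Tile) => {_u : Unit | x.1 v ∈ U}) := by
    refine ⟨fun v => ⟨rfl, fun U U' hd => ?_, fun U U' _ => rfl⟩, fun v U => ?_, fun v U => ?_⟩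
    · show Disjoint _ _
      rw [Set.disjoint_left]
      exact fun _ a b => Set.disjoint_left.1 hd a b
    · ext u
      show TileW.R (x.1 v) ∈ U ↔ TileW.L (x.1 (v + e1)) ∈ U
      rw [x.2.1 v]
    · ext u
      show TileW.T (x.1 v) ∈ U ↔ TileW.B (x.1 (v + e2)) ∈ U
      rw [x.2.2 v]
  obtain ⟨q, hq, hq'⟩ := level_step hm hr (c := 1) (o := o) (fun v t ht => by
    have : x.1 v = t := by
      by_contra hne
      exact ht (Set.disjoint_left.2 fun _ a _ => hne a)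
    rw [← this]
    exact h v)
  obtain ⟨n, hn⟩ := hq.exists_ne_zero (Set.univ_nonempty.ne_empty)
  obtain ⟨-, o', h1, h2, h3⟩ := hq' n
  refine ⟨o', h1, by rwa [hl_congr r (show (1 + 1) % 2 = 0 % 2 by omega)] at h2,
    fun v => h3 v _ fun hd => ?_⟩
  obtain ⟨u, hu⟩ := Set.nonempty_iff_ne_empty.2 hn
  exact Set.disjoint_left.1 hd (show u ∈ {_u : Unit | x.1 v ∈ ({x.1 v} : Set Tile)} from rfl) hu

lemma rigid_digit {r c : ℕ} (hr : 2 ≤ r) (hc : r % 2 = (c + 1) % 2) {X X' d : ℤ} {t : Tile}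
    (hX : Ex (r - 1) X) (hX' : Ex (r - 1) X')
    (h : Half (r + 1) c X ((Mn r - 1) * sn r) t) (h' : Half (r + 1) c X' ((Mn r - 1 + d) * sn r) t) :
    (sn (r + 2) : ℤ) ∣ sn r * d := by
  have hM : (0 : ℤ) < Mn r := by exact_mod_cast Mn_pos r
  have hs : (0 : ℤ) < sn r := by exact_mod_cast sn_pos r
  have e1 : (sn (r + 2) : ℤ) = Zn r * sn r := by exact_mod_cast sn_add_two r
  have e2 : (Zn r : ℤ) = 3 * Mn r := by exact_mod_cast Zn_eq r
  have e3 : ∀ β : ℤ, idx r (β * sn r) = β % (3 * Mn r) := fun β => by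
    have := idx_mul_add r β 0 le_rfl hs
    rwa [_root_.add_zero, e2] at this
  obtain ⟨-, a1, a2⟩ := (h (r - 1) (by omega) (by omega) hX).2.1.spt (by omega)
  obtain ⟨-, b1, b2⟩ := (h' (r - 1) (by omega) (by omega) hX').2.1.spt (by omega)
  rw [a1] at b1
  rw [a2] at b2
  simp only [line, show r - 1 + 1 = r by omega, e3, chVal_emod hM, decide_eq_decide,
    Int.emod_emod_of_dvd _ (Dvd.intro_left 3 rfl : (Mn r : ℤ) ∣ 3 * Mn r)] at b1 b2
  have e4 : ((Mn r : ℤ) - 1) % Mn r = Mn r - 1 := Int.emod_eq_of_lt (by omega) (by omega)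
  have c1 : ((Mn r : ℤ) - 1) % Mn r = (Mn r - 1 + d) % Mn r := by rw [b2.1 e4, e4]
  obtain ⟨k, hk⟩ := Int.ModEq.dvd c1
  obtain rfl : d = Mn r * k := by linarith
  rw [chVal_add_mul hM] at b1
  have c2 : (k : ZMod 3) = 0 := by simpa using b1
  rw [ZMod.intCast_zmod_eq_zero_iff_dvd] at c2
  obtain ⟨l, rfl⟩ := c2
  exact ⟨l, by rw [e1, e2]; push_cast; ring⟩

/-- uniqueness of the new digit: compare `(p, t)` of a lane in all bands (for both offsets the lanes
and bands are the same; `t` gives the digit modulo `Mn r`, then `p` modulo `Zn r`) -/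
theorem agrX_unique_succ {x : V → Tile} {r : ℕ} (hr : 2 ≤ r) {o o' : V} (h : AgrX x (r + 1) o)
    (h' : AgrX x (r + 1) o') (h1 : (sn (hl r 1) : ℤ) ∣ o'.1 - o.1)
    (h2 : (sn (hl r 0) : ℤ) ∣ o'.2 - o.2) :
    (sn (hl (r + 1) 1) : ℤ) ∣ o'.1 - o.1 ∧ (sn (hl (r + 1) 0) : ℤ) ∣ o'.2 - o.2 := by
  have hM : (0 : ℤ) < Mn r := by exact_mod_cast Mn_pos r
  have hX₀ := (ex_laneX (by omega : 1 ≤ r) 0 le_rfl hM).1
  have hX₁ : ∀ k : ℤ, Ex (r - 1) (laneX r 0 0 + sn (r + 1) * k) := fun k => by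
    rw [mul_comm]
    exact hX₀.add_mul (by omega) (by omega) k
  rcases Nat.mod_two_eq_zero_or_one r with hp | hp
  · have a1 : hl r 1 = r + 1 := by unfold hl; rw [if_neg (by omega)]
    have a2 : hl r 0 = r := by unfold hl; rw [if_pos (by omega)]
    have a3 : hl (r + 1) 1 = r + 1 := by unfold hl; rw [if_pos (by omega)]
    have a4 : hl (r + 1) 0 = r + 2 := by unfold hl; rw [if_neg (by omega)]
    rw [a1] at h1
    rw [a2] at h2
    rw [a3, a4]
    refine ⟨h1, ?_⟩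
    obtain ⟨k, hk⟩ := h1
    obtain ⟨d, hd⟩ := h2
    have b1 := (h (laneX r 0 0 - o.1, (Mn r - 1) * sn r - o.2)).2.1
    have b2 := (h' (laneX r 0 0 - o.1, (Mn r - 1) * sn r - o.2)).2.1
    simp only [sub_add_cancel] at b1
    rw [show laneX r 0 0 - o.1 + o'.1 = laneX r 0 0 + sn (r + 1) * k by linarith,
      show ((Mn r : ℤ) - 1) * sn r - o.2 + o'.2 = (Mn r - 1 + d) * sn r by linarith] at b2
    rw [hd]
    exact rigid_digit hr (by omega) hX₀ (hX₁ k) b1 b2
  · have a1 : hl r 1 = r := by unfold hl; rw [if_pos (by omega)]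
    have a2 : hl r 0 = r + 1 := by unfold hl; rw [if_neg (by omega)]
    have a3 : hl (r + 1) 1 = r + 2 := by unfold hl; rw [if_neg (by omega)]
    have a4 : hl (r + 1) 0 = r + 1 := by unfold hl; rw [if_pos (by omega)]
    rw [a1] at h1
    rw [a2] at h2
    rw [a3, a4]
    refine ⟨?_, h2⟩
    obtain ⟨k, hk⟩ := h2
    obtain ⟨d, hd⟩ := h1
    have b1 := (h ((Mn r - 1) * sn r - o.1, laneX r 0 0 - o.2)).2.2
    have b2 := (h' ((Mn r - 1) * sn r - o.1, laneX r 0 0 - o.2)).2.2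
    simp only [sub_add_cancel] at b1
    rw [show laneX r 0 0 - o.2 + o'.2 = laneX r 0 0 + sn (r + 1) * k by linarith,
      show ((Mn r : ℤ) - 1) * sn r - o.1 + o'.1 = (Mn r - 1 + d) * sn r by linarith] at b2
    rw [hd]
    exact rigid_digit hr (by omega) hX₀ (hX₁ k) b1 b2

end Crest.Agent.R189
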