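import Crest.Agent.R189.RigidT
import Crest.Agent.R189.DetW

/-!
Row 189.  The Wang shift: tiles with a phase at a fixed level, recurrent tiles at high crossings.
Offsets and phases.
-/

set_option autoImplicit false

namespace Crest.Agent.R189

structure Lvl where
  r : ℕ
  h4 : 4 ≤ r
  even : r % 2 = 0
  recur : ∀ X Y : ℤ, X ≠ 0 → Y ≠ 0 → HighAt r X Y → Rec (MT X Y)

lemma nonempty_lvl : Nonempty Lvl := by
  obtain ⟨r, h1, h2, h3⟩ := exists_r0
  exact ⟨⟨r, h1, h2, h3⟩⟩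

instance (a : ℕ) : NeZero (sn a) := ⟨(sn_pos a).ne'⟩

variable (l : Lvl)

abbrev Ph := ZMod (sn (l.r + 1)) × ZMod (sn l.r)

def phOf (v : V) : Ph l := ((v.1 : ZMod (sn (l.r + 1))), (v.2 : ZMod (sn l.r)))

def LetOK (a : Ph l × Tile) : Prop :=
  (∀ v : V, phOf l v = a.1 → AgreeT l.r 1 v.1 v.2 a.2) ∧ (a.1 = 0 → Rec a.2)

def Let : Type := {a : Ph l × Tile // LetOK l a}

instance : Finite (Let l) := inferInstanceAs (Finite {a : Ph l × Tile // LetOK l a})

noncomputable def SW : Wang where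
  A := Let l
  fin := Fintype.ofFinite _
  dec := Classical.decEq _
  CH := Ph l × LS
  CV := Ph l × LS
  L := fun a => (a.1.1, a.1.2.L)
  R := fun a => (a.1.1 + phOf l e1, a.1.2.R)
  B := fun a => (a.1.1, a.1.2.B)
  T := fun a => (a.1.1 + phOf l e2, a.1.2.T)

variable {l}

lemma phOf_add (u v : V) : phOf l (u + v) = phOf l u + phOf l v := by
  simp [phOf]
lemma phOf_surj (φ : Ph l) : ∃ v, phOf l v = φ := by
  obtain ⟨a, ha⟩ := ZMod.intCast_surjective φ.1
  obtain ⟨b, hb⟩ := ZMod.intCast_surjective φ.2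
  exact ⟨(a, b), Prod.ext ha hb⟩
lemma phOf_eq_iff {u v : V} : phOf l u = phOf l v ↔ Cong l.r u v := by
  have h1 : hl l.r 1 = l.r + 1 := by
    have := l.even
    rw [hl, if_neg (by omega)]
  have h2 : hl l.r 0 = l.r := by
    have := l.even
    rw [hl, if_pos (by omega)]
  rw [Cong, h1, h2, Prod.ext_iff]
  exact and_congr (ZMod.intCast_eq_intCast_iff_dvd_sub _ _ _)
    (ZMod.intCast_eq_intCast_iff_dvd_sub _ _ _)

/-- phase and tile of a letter -/
def ph (a : (SW l).A) : Ph l := a.1.1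
def tile (a : (SW l).A) : Tile := a.1.2

lemma let_ext {a b : (SW l).A} (h1 : ph a = ph b) (h2 : tile a = tile b) : a = b :=
  Subtype.ext (Prod.ext h1 h2)

/-- the underlying tiling -/
def tl (x : Cfg (SW l)) : Cfg TileW := ⟨fun v => tile (x.1 v),
  fun v => congrArg Prod.snd (x.2.1 v), fun v => congrArg Prod.snd (x.2.2 v)⟩

lemma tl_vadd (v : V) (x : Cfg (SW l)) : tl (v +ᵥ x) = v +ᵥ tl x := rfl
lemma ph_val (x : Cfg (SW l)) (v : V) : ph (x.1 v) = ph (x.1 0) + phOf l v := by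
  have key : ∀ e : V, (∀ v, ph (x.1 v) + phOf l e = ph (x.1 (v + e))) → ∀ (k : ℤ) (v : V),
      ph (x.1 (v + k • e)) = ph (x.1 v) + phOf l (k • e) := by
    intro e he k v
    induction k using Int.induction_on with
    | zero => simp [phOf]
    | succ k ih => rw [add_smul, one_smul, ← add_assoc, ← he, ih, phOf_add, add_assoc]
    | pred k ih =>
      have e1 : v + (-(k : ℤ)) • e = v + (-(k : ℤ) - 1) • e + e := by
        rw [sub_smul, one_smul]; abel
      have e2 : (-(k : ℤ)) • e = (-(k : ℤ) - 1) • e + e := by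
        rw [sub_smul, one_smul]; abel
      rw [e1, ← he, e2, phOf_add, ← add_assoc] at ih
      exact add_right_cancel ih
  have h1 := key e1 fun v => congrArg Prod.fst (x.2.1 v)
  have h2 := key e2 fun v => congrArg Prod.fst (x.2.2 v)
  have e : v = 0 + v.1 • e1 + v.2 • e2 := by simp [e1, e2]
  conv_lhs => rw [e, h2, h1]
  rw [add_assoc, ← phOf_add]
  congr 2
  simp [e1, e2]

/-- `o` is an offset of `x` at level `K` -/
def Off (x : Cfg (SW l)) (K : ℕ) (o : V) : Prop := phOf l o = ph (x.1 0) ∧ AgrC (tl x).1 K 1 o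

lemma sft_lift {x : Cfg (SW l)} {K K' : ℕ} (hK : l.r ≤ K) (hK' : K ≤ K') {o : V} (h : Off x K o) :
    ∃ o', Cong K o o' ∧ Off x K' o' := by
  induction K', hK' using Nat.le_induction with
  | base => exact ⟨o, Cong.refl K o, h⟩
  | succ K' hK' ih =>
    obtain ⟨o', h1, h2⟩ := ih
    have h4 := l.h4
    obtain ⟨o'', h3, h4, h5⟩ := agrX_succ (tl x) (r := K') (by omega) (o := o') h2.2
    have hc : Cong K' o' o'' := ⟨h3, h4⟩
    exact ⟨o'', h1.trans (hc.mono hK'),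
      (phOf_eq_iff.2 (hc.mono (hK.trans hK'))).symm.trans h2.1, h5⟩

lemma exists_off (x : Cfg (SW l)) {K : ℕ} (hK : l.r ≤ K) : ∃ o, Off x K o := by
  obtain ⟨o, ho⟩ := phOf_surj (ph (x.1 0))
  have h : Off x l.r o := by
    refine ⟨ho, fun v => (x.1 v).2.1 (v + o) ?_⟩
    rw [phOf_add, ho, add_comm]
    exact (ph_val x v).symm
  obtain ⟨o', -, h'⟩ := sft_lift le_rfl hK h
  exact ⟨o', h'⟩
lemma Off.mono {x : Cfg (SW l)} {K K' : ℕ} {o : V} (h : Off x K' o) (hK : K ≤ K') : Off x K o :=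
  ⟨h.1, fun v => (h.2 v).mono hK⟩
lemma Off.cong {x : Cfg (SW l)} {K : ℕ} (hK : l.r ≤ K) {o o' : V} (h : Off x K o)
    (hc : Cong K o o') : Off x K o' := by
  refine ⟨(phOf_eq_iff.2 (hc.mono hK)).symm.trans h.1, fun v => (h.2 v).periodic ?_ ?_⟩
  · rw [add_sub_add_left_eq_sub]; exact hc.1
  · rw [add_sub_add_left_eq_sub, hl_congr K (c := 1 + 1) (c' := 0) rfl]; exact hc.2
lemma Off.unique {x : Cfg (SW l)} {K : ℕ} (hK : l.r ≤ K) {o o' : V} (h : Off x K o)
    (h' : Off x K o') : Cong K o o' := by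
  induction K, hK using Nat.le_induction with
  | base => exact phOf_eq_iff.1 (h.1.trans h'.1.symm)
  | succ K hK ih =>
    have := ih (h.mono (Nat.le_succ K)) (h'.mono (Nat.le_succ K))
    have h4 := l.h4
    exact agrX_unique_succ (by omega) h.2 h'.2 this.1 this.2
lemma Off.vadd {x : Cfg (SW l)} {K : ℕ} {o : V} (h : Off x K o) (v : V) :
    Off (v +ᵥ x) K (o + v) := by
  refine ⟨?_, fun u => ?_⟩
  · rw [vadd_val, zero_add, ph_val, phOf_add, h.1]
  · have := h.2 (u + v)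
    simp only [Prod.fst_add, Prod.snd_add] at this ⊢
    rw [add_comm o.1, add_comm o.2, ← add_assoc, ← add_assoc]
    exact this
/-- an offset at a higher level in the same class -/
lemma Off.lift {x : Cfg (SW l)} {K K' : ℕ} (hK : l.r ≤ K) (hK' : K ≤ K') {o : V} (h : Off x K o) :
    ∃ o', Cong K o o' ∧ Off x K' o' := sft_lift hK hK' h
lemma Off.closed {x : Cfg (SW l)} {K : ℕ} {o : V} (h : ∀ ρ, ∃ y, Off y K o ∧ Agree ρ x y) :
    Off x K o := by
  refine ⟨?_, fun v => ?_⟩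
  · obtain ⟨y, h1, h2⟩ := h 0
    rw [h2 0 ⟨by simp, by simp⟩]
    exact h1.1
  · obtain ⟨k, hk⟩ := exists_InB v
    obtain ⟨y, h1, h2⟩ := h k
    have e : (tl x).1 v = (tl y).1 v := congrArg tile (h2 v hk)
    rw [e]
    exact h1.2 v
lemma Off.val_eq {x y : Cfg (SW l)} {K K' : ℕ} {o o' : V} (hx : Off x K o) (hy : Off y K' o')
    (hc : Cong l.r o o') {v : V} (h : (tl x).1 v = (tl y).1 v) : x.1 v = y.1 v := by
  refine let_ext ?_ h
  rw [ph_val, ph_val y, ← hx.1, ← hy.1, phOf_eq_iff.2 hc]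
lemma Off.rec_of_high {x : Cfg (SW l)} {K : ℕ} (hK : l.r ≤ K) {o z : V} (h : Off x K o)
    (hz : HighAt K (z.1 + o.1) (z.2 + o.2)) : Rec ((tl x).1 z) := by
  refine (x.1 z).2.2 ?_
  change ph (x.1 z) = 0
  have h0 : phOf l 0 = 0 := by simp [phOf]
  rw [ph_val, ← h.1, ← phOf_add, ← h0]
  refine (phOf_eq_iff.2 ?_).symm
  have := hz.mono hK
  refine ⟨?_, ?_⟩
  · simp only [Prod.fst_add, Prod.fst_zero, sub_zero]
    rw [add_comm]; exact this.1
  · simp only [Prod.snd_add, Prod.snd_zero, sub_zero]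
    rw [add_comm]; exact this.2

/-- the phases at level `K` (`locF_of_closed`) -/
theorem exists_phases (l : Lvl) {K : ℕ} (hK : l.r ≤ K) :
    ∃ (φ1 : Phase (SW l) χ1 (sn (hl K 1))) (φ2 : Phase (SW l) χ2 (sn (hl K 0))),
      ∀ x o, Off x K o ↔ (φ1.r x = o.1 % sn (hl K 1) ∧ φ2.r x = o.2 % sn (hl K 0)) := by
  choose off hoff using fun x : Cfg (SW l) => exists_off x hK
  have p1 : (0 : ℤ) < sn (hl K 1) := by exact_mod_cast sn_pos _
  have p2 : (0 : ℤ) < sn (hl K 0) := by exact_mod_cast sn_pos _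
  have hiff : ∀ x o, Off x K o ↔ ((off x).1 % sn (hl K 1) = o.1 % sn (hl K 1) ∧
      (off x).2 % sn (hl K 0) = o.2 % sn (hl K 0)) := by
    intro x o
    constructor
    · intro h
      have := (hoff x).unique hK h
      exact ⟨Int.modEq_iff_dvd.2 this.1, Int.modEq_iff_dvd.2 this.2⟩
    · intro h
      exact (hoff x).cong hK ⟨Int.modEq_iff_dvd.1 h.1, Int.modEq_iff_dvd.1 h.2⟩
  let f : Cfg (SW l) → V := fun x => ((off x).1 % sn (hl K 1), (off x).2 % sn (hl K 0))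
  have hf : LocF f := by
    refine locF_of_closed ?_ fun x b h => ?_
    · refine ((Set.finite_Ico (0 : ℤ) (sn (hl K 1))).prod
        (Set.finite_Ico (0 : ℤ) (sn (hl K 0)))).subset ?_
      rintro _ ⟨x, rfl⟩
      exact ⟨⟨Int.emod_nonneg _ p1.ne', Int.emod_lt_of_pos _ p1⟩,
        ⟨Int.emod_nonneg _ p2.ne', Int.emod_lt_of_pos _ p2⟩⟩
    · have h1 : Off x K b := Off.closed fun ρ => by
        obtain ⟨y, rfl, h2⟩ := h ρ
        exact ⟨y, (hiff y _).2 ⟨(Int.emod_emod _ _).symm, (Int.emod_emod _ _).symm⟩, h2⟩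
      obtain ⟨y, rfl, -⟩ := h 0
      have := (hiff x _).1 h1
      exact Prod.ext (this.1.trans (Int.emod_emod _ _)) (this.2.trans (Int.emod_emod _ _))
  have hd : ∀ a b c n : ℤ, n ∣ a - (b + c) → n ∣ a % n - b % n - c := by
    intro a b c n h
    have e : a % n - b % n - c = (a - (b + c)) - n * (a / n) + n * (b / n) := by
      rw [Int.emod_def, Int.emod_def]; ring
    rw [e]
    exact (h.sub (dvd_mul_right _ _)).add (dvd_mul_right _ _)
  refine ⟨⟨fun x => (f x).1, fun x => Int.emod_nonneg _ p1.ne', fun x => Int.emod_lt_of_pos _ p1,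
    hf.comp Prod.fst, fun v x => ?_⟩, ⟨fun x => (f x).2, fun x => Int.emod_nonneg _ p2.ne',
    fun x => Int.emod_lt_of_pos _ p2, hf.comp Prod.snd, fun v x => ?_⟩, hiff⟩
  · exact hd _ _ _ _ (((hoff x).vadd v).unique hK (hoff _)).1
  · exact hd _ _ _ _ (((hoff x).vadd v).unique hK (hoff _)).2

lemma loc_off {K : ℕ} (hK : l.r ≤ K) (o : V) : Loc {x : Cfg (SW l) | Off x K o} := by
  obtain ⟨φ1, φ2, h⟩ := exists_phases l hK
  have : {x : Cfg (SW l) | Off x K o} =
      {x | φ1.r x = o.1 % sn (hl K 1) ∧ φ2.r x = o.2 % sn (hl K 0)} := Set.ext fun x => h x o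
  rw [this]
  exact LocF.comp (φ1.loc.prod φ2.loc)
    (fun z => z.1 = o.1 % sn (hl K 1) ∧ z.2 = o.2 % sn (hl K 0))

theorem sw_hasPhases (l : Lvl) : HasPhases (SW l) := by
  intro n
  obtain ⟨φ1, φ2, -⟩ := exists_phases l (K := l.r + n) (Nat.le_add_right _ _)
  have h4 := l.h4
  have a1 := hl_ge (l.r + n) 1
  have a2 := hl_ge (l.r + n) 0
  have b1 := le_sn (hl (l.r + n) 1)
  have b2 := le_sn (hl (l.r + n) 0)
  exact ⟨⟨_, by omega, even_sn (by omega), ⟨φ1⟩⟩, ⟨_, by omega, even_sn (by omega), ⟨φ2⟩⟩⟩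

end Crest.Agent.R189
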