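import Crest.Agent.R189.Geo

/-!
Row 189.  From level `r` to level `r + 1` on supports, once the counter is determined.
-/

set_option autoImplicit false

namespace Crest.Agent.R189

/-- the counter in band `β` has the value `β + n` -/
def CtrOK (r : ℕ) (n β : ℤ) (σ : LS) : Prop :=
  σ.p = (((β + n) % Zn r / Mn r : ℤ) : ZMod 3) ∧ (σ.t = true ↔ (β + n) % Mn r = Mn r - 1)

lemma Supp.ss_hor (s : Supp) {X Y : ℤ} {p : LS → Prop} :
    (∀ t ∈ s.K (X + 1, Y), p t.L) ↔ ∀ t ∈ s.K (X, Y), p t.R :=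
  (s.trans.geo_hor X Y p).to_iff

lemma Supp.ss_ver (s : Supp) {X Y : ℤ} {p : LS → Prop} :
    (∀ t ∈ s.K (X, Y + 1), p t.B) ↔ ∀ t ∈ s.K (X, Y), p t.T :=
  (s.trans.geo_ver X Y p).to_iff

lemma Supp.ss_hor' (s : Supp) {X Y : ℤ} {p : LS → Prop} (h : ∀ t ∈ s.K (X - 1, Y), p t.R) :
    ∀ t ∈ s.K (X, Y), p t.L := by
  have := s.ss_hor.2 h
  rwa [sub_add_cancel] at this

lemma Supp.ss_ver' (s : Supp) {X Y : ℤ} {p : LS → Prop} (h : ∀ t ∈ s.K (X, Y - 1), p t.T) :
    ∀ t ∈ s.K (X, Y), p t.B := by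
  have := s.ss_ver.2 h
  rwa [sub_add_cancel] at this

lemma ss_cell {s : ℤ} (hs : 0 < s) (x : ℤ) : x / s * s ≤ x ∧ x < (x / s + 1) * s :=
  ⟨Int.ediv_mul_le x hs.ne', Int.lt_ediv_add_one_mul_self x hs⟩

lemma ss_mod (r : ℕ) (x : ℤ) : x % Zn r % Mn r = x % Mn r :=
  Int.emod_emod_of_dvd _ (by rw [Zn_eq]; push_cast; exact dvd_mul_left _ _)

lemma ss_cmp3 {σ : St3} {u m : ℤ} (h1 : σ = St3.done ↔ u < m) (h2 : σ ≠ St3.wait ↔ u ≤ m) :
    σ = cmp3 u m := by
  unfold cmp3
  split_ifs with a b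
  · exact h1.2 a
  · have := h2.2 b.le
    have := mt h1.1 a
    cases σ <;> simp_all
  · by_contra hn
    have := h2.1 hn
    omega

lemma ss_cmp3_wait {u m : ℤ} : cmp3 u m ≠ St3.wait ↔ u ≤ m := by
  unfold cmp3
  split_ifs with a b
  · simp [a.le]
  · simp [b.le]
  · simp; omega

lemma ss_lane_eq {a : ℕ} {X : ℤ} (hX : Ex a X) :
    ∃ j, X = laneX (a + 1) j (idx a X - Mn a) := by
  obtain ⟨w, rfl⟩ := hX.1
  have hs : (0 : ℤ) < sn a := by exact_mod_cast sn_pos a
  have e1 : (sn (a + 1 + 1) : ℤ) = Zn a * sn a := by exact_mod_cast sn_add_two a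
  have e2 : idx a (sn a * w) = w % Zn a := by
    rw [← idx_mul_add a w 0 le_rfl hs, add_zero, mul_comm]
  refine ⟨w / Zn a, ?_⟩
  rw [laneX, e1, e2, Nat.add_sub_cancel]
  conv_lhs => rw [← Int.mul_ediv_add_emod w (Zn a)]
  ring

/-- the states of the active lanes at the bottom of a band -/
lemma ss_active (s : Supp) {r c : ℕ} (hr : 2 ≤ r) (hc : r % 2 = (c + 1) % 2)
    (h : Agr s.K r c 0) {n : ℤ}
    (hn : ∀ X, Ex (r - 1) X → ∀ β : ℤ, ∀ t ∈ s.K (X, β * sn r), CtrOK r n β t.T) (j : ℤ) :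
    ∀ (k : ℕ) (β : ℤ), (β + n) % Mn r = k → ∀ u : ℤ, 0 ≤ u → u < Mn r →
      ∀ t ∈ s.K (laneX r j u, β * sn r), t.T.st = cmp3 u k := by
  have hM : (0 : ℤ) < Mn r := by exact_mod_cast Mn_pos r
  have hs : (0 : ℤ) < sn r := by exact_mod_cast sn_pos r
  have prev : ∀ (β X : ℤ), Ex (r - 1) X → ∀ A : Set (St3 × ZMod 3 × Bool × St3),
      (∀ t ∈ s.K (X, (β - 1) * sn r), t.T.core ∈ A) → ∀ t ∈ s.K (X, β * sn r), t.B.core ∈ A := by
    intro β X hX A hA
    exact s.ss_ver' (p := fun σ => σ.core ∈ A)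
      ((s.trans.col_band hr hc h hX.1 (β := β - 1) (Y := β * sn r - 1) (by nlinarith)
        (by nlinarith) A).mpr hA)
  have stp : ∀ (β X : ℤ), Ex (r - 1) X → ∀ t ∈ s.K (X, β * sn r),
      (t.T.st = St3.done ↔ (t.B.st ≠ St3.wait ∧ t.B.t = false)) := by
    intro β X hX t ht
    refine Cross.step ((h.geo_at ht).colLow hX (by omega) (by omega) ?_)
    rw [show r - 1 + 1 = r by omega]
    exact dvd_mul_left _ _
  have fin : ∀ (β m : ℤ), 0 ≤ m → (∀ u : ℤ, 0 ≤ u → u < Mn r →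
      ∀ t ∈ s.K (laneX r j u, β * sn r), (t.T.st = St3.done ↔ u < m)) →
      ∀ u : ℤ, 0 ≤ u → u < Mn r → ∀ t ∈ s.K (laneX r j u, β * sn r), t.T.st = cmp3 u m := by
    intro β m hm hD u h0 h1 t ht
    refine ss_cmp3 (hD u h0 h1 t ht) ?_
    rcases h0.eq_or_lt with rfl | hu
    · exact iff_of_true ((s.trans.lane_first hr hc h j β).mpr (fun _ _ => trivial) ht) hm
    · obtain ⟨v, rfl⟩ : ∃ v, u = v + 1 := ⟨u - 1, by ring⟩
      by_cases hv : v < m
      · exact iff_of_true ((s.trans.lane_next hr hc h j β (by omega) h1).mpr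
          (fun t' ht' => (hD v (by omega) (by omega) t' ht').2 hv) ht) (by omega)
      · exact iff_of_false (not_not.2 ((s.trans.lane_next' hr hc h j β (by omega) h1).mpr
          (fun t' ht' => mt (hD v (by omega) (by omega) t' ht').1 hv) ht)) (by omega)
  intro k
  induction k with
  | zero =>
    intro β hβ
    refine fin β _ le_rfl fun u h0 h1 t ht => ?_
    have hX := (ex_laneX (by omega : 1 ≤ r) j h0 h1).1
    have e : (β - 1 + n) % Mn r = Mn r - 1 := by
      obtain ⟨w, hw⟩ := Int.dvd_of_emod_eq_zero hβ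
      rw [show β - 1 + n = Mn r - 1 + Mn r * (w - 1) by linarith, Int.add_mul_emod_self_left]
      exact Int.emod_eq_of_lt (by omega) (by omega)
    have := prev β _ hX {x | x.2.2.1 = true} (fun t ht => (hn _ hX _ t ht).2.2 e) t ht
    rw [stp β _ hX t ht]
    refine iff_of_false (fun h => ?_) (by omega)
    exact absurd (h.2.symm.trans this) (by simp)
  | succ k ih =>
    intro β hβ
    refine fin β _ (by omega) fun u h0 h1 t ht => ?_
    have hX := (ex_laneX (by omega : 1 ≤ r) j h0 h1).1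
    have hlt := Int.emod_lt_of_pos (β + n) hM
    have e : (β - 1 + n) % Mn r = k := by
      have := Int.mul_ediv_add_emod (β + n) (Mn r)
      push_cast at hβ hlt
      rw [show β - 1 + n = k + Mn r * ((β + n) / Mn r) by linarith, Int.add_mul_emod_self_left]
      exact Int.emod_eq_of_lt (by omega) (by omega)
    have h1' := prev β _ hX {x | x.2.2.1 = false} (fun t ht => by
      have := mt (hn _ hX _ t ht).2.1 (by rw [e]; push_cast at hβ; omega)
      simpa [LS.core] using this) t ht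
    have h2' := prev β _ hX {x | x.1 = cmp3 u k} (fun t ht => ih _ e u h0 h1 t ht) t ht
    rw [stp β _ hX t ht, show t.B.st = cmp3 u k from h2', ss_cmp3_wait]
    have : t.B.t = false := h1'
    push_cast
    constructor
    · intro h; omega
    · intro h; exact ⟨by omega, this⟩

/-- States of the lanes.  Plan: use `s.trans`.  All lanes have the same `(p, t)` (`lane_pt`).  Inactive
lanes wait (`dch'` at the check row, `col_band`).  For active lanes induct on `(β + n) % Mn r`: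
`step` at the row `β sn r` determines "done or not" from the previous band (never done after `t`),
`lane_first`, `lane_next`, `lane_next'` determine "wait or not". -/
theorem step_lanes (s : Supp) {r c : ℕ} (hr : 2 ≤ r) (hc : r % 2 = (c + 1) % 2)
    (h : Agr s.K r c 0) {n X₀ : ℤ} (hX₀ : Ex (r - 1) X₀)
    (hn : ∀ β : ℤ, ∀ t ∈ s.K (X₀, β * sn r), CtrOK r n β t.T) {X : ℤ} (hX : Ex (r - 1) X) (Y : ℤ) :
    ∀ t ∈ s.K (X, Y), t.T.st = (line (r - 1) X (Y + n * sn r)).st ∧
      t.T.p = (line (r - 1) X (Y + n * sn r)).p ∧ t.T.t = (line (r - 1) X (Y + n * sn r)).t := by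
  have hM : (0 : ℤ) < Mn r := by exact_mod_cast Mn_pos r
  have hs : (0 : ℤ) < sn r := by exact_mod_cast sn_pos r
  have hn' : ∀ X, Ex (r - 1) X → ∀ β : ℤ, ∀ t ∈ s.K (X, β * sn r), CtrOK r n β t.T := by
    intro X hX β
    let A : Set (ZMod 3 × Bool) := {x | x.1 = (((β + n) % Zn r / Mn r : ℤ) : ZMod 3) ∧
      (x.2 = true ↔ (β + n) % Mn r = Mn r - 1)}
    exact ((s.trans.lane_pt hr hc h hX β 0 A).trans
      (s.trans.lane_pt hr hc h hX₀ β 0 A).symm).mpr (hn β)
  obtain ⟨c1, c2⟩ := ss_cell hs Y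
  generalize Y / sn r = β at c1 c2
  have e : idx r (Y + n * sn r) = (β + n) % Zn r := by
    rw [← idx_mul_add r (β + n) (Y - β * sn r) (by omega) (by linarith)]
    congr 1
    ring
  refine (s.trans.col_band hr hc h hX.1 c1 c2 {x | x.1 = (line (r - 1) X (Y + n * sn r)).st ∧
    x.2.1 = (line (r - 1) X (Y + n * sn r)).p ∧ x.2.2.1 = (line (r - 1) X (Y + n * sn r)).t}).mpr
    fun t ht => ?_
  obtain ⟨a, rfl⟩ : ∃ a, r = a + 1 := ⟨r - 1, by omega⟩
  have hct := hn' X hX β t ht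
  simp only [Set.mem_ofPred_eq, LS.core, line, Nat.add_sub_cancel, e, ss_mod]
  refine ⟨?_, hct.1, ?_⟩
  · split_ifs with hact
    · obtain ⟨j, hj⟩ := ss_lane_eq (a := a) hX
      have h0 := Int.emod_nonneg (β + n) hM.ne'
      have hlt := idx_lt a X
      have e2 : (Zn a : ℤ) = 3 * Mn a := by exact_mod_cast Zn_eq a
      have e3 : (Mn (a + 1) : ℤ) = 2 * Mn a := by exact_mod_cast Mn_succ a
      have := ss_active s hr hc h hn' j ((β + n) % Mn (a + 1)).toNat β
        (Int.toNat_of_nonneg h0).symm (idx a X - Mn a) (by omega) (by omega) t (hj ▸ ht)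
      rwa [Int.toNat_of_nonneg h0] at this
    · refine (s.trans.geo_to_chk hr hc h hX.1 β {x | x.1 = St3.wait}).mpr (fun t ht => ?_) ht
      obtain ⟨b1, b2, b3⟩ := (h.geo_at ht).geo_lane hr hc hX (ex_chkY hr β).1
      refine (Cross.dch' b1 b2 ?_).1
      rw [← Bool.not_eq_true, b3]
      exact hact
  · rw [Bool.eq_iff_iff, hct.2, decide_eq_true_iff]

lemma ss_z3 {M i : ℤ} (hM : 0 < M) (h0 : 0 ≤ i) (h1 : i < 3 * M) :
    (((i / M : ℤ) : ZMod 3) ≠ 0 ↔ M ≤ i) ∧
      (((i / M : ℤ) : ZMod 3) = 2 → i % M = M - 1 → i = 3 * M - 1) := by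
  have a0 : 0 ≤ i / M := Int.ediv_nonneg h0 hM.le
  have a1 : i / M < 3 := Int.ediv_lt_of_lt_mul hM h1
  have a2 := Int.mul_ediv_add_emod i M
  have a3 := Int.emod_nonneg i hM.ne'
  have a4 := Int.emod_lt_of_pos i hM
  generalize i / M = q at *
  have : q = 0 ∨ q = 1 ∨ q = 2 := by omega
  rcases this with rfl | rfl | rfl
  · exact ⟨iff_of_false (by simp) (by omega), fun h => absurd h (by decide)⟩
  · exact ⟨iff_of_true (by decide) (by omega), fun h => absurd h (by decide)⟩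
  · exact ⟨iff_of_true (by decide) (by omega), fun _ h => by omega⟩

/-- Rows of exact rank `r`: `am, ap, bot` from a crossing with a lane (`dact`; `D1` holds as the index
of the row is not `0`), `E` along the row (`dE` at lanes, unchanged at lower columns by
`LineOK.not_d1`); at the high columns `E` goes from `true` to `false`, so the row is lower. -/
theorem step_rows (s : Supp) {r c : ℕ} (hr : 2 ≤ r) (hc : r % 2 = (c + 1) % 2)
    (h : Agr s.K r c 0) {n : ℤ}
    (hl : ∀ X Y, Ex (r - 1) X → ∀ t ∈ s.K (X, Y), t.T.p = (line (r - 1) X (Y + n * sn r)).p ∧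
      t.T.t = (line (r - 1) X (Y + n * sn r)).t)
    {Y : ℤ} (hY : Ex r (Y + n * sn r)) (X : ℤ) :
    ∀ t ∈ s.K (X, Y), LineOK (r + 1) r (Y + n * sn r) X t.R ∧
      ((sn (r + 1) : ℤ) ∣ X → RowLow t) := by 
  obtain ⟨a, rfl⟩ : ∃ a, r = a + 1 := ⟨r - 1, by omega⟩
  simp only [Nat.add_sub_cancel] at hl
  have hac : a % 2 = c % 2 := by omega
  have hM : (0 : ℤ) < Mn (a + 1) := by exact_mod_cast Mn_pos _
  have hMa : (0 : ℤ) < Mn a := by exact_mod_cast Mn_pos _
  have hs : (0 : ℤ) < sn a := by exact_mod_cast sn_pos a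
  have e2 : (Zn (a + 1) : ℤ) = 3 * Mn (a + 1) := by exact_mod_cast Zn_eq _
  have e2' : (Zn a : ℤ) = 3 * Mn a := by exact_mod_cast Zn_eq _
  have hYd : (sn (a + 1) : ℤ) ∣ Y := (dvd_add_left (dvd_mul_left _ _)).1 hY.1
  have hR : ∀ v, ∀ t ∈ s.trans.K v, Rule t := fun v t ht => (h v t ht).1
  have i0 := idx_nonneg (a + 1) (Y + n * sn (a + 1))
  have i1 := idx_lt (a + 1) (Y + n * sn (a + 1))
  have i2 := (ex_iff_idx.1 hY).2
  have i3 := idx_pred_of_ex hY
  -- crossings with lanes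
  have lane : ∀ x, Ex a x → ∀ t ∈ s.K (x, Y), Cross t.B t.T t.L t.R ∧ D1 t.B ∧
      (t.B.p ≠ 0 ↔ (Mn (a + 1) : ℤ) ≤ idx (a + 1) (Y + n * sn (a + 1)) - 1) ∧
      (t.T.p ≠ 0 ↔ (Mn (a + 1) : ℤ) ≤ idx (a + 1) (Y + n * sn (a + 1))) := by
    intro x hx t ht
    have b1 := s.ss_ver' (p := fun σ => σ.p = (line a x (Y - 1 + n * sn (a + 1))).p ∧
      σ.t = (line a x (Y - 1 + n * sn (a + 1))).t) (hl x (Y - 1) hx) t ht
    have b2 := (hl x Y hx t ht).1
    simp only [line, show Y - 1 + n * sn (a + 1) = Y + n * sn (a + 1) - 1 by ring, i3] at b1 b2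
    have z1 := ss_z3 hM (i := idx (a + 1) (Y + n * sn (a + 1)) - 1) (by omega) (by omega)
    have z2 := ss_z3 hM i0 (by omega)
    refine ⟨(h.geo_at ht).colLow hx hac (by omega) hYd, ?_, by rw [b1.1]; exact z1.1,
      by rw [b2]; exact z2.1⟩
    rintro ⟨d1, d2⟩
    rw [b1.2, decide_eq_true_iff] at d2
    have := z1.2 (b1.1 ▸ d1) d2
    omega
  have hX₁ : Ex a (laneX (a + 1) 0 0) := (ex_laneX (by omega : 1 ≤ a + 1) 0 le_rfl hM).1
  have cst : ∀ t ∈ s.K (X, Y), t.L.am = (line (a + 1) (Y + n * sn (a + 1)) X).am ∧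
      t.L.ap = (line (a + 1) (Y + n * sn (a + 1)) X).ap ∧ t.L.bot = false := by
    refine (s.trans.row_cst hR X (laneX (a + 1) 0 0) Y
      {x | x.2.2.1 = (line (a + 1) (Y + n * sn (a + 1)) X).am ∧
        x.2.2.2.1 = (line (a + 1) (Y + n * sn (a + 1)) X).ap ∧ x.2.2.2.2 = false}).mpr
      fun t ht => ?_
    obtain ⟨b1, b2, b3, b4⟩ := lane _ hX₁ t ht
    simp only [Set.mem_ofPred_eq, LS.cst, line]
    refine ⟨?_, ?_, b1.hbot0⟩
    · rw [Bool.eq_iff_iff, (b1.dact b2).1, b3, decide_eq_true_iff]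
    · rw [Bool.eq_iff_iff, (b1.dact b2).2, b4, decide_eq_true_iff]
  -- the field `E`
  have hE : ∀ x, ∀ t ∈ s.K (x, Y), t.R.E = decide ((Mn a : ℤ) ≤ idx a x) := by
    intro x
    obtain ⟨c1, c2⟩ := ss_cell hs x
    generalize x / sn a = w at c1 c2
    let f : ℤ → Prop := fun x => ∀ t ∈ s.K (x, Y), t.R.E = decide ((Mn a : ℤ) ≤ idx a x)
    have stp : ∀ x, w * sn a ≤ x → x < (w + 1) * sn a - 1 → f (x + 1) = f x := by
      intro x h1 h2
      have nd : ¬ (sn a : ℤ) ∣ x + 1 := geo_not_dvd (β := w) (by omega) (by omega)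
      have e := idx_pred_of_not_dvd nd
      rw [add_sub_cancel_right] at e
      simp only [f]
      rw [← e]
      refine propext (Iff.trans (forall₂_congr fun t ht => ?_)
        (s.ss_hor (p := fun σ => σ.E = decide ((Mn a : ℤ) ≤ idx a x))))
      rcases high_or_ex a c (x + 1) with h4 | ⟨b, h4, h5, h6⟩
      · have : R189.hl a c = a := by unfold R189.hl; rw [if_pos hac]
        rw [this] at h4
        exact (nd h4).elim
      obtain ⟨l, -, d⟩ := (h.geo_at ht).2.1 b h4 (by omega) h6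
      rw [Cross.nE (d (geo_sn_dvd (by omega) (by omega) hYd))
        (l.not_d1 (by omega) (geo_sn_dvd (by omega) (by omega) hYd))]
    show f x
    by_cases hw : (sn (a + 2) : ℤ) ∣ w * sn a
    · have hx : Ex a ((w + 1) * sn a) := by
        refine ⟨dvd_mul_left _ _, fun hd => ?_⟩
        have := dvd_sub hd hw
        rw [show (w + 1) * sn a - w * sn a = sn a by ring] at this
        have := Int.le_of_dvd hs this
        have e1 : (sn (a + 2) : ℤ) = Zn a * sn a := by exact_mod_cast sn_add_two a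
        nlinarith
      rw [← geo_chain (f := f) (a := x) (b := (w + 1) * sn a - 1) (by omega)
        fun y h1 h2 => stp y (by omega) h2]
      refine (s.ss_hor (p := fun σ => σ.E = decide ((Mn a : ℤ) ≤ idx a ((w + 1) * sn a - 1)))).1 ?_
      rw [sub_add_cancel, idx_pred_of_ex hx]
      intro t ht
      obtain ⟨b1, b2, -⟩ := lane _ hx t ht
      rw [(b1.dE b2).1, ((h.geo_at ht).2.1 a hac (by omega) hx).1.am]
      rfl
    · have hx : Ex a (w * sn a) := ⟨dvd_mul_left _ _, hw⟩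
      rw [geo_chain (f := f) c1 fun y h1 h2 => stp y h1 (by omega)]
      intro t ht
      obtain ⟨b1, b2, -⟩ := lane _ hx t ht
      rw [(b1.dE b2).2, ((h.geo_at ht).2.1 a hac (by omega) hx).1.ap]
      rfl
  intro t ht
  obtain ⟨k1, k2, k3⟩ := cst t ht
  have k4 := (hR _ t ht).cst.1
  simp only [LS.cst, Prod.mk.injEq] at k4
  refine ⟨⟨k4.2.2.1.trans k1, k4.2.2.2.1.trans k2, ?_, ?_, by omega, by omega⟩, fun hd => ?_⟩
  · rw [hE X t ht]
    simp [line]
  · rw [k4.2.2.2.2, k3]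
    simp [line]
  · obtain ⟨j1, j2⟩ := idx_pred_of_high (a := a) hd
    refine (hR _ t ht).rowLow_of_E ?_ ?_
    · rw [s.ss_hor' (p := fun σ => σ.E = decide ((Mn a : ℤ) ≤ idx a (X - 1))) (hE _) t ht, j1,
        decide_eq_true_iff]
      omega
    · rw [hE X t ht, j2, decide_eq_false_iff_not]
      omega

/-- Rows of exact rank `r - 2`: `cp, ct` from a lane, `ch` forward along the row from the high column
(`nch`), through the lanes (`dch`, `dch'`). -/
theorem step_checks (s : Supp) {r c : ℕ} (hr : 2 ≤ r) (hc : r % 2 = (c + 1) % 2)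
    (h : Agr s.K r c 0) {n : ℤ}
    (hl : ∀ X Y, Ex (r - 1) X → ∀ t ∈ s.K (X, Y), t.T.st = (line (r - 1) X (Y + n * sn r)).st ∧
      t.T.p = (line (r - 1) X (Y + n * sn r)).p ∧ t.T.t = (line (r - 1) X (Y + n * sn r)).t)
    {Y : ℤ} (hY : Ex (r - 2) Y) (X : ℤ) :
    ∀ t ∈ s.K (X, Y), t.R.cp = (line (r - 2) (Y + n * sn r) X).cp ∧
      t.R.ct = (line (r - 2) (Y + n * sn r) X).ct ∧ t.R.ch = (line (r - 2) (Y + n * sn r) X).ch := by
  obtain ⟨b, rfl⟩ : ∃ b, r = b + 2 := ⟨r - 2, by omega⟩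
  have hl' : ∀ X Y, Ex (b + 1) X → ∀ t ∈ s.K (X, Y),
      t.T.st = (line (b + 1) X (Y + n * sn (b + 2))).st ∧
      t.T.p = (line (b + 1) X (Y + n * sn (b + 2))).p ∧
      t.T.t = (line (b + 1) X (Y + n * sn (b + 2))).t := hl
  have hM : (0 : ℤ) < Mn (b + 2) := by exact_mod_cast Mn_pos _
  have hM' : (0 : ℤ) < Mn (b + 1) := by exact_mod_cast Mn_pos _
  have hs : (0 : ℤ) < sn (b + 3) := by exact_mod_cast sn_pos _
  have hR : ∀ v, ∀ t ∈ s.trans.K v, Rule t := fun v t ht => (h v t ht).1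
  have hX₁ : Ex (b + 2 - 1) (laneX (b + 2) 0 0) := (ex_laneX (by omega) 0 le_rfl hM).1
  simp only [Nat.add_sub_cancel]
  have cst : ∀ t ∈ s.K (X, Y), t.L.cp = (line b (Y + n * sn (b + 2)) X).cp ∧
      t.L.ct = (line b (Y + n * sn (b + 2)) X).ct := by
    refine (s.trans.row_cst hR X (laneX (b + 2) 0 0) Y
      {x | x.1 = (line b (Y + n * sn (b + 2)) X).cp ∧
        x.2.1 = (line b (Y + n * sn (b + 2)) X).ct}).mpr fun t ht => ?_
    obtain ⟨b1, b2, -⟩ := (h.geo_at ht).geo_lane hr hc hX₁ hY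
    obtain ⟨-, d1, d2⟩ := hl' _ Y hX₁ t ht
    exact ⟨(Cross.dc b1 b2).1.trans ((Cross.hpp b1).symm.trans d1),
      (Cross.dc b1 b2).2.trans ((Cross.htt b1).symm.trans d2)⟩
  have hch : ∀ t ∈ s.K (X, Y), t.R.ch = (line b (Y + n * sn (b + 2)) X).ch := by
    clear cst
    obtain ⟨c1, c2⟩ := ss_cell hs X
    generalize X / sn (b + 3) = j at c1 c2
    induction X, c1 using Int.leInduction with
    | base =>
      intro t ht
      obtain ⟨b1, b2⟩ := (h.geo_at ht).geo_high hr hc (dvd_mul_left _ _) hY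
      rw [(Cross.nch b1 b2).2]
      simp only [line]
      rw [(idx_pred_of_high (a := b + 1) (dvd_mul_left _ _)).2, if_neg (by omega)]
    | succ x hx ih =>
      intro t ht
      have pv := (s.ss_hor (p := fun σ => σ.ch = (line b (Y + n * sn (b + 2)) x).ch)).2
        (ih (by omega)) t ht
      by_cases hd : (sn (b + 1) : ℤ) ∣ x + 1
      · have hx : Ex (b + 1) (x + 1) := ⟨hd, geo_not_dvd (β := j) (Int.lt_add_one_of_le hx) c2⟩
        have e := idx_pred_of_ex hx
        rw [add_sub_cancel_right] at e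
        by_cases hact : (Mn (b + 1) : ℤ) ≤ idx (b + 1) (x + 1)
        · obtain ⟨b1, b2, b3⟩ := (h.geo_at ht).geo_lane hr hc hx hY
          rw [(Cross.dch b1 b2 (b3.2 hact)).2, ← Cross.hst b1, (hl' _ Y hx t ht).1]
          simp only [line, if_pos hact]
        · rw [(h.geo_at ht).geo_passive hr hc hY (Or.inr ⟨hx, not_le.1 hact⟩), pv]
          simp only [line]
          rw [if_neg hact, if_neg (by omega)]
      · have e := idx_pred_of_not_dvd hd
        rw [add_sub_cancel_right] at e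
        rw [(h.geo_at ht).geo_passive hr hc hY (Or.inl hd), pv]
        simp only [line, e]
  intro t ht
  have k4 := (hR _ t ht).cst.1
  simp only [LS.cst, Prod.mk.injEq] at k4
  exact ⟨k4.1.trans (cst t ht).1, k4.2.1.trans (cst t ht).2, hch t ht⟩

/-- assembly (facts about `T`/`R` at the previous site give the facts about `B`/`L`) -/
theorem step_supp (s : Supp) {r c : ℕ} (hr : 2 ≤ r) (hc : r % 2 = (c + 1) % 2)
    (h : Agr s.K r c 0) {n X₀ : ℤ} (hX₀ : Ex (r - 1) X₀)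
    (hn : ∀ β : ℤ, ∀ t ∈ s.K (X₀, β * sn r), CtrOK r n β t.T) :
    Agr s.K (r + 1) c (0, n * sn r) := by 
  have hl := fun X Y (hX : Ex (r - 1) X) => step_lanes s hr hc h hX₀ hn hX Y
  rintro ⟨X, Y⟩ t ht
  simp only [add_zero]
  have old : AgreeT r c X (Y + n * sn r) t := (h.geo_at ht).periodic (by simp) (by
    have : R189.hl r (c + 1) = r := by unfold R189.hl; rw [if_pos hc]
    rw [this, add_sub_cancel_left]
    exact dvd_mul_left _ _)
  refine ⟨old.1, fun a h1 h2 h3 => ?_, fun b h1 h2 h3 => ?_⟩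
  · obtain ⟨l1, l2, l3⟩ := old.2.1 a h1 (by omega) h3
    refine ⟨⟨l1.am, l1.ap, l1.E, l1.bot, fun h4 => ?_, fun h4 => l1.cch (by omega)⟩,
      ⟨l2.am, l2.ap, l2.E, l2.bot, fun h4 => ?_, fun h4 => l2.cch (by omega)⟩, l3⟩
    · by_cases e : a = r - 1
      · subst e
        have := s.ss_ver' (p := fun σ => σ.st = (line (r - 1) X (Y - 1 + n * sn r)).st ∧
          σ.p = (line (r - 1) X (Y - 1 + n * sn r)).p ∧
          σ.t = (line (r - 1) X (Y - 1 + n * sn r)).t) (hl X (Y - 1) h3) t ht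
        rwa [show Y - 1 + n * sn r = Y + n * sn r - 1 by ring] at this
      · exact l1.spt (by omega)
    · by_cases e : a = r - 1
      · subst e
        exact hl X Y h3 t ht
      · exact l2.spt (by omega)
  · by_cases e : b = r
    · subst e
      have hrow := fun X => step_rows s hr hc h (fun X Y hX t ht => (hl X Y hX t ht).2) h3 X
      exact ⟨s.ss_hor' (p := fun σ => LineOK (b + 1) b (Y + n * sn b) (X - 1) σ)
        (fun t ht => (hrow _ t ht).1) t ht, (hrow X t ht).1, (hrow X t ht).2⟩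
    obtain ⟨l1, l2, l3⟩ := old.2.2 b h1 (by omega) h3
    have chk : b = r - 2 → ∀ X, ∀ t ∈ s.K (X, Y), t.R.cp = (line b (Y + n * sn r) X).cp ∧
        t.R.ct = (line b (Y + n * sn r) X).ct ∧ t.R.ch = (line b (Y + n * sn r) X).ch := by
      rintro rfl X
      refine step_checks s hr hc h hl ?_ X
      have := h3.add_mul (b := r) (by omega) (by omega) (-n)
      rwa [show Y + n * sn r + -n * sn r = Y by ring] at this
    refine ⟨⟨l1.am, l1.ap, l1.E, l1.bot, fun h4 => l1.spt (by omega), fun h4 => ?_⟩,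
      ⟨l2.am, l2.ap, l2.E, l2.bot, fun h4 => l2.spt (by omega), fun h4 => ?_⟩, l3⟩
    · by_cases e' : b = r - 2
      · exact s.ss_hor' (p := fun σ => σ.cp = (line b (Y + n * sn r) (X - 1)).cp ∧
          σ.ct = (line b (Y + n * sn r) (X - 1)).ct ∧
          σ.ch = (line b (Y + n * sn r) (X - 1)).ch) (chk e' (X - 1)) t ht
      · exact l1.cch (by omega)
    · by_cases e' : b = r - 2
      · exact chk e' X t ht
      · exact l2.cch (by omega)

end Crest.Agent.R189
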