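import Crest.Agent.R189.Cone
import Crest.Agent.R189.Patch
import Crest.Agent.R189.TriPres

/-!
Row 189.  Patch lemma, patch lifting and strip lemma for gate systems.
-/

set_option autoImplicit false

namespace Crest.Agent.R189

open Equiv

variable {S : Wang}

lemma strip_closure_swaps_rel {α : Type} [DecidableEq α] (F : Finset α) {r : α → α → Prop}
    (hr : Equivalence r) (π : Perm α) (hfix : ∀ x, x ∉ F → π x = x) (hπ : ∀ x, r x (π x)) :
    π ∈ Subgroup.closure {σ : Perm α | ∃ p ∈ F, ∃ q ∈ F, p ≠ q ∧ r p q ∧ σ = swap p q} := by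
  have key : ∀ G : Finset α, G ⊆ F → ∀ π : Perm α, (∀ x, x ∉ G → π x = x) → (∀ x, r x (π x)) →
      π ∈ Subgroup.closure {σ : Perm α | ∃ p ∈ F, ∃ q ∈ F, p ≠ q ∧ r p q ∧ σ = swap p q} := by
    intro G
    induction G using Finset.induction_on with
    | empty =>
      intro _ π h _
      have : π = 1 := Equiv.ext fun x => h x (Finset.notMem_empty x)
      rw [this]; exact Subgroup.one_mem _
    | insert a G ha ih =>
      intro hG π h hπ
      have hG' : G ⊆ F := (Finset.subset_insert a G).trans hG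
      by_cases e : π a = a
      · refine ih hG' π (fun x hx => ?_) hπ
        by_cases hxa : x = a
        · rw [hxa, e]
        · exact h x (by simp [hxa, hx])
      · have hb : π a ∈ insert a G := by
          by_contra hn
          exact e (π.injective (h _ hn))
        have h1 : swap a (π a) * π ∈ Subgroup.closure
            {σ : Perm α | ∃ p ∈ F, ∃ q ∈ F, p ≠ q ∧ r p q ∧ σ = swap p q} := by
          refine ih hG' _ (fun x hx => ?_) (fun x => ?_)
          · by_cases hxa : x = a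
            · rw [hxa, Perm.mul_apply, swap_apply_right]
            · have hx' : x ∉ insert a G := by simp [hxa, hx]
              rw [Perm.mul_apply, h x hx', swap_apply_of_ne_of_ne hxa]
              rintro rfl
              exact hx' hb
          · refine hr.trans (hπ x) ?_
            rw [Perm.mul_apply, swap_apply_def]
            split_ifs with h1 h2
            · rw [h1]; exact hπ a
            · rw [h2]; exact hr.symm (hπ a)
            · exact hr.refl _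
        have h2 : swap a (π a) ∈ Subgroup.closure
            {σ : Perm α | ∃ p ∈ F, ∃ q ∈ F, p ≠ q ∧ r p q ∧ σ = swap p q} :=
          Subgroup.subset_closure ⟨a, hG (Finset.mem_insert_self _ _), π a, hG hb, Ne.symm e,
            hπ a, rfl⟩
        have := Subgroup.mul_mem _ h2 h1
        rwa [← mul_assoc, swap_mul_self, one_mul] at this
  exact key F subset_rfl π hfix hπ

/-- a permutation with finite support is a product of transpositions inside its cycles -/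
lemma mem_closure_swaps_cycle {α : Type} [DecidableEq α] (F : Finset α) (π : Perm α)
    (hfix : ∀ x, x ∉ F → π x = x) :
    π ∈ Subgroup.closure {σ : Perm α | ∃ p ∈ F, ∃ q ∈ F, p ≠ q ∧ π.SameCycle p q ∧ σ = swap p q} := by
  refine strip_closure_swaps_rel F (r := π.SameCycle) ⟨Perm.SameCycle.refl π,
    Perm.SameCycle.symm, Perm.SameCycle.trans⟩ π hfix fun x => ⟨1, by simp⟩

lemma strip_mem_of_fix {α : Type} {F : Set α} {π : Perm α} (h : ∀ p, p ∉ F → π p = p) (p : α) :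
    π p ∈ F ↔ p ∈ F := by
  constructor
  · intro hp
    by_contra hn
    rw [h p hn] at hp
    exact hn hp
  · intro hp
    by_contra hn
    exact hn ((π.injective (h _ hn)).symm ▸ hp)

lemma Adm.stp_adm2 {F : Set Pt} {W Z : Set (Cfg S)} (ha : Adm F W) {p q : Pt} (hp : p ∈ F) (hq : q ∈ F)
    (hpq : p ≠ q) (hZ : Loc Z) (hZW : Z ⊆ W) : Adm2 p q Z :=
  ⟨hpq, hZ, ha.mono (by
    intro r hr
    rcases hr with rfl | rfl
    · exact hp
    · exact hq) hZW⟩

lemma Adm.stp_not_mem_img {F F' : Set Pt} {W Z : Set (Cfg S)} (ha : Adm F W) (hF : F' ⊆ F)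
    (hZW : Z ⊆ W) {x : Cfg S} (hx : x ∈ W) (hxZ : x ∉ Z) {p : Pt} (hp : p ∈ F) :
    pt x p ∉ img F' Z := by
  rintro ⟨y, hy, q, hq, e⟩
  exact hxZ ((ha x hx y (hZW hy) p hp q (hF hq) e).1 ▸ hy)

/-- the box of a patch -/
noncomputable def stpBox (a b : ℕ) : Finset Pt := (Finset.Ico (0 : ℤ) a ×ˢ Finset.Ico (0 : ℤ) b) ×ˢ Finset.univ

lemma mem_stpBox {a b : ℕ} {p : Pt} :
    p ∈ stpBox a b ↔ (0 ≤ p.1.1 ∧ p.1.1 < a) ∧ (0 ≤ p.1.2 ∧ p.1.2 < b) := by
  simp [stpBox]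

/-- the base points of the patches -/
def stpBase {a b : ℕ} (φ1 : Phase S χ1 a) (φ2 : Phase S χ2 b) (c d : ℤ) : Set (Cfg S) :=
  {x | φ1.pos c x = 0 ∧ φ2.pos d x = 0}

lemma stpBase_loc {a b : ℕ} (φ1 : Phase S χ1 a) (φ2 : Phase S χ2 b) (c d : ℤ) :
    Loc (stpBase φ1 φ2 c d) :=
  LocF.comp ((φ1.pos_locF c).prod (φ2.pos_locF d)) (fun z => z.1 = 0 ∧ z.2 = 0)

lemma stpBase_pos {a b : ℕ} {φ1 : Phase S χ1 a} {φ2 : Phase S χ2 b} {c d : ℤ} {x : Cfg S}
    (hx : x ∈ stpBase φ1 φ2 c d) {p : Pt} (hp : p ∈ stpBox a b) :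
    φ1.pos c (p.1 +ᵥ x) = p.1.1 ∧ φ2.pos d (p.1 +ᵥ x) = p.1.2 := by
  rw [mem_stpBox] at hp
  rw [φ1.pos_vadd, φ2.pos_vadd, hx.1, hx.2, zero_add, zero_add, χ1_apply, χ2_apply]
  exact ⟨Int.emod_eq_of_lt hp.1.1 hp.1.2, Int.emod_eq_of_lt hp.2.1 hp.2.2⟩

lemma stpBase_adm {a b : ℕ} (φ1 : Phase S χ1 a) (φ2 : Phase S χ2 b) (c d : ℤ) :
    Adm (stpBox a b : Set Pt) (stpBase φ1 φ2 c d) := by
  intro x hx y hy p hp q hq e
  have e1 : p.1 +ᵥ x = q.1 +ᵥ y := congrArg Prod.fst e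
  have e2 : p.2 = q.2 := (Prod.ext_iff.1 e).2
  have h1 := stpBase_pos hx hp
  have h2 := stpBase_pos hy hq
  rw [e1] at h1
  have e3 : p.1 = q.1 := Prod.ext (h1.1.symm.trans h2.1) (h1.2.symm.trans h2.2)
  rw [e3] at e1
  exact ⟨vadd_left_cancel _ e1, Prod.ext e3 e2⟩

lemma stpBase_neg {a b : ℕ} (φ1 : Phase S χ1 a) (φ2 : Phase S χ2 b) (c d : ℤ) (x : Cfg S) :
    (-(φ1.pos c x, φ2.pos d x) : V) +ᵥ x ∈ stpBase φ1 φ2 c d := by
  constructor
  · rw [φ1.pos_vadd]; simp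
  · rw [φ2.pos_vadd]; simp

lemma stpBase_cover {a b : ℕ} (φ1 : Phase S χ1 a) (φ2 : Phase S χ2 b) (c d : ℤ) (ω : Om S) :
    ω ∈ img (stpBox a b : Set Pt) (stpBase φ1 φ2 c d) := by
  refine ⟨_, stpBase_neg φ1 φ2 c d ω.1, ((φ1.pos c ω.1, φ2.pos d ω.1), ω.2), ?_, ?_⟩
  · rw [Finset.mem_coe, mem_stpBox]
    exact ⟨⟨φ1.pos_nonneg _ _, φ1.pos_lt _ _⟩, ⟨φ2.pos_nonneg _ _, φ2.pos_lt _ _⟩⟩
  · simp only [pt, vadd_neg_vadd]

/-- the position difference of two related points -/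
lemma ArcR.stp_pos_eq (hf : Free S) {χ : V →+ ℤ} {a : ℕ} {φ : Phase S χ a} {c n : ℤ} {x : Cfg S}
    {p q : Pt} (h : ArcR φ c n (pt x p) (pt x q)) :
    φ.pos c (q.1 +ᵥ x) = φ.pos c (p.1 +ᵥ x) + χ q.1 - χ p.1 := by
  obtain ⟨-, -, v, h1, h2⟩ := h
  simp only [pt] at h1 h2
  have h3 : (v + p.1 - q.1) +ᵥ x = x := by
    rw [sub_eq_neg_add, add_vadd, add_vadd, ← h1, neg_vadd_vadd]
  have h4 : v = q.1 - p.1 := by
    have := hf _ _ h3
    rw [eq_sub_iff_add_eq]; exact sub_eq_zero.1 this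
  rw [h2, h4, map_sub]; ring

lemma stpBox_of_arc (hf : Free S) {a b : ℕ} {φ1 : Phase S χ1 a} {φ2 : Phase S χ2 b} {c n d m : ℤ}
    {x : Cfg S} (hx : x ∈ stpBase φ1 φ2 c d) {p q : Pt} (hp : p ∈ stpBox a b)
    (h1 : ArcR φ1 c n (pt x p) (pt x q)) (h2 : ArcR φ2 d m (pt x p) (pt x q)) : q ∈ stpBox a b := by
  have e1 := h1.stp_pos_eq hf
  have e2 := h2.stp_pos_eq hf
  rw [(stpBase_pos hx hp).1] at e1
  rw [(stpBase_pos hx hp).2] at e2
  simp only [χ1_apply, χ2_apply] at e1 e2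
  have a1 := φ1.pos_nonneg c (q.1 +ᵥ x)
  have a2 := φ1.pos_lt c (q.1 +ᵥ x)
  have a3 := φ2.pos_nonneg d (q.1 +ᵥ x)
  have a4 := φ2.pos_lt d (q.1 +ᵥ x)
  rw [mem_stpBox]
  refine ⟨⟨?_, ?_⟩, ⟨?_, ?_⟩⟩ <;> linarith

lemma IsBlk.stp_inv_const {g : Perm (Om S)} {F : Set Pt} {W : Set (Cfg S)} {σ : Perm Pt}
    (h : IsBlk g F W (fun _ => σ)) (hσ : ∀ p, p ∉ F → σ p = p) :
    IsBlk g⁻¹ F W (fun _ => σ⁻¹) := by
  refine ⟨fun x hx p hp => ?_, fun ω hω => ?_⟩
  · have hq : σ⁻¹ p ∈ F := by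
      rw [← strip_mem_of_fix hσ]; simpa using hp
    have := h.1 x hx _ hq
    rw [Perm.inv_eq_iff_eq, this]; simp
  · rw [Perm.inv_eq_iff_eq, h.2 ω hω]

namespace GateSys

variable {Γ : Type} [Group Γ] (G : GateSys S Γ)

/-- Plan: `patch_inj` with `ι = {(p, q) ∈ F × F | p ≠ q}`, `t = swap p q`, `hinj` from `sym_inj`
(`SPreOn` from `conj`, `swW_isBlk`); on the closure `pr γ` is the block permutation of `f`. -/
theorem block_inj {F : Finset Pt} {W : Set (Cfg S)} (hf : Free S) (hW : Loc W)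
    (ha : Adm (F : Set Pt) W) {γ : Γ}
    (hγ : γ ∈ Subgroup.closure
      {δ | ∃ p ∈ F, ∃ q ∈ F, ∃ Z, p ≠ q ∧ Loc Z ∧ Z ⊆ W ∧ δ = G.s p q Z})
    (h1 : G.pr γ = 1) : γ = 1 := by
  classical
  let ι := {pq : Pt × Pt // pq.1 ∈ F ∧ pq.2 ∈ F ∧ pq.1 ≠ pq.2}
  let t : ι → Perm Pt := fun i => swap i.1.1 i.1.2
  let g : ι → Set (Cfg S) → Γ := fun i Z => G.s i.1.1 i.1.2 Z
  have key : ∀ γ ∈ Subgroup.closure
      {δ | ∃ p ∈ F, ∃ q ∈ F, ∃ Z, p ≠ q ∧ Loc Z ∧ Z ⊆ W ∧ δ = G.s p q Z},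
      ∃ f : Cfg S → Perm Pt, (γ, f) ∈ Subgroup.closure {y : Γ × (Cfg S → Perm Pt) | ∃ i Z, Loc Z ∧
        Z ⊆ W ∧ y = (g i Z, fun x => if x ∈ Z then t i else 1)} ∧
        (∀ x p, p ∉ (F : Set Pt) → f x p = p) ∧
        ∀ x ∈ W, ∀ p ∈ (F : Set Pt), G.pr γ (pt x p) = pt x (f x p) := by
    intro γ hγ
    induction hγ using Subgroup.closure_induction with
    | mem δ hδ =>
      obtain ⟨p, hp, q, hq, Z, hpq, hZ, hZW, rfl⟩ := hδ
      refine ⟨fun x => if x ∈ Z then swap p q else 1,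
        Subgroup.subset_closure ⟨⟨(p, q), hp, hq, hpq⟩, Z, hZ, hZW, rfl⟩, ?_, ?_⟩
      · intro x r hr
        by_cases hx : x ∈ Z
        · simp only [if_pos hx]
          exact swap_apply_of_ne_of_ne (fun e => hr (e ▸ hp)) (fun e => hr (e ▸ hq))
        · simp only [if_neg hx, Perm.one_apply]
      · intro x hx r hr
        have hb := swW_isBlk (ha.mono subset_rfl hZW) (p := p) (q := q) hp hq
        rw [G.pr_s _ _ _ (ha.stp_adm2 hp hq hpq hZ hZW)]
        by_cases hxZ : x ∈ Z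
        · simp only [if_pos hxZ]
          exact hb.1 x hxZ r hr
        · simp only [if_neg hxZ, Perm.one_apply]
          exact hb.2 _ (ha.stp_not_mem_img subset_rfl hZW hx hxZ hr)
    | one => exact ⟨1, Subgroup.one_mem _, fun _ _ _ => rfl, fun x _ p _ => by simp⟩
    | mul δ δ' _ _ h1 h2 =>
      obtain ⟨f, a1, a2, a3⟩ := h1
      obtain ⟨f', b1, b2, b3⟩ := h2
      refine ⟨f * f', Subgroup.mul_mem _ a1 b1, fun x p hp => ?_, fun x hx p hp => ?_⟩
      · rw [Pi.mul_apply, Perm.mul_apply, b2 x p hp, a2 x p hp]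
      · rw [map_mul, Perm.mul_apply, b3 x hx p hp, Pi.mul_apply, Perm.mul_apply,
          a3 x hx _ ((strip_mem_of_fix (b2 x) p).2 hp)]
    | inv δ _ h1 =>
      obtain ⟨f, a1, a2, a3⟩ := h1
      refine ⟨f⁻¹, Subgroup.inv_mem _ a1, fun x p hp => ?_, fun x hx p hp => ?_⟩
      · rw [Pi.inv_apply, Perm.inv_eq_iff_eq, a2 x p hp]
      · have hq : (f x)⁻¹ p ∈ (F : Set Pt) := by
          rw [← strip_mem_of_fix (a2 x)]; simpa using hp
        rw [map_inv, Perm.inv_eq_iff_eq, Pi.inv_apply, a3 x hx _ hq]; simp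
  obtain ⟨f, a1, a2, a3⟩ := key γ hγ
  refine patch_inj hW t g ?_ ?_ ?_ a1 ?_
  · intro Z hZ hZW δ hδ
    refine sym_inj F (ψ := fun p q => G.s p q Z) (π := 1) ⟨?_, ?_, ?_⟩ ?_ rfl
    · intro p hp q hq hpq
      exact G.symm _ _ _ (ha.stp_adm2 hp hq hpq hZ hZW)
    · intro p hp q hq hpq
      exact G.sq _ _ _ (ha.stp_adm2 hp hq hpq hZ hZW)
    · intro p hp q hq i hi j hj hpq hij
      have hsw : ∀ r, r ∉ (F : Set Pt) → swap p q r = r := fun r hr =>
        swap_apply_of_ne_of_ne (fun e => hr (e ▸ hp)) (fun e => hr (e ▸ hq))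
      have hb := swW_isBlk (ha.mono subset_rfl hZW) (p := p) (q := q) hp hq
      exact G.conj _ _ _ _ _ _ _ _ (ha.stp_adm2 hp hq hpq hZ hZW) (ha.stp_adm2 hi hj hij hZ hZW)
        (ha.stp_adm2 ((strip_mem_of_fix hsw i).2 hi) ((strip_mem_of_fix hsw j).2 hj)
          ((swap p q).injective.ne hij) hZ hZW)
        (fun x hx => ⟨hb.1 x hx i hi, hb.1 x hx j hj⟩)
    · refine Subgroup.closure_mono ?_ hδ
      rintro _ ⟨i, rfl⟩
      exact ⟨i.1.1, i.2.1, i.1.2, i.2.2.1, i.2.2.2, rfl⟩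
  · intro i Z Z' hZ hZ' h1 h2 hd
    exact G.union _ _ _ _ (ha.stp_adm2 i.2.1 i.2.2.1 i.2.2.2 (hZ.union hZ') (Set.union_subset h1 h2))
      hZ hZ' hd
  · intro i j Z Z' hZ hZ' h1 h2 hd
    have hb := swW_isBlk (ha.mono subset_rfl h1) (p := i.1.1) (q := i.1.2) i.2.1 i.2.2.1
    have := G.conj _ _ _ _ _ _ _ _ (ha.stp_adm2 i.2.1 i.2.2.1 i.2.2.2 hZ h1)
      (ha.stp_adm2 j.2.1 j.2.2.1 j.2.2.2 hZ' h2) (ha.stp_adm2 j.2.1 j.2.2.1 j.2.2.2 hZ' h2)
      (fun x hx => ⟨hb.2 _ (ha.stp_not_mem_img subset_rfl h1 (h2 hx)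
          (fun hz => Set.disjoint_left.1 hd hz hx) j.2.1),
        hb.2 _ (ha.stp_not_mem_img subset_rfl h1 (h2 hx)
          (fun hz => Set.disjoint_left.1 hd hz hx) j.2.2.1)⟩)
    exact mul_inv_eq_iff_eq_mul.1 this
  · intro x hx
    ext1 p
    by_cases hp : p ∈ (F : Set Pt)
    · have := a3 x hx p hp
      rw [h1, Perm.one_apply] at this
      exact (hf.pt_inj x this).symm
    · exact a2 x p hp

/-- Plan: `F = [0,a) × [0,b) × Track`, `W = {pos c = 0, pos d = 0}` (`adm_of_phases`); a gate inside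
patches is a product of gates `s p' q' Z`, `p', q' ∈ F`, `Z ⊆ W` (refine along the two positions of
`pt x p`, then `shift`). -/
theorem patch_inj' (hf : Free S) {a b : ℕ} (φ1 : Phase S χ1 a) (φ2 : Phase S χ2 b) (c n d m : ℤ) :
    G.Inj (fun ω ω' => ArcR φ1 c n ω ω' ∧ ArcR φ2 d m ω ω') := by
  intro γ hγ h1
  refine G.block_inj hf (stpBase_loc φ1 φ2 c d) (stpBase_adm φ1 φ2 c d) ?_ h1
  refine (Subgroup.closure_le _).2 ?_ hγ
  rintro _ ⟨p, q, U, hU, hR, rfl⟩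
  have hloc : LocF (fun x : Cfg S => (φ1.pos c (p.1 +ᵥ x), φ2.pos d (p.1 +ᵥ x))) :=
    ((φ1.pos_locF c).vadd p.1).prod ((φ2.pos_locF d).vadd p.1)
  refine Loc.refine hloc hU.2.1 (p := fun Z => G.s p q Z ∈ Subgroup.closure
    {δ | ∃ p ∈ stpBox a b, ∃ q ∈ stpBox a b, ∃ Z, p ≠ q ∧ Loc Z ∧ Z ⊆ stpBase φ1 φ2 c d ∧
      δ = G.s p q Z}) ?_ ?_
  · intro Z Z' hZ hZ' h1 h2 hd e1 e2
    rw [G.union _ _ _ _ (hU.mono (hZ.union hZ') (Set.union_subset h1 h2)) hZ hZ' hd]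
    exact Subgroup.mul_mem _ e1 e2
  · intro Z hZ hZU hconst
    rcases Z.eq_empty_or_nonempty with rfl | ⟨x₀, hx₀⟩
    · rw [G.s_empty hU.1]; exact Subgroup.one_mem _
    · let u : V := (φ1.pos c (p.1 +ᵥ x₀), φ2.pos d (p.1 +ᵥ x₀))
      let v : V := u - p.1
      have e : tr v (tr (-v) Z) = Z := by rw [tr_tr, add_neg_cancel, tr_zero]
      have hsub : tr (-v) Z ⊆ stpBase φ1 φ2 c d := by
        intro y hy
        rw [mem_tr, neg_neg] at hy
        have h1 := stpBase_neg φ1 φ2 c d (p.1 +ᵥ v +ᵥ y)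
        have h2 : (φ1.pos c (p.1 +ᵥ v +ᵥ y), φ2.pos d (p.1 +ᵥ v +ᵥ y)) = u :=
          hconst _ hy _ hx₀
        rw [h2, ← add_vadd, ← add_vadd] at h1
        have h3 : -u + p.1 + v = 0 := by simp only [v]; abel
        rwa [h3, zero_vadd] at h1
      have hp : shP v p ∈ stpBox a b := by
        have : (shP v p).1 = u := by simp only [shP, v]; abel
        rw [mem_stpBox, this]
        exact ⟨⟨φ1.pos_nonneg _ _, φ1.pos_lt _ _⟩, ⟨φ2.pos_nonneg _ _, φ2.pos_lt _ _⟩⟩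
      have hy₀ : (-v) +ᵥ x₀ ∈ tr (-v) Z := vadd_mem_tr.2 hx₀
      have hq : shP v q ∈ stpBox a b := by
        have h1 := hR x₀ (hZU hx₀)
        have h2 : ∀ r, pt x₀ r = pt ((-v) +ᵥ x₀) (shP v r) := fun r => by
          rw [← pt_vadd, vadd_neg_vadd]
        rw [h2 p, h2 q] at h1
        exact stpBox_of_arc hf (hsub hy₀) hp h1.1 h1.2
      have hA : Adm2 p q (tr v (tr (-v) Z)) := by rw [e]; exact hU.mono hZ hZU
      have := G.shift v p q (tr (-v) Z) hA
      rw [e] at this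
      rw [← this]
      exact Subgroup.subset_closure ⟨_, hp, _, hq, _, ((adm2_shP v).2 hA).1, hZ.tr _, hsub, rfl⟩

/-- Plan: with `F, W` as above `g` is a block permutation on `F` over `W`; refine `W` so that
`actP g x` is constant on `F`; use `mem_closure_swaps_cycle`. -/
theorem patch_lift (hf : Free S) {a b : ℕ} (φ1 : Phase S χ1 a) (φ2 : Phase S χ2 b) {c n d m : ℤ}
    {R : Om S → Om S → Prop} (hR : PER R)
    (hle : ∀ ω ω', R ω ω' → ArcR φ1 c n ω ω' ∧ ArcR φ2 d m ω ω') {g : Perm (Om S)}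
    (hg : g ∈ LocP S) (ha : Along R g) : ∃ γ ∈ G.sub R, G.pr γ = g := by
  classical
  have hadm := stpBase_adm φ1 φ2 c d
  have hbox : ∀ g ∈ LocP S, Along R g → ∀ x ∈ stpBase φ1 φ2 c d, ∀ p ∈ stpBox a b,
      actP g x p ∈ stpBox a b := by
    intro g hg ha x hx p hp
    rcases ha (pt x p) with e | e
    · rw [actP_eq hf hg e]; exact hp
    · rw [actP_spec hf hg] at e
      exact stpBox_of_arc hf hx hp (hle _ _ e).1 (hle _ _ e).2
  have hloc : LocF (fun (x : Cfg S) (p : stpBox a b) => actP g x p) :=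
    LocF.pi fun p => actP_locF hf hg p
  have main : ∃ γ ∈ G.sub R, IsBlk (G.pr γ) (stpBox a b) (stpBase φ1 φ2 c d) (fun x => actP g x) := by
    refine Loc.refine hloc (stpBase_loc φ1 φ2 c d)
      (p := fun Z => ∃ γ ∈ G.sub R, IsBlk (G.pr γ) (stpBox a b) Z (fun x => actP g x)) ?_ ?_
    · rintro Z Z' hZ hZ' h1 h2 hd ⟨γ, a1, a2⟩ ⟨γ', b1, b2⟩
      refine ⟨γ * γ', Subgroup.mul_mem _ a1 b1, fun x hx p hp => ?_, fun ω hω => ?_⟩
      · rw [map_mul, Perm.mul_apply]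
        rcases hx with hx | hx
        · rw [b2.2 _ (hadm.stp_not_mem_img subset_rfl h2 (h1 hx)
            (fun hz => Set.disjoint_left.1 hd hx hz) hp), a2.1 x hx p hp]
        · rw [b2.1 x hx p hp, a2.2 _ (hadm.stp_not_mem_img subset_rfl h1 (h2 hx)
            (fun hz => Set.disjoint_left.1 hd hz hx) (hbox g hg ha x (h2 hx) p hp))]
      · rw [map_mul, Perm.mul_apply, b2.2, a2.2]
        · rintro ⟨x, hx, p, hp, e⟩
          exact hω ⟨x, Or.inl hx, p, hp, e⟩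
        · rintro ⟨x, hx, p, hp, e⟩
          exact hω ⟨x, Or.inr hx, p, hp, e⟩
    · intro Z hZ hZW hconst
      rcases Z.eq_empty_or_nonempty with rfl | ⟨x₀, hx₀⟩
      · exact ⟨1, Subgroup.one_mem _, fun x hx => hx.elim, fun ω _ => by simp⟩
      · have hiff : ∀ p, actP g x₀ p ∈ stpBox a b ↔ p ∈ stpBox a b := by
          intro p
          refine ⟨fun hp => ?_, hbox g hg ha x₀ (hZW hx₀) p⟩
          have := hbox g⁻¹ (Subgroup.inv_mem _ hg) (ha.inv hR) x₀ (hZW hx₀) _ hp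
          rw [actP_inv hf hg] at this
          simpa using this
        let π : Perm Pt := Perm.ofSubtype ((actP g x₀).subtypePerm (p := fun p => p ∈ stpBox a b) hiff)
        have hπ1 : ∀ p, p ∉ stpBox a b → π p = p := fun p hp => Perm.ofSubtype_apply_of_not_mem _ hp
        have hπ2 : ∀ x ∈ Z, ∀ p ∈ stpBox a b, π p = actP g x p := by
          intro x hx p hp
          have := congrFun (hconst x hx x₀ hx₀) ⟨p, hp⟩
          simp only at this
          rw [this]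
          exact Perm.ofSubtype_apply_of_mem _ hp
        let r : Pt → Pt → Prop := fun p q => ∀ x ∈ Z, pt x p = pt x q ∨ R (pt x p) (pt x q)
        have hr : Equivalence r := by
          refine ⟨fun p x _ => Or.inl rfl, fun h x hx => ?_, fun h h' x hx => ?_⟩
          · rcases h x hx with e | e
            · exact Or.inl e.symm
            · exact Or.inr (hR.symm _ _ e)
          · rcases h x hx with e | e
            · rw [e]; exact h' x hx
            · rcases h' x hx with e' | e'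
              · rw [← e']; exact Or.inr e
              · exact Or.inr (hR.trans _ _ _ e e')
        have hrπ : ∀ p, r p (π p) := by
          intro p x hx
          by_cases hp : p ∈ stpBox a b
          · rw [hπ2 x hx p hp, ← actP_spec hf hg]
            rcases ha (pt x p) with e | e
            · exact Or.inl e.symm
            · exact Or.inr e
          · rw [hπ1 p hp]; exact Or.inl rfl
        have hmem := strip_closure_swaps_rel (stpBox a b) hr π hπ1 hrπ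
        have key : ∀ σ ∈ Subgroup.closure {σ : Perm Pt | ∃ p ∈ stpBox a b, ∃ q ∈ stpBox a b, p ≠ q ∧
            r p q ∧ σ = swap p q}, (∀ p, p ∉ (stpBox a b : Set Pt) → σ p = p) ∧
            ∃ γ ∈ G.sub R, IsBlk (G.pr γ) (stpBox a b) Z (fun _ => σ) := by
          intro σ hσ
          induction hσ using Subgroup.closure_induction with
          | mem σ hσ =>
            obtain ⟨p, hp, q, hq, hpq, hr, rfl⟩ := hσ
            have h2 : Adm2 p q Z := hadm.stp_adm2 hp hq hpq hZ hZW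
            refine ⟨fun r hr => swap_apply_of_ne_of_ne (fun e => hr (e ▸ hp)) (fun e => hr (e ▸ hq)),
              G.s p q Z, G.s_mem h2 fun x hx => ?_, ?_⟩
            · rcases hr x hx with e | e
              · exact (hpq (hf.pt_inj x e)).elim
              · exact e
            · rw [G.pr_s _ _ _ h2]
              exact swW_isBlk (hadm.mono subset_rfl hZW) hp hq
          | one =>
            exact ⟨fun _ _ => rfl, 1, Subgroup.one_mem _, fun x _ p _ => by simp, fun ω _ => by simp⟩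
          | mul σ σ' _ _ h1 h2 =>
            obtain ⟨a1, γ, a2, a3⟩ := h1
            obtain ⟨b1, γ', b2, b3⟩ := h2
            refine ⟨fun p hp => by rw [Perm.mul_apply, b1 p hp, a1 p hp], γ * γ',
              Subgroup.mul_mem _ a2 b2, ?_⟩
            rw [map_mul]
            exact a3.mul b3 fun x _ p hp => (strip_mem_of_fix b1 p).2 hp
          | inv σ _ h1 =>
            obtain ⟨a1, γ, a2, a3⟩ := h1
            refine ⟨fun p hp => by rw [Perm.inv_eq_iff_eq, a1 p hp], γ⁻¹,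
              Subgroup.inv_mem _ a2, ?_⟩
            rw [map_inv]
            exact a3.stp_inv_const a1
        obtain ⟨-, γ, a2, a3⟩ := key π hmem
        refine ⟨γ, a2, fun x hx p hp => ?_, a3.2⟩
        rw [a3.1 x hx p hp, hπ2 x hx p hp]
  obtain ⟨γ, a1, a2⟩ := main
  refine ⟨γ, a1, Equiv.ext fun ω => ?_⟩
  obtain ⟨x, hx, p, hp, rfl⟩ := stpBase_cover φ1 φ2 c d ω
  rw [a2.1 x hx p hp, actP_spec hf hg]

/-- Strip lemma: `exists_dec` in direction `χ2`, `Dec.eq_one`, `patch_inj'`, `patch_lift`. -/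
theorem strip_inj (hp : HasPhases S) {a : ℕ} (φ : Phase S χ1 a) (c n : ℤ) :
    G.Inj (ArcR φ c n) := by
  intro γ hγ h1
  have hf := hp.free
  have hQ := ArcR.per φ c n
  obtain ⟨ρ, hρ⟩ := G.exists_dec hf hQ χ2 hγ
  obtain ⟨-, b, hb, ⟨h, hh⟩, ⟨φ2⟩⟩ := hp (4 * ρ)
  rw [← two_mul] at hh
  subst hh
  have h2 : 2 * ρ ≤ h := by omega
  obtain ⟨UL, UR, V0, Vh, hd⟩ := hρ ρ h φ2 le_rfl h2
  obtain ⟨a1, a2, a3, a4⟩ := Dec.along G hQ h2 hd h1
  have hV0 : G.pr V0 ∈ LocP S := G.pr_mem_locP (G.sub_le_all _ hd.2.2.1)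
  have hVh : G.pr Vh ∈ LocP S := G.pr_mem_locP (G.sub_le_all _ hd.2.2.2.1)
  refine Dec.eq_one G hf hQ h2 hd h1 (fun c' n' _ => G.patch_inj' hf φ φ2 c n c' n') ?_ ?_ ?_ ?_
  · exact G.patch_lift hf φ φ2 (hQ.and (ArcR.per _ _ _)) (fun _ _ e => e)
      (res_mem_locP hV0 (Arc.locO _ _ _)) a1
  · exact G.patch_lift hf φ φ2 (hQ.and (ArcR.per _ _ _)) (fun _ _ e => e)
      (res_mem_locP hV0 (Arc.locO _ _ _)) a2
  · exact G.patch_lift hf φ φ2 (hQ.and (ArcR.per _ _ _)) (fun _ _ e => e)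
      (res_mem_locP hVh (Arc.locO _ _ _)) a3
  · exact G.patch_lift hf φ φ2 (hQ.and (ArcR.per _ _ _)) (fun _ _ e => e)
      (res_mem_locP hVh (Arc.locO _ _ _)) a4

end GateSys

end Crest.Agent.R189
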