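import Crest.Agent.R189.Basic

/-!
Row 189.  The hierarchical tile set: line states, crossing rule, the model, level-`r` knowledge.

Every column and every row is a "line" with a rank; columns have ranks `≡ c`, rows ranks `≡ c + 1`
modulo `2`.  A line of rank `a` sits at a position `x` with `sn a ∣ x`, `¬ sn (a+2) ∣ x`.  The active
lines of rank `a` of a cell (`Mn a ≤ idx a x`) store in unary the index `idx (a+1) y`.
-/

set_option autoImplicit false

namespace Crest.Agent.R189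

inductive St3 | done | on | wait
  deriving DecidableEq, Fintype

/-- state of a line on an edge -/
@[ext] structure LS where
  st : St3
  p : ZMod 3
  t : Bool
  cp : ZMod 3
  ct : Bool
  ch : St3
  am : Bool
  ap : Bool
  E : Bool
  bot : Bool
  deriving DecidableEq

instance : Finite LS :=
  Finite.of_injective (fun σ : LS => ((σ.st, σ.p, σ.t, σ.cp, σ.ct), (σ.ch, σ.am, σ.ap, σ.E, σ.bot)))
    (fun σ τ h => by
      simp only [Prod.mk.injEq] at h
      obtain ⟨⟨h1, h2, h3, h4, h5⟩, h6, h7, h8, h9, h10⟩ := h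
      exact LS.ext h1 h2 h3 h4 h5 h6 h7 h8 h9 h10)

/-- a tile: states on the left, right, bottom and top edge -/
@[ext] structure Tile where
  L : LS
  R : LS
  B : LS
  T : LS
  deriving DecidableEq

instance : Finite Tile :=
  Finite.of_injective (fun t : Tile => (t.L, t.R, t.B, t.T))
    (fun σ τ h => by
      simp only [Prod.mk.injEq] at h
      obtain ⟨h1, h2, h3, h4⟩ := h
      exact Tile.ext h1 h2 h3 h4)

def Tile.tp (t : Tile) : Tile := ⟨t.B, t.T, t.L, t.R⟩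

@[simp] lemma Tile.tp_tp (t : Tile) : t.tp.tp = t := rfl

/-- the higher line has rank exactly one more -/
def D1 (l : LS) : Prop := ¬ (l.p = 2 ∧ l.t = true)

/-- crossing of a lower line (`lm` before, `lp` after) with a higher line (`hm`, `hp`) -/
structure Cross (lm lp hm hp : LS) : Prop where
  lcp : lp.cp = lm.cp
  lct : lp.ct = lm.ct
  lam : lp.am = lm.am
  lap : lp.ap = lm.ap
  lbot : lp.bot = lm.bot
  hcp : hp.cp = hm.cp
  hct : hp.ct = hm.ct
  ham : hp.am = hm.am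
  hap : hp.ap = hm.ap
  hbot : hp.bot = hm.bot
  lamap : lm.am = true → lm.ap = true
  hamap : hm.am = true → hm.ap = true
  hst : hp.st = hm.st
  hpp : hp.p = hm.p
  htt : hp.t = hm.t
  hch : hp.ch = hm.ch
  hbot0 : hm.bot = false
  lE : lm.E = !lm.bot
  lE' : lp.E = false
  step : lp.st = St3.done ↔ (lm.st ≠ St3.wait ∧ lm.t = false)
  pstep : lp.p = lm.p + (if lm.t = true then 1 else 0)
  dE : D1 lm → hm.E = lm.am ∧ hp.E = lm.ap
  dact : D1 lm → (hm.am = true ↔ lm.p ≠ 0) ∧ (hm.ap = true ↔ lp.p ≠ 0)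
  dc : D1 lm → lm.cp = hm.p ∧ lm.ct = hm.t
  dch : D1 lm → hm.ap = true → (lm.ch = St3.done ↔ hm.st ≠ St3.wait) ∧ lp.ch = hm.st
  dch' : D1 lm → hm.ap = false → hm.st = St3.wait ∧ lp.ch = lm.ch
  nE : ¬ D1 lm → hp.E = hm.E
  nch : ¬ D1 lm → lm.ch = (if lm.ct = true then St3.on else St3.wait) ∧ lp.ch = St3.done

/-- the column is the lower line -/
def ColLow (t : Tile) : Prop := Cross t.B t.T t.L t.R
/-- the row is the lower line -/
def RowLow (t : Tile) : Prop := Cross t.L t.R t.B t.T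

def Rule (t : Tile) : Prop := ColLow t ∨ RowLow t

lemma rule_tp {t : Tile} : Rule t.tp ↔ Rule t := or_comm
lemma Cross.not_tf {lm lp hm hp : LS} (h : Cross lm lp hm hp) : ¬ (hm.E = true ∧ hp.E = false) := by
  rintro ⟨h1, h2⟩
  by_cases hd : D1 lm
  · obtain ⟨e1, e2⟩ := h.dE hd
    have := h.lamap (e1 ▸ h1)
    rw [← e2, h2] at this
    exact Bool.false_ne_true this
  · rw [h.nE hd, h1] at h2
    exact Bool.false_ne_true h2.symm
lemma not_colLow_and_rowLow {t : Tile} (h : ColLow t) (h' : RowLow t) : False := by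
  refine Cross.not_tf h' ⟨?_, h.lE'⟩
  rw [h.lE, h'.hbot0]
  rfl
lemma Rule.rowLow_of_E {t : Tile} (h : Rule t) (h1 : t.L.E = true) (h2 : t.R.E = false) :
    RowLow t := by
  rcases h with h | h
  · exact absurd ⟨h1, h2⟩ (Cross.not_tf h)
  · exact h

/-! ### arithmetic of the hierarchy -/

def Mn (a : ℕ) : ℕ := 2 ^ a
def Zn (a : ℕ) : ℕ := 3 * 2 ^ a
def sn : ℕ → ℕ
  | 0 => 1
  | 1 => 1
  | a + 2 => Zn a * sn a

def idx (a : ℕ) (x : ℤ) : ℤ := (x / sn a) % Zn a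

/-- exact rank -/
def Ex (a : ℕ) (x : ℤ) : Prop := (sn a : ℤ) ∣ x ∧ ¬ (sn (a + 2) : ℤ) ∣ x

/-- the least rank `≥ r` of parity `c` -/
def hl (r c : ℕ) : ℕ := if r % 2 = c % 2 then r else r + 1

lemma Mn_pos (a : ℕ) : 0 < Mn a := by
  unfold Mn
  positivity
lemma Mn_succ (a : ℕ) : Mn (a + 1) = 2 * Mn a := by
  unfold Mn
  ring
lemma Zn_eq (a : ℕ) : Zn a = 3 * Mn a := rfl
private lemma tile_Zn_pos (a : ℕ) : 0 < Zn a := by
  unfold Zn
  positivity
private lemma tile_Zn_succ (a : ℕ) : Zn (a + 1) = 2 * Zn a := by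
  unfold Zn
  ring
lemma sn_pos (a : ℕ) : 0 < sn a := by
  induction a using Nat.twoStepInduction with
  | zero => exact Nat.one_pos
  | one => exact Nat.one_pos
  | more a ih _ => exact Nat.mul_pos (tile_Zn_pos a) ih
lemma sn_add_two (a : ℕ) : sn (a + 2) = Zn a * sn a := rfl
lemma sn_dvd {a b : ℕ} (h : a ≤ b) (hp : a % 2 = b % 2) : sn a ∣ sn b := by
  obtain ⟨k, rfl⟩ : ∃ k, b = a + 2 * k := ⟨(b - a) / 2, by omega⟩
  clear h hp
  induction k with
  | zero => exact dvd_rfl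
  | succ k ih =>
    rw [show a + 2 * (k + 1) = a + 2 * k + 2 by ring, sn_add_two]
    exact ih.mul_left _
lemma sn_mono {a b : ℕ} (h : a ≤ b) : sn a ≤ sn b := by
  refine monotone_nat_of_le_succ (f := sn) (fun a => ?_) h
  induction a using Nat.twoStepInduction with
  | zero => exact le_rfl
  | one => decide
  | more a ih _ =>
    rw [show a + 2 + 1 = a + 1 + 2 by ring, sn_add_two, sn_add_two, tile_Zn_succ]
    exact Nat.mul_le_mul (by omega) ih
lemma le_sn (a : ℕ) : a ≤ sn a := by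
  match a with
  | 0 => exact Nat.zero_le _
  | 1 => exact le_rfl
  | a + 2 =>
    rw [sn_add_two]
    have h1 := sn_pos a
    have h2 : a < 2 ^ a := Nat.lt_two_pow_self
    have h3 : Zn a ≤ Zn a * sn a := Nat.le_mul_of_pos_right _ h1
    unfold Zn at h3 ⊢
    omega
lemma even_sn {a : ℕ} (h : 3 ≤ a) : Even (sn a) := by
  obtain ⟨b, rfl⟩ : ∃ b, a = b + 1 + 2 := ⟨a - 3, by omega⟩
  rw [sn_add_two, tile_Zn_succ, mul_assoc]
  exact even_two_mul _
/-- the ratios `sn (a+1) / sn a` tend to infinity -/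
lemma sn_ratio (n : ℕ) : ∃ a₀, ∀ a, a₀ ≤ a → n * sn a ≤ sn (a + 1) := by
  have key : ∀ k a, 2 * k ≤ a → 2 ^ k * sn a ≤ sn (a + 1) := by
    intro k
    induction k with
    | zero =>
      intro a _
      rw [pow_zero, one_mul]
      exact sn_mono (Nat.le_succ a)
    | succ k ih =>
      intro a ha
      obtain ⟨b, rfl⟩ : ∃ b, a = b + 2 := ⟨a - 2, by omega⟩
      rw [show b + 2 + 1 = b + 1 + 2 by ring, sn_add_two, sn_add_two, tile_Zn_succ]
      calc 2 ^ (k + 1) * (Zn b * sn b) = 2 * Zn b * (2 ^ k * sn b) := by ring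
        _ ≤ 2 * Zn b * sn (b + 1) := Nat.mul_le_mul_left _ (ih b (by omega))
  exact ⟨2 * n, fun a ha =>
    le_trans (Nat.mul_le_mul_right _ (Nat.lt_two_pow_self (n := n)).le) (key n a ha)⟩
lemma hl_ge (r c : ℕ) : r ≤ hl r c := by
  unfold hl
  split_ifs <;> omega
lemma hl_le (r c : ℕ) : hl r c ≤ r + 1 := by
  unfold hl
  split_ifs <;> omega
lemma hl_par (r c : ℕ) : hl r c % 2 = c % 2 := by
  unfold hl
  split_ifs <;> omega
lemma hl_congr (r : ℕ) {c c' : ℕ} (h : c % 2 = c' % 2) : hl r c = hl r c' := by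
  unfold hl
  rw [h]
lemma hl_mono {r r' : ℕ} (h : r ≤ r') (c : ℕ) : hl r c ≤ hl r' c := by
  unfold hl
  split_ifs <;> omega
lemma hl_le_of {r c a : ℕ} (h : r ≤ a) (hp : a % 2 = c % 2) : hl r c ≤ a := by
  unfold hl
  split_ifs <;> omega
private lemma tile_sn_dvd {a b : ℕ} (h : a ≤ b) (hp : a % 2 = b % 2) : (sn a : ℤ) ∣ sn b :=
  Int.natCast_dvd_natCast.2 (sn_dvd h hp)
private lemma tile_dvd_iff {a b : ℕ} {x : ℤ} (ha : Ex a x) (hp : a % 2 = b % 2) :
    (sn b : ℤ) ∣ x ↔ b ≤ a := by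
  constructor
  · intro h
    by_contra h'
    exact ha.2 ((tile_sn_dvd (by omega) (by omega)).trans h)
  · intro h
    exact (tile_sn_dvd h hp.symm).trans ha.1
lemma Ex.unique {a b : ℕ} {x : ℤ} (ha : Ex a x) (hb : Ex b x) (hp : a % 2 = b % 2) : a = b := by
  have h1 := (tile_dvd_iff ha hp).1 hb.1
  have h2 := (tile_dvd_iff hb hp.symm).1 ha.1
  omega
lemma Ex.dvd_iff {a b : ℕ} {x : ℤ} (ha : Ex a x) (hp : a % 2 = b % 2) :
    (sn b : ℤ) ∣ x ↔ b ≤ a := by
  exact tile_dvd_iff ha hp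
lemma ex_iff_idx {a : ℕ} {x : ℤ} : Ex a x ↔ (sn a : ℤ) ∣ x ∧ idx a x ≠ 0 := by
  refine and_congr_right ?_
  rintro ⟨k, rfl⟩
  have hs : (sn a : ℤ) ≠ 0 := by exact_mod_cast (sn_pos a).ne'
  rw [idx, Int.mul_ediv_cancel_left _ hs, sn_add_two, Nat.cast_mul, mul_comm (Zn a : ℤ),
    mul_dvd_mul_iff_left hs, Ne, Int.dvd_iff_emod_eq_zero]
private lemma tile_high (b : ℕ) (x : ℤ) :
    (sn b : ℤ) ∣ x ∨ ∃ a, a % 2 = b % 2 ∧ a + 2 ≤ b ∧ Ex a x := by
  induction b using Nat.twoStepInduction with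
  | zero => exact Or.inl (one_dvd x)
  | one => exact Or.inl (one_dvd x)
  | more b ih _ =>
    by_cases h : (sn (b + 2) : ℤ) ∣ x
    · exact Or.inl h
    · rcases ih with h' | ⟨a, h1, h2, h3⟩
      · exact Or.inr ⟨b, by omega, le_rfl, h', h⟩
      · exact Or.inr ⟨a, by omega, by omega, h3⟩
lemma high_or_ex (r c : ℕ) (x : ℤ) :
    (sn (hl r c) : ℤ) ∣ x ∨ ∃ a, a % 2 = c % 2 ∧ a < r ∧ Ex a x := by
  rcases tile_high (hl r c) x with h | ⟨a, h1, h2, h3⟩
  · exact Or.inl h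
  · have := hl_le r c
    exact Or.inr ⟨a, h1.trans (hl_par r c), by omega, h3⟩
lemma exists_ex (c : ℕ) {x : ℤ} (hx : x ≠ 0) : ∃ a, a % 2 = c % 2 ∧ Ex a x := by
  rcases high_or_ex (x.natAbs + 1) c x with h | ⟨a, h1, _, h3⟩
  · have h1 := Nat.le_of_dvd (Int.natAbs_pos.2 hx) (Int.natCast_dvd.1 h)
    have h2 := le_sn (hl (x.natAbs + 1) c)
    have h3 := hl_ge (x.natAbs + 1) c
    omega
  · exact ⟨a, h1, h3⟩
lemma Ex.add_mul {a b : ℕ} {x : ℤ} (h : Ex a x) (hb : a + 2 ≤ b) (hp : a % 2 = b % 2) (k : ℤ) :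
    Ex a (x + k * sn b) := by
  refine ⟨h.1.add ((tile_sn_dvd (by omega) hp).mul_left k), fun h' => h.2 ?_⟩
  exact (dvd_add_left ((tile_sn_dvd hb (by omega)).mul_left k)).1 h'
lemma idx_nonneg (a : ℕ) (x : ℤ) : 0 ≤ idx a x := by
  exact Int.emod_nonneg _ (by exact_mod_cast (tile_Zn_pos a).ne')
lemma idx_lt (a : ℕ) (x : ℤ) : idx a x < Zn a := by
  exact Int.emod_lt_of_pos _ (by exact_mod_cast tile_Zn_pos a)
lemma idx_add_mul {a b : ℕ} (hb : a + 2 ≤ b) (hp : a % 2 = b % 2) (x k : ℤ) :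
    idx a (x + k * sn b) = idx a x := by
  obtain ⟨m, hm⟩ := tile_sn_dvd hb (by omega)
  have hs : (sn a : ℤ) ≠ 0 := by exact_mod_cast (sn_pos a).ne'
  rw [hm, sn_add_two, Nat.cast_mul,
    show k * ((Zn a : ℤ) * sn a * m) = (k * m * Zn a) * sn a by ring, idx,
    Int.add_mul_ediv_right _ _ hs, Int.add_mul_emod_self_right, idx]
private lemma tile_div {s : ℤ} (β u : ℤ) (h0 : 0 ≤ u) (h1 : u < s) : (β * s + u) / s = β := by
  rw [add_comm, Int.add_mul_ediv_right _ _ (by omega), Int.ediv_eq_zero_of_lt h0 h1, zero_add]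
private lemma tile_mod {s : ℤ} (β u : ℤ) (h0 : 0 ≤ u) (h1 : u < s) : (β * s + u) % s = u := by
  rw [add_comm, Int.add_mul_emod_self_right, Int.emod_eq_of_lt h0 h1]
private lemma tile_pred {s : ℤ} (hs : 0 < s) (k : ℤ) : (s * k - 1) / s = k - 1 := by
  rw [show s * k - 1 = (k - 1) * s + (s - 1) by ring, tile_div _ _ (by omega) (by omega)]
lemma idx_pred_of_not_dvd {a : ℕ} {x : ℤ} (h : ¬ (sn a : ℤ) ∣ x) : idx a (x - 1) = idx a x := by
  have hs : (0 : ℤ) < sn a := by exact_mod_cast sn_pos a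
  have h1 := Int.emod_nonneg x hs.ne'
  have h2 := Int.emod_lt_of_pos x hs
  have h3 : x % sn a ≠ 0 := fun e => h (Int.dvd_of_emod_eq_zero e)
  have h4 : x - 1 = x / sn a * sn a + (x % sn a - 1) := by
    have := Int.ediv_mul_add_emod x (sn a)
    linarith
  rw [idx, idx, h4, tile_div _ _ (by omega) (by omega)]
lemma idx_pred_of_ex {a : ℕ} {x : ℤ} (h : Ex a x) : idx a (x - 1) = idx a x - 1 := by
  obtain ⟨⟨k, rfl⟩, h2⟩ := ex_iff_idx.1 h
  have hs : (0 : ℤ) < sn a := by exact_mod_cast sn_pos a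
  have h3 := idx_nonneg a (sn a * k)
  have h4 := idx_lt a (sn a * k)
  rw [idx, Int.mul_ediv_cancel_left _ hs.ne'] at h2 h3 h4
  rw [idx, idx, tile_pred hs, Int.mul_ediv_cancel_left _ hs.ne']
  have h5 : k - 1 = k / Zn a * Zn a + (k % Zn a - 1) := by
    have := Int.ediv_mul_add_emod k (Zn a)
    linarith
  rw [h5, tile_mod _ _ (by omega) (by omega)]
lemma idx_pred_of_high {a : ℕ} {x : ℤ} (h : (sn (a + 2) : ℤ) ∣ x) :
    idx a (x - 1) = Zn a - 1 ∧ idx a x = 0 := by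
  obtain ⟨m, rfl⟩ := h
  have hs : (0 : ℤ) < sn a := by exact_mod_cast sn_pos a
  have hZ : (0 : ℤ) < Zn a := by exact_mod_cast tile_Zn_pos a
  rw [sn_add_two, Nat.cast_mul, show (Zn a : ℤ) * sn a * m = sn a * (Zn a * m) by ring, idx, idx,
    tile_pred hs, Int.mul_ediv_cancel_left _ hs.ne', Int.mul_emod_right,
    show (Zn a : ℤ) * m - 1 = (m - 1) * Zn a + (Zn a - 1) by ring,
    tile_mod _ _ (by omega) (by omega)]
  exact ⟨rfl, rfl⟩
lemma idx_mul_add (a : ℕ) (β u : ℤ) (h0 : 0 ≤ u) (h1 : u < sn a) :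
    idx a (β * sn a + u) = β % Zn a := by
  rw [idx, tile_div _ _ h0 h1]

/-! ### the model -/

def cmp3 (u i : ℤ) : St3 := if u < i then St3.done else if u = i then St3.on else St3.wait

/-- the state of the line of rank `a` at position `x` on the edge after the perpendicular
coordinate `y` -/
def line (a : ℕ) (x y : ℤ) : LS where
  st := if (Mn a : ℤ) ≤ idx a x then cmp3 (idx a x - Mn a) (idx (a + 1) y % Mn (a + 1)) else St3.wait
  p := ((idx (a + 1) y / Mn (a + 1) : ℤ) : ZMod 3)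
  t := decide (idx (a + 1) y % Mn (a + 1) = Mn (a + 1) - 1)
  cp := ((idx (a + 2) x / Mn (a + 2) : ℤ) : ZMod 3)
  ct := decide (idx (a + 2) x % Mn (a + 2) = Mn (a + 2) - 1)
  ch := if (Mn (a + 1) : ℤ) ≤ idx (a + 1) y then
      cmp3 (idx (a + 1) y - Mn (a + 1)) (idx (a + 2) x % Mn (a + 2)) else St3.done
  am := decide ((Mn a : ℤ) ≤ idx a x - 1)
  ap := decide ((Mn a : ℤ) ≤ idx a x)
  E := decide (1 ≤ a ∧ (Mn (a - 1) : ℤ) ≤ idx (a - 1) y)
  bot := decide (a = 0)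

/-- what is known about a line of exact rank `a < r` at level `r` -/
structure LineOK (r a : ℕ) (x y : ℤ) (σ : LS) : Prop where
  am : σ.am = (line a x y).am
  ap : σ.ap = (line a x y).ap
  E : σ.E = (line a x y).E
  bot : σ.bot = (line a x y).bot
  spt : a + 2 ≤ r → σ.st = (line a x y).st ∧ σ.p = (line a x y).p ∧ σ.t = (line a x y).t
  cch : a + 3 ≤ r → σ.cp = (line a x y).cp ∧ σ.ct = (line a x y).ct ∧ σ.ch = (line a x y).ch

lemma LineOK.eq {r a : ℕ} {x y : ℤ} {σ : LS} (h : LineOK r a x y σ) (ha : a + 3 ≤ r) :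
    σ = line a x y := by
  obtain ⟨h1, h2, h3⟩ := h.spt (by omega)
  obtain ⟨h4, h5, h6⟩ := h.cch ha
  exact LS.ext h1 h2 h3 h4 h5 h6 h.am h.ap h.E h.bot

/-- level-`r` knowledge about the column through `(X, Y)` -/
def Half (r c : ℕ) (X Y : ℤ) (t : Tile) : Prop :=
  ∀ a, a % 2 = c % 2 → a < r → Ex a X →
    LineOK r a X (Y - 1) t.B ∧ LineOK r a X Y t.T ∧ ((sn (a + 1) : ℤ) ∣ Y → ColLow t)

/-- level-`r` knowledge about the tile at `(X, Y)`; columns have parity `c` -/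
def AgreeT (r c : ℕ) (X Y : ℤ) (t : Tile) : Prop :=
  Rule t ∧ Half r c X Y t ∧ Half r (c + 1) Y X t.tp

private lemma tile_half_congr {r c c' : ℕ} {X Y : ℤ} {t : Tile} (h : Half r c X Y t)
    (hc : c % 2 = c' % 2) : Half r c' X Y t := fun a ha => h a (ha.trans hc.symm)
private lemma tile_lineOK_mono {r r' a : ℕ} {x y : ℤ} {σ : LS} (h : LineOK r' a x y σ)
    (hr : r ≤ r') : LineOK r a x y σ :=
  ⟨h.am, h.ap, h.E, h.bot, fun h' => h.spt (h'.trans hr), fun h' => h.cch (h'.trans hr)⟩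
private lemma tile_half_mono {r r' c : ℕ} {X Y : ℤ} {t : Tile} (h : Half r' c X Y t)
    (hr : r ≤ r') : Half r c X Y t := fun a ha h1 h2 =>
  ⟨tile_lineOK_mono (h a ha (by omega) h2).1 hr, tile_lineOK_mono (h a ha (by omega) h2).2.1 hr,
    (h a ha (by omega) h2).2.2⟩
private lemma tile_idx_congr {a b : ℕ} (hb : a + 2 ≤ b) (hp : a % 2 = b % 2) {x x' : ℤ}
    (h : (sn b : ℤ) ∣ x' - x) : idx a x' = idx a x := by
  obtain ⟨k, hk⟩ := h
  rw [show x' = x + k * sn b by linarith, idx_add_mul hb hp]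
private lemma tile_lineOK_per {r c a : ℕ} {x y x' y' : ℤ} {σ : LS} (h : LineOK r a x y σ)
    (hac : a % 2 = c % 2) (har : a < r) (hX : (sn (hl r c) : ℤ) ∣ x' - x)
    (hY : (sn (hl r (c + 1)) : ℤ) ∣ y' - y) : LineOK r a x' y' σ := by
  have p1 := hl_ge r c
  have p2 := hl_par r c
  have p3 := hl_ge r (c + 1)
  have p4 := hl_par r (c + 1)
  have e1 : idx a x' = idx a x := tile_idx_congr (by omega) (by omega) hX
  refine ⟨?_, ?_, ?_, h.bot, fun h' => ?_, fun h' => ?_⟩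
  · rw [h.am]
    simp only [line, e1]
  · rw [h.ap]
    simp only [line, e1]
  · rw [h.E]
    rcases Nat.eq_zero_or_pos a with rfl | ha
    · simp [line]
    · have e2 : idx (a - 1) y' = idx (a - 1) y := tile_idx_congr (by omega) (by omega) hY
      simp only [line, e2]
  · have e2 : idx (a + 1) y' = idx (a + 1) y := tile_idx_congr (by omega) (by omega) hY
    have := h.spt h'
    simpa only [line, e1, e2] using this
  · have e2 : idx (a + 1) y' = idx (a + 1) y := tile_idx_congr (by omega) (by omega) hY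
    have e3 : idx (a + 2) x' = idx (a + 2) x := tile_idx_congr (by omega) (by omega) hX
    have := h.cch h'
    simpa only [line, e2, e3] using this
private lemma tile_half_per {r c : ℕ} {X Y X' Y' : ℤ} {t : Tile} (h : Half r c X Y t)
    (hX : (sn (hl r c) : ℤ) ∣ X' - X) (hY : (sn (hl r (c + 1)) : ℤ) ∣ Y' - Y) :
    Half r c X' Y' t := by
  intro a ha har hex
  have p1 := hl_ge r c
  have p2 := hl_par r c
  have p3 := hl_ge r (c + 1)
  have p4 := hl_par r (c + 1)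
  have hex' : Ex a X := by
    obtain ⟨k, hk⟩ := hX
    have := hex.add_mul (b := hl r c) (by omega) (by omega) (-k)
    rwa [show X' + -k * sn (hl r c) = X by linarith] at this
  obtain ⟨h1, h2, h3⟩ := h a ha har hex'
  refine ⟨tile_lineOK_per h1 ha har hX (by rwa [sub_sub_sub_cancel_right]),
    tile_lineOK_per h2 ha har hX hY, fun h4 => h3 ?_⟩
  have h5 : (sn (a + 1) : ℤ) ∣ Y' - Y := (tile_sn_dvd (by omega) (by omega)).trans hY
  have := h4.sub h5
  rwa [sub_sub_cancel] at this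
lemma AgreeT.tp {r c : ℕ} {X Y : ℤ} {t : Tile} (h : AgreeT r c X Y t) :
    AgreeT r (c + 1) Y X t.tp := by
  exact ⟨rule_tp.2 h.1, h.2.2, tile_half_congr h.2.1 (by omega)⟩
lemma AgreeT.congr {r c c' : ℕ} {X Y : ℤ} {t : Tile} (h : AgreeT r c X Y t) (hc : c % 2 = c' % 2) :
    AgreeT r c' X Y t := by
  exact ⟨h.1, tile_half_congr h.2.1 hc, tile_half_congr h.2.2 (by omega)⟩
lemma AgreeT.mono {r r' c : ℕ} {X Y : ℤ} {t : Tile} (h : AgreeT r' c X Y t) (hr : r ≤ r') :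
    AgreeT r c X Y t := by
  exact ⟨h.1, tile_half_mono h.2.1 hr, tile_half_mono h.2.2 hr⟩
lemma AgreeT.periodic {r c : ℕ} {X Y X' Y' : ℤ} {t : Tile} (h : AgreeT r c X Y t)
    (hX : (sn (hl r c) : ℤ) ∣ X' - X) (hY : (sn (hl r (c + 1)) : ℤ) ∣ Y' - Y) :
    AgreeT r c X' Y' t := by
  refine ⟨h.1, tile_half_per h.2.1 hX hY, tile_half_per h.2.2 hY ?_⟩
  rwa [hl_congr r (c := c + 1 + 1) (c' := c) (by omega)]
/-- a known line two levels below meets the high lines with `¬ D1` -/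
lemma LineOK.not_d1 {r a : ℕ} {x y : ℤ} {σ : LS} (h : LineOK r a x (y - 1) σ) (ha : a + 2 ≤ r)
    (hy : (sn (a + 3) : ℤ) ∣ y) : ¬ D1 σ := by
  obtain ⟨_, h2, h3⟩ := h.spt ha
  have hM : (0 : ℤ) < Mn (a + 1) := by exact_mod_cast Mn_pos (a + 1)
  have e : idx (a + 1) (y - 1) = 2 * Mn (a + 1) + (Mn (a + 1) - 1) := by
    rw [(idx_pred_of_high (a := a + 1) hy).1, Zn_eq]
    push_cast
    ring
  refine fun hd => hd ⟨?_, ?_⟩
  · rw [h2]
    simp only [line]
    rw [e, tile_div _ _ (by omega) (by omega)]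
    rfl
  · rw [h3]
    simp only [line]
    rw [e, tile_mod _ _ (by omega) (by omega)]
    simp
lemma LineOK.d1 {r a : ℕ} {x y : ℤ} {σ : LS} (h : LineOK r a x (y - 1) σ) (ha : a + 2 ≤ r)
    (hy1 : (sn (a + 1) : ℤ) ∣ y) (hy : ¬ (sn (a + 3) : ℤ) ∣ y) : D1 σ := by
  obtain ⟨_, h2, h3⟩ := h.spt ha
  have hM : (0 : ℤ) < Mn (a + 1) := by exact_mod_cast Mn_pos (a + 1)
  have hex : Ex (a + 1) y := ⟨hy1, hy⟩
  have e1 := idx_pred_of_ex hex
  have e2 := idx_lt (a + 1) y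
  have e3 := idx_nonneg (a + 1) (y - 1)
  rw [Zn_eq] at e2
  push_cast at e2
  rintro ⟨h4, h5⟩
  rw [h2] at h4
  rw [h3] at h5
  simp only [line, decide_eq_true_eq] at h4 h5
  have e4 := Int.ediv_mul_add_emod (idx (a + 1) (y - 1)) (Mn (a + 1))
  have e5 : 0 ≤ idx (a + 1) (y - 1) / Mn (a + 1) := Int.ediv_nonneg e3 hM.le
  have e6 : idx (a + 1) (y - 1) / Mn (a + 1) < 2 := by
    by_contra h6
    have h7 := mul_le_mul_of_nonneg_right (not_lt.1 h6) hM.le
    omega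
  generalize idx (a + 1) (y - 1) / Mn (a + 1) = q at h4 e5 e6
  have : q = 0 ∨ q = 1 := by omega
  rcases this with rfl | rfl <;> exact absurd h4 (by decide)

end Crest.Agent.R189
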